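import Mathlib
import Crest.Prelude.Def_PolyominoGame

/-!
# S0047 helper: game semantics for the Maker–Breaker Snaky game

`Wins d M B`: Maker to move, Maker owns the cells `M`, Breaker owns the cells `B`; Maker can own a
copy of Snaky after at most `d` further claims, whatever Breaker replies.

Main result: `exists_policy_of_wins`: `Wins (n+1) ∅ ∅` gives a policy `σ` as in the statement of
S0047 (with `n = 20`).
-/

set_option autoImplicit false

namespace Crest.Agent.LibS0047

open Crest.CombinatoricsR.PolyominoGame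

/-- Maker (to move) wins within `d` further claims from the position `(M, B)`. -/
def Wins : ℕ → Finset (ℤ × ℤ) → Finset (ℤ × ℤ) → Prop
  | 0, M, _ => ContainsCopy (↑M : Set (ℤ × ℤ))
  | d + 1, M, B => ContainsCopy (↑M : Set (ℤ × ℤ)) ∨
      ∃ m, m ∉ M ∧ m ∉ B ∧
        ∀ c, c ∉ M → c ∉ B → c ≠ m → Wins d (insert m M) (insert c B)

theorem containsCopy_mono {X Y : Set (ℤ × ℤ)} (h : X ⊆ Y) (hX : ContainsCopy X) :
    ContainsCopy Y := by
  obtain ⟨t, e1, e2, h1, h2, h3⟩ := hX
  refine ⟨t, e1, e2, h1, h2, ?_⟩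
  rcases h3 with h3 | h3
  · exact Or.inl fun p hp => h (h3 p hp)
  · exact Or.inr fun p hp => h (h3 p hp)

theorem wins_zero {M B : Finset (ℤ × ℤ)} :
    Wins 0 M B ↔ ContainsCopy (↑M : Set (ℤ × ℤ)) := Iff.rfl

theorem wins_succ {d : ℕ} {M B : Finset (ℤ × ℤ)} :
    Wins (d + 1) M B ↔ (ContainsCopy (↑M : Set (ℤ × ℤ)) ∨
      ∃ m, m ∉ M ∧ m ∉ B ∧
        ∀ c, c ∉ M → c ∉ B → c ≠ m → Wins d (insert m M) (insert c B)) := Iff.rfl

theorem wins_of_copy {d : ℕ} {M B : Finset (ℤ × ℤ)}
    (h : ContainsCopy (↑M : Set (ℤ × ℤ))) : Wins d M B := by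
  cases d with
  | zero => exact h
  | succ d => exact Or.inl h

/-- A cell outside a given finite set. -/
noncomputable def fresh (S : Finset (ℤ × ℤ)) : ℤ × ℤ :=
  (Infinite.exists_notMem_finset S).choose

theorem fresh_notMem (S : Finset (ℤ × ℤ)) : fresh S ∉ S :=
  (Infinite.exists_notMem_finset S).choose_spec

/-- `m` is a winning claim for Maker at `(M, B)` with `d` claims left afterwards. -/
def Good (d : ℕ) (M B : Finset (ℤ × ℤ)) (m : ℤ × ℤ) : Prop :=
  m ∉ M ∧ m ∉ B ∧ ∀ c, c ∉ M → c ∉ B → c ≠ m → Wins d (insert m M) (insert c B)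

/-- more claims never hurt -/
theorem wins_mono_depth {d : ℕ} : ∀ {M B : Finset (ℤ × ℤ)}, Wins d M B → Wins (d + 1) M B := by
  induction d with
  | zero => intro M B h; exact Or.inl h
  | succ d ih =>
    intro M B h
    rcases h with h | ⟨m, h1, h2, h3⟩
    · exact Or.inl h
    · exact Or.inr ⟨m, h1, h2, fun c c1 c2 c3 => ih (h3 c c1 c2 c3)⟩

theorem wins_mono_le {d e : ℕ} (hde : d ≤ e) {M B : Finset (ℤ × ℤ)} (h : Wins d M B) :
    Wins e M B := by
  induction hde with
  | refl => exact h
  | step _ ih => exact wins_mono_depth ih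

open Classical in
/-- Maker's claim at `(M, B)` with `d` claims left (this one included): a winning claim if there
is one, otherwise any free cell. -/
noncomputable def pick (d : ℕ) (M B : Finset (ℤ × ℤ)) : ℤ × ℤ :=
  if h : ∃ m, Good (d - 1) M B m then h.choose else fresh (M ∪ B)

theorem pick_notMem (d : ℕ) (M B : Finset (ℤ × ℤ)) : pick d M B ∉ M ∧ pick d M B ∉ B := by
  classical
  unfold pick
  split_ifs with h
  · exact ⟨h.choose_spec.1, h.choose_spec.2.1⟩
  · have := fresh_notMem (M ∪ B)
    simp only [Finset.mem_union, not_or] at this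
    exact this

theorem pick_good {d : ℕ} {M B : Finset (ℤ × ℤ)} (h : ∃ m, Good (d - 1) M B m) :
    Good (d - 1) M B (pick d M B) := by
  classical
  unfold pick
  rw [dif_pos h]
  exact h.choose_spec

/-- one round: Maker claims `pick`, Breaker replies `c`. -/
noncomputable def step (s : ℕ × Finset (ℤ × ℤ) × Finset (ℤ × ℤ)) (c : ℤ × ℤ) :
    ℕ × Finset (ℤ × ℤ) × Finset (ℤ × ℤ) :=
  (s.1 - 1, insert (pick s.1 s.2.1 s.2.2) s.2.1, insert c s.2.2)

/-- the position after the replies `l`, starting with `N` claims for Maker. -/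
noncomputable def stateOf (N : ℕ) (l : List (ℤ × ℤ)) : ℕ × Finset (ℤ × ℤ) × Finset (ℤ × ℤ) :=
  l.foldl step (N, ∅, ∅)

/-- the policy -/
noncomputable def policy (N : ℕ) (l : List (ℤ × ℤ)) : ℤ × ℤ :=
  pick (stateOf N l).1 (stateOf N l).2.1 (stateOf N l).2.2

theorem stateOf_succ (N : ℕ) (b : ℕ → ℤ × ℤ) (k : ℕ) :
    stateOf N ((List.range (k + 1)).map b) = step (stateOf N ((List.range k).map b)) (b k) := by
  unfold stateOf
  rw [List.range_succ, List.map_append, List.foldl_append]
  rfl

theorem makerClaim_policy (N : ℕ) (b : ℕ → ℤ × ℤ) (k : ℕ) :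
    makerClaim (policy N) b k =
      pick (stateOf N ((List.range k).map b)).1 (stateOf N ((List.range k).map b)).2.1
        (stateOf N ((List.range k).map b)).2.2 := rfl

theorem stateOf_fst (N : ℕ) (b : ℕ → ℤ × ℤ) (k : ℕ) :
    (stateOf N ((List.range k).map b)).1 = N - k := by
  induction k with
  | zero => rfl
  | succ k ih =>
    rw [stateOf_succ]
    simp only [step, ih]
    omega

theorem mem_stateOf_maker (N : ℕ) (b : ℕ → ℤ × ℤ) (k : ℕ) (x : ℤ × ℤ) :
    x ∈ (stateOf N ((List.range k).map b)).2.1 ↔ ∃ j, j < k ∧ x = makerClaim (policy N) b j := by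
  induction k with
  | zero => simp [stateOf]
  | succ k ih =>
    rw [stateOf_succ]
    simp only [step, Finset.mem_insert, ih]
    constructor
    · rintro (h | ⟨j, hj, h⟩)
      · exact ⟨k, Nat.lt_succ_self k, h⟩
      · exact ⟨j, Nat.lt_succ_of_lt hj, h⟩
    · rintro ⟨j, hj, h⟩
      rcases Nat.lt_succ_iff_lt_or_eq.1 hj with hj | rfl
      · exact Or.inr ⟨j, hj, h⟩
      · exact Or.inl h

theorem mem_stateOf_breaker (N : ℕ) (b : ℕ → ℤ × ℤ) (k : ℕ) (x : ℤ × ℤ) :
    x ∈ (stateOf N ((List.range k).map b)).2.2 ↔ ∃ j, j < k ∧ x = b j := by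
  induction k with
  | zero => simp [stateOf]
  | succ k ih =>
    rw [stateOf_succ]
    simp only [step, Finset.mem_insert, ih]
    constructor
    · rintro (h | ⟨j, hj, h⟩)
      · exact ⟨k, Nat.lt_succ_self k, h⟩
      · exact ⟨j, Nat.lt_succ_of_lt hj, h⟩
    · rintro ⟨j, hj, h⟩
      rcases Nat.lt_succ_iff_lt_or_eq.1 hj with hj | rfl
      · exact Or.inr ⟨j, hj, h⟩
      · exact Or.inl h

/-- **Reduction**: if Maker wins the semantic game within `n + 1` claims from the empty board,
there is a policy as in the statement of S0047 (there `n = 20`). -/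
theorem exists_policy_of_wins (n : ℕ) (hw : Wins (n + 1) ∅ ∅) :
    ∃ σ : List (ℤ × ℤ) → ℤ × ℤ, ∀ b : ℕ → ℤ × ℤ,
      (∀ k : ℕ, k < n →
        (∀ j : ℕ, j ≤ k → b k ≠ makerClaim σ b j) ∧
        (∀ j : ℕ, j < k → b k ≠ b j)) →
      (∀ k : ℕ, k ≤ n →
        (∀ j : ℕ, j < k → makerClaim σ b k ≠ makerClaim σ b j) ∧
        (∀ j : ℕ, j < k → makerClaim σ b k ≠ b j)) ∧
      ContainsCopy {c | ∃ j : ℕ, j ≤ n ∧ c = makerClaim σ b j} := by
  refine ⟨policy (n + 1), fun b hb => ?_⟩
  -- abbreviations
  have hM := mem_stateOf_maker (n + 1) b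
  have hB := mem_stateOf_breaker (n + 1) b
  have hN := stateOf_fst (n + 1) b
  have hC := makerClaim_policy (n + 1) b
  -- Maker's claims are legal
  have legal : ∀ k : ℕ,
      (∀ j : ℕ, j < k → makerClaim (policy (n + 1)) b k ≠ makerClaim (policy (n + 1)) b j) ∧
      (∀ j : ℕ, j < k → makerClaim (policy (n + 1)) b k ≠ b j) := by
    intro k
    have hp := pick_notMem (stateOf (n + 1) ((List.range k).map b)).1
      (stateOf (n + 1) ((List.range k).map b)).2.1 (stateOf (n + 1) ((List.range k).map b)).2.2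
    rw [← hC k] at hp
    refine ⟨fun j hj heq => hp.1 ((hM k _).2 ⟨j, hj, heq⟩),
      fun j hj heq => hp.2 ((hB k _).2 ⟨j, hj, heq⟩)⟩
  -- the invariant
  have inv : ∀ k : ℕ, k ≤ n →
      Wins (n + 1 - k) (stateOf (n + 1) ((List.range k).map b)).2.1
        (stateOf (n + 1) ((List.range k).map b)).2.2 := by
    intro k
    induction k with
    | zero => intro _; exact hw
    | succ k ih =>
      intro hk
      have hk' : k < n := hk
      have ih' := ih (Nat.le_of_lt hk')
      have e1 : n + 1 - k = (n - k) + 1 := by omega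
      have e2 : n + 1 - (k + 1) = n - k := by omega
      rw [e1] at ih'
      rw [e2, stateOf_succ]
      simp only [step]
      rcases ih' with hcopy | hex
      · apply wins_of_copy
        refine containsCopy_mono ?_ hcopy
        intro x hx
        exact Finset.mem_coe.2 (Finset.mem_insert_of_mem (Finset.mem_coe.1 hx))
      · have hg : ∃ m, Good ((stateOf (n + 1) ((List.range k).map b)).1 - 1)
            (stateOf (n + 1) ((List.range k).map b)).2.1
            (stateOf (n + 1) ((List.range k).map b)).2.2 m := by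
          rw [hN k]
          have e3 : n + 1 - k - 1 = n - k := by omega
          rw [e3]
          exact hex
        have hgood := pick_good hg
        rw [hN k] at hgood
        have e3 : n + 1 - k - 1 = n - k := by omega
        rw [e3] at hgood
        rw [hN k]
        have hbk := hb k hk'
        refine hgood.2.2 (b k) ?_ ?_ ?_
        · intro hmem
          obtain ⟨j, hj, heq⟩ := (hM k _).1 hmem
          exact hbk.1 j (Nat.le_of_lt hj) heq
        · intro hmem
          obtain ⟨j, hj, heq⟩ := (hB k _).1 hmem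
          exact hbk.2 j hj heq
        · intro heq
          apply hbk.1 k (Nat.le_refl k)
          rw [hC k, hN k]
          exact heq
  refine ⟨fun k _ => legal k, ?_⟩
  -- the copy
  have hfin := inv n (Nat.le_refl n)
  have e1 : n + 1 - n = 0 + 1 := by omega
  rw [e1] at hfin
  rcases hfin with hcopy | hex
  · refine containsCopy_mono ?_ hcopy
    intro x hx
    obtain ⟨j, hj, heq⟩ := (hM n x).1 (Finset.mem_coe.1 hx)
    exact ⟨j, Nat.le_of_lt hj, heq⟩
  · have hg : ∃ m, Good ((stateOf (n + 1) ((List.range n).map b)).1 - 1)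
        (stateOf (n + 1) ((List.range n).map b)).2.1
        (stateOf (n + 1) ((List.range n).map b)).2.2 m := by
      rw [hN n]
      have e3 : n + 1 - n - 1 = 0 := by omega
      rw [e3]
      exact hex
    have hgood := pick_good hg
    rw [hN n] at hgood
    have e3 : n + 1 - n - 1 = 0 := by omega
    rw [e3] at hgood
    rw [← hN n, ← hC n] at hgood
    obtain ⟨g1, g2, g3⟩ := hgood
    -- a legal reply exists
    set M := (stateOf (n + 1) ((List.range n).map b)).2.1 with hMdef
    set B := (stateOf (n + 1) ((List.range n).map b)).2.2 with hBdef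
    set m := makerClaim (policy (n + 1)) b n with hmdef
    have hf := fresh_notMem (insert m M ∪ B)
    simp only [Finset.mem_union, Finset.mem_insert, not_or] at hf
    have hwin := g3 (fresh (insert m M ∪ B)) hf.1.2 hf.2 hf.1.1
    rw [wins_zero] at hwin
    refine containsCopy_mono ?_ hwin
    intro x hx
    rcases Finset.mem_insert.1 (Finset.mem_coe.1 hx) with rfl | hx
    · exact ⟨n, Nat.le_refl n, rfl⟩
    · obtain ⟨j, hj, heq⟩ := (hM n x).1 hx
      exact ⟨j, Nat.le_of_lt hj, heq⟩

end Crest.Agent.LibS0047
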