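import Mathlib
import Crest.Prelude.Def_PolyominoGame
import Crest.Agent.Lib_S0047_Game

/-!
# S0047 helper: checker for Maker strategy trees, with zone lemmas (subsumption + translation)

Second version of `Lib_S0047_Check` (same tree format, except `ref`), for certificates that are
DAGs of local pattern lemmas.

Cells of a window of width `W` are numbered `i = x + W * y`; `cellOf W i = (i % W, i / W)`.
A checker state is `(d, Mm, A)`: `d` = Maker claims left, `Mm` = bit mask of cells Maker owns
(Maker may own more), `A` = bit mask of cells that are certainly free (Maker only claims cells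
of `A`).

A zone lemma is `WinsZ W d P Z`: Maker wins within `d` claims from EVERY position in which Maker
owns (at least) the cells of `P` and Breaker owns no cell of `Z` (cells of `Z` may be Maker's).
A lemma list entry is `(d, P, Z, w)` with `LemOK`: `WinsZ W d P Z` and all cells of `P`, `Z` have
`x < w`.

A copy of Snaky is named by its anchor cell `a` (lower left corner of its bounding box) and its
orientation `o < 8` (`offs o` lists the six cell offsets from the anchor).

Position trees:
* `win a o`                : Maker already owns the copy `(a, o)`.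
* `ref j k`                : the position is covered by the `j`-th entry `(d', P, Z, w)` of the
                             lemma list translated by `k` cell numbers: `d' ≤ d`,
                             `k % W + w ≤ W`, `P <<< k ⊆ Mm`, `Z <<< k ⊆ A ∪ Mm`.
* `fin m a o`              : Maker claims `m` and then owns the copy `(a, o)`.
* `dbl m e1 a1 o1 e2 a2 o2`: Maker claims `m` and threatens both `e1` (copy `(a1, o1)`) and
                             `e2` (copy `(a2, o2)`).
* `force m e a o t`        : Maker claims `m`, threatening to claim `e` and own the copy `(a, o)`;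
                             Breaker must reply `e`; then continue with `t`.
* `move m r`               : Maker claims `m`; `r` is a reply list.
Reply lists:
* `reply c s more`         : if Breaker replies `c`, continue with `s`; other replies: `more`;
* `group S s more`         : if Breaker replies in the cell set (bit mask) `S`, continue with `s`,
                             in which Maker avoids all of `S`; other replies: `more`;
* `dflt s`                 : any reply not listed before: continue with `s`, in which Maker may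
                             only claim cells listed before (the relevance zone of `s`).
-/

set_option autoImplicit false

namespace Crest.Agent.LibS0047Z

open Crest.Agent.LibS0047

open Crest.CombinatoricsR.PolyominoGame

/-- strategy trees and reply lists (one type, two sorts) -/
inductive Tree : Type where
  | win (a o : ℕ) : Tree
  | ref (j k : ℕ) : Tree
  | fin (m a o : ℕ) : Tree
  | dbl (m e1 a1 o1 e2 a2 o2 : ℕ) : Tree
  | force (m e a o : ℕ) (t : Tree) : Tree
  | move (m : ℕ) (r : Tree) : Tree
  | reply (c : ℕ) (s more : Tree) : Tree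
  | group (S : ℕ) (s more : Tree) : Tree
  | dflt (s : Tree) : Tree

/-- the cell number `i` of the window of width `W` -/
def cellOf (W i : ℕ) : ℤ × ℤ := (((i % W : ℕ) : ℤ), ((i / W : ℕ) : ℤ))

theorem cellOf_injective (W : ℕ) : Function.Injective (cellOf W) := by
  intro i j h
  unfold cellOf at h
  simp only [Prod.mk.injEq, Nat.cast_inj] at h
  obtain ⟨h1, h2⟩ := h
  rw [← Nat.div_add_mod i W, ← Nat.div_add_mod j W, h1, h2]

/-! ### Copies of Snaky -/

/-- the six cells of Snaky -/
def snakyL : List (ℕ × ℕ) := [(0, 0), (1, 0), (2, 0), (3, 0), (3, 1), (4, 1)]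

/-- offsets of the six cells of the copy with orientation `o` from its anchor -/
def offs (o : ℕ) : List (ℕ × ℕ) :=
  match o with
  | 0 => [(0, 0), (1, 0), (2, 0), (3, 0), (3, 1), (4, 1)]
  | 1 => [(4, 0), (3, 0), (2, 0), (1, 0), (1, 1), (0, 1)]
  | 2 => [(0, 1), (1, 1), (2, 1), (3, 1), (3, 0), (4, 0)]
  | 3 => [(4, 1), (3, 1), (2, 1), (1, 1), (1, 0), (0, 0)]
  | 4 => [(0, 0), (0, 1), (0, 2), (0, 3), (1, 3), (1, 4)]
  | 5 => [(1, 0), (1, 1), (1, 2), (1, 3), (0, 3), (0, 4)]
  | 6 => [(0, 4), (0, 3), (0, 2), (0, 1), (1, 1), (1, 0)]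
  | 7 => [(1, 4), (1, 3), (1, 2), (1, 1), (0, 1), (0, 0)]
  | _ => []

/-- first sign of the orientation `o` -/
def sgn1 (o : ℕ) : ℤ := if o % 2 = 1 then -1 else 1

/-- second sign of the orientation `o` -/
def sgn2 (o : ℕ) : ℤ := if o / 2 % 2 = 1 then -1 else 1

/-- the translation of the orientation `o`, relative to the anchor -/
def tOff (o : ℕ) : ℤ × ℤ :=
  (if o % 2 = 1 then (if o < 4 then 4 else 1) else 0,
   if o / 2 % 2 = 1 then (if o < 4 then 1 else 4) else 0)

/-- width of the bounding box of the orientation `o` -/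
def wid (o : ℕ) : ℕ := cond (Nat.blt o 4) 5 2

theorem offs_core : ∀ o < 8, ∀ p ∈ snakyL, ∃ q ∈ offs o,
    (if o < 4 then ((tOff o).1 + sgn1 o * (p.1 : ℤ), (tOff o).2 + sgn2 o * (p.2 : ℤ))
      else ((tOff o).1 + sgn1 o * (p.2 : ℤ), (tOff o).2 + sgn2 o * (p.1 : ℤ))) =
      ((q.1 : ℤ), (q.2 : ℤ)) := by
  decide

theorem offs_lt_wid : ∀ o < 8, ∀ q ∈ offs o, q.1 < wid o := by
  decide

theorem mem_snaky_iff (p : ℤ × ℤ) :
    p ∈ snaky ↔ ∃ q ∈ snakyL, p = ((q.1 : ℤ), (q.2 : ℤ)) := by
  simp [snaky, snakyL]

theorem copy_of_offs {o ax ay : ℕ} {X : Set (ℤ × ℤ)} (ho : o < 8)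
    (h : ∀ q ∈ offs o, ((ax : ℤ) + (q.1 : ℤ), (ay : ℤ) + (q.2 : ℤ)) ∈ X) : ContainsCopy X := by
  refine ⟨((ax : ℤ) + (tOff o).1, (ay : ℤ) + (tOff o).2), sgn1 o, sgn2 o, ?_, ?_, ?_⟩
  · unfold sgn1; split_ifs <;> simp
  · unfold sgn2; split_ifs <;> simp
  · by_cases h4 : o < 4
    · left
      intro p hp
      obtain ⟨p', hp', rfl⟩ := (mem_snaky_iff p).1 hp
      obtain ⟨q, hq, heq⟩ := offs_core o ho p' hp'
      rw [if_pos h4] at heq
      simp only [Prod.mk.injEq] at heq
      have e : (((ax : ℤ) + (tOff o).1 + sgn1 o * (p'.1 : ℤ)),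
          ((ay : ℤ) + (tOff o).2 + sgn2 o * (p'.2 : ℤ))) =
          ((ax : ℤ) + (q.1 : ℤ), (ay : ℤ) + (q.2 : ℤ)) := by
        rw [← heq.1, ← heq.2]
        simp only [Prod.mk.injEq]
        constructor <;> ring
      rw [e]
      exact h q hq
    · right
      intro p hp
      obtain ⟨p', hp', rfl⟩ := (mem_snaky_iff p).1 hp
      obtain ⟨q, hq, heq⟩ := offs_core o ho p' hp'
      rw [if_neg h4] at heq
      simp only [Prod.mk.injEq] at heq
      have e : (((ax : ℤ) + (tOff o).1 + sgn1 o * (p'.2 : ℤ)),
          ((ay : ℤ) + (tOff o).2 + sgn2 o * (p'.1 : ℤ))) =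
          ((ax : ℤ) + (q.1 : ℤ), (ay : ℤ) + (q.2 : ℤ)) := by
        rw [← heq.1, ← heq.2]
        simp only [Prod.mk.injEq]
        constructor <;> ring
      rw [e]
      exact h q hq

/-- the bit mask of the copy with orientation `o` anchored at the cell number `0` -/
def shape (W o : ℕ) : ℕ := (offs o).foldl (fun acc q => acc ||| 2 ^ (q.1 + W * q.2)) 0

theorem testBit_foldl_or (f : ℕ × ℕ → ℕ) (l : List (ℕ × ℕ)) (init i : ℕ) :
    Nat.testBit (l.foldl (fun acc q => acc ||| 2 ^ f q) init) i = true ↔
      (Nat.testBit init i = true ∨ ∃ q ∈ l, f q = i) := by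
  induction l generalizing init with
  | nil => simp
  | cons x l ih =>
    rw [List.foldl_cons, ih, Nat.testBit_or, Nat.testBit_two_pow]
    simp only [Bool.or_eq_true, decide_eq_true_eq, List.mem_cons, exists_eq_or_imp]
    tauto

theorem testBit_shape {W o : ℕ} {q : ℕ × ℕ} (hq : q ∈ offs o) :
    Nat.testBit (shape W o) (q.1 + W * q.2) = true := by
  unfold shape
  rw [testBit_foldl_or (fun q => q.1 + W * q.2)]
  exact Or.inr ⟨q, hq, rfl⟩

/-- `T` packs the eight shape masks, `5 * W` bits each. -/
def TableOK (W T : ℕ) : Prop :=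
  ∀ o < 8, Nat.land (Nat.shiftRight T (Nat.mul o (Nat.mul 5 W))) (Nat.sub (Nat.pow 2 (Nat.mul 5 W)) 1)
    = shape W o

instance (W T : ℕ) : Decidable (TableOK W T) := by
  unfold TableOK
  infer_instance

/-- the table of shape masks -/
def mkTable (W : ℕ) : ℕ :=
  (List.range 8).foldl (fun acc o => acc ||| shape W o <<< (o * (5 * W))) 0

/-! ### The checker -/

/-- bit test -/
def tb (A i : ℕ) : Bool := Nat.beq (Nat.land 1 (Nat.shiftRight A i)) 1

theorem tb_eq (A i : ℕ) : tb A i = Nat.testBit A i := by
  unfold tb Nat.testBit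
  show Nat.beq (1 &&& (A >>> i)) 1 = _
  rw [Nat.one_and_eq_mod_two]
  rcases Nat.mod_two_eq_zero_or_one (A >>> i) with h | h <;> rw [h] <;> rfl

/-- the mask `Mm` contains the copy `(a, o)` -/
def winOK (W T Mm a o : ℕ) : Bool :=
  Nat.blt o 8 && (Nat.ble (Nat.add (Nat.mod a W) (wid o)) W &&
    Nat.beq
      (Nat.land Mm (Nat.shiftLeft
        (Nat.land (Nat.shiftRight T (Nat.mul o (Nat.mul 5 W))) (Nat.sub (Nat.pow 2 (Nat.mul 5 W)) 1)) a))
      (Nat.shiftLeft
        (Nat.land (Nat.shiftRight T (Nat.mul o (Nat.mul 5 W))) (Nat.sub (Nat.pow 2 (Nat.mul 5 W)) 1)) a))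

/-- mask inclusion -/
def subm (X Y : ℕ) : Bool := Nat.beq (Nat.land X Y) X

theorem testBit_of_subm {X Y i : ℕ} (h : subm X Y = true) (hi : Nat.testBit X i = true) :
    Nat.testBit Y i = true := by
  unfold subm at h
  have h' : X &&& Y = X := by simpa [Nat.beq_eq] using h
  have := Nat.testBit_and X Y i
  rw [h', hi] at this
  simpa using this.symm

/-- the `j`-th lemma, translated by `k`, covers the state `(d, Mm, A)` -/
def refOK (W : ℕ) (L : List (ℕ × ℕ × ℕ × ℕ)) (j k d Mm A : ℕ) : Bool :=
  match L[j]? with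
  | some (d', P, Z, w) =>
      Nat.ble d' d && (Nat.ble (Nat.add (Nat.mod k W) w) W &&
        (subm (Nat.shiftLeft P k) Mm && subm (Nat.shiftLeft Z k) (Nat.lor A Mm)))
  | none => false

/-- remove the cell `c` from the mask `A` -/
def clr (A c : ℕ) : ℕ := cond (tb A c) (Nat.xor A (Nat.pow 2 c)) A

/-- the checker; the Boolean is the sort (`true`: position tree, `false`: reply list); the last
argument is the mask of the replies listed so far (reply lists only). -/
noncomputable def chk (W T : ℕ) (L : List (ℕ × ℕ × ℕ × ℕ)) (t : Tree) :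
    Bool → ℕ → ℕ → ℕ → ℕ → Bool :=
  Tree.rec (motive := fun _ => Bool → ℕ → ℕ → ℕ → ℕ → Bool)
    (fun a o mode _ Mm _ _ => cond mode (winOK W T Mm a o) false)
    (fun j k mode d Mm A _ => cond mode (refOK W L j k d Mm A) false)
    (fun m a o mode d Mm A _ => cond mode
      (Nat.ble 1 d && (tb A m && winOK W T (Nat.lor Mm (Nat.pow 2 m)) a o)) false)
    (fun m e1 a1 o1 e2 a2 o2 mode d Mm A _ => cond mode
      (Nat.ble 2 d && (tb A m && (tb A e1 && (tb A e2 && (!(Nat.beq m e1) && (!(Nat.beq m e2) &&
        (!(Nat.beq e1 e2) && (winOK W T (Nat.lor (Nat.lor Mm (Nat.pow 2 m)) (Nat.pow 2 e1)) a1 o1 &&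
          winOK W T (Nat.lor (Nat.lor Mm (Nat.pow 2 m)) (Nat.pow 2 e2)) a2 o2)))))))) false)
    (fun m e a o _ ih mode d Mm A _ => cond mode
      (Nat.ble 2 d && (tb A m && (tb A e && (!(Nat.beq m e) &&
        (winOK W T (Nat.lor (Nat.lor Mm (Nat.pow 2 m)) (Nat.pow 2 e)) a o &&
          ih true (Nat.sub d 1) (Nat.lor Mm (Nat.pow 2 m))
            (Nat.xor (Nat.xor A (Nat.pow 2 m)) (Nat.pow 2 e)) 0))))) false)
    (fun m _ ih mode d Mm A _ => cond mode
      (Nat.ble 1 d && (tb A m &&
        ih false (Nat.sub d 1) (Nat.lor Mm (Nat.pow 2 m)) (Nat.xor A (Nat.pow 2 m)) 0)) false)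
    (fun c _ _ ihs ihm mode d Mm A E => cond mode false
      (ihs true d Mm (clr A c) 0 && ihm false d Mm A (Nat.lor E (Nat.pow 2 c))))
    (fun S _ _ ihs ihm mode d Mm A E => cond mode false
      (ihs true d Mm (Nat.xor A (Nat.land A S)) 0 && ihm false d Mm A (Nat.lor E S)))
    (fun _ ih mode d Mm A E => cond mode false (ih true d Mm (Nat.land A E) 0))
    t

section equations

variable (W T : ℕ) (L : List (ℕ × ℕ × ℕ × ℕ))

theorem chk_win (a o : ℕ) (mode : Bool) (d Mm A E : ℕ) :
    chk W T L (.win a o) mode d Mm A E = cond mode (winOK W T Mm a o) false := rfl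

theorem chk_ref (j k : ℕ) (mode : Bool) (d Mm A E : ℕ) :
    chk W T L (.ref j k) mode d Mm A E = cond mode (refOK W L j k d Mm A) false := rfl

theorem chk_fin (m a o : ℕ) (mode : Bool) (d Mm A E : ℕ) :
    chk W T L (.fin m a o) mode d Mm A E = cond mode
      (Nat.ble 1 d && (tb A m && winOK W T (Mm ||| 2 ^ m) a o)) false := rfl

theorem chk_dbl (m e1 a1 o1 e2 a2 o2 : ℕ) (mode : Bool) (d Mm A E : ℕ) :
    chk W T L (.dbl m e1 a1 o1 e2 a2 o2) mode d Mm A E = cond mode
      (Nat.ble 2 d && (tb A m && (tb A e1 && (tb A e2 && (!(Nat.beq m e1) && (!(Nat.beq m e2) &&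
        (!(Nat.beq e1 e2) && (winOK W T (Mm ||| 2 ^ m ||| 2 ^ e1) a1 o1 &&
          winOK W T (Mm ||| 2 ^ m ||| 2 ^ e2) a2 o2)))))))) false := rfl

theorem chk_force (m e a o : ℕ) (t : Tree) (mode : Bool) (d Mm A E : ℕ) :
    chk W T L (.force m e a o t) mode d Mm A E = cond mode
      (Nat.ble 2 d && (tb A m && (tb A e && (!(Nat.beq m e) &&
        (winOK W T (Mm ||| 2 ^ m ||| 2 ^ e) a o &&
          chk W T L t true (d - 1) (Mm ||| 2 ^ m) (A ^^^ 2 ^ m ^^^ 2 ^ e) 0))))) false := rfl

theorem chk_move (m : ℕ) (r : Tree) (mode : Bool) (d Mm A E : ℕ) :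
    chk W T L (.move m r) mode d Mm A E = cond mode
      (Nat.ble 1 d && (tb A m && chk W T L r false (d - 1) (Mm ||| 2 ^ m) (A ^^^ 2 ^ m) 0))
      false := rfl

theorem chk_reply (c : ℕ) (s more : Tree) (mode : Bool) (d Mm A E : ℕ) :
    chk W T L (.reply c s more) mode d Mm A E = cond mode false
      (chk W T L s true d Mm (clr A c) 0 && chk W T L more false d Mm A (E ||| 2 ^ c)) := rfl

theorem chk_group (S : ℕ) (s more : Tree) (mode : Bool) (d Mm A E : ℕ) :
    chk W T L (.group S s more) mode d Mm A E = cond mode false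
      (chk W T L s true d Mm (A ^^^ (A &&& S)) 0 && chk W T L more false d Mm A (E ||| S)) := rfl

theorem chk_dflt (s : Tree) (mode : Bool) (d Mm A E : ℕ) :
    chk W T L (.dflt s) mode d Mm A E = cond mode false (chk W T L s true d Mm (A &&& E) 0) := rfl

end equations

/-! ### Monotonicity and translation invariance of the game -/

/-- More Maker cells and fewer Breaker cells never hurt Maker. -/
theorem wins_mono : ∀ (d : ℕ) {M M' B B' : Finset (ℤ × ℤ)}, M ⊆ M' → B' ⊆ B →
    Wins d M B → Wins d M' B'
  | 0, M, M', _, _, hM, _, h => containsCopy_mono (Finset.coe_subset.2 hM) h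
  | d + 1, M, M', B, B', hM, hB, h => by
    rcases h with h | ⟨m, hm1, hm2, hm3⟩
    · exact Or.inl (containsCopy_mono (Finset.coe_subset.2 hM) h)
    · -- a legal reply of the small game: `c` itself or a fresh cell
      have key : ∀ (m' : ℤ × ℤ), insert m M ⊆ insert m' M' → ∀ c, c ∉ M' → c ≠ m →
          Wins d (insert m' M') (insert c B') := by
        intro m' hsub c hc1 hc3
        by_cases hcB : c ∈ B
        · have hf := fresh_notMem (insert m M ∪ B)
          simp only [Finset.mem_union, Finset.mem_insert, not_or] at hf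
          have := hm3 (fresh (insert m M ∪ B)) hf.1.2 hf.2 hf.1.1
          refine wins_mono d hsub ?_ this
          exact Finset.insert_subset (Finset.mem_insert_of_mem hcB)
            (hB.trans (Finset.subset_insert _ _))
        · have := hm3 c (fun h => hc1 (hM h)) hcB hc3
          exact wins_mono d hsub (Finset.insert_subset_insert _ hB) this
      by_cases hmM' : m ∈ M'
      · -- Maker owns `m` already and claims a fresh cell instead
        have hf := fresh_notMem (M' ∪ B')
        simp only [Finset.mem_union, not_or] at hf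
        refine Or.inr ⟨fresh (M' ∪ B'), hf.1, hf.2, fun c hc1 _ _ => ?_⟩
        refine key _ ?_ c hc1 ?_
        · exact Finset.insert_subset (Finset.mem_insert_of_mem hmM')
            (hM.trans (Finset.subset_insert _ _))
        · rintro rfl
          exact hc1 hmM'
      · refine Or.inr ⟨m, hmM', fun h => hm2 (hB h), fun c hc1 _ hc3 => ?_⟩
        exact key m (Finset.insert_subset_insert _ hM) c hc1 hc3

/-- translation of a finite set of cells -/
def shiftV (v : ℤ × ℤ) (S : Finset (ℤ × ℤ)) : Finset (ℤ × ℤ) := S.image (fun x => x + v)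

theorem mem_shiftV {v x : ℤ × ℤ} {S : Finset (ℤ × ℤ)} : x ∈ shiftV v S ↔ x - v ∈ S := by
  unfold shiftV
  rw [Finset.mem_image]
  constructor
  · rintro ⟨y, hy, rfl⟩
    simpa using hy
  · intro h
    exact ⟨x - v, h, by simp⟩

theorem shiftV_insert (v x : ℤ × ℤ) (S : Finset (ℤ × ℤ)) :
    shiftV v (insert x S) = insert (x + v) (shiftV v S) := by
  unfold shiftV
  rw [Finset.image_insert]

theorem containsCopy_shiftV (v : ℤ × ℤ) {M : Finset (ℤ × ℤ)}
    (h : ContainsCopy (↑M : Set (ℤ × ℤ))) : ContainsCopy (↑(shiftV v M) : Set (ℤ × ℤ)) := by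
  obtain ⟨t, e1, e2, h1, h2, h3⟩ := h
  refine ⟨t + v, e1, e2, h1, h2, ?_⟩
  rcases h3 with h3 | h3
  · left
    intro p hp
    have := h3 p hp
    rw [Finset.mem_coe] at this ⊢
    rw [mem_shiftV]
    convert this using 1
    ext <;> simp <;> ring
  · right
    intro p hp
    have := h3 p hp
    rw [Finset.mem_coe] at this ⊢
    rw [mem_shiftV]
    convert this using 1
    ext <;> simp <;> ring

theorem wins_shiftV (v : ℤ × ℤ) : ∀ (d : ℕ) {M B : Finset (ℤ × ℤ)},
    Wins d M B → Wins d (shiftV v M) (shiftV v B)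
  | 0, _, _, h => containsCopy_shiftV v h
  | d + 1, M, B, h => by
    rcases h with h | ⟨m, hm1, hm2, hm3⟩
    · exact Or.inl (containsCopy_shiftV v h)
    · refine Or.inr ⟨m + v, ?_, ?_, fun c hc1 hc2 hc3 => ?_⟩
      · rw [mem_shiftV]; simpa using hm1
      · rw [mem_shiftV]; simpa using hm2
      · have := hm3 (c - v) (fun h => hc1 (mem_shiftV.2 h)) (fun h => hc2 (mem_shiftV.2 h))
          (fun h => hc3 (by rw [← h]; simp))
        have := wins_shiftV v d this
        rw [shiftV_insert, shiftV_insert] at this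
        simpa using this

theorem shiftV_neg_cancel (v : ℤ × ℤ) (S : Finset (ℤ × ℤ)) : shiftV v (shiftV (-v) S) = S := by
  ext x
  rw [mem_shiftV, mem_shiftV]
  simp

/-! ### Semantics of checker states -/

/-- the checker state `(Mm, A)` describes the position `(M, B)`: Maker owns the cells of `Mm`,
the cells of `A` are free. -/
structure Inv (W : ℕ) (M B : Finset (ℤ × ℤ)) (Mm A : ℕ) : Prop where
  disj : Disjoint M B
  maker : ∀ i, Nat.testBit Mm i = true → cellOf W i ∈ M
  free : ∀ i, Nat.testBit A i = true → cellOf W i ∉ M ∧ cellOf W i ∉ B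

/-- Maker wins within `d` claims from every position described by `(Mm, A)` -/
def WinsMask (W d Mm A : ℕ) : Prop :=
  ∀ M B : Finset (ℤ × ℤ), Inv W M B Mm A → Wins d M B

/-- zone lemma: Maker wins within `d` claims from every position in which Maker owns the cells
of `P` and Breaker owns no cell of `Z`. -/
def WinsZ (W d P Z : ℕ) : Prop :=
  ∀ M B : Finset (ℤ × ℤ), Disjoint M B → (∀ i, Nat.testBit P i = true → cellOf W i ∈ M) →
    (∀ i, Nat.testBit Z i = true → cellOf W i ∉ B) → Wins d M B

/-- all cells of the mask `U` have first coordinate `< w` -/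
def BitsBelow (W U w : ℕ) : Prop := ∀ i, Nat.testBit U i = true → i % W < w

/-- a lemma list entry `(d, P, Z, w)` is proved -/
def LemOK (W : ℕ) (l : ℕ × ℕ × ℕ × ℕ) : Prop :=
  WinsZ W l.1 l.2.1 l.2.2.1 ∧ BitsBelow W (l.2.1 ||| l.2.2.1) l.2.2.2

/-- the claim for reply lists -/
def RepliesWin (W d Mm A E : ℕ) : Prop :=
  ∀ M B : Finset (ℤ × ℤ), Inv W M B Mm A → ∀ c, c ∉ M → c ∉ B →
    (∀ i, Nat.testBit E i = true → c ≠ cellOf W i) → Wins d M (insert c B)

theorem winsZ_of_winsMask {W d P Z : ℕ} (hPZ : P &&& Z = 0) (h : WinsMask W d P Z) :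
    WinsZ W d P Z := by
  classical
  intro M B hd hP hZ
  refine wins_mono d (Finset.filter_subset
    (fun x => ¬ ∃ i, Nat.testBit Z i = true ∧ x = cellOf W i) M) (Finset.Subset.refl B)
    (h _ B ⟨?_, ?_, ?_⟩)
  · exact Finset.disjoint_of_subset_left (Finset.filter_subset _ _) hd
  · intro i hi
    rw [Finset.mem_filter]
    refine ⟨hP i hi, ?_⟩
    rintro ⟨i', hi', heq⟩
    have := cellOf_injective W heq
    subst this
    have hb := Nat.testBit_and P Z i
    rw [hPZ, hi, hi'] at hb
    simp at hb
  · intro i hi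
    refine ⟨?_, hZ i hi⟩
    rw [Finset.mem_filter, not_and, not_not]
    exact fun _ => ⟨i, hi, rfl⟩

theorem cellOf_add {W i k w : ℕ} (hi : i % W < w) (hk : k % W + w ≤ W) :
    cellOf W (i + k) = cellOf W i + (((k % W : ℕ) : ℤ), ((k / W : ℕ) : ℤ)) := by
  have hlt : i % W + k % W < W := by omega
  have hW : 0 < W := by omega
  unfold cellOf
  have e : i + k = (i % W + k % W) + W * (i / W + k / W) := by
    have h1 := Nat.div_add_mod i W
    have h2 := Nat.div_add_mod k W
    calc i + k = (W * (i / W) + i % W) + (W * (k / W) + k % W) := by rw [h1, h2]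
      _ = (i % W + k % W) + W * (i / W + k / W) := by ring
  rw [e, Nat.add_mul_mod_self_left, Nat.mod_eq_of_lt hlt, Nat.add_mul_div_left _ _ hW,
    Nat.div_eq_of_lt hlt, Nat.zero_add]
  simp

theorem testBit_shiftLeft_add (P k i : ℕ) :
    Nat.testBit (P <<< k) (i + k) = Nat.testBit P i := by
  rw [Nat.testBit_shiftLeft]
  simp

/-- a zone lemma may be translated inside the window -/
theorem winsZ_translate {W d P Z w k : ℕ} (h : WinsZ W d P Z) (hb : BitsBelow W (P ||| Z) w)
    (hk : k % W + w ≤ W) : WinsZ W d (P <<< k) (Z <<< k) := by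
  intro M B hd hP hZ
  have key := h (shiftV (-(((k % W : ℕ) : ℤ), ((k / W : ℕ) : ℤ))) M)
    (shiftV (-(((k % W : ℕ) : ℤ), ((k / W : ℕ) : ℤ))) B) ?_ ?_ ?_
  · have := wins_shiftV (((k % W : ℕ) : ℤ), ((k / W : ℕ) : ℤ)) d key
    rwa [shiftV_neg_cancel, shiftV_neg_cancel] at this
  · rw [Finset.disjoint_left] at hd ⊢
    intro x hx hx'
    rw [mem_shiftV] at hx hx'
    exact hd hx hx'
  · intro i hi
    have hi' : i % W < w := hb i (by rw [Nat.testBit_or, hi]; rfl)
    have := hP (i + k) (by rw [testBit_shiftLeft_add]; exact hi)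
    rw [cellOf_add hi' hk] at this
    rw [mem_shiftV, sub_neg_eq_add]
    exact this
  · intro i hi
    have hi' : i % W < w := hb i (by rw [Nat.testBit_or, hi]; simp)
    have := hZ (i + k) (by rw [testBit_shiftLeft_add]; exact hi)
    rw [cellOf_add hi' hk] at this
    rw [mem_shiftV, sub_neg_eq_add]
    exact this

theorem winOK_sound {W T Mm a o : ℕ} {M : Finset (ℤ × ℤ)} (hT : TableOK W T)
    (hM : ∀ i, Nat.testBit Mm i = true → cellOf W i ∈ M) (h : winOK W T Mm a o = true) :
    ContainsCopy (↑M : Set (ℤ × ℤ)) := by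
  unfold winOK at h
  simp only [Bool.and_eq_true, Nat.blt_eq, Nat.ble_eq, Nat.beq_eq] at h
  obtain ⟨ho, hw, hP⟩ := h
  rw [hT o ho] at hP
  have hw' : a % W + wid o ≤ W := hw
  have hP' : Mm &&& (shape W o <<< a) = shape W o <<< a := hP
  refine copy_of_offs (ax := a % W) (ay := a / W) ho fun q hq => ?_
  have hbit : Nat.testBit (shape W o <<< a) (a + (q.1 + W * q.2)) = true := by
    rw [Nat.testBit_shiftLeft]
    simp [testBit_shape hq]
  have hbit' : Nat.testBit Mm (a + (q.1 + W * q.2)) = true := by
    have := Nat.testBit_and Mm (shape W o <<< a) (a + (q.1 + W * q.2))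
    rw [hP', hbit] at this
    simpa using this.symm
  have hc := hM _ hbit'
  have hlt : a % W + q.1 < W := by
    have := offs_lt_wid o ho q hq
    omega
  have hW : 0 < W := by omega
  have hcell : cellOf W (a + (q.1 + W * q.2)) =
      (((a % W : ℕ) : ℤ) + (q.1 : ℤ), ((a / W : ℕ) : ℤ) + (q.2 : ℤ)) := by
    unfold cellOf
    have e : a + (q.1 + W * q.2) = (a % W + q.1) + W * (a / W + q.2) := by
      have := Nat.div_add_mod a W
      calc a + (q.1 + W * q.2) = (W * (a / W) + a % W) + (q.1 + W * q.2) := by rw [this]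
        _ = (a % W + q.1) + W * (a / W + q.2) := by ring
    rw [e, Nat.add_mul_mod_self_left, Nat.mod_eq_of_lt hlt, Nat.add_mul_div_left _ _ hW,
      Nat.div_eq_of_lt hlt, Nat.zero_add]
    push_cast
    rfl
  rw [hcell] at hc
  exact Finset.mem_coe.2 hc

theorem testBit_clr (A c i : ℕ) :
    Nat.testBit (clr A c) i = true ↔ (Nat.testBit A i = true ∧ i ≠ c) := by
  unfold clr
  rw [tb_eq]
  cases h : Nat.testBit A c with
  | true =>
    show Nat.testBit (A ^^^ 2 ^ c) i = true ↔ _
    rw [Nat.testBit_xor, Nat.testBit_two_pow]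
    by_cases hic : i = c
    · subst hic; simp [h]
    · have : ¬ c = i := fun h => hic h.symm
      simp [hic, this]
  | false =>
    show Nat.testBit A i = true ↔ _
    constructor
    · intro hi
      refine ⟨hi, ?_⟩
      rintro rfl
      rw [h] at hi
      cases hi
    · exact fun hi => hi.1

/-- Maker claims the cell number `m ∈ A`: the new state. -/
theorem inv_claim {W : ℕ} {M B : Finset (ℤ × ℤ)} {Mm A m : ℕ} (hI : Inv W M B Mm A)
    (hm : Nat.testBit A m = true) :
    Inv W (insert (cellOf W m) M) B (Mm ||| 2 ^ m) (A ^^^ 2 ^ m) := by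
  refine ⟨?_, ?_, ?_⟩
  · rw [Finset.disjoint_insert_left]
    exact ⟨(hI.free m hm).2, hI.disj⟩
  · intro i hi
    rw [Nat.testBit_or, Nat.testBit_two_pow, Bool.or_eq_true] at hi
    rcases hi with hi | hi
    · exact Finset.mem_insert_of_mem (hI.maker i hi)
    · have : m = i := by simpa using hi
      rw [← this]
      exact Finset.mem_insert_self _ _
  · intro i hi
    rw [Nat.testBit_xor, Nat.testBit_two_pow] at hi
    have hne : i ≠ m := by
      rintro rfl
      simp [hm] at hi
    have hne' : ¬ m = i := fun h => hne h.symm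
    have hAi : Nat.testBit A i = true := by simpa [hne'] using hi
    have := hI.free i hAi
    refine ⟨?_, this.2⟩
    rw [Finset.mem_insert, not_or]
    exact ⟨fun h => hne (cellOf_injective W h), this.1⟩

/-- Breaker claims the cell `c ∉ M`; the new free mask `A'` must avoid `c`. -/
theorem inv_reply {W : ℕ} {M B : Finset (ℤ × ℤ)} {Mm A A' : ℕ} {c : ℤ × ℤ}
    (hI : Inv W M B Mm A) (hc : c ∉ M)
    (hA : ∀ i, Nat.testBit A' i = true → Nat.testBit A i = true ∧ cellOf W i ≠ c) :
    Inv W M (insert c B) Mm A' := by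
  refine ⟨?_, hI.maker, ?_⟩
  · rw [Finset.disjoint_insert_right]
    exact ⟨hc, hI.disj⟩
  · intro i hi
    obtain ⟨h1, h2⟩ := hA i hi
    have := hI.free i h1
    refine ⟨this.1, ?_⟩
    rw [Finset.mem_insert, not_or]
    exact ⟨h2, this.2⟩

/-- the cell `e ≠ m` is still free after Maker claimed `m` -/
theorem testBit_after {A m e : ℕ} (he : Nat.testBit A e = true) (hme : m ≠ e) :
    Nat.testBit (A ^^^ 2 ^ m) e = true := by
  rw [Nat.testBit_xor, Nat.testBit_two_pow]
  simp [he, hme]

/-- Maker claims `m`, then `e` completing a copy, unless Breaker replied `e`. -/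
theorem wins_threat {W T d Mm A m e a o : ℕ} {M B : Finset (ℤ × ℤ)} (hT : TableOK W T)
    (hI : Inv W (insert (cellOf W m) M) B (Mm ||| 2 ^ m) (A ^^^ 2 ^ m))
    (he : Nat.testBit (A ^^^ 2 ^ m) e = true)
    (hw : winOK W T (Mm ||| 2 ^ m ||| 2 ^ e) a o = true)
    {c : ℤ × ℤ} (hce : c ≠ cellOf W e) :
    Wins (d + 1) (insert (cellOf W m) M) (insert c B) := by
  have hI'' := inv_claim hI he
  refine Or.inr ⟨cellOf W e, (hI.free e he).1, ?_, fun c' _ _ _ => ?_⟩
  · rw [Finset.mem_insert, not_or]
    exact ⟨fun h => hce h.symm, (hI.free e he).2⟩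
  · exact wins_of_copy (winOK_sound hT hI''.maker hw)

/-- **Soundness of the checker.** -/
theorem chk_sound (W T : ℕ) (L : List (ℕ × ℕ × ℕ × ℕ)) (hT : TableOK W T)
    (hL : ∀ l ∈ L, LemOK W l) :
    ∀ (t : Tree) (mode : Bool) (d Mm A E : ℕ), chk W T L t mode d Mm A E = true →
      (mode = true → WinsMask W d Mm A) ∧ (mode = false → RepliesWin W d Mm A E) := by
  intro t
  induction t with
  | win a o =>
    intro mode d Mm A E h
    rw [chk_win] at h
    cases mode with
    | false => cases h
    | true =>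
      refine ⟨fun _ M B hI => ?_, fun h' => (by cases h')⟩
      exact wins_of_copy (winOK_sound hT hI.maker h)
  | ref j k =>
    intro mode d Mm A E h
    rw [chk_ref] at h
    cases mode with
    | false => cases h
    | true =>
      refine ⟨fun _ => ?_, fun h' => (by cases h')⟩
      simp only [cond_true, refOK] at h
      split at h
      · rename_i d' P Z w hj
        simp only [Bool.and_eq_true, Nat.ble_eq] at h
        obtain ⟨h1, h2, h3, h4⟩ := h
        obtain ⟨hz, hb⟩ := hL _ (List.mem_of_getElem? hj)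
        simp only at hz hb
        have hz' := winsZ_translate hz hb h2
        intro M B hI
        refine wins_mono_le h1 (hz' M B hI.disj
          (fun i hi => hI.maker i (testBit_of_subm h3 hi)) (fun i hi => ?_))
        have h5 : Nat.testBit (A ||| Mm) i = true := testBit_of_subm h4 hi
        rw [Nat.testBit_or, Bool.or_eq_true] at h5
        rcases h5 with h5 | h5
        · exact (hI.free i h5).2
        · exact fun hB => Finset.disjoint_left.1 hI.disj (hI.maker i h5) hB
      · cases h
  | fin m a o =>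
    intro mode d Mm A E h
    rw [chk_fin] at h
    cases mode with
    | false => cases h
    | true =>
      refine ⟨fun _ M B hI => ?_, fun h' => (by cases h')⟩
      simp only [cond_true, Bool.and_eq_true, Nat.ble_eq, tb_eq] at h
      obtain ⟨h1, h2, h3⟩ := h
      obtain ⟨d, rfl⟩ : ∃ d', d = d' + 1 := ⟨d - 1, by omega⟩
      have hI' := inv_claim hI h2
      refine Or.inr ⟨cellOf W m, (hI.free m h2).1, (hI.free m h2).2, fun c _ _ _ => ?_⟩
      exact wins_of_copy (winOK_sound hT hI'.maker h3)
  | dbl m e1 a1 o1 e2 a2 o2 =>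
    intro mode d Mm A E h
    rw [chk_dbl] at h
    cases mode with
    | false => cases h
    | true =>
      refine ⟨fun _ M B hI => ?_, fun h' => (by cases h')⟩
      simp only [cond_true, Bool.and_eq_true, Nat.ble_eq, tb_eq, Bool.not_eq_true'] at h
      obtain ⟨h1, h2, h3, h4, h5', h6', h7', h8, h9⟩ := h
      have h5 : m ≠ e1 := Nat.ne_of_beq_eq_false h5'
      have h6 : m ≠ e2 := Nat.ne_of_beq_eq_false h6'
      have h7 : e1 ≠ e2 := Nat.ne_of_beq_eq_false h7'
      obtain ⟨d, rfl⟩ : ∃ d', d = d' + 2 := ⟨d - 2, by omega⟩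
      have hI' := inv_claim hI h2
      refine Or.inr ⟨cellOf W m, (hI.free m h2).1, (hI.free m h2).2, fun c hc1 hc2 hc3 => ?_⟩
      by_cases hce : c = cellOf W e1
      · refine wins_threat hT hI' (testBit_after h4 h6) h9 ?_
        rw [hce]
        exact fun h => h7 (cellOf_injective W h)
      · exact wins_threat hT hI' (testBit_after h3 h5) h8 hce
  | force m e a o t ih =>
    intro mode d Mm A E h
    rw [chk_force] at h
    cases mode with
    | false => cases h
    | true =>
      refine ⟨fun _ M B hI => ?_, fun h' => (by cases h')⟩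
      simp only [cond_true, Bool.and_eq_true, Nat.ble_eq, tb_eq, Bool.not_eq_true'] at h
      obtain ⟨h1, h2, h3, h4', h5, h6⟩ := h
      have h4 : m ≠ e := Nat.ne_of_beq_eq_false h4'
      obtain ⟨d, rfl⟩ : ∃ d', d = d' + 2 := ⟨d - 2, by omega⟩
      have hI' := inv_claim hI h2
      have he := testBit_after h3 h4
      have hrec := (ih true (d + 2 - 1) (Mm ||| 2 ^ m) (A ^^^ 2 ^ m ^^^ 2 ^ e) 0 h6).1 rfl
      have e1 : d + 2 - 1 = d + 1 := by omega
      rw [e1] at hrec
      refine Or.inr ⟨cellOf W m, (hI.free m h2).1, (hI.free m h2).2, fun c hc1 hc2 hc3 => ?_⟩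
      by_cases hce : c = cellOf W e
      · -- Breaker blocks at `e`
        apply hrec
        refine inv_reply hI' ?_ fun i hi => ?_
        · rw [Finset.mem_insert, not_or]
          exact ⟨hc3, hc1⟩
        · rw [Nat.testBit_xor, Nat.testBit_two_pow] at hi
          have hne : i ≠ e := by
            rintro rfl
            simp [he] at hi
          have hne' : ¬ e = i := fun h => hne h.symm
          have hAi : Nat.testBit (A ^^^ 2 ^ m) i = true := by simpa [hne'] using hi
          refine ⟨hAi, ?_⟩
          rw [hce]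
          exact fun h => hne (cellOf_injective W h)
      · -- Maker completes the copy at `e`
        exact wins_threat hT hI' he h5 hce
  | move m r ih =>
    intro mode d Mm A E h
    rw [chk_move] at h
    cases mode with
    | false => cases h
    | true =>
      refine ⟨fun _ M B hI => ?_, fun h' => (by cases h')⟩
      simp only [cond_true, Bool.and_eq_true, Nat.ble_eq, tb_eq] at h
      obtain ⟨h1, h2, h3⟩ := h
      obtain ⟨d, rfl⟩ : ∃ d', d = d' + 1 := ⟨d - 1, by omega⟩
      have hI' := inv_claim hI h2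
      have hrec := (ih false (d + 1 - 1) (Mm ||| 2 ^ m) (A ^^^ 2 ^ m) 0 h3).2 rfl
      rw [Nat.add_sub_cancel] at hrec
      refine Or.inr ⟨cellOf W m, (hI.free m h2).1, (hI.free m h2).2, fun c hc1 hc2 hc3 => ?_⟩
      refine hrec _ _ hI' c ?_ hc2 ?_
      · rw [Finset.mem_insert, not_or]
        exact ⟨hc3, hc1⟩
      · intro i hi
        simp at hi
  | reply c s more ihs ihm =>
    intro mode d Mm A E h
    rw [chk_reply] at h
    cases mode with
    | true => cases h
    | false =>
      refine ⟨fun h' => (by cases h'), fun _ M B hI x hx1 hx2 hx3 => ?_⟩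
      simp only [cond_false, Bool.and_eq_true] at h
      obtain ⟨h1, h2⟩ := h
      by_cases hxc : x = cellOf W c
      · have hrec := (ihs true d Mm (clr A c) 0 h1).1 rfl
        apply hrec
        refine inv_reply hI hx1 fun i hi => ?_
        rw [testBit_clr] at hi
        refine ⟨hi.1, ?_⟩
        rw [hxc]
        exact fun h => hi.2 (cellOf_injective W h)
      · have hrec := (ihm false d Mm A (E ||| 2 ^ c) h2).2 rfl
        refine hrec M B hI x hx1 hx2 fun i hi => ?_
        rw [Nat.testBit_or, Nat.testBit_two_pow, Bool.or_eq_true] at hi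
        rcases hi with hi | hi
        · exact hx3 i hi
        · have : c = i := by simpa using hi
          rw [← this]
          exact hxc
  | group S s more ihs ihm =>
    intro mode d Mm A E h
    rw [chk_group] at h
    cases mode with
    | true => cases h
    | false =>
      refine ⟨fun h' => (by cases h'), fun _ M B hI x hx1 hx2 hx3 => ?_⟩
      simp only [cond_false, Bool.and_eq_true] at h
      obtain ⟨h1, h2⟩ := h
      by_cases hxc : ∃ k, Nat.testBit S k = true ∧ x = cellOf W k
      · obtain ⟨k, hk, rfl⟩ := hxc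
        have hrec := (ihs true d Mm (A ^^^ (A &&& S)) 0 h1).1 rfl
        apply hrec
        refine inv_reply hI hx1 fun i hi => ?_
        rw [Nat.testBit_xor, Nat.testBit_and] at hi
        have hAi : Nat.testBit A i = true := by
          cases hA : Nat.testBit A i with
          | true => rfl
          | false => rw [hA] at hi; simp at hi
        have hSi : Nat.testBit S i = false := by
          cases hS : Nat.testBit S i with
          | false => rfl
          | true => rw [hAi, hS] at hi; simp at hi
        refine ⟨hAi, ?_⟩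
        intro h
        have := cellOf_injective W h
        rw [this, hk] at hSi
        cases hSi
      · have hrec := (ihm false d Mm A (E ||| S) h2).2 rfl
        refine hrec M B hI x hx1 hx2 fun i hi => ?_
        rw [Nat.testBit_or, Bool.or_eq_true] at hi
        rcases hi with hi | hi
        · exact hx3 i hi
        · exact fun h => hxc ⟨i, hi, h⟩
  | dflt s ih =>
    intro mode d Mm A E h
    rw [chk_dflt] at h
    cases mode with
    | true => cases h
    | false =>
      refine ⟨fun h' => (by cases h'), fun _ M B hI x hx1 hx2 hx3 => ?_⟩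
      simp only [cond_false] at h
      have hrec := (ih true d Mm (A &&& E) 0 h).1 rfl
      apply hrec
      refine inv_reply hI hx1 fun i hi => ?_
      rw [Nat.testBit_and, Bool.and_eq_true] at hi
      exact ⟨hi.1, fun h => hx3 i hi.2 h.symm⟩

/-! ### Lemmas: top-level check -/

/-- all bits of `U` lie in columns `< w` (checked row by row, at most `f` rows) -/
def rowsOK (W w : ℕ) : ℕ → ℕ → Bool
  | 0, U => Nat.beq U 0
  | f + 1, U => Nat.blt (U % 2 ^ W) (2 ^ w) && rowsOK W w f (U / 2 ^ W)

theorem rowsOK_sound {W w : ℕ} : ∀ (f U : ℕ), rowsOK W w f U = true → BitsBelow W U w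
  | 0, U, h => by
    intro i hi
    have hU : U = 0 := by simpa [rowsOK] using h
    subst hU
    simp at hi
  | f + 1, U, h => by
    simp only [rowsOK, Bool.and_eq_true, Nat.blt_eq] at h
    obtain ⟨h1, h2⟩ := h
    have ih := rowsOK_sound f _ h2
    intro i hi
    by_cases hiW : i < W
    · have hbit : Nat.testBit (U % 2 ^ W) i = true := by
        rw [Nat.testBit_mod_two_pow]
        simp [hiW, hi]
      by_contra hcon
      rw [Nat.mod_eq_of_lt hiW] at hcon
      have hwi : w ≤ i := Nat.le_of_not_lt hcon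
      have := Nat.testBit_lt_two_pow
        (Nat.lt_of_lt_of_le h1 (Nat.pow_le_pow_right (by norm_num) hwi))
      rw [hbit] at this
      cases this
    · have hge : W ≤ i := Nat.le_of_not_lt hiW
      have hbit : Nat.testBit (U / 2 ^ W) (i - W) = true := by
        rw [Nat.testBit_div_two_pow, Nat.sub_add_cancel hge]
        exact hi
      have := ih (i - W) hbit
      have e : i % W = (i - W) % W := by
        conv_lhs => rw [← Nat.sub_add_cancel hge]
        exact Nat.add_mod_right _ _
      rw [e]
      exact this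

/-- the whole check of the lemma `(d, P, Z, w)` by the tree `t` (`H` = number of rows of the
window). -/
noncomputable def chkTop (W T H : ℕ) (L : List (ℕ × ℕ × ℕ × ℕ)) (t : Tree) (d P Z w : ℕ) : Bool :=
  Nat.beq (Nat.land P Z) 0 && (rowsOK W w H (Nat.lor P Z) && chk W T L t true d P Z 0)

/-- **A checked tree proves its zone lemma** (relative to the lemmas it cites). -/
theorem lemOK_of_chk {W T H : ℕ} {L : List (ℕ × ℕ × ℕ × ℕ)} {t : Tree} {d P Z w : ℕ}
    (hT : TableOK W T) (hL : ∀ l ∈ L, LemOK W l) (h : chkTop W T H L t d P Z w = true) :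
    LemOK W (d, P, Z, w) := by
  unfold chkTop at h
  simp only [Bool.and_eq_true, Nat.beq_eq] at h
  obtain ⟨h1, h2, h3⟩ := h
  exact ⟨winsZ_of_winsMask h1 ((chk_sound W T L hT hL t true d P Z 0 h3).1 rfl),
    rowsOK_sound H _ h2⟩

/-- the empty lemma list -/
theorem lemmas_nil {W : ℕ} : ∀ l ∈ ([] : List (ℕ × ℕ × ℕ × ℕ)), LemOK W l := by
  intro l hl
  cases hl

/-- adding a proved lemma to a lemma list -/
theorem lemmas_cons {W : ℕ} {l₀ : ℕ × ℕ × ℕ × ℕ} {L : List (ℕ × ℕ × ℕ × ℕ)} (h : LemOK W l₀)
    (hL : ∀ l ∈ L, LemOK W l) : ∀ l ∈ l₀ :: L, LemOK W l := by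
  intro l hl
  rcases List.mem_cons.1 hl with rfl | hl
  · exact h
  · exact hL l hl

/-- the shape table for windows of width 32 -/
theorem tableOK_32 : TableOK 32 (mkTable 32) := by decide +kernel

/-- the shape table for windows of width 24 -/
theorem tableOK_24 : TableOK 24 (mkTable 24) := by decide +kernel

/-- the shape table for windows of width 16 -/
theorem tableOK_16 : TableOK 16 (mkTable 16) := by decide +kernel

/-- the shape table for windows of width 64 -/
theorem tableOK_64 : TableOK 64 (mkTable 64) := by decide +kernel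

/-- **From a checked certificate to the statement of S0047**: a zone lemma for the empty board
with `n + 1` claims gives Maker's policy. -/
theorem exists_policy_of_lemOK {W n Z w : ℕ} (h : LemOK W (n + 1, 0, Z, w)) :
    ∃ σ : List (ℤ × ℤ) → ℤ × ℤ, ∀ b : ℕ → ℤ × ℤ,
      (∀ k : ℕ, k < n →
        (∀ j : ℕ, j ≤ k → b k ≠ makerClaim σ b j) ∧
        (∀ j : ℕ, j < k → b k ≠ b j)) →
      (∀ k : ℕ, k ≤ n →
        (∀ j : ℕ, j < k → makerClaim σ b k ≠ makerClaim σ b j) ∧
        (∀ j : ℕ, j < k → makerClaim σ b k ≠ b j)) ∧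
      ContainsCopy {c | ∃ j : ℕ, j ≤ n ∧ c = makerClaim σ b j} := by
  refine exists_policy_of_wins n (h.1 ∅ ∅ (Finset.disjoint_empty_left _) ?_ ?_)
  · intro i hi
    simp at hi
  · intro i _
    simp

end Crest.Agent.LibS0047Z
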