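import Mathlib
import Crest.Prelude.Def_PolyominoGame
import Crest.Agent.Lib_S0047_Game
import Crest.Agent.Lib_S0047_Zone

/-!
# S0047 helper: checker for Maker strategy trees with LAZY case splits on Breaker's replies

Third version of the certificate checker; it proves the same zone lemmas `LemOK W (d, P, Z, w)`
as `Lib_S0047_Zone`, so both kinds of trees can be mixed in one certificate.

A checker state is `(d, Mm, F, XS, r)`:
* `d`  : Maker claims left;
* `Mm` : bit mask of cells Maker is known to own;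
* `F`  : bit mask of cells (`< N`) that are free unless one of the UNKNOWN Breaker replies sits
         there;
* `r`  : number of unknown Breaker replies `u 0, …, u (r-1)` (one for every `move` on the path);
* `XS` : for every unknown `i < r` the mask `X i` (bits `i*N … i*N+N-1` of `XS`) of cells that
         `u i` is known NOT to be.
Maker may claim `m` iff `m ∈ F` and `m ∈ X i` for all `i < r`.

Trees:
* `win a o`, `fin m a o`, `dbl m e1 a1 o1 e2 a2 o2`, `force m e a o t`, `ref j k`: as in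
  `Lib_S0047_Zone` (zone lemma `j`, translated by `k`, needs its zone inside the claimable cells
  or Maker's cells);
* `move m t`       : Maker claims `m`; Breaker's reply becomes the new unknown number `r`
                     (nothing known about it); continue with `t`;
* `split i x tin tout`  : case split on the unknown `i`: it is the cell `x` (`tin`, where all
                     other cells become possible for Maker as far as `u i` is concerned), or it
                     is not (`tout`, where `x` becomes possible);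
* `splitg i S tin tout` : the same for a cell set (bit mask) `S`: `u i ∈ S` / `u i ∉ S`.
-/

set_option autoImplicit false

namespace Crest.Agent.LibS0047Z

open Crest.CombinatoricsR.PolyominoGame
open Crest.Agent.LibS0047

/-- strategy trees with lazy case splits -/
inductive LTree : Type where
  | win (a o : ℕ) : LTree
  | ref (j k : ℕ) : LTree
  | fin (m a o : ℕ) : LTree
  | dbl (m e1 a1 o1 e2 a2 o2 : ℕ) : LTree
  | force (m e a o : ℕ) (t : LTree) : LTree
  | move (m : ℕ) (t : LTree) : LTree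
  | split (i x : ℕ) (tin tout : LTree) : LTree
  | splitg (i S : ℕ) (tin tout : LTree) : LTree

/-- `comb N r = ∑ i < r, 2 ^ (i * N)` -/
def comb (N : ℕ) : ℕ → ℕ
  | 0 => 0
  | r + 1 => comb N r + 2 ^ (r * N)

/-- Maker may claim the cell `m` -/
def allowed (F XS cb m : ℕ) : Bool :=
  tb F m && Nat.beq (Nat.land (Nat.shiftRight XS m) cb) cb

/-- the `j`-th lemma, translated by `k`, covers the state -/
def lrefOK (W : ℕ) (L : List (ℕ × ℕ × ℕ × ℕ)) (j k d Mm F XS cb : ℕ) : Bool :=
  match L[j]? with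
  | some (d', P, Z, w) =>
      Nat.ble d' d && (Nat.ble (Nat.add (Nat.mod k W) w) W &&
        (subm (Nat.shiftLeft P k) Mm &&
          (subm (Nat.xor (Nat.shiftLeft Z k) (Nat.land (Nat.shiftLeft Z k) Mm)) F &&
            subm (Nat.mul (Nat.xor (Nat.shiftLeft Z k) (Nat.land (Nat.shiftLeft Z k) Mm)) cb)
              XS)))
  | none => false

/-- the checker; arguments `d Mm F XS cb sh` with `cb = comb N r`, `sh = r * N`. -/
noncomputable def lchk (W T N : ℕ) (L : List (ℕ × ℕ × ℕ × ℕ)) (t : LTree) :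
    ℕ → ℕ → ℕ → ℕ → ℕ → ℕ → Bool :=
  LTree.rec (motive := fun _ => ℕ → ℕ → ℕ → ℕ → ℕ → ℕ → Bool)
    (fun a o _ Mm _ _ _ _ => winOK W T Mm a o)
    (fun j k d Mm F XS cb _ => lrefOK W L j k d Mm F XS cb)
    (fun m a o d Mm F XS cb _ =>
      Nat.ble 1 d && (allowed F XS cb m && winOK W T (Nat.lor Mm (Nat.pow 2 m)) a o))
    (fun m e1 a1 o1 e2 a2 o2 d Mm F XS cb _ =>
      Nat.ble 2 d && (allowed F XS cb m && (allowed F XS cb e1 && (allowed F XS cb e2 &&
        (!(Nat.beq m e1) && (!(Nat.beq m e2) && (!(Nat.beq e1 e2) &&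
          (winOK W T (Nat.lor (Nat.lor Mm (Nat.pow 2 m)) (Nat.pow 2 e1)) a1 o1 &&
            winOK W T (Nat.lor (Nat.lor Mm (Nat.pow 2 m)) (Nat.pow 2 e2)) a2 o2))))))))
    (fun m e a o _ ih d Mm F XS cb sh =>
      Nat.ble 2 d && (allowed F XS cb m && (allowed F XS cb e && (!(Nat.beq m e) &&
        (winOK W T (Nat.lor (Nat.lor Mm (Nat.pow 2 m)) (Nat.pow 2 e)) a o &&
          ih (Nat.sub d 1) (Nat.lor Mm (Nat.pow 2 m))
            (Nat.xor (Nat.xor F (Nat.pow 2 m)) (Nat.pow 2 e)) XS cb sh)))))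
    (fun m _ ih d Mm F XS cb sh =>
      Nat.ble 1 d && (allowed F XS cb m &&
        ih (Nat.sub d 1) (Nat.lor Mm (Nat.pow 2 m)) (Nat.xor F (Nat.pow 2 m)) XS
          (Nat.add cb (Nat.pow 2 sh)) (Nat.add sh N)))
    (fun i x _ _ ihin ihout d Mm F XS cb sh =>
      Nat.blt (Nat.mul i N) sh && (Nat.blt x N &&
        (ihin d Mm F (Nat.lor XS (Nat.shiftLeft
            (Nat.xor (Nat.sub (Nat.pow 2 N) 1) (Nat.pow 2 x)) (Nat.mul i N))) cb sh &&
          ihout d Mm F (Nat.lor XS (Nat.shiftLeft (Nat.pow 2 x) (Nat.mul i N))) cb sh)))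
    (fun i S _ _ ihin ihout d Mm F XS cb sh =>
      Nat.blt (Nat.mul i N) sh && (Nat.blt S (Nat.pow 2 N) &&
        (ihin d Mm F (Nat.lor XS (Nat.shiftLeft
            (Nat.xor (Nat.sub (Nat.pow 2 N) 1) S) (Nat.mul i N))) cb sh &&
          ihout d Mm F (Nat.lor XS (Nat.shiftLeft S (Nat.mul i N))) cb sh)))
    t

section equations

variable (W T N : ℕ) (L : List (ℕ × ℕ × ℕ × ℕ))

theorem lchk_win (a o d Mm F XS cb sh : ℕ) :
    lchk W T N L (.win a o) d Mm F XS cb sh = winOK W T Mm a o := rfl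

theorem lchk_ref (j k d Mm F XS cb sh : ℕ) :
    lchk W T N L (.ref j k) d Mm F XS cb sh = lrefOK W L j k d Mm F XS cb := rfl

theorem lchk_fin (m a o d Mm F XS cb sh : ℕ) :
    lchk W T N L (.fin m a o) d Mm F XS cb sh =
      (Nat.ble 1 d && (allowed F XS cb m && winOK W T (Mm ||| 2 ^ m) a o)) := rfl

theorem lchk_dbl (m e1 a1 o1 e2 a2 o2 d Mm F XS cb sh : ℕ) :
    lchk W T N L (.dbl m e1 a1 o1 e2 a2 o2) d Mm F XS cb sh =
      (Nat.ble 2 d && (allowed F XS cb m && (allowed F XS cb e1 && (allowed F XS cb e2 &&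
        (!(Nat.beq m e1) && (!(Nat.beq m e2) && (!(Nat.beq e1 e2) &&
          (winOK W T (Mm ||| 2 ^ m ||| 2 ^ e1) a1 o1 &&
            winOK W T (Mm ||| 2 ^ m ||| 2 ^ e2) a2 o2)))))))) := rfl

theorem lchk_force (m e a o : ℕ) (t : LTree) (d Mm F XS cb sh : ℕ) :
    lchk W T N L (.force m e a o t) d Mm F XS cb sh =
      (Nat.ble 2 d && (allowed F XS cb m && (allowed F XS cb e && (!(Nat.beq m e) &&
        (winOK W T (Mm ||| 2 ^ m ||| 2 ^ e) a o &&
          lchk W T N L t (d - 1) (Mm ||| 2 ^ m) (F ^^^ 2 ^ m ^^^ 2 ^ e) XS cb sh))))) := rfl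

theorem lchk_move (m : ℕ) (t : LTree) (d Mm F XS cb sh : ℕ) :
    lchk W T N L (.move m t) d Mm F XS cb sh =
      (Nat.ble 1 d && (allowed F XS cb m &&
        lchk W T N L t (d - 1) (Mm ||| 2 ^ m) (F ^^^ 2 ^ m) XS (cb + 2 ^ sh) (sh + N))) := rfl

theorem lchk_split (i x : ℕ) (tin tout : LTree) (d Mm F XS cb sh : ℕ) :
    lchk W T N L (.split i x tin tout) d Mm F XS cb sh =
      (Nat.blt (i * N) sh && (Nat.blt x N &&
        (lchk W T N L tin d Mm F (XS ||| ((2 ^ N - 1) ^^^ 2 ^ x) <<< (i * N)) cb sh &&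
          lchk W T N L tout d Mm F (XS ||| (2 ^ x) <<< (i * N)) cb sh))) := rfl

theorem lchk_splitg (i S : ℕ) (tin tout : LTree) (d Mm F XS cb sh : ℕ) :
    lchk W T N L (.splitg i S tin tout) d Mm F XS cb sh =
      (Nat.blt (i * N) sh && (Nat.blt S (2 ^ N) &&
        (lchk W T N L tin d Mm F (XS ||| ((2 ^ N - 1) ^^^ S) <<< (i * N)) cb sh &&
          lchk W T N L tout d Mm F (XS ||| S <<< (i * N)) cb sh))) := rfl

end equations

/-! ### The comb -/

theorem lt_of_testBit_of_lt {Y N y : ℕ} (hY : Y < 2 ^ N) (hy : Nat.testBit Y y = true) : y < N := by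
  by_contra hcon
  have hN : N ≤ y := Nat.le_of_not_lt hcon
  have := Nat.testBit_lt_two_pow (Nat.lt_of_lt_of_le hY (Nat.pow_le_pow_right (by norm_num) hN))
  rw [hy] at this
  cases this

theorem mul_comb_lt {N Y : ℕ} (hY : Y < 2 ^ N) : ∀ r, Y * comb N r < 2 ^ (r * N)
  | 0 => by simp [comb]
  | r + 1 => by
    have ih := mul_comb_lt hY r
    have e : 2 ^ ((r + 1) * N) = 2 ^ (r * N) * 2 ^ N := by rw [Nat.succ_mul, Nat.pow_add]
    rw [e]
    show Y * (comb N r + 2 ^ (r * N)) < _
    have h1 : Y * 2 ^ (r * N) ≤ (2 ^ N - 1) * 2 ^ (r * N) :=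
      Nat.mul_le_mul_right _ (Nat.le_pred_of_lt hY)
    have h2 : 1 ≤ 2 ^ N := Nat.one_le_two_pow
    have h3 : (2 ^ N - 1) * 2 ^ (r * N) + 2 ^ (r * N) = 2 ^ (r * N) * 2 ^ N := by
      rw [← Nat.succ_mul, Nat.succ_eq_add_one, Nat.sub_add_cancel h2, Nat.mul_comm]
    rw [Nat.mul_add]
    omega

theorem testBit_mul_comb {N Y y : ℕ} (hY : Y < 2 ^ N) (hy : Nat.testBit Y y = true) :
    ∀ r i, i < r → Nat.testBit (Y * comb N r) (y + i * N) = true
  | 0, i, h => by omega
  | r + 1, i, h => by
    have hyN := lt_of_testBit_of_lt hY hy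
    have e : Y * comb N (r + 1) = 2 ^ (r * N) * Y + Y * comb N r := by
      show Y * (comb N r + 2 ^ (r * N)) = _
      ring
    rw [e, Nat.testBit_two_pow_mul_add _ (mul_comb_lt hY r)]
    by_cases hir : i < r
    · have hlt : y + i * N < r * N := by
        have : (i + 1) * N ≤ r * N := Nat.mul_le_mul_right N hir
        rw [Nat.succ_mul] at this
        omega
      rw [if_pos hlt]
      exact testBit_mul_comb hY hy r i hir
    · have hi : i = r := by omega
      subst hi
      have hge : ¬ y + i * N < i * N := by omega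
      rw [if_neg hge, Nat.add_sub_cancel]
      exact hy

theorem testBit_comb {N : ℕ} (hN : 0 < N) {r i : ℕ} (h : i < r) :
    Nat.testBit (comb N r) (i * N) = true := by
  have h1 : (1 : ℕ) < 2 ^ N := Nat.one_lt_two_pow (by omega)
  have := testBit_mul_comb (Y := 1) (y := 0) h1 (by simp) r i h
  simpa using this

/-! ### Semantics -/

/-- the checker state describes the position `(M, B)`; `u i` are the unknown Breaker replies -/
structure LInv (W N : ℕ) (M B : Finset (ℤ × ℤ)) (Mm F XS r : ℕ) (u : ℕ → ℤ × ℤ) : Prop where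
  disj : Disjoint M B
  maker : ∀ i, Nat.testBit Mm i = true → cellOf W i ∈ M
  freeM : ∀ y, Nat.testBit F y = true → y < N ∧ cellOf W y ∉ M
  freeB : ∀ y, Nat.testBit F y = true → cellOf W y ∈ B → ∃ i, i < r ∧ cellOf W y = u i
  excl : ∀ t, Nat.testBit XS t = true → t < r * N ∧ u (t / N) ≠ cellOf W (t % N)

/-- Maker wins within `d` claims from every position described by the state -/
def LClaim (W N d Mm F XS r : ℕ) : Prop :=
  ∀ (M B : Finset (ℤ × ℤ)) (u : ℕ → ℤ × ℤ), LInv W N M B Mm F XS r u → Wins d M B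

theorem allowed_sound {W N : ℕ} (hN : 0 < N) {M B : Finset (ℤ × ℤ)} {Mm F XS r m : ℕ}
    {u : ℕ → ℤ × ℤ} (hI : LInv W N M B Mm F XS r u)
    (h : allowed F XS (comb N r) m = true) :
    Nat.testBit F m = true ∧ cellOf W m ∉ M ∧ cellOf W m ∉ B := by
  unfold allowed at h
  simp only [Bool.and_eq_true, tb_eq, Nat.beq_eq] at h
  obtain ⟨h1, h2⟩ := h
  have h2' : (XS >>> m) &&& comb N r = comb N r := h2
  obtain ⟨hmN, hmM⟩ := hI.freeM m h1
  refine ⟨h1, hmM, fun hB => ?_⟩
  obtain ⟨i, hi, hiu⟩ := hI.freeB m h1 hB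
  have hb : Nat.testBit XS (m + i * N) = true := by
    have := Nat.testBit_and (XS >>> m) (comb N r) (i * N)
    rw [h2', testBit_comb hN hi, Nat.testBit_shiftRight] at this
    simpa using this.symm
  have := (hI.excl _ hb).2
  rw [Nat.add_mul_div_right _ _ hN, Nat.div_eq_of_lt hmN, Nat.zero_add,
    Nat.add_mul_mod_self_right, Nat.mod_eq_of_lt hmN] at this
  exact this hiu.symm

/-- Maker claims the free cell number `m`. -/
theorem linv_claim {W N : ℕ} {M B : Finset (ℤ × ℤ)} {Mm F XS r m : ℕ} {u : ℕ → ℤ × ℤ}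
    (hI : LInv W N M B Mm F XS r u) (hm : Nat.testBit F m = true) (hmB : cellOf W m ∉ B) :
    LInv W N (insert (cellOf W m) M) B (Mm ||| 2 ^ m) (F ^^^ 2 ^ m) XS r u := by
  have hbit : ∀ y, Nat.testBit (F ^^^ 2 ^ m) y = true → Nat.testBit F y = true ∧ y ≠ m := by
    intro y hy
    rw [Nat.testBit_xor, Nat.testBit_two_pow] at hy
    have hne : y ≠ m := by
      rintro rfl
      simp [hm] at hy
    have hne' : ¬ m = y := fun h => hne h.symm
    exact ⟨by simpa [hne'] using hy, hne⟩
  refine ⟨?_, ?_, ?_, ?_, hI.excl⟩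
  · rw [Finset.disjoint_insert_left]
    exact ⟨hmB, hI.disj⟩
  · intro i hi
    rw [Nat.testBit_or, Nat.testBit_two_pow, Bool.or_eq_true] at hi
    rcases hi with hi | hi
    · exact Finset.mem_insert_of_mem (hI.maker i hi)
    · have : m = i := by simpa using hi
      rw [← this]
      exact Finset.mem_insert_self _ _
  · intro y hy
    obtain ⟨h1, h2⟩ := hbit y hy
    refine ⟨(hI.freeM y h1).1, ?_⟩
    rw [Finset.mem_insert, not_or]
    exact ⟨fun h => h2 (cellOf_injective W h), (hI.freeM y h1).2⟩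
  · intro y hy hB
    exact hI.freeB y (hbit y hy).1 hB

/-- Breaker replies `c` (a legal reply): a new unknown. -/
theorem linv_unknown {W N : ℕ} {M B : Finset (ℤ × ℤ)} {Mm F XS r : ℕ} {u : ℕ → ℤ × ℤ}
    {c : ℤ × ℤ} (hI : LInv W N M B Mm F XS r u) (hc : c ∉ M) :
    LInv W N M (insert c B) Mm F XS (r + 1) (Function.update u r c) := by
  refine ⟨?_, hI.maker, hI.freeM, ?_, ?_⟩
  · rw [Finset.disjoint_insert_right]
    exact ⟨hc, hI.disj⟩
  · intro y hy hB
    rcases Finset.mem_insert.1 hB with h | h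
    · exact ⟨r, Nat.lt_succ_self r, by rw [Function.update_self]; exact h⟩
    · obtain ⟨i, hi, hiu⟩ := hI.freeB y hy h
      refine ⟨i, Nat.lt_succ_of_lt hi, ?_⟩
      rw [Function.update_of_ne (Nat.ne_of_lt hi)]
      exact hiu
  · intro t ht
    obtain ⟨h1, h2⟩ := hI.excl t ht
    have hN : 0 < N := by
      rcases Nat.eq_zero_or_pos N with h | h
      · rw [h] at h1; omega
      · exact h
    have hdiv : t / N < r := Nat.div_lt_of_lt_mul (by rwa [Nat.mul_comm] at h1)
    refine ⟨Nat.lt_of_lt_of_le h1 (Nat.mul_le_mul_right N (Nat.le_succ r)), ?_⟩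
    rw [Function.update_of_ne (Nat.ne_of_lt hdiv)]
    exact h2

/-- Breaker replies at the known free cell number `e`. -/
theorem linv_known {W N : ℕ} {M B : Finset (ℤ × ℤ)} {Mm F XS r e : ℕ} {u : ℕ → ℤ × ℤ}
    (hI : LInv W N M B Mm F XS r u) (he : Nat.testBit F e = true) :
    LInv W N M (insert (cellOf W e) B) Mm (F ^^^ 2 ^ e) XS r u := by
  have hbit : ∀ y, Nat.testBit (F ^^^ 2 ^ e) y = true → Nat.testBit F y = true ∧ y ≠ e := by
    intro y hy
    rw [Nat.testBit_xor, Nat.testBit_two_pow] at hy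
    have hne : y ≠ e := by
      rintro rfl
      simp [he] at hy
    have hne' : ¬ e = y := fun h => hne h.symm
    exact ⟨by simpa [hne'] using hy, hne⟩
  refine ⟨?_, hI.maker, fun y hy => hI.freeM y (hbit y hy).1, ?_, hI.excl⟩
  · rw [Finset.disjoint_insert_right]
    exact ⟨(hI.freeM e he).2, hI.disj⟩
  · intro y hy hB
    obtain ⟨h1, h2⟩ := hbit y hy
    rcases Finset.mem_insert.1 hB with h | h
    · exact absurd (cellOf_injective W h) h2
    · exact hI.freeB y h1 h

/-- new exclusions for the unknown `i`. -/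
theorem linv_excl {W N : ℕ} (hN : 0 < N) {M B : Finset (ℤ × ℤ)} {Mm F XS r i S : ℕ}
    {u : ℕ → ℤ × ℤ} (hI : LInv W N M B Mm F XS r u) (hi : i < r) (hS : S < 2 ^ N)
    (hu : ∀ y, Nat.testBit S y = true → u i ≠ cellOf W y) :
    LInv W N M B Mm F (XS ||| S <<< (i * N)) r u := by
  refine ⟨hI.disj, hI.maker, hI.freeM, hI.freeB, ?_⟩
  intro t ht
  rw [Nat.testBit_or, Bool.or_eq_true] at ht
  rcases ht with ht | ht
  · exact hI.excl t ht
  · rw [Nat.testBit_shiftLeft, Bool.and_eq_true, decide_eq_true_eq] at ht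
    obtain ⟨hge, hbit⟩ := ht
    have hyN := lt_of_testBit_of_lt hS hbit
    have e : t = (t - i * N) + i * N := by omega
    have hdiv : t / N = i := by
      rw [e, Nat.add_mul_div_right _ _ hN, Nat.div_eq_of_lt hyN, Nat.zero_add]
    have hmod : t % N = t - i * N := by
      rw [e, Nat.add_mul_mod_self_right, Nat.mod_eq_of_lt hyN, Nat.add_sub_cancel]
    refine ⟨?_, ?_⟩
    · have : (i + 1) * N ≤ r * N := Nat.mul_le_mul_right N hi
      rw [Nat.succ_mul] at this
      omega
    · rw [hdiv, hmod]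
      exact hu _ hbit

/-- Maker claims `m`, then `e` completing a copy, unless Breaker replied `e`. -/
theorem lwins_threat {W T N d Mm F XS r m e a o : ℕ} {M B : Finset (ℤ × ℤ)} {u : ℕ → ℤ × ℤ}
    (hT : TableOK W T)
    (hI : LInv W N (insert (cellOf W m) M) B (Mm ||| 2 ^ m) (F ^^^ 2 ^ m) XS r u)
    (he : Nat.testBit (F ^^^ 2 ^ m) e = true) (heB : cellOf W e ∉ B)
    (hw : winOK W T (Mm ||| 2 ^ m ||| 2 ^ e) a o = true)
    {c : ℤ × ℤ} (hce : c ≠ cellOf W e) :
    Wins (d + 1) (insert (cellOf W m) M) (insert c B) := by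
  have hI'' := linv_claim hI he heB
  refine Or.inr ⟨cellOf W e, (hI.freeM e he).2, ?_, fun c' _ _ _ => ?_⟩
  · rw [Finset.mem_insert, not_or]
    exact ⟨fun h => hce h.symm, heB⟩
  · exact wins_of_copy (winOK_sound hT hI''.maker hw)

/-- **Soundness of the lazy checker.** -/
theorem lchk_sound (W T N : ℕ) (L : List (ℕ × ℕ × ℕ × ℕ)) (hT : TableOK W T) (hN : 0 < N)
    (hL : ∀ l ∈ L, LemOK W l) :
    ∀ (t : LTree) (d Mm F XS r : ℕ), lchk W T N L t d Mm F XS (comb N r) (r * N) = true →
      LClaim W N d Mm F XS r := by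
  intro t
  induction t with
  | win a o =>
    intro d Mm F XS r h M B u hI
    rw [lchk_win] at h
    exact wins_of_copy (winOK_sound hT hI.maker h)
  | ref j k =>
    intro d Mm F XS r h M B u hI
    rw [lchk_ref] at h
    unfold lrefOK at h
    split at h
    · rename_i d' P Z w hj
      simp only [Bool.and_eq_true, Nat.ble_eq] at h
      obtain ⟨h1, h2, h3, h4, h5⟩ := h
      obtain ⟨hz, hb⟩ := hL _ (List.mem_of_getElem? hj)
      simp only at hz hb
      have hz' := winsZ_translate hz hb h2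
      refine wins_mono_le h1 (hz' M B hI.disj
        (fun i hi => hI.maker i (testBit_of_subm h3 hi)) (fun z hz => ?_))
      -- the zone cell `z` is Maker's or claimable
      by_cases hzM : Nat.testBit Mm z = true
      · exact fun hB => Finset.disjoint_left.1 hI.disj (hI.maker z hzM) hB
      · have hY : Nat.testBit ((Z <<< k) ^^^ ((Z <<< k) &&& Mm)) z = true := by
          rw [Nat.testBit_xor, Nat.testBit_and, hz]
          simp [hzM]
        have hF := testBit_of_subm h4 hY
        intro hB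
        obtain ⟨i, hi, hiu⟩ := hI.freeB z hF hB
        have hYlt : (Z <<< k) ^^^ ((Z <<< k) &&& Mm) < 2 ^ N := by
          apply Nat.lt_pow_two_of_testBit
          intro y hy
          by_contra hcon
          have hcon' : Nat.testBit ((Z <<< k) ^^^ ((Z <<< k) &&& Mm)) y = true := by
            simpa using hcon
          have := (hI.freeM y (testBit_of_subm h4 hcon')).1
          omega
        have hbit := testBit_of_subm h5 (testBit_mul_comb hYlt hY r i hi)
        have hzN := (hI.freeM z hF).1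
        have := (hI.excl _ hbit).2
        rw [Nat.add_mul_div_right _ _ hN, Nat.div_eq_of_lt hzN, Nat.zero_add,
          Nat.add_mul_mod_self_right, Nat.mod_eq_of_lt hzN] at this
        exact this hiu.symm
    · cases h
  | fin m a o =>
    intro d Mm F XS r h M B u hI
    rw [lchk_fin] at h
    simp only [Bool.and_eq_true, Nat.ble_eq] at h
    obtain ⟨h1, h2, h3⟩ := h
    obtain ⟨d, rfl⟩ : ∃ d', d = d' + 1 := ⟨d - 1, by omega⟩
    obtain ⟨hm, hmM, hmB⟩ := allowed_sound hN hI h2
    have hI' := linv_claim hI hm hmB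
    refine Or.inr ⟨cellOf W m, hmM, hmB, fun c _ _ _ => ?_⟩
    exact wins_of_copy (winOK_sound hT hI'.maker h3)
  | dbl m e1 a1 o1 e2 a2 o2 =>
    intro d Mm F XS r h M B u hI
    rw [lchk_dbl] at h
    simp only [Bool.and_eq_true, Nat.ble_eq, Bool.not_eq_true'] at h
    obtain ⟨h1, h2, h3, h4, h5', h6', h7', h8, h9⟩ := h
    have h5 : m ≠ e1 := Nat.ne_of_beq_eq_false h5'
    have h6 : m ≠ e2 := Nat.ne_of_beq_eq_false h6'
    have h7 : e1 ≠ e2 := Nat.ne_of_beq_eq_false h7'
    obtain ⟨d, rfl⟩ : ∃ d', d = d' + 2 := ⟨d - 2, by omega⟩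
    obtain ⟨hm, hmM, hmB⟩ := allowed_sound hN hI h2
    obtain ⟨he1, _, he1B⟩ := allowed_sound hN hI h3
    obtain ⟨he2, _, he2B⟩ := allowed_sound hN hI h4
    have hI' := linv_claim hI hm hmB
    refine Or.inr ⟨cellOf W m, hmM, hmB, fun c hc1 hc2 hc3 => ?_⟩
    by_cases hce : c = cellOf W e1
    · refine lwins_threat hT hI' (testBit_after he2 h6) he2B h9 ?_
      rw [hce]
      exact fun h => h7 (cellOf_injective W h)
    · exact lwins_threat hT hI' (testBit_after he1 h5) he1B h8 hce
  | force m e a o t ih =>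
    intro d Mm F XS r h M B u hI
    rw [lchk_force] at h
    simp only [Bool.and_eq_true, Nat.ble_eq, Bool.not_eq_true'] at h
    obtain ⟨h1, h2, h3, h4', h5, h6⟩ := h
    have h4 : m ≠ e := Nat.ne_of_beq_eq_false h4'
    obtain ⟨d, rfl⟩ : ∃ d', d = d' + 2 := ⟨d - 2, by omega⟩
    obtain ⟨hm, hmM, hmB⟩ := allowed_sound hN hI h2
    obtain ⟨he, _, heB⟩ := allowed_sound hN hI h3
    have hI' := linv_claim hI hm hmB
    have he' := testBit_after he h4
    have hrec := ih (d + 2 - 1) (Mm ||| 2 ^ m) (F ^^^ 2 ^ m ^^^ 2 ^ e) XS r h6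
    have e1 : d + 2 - 1 = d + 1 := by omega
    rw [e1] at hrec
    refine Or.inr ⟨cellOf W m, hmM, hmB, fun c hc1 hc2 hc3 => ?_⟩
    by_cases hce : c = cellOf W e
    · rw [hce]
      exact hrec _ _ u (linv_known hI' he')
    · exact lwins_threat hT hI' he' heB h5 hce
  | move m t ih =>
    intro d Mm F XS r h M B u hI
    rw [lchk_move] at h
    simp only [Bool.and_eq_true, Nat.ble_eq] at h
    obtain ⟨h1, h2, h3⟩ := h
    obtain ⟨d, rfl⟩ : ∃ d', d = d' + 1 := ⟨d - 1, by omega⟩
    obtain ⟨hm, hmM, hmB⟩ := allowed_sound hN hI h2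
    have hI' := linv_claim hI hm hmB
    have h3' : lchk W T N L t (d + 1 - 1) (Mm ||| 2 ^ m) (F ^^^ 2 ^ m) XS (comb N (r + 1))
        ((r + 1) * N) = true := by
      rw [Nat.succ_mul]
      exact h3
    have hrec := ih (d + 1 - 1) (Mm ||| 2 ^ m) (F ^^^ 2 ^ m) XS (r + 1) h3'
    rw [Nat.add_sub_cancel] at hrec
    refine Or.inr ⟨cellOf W m, hmM, hmB, fun c hc1 hc2 hc3 => ?_⟩
    refine hrec _ _ _ (linv_unknown hI' ?_)
    rw [Finset.mem_insert, not_or]
    exact ⟨hc3, hc1⟩
  | split i x tin tout ihin ihout =>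
    intro d Mm F XS r h M B u hI
    rw [lchk_split] at h
    simp only [Bool.and_eq_true, Nat.blt_eq] at h
    obtain ⟨h1, h2, h3, h4⟩ := h
    have hi : i < r := Nat.lt_of_mul_lt_mul_right h1
    by_cases hu : u i = cellOf W x
    · refine ihin d Mm F _ r h3 M B u (linv_excl hN hI hi ?_ fun y hy => ?_)
      · apply Nat.lt_pow_two_of_testBit
        intro y hy
        rw [Nat.testBit_xor, Nat.testBit_two_pow_sub_one, Nat.testBit_two_pow]
        have h1' : ¬ y < N := by omega
        have h2' : ¬ x = y := by omega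
        simp [h1', h2']
      · rw [Nat.testBit_xor, Nat.testBit_two_pow_sub_one, Nat.testBit_two_pow] at hy
        have hne : x ≠ y := by
          rintro rfl
          simp [h2] at hy
        rw [hu]
        exact fun h => hne (cellOf_injective W h)
    · refine ihout d Mm F _ r h4 M B u (linv_excl hN hI hi ?_ fun y hy => ?_)
      · exact Nat.pow_lt_pow_right (by norm_num) h2
      · rw [Nat.testBit_two_pow] at hy
        have : x = y := by simpa using hy
        rw [← this]
        exact hu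
  | splitg i S tin tout ihin ihout =>
    intro d Mm F XS r h M B u hI
    rw [lchk_splitg] at h
    simp only [Bool.and_eq_true, Nat.blt_eq] at h
    obtain ⟨h1, h2, h3, h4⟩ := h
    have hi : i < r := Nat.lt_of_mul_lt_mul_right h1
    by_cases hu : ∃ x, Nat.testBit S x = true ∧ u i = cellOf W x
    · obtain ⟨x, hx, hux⟩ := hu
      refine ihin d Mm F _ r h3 M B u (linv_excl hN hI hi ?_ fun y hy => ?_)
      · apply Nat.lt_pow_two_of_testBit
        intro y hy
        rw [Nat.testBit_xor, Nat.testBit_two_pow_sub_one]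
        have h1' : ¬ y < N := by omega
        have h2' : Nat.testBit S y = false :=
          Nat.testBit_lt_two_pow (Nat.lt_of_lt_of_le h2 (Nat.pow_le_pow_right (by norm_num) hy))
        simp [h1', h2']
      · rw [Nat.testBit_xor, Nat.testBit_two_pow_sub_one] at hy
        have hne : x ≠ y := by
          rintro rfl
          have hxN := lt_of_testBit_of_lt h2 hx
          simp [hxN, hx] at hy
        rw [hux]
        exact fun h => hne (cellOf_injective W h)
    · refine ihout d Mm F _ r h4 M B u (linv_excl hN hI hi h2 fun y hy => ?_)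
      exact fun h => hu ⟨y, hy, h⟩

/-! ### Lemmas: top-level check -/

/-- the whole check of the lemma `(d, P, Z, w)` by the lazy tree `t` (`H` = number of rows of the
window, `N` = number of cells per unknown). -/
noncomputable def lchkTop (W T H N : ℕ) (L : List (ℕ × ℕ × ℕ × ℕ)) (t : LTree) (d P Z w : ℕ) :
    Bool :=
  Nat.blt 0 N && (Nat.blt Z (Nat.pow 2 N) && (Nat.beq (Nat.land P Z) 0 &&
    (rowsOK W w H (Nat.lor P Z) && lchk W T N L t d P Z 0 0 0)))

/-- **A checked lazy tree proves its zone lemma** (relative to the lemmas it cites). -/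
theorem lemOK_of_lchk {W T H N : ℕ} {L : List (ℕ × ℕ × ℕ × ℕ)} {t : LTree} {d P Z w : ℕ}
    (hT : TableOK W T) (hL : ∀ l ∈ L, LemOK W l) (h : lchkTop W T H N L t d P Z w = true) :
    LemOK W (d, P, Z, w) := by
  classical
  unfold lchkTop at h
  simp only [Bool.and_eq_true, Nat.beq_eq, Nat.blt_eq] at h
  obtain ⟨hN, hZ, hPZ, h2, h3⟩ := h
  have hPZ' : P &&& Z = 0 := hPZ
  have hZ' : Z < 2 ^ N := hZ
  have h3' : lchk W T N L t d P Z 0 (comb N 0) (0 * N) = true := by
    rw [Nat.zero_mul]
    exact h3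
  have hcl := lchk_sound W T N L hT hN hL t d P Z 0 0 h3'
  refine ⟨?_, rowsOK_sound H _ h2⟩
  intro M B hd hP hZB
  refine wins_mono d (Finset.filter_subset
    (fun x => ¬ ∃ i, Nat.testBit Z i = true ∧ x = cellOf W i) M) (Finset.Subset.refl B)
    (hcl _ B (fun _ => (0, 0)) ⟨?_, ?_, ?_, ?_, ?_⟩)
  · exact Finset.disjoint_of_subset_left (Finset.filter_subset _ _) hd
  · intro i hi
    rw [Finset.mem_filter]
    refine ⟨hP i hi, ?_⟩
    rintro ⟨i', hi', heq⟩
    have := cellOf_injective W heq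
    subst this
    have hb := Nat.testBit_and P Z i
    rw [hPZ', hi, hi'] at hb
    simp at hb
  · intro y hy
    refine ⟨lt_of_testBit_of_lt hZ' hy, ?_⟩
    rw [Finset.mem_filter, not_and, not_not]
    exact fun _ => ⟨y, hy, rfl⟩
  · intro y hy hB
    exact absurd hB (hZB y hy)
  · intro t ht
    simp at ht

end Crest.Agent.LibS0047Z
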