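import Mathlib
import Crest.Prelude.Def_PolyominoGame
import Crest.Agent.Lib_S0047_Game
import Crest.Agent.Lib_S0047_Zone

/-!
# S0047 helper: symmetric images of zone lemmas

The Snaky game is invariant under the eight signed coordinate permutations of the board (and under
translations). Here: a zone lemma `LemOK W (d, P, Z, w)` gives the zone lemma for the image masks
`P'`, `Z'` under such a symmetry; the relation between the masks is checked by the kernel
(`symTop`).

The symmetry with parameters `sw n1 n2 : Bool` and `kx ky : ℕ` maps the cell `(x, y)` to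
`(± x₁ + kx, ± y₁ + ky)`, where `(x₁, y₁) = (y, x)` if `sw` and `(x, y)` otherwise, and the sign
of the first (second) coordinate is `-` iff `n1` (`n2`).
-/

set_option autoImplicit false

namespace Crest.Agent.LibS0047Z

open Crest.CombinatoricsR.PolyominoGame
open Crest.Agent.LibS0047

/-- the sign `-1` (if `b`) or `1` -/
def sgnB (b : Bool) : ℤ := cond b (-1) 1

theorem sgnB_mul_self (b : Bool) : sgnB b * sgnB b = 1 := by cases b <;> rfl

theorem sgnB_cases (b : Bool) : sgnB b = 1 ∨ sgnB b = -1 := by cases b <;> simp [sgnB]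

/-- a symmetry of the board: signed coordinate permutation followed by the translation by `c` -/
def symF (sw n1 n2 : Bool) (c p : ℤ × ℤ) : ℤ × ℤ :=
  (sgnB n1 * (cond sw p.2 p.1) + c.1, sgnB n2 * (cond sw p.1 p.2) + c.2)

/-- the inverse symmetry -/
def symG (sw n1 n2 : Bool) (c q : ℤ × ℤ) : ℤ × ℤ :=
  (cond sw (sgnB n2 * (q.2 - c.2)) (sgnB n1 * (q.1 - c.1)),
   cond sw (sgnB n1 * (q.1 - c.1)) (sgnB n2 * (q.2 - c.2)))

theorem symF_symG (sw n1 n2 : Bool) (c q : ℤ × ℤ) : symF sw n1 n2 c (symG sw n1 n2 c q) = q := by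
  have h1 := sgnB_mul_self n1
  have h2 := sgnB_mul_self n2
  cases sw <;> simp only [symF, symG, cond_true, cond_false] <;> ext <;> simp only <;>
    [rw [← mul_assoc, h1]; rw [← mul_assoc, h2]; rw [← mul_assoc, h1]; rw [← mul_assoc, h2]] <;>
    ring

theorem symG_symF (sw n1 n2 : Bool) (c p : ℤ × ℤ) : symG sw n1 n2 c (symF sw n1 n2 c p) = p := by
  have h1 := sgnB_mul_self n1
  have h2 := sgnB_mul_self n2
  cases sw <;> simp only [symF, symG, cond_true, cond_false] <;> ext <;> simp only <;>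
    [(rw [add_sub_cancel_right, ← mul_assoc, h1]); (rw [add_sub_cancel_right, ← mul_assoc, h2]);
     (rw [add_sub_cancel_right, ← mul_assoc, h2]); (rw [add_sub_cancel_right, ← mul_assoc, h1])] <;>
    ring

/-- image of a finite set of cells under a symmetry -/
def symS (sw n1 n2 : Bool) (c : ℤ × ℤ) (S : Finset (ℤ × ℤ)) : Finset (ℤ × ℤ) :=
  S.image (symF sw n1 n2 c)

theorem mem_symS {sw n1 n2 : Bool} {c x : ℤ × ℤ} {S : Finset (ℤ × ℤ)} :
    x ∈ symS sw n1 n2 c S ↔ symG sw n1 n2 c x ∈ S := by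
  unfold symS
  rw [Finset.mem_image]
  constructor
  · rintro ⟨y, hy, rfl⟩
    rwa [symG_symF]
  · intro h
    exact ⟨_, h, symF_symG sw n1 n2 c x⟩

theorem symS_insert (sw n1 n2 : Bool) (c x : ℤ × ℤ) (S : Finset (ℤ × ℤ)) :
    symS sw n1 n2 c (insert x S) = insert (symF sw n1 n2 c x) (symS sw n1 n2 c S) := by
  unfold symS
  rw [Finset.image_insert]

theorem containsCopy_symS (sw n1 n2 : Bool) (c : ℤ × ℤ) {M : Finset (ℤ × ℤ)}
    (h : ContainsCopy (↑M : Set (ℤ × ℤ))) :
    ContainsCopy (↑(symS sw n1 n2 c M) : Set (ℤ × ℤ)) := by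
  obtain ⟨t, e1, e2, h1, h2, h3⟩ := h
  have key : ∀ p : ℤ × ℤ, p ∈ M → symF sw n1 n2 c p ∈ (↑(symS sw n1 n2 c M) : Set (ℤ × ℤ)) := by
    intro p hp
    rw [Finset.mem_coe, mem_symS, symG_symF]
    exact hp
  have hs1 := sgnB_cases n1
  have hs2 := sgnB_cases n2
  cases sw
  · -- no swap
    refine ⟨symF false n1 n2 c t, sgnB n1 * e1, sgnB n2 * e2, ?_, ?_, ?_⟩
    · rcases hs1 with a | a <;> rcases h1 with b | b <;> rw [a, b] <;> norm_num
    · rcases hs2 with a | a <;> rcases h2 with b | b <;> rw [a, b] <;> norm_num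
    · rcases h3 with h3 | h3
      · left
        intro p hp
        have := key _ (h3 p hp)
        convert this using 1
        ext <;> simp [symF] <;> ring
      · right
        intro p hp
        have := key _ (h3 p hp)
        convert this using 1
        ext <;> simp [symF] <;> ring
  · -- swap
    refine ⟨symF true n1 n2 c t, sgnB n1 * e2, sgnB n2 * e1, ?_, ?_, ?_⟩
    · rcases hs1 with a | a <;> rcases h2 with b | b <;> rw [a, b] <;> norm_num
    · rcases hs2 with a | a <;> rcases h1 with b | b <;> rw [a, b] <;> norm_num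
    · rcases h3 with h3 | h3
      · right
        intro p hp
        have := key _ (h3 p hp)
        convert this using 1
        ext <;> simp [symF] <;> ring
      · left
        intro p hp
        have := key _ (h3 p hp)
        convert this using 1
        ext <;> simp [symF] <;> ring

theorem wins_symS (sw n1 n2 : Bool) (c : ℤ × ℤ) : ∀ (d : ℕ) {M B : Finset (ℤ × ℤ)},
    Wins d M B → Wins d (symS sw n1 n2 c M) (symS sw n1 n2 c B)
  | 0, _, _, h => containsCopy_symS sw n1 n2 c h
  | d + 1, M, B, h => by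
    rcases h with h | ⟨m, hm1, hm2, hm3⟩
    · exact Or.inl (containsCopy_symS sw n1 n2 c h)
    · refine Or.inr ⟨symF sw n1 n2 c m, ?_, ?_, fun x hx1 hx2 hx3 => ?_⟩
      · rw [mem_symS, symG_symF]; exact hm1
      · rw [mem_symS, symG_symF]; exact hm2
      · have := hm3 (symG sw n1 n2 c x) (fun h => hx1 (mem_symS.2 h)) (fun h => hx2 (mem_symS.2 h))
          (fun h => hx3 (by rw [← h, symF_symG]))
        have := wins_symS sw n1 n2 c d this
        rw [symS_insert, symS_insert, symF_symG] at this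
        exact this

theorem symS_symG_cancel (sw n1 n2 : Bool) (c : ℤ × ℤ) (S : Finset (ℤ × ℤ)) :
    symS sw n1 n2 c (S.image (symG sw n1 n2 c)) = S := by
  ext x
  rw [mem_symS, Finset.mem_image]
  constructor
  · rintro ⟨y, hy, hxy⟩
    have : x = y := by
      rw [← symF_symG sw n1 n2 c x, ← hxy, symF_symG]
    rw [this]; exact hy
  · intro h
    exact ⟨x, h, rfl⟩

/-- a zone lemma gives the zone lemma for every pair of masks containing the images of its masks
under a symmetry -/
theorem winsZ_sym {W d P Z P' Z' : ℕ} (sw n1 n2 : Bool) (c : ℤ × ℤ) (h : WinsZ W d P Z)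
    (hP : ∀ j, Nat.testBit P j = true →
      ∃ i, Nat.testBit P' i = true ∧ cellOf W i = symF sw n1 n2 c (cellOf W j))
    (hZ : ∀ j, Nat.testBit Z j = true →
      ∃ i, Nat.testBit Z' i = true ∧ cellOf W i = symF sw n1 n2 c (cellOf W j)) :
    WinsZ W d P' Z' := by
  classical
  intro M B hd hP' hZ'
  have key := h (M.image (symG sw n1 n2 c)) (B.image (symG sw n1 n2 c)) ?_ ?_ ?_
  · have := wins_symS sw n1 n2 c d key
    rwa [symS_symG_cancel, symS_symG_cancel] at this
  · rw [Finset.disjoint_left]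
    intro x hx1 hx2
    rw [Finset.mem_image] at hx1 hx2
    obtain ⟨y1, hy1, e1⟩ := hx1
    obtain ⟨y2, hy2, e2⟩ := hx2
    have : y1 = y2 := by
      rw [← symF_symG sw n1 n2 c y1, e1, ← e2, symF_symG]
    subst this
    exact Finset.disjoint_left.1 hd hy1 hy2
  · intro j hj
    obtain ⟨i, hi, e⟩ := hP j hj
    rw [Finset.mem_image]
    exact ⟨cellOf W i, hP' i hi, by rw [e, symG_symF]⟩
  · intro j hj hmem
    obtain ⟨i, hi, e⟩ := hZ j hj
    rw [Finset.mem_image] at hmem
    obtain ⟨y, hy, e2⟩ := hmem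
    have : y = cellOf W i := by
      rw [e, ← e2, symF_symG]
    subst this
    exact hZ' i hi hy

/-! ### The kernel check -/

/-- first coordinate of the image of the cell `j` -/
def tauX (W : ℕ) (sw n1 : Bool) (kx j : ℕ) : ℕ :=
  cond n1 (kx - cond sw (j / W) (j % W)) (cond sw (j / W) (j % W) + kx)

/-- second coordinate of the image of the cell `j` -/
def tauY (W : ℕ) (sw n2 : Bool) (ky j : ℕ) : ℕ :=
  cond n2 (ky - cond sw (j % W) (j / W)) (cond sw (j % W) (j / W) + ky)

/-- the image of the cell `j` lies in the window -/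
def tauOK (W : ℕ) (sw n1 n2 : Bool) (kx ky j : ℕ) : Bool :=
  cond n1 (Nat.ble (cond sw (j / W) (j % W)) kx) true &&
    (cond n2 (Nat.ble (cond sw (j % W) (j / W)) ky) true && Nat.blt (tauX W sw n1 kx j) W)

/-- the number of the image of the cell `j` -/
def tau (W : ℕ) (sw n1 n2 : Bool) (kx ky j : ℕ) : ℕ :=
  tauX W sw n1 kx j + W * tauY W sw n2 ky j

theorem cellOf_tau {W kx ky j : ℕ} {sw n1 n2 : Bool} (h : tauOK W sw n1 n2 kx ky j = true) :
    cellOf W (tau W sw n1 n2 kx ky j) = symF sw n1 n2 ((kx : ℤ), (ky : ℤ)) (cellOf W j) := by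
  unfold tauOK at h
  simp only [Bool.and_eq_true, Nat.blt_eq] at h
  obtain ⟨h1, h2, h3⟩ := h
  have hW : 0 < W := Nat.lt_of_le_of_lt (Nat.zero_le _) h3
  unfold cellOf tau
  rw [Nat.add_mul_mod_self_left, Nat.mod_eq_of_lt h3, Nat.add_mul_div_left _ _ hW,
    Nat.div_eq_of_lt h3, Nat.zero_add]
  unfold symF tauX tauY sgnB
  cases sw <;> cases n1 <;> cases n2 <;>
    simp only [cond_true, cond_false, Nat.ble_eq] at h1 h2 ⊢ <;>
    ext <;> simp only <;> push_cast [Nat.cast_sub, h1, h2] <;> ring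

/-- all cells `j < n` of the mask `P` have their image in the window and in the mask `P'` -/
def symChk (W : ℕ) (sw n1 n2 : Bool) (kx ky P P' : ℕ) : ℕ → Bool
  | 0 => true
  | j + 1 => cond (tb P j) (tauOK W sw n1 n2 kx ky j && tb P' (tau W sw n1 n2 kx ky j)) true &&
      symChk W sw n1 n2 kx ky P P' j

theorem symChk_sound {W kx ky P P' : ℕ} {sw n1 n2 : Bool} : ∀ (n : ℕ),
    symChk W sw n1 n2 kx ky P P' n = true → ∀ j, j < n → Nat.testBit P j = true →
      tauOK W sw n1 n2 kx ky j = true ∧ Nat.testBit P' (tau W sw n1 n2 kx ky j) = true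
  | 0, _, j, hj, _ => absurd hj (Nat.not_lt_zero j)
  | n + 1, h, j, hj, hb => by
    simp only [symChk, Bool.and_eq_true] at h
    obtain ⟨h1, h2⟩ := h
    rcases Nat.lt_succ_iff_lt_or_eq.1 hj with hlt | rfl
    · exact symChk_sound n h2 j hlt hb
    · rw [tb_eq, hb, cond_true, Bool.and_eq_true, tb_eq] at h1
      exact h1

/-- the whole check: the masks `P'`, `Z'` contain the images of `P`, `Z` (`n` = number of cells
looked at) -/
def symTop (W : ℕ) (sw n1 n2 : Bool) (kx ky n P Z P' Z' : ℕ) : Bool :=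
  Nat.blt 0 W && (Nat.blt P (Nat.pow 2 n) && (Nat.blt Z (Nat.pow 2 n) &&
    (symChk W sw n1 n2 kx ky P P' n && symChk W sw n1 n2 kx ky Z Z' n)))

/-- **The symmetric image of a zone lemma.** -/
theorem lemOK_sym {W d P Z w P' Z' n kx ky : ℕ} {sw n1 n2 : Bool} (h : LemOK W (d, P, Z, w))
    (hc : symTop W sw n1 n2 kx ky n P Z P' Z' = true) : LemOK W (d, P', Z', W) := by
  unfold symTop at hc
  simp only [Bool.and_eq_true, Nat.blt_eq] at hc
  obtain ⟨hW, hPn, hZn, hcP, hcZ⟩ := hc
  have hPn' : P < 2 ^ n := hPn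
  have hZn' : Z < 2 ^ n := hZn
  have bound : ∀ {U : ℕ}, U < 2 ^ n → ∀ j, Nat.testBit U j = true → j < n := by
    intro U hU j hj
    by_contra hcon
    have hle : n ≤ j := Nat.le_of_not_lt hcon
    have := Nat.testBit_lt_two_pow
      (Nat.lt_of_lt_of_le hU (Nat.pow_le_pow_right (by norm_num) hle))
    rw [hj] at this
    cases this
  refine ⟨winsZ_sym sw n1 n2 ((kx : ℤ), (ky : ℤ)) h.1 ?_ ?_, fun i _ => Nat.mod_lt i hW⟩
  · intro j hj
    obtain ⟨a, b⟩ := symChk_sound n hcP j (bound hPn' j hj) hj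
    exact ⟨_, b, cellOf_tau a⟩
  · intro j hj
    obtain ⟨a, b⟩ := symChk_sound n hcZ j (bound hZn' j hj) hj
    exact ⟨_, b, cellOf_tau a⟩

end Crest.Agent.LibS0047Z
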