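import Mathlib
import Crest.Prelude.Def_OrderedMatrix

/-!
Design-independent layer for S0066 (ordered copies of a 66 × 66 pattern).

* `IsCopy`, `CopyFree` : ordered copies in matrices over arbitrary preorders.
* `card_le_diff_of_disjoint_copies` : `m` pairwise cell-disjoint copies force distance `≥ m`
  to every copy-free matrix.
* `orderedCopyCount_le_choose_sq` : trivial bound `C(n,k)^2` on the number of copies.
* `small_h` : for ANY pattern `H` and `1 ≤ h ≤ 580` the two conjuncts of S0066 hold (blow-up).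
* `exists_fin_of_design` : padding / transport of a design over arbitrary finite linear orders.
* `statement_of_design` : the frozen statement body from designs for `h ≥ h₀`, `h₀ ≤ 581`.
-/

set_option autoImplicit false

namespace Crest.Agent.Lib_S0066_Reduce

open Crest.CombinatoricsR.OrderedMatrix Finset

/-- `(r, c)` is an ordered copy of the pattern `H` in the matrix `A`. -/
def IsCopy {k : ℕ} {ι κ : Type*} [Preorder ι] [Preorder κ]
    (H : Fin k → Fin k → Bool) (A : ι → κ → Bool) (r : Fin k → ι) (c : Fin k → κ) : Prop :=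
  StrictMono r ∧ StrictMono c ∧ ∀ i j, A (r i) (c j) = H i j

/-- `B` contains no ordered copy of `H`. -/
def CopyFree {k : ℕ} {ι κ : Type*} [Preorder ι] [Preorder κ]
    (H : Fin k → Fin k → Bool) (B : ι → κ → Bool) : Prop :=
  ∀ (r : Fin k → ι) (c : Fin k → κ), ¬ IsCopy H B r c

theorem orderedCopyCount_eq_zero_iff {k n : ℕ} (H : Fin k → Fin k → Bool)
    (B : Fin n → Fin n → Bool) : orderedCopyCount H B = 0 ↔ CopyFree H B := by
  unfold orderedCopyCount CopyFree IsCopy
  rw [Fintype.card_eq_zero_iff]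
  constructor
  · intro h r c hc
    exact h.false ⟨(r, c), hc⟩
  · intro h
    exact ⟨fun x => h x.1.1 x.1.2 x.2⟩

theorem orderedCopyCount_eq_natCard {k n : ℕ} (H : Fin k → Fin k → Bool)
    (A : Fin n → Fin n → Bool) :
    orderedCopyCount H A =
      Nat.card {rc : (Fin k → Fin n) × (Fin k → Fin n) // IsCopy H A rc.1 rc.2} := by
  unfold orderedCopyCount IsCopy
  rw [Nat.card_eq_fintype_card]

/-- `m` pairwise cell-disjoint copies of `H` in `A` force at least `m` differing cells between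
`A` and any copy-free `B`. -/
theorem card_le_diff_of_disjoint_copies {k : ℕ} {ι κ : Type*} [Preorder ι] [Preorder κ]
    [Fintype ι] [Fintype κ] {σ : Type*} [Fintype σ]
    (H : Fin k → Fin k → Bool) (A B : ι → κ → Bool)
    (r : σ → Fin k → ι) (c : σ → Fin k → κ)
    (hcopy : ∀ s, IsCopy H A (r s) (c s))
    (hdisj : ∀ s s' i j i' j', r s i = r s' i' → c s j = c s' j' → s = s')
    (hB : CopyFree H B) :
    Fintype.card σ ≤ (univ.filter fun rc : ι × κ => A rc.1 rc.2 ≠ B rc.1 rc.2).card := by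
  classical
  have hex : ∀ s, ∃ ij : Fin k × Fin k, B (r s ij.1) (c s ij.2) ≠ H ij.1 ij.2 := by
    intro s
    by_contra hcon
    push Not at hcon
    exact hB (r s) (c s) ⟨(hcopy s).1, (hcopy s).2.1, fun i j => hcon (i, j)⟩
  choose ij hij using hex
  rw [← Finset.card_univ]
  refine Finset.card_le_card_of_injOn (fun s => (r s (ij s).1, c s (ij s).2)) ?_ ?_
  · intro s _
    simp only [Finset.coe_filter, Finset.mem_univ, true_and, Set.mem_ofPred_eq]
    rw [(hcopy s).2.2]
    exact fun h => hij s h.symm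
  · intro s _ s' _ h
    simp only [Prod.mk.injEq] at h
    exact hdisj s s' _ _ _ _ h.1 h.2

/-- The number of strictly monotone maps `Fin k → Fin n` is at most `C(n, k)`. -/
theorem card_strictMono_le_choose (k n : ℕ) :
    Fintype.card {r : Fin k → Fin n // StrictMono r} ≤ n.choose k := by
  classical
  have h1 : Fintype.card {r : Fin k → Fin n // StrictMono r} ≤
      Fintype.card {s : Finset (Fin n) // s ∈ Finset.powersetCard k (univ : Finset (Fin n))} := by
    refine Fintype.card_le_of_injective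
      (fun r => ⟨univ.image r.1, ?_⟩) ?_
    · rw [Finset.mem_powersetCard]
      refine ⟨Finset.subset_univ _, ?_⟩
      rw [Finset.card_image_of_injective _ r.2.injective]
      simp
    · intro r r' h
      simp only [Subtype.mk.injEq] at h
      have hc : (univ.image r.1).card = k := by
        rw [Finset.card_image_of_injective _ r.2.injective]; simp
      have e1 : r.1 = (univ.image r.1).orderEmbOfFin hc :=
        Finset.orderEmbOfFin_unique hc (fun x => Finset.mem_image_of_mem _ (Finset.mem_univ x)) r.2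
      have e2 : r'.1 = (univ.image r.1).orderEmbOfFin hc :=
        Finset.orderEmbOfFin_unique hc
          (fun x => h ▸ Finset.mem_image_of_mem _ (Finset.mem_univ x)) r'.2
      exact Subtype.ext (e1.trans e2.symm)
  refine h1.trans ?_
  rw [Fintype.card_coe, Finset.card_powersetCard]
  simp

theorem orderedCopyCount_le_choose_sq {k n : ℕ} (H : Fin k → Fin k → Bool)
    (A : Fin n → Fin n → Bool) : orderedCopyCount H A ≤ (n.choose k) ^ 2 := by
  classical
  unfold orderedCopyCount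
  have h1 : Fintype.card {rc : (Fin k → Fin n) × (Fin k → Fin n) //
      StrictMono rc.1 ∧ StrictMono rc.2 ∧ ∀ i j : Fin k, A (rc.1 i) (rc.2 j) = H i j} ≤
      Fintype.card ({r : Fin k → Fin n // StrictMono r} × {r : Fin k → Fin n // StrictMono r}) := by
    refine Fintype.card_le_of_injective
      (fun rc => (⟨rc.1.1, rc.2.1⟩, ⟨rc.1.2, rc.2.2.1⟩)) ?_
    intro rc rc' h
    simp only [Prod.mk.injEq, Subtype.mk.injEq] at h
    exact Subtype.ext (Prod.ext h.1 h.2)
  refine h1.trans ?_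
  rw [Fintype.card_prod, sq]
  exact Nat.mul_le_mul (card_strictMono_le_choose k n) (card_strictMono_le_choose k n)

theorem num_aux (e : ℕ) (he : e = 58 * 10) (h : ℕ) (h2 : h ≤ e) :
    (386 * h + 2) ^ 2 * 2 ^ h ≤ (Nat.factorial 66) ^ 2 := by
  have h3 : 386 * h + 2 ≤ 386 * e + 2 := by omega
  have h5 : (386 * e + 2) ^ 2 * 2 ^ e ≤ (Nat.factorial 66) ^ 2 := by
    subst he
    rw [pow_mul]
    norm_num [Nat.factorial]
  exact le_trans
    (Nat.mul_le_mul (Nat.pow_le_pow_left h3 2) (Nat.pow_le_pow_right (by norm_num) h2)) h5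

theorem num_small (h : ℕ) (h2 : h ≤ 580) : (386 * h + 2) ^ 2 * 2 ^ h ≤ (Nat.factorial 66) ^ 2 :=
  num_aux 580 (by norm_num) h h2

/-- The blow-up of a pattern `H : Fin (m+1) → Fin (m+1) → Bool` with block length `t`. -/
def blowUp {m n : ℕ} (H : Fin (m + 1) → Fin (m + 1) → Bool) (t : ℕ) :
    Fin n → Fin n → Bool :=
  fun x y => H ⟨min (x.1 / t) m, by omega⟩ ⟨min (y.1 / t) m, by omega⟩

theorem blowUp_far {m n : ℕ} (H : Fin (m + 1) → Fin (m + 1) → Bool) (t N : ℕ)
    (hN : N ≤ t) (ht : (m + 1) * t ≤ n) (B : Fin n → Fin n → Bool)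
    (hB : CopyFree H B) :
    N * N ≤ (univ.filter fun rc : Fin n × Fin n =>
      blowUp H t rc.1 rc.2 ≠ B rc.1 rc.2).card := by
  classical
  have hbound : ∀ (i : Fin (m + 1)) (a : Fin N), i.1 * t + a.1 < n := by
    intro i a
    have h1 : i.1 * t + a.1 < i.1 * t + t := by have := a.2; omega
    have h2 : i.1 * t + t = (i.1 + 1) * t := by ring
    have h3 : (i.1 + 1) * t ≤ (m + 1) * t := Nat.mul_le_mul_right t (by have := i.2; omega)
    omega
  have hdiv : ∀ (i : Fin (m + 1)) (a : Fin N), (i.1 * t + a.1) / t = i.1 := by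
    intro i a
    apply Nat.div_eq_of_lt_le
    · omega
    · have h2 : i.1 * t + t = (i.1 + 1) * t := by ring
      have := a.2
      omega
  have hmod : ∀ (i : Fin (m + 1)) (a : Fin N), (i.1 * t + a.1) % t = a.1 := by
    intro i a
    rw [Nat.mul_add_mod_self_right]
    exact Nat.mod_eq_of_lt (lt_of_lt_of_le a.2 hN)
  have key := card_le_diff_of_disjoint_copies (σ := Fin N × Fin N) H (blowUp H t) B
    (fun s i => ⟨i.1 * t + s.1.1, hbound i s.1⟩) (fun s j => ⟨j.1 * t + s.2.1, hbound j s.2⟩)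
    ?_ ?_ hB
  · simpa using key
  · intro s
    have htpos : 0 < t := lt_of_le_of_lt (Nat.zero_le _) (lt_of_lt_of_le s.1.2 hN)
    refine ⟨?_, ?_, ?_⟩
    · intro i i' hii
      show i.1 * t + s.1.1 < i'.1 * t + s.1.1
      have : i.1 * t < i'.1 * t := Nat.mul_lt_mul_of_pos_right hii htpos
      omega
    · intro i i' hii
      show i.1 * t + s.2.1 < i'.1 * t + s.2.1
      have : i.1 * t < i'.1 * t := Nat.mul_lt_mul_of_pos_right hii htpos
      omega
    · intro i j
      unfold blowUp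
      simp only [hdiv]
      congr 1
      · apply Fin.ext
        show min i.1 m = i.1
        have := i.2; omega
      · apply Fin.ext
        show min j.1 m = j.1
        have := j.2; omega
  · intro s s' i j i' j' h1 h2
    have e1 : i.1 * t + s.1.1 = i'.1 * t + s'.1.1 := congrArg Fin.val h1
    have e2 : j.1 * t + s.2.1 = j'.1 * t + s'.2.1 := congrArg Fin.val h2
    have f1 := congrArg (· % t) e1
    have f2 := congrArg (· % t) e2
    simp only [hmod] at f1 f2
    exact Prod.ext (Fin.ext f1) (Fin.ext f2)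


/-- SMALL `h`: for any pattern `H` and `1 ≤ h ≤ 580`, the blow-up of `H` satisfies both
conjuncts of the frozen statement S0066. -/
theorem small_h (H : Fin 66 → Fin 66 → Bool) (h : ℕ) (h1 : 1 ≤ h) (h2 : h ≤ 580) :
    ∃ A : Fin ((386 * h + 2) * 2 ^ h) → Fin ((386 * h + 2) * 2 ^ h) → Bool,
      (∀ B : Fin ((386 * h + 2) * 2 ^ h) → Fin ((386 * h + 2) * 2 ^ h) → Bool,
        orderedCopyCount H B = 0 →
          ((386 * (h : ℝ) + 2) ^ 2)⁻¹ * (((386 * h + 2) * 2 ^ h : ℕ) : ℝ) ^ 2 ≤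
            ((Finset.univ.filter (fun rc : Fin ((386 * h + 2) * 2 ^ h) × Fin ((386 * h + 2) * 2 ^ h) =>
              A rc.1 rc.2 ≠ B rc.1 rc.2)).card : ℝ)) ∧
      (orderedCopyCount H A : ℝ) / (((386 * h + 2) * 2 ^ h : ℕ) : ℝ) ^ 132 ≤
        ((386 * (h : ℝ) + 2) ^ 2)⁻¹ * (2 : ℝ)⁻¹ ^ h := by
  set n : ℕ := (386 * h + 2) * 2 ^ h with hn
  have hkpos : (0 : ℝ) < 386 * (h : ℝ) + 2 := by positivity
  have h2pos : (0 : ℝ) < (2 : ℝ) ^ h := by positivity
  have hncast : (n : ℝ) = (386 * (h : ℝ) + 2) * (2 : ℝ) ^ h := by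
    rw [hn]; push_cast; ring
  have hnpos : (0 : ℝ) < (n : ℝ) := by rw [hncast]; positivity
  refine ⟨blowUp (m := 65) H (n / 66), ?_, ?_⟩
  · intro B hB
    rw [orderedCopyCount_eq_zero_iff] at hB
    have hN : 2 ^ h ≤ n / 66 := by
      rw [Nat.le_div_iff_mul_le (by norm_num)]
      rw [hn, mul_comm]
      exact Nat.mul_le_mul_right _ (by omega)
    have ht : (65 + 1) * (n / 66) ≤ n := Nat.mul_div_le n 66
    have key := blowUp_far H (n / 66) (2 ^ h) hN ht B hB
    have key' : ((2 ^ h * 2 ^ h : ℕ) : ℝ) ≤ _ := Nat.cast_le.mpr key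
    refine le_trans (le_of_eq ?_) key'
    rw [hncast]
    push_cast
    field_simp
  · have hc := orderedCopyCount_le_choose_sq H (blowUp (m := 65) H (n / 66) : Fin n → Fin n → Bool)
    have hc' : ((orderedCopyCount H (blowUp (m := 65) H (n / 66) : Fin n → Fin n → Bool) : ℕ) : ℝ)
        ≤ ((n.choose 66 : ℕ) : ℝ) ^ 2 := by exact_mod_cast hc
    have hch : ((n.choose 66 : ℕ) : ℝ) ≤ (n : ℝ) ^ 66 / (Nat.factorial 66 : ℝ) :=
      Nat.choose_le_pow_div 66 n
    have hfpos : (0 : ℝ) < (Nat.factorial 66 : ℝ) := by exact_mod_cast Nat.factorial_pos 66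
    have hnum : ((386 * (h : ℝ) + 2) ^ 2 * (2 : ℝ) ^ h) ≤ (Nat.factorial 66 : ℝ) ^ 2 := by
      have := num_small h h2
      exact_mod_cast this
    have hsq : ((n.choose 66 : ℕ) : ℝ) ^ 2 ≤ ((n : ℝ) ^ 66 / (Nat.factorial 66 : ℝ)) ^ 2 :=
      pow_le_pow_left₀ (by positivity) hch 2
    rw [div_le_iff₀ (by positivity)]
    refine le_trans hc' (le_trans hsq ?_)
    have e1 : ((n : ℝ) ^ 66 / (Nat.factorial 66 : ℝ)) ^ 2 =
        ((Nat.factorial 66 : ℝ) ^ 2)⁻¹ * (n : ℝ) ^ 132 := by
      field_simp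
    have e2 : ((386 * (h : ℝ) + 2) ^ 2)⁻¹ * (2 : ℝ)⁻¹ ^ h =
        ((386 * (h : ℝ) + 2) ^ 2 * (2 : ℝ) ^ h)⁻¹ := by
      rw [inv_pow, mul_inv]
    rw [e1, e2]
    refine mul_le_mul_of_nonneg_right ?_ (by positivity)
    exact inv_anti₀ (by positivity) hnum


section transport

variable {k : ℕ} {ι κ ι' κ' : Type*} [LinearOrder ι] [LinearOrder κ] [LinearOrder ι']
  [LinearOrder κ']

open Classical in
/-- Extension of `A'` along the order embeddings `e`, `f`, with value `b` outside their ranges. -/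
noncomputable def pad (b : Bool) (e : ι ↪o ι') (f : κ ↪o κ') (A' : ι → κ → Bool) :
    ι' → κ' → Bool :=
  fun x y => if hx : ∃ a, e a = x then (if hy : ∃ c, f c = y then A' hx.choose hy.choose else b)
    else b

theorem pad_apply (b : Bool) (e : ι ↪o ι') (f : κ ↪o κ') (A' : ι → κ → Bool) (a : ι) (c : κ) :
    pad b e f A' (e a) (f c) = A' a c := by
  have hx : ∃ a', e a' = e a := ⟨a, rfl⟩
  have hy : ∃ c', f c' = f c := ⟨c, rfl⟩
  unfold pad
  rw [dif_pos hx, dif_pos hy]
  rw [e.injective hx.choose_spec, f.injective hy.choose_spec]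

theorem pad_ne (b : Bool) (e : ι ↪o ι') (f : κ ↪o κ') (A' : ι → κ → Bool) (x : ι') (y : κ')
    (h : pad b e f A' x y ≠ b) : (∃ a, e a = x) ∧ (∃ c, f c = y) := by
  unfold pad at h
  by_cases hx : ∃ a, e a = x
  · by_cases hy : ∃ c, f c = y
    · exact ⟨hx, hy⟩
    · rw [dif_pos hx, dif_neg hy] at h
      exact absurd rfl h
  · rw [dif_neg hx] at h
    exact absurd rfl h

theorem isCopy_comp (H : Fin k → Fin k → Bool) (b : Bool) (e : ι ↪o ι') (f : κ ↪o κ')
    (A' : ι → κ → Bool) (r : Fin k → ι) (c : Fin k → κ) (h : IsCopy H A' r c) :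
    IsCopy H (pad b e f A') (fun i => e (r i)) (fun j => f (c j)) := by
  refine ⟨fun i i' hi => e.lt_iff_lt.mpr (h.1 hi), fun i i' hi => f.lt_iff_lt.mpr (h.2.1 hi), ?_⟩
  intro i j
  rw [pad_apply]
  exact h.2.2 i j

theorem isCopy_pad (H : Fin k → Fin k → Bool) (b : Bool)
    (hrow : ∀ i, ∃ j, H i j = !b) (hcol : ∀ j, ∃ i, H i j = !b)
    (e : ι ↪o ι') (f : κ ↪o κ') (A' : ι → κ → Bool) (r : Fin k → ι') (c : Fin k → κ')
    (h : IsCopy H (pad b e f A') r c) :
    ∃ (r' : Fin k → ι) (c' : Fin k → κ), IsCopy H A' r' c' ∧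
      (fun i => e (r' i)) = r ∧ (fun j => f (c' j)) = c := by
  have hr : ∀ i, ∃ a, e a = r i := by
    intro i
    obtain ⟨j, hj⟩ := hrow i
    refine (pad_ne b e f A' (r i) (c j) ?_).1
    rw [h.2.2 i j, hj]
    cases b <;> simp
  have hc : ∀ j, ∃ a, f a = c j := by
    intro j
    obtain ⟨i, hi⟩ := hcol j
    refine (pad_ne b e f A' (r i) (c j) ?_).2
    rw [h.2.2 i j, hi]
    cases b <;> simp
  choose r' hr' using hr
  choose c' hc' using hc
  refine ⟨r', c', ⟨?_, ?_, ?_⟩, funext hr', funext hc'⟩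
  · intro i i' hi
    have := h.1 hi
    rw [← hr' i, ← hr' i'] at this
    exact e.lt_iff_lt.mp this
  · intro i i' hi
    have := h.2.1 hi
    rw [← hc' i, ← hc' i'] at this
    exact f.lt_iff_lt.mp this
  · intro i j
    rw [← pad_apply b e f A' (r' i) (c' j), hr', hc']
    exact h.2.2 i j

theorem natCard_copies_pad_le [Finite ι] [Finite κ] (H : Fin k → Fin k → Bool) (b : Bool)
    (hrow : ∀ i, ∃ j, H i j = !b) (hcol : ∀ j, ∃ i, H i j = !b)
    (e : ι ↪o ι') (f : κ ↪o κ') (A' : ι → κ → Bool) :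
    Nat.card {rc : (Fin k → ι') × (Fin k → κ') // IsCopy H (pad b e f A') rc.1 rc.2} ≤
      Nat.card {rc : (Fin k → ι) × (Fin k → κ) // IsCopy H A' rc.1 rc.2} := by
  refine Nat.card_le_card_of_surjective
    (fun rc : {rc : (Fin k → ι) × (Fin k → κ) // IsCopy H A' rc.1 rc.2} =>
      (⟨(fun i => e (rc.1.1 i), fun j => f (rc.1.2 j)),
        isCopy_comp H b e f A' rc.1.1 rc.1.2 rc.2⟩ :
        {rc : (Fin k → ι') × (Fin k → κ') // IsCopy H (pad b e f A') rc.1 rc.2})) ?_
  rintro ⟨⟨r, c⟩, h⟩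
  obtain ⟨r', c', h', e1, e2⟩ := isCopy_pad H b hrow hcol e f A' r c h
  exact ⟨⟨(r', c'), h'⟩, Subtype.ext (Prod.ext e1 e2)⟩

theorem copyFree_restrict (H : Fin k → Fin k → Bool) (e : ι ↪o ι') (f : κ ↪o κ')
    (B : ι' → κ' → Bool) (hB : CopyFree H B) : CopyFree H (fun a c => B (e a) (f c)) := by
  intro r c h
  exact hB (fun i => e (r i)) (fun j => f (c j))
    ⟨fun i i' hi => e.lt_iff_lt.mpr (h.1 hi), fun i i' hi => f.lt_iff_lt.mpr (h.2.1 hi), h.2.2⟩

theorem diff_pad_le [Fintype ι] [Fintype κ] [Fintype ι'] [Fintype κ'] (b : Bool)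
    (e : ι ↪o ι') (f : κ ↪o κ') (A' : ι → κ → Bool) (B : ι' → κ' → Bool) :
    (univ.filter fun rc : ι × κ => A' rc.1 rc.2 ≠ B (e rc.1) (f rc.2)).card ≤
      (univ.filter fun rc : ι' × κ' => pad b e f A' rc.1 rc.2 ≠ B rc.1 rc.2).card := by
  classical
  refine Finset.card_le_card_of_injOn (fun rc => (e rc.1, f rc.2)) ?_ ?_
  · intro rc hrc
    simp only [Finset.coe_filter, Finset.mem_univ, true_and, Set.mem_ofPred_eq] at hrc ⊢
    rw [pad_apply]
    exact hrc
  · intro rc _ rc' _ h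
    simp only [Prod.mk.injEq] at h
    exact Prod.ext (e.injective h.1) (f.injective h.2)

end transport

/-- The initial-segment order embedding of a finite linear order of cardinality `≤ n` into
`Fin n`. -/
noncomputable def finEmb (ι : Type*) [LinearOrder ι] [Fintype ι] (n : ℕ)
    (h : Fintype.card ι ≤ n) : ι ↪o Fin n :=
  ((Fintype.orderIsoFinOfCardEq ι rfl).symm.toOrderEmbedding).trans (Fin.castLEOrderEmb h)

/-- PADDING / TRANSPORT.  A design `A'` over finite linear orders `ι`, `κ` of cardinality `≤ n`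
gives a matrix over `Fin n` with at least the same distance to copy-free matrices and at most
as many copies, provided that no row and no column of `H` is constantly `b` (`b` is the padding
value). -/
theorem exists_fin_of_design {k n : ℕ} (H : Fin k → Fin k → Bool) (b : Bool)
    (hrow : ∀ i, ∃ j, H i j = !b) (hcol : ∀ j, ∃ i, H i j = !b)
    {ι κ : Type*} [LinearOrder ι] [Fintype ι] [LinearOrder κ] [Fintype κ]
    (A' : ι → κ → Bool) (hι : Fintype.card ι ≤ n) (hκ : Fintype.card κ ≤ n) :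
    ∃ A : Fin n → Fin n → Bool,
      (∀ F : ℕ, (∀ B' : ι → κ → Bool, CopyFree H B' →
          F ≤ (univ.filter fun rc : ι × κ => A' rc.1 rc.2 ≠ B' rc.1 rc.2).card) →
        ∀ B : Fin n → Fin n → Bool, orderedCopyCount H B = 0 →
          F ≤ (univ.filter fun rc : Fin n × Fin n => A rc.1 rc.2 ≠ B rc.1 rc.2).card) ∧
      orderedCopyCount H A ≤
        Nat.card {rc : (Fin k → ι) × (Fin k → κ) // IsCopy H A' rc.1 rc.2} := by
  refine ⟨pad b (finEmb ι n hι) (finEmb κ n hκ) A', ?_, ?_⟩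
  · intro F hF B hB
    rw [orderedCopyCount_eq_zero_iff] at hB
    exact le_trans (hF _ (copyFree_restrict H (finEmb ι n hι) (finEmb κ n hκ) B hB))
      (diff_pad_le b _ _ A' B)
  · rw [orderedCopyCount_eq_natCard]
    exact natCard_copies_pad_le H b hrow hcol _ _ A'

/-- FINAL REDUCTION.  Let `H` be a 66 × 66 pattern without a constant-`b` row or column.
Suppose that for every `h ≥ h₀` (with `h₀ ≤ 581`) there is a matrix `A` over finite linear
orders `ι`, `κ` with at most `n = (386 h + 2) 2 ^ h` elements each, such that every copy-free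
`B` differs from `A` in at least `4 ^ h` cells and `A` contains at most
`(386 h + 2) ^ 130 * 2 ^ (131 h)` copies of `H`.  Then the body of the frozen statement S0066
holds for `H`. -/
theorem statement_of_design (H : Fin 66 → Fin 66 → Bool) (b : Bool)
    (hrow : ∀ i, ∃ j, H i j = !b) (hcol : ∀ j, ∃ i, H i j = !b)
    (h₀ : ℕ) (hh₀ : h₀ ≤ 581)
    (design : ∀ h : ℕ, h₀ ≤ h → ∃ (ι κ : Type) (_ : LinearOrder ι) (_ : Fintype ι)
      (_ : LinearOrder κ) (_ : Fintype κ) (A : ι → κ → Bool),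
      Fintype.card ι ≤ (386 * h + 2) * 2 ^ h ∧ Fintype.card κ ≤ (386 * h + 2) * 2 ^ h ∧
      (∀ B : ι → κ → Bool, CopyFree H B →
        4 ^ h ≤ (univ.filter fun rc : ι × κ => A rc.1 rc.2 ≠ B rc.1 rc.2).card) ∧
      Nat.card {rc : (Fin 66 → ι) × (Fin 66 → κ) // IsCopy H A rc.1 rc.2} ≤
        (386 * h + 2) ^ 130 * 2 ^ (131 * h)) :
    ∀ h : ℕ, 1 ≤ h →
      ∃ A : Fin ((386 * h + 2) * 2 ^ h) → Fin ((386 * h + 2) * 2 ^ h) → Bool,
        (∀ B : Fin ((386 * h + 2) * 2 ^ h) → Fin ((386 * h + 2) * 2 ^ h) → Bool,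
          Crest.CombinatoricsR.OrderedMatrix.orderedCopyCount H B = 0 →
            ((386 * (h : ℝ) + 2) ^ 2)⁻¹ * (((386 * h + 2) * 2 ^ h : ℕ) : ℝ) ^ 2 ≤
              ((Finset.univ.filter (fun rc : Fin ((386 * h + 2) * 2 ^ h) × Fin ((386 * h + 2) * 2 ^ h) =>
                A rc.1 rc.2 ≠ B rc.1 rc.2)).card : ℝ)) ∧
        (Crest.CombinatoricsR.OrderedMatrix.orderedCopyCount H A : ℝ) /
            (((386 * h + 2) * 2 ^ h : ℕ) : ℝ) ^ 132 ≤
          ((386 * (h : ℝ) + 2) ^ 2)⁻¹ * (2 : ℝ)⁻¹ ^ h := by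
  intro h h1
  by_cases hsmall : h ≤ 580
  · exact small_h H h h1 hsmall
  · have hge : h₀ ≤ h := by omega
    obtain ⟨ι, κ, _, _, _, _, A', hι, hκ, hfar, hcnt⟩ := design h hge
    obtain ⟨A, hA1, hA2⟩ := exists_fin_of_design H b hrow hcol A' hι hκ
    have hkpos : (0 : ℝ) < 386 * (h : ℝ) + 2 := by positivity
    have h2pos : (0 : ℝ) < (2 : ℝ) ^ h := by positivity
    have hncast : ((((386 * h + 2) * 2 ^ h : ℕ)) : ℝ) = (386 * (h : ℝ) + 2) * (2 : ℝ) ^ h := by
      push_cast; ring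
    refine ⟨A, ?_, ?_⟩
    · intro B hB
      have key := hA1 (4 ^ h) hfar B hB
      have key' : ((4 ^ h : ℕ) : ℝ) ≤ _ := Nat.cast_le.mpr key
      refine le_trans (le_of_eq ?_) key'
      rw [hncast]
      push_cast
      have : (4 : ℝ) ^ h = ((2 : ℝ) ^ h) ^ 2 := by
        rw [← pow_mul, mul_comm, pow_mul]; norm_num
      rw [this]
      field_simp
    · have hc : ((orderedCopyCount H A : ℕ) : ℝ) ≤
          (386 * (h : ℝ) + 2) ^ 130 * ((2 : ℝ) ^ h) ^ 131 := by
        have := le_trans hA2 hcnt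
        have h' : ((orderedCopyCount H A : ℕ) : ℝ) ≤ (((386 * h + 2) ^ 130 * 2 ^ (131 * h) : ℕ) : ℝ) :=
          Nat.cast_le.mpr this
        refine le_trans h' (le_of_eq ?_)
        push_cast
        rw [mul_comm 131 h, pow_mul]
      rw [hncast, div_le_iff₀ (by positivity)]
      refine le_trans hc (le_of_eq ?_)
      rw [inv_pow]
      field_simp

end Crest.Agent.Lib_S0066_Reduce
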