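import Mathlib
import Crest.Prelude.Def_OrderedMatrix
import Crest.Agent.Lib_S0066_Reduce

/-!
Design-independent counting layer for S0066.

* `strictMono_eq_of_image_eq` : a strictly monotone map from `Fin k` is determined by its image.
* `natCard_copies_le_of_thin` : if every copy of `H` in `A` has its `(i₀, j₀)` cell in a set `T`
  of "thin" cells, then the number of copies is at most
  `|T| * C(|ι|, k-1) * C(|κ|, k-1)`.
* `isCopy_sub` : a copy of `H` restricts to a copy of any sub-pattern along strictly monotone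
  index maps (in particular to a leading block).
* `thin_count_bound` : the arithmetic needed to feed `statement_of_design`.
* `design_count_of_thin` : the count conjunct of `statement_of_design` from a thin set.
-/

set_option autoImplicit false

namespace Crest.Agent.Lib_S0066_Count

open Crest.CombinatoricsR.OrderedMatrix Finset
open Crest.Agent.Lib_S0066_Reduce

/-- A strictly monotone map out of `Fin k` is determined by its image. -/
theorem strictMono_eq_of_image_eq {k : ℕ} {ι : Type*} [LinearOrder ι]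
    (r r' : Fin k → ι) (hr : StrictMono r) (hr' : StrictMono r')
    (h : Finset.univ.image r = Finset.univ.image r') : r = r' := by
  classical
  have hc : (univ.image r).card = k := by
    rw [Finset.card_image_of_injective _ hr.injective]; simp
  have e1 : r = (univ.image r).orderEmbOfFin hc :=
    Finset.orderEmbOfFin_unique hc (fun x => Finset.mem_image_of_mem _ (Finset.mem_univ x)) hr
  have e2 : r' = (univ.image r).orderEmbOfFin hc :=
    Finset.orderEmbOfFin_unique hc
      (fun x => h ▸ Finset.mem_image_of_mem _ (Finset.mem_univ x)) hr'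
  exact e1.trans e2.symm

/-- A strictly monotone map out of `Fin k` with a prescribed value at `i₀` is determined by
its image with that value erased. -/
theorem strictMono_eq_of_erase_eq {k : ℕ} {ι : Type*} [LinearOrder ι]
    (r r' : Fin k → ι) (hr : StrictMono r) (hr' : StrictMono r') (i₀ : Fin k)
    (h0 : r i₀ = r' i₀)
    (h : (Finset.univ.image r).erase (r i₀) = (Finset.univ.image r').erase (r' i₀)) :
    r = r' := by
  classical
  apply strictMono_eq_of_image_eq r r' hr hr'
  have m1 : r i₀ ∈ univ.image r := Finset.mem_image_of_mem _ (Finset.mem_univ _)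
  have m2 : r' i₀ ∈ univ.image r' := Finset.mem_image_of_mem _ (Finset.mem_univ _)
  rw [← Finset.insert_erase m1, ← Finset.insert_erase m2, h, h0]

theorem card_image_erase {k : ℕ} {α : Type*} [LinearOrder α] (r : Fin k → α)
    (hr : StrictMono r) (i : Fin k) :
    ((Finset.univ.image r).erase (r i)).card = k - 1 := by
  classical
  rw [Finset.card_erase_of_mem (Finset.mem_image_of_mem _ (Finset.mem_univ _)),
    Finset.card_image_of_injective _ hr.injective]
  simp

/-- THIN-CELL COUNTING.  If every copy `(r, c)` of `H` in `A` has its cell `(r i₀, c j₀)` in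
the finite set `T`, then there are at most `|T| * C(|ι|, k-1) * C(|κ|, k-1)` copies. -/
theorem natCard_copies_le_of_thin {k : ℕ} {ι κ : Type*} [LinearOrder ι] [LinearOrder κ]
    [Fintype ι] [Fintype κ] (H : Fin k → Fin k → Bool) (A : ι → κ → Bool)
    (T : Finset (ι × κ)) (i₀ j₀ : Fin k)
    (hT : ∀ r c, IsCopy H A r c → (r i₀, c j₀) ∈ T) :
    Nat.card {rc : (Fin k → ι) × (Fin k → κ) // IsCopy H A rc.1 rc.2} ≤
      T.card * (Fintype.card ι).choose (k - 1) * (Fintype.card κ).choose (k - 1) := by
  classical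
  let f : {rc : (Fin k → ι) × (Fin k → κ) // IsCopy H A rc.1 rc.2} →
      {t : ι × κ // t ∈ T} ×
      ({s : Finset ι // s ∈ Finset.powersetCard (k - 1) (univ : Finset ι)} ×
       {s : Finset κ // s ∈ Finset.powersetCard (k - 1) (univ : Finset κ)}) := fun rc =>
    (⟨(rc.1.1 i₀, rc.1.2 j₀), hT _ _ rc.2⟩,
     ⟨(univ.image rc.1.1).erase (rc.1.1 i₀), by
        rw [Finset.mem_powersetCard]
        exact ⟨Finset.subset_univ _, card_image_erase _ rc.2.1 i₀⟩⟩,
     ⟨(univ.image rc.1.2).erase (rc.1.2 j₀), by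
        rw [Finset.mem_powersetCard]
        exact ⟨Finset.subset_univ _, card_image_erase _ rc.2.2.1 j₀⟩⟩)
  have hf : Function.Injective f := by
    rintro ⟨⟨r, c⟩, hrc⟩ ⟨⟨r', c'⟩, hrc'⟩ h
    have h1 : r i₀ = r' i₀ := congrArg (fun t => t.1.1.1) h
    have h2 : c j₀ = c' j₀ := congrArg (fun t => t.1.1.2) h
    have h3 : (univ.image r).erase (r i₀) = (univ.image r').erase (r' i₀) :=
      congrArg (fun t => t.2.1.1) h
    have h4 : (univ.image c).erase (c j₀) = (univ.image c').erase (c' j₀) :=
      congrArg (fun t => t.2.2.1) h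
    have er : r = r' := strictMono_eq_of_erase_eq r r' hrc.1 hrc'.1 i₀ h1 h3
    have ec : c = c' := strictMono_eq_of_erase_eq c c' hrc.2.1 hrc'.2.1 j₀ h2 h4
    exact Subtype.ext (Prod.ext er ec)
  have h1 := Nat.card_le_card_of_injective f hf
  refine h1.trans (le_of_eq ?_)
  rw [Nat.card_prod, Nat.card_prod, Nat.card_eq_fintype_card, Nat.card_eq_fintype_card,
    Nat.card_eq_fintype_card, Fintype.card_coe, Fintype.card_coe, Fintype.card_coe,
    Finset.card_powersetCard, Finset.card_powersetCard, Finset.card_univ, Finset.card_univ]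
  ring

/-- A copy of `H` restricts to a copy of a sub-pattern `W` along strictly monotone index
maps. -/
theorem isCopy_sub {k m : ℕ} {ι κ : Type*} [Preorder ι] [Preorder κ]
    (H : Fin k → Fin k → Bool) (W : Fin m → Fin m → Bool) (f g : Fin m → Fin k)
    (hf : StrictMono f) (hg : StrictMono g) (hW : ∀ i j, W i j = H (f i) (g j))
    (A : ι → κ → Bool) (r : Fin k → ι) (c : Fin k → κ) (h : IsCopy H A r c) :
    IsCopy W A (fun i => r (f i)) (fun j => c (g j)) :=
  ⟨fun _ _ hij => h.1 (hf hij), fun _ _ hij => h.2.1 (hg hij),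
    fun i j => by rw [h.2.2, hW]⟩

theorem thin_count_core (F t c P a b X : ℕ) (hF : 0 < F) (ha : F * a ≤ X) (hb : F * b ≤ X)
    (ht : t ≤ c * P) (hc : c ≤ F ^ 2) : t * a * b ≤ P * (X * X) := by
  have key : F ^ 2 * (t * a * b) ≤ F ^ 2 * (P * (X * X)) := by
    calc F ^ 2 * (t * a * b) = t * ((F * a) * (F * b)) := by ring
      _ ≤ (c * P) * (X * X) := Nat.mul_le_mul ht (Nat.mul_le_mul ha hb)
      _ ≤ (F ^ 2 * P) * (X * X) := Nat.mul_le_mul_right _ (Nat.mul_le_mul_right _ hc)
      _ = F ^ 2 * (P * (X * X)) := by ring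
  exact Nat.le_of_mul_le_mul_left key (by positivity)

/-- The numerical inequality behind the count conjunct: a thin set of at most
`c * 2 ^ h` cells with `c ≤ (65!)²`, in a matrix with at most `(386 h + 2) 2 ^ h` rows and
columns, gives at most `(386 h + 2) ^ 130 * 2 ^ (131 h)` copies of a `66 × 66` pattern. -/
theorem thin_count_bound (h nr nc t c : ℕ) (hc : c ≤ (Nat.factorial 65) ^ 2)
    (hnr : nr ≤ (386 * h + 2) * 2 ^ h) (hnc : nc ≤ (386 * h + 2) * 2 ^ h)
    (ht : t ≤ c * 2 ^ h) :
    t * nr.choose 65 * nc.choose 65 ≤ (386 * h + 2) ^ 130 * 2 ^ (131 * h) := by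
  have hch : ∀ m, m ≤ (386 * h + 2) * 2 ^ h →
      Nat.factorial 65 * m.choose 65 ≤ ((386 * h + 2) * 2 ^ h) ^ 65 := by
    intro m hm
    calc Nat.factorial 65 * m.choose 65
        ≤ Nat.factorial 65 * ((386 * h + 2) * 2 ^ h).choose 65 :=
          Nat.mul_le_mul_left _ (Nat.choose_le_choose 65 hm)
      _ = ((386 * h + 2) * 2 ^ h).descFactorial 65 :=
          (Nat.descFactorial_eq_factorial_mul_choose _ 65).symm
      _ ≤ ((386 * h + 2) * 2 ^ h) ^ 65 := Nat.descFactorial_le_pow _ 65
  have key := thin_count_core (Nat.factorial 65) t c (2 ^ h) (nr.choose 65) (nc.choose 65)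
    (((386 * h + 2) * 2 ^ h) ^ 65) (Nat.factorial_pos 65) (hch nr hnr) (hch nc hnc) ht hc
  refine key.trans (le_of_eq ?_)
  generalize 386 * h + 2 = k
  ring

/-- The count conjunct of `statement_of_design` from a thin set: every copy of the
`66 × 66` pattern `H` has its `(i₀, j₀)` cell in `T`, and `|T| ≤ c * 2 ^ h`, `c ≤ (65!)²`. -/
theorem design_count_of_thin {ι κ : Type*} [LinearOrder ι] [LinearOrder κ]
    [Fintype ι] [Fintype κ] (H : Fin 66 → Fin 66 → Bool) (A : ι → κ → Bool) (h c : ℕ)
    (T : Finset (ι × κ)) (i₀ j₀ : Fin 66)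
    (hT : ∀ r cc, IsCopy H A r cc → (r i₀, cc j₀) ∈ T)
    (hc : c ≤ (Nat.factorial 65) ^ 2) (hTc : T.card ≤ c * 2 ^ h)
    (hι : Fintype.card ι ≤ (386 * h + 2) * 2 ^ h)
    (hκ : Fintype.card κ ≤ (386 * h + 2) * 2 ^ h) :
    Nat.card {rc : (Fin 66 → ι) × (Fin 66 → κ) // IsCopy H A rc.1 rc.2} ≤
      (386 * h + 2) ^ 130 * 2 ^ (131 * h) :=
  (natCard_copies_le_of_thin H A T i₀ j₀ hT).trans
    (thin_count_bound h _ _ _ c hc hι hκ hTc)

end Crest.Agent.Lib_S0066_Count
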