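import Mathlib
import Crest.Prelude.Def_OrderedMatrix

/-!
Design-independent lemmas for S0066 (ordered copies of a pattern in a binary matrix):

* `IsCopy`, `count_eq_zero_iff`, `count_pos_of_isCopy`;
* `count_le_choose_sq`: at most `C(n,k)^2` ordered copies;
* `blowup` and `blowup_far`: the `t`-fold blow-up of a pattern is `t^2`-far from pattern-free;
* `small_h`: the full S0066 statement for an arbitrary `66 × 66` pattern and `1 ≤ h ≤ 580`.
-/

set_option autoImplicit false

namespace Crest.Agent.Lib_S0066_Small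

open Crest.CombinatoricsR.OrderedMatrix

/-- `(r, c)` is an ordered copy of the pattern `H` in `A`. -/
def IsCopy {k n : ℕ} (H : Fin k → Fin k → Bool) (A : Fin n → Fin n → Bool)
    (r c : Fin k → Fin n) : Prop :=
  StrictMono r ∧ StrictMono c ∧ ∀ i j : Fin k, A (r i) (c j) = H i j

theorem count_eq_zero_iff {k n : ℕ} (H : Fin k → Fin k → Bool) (A : Fin n → Fin n → Bool) :
    orderedCopyCount H A = 0 ↔ ∀ r c : Fin k → Fin n, ¬ IsCopy H A r c := by
  unfold orderedCopyCount IsCopy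
  rw [Fintype.card_eq_zero_iff]
  constructor
  · intro hE r c hrc
    exact hE.false ⟨(r, c), hrc⟩
  · intro hE
    exact ⟨fun x => hE x.1.1 x.1.2 x.2⟩

/-- The number of strictly monotone maps `Fin k → Fin n` is at most `C(n, k)`. -/
theorem card_strictMono_le (k n : ℕ) :
    Fintype.card {f : Fin k → Fin n // StrictMono f} ≤ n.choose k := by
  classical
  have h1 : Fintype.card {s : Finset (Fin n) // s.card = k} = n.choose k := by
    rw [Fintype.card_finset_len, Fintype.card_fin]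
  rw [← h1]
  refine Fintype.card_le_of_injective
    (fun f : {f : Fin k → Fin n // StrictMono f} =>
      (⟨Finset.univ.image f.1, by
        rw [Finset.card_image_of_injective _ f.2.injective, Finset.card_univ, Fintype.card_fin]⟩ :
        {s : Finset (Fin n) // s.card = k})) ?_
  intro f g hfg
  have h2 : Finset.univ.image f.1 = Finset.univ.image g.1 := congrArg Subtype.val hfg
  have h3 : Set.range f.1 = Set.range g.1 := by
    have := congrArg (fun s : Finset (Fin n) => (s : Set (Fin n))) h2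
    simpa using this
  exact Subtype.ext ((f.2.range_inj g.2).1 h3)

theorem count_le_choose_sq {k n : ℕ} (H : Fin k → Fin k → Bool) (A : Fin n → Fin n → Bool) :
    orderedCopyCount H A ≤ (n.choose k) ^ 2 := by
  classical
  unfold orderedCopyCount
  calc Fintype.card {rc : (Fin k → Fin n) × (Fin k → Fin n) //
          StrictMono rc.1 ∧ StrictMono rc.2 ∧ ∀ i j : Fin k, A (rc.1 i) (rc.2 j) = H i j}
      ≤ Fintype.card ({f : Fin k → Fin n // StrictMono f} × {f : Fin k → Fin n // StrictMono f}) := by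
        refine Fintype.card_le_of_injective
          (fun x => (⟨x.1.1, x.2.1⟩, ⟨x.1.2, x.2.2.1⟩)) ?_
        intro x y hxy
        have h1 : x.1.1 = y.1.1 := congrArg (fun p => (p.1 : {f : Fin k → Fin n // StrictMono f}).1) hxy
        have h2 : x.1.2 = y.1.2 := congrArg (fun p => (p.2 : {f : Fin k → Fin n // StrictMono f}).1) hxy
        exact Subtype.ext (Prod.ext h1 h2)
    _ = Fintype.card {f : Fin k → Fin n // StrictMono f} *
          Fintype.card {f : Fin k → Fin n // StrictMono f} := Fintype.card_prod _ _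
    _ ≤ n.choose k * n.choose k := Nat.mul_le_mul (card_strictMono_le k n) (card_strictMono_le k n)
    _ = (n.choose k) ^ 2 := by ring

/-- The `t`-fold blow-up of the pattern `H` (indices beyond the blown-up part are clamped). -/
def blowup {k : ℕ} (n t : ℕ) (H : Fin (k + 1) → Fin (k + 1) → Bool) : Fin n → Fin n → Bool :=
  fun i j => H ⟨min (i.1 / t) k, by omega⟩ ⟨min (j.1 / t) k, by omega⟩

/-- The row (or column) selection of the copy with offset `a` in the blow-up. -/
def blowRow {k : ℕ} (n t : ℕ) (hn : (k + 1) * t ≤ n) (a : Fin t) : Fin (k + 1) → Fin n :=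
  fun i => ⟨i.1 * t + a.1, by
    have h1 : i.1 * t + a.1 < (i.1 + 1) * t := by
      have := a.2
      nlinarith
    have h2 : (i.1 + 1) * t ≤ (k + 1) * t := Nat.mul_le_mul_right t (by omega)
    omega⟩

theorem blowRow_strictMono {k : ℕ} (n t : ℕ) (hn : (k + 1) * t ≤ n) (a : Fin t) :
    StrictMono (blowRow n t hn a) := by
  intro i j hij
  show i.1 * t + a.1 < j.1 * t + a.1
  have h1 : i.1 + 1 ≤ j.1 := hij
  have h2 : (i.1 + 1) * t ≤ j.1 * t := Nat.mul_le_mul_right t h1
  have ht : 0 < t := lt_of_le_of_lt (Nat.zero_le _) a.2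
  nlinarith

theorem blowup_blowRow {k : ℕ} (n t : ℕ) (hn : (k + 1) * t ≤ n)
    (H : Fin (k + 1) → Fin (k + 1) → Bool) (a b : Fin t) (i j : Fin (k + 1)) :
    blowup n t H (blowRow n t hn a i) (blowRow n t hn b j) = H i j := by
  have ht : 0 < t := lt_of_le_of_lt (Nat.zero_le _) a.2
  have h1 : (i.1 * t + a.1) / t = i.1 := by
    rw [Nat.add_comm, Nat.add_mul_div_right _ _ ht, Nat.div_eq_of_lt a.2, Nat.zero_add]
  have h2 : (j.1 * t + b.1) / t = j.1 := by
    rw [Nat.add_comm, Nat.add_mul_div_right _ _ ht, Nat.div_eq_of_lt b.2, Nat.zero_add]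
  unfold blowup blowRow
  have e1 : (⟨min ((i.1 * t + a.1) / t) k, by omega⟩ : Fin (k + 1)) = i := by
    apply Fin.ext
    show min ((i.1 * t + a.1) / t) k = i.1
    rw [h1]; exact min_eq_left (by omega)
  have e2 : (⟨min ((j.1 * t + b.1) / t) k, by omega⟩ : Fin (k + 1)) = j := by
    apply Fin.ext
    show min ((j.1 * t + b.1) / t) k = j.1
    rw [h2]; exact min_eq_left (by omega)
  simp only [e1, e2]

/-- The `t`-fold blow-up of `H` is `t^2`-far from `H`-free. -/
theorem blowup_far {k : ℕ} (n t : ℕ) (hn : (k + 1) * t ≤ n)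
    (H : Fin (k + 1) → Fin (k + 1) → Bool) (B : Fin n → Fin n → Bool)
    (hB : orderedCopyCount H B = 0) :
    t * t ≤ (Finset.univ.filter (fun rc : Fin n × Fin n =>
      blowup n t H rc.1 rc.2 ≠ B rc.1 rc.2)).card := by
  classical
  rw [count_eq_zero_iff] at hB
  have key : ∀ ab : Fin t × Fin t, ∃ ij : Fin (k + 1) × Fin (k + 1),
      B (blowRow n t hn ab.1 ij.1) (blowRow n t hn ab.2 ij.2) ≠ H ij.1 ij.2 := by
    intro ab
    by_contra hcon
    simp only [not_exists, ne_eq, not_not] at hcon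
    exact hB (blowRow n t hn ab.1) (blowRow n t hn ab.2)
      ⟨blowRow_strictMono n t hn ab.1, blowRow_strictMono n t hn ab.2,
        fun i j => hcon (i, j)⟩
  choose φ hφ using key
  have hcard : Fintype.card (Fin t × Fin t) = t * t := by
    rw [Fintype.card_prod, Fintype.card_fin]
  rw [← hcard, ← Finset.card_univ]
  refine Finset.card_le_card_of_injOn
    (fun ab => (blowRow n t hn ab.1 (φ ab).1, blowRow n t hn ab.2 (φ ab).2)) ?_ ?_
  · intro ab _
    simp only [Finset.coe_filter, Finset.mem_univ, true_and, Set.mem_ofPred_eq]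
    rw [blowup_blowRow]
    exact (hφ ab).symm
  · intro ab _ ab' _ heq
    have h1 : (blowRow n t hn ab.1 (φ ab).1).1 = (blowRow n t hn ab'.1 (φ ab').1).1 :=
      congrArg (fun p : Fin n × Fin n => p.1.1) heq
    have h2 : (blowRow n t hn ab.2 (φ ab).2).1 = (blowRow n t hn ab'.2 (φ ab').2).1 :=
      congrArg (fun p : Fin n × Fin n => p.2.1) heq
    have m1 : ∀ (x : ℕ) (a : Fin t), (x * t + a.1) % t = a.1 := by
      intro x a
      rw [Nat.add_comm, Nat.add_mul_mod_self_right, Nat.mod_eq_of_lt a.2]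
    have e1 : ab.1.1 = ab'.1.1 := by
      have := congrArg (· % t) h1
      simpa [blowRow, m1] using this
    have e2 : ab.2.1 = ab'.2.1 := by
      have := congrArg (· % t) h2
      simpa [blowRow, m1] using this
    exact Prod.ext (Fin.ext e1) (Fin.ext e2)

/-- Bridge for the farness clause of S0066: a natural-number bound `2^h * 2^h ≤ d` gives the
real inequality of the statement. -/
theorem bridge_far (h d : ℕ) (hd : 2 ^ h * 2 ^ h ≤ d) :
    ((386 * (h : ℝ) + 2) ^ 2)⁻¹ * (((386 * h + 2) * 2 ^ h : ℕ) : ℝ) ^ 2 ≤ (d : ℝ) := by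
  have hm : (0 : ℝ) < 386 * (h : ℝ) + 2 := by positivity
  have h1 : ((386 * (h : ℝ) + 2) ^ 2)⁻¹ * (((386 * h + 2) * 2 ^ h : ℕ) : ℝ) ^ 2
      = ((2 : ℝ) ^ h) * ((2 : ℝ) ^ h) := by
    push_cast
    field_simp
  rw [h1]
  have h2 : ((2 ^ h * 2 ^ h : ℕ) : ℝ) ≤ (d : ℝ) := by exact_mod_cast hd
  push_cast at h2
  exact h2

/-- Bridge for the counting clause of S0066. -/
theorem bridge_count (h c : ℕ)
    (hc : c * ((386 * h + 2) ^ 2 * 2 ^ h) ≤ ((386 * h + 2) * 2 ^ h) ^ 132) :
    (c : ℝ) / (((386 * h + 2) * 2 ^ h : ℕ) : ℝ) ^ 132 ≤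
      ((386 * (h : ℝ) + 2) ^ 2)⁻¹ * (2 : ℝ)⁻¹ ^ h := by
  have hm : (0 : ℝ) < 386 * (h : ℝ) + 2 := by positivity
  have h2 := (Nat.cast_le (α := ℝ)).2 hc
  rw [Nat.cast_pow] at h2
  have h4 : ((c * ((386 * h + 2) ^ 2 * 2 ^ h) : ℕ) : ℝ)
      = (c : ℝ) * ((386 * (h : ℝ) + 2) ^ 2 * 2 ^ h) := by push_cast; ring
  rw [h4] at h2
  have h3 : ((386 * (h : ℝ) + 2) ^ 2)⁻¹ * (2 : ℝ)⁻¹ ^ h
      = 1 / ((386 * (h : ℝ) + 2) ^ 2 * 2 ^ h) := by
    rw [inv_pow]
    field_simp
  rw [h3]
  generalize hY : (((386 * h + 2) * 2 ^ h : ℕ) : ℝ) ^ 132 = Y at h2 ⊢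
  have hY0 : 0 < Y := by rw [← hY]; positivity
  rw [div_le_div_iff₀ hY0 (by positivity)]
  linarith

theorem factorial_mul_choose_le_pow (n k : ℕ) : k.factorial * n.choose k ≤ n ^ k := by
  rw [← Nat.descFactorial_eq_factorial_mul_choose]
  exact Nat.descFactorial_le_pow n k

set_option exponentiation.threshold 600 in
theorem numeric_580 : (386 * 580 + 2) ^ 2 * 2 ^ 580 ≤ (Nat.factorial 66) ^ 2 := by
  decide +kernel

set_option exponentiation.threshold 600 in
theorem numeric_small (h : ℕ) (h580 : h ≤ 580) :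
    (386 * h + 2) ^ 2 * 2 ^ h ≤ (Nat.factorial 66) ^ 2 := by
  refine le_trans ?_ numeric_580
  have h1 : 386 * h + 2 ≤ 386 * 580 + 2 := by omega
  have h2 : (2 : ℕ) ^ h ≤ 2 ^ 580 := Nat.pow_le_pow_right (by norm_num) h580
  exact Nat.mul_le_mul (Nat.pow_le_pow_left h1 2) h2

/-- S0066 for an arbitrary pattern and `1 ≤ h ≤ 580` (blow-up of the pattern). -/
theorem small_h (H : Fin 66 → Fin 66 → Bool) (h : ℕ) (h1 : 1 ≤ h) (h580 : h ≤ 580) :
    ∃ A : Fin ((386 * h + 2) * 2 ^ h) → Fin ((386 * h + 2) * 2 ^ h) → Bool,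
      (∀ B : Fin ((386 * h + 2) * 2 ^ h) → Fin ((386 * h + 2) * 2 ^ h) → Bool,
        Crest.CombinatoricsR.OrderedMatrix.orderedCopyCount H B = 0 →
          ((386 * (h : ℝ) + 2) ^ 2)⁻¹ * (((386 * h + 2) * 2 ^ h : ℕ) : ℝ) ^ 2 ≤
            ((Finset.univ.filter (fun rc : Fin ((386 * h + 2) * 2 ^ h) × Fin ((386 * h + 2) * 2 ^ h) =>
              A rc.1 rc.2 ≠ B rc.1 rc.2)).card : ℝ)) ∧
      (Crest.CombinatoricsR.OrderedMatrix.orderedCopyCount H A : ℝ) /
          (((386 * h + 2) * 2 ^ h : ℕ) : ℝ) ^ 132 ≤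
        ((386 * (h : ℝ) + 2) ^ 2)⁻¹ * (2 : ℝ)⁻¹ ^ h := by
  have hn : (65 + 1) * 2 ^ h ≤ (386 * h + 2) * 2 ^ h :=
    Nat.mul_le_mul_right _ (by omega)
  refine ⟨blowup ((386 * h + 2) * 2 ^ h) (2 ^ h) H, ?_, ?_⟩
  · intro B hB
    exact bridge_far h _ (blowup_far ((386 * h + 2) * 2 ^ h) (2 ^ h) hn H B hB)
  · apply bridge_count
    set n := (386 * h + 2) * 2 ^ h with hn_def
    set A := blowup n (2 ^ h) H
    have hc := count_le_choose_sq H A
    have hf := factorial_mul_choose_le_pow n 66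
    calc orderedCopyCount H A * ((386 * h + 2) ^ 2 * 2 ^ h)
        ≤ (n.choose 66) ^ 2 * (Nat.factorial 66) ^ 2 :=
          Nat.mul_le_mul hc (numeric_small h h580)
      _ = (Nat.factorial 66 * n.choose 66) ^ 2 := by rw [mul_pow, mul_comm]
      _ ≤ (n ^ 66) ^ 2 := Nat.pow_le_pow_left hf 2
      _ = n ^ 132 := by rw [← pow_mul]

end Crest.Agent.Lib_S0066_Small
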