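import Mathlib
import Crest.Prelude.Def_OrderedMatrix
import Crest.Agent.Lib_S0066_Small

/-!
Design-independent lemmas for S0066, part 2:

* `pad`: zero padding of a matrix; `count_pad_le` (no new copies when the last row and the last
  column of the pattern contain a `true`) and `far_pad` (distance to pattern-free does not drop);
* `count_le_of_hit`: if every copy uses one of the designated (row, column) pairs of `P`, there are
  at most `|P| * (k+1)^2 * C(n,k)^2` copies of a `(k+1) × (k+1)` pattern;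
* `result_of_large`: the S0066 statement from a construction for `h ≥ 581`.
-/

set_option autoImplicit false

namespace Crest.Agent.Lib_S0066_Pad

open Crest.CombinatoricsR.OrderedMatrix
open Crest.Agent.Lib_S0066_Small

/-- Zero padding of an `n0 × n0` matrix to an `n × n` matrix. -/
def pad {n0 : ℕ} (n : ℕ) (A : Fin n0 → Fin n0 → Bool) : Fin n → Fin n → Bool :=
  fun i j => if h : i.1 < n0 ∧ j.1 < n0 then A ⟨i.1, h.1⟩ ⟨j.1, h.2⟩ else false

theorem pad_castLE {n0 n : ℕ} (hn : n0 ≤ n) (A : Fin n0 → Fin n0 → Bool) (i j : Fin n0) :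
    pad n A (Fin.castLE hn i) (Fin.castLE hn j) = A i j := by
  unfold pad
  have h : (Fin.castLE hn i).1 < n0 ∧ (Fin.castLE hn j).1 < n0 := ⟨i.2, j.2⟩
  rw [dif_pos h]
  rfl

theorem pad_true {n0 n : ℕ} (A : Fin n0 → Fin n0 → Bool) (i j : Fin n)
    (h : pad n A i j = true) : i.1 < n0 ∧ j.1 < n0 := by
  unfold pad at h
  by_contra hc
  rw [dif_neg hc] at h
  exact Bool.false_ne_true h

/-- A copy in the padded matrix lives in the original matrix, provided the last row and the
last column of the pattern contain a `true`. -/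
theorem copy_pad_bound {k n0 n : ℕ} (H : Fin (k + 1) → Fin (k + 1) → Bool)
    (hrow : ∃ j, H (Fin.last k) j = true) (hcol : ∃ i, H i (Fin.last k) = true)
    (A : Fin n0 → Fin n0 → Bool) (r c : Fin (k + 1) → Fin n)
    (hc : IsCopy H (pad n A) r c) : (∀ i, (r i).1 < n0) ∧ (∀ j, (c j).1 < n0) := by
  obtain ⟨hr, hcm, hv⟩ := hc
  obtain ⟨j0, hj0⟩ := hrow
  obtain ⟨i0, hi0⟩ := hcol
  have h1 := pad_true A _ _ ((hv (Fin.last k) j0).trans hj0)
  have h2 := pad_true A _ _ ((hv i0 (Fin.last k)).trans hi0)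
  constructor
  · intro i
    have : r i ≤ r (Fin.last k) := hr.monotone (Fin.le_last i)
    exact lt_of_le_of_lt this h1.1
  · intro j
    have : c j ≤ c (Fin.last k) := hcm.monotone (Fin.le_last j)
    exact lt_of_le_of_lt this h2.2

theorem count_pad_le {k n0 n : ℕ} (H : Fin (k + 1) → Fin (k + 1) → Bool)
    (hrow : ∃ j, H (Fin.last k) j = true) (hcol : ∃ i, H i (Fin.last k) = true)
    (A : Fin n0 → Fin n0 → Bool) :
    orderedCopyCount H (pad n A) ≤ orderedCopyCount H A := by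
  classical
  unfold orderedCopyCount
  have hb : ∀ x : {rc : (Fin (k + 1) → Fin n) × (Fin (k + 1) → Fin n) //
      StrictMono rc.1 ∧ StrictMono rc.2 ∧ ∀ i j : Fin (k + 1), pad n A (rc.1 i) (rc.2 j) = H i j},
      (∀ i, (x.1.1 i).1 < n0) ∧ (∀ j, (x.1.2 j).1 < n0) :=
    fun x => copy_pad_bound H hrow hcol A x.1.1 x.1.2 x.2
  refine Fintype.card_le_of_injective
    (fun x => ⟨(fun i => ⟨(x.1.1 i).1, (hb x).1 i⟩, fun j => ⟨(x.1.2 j).1, (hb x).2 j⟩), ?_⟩) ?_
  · refine ⟨?_, ?_, ?_⟩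
    · intro i i' hii'
      exact x.2.1 hii'
    · intro j j' hjj'
      exact x.2.2.1 hjj'
    · intro i j
      have h := x.2.2.2 i j
      unfold pad at h
      rw [dif_pos ⟨(hb x).1 i, (hb x).2 j⟩] at h
      exact h
  · intro x y hxy
    have h1 := congrArg (fun z : {rc : (Fin (k + 1) → Fin n0) × (Fin (k + 1) → Fin n0) //
      StrictMono rc.1 ∧ StrictMono rc.2 ∧ ∀ i j : Fin (k + 1), A (rc.1 i) (rc.2 j) = H i j} => z.1) hxy
    simp only [Prod.mk.injEq] at h1
    apply Subtype.ext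
    apply Prod.ext
    · funext i
      have := congrFun h1.1 i
      exact Fin.ext (by simpa using congrArg Fin.val this)
    · funext j
      have := congrFun h1.2 j
      exact Fin.ext (by simpa using congrArg Fin.val this)

/-- Padding does not decrease the distance to pattern-freeness. -/
theorem far_pad {k n0 n : ℕ} (hn : n0 ≤ n) (H : Fin k → Fin k → Bool)
    (A : Fin n0 → Fin n0 → Bool) (d : ℕ)
    (hA : ∀ B0 : Fin n0 → Fin n0 → Bool, orderedCopyCount H B0 = 0 →
      d ≤ (Finset.univ.filter (fun rc : Fin n0 × Fin n0 => A rc.1 rc.2 ≠ B0 rc.1 rc.2)).card)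
    (B : Fin n → Fin n → Bool) (hB : orderedCopyCount H B = 0) :
    d ≤ (Finset.univ.filter (fun rc : Fin n × Fin n => pad n A rc.1 rc.2 ≠ B rc.1 rc.2)).card := by
  classical
  set B0 : Fin n0 → Fin n0 → Bool := fun i j => B (Fin.castLE hn i) (Fin.castLE hn j) with hB0
  have hB0free : orderedCopyCount H B0 = 0 := by
    rw [count_eq_zero_iff] at hB ⊢
    intro r c hrc
    refine hB (fun i => Fin.castLE hn (r i)) (fun j => Fin.castLE hn (c j)) ⟨?_, ?_, ?_⟩
    · intro i i' hii'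
      exact hrc.1 hii'
    · intro j j' hjj'
      exact hrc.2.1 hjj'
    · intro i j
      exact hrc.2.2 i j
  refine le_trans (hA B0 hB0free) ?_
  refine Finset.card_le_card_of_injOn
    (fun rc => (Fin.castLE hn rc.1, Fin.castLE hn rc.2)) ?_ ?_
  · intro rc hrc
    simp only [Finset.coe_filter, Finset.mem_univ, true_and, Set.mem_ofPred_eq] at hrc ⊢
    rw [pad_castLE]
    exact hrc
  · intro rc _ rc' _ heq
    simp only [Prod.mk.injEq] at heq
    exact Prod.ext (Fin.castLE_injective hn heq.1) (Fin.castLE_injective hn heq.2)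

/-- The number of strictly monotone maps `Fin (k+1) → Fin n` taking a prescribed value `ρ` at a
prescribed position `i` is at most `C(n, k)`; here stated as an injection into `k`-subsets. -/
theorem erase_image_inj {k n : ℕ} {f g : Fin (k + 1) → Fin n} (hf : StrictMono f)
    (hg : StrictMono g) (i i' : Fin (k + 1)) (hval : f i = g i')
    (he : (Finset.univ.image f).erase (f i) = (Finset.univ.image g).erase (g i')) : f = g := by
  classical
  have h1 : Finset.univ.image f = Finset.univ.image g := by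
    have hfi : f i ∈ Finset.univ.image f := Finset.mem_image_of_mem f (Finset.mem_univ i)
    have hgi : g i' ∈ Finset.univ.image g := Finset.mem_image_of_mem g (Finset.mem_univ i')
    rw [← Finset.insert_erase hfi, ← Finset.insert_erase hgi, he, hval]
  have h3 : Set.range f = Set.range g := by
    have := congrArg (fun s : Finset (Fin n) => (s : Set (Fin n))) h1
    simpa using this
  exact (hf.range_inj hg).1 h3

theorem card_erase_image {k n : ℕ} {f : Fin (k + 1) → Fin n} (hf : StrictMono f)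
    (i : Fin (k + 1)) : ((Finset.univ.image f).erase (f i)).card = k := by
  classical
  rw [Finset.card_erase_of_mem (Finset.mem_image_of_mem f (Finset.mem_univ i)),
    Finset.card_image_of_injective _ hf.injective, Finset.card_univ, Fintype.card_fin]
  rfl

/-- If every copy of the `(k+1) × (k+1)` pattern `H` in `A` uses one of the designated
(row, column) pairs of `P`, then there are at most `|P| * (k+1)^2 * C(n,k)^2` copies. -/
theorem count_le_of_hit {k n : ℕ} (H : Fin (k + 1) → Fin (k + 1) → Bool)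
    (A : Fin n → Fin n → Bool) (P : Finset (Fin n × Fin n))
    (hP : ∀ r c : Fin (k + 1) → Fin n, IsCopy H A r c → ∃ i j, (r i, c j) ∈ P) :
    orderedCopyCount H A ≤ P.card * (k + 1) ^ 2 * (n.choose k) ^ 2 := by
  classical
  unfold orderedCopyCount
  have hP' : ∀ x : {rc : (Fin (k + 1) → Fin n) × (Fin (k + 1) → Fin n) //
      StrictMono rc.1 ∧ StrictMono rc.2 ∧ ∀ i j : Fin (k + 1), A (rc.1 i) (rc.2 j) = H i j},
      ∃ ij : Fin (k + 1) × Fin (k + 1), (x.1.1 ij.1, x.1.2 ij.2) ∈ P := by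
    intro x
    obtain ⟨i, j, hij⟩ := hP x.1.1 x.1.2 x.2
    exact ⟨(i, j), hij⟩
  choose φ hφ using hP'
  have hcard : Fintype.card ({p // p ∈ P} × (Fin (k + 1) × Fin (k + 1)) ×
      {s : Finset (Fin n) // s.card = k} × {s : Finset (Fin n) // s.card = k})
      = P.card * (k + 1) ^ 2 * (n.choose k) ^ 2 := by
    simp only [Fintype.card_prod, Fintype.card_coe, Fintype.card_fin, Fintype.card_finset_len]
    ring
  rw [← hcard]
  refine Fintype.card_le_of_injective
    (fun x => (⟨(x.1.1 (φ x).1, x.1.2 (φ x).2), hφ x⟩, φ x,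
      ⟨(Finset.univ.image x.1.1).erase (x.1.1 (φ x).1), card_erase_image x.2.1 _⟩,
      ⟨(Finset.univ.image x.1.2).erase (x.1.2 (φ x).2), card_erase_image x.2.2.1 _⟩)) ?_
  intro x y hxy
  simp only [Prod.mk.injEq, Subtype.mk.injEq] at hxy
  obtain ⟨⟨hv1, hv2⟩, hφxy, he1, he2⟩ := hxy
  apply Subtype.ext
  apply Prod.ext
  · refine erase_image_inj x.2.1 y.2.1 (φ x).1 (φ y).1 hv1 he1
  · refine erase_image_inj x.2.2.1 y.2.2.1 (φ x).2 (φ y).2 hv2 he2

/-- Pure arithmetic behind the counting clause. -/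
theorem count_arith (P F C m T cnt : ℕ) (hF : 0 < F)
    (hcnt : cnt ≤ P * 66 ^ 2 * C ^ 2)
    (hP : P * 4356 ≤ T * F ^ 2) (hFC : F * C ≤ (m * T) ^ 65) :
    cnt * (m ^ 2 * T) ≤ (m * T) ^ 132 := by
  have h1 : (F * C) ^ 2 ≤ ((m * T) ^ 65) ^ 2 := Nat.pow_le_pow_left hFC 2
  have h2 : P * 4356 * (F * C) ^ 2 ≤ (T * F ^ 2) * ((m * T) ^ 65) ^ 2 := Nat.mul_le_mul hP h1
  have h3 : P * 4356 * (F * C) ^ 2 * (m ^ 2 * T) ≤ (T * F ^ 2) * ((m * T) ^ 65) ^ 2 * (m ^ 2 * T) :=
    Nat.mul_le_mul_right _ h2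
  have e1 : F ^ 2 * ((P * 66 ^ 2 * C ^ 2) * (m ^ 2 * T)) = P * 4356 * (F * C) ^ 2 * (m ^ 2 * T) := by
    ring
  have e2 : (T * F ^ 2) * ((m * T) ^ 65) ^ 2 * (m ^ 2 * T) = F ^ 2 * (m * T) ^ 132 := by
    ring
  have h4 : F ^ 2 * ((P * 66 ^ 2 * C ^ 2) * (m ^ 2 * T)) ≤ F ^ 2 * (m * T) ^ 132 := by
    rw [e1, ← e2]; exact h3
  have h5 : (P * 66 ^ 2 * C ^ 2) * (m ^ 2 * T) ≤ (m * T) ^ 132 :=
    Nat.le_of_mul_le_mul_left h4 (by positivity)
  exact le_trans (Nat.mul_le_mul_right _ hcnt) h5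

/-- **Assembly.**  The S0066 statement for a pattern `H` whose last row and last column contain a
`true`, from a construction for every `h ≥ 581`: a matrix `A0` of some size
`n0 ≤ (386 h + 2) 2^h` which is `4^h`-far from `H`-free and all of whose copies of `H` use one of
the designated (row, column) pairs of a set `P` with `|P| * 4356 ≤ 2^h * (65!)^2`. -/
theorem result_of_large (H : Fin 66 → Fin 66 → Bool)
    (hrow : ∃ j, H (Fin.last 65) j = true) (hcol : ∃ i, H i (Fin.last 65) = true)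
    (hL : ∀ h : ℕ, 581 ≤ h → ∃ n0 : ℕ, n0 ≤ (386 * h + 2) * 2 ^ h ∧
      ∃ (A0 : Fin n0 → Fin n0 → Bool) (P : Finset (Fin n0 × Fin n0)),
        P.card * 4356 ≤ 2 ^ h * (Nat.factorial 65) ^ 2 ∧
        (∀ B0 : Fin n0 → Fin n0 → Bool, orderedCopyCount H B0 = 0 →
          2 ^ h * 2 ^ h ≤
            (Finset.univ.filter (fun rc : Fin n0 × Fin n0 => A0 rc.1 rc.2 ≠ B0 rc.1 rc.2)).card) ∧
        (∀ r c : Fin 66 → Fin n0, IsCopy H A0 r c → ∃ i j, (r i, c j) ∈ P)) :
    ∀ h : ℕ, 1 ≤ h →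
      ∃ A : Fin ((386 * h + 2) * 2 ^ h) → Fin ((386 * h + 2) * 2 ^ h) → Bool,
        (∀ B : Fin ((386 * h + 2) * 2 ^ h) → Fin ((386 * h + 2) * 2 ^ h) → Bool,
          Crest.CombinatoricsR.OrderedMatrix.orderedCopyCount H B = 0 →
            ((386 * (h : ℝ) + 2) ^ 2)⁻¹ * (((386 * h + 2) * 2 ^ h : ℕ) : ℝ) ^ 2 ≤
              ((Finset.univ.filter (fun rc : Fin ((386 * h + 2) * 2 ^ h) × Fin ((386 * h + 2) * 2 ^ h) =>
                A rc.1 rc.2 ≠ B rc.1 rc.2)).card : ℝ)) ∧
        (Crest.CombinatoricsR.OrderedMatrix.orderedCopyCount H A : ℝ) /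
            (((386 * h + 2) * 2 ^ h : ℕ) : ℝ) ^ 132 ≤
          ((386 * (h : ℝ) + 2) ^ 2)⁻¹ * (2 : ℝ)⁻¹ ^ h := by
  intro h h1
  by_cases hsmall : h ≤ 580
  · exact small_h H h h1 hsmall
  · have h581 : 581 ≤ h := by omega
    obtain ⟨n0, hn0, A0, P, hPcard, hfar, hhit⟩ := hL h h581
    refine ⟨pad ((386 * h + 2) * 2 ^ h) A0, ?_, ?_⟩
    · intro B hB
      exact bridge_far h _ (far_pad hn0 H A0 _ hfar B hB)
    · apply bridge_count
      have hc1 : orderedCopyCount H (pad ((386 * h + 2) * 2 ^ h) A0) ≤ orderedCopyCount H A0 :=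
        count_pad_le (k := 65) H hrow hcol A0
      have hc2 : orderedCopyCount H A0 ≤ P.card * (65 + 1) ^ 2 * (n0.choose 65) ^ 2 :=
        count_le_of_hit (k := 65) H A0 P hhit
      have hch : n0.choose 65 ≤ ((386 * h + 2) * 2 ^ h).choose 65 := Nat.choose_le_choose 65 hn0
      have hc3 : orderedCopyCount H (pad ((386 * h + 2) * 2 ^ h) A0)
          ≤ P.card * 66 ^ 2 * (((386 * h + 2) * 2 ^ h).choose 65) ^ 2 := by
        refine le_trans hc1 (le_trans hc2 ?_)
        exact Nat.mul_le_mul_left _ (Nat.pow_le_pow_left hch 2)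
      exact count_arith P.card (Nat.factorial 65) _ (386 * h + 2) (2 ^ h) _
        (Nat.factorial_pos 65) hc3 hPcard (factorial_mul_choose_le_pow _ 65)

end Crest.Agent.Lib_S0066_Pad
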