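import Mathlib
import Crest.Agent.Lib_S0066_Reduce

/-!
S0066, design v2 ("cascade with one 4 × 4 core pattern"): definitions.

* `Row D N`, `Col D N` : the line types (tree lines, wild lines, rulers, pads), with a linear
  order given by an explicit lexicographic key, and `Fintype` instances with explicit cardinality.
* `A D N : Row D N → Col D N → Bool` : the matrix.
* `W : Fin 4 → Fin 4 → Bool` : the core pattern; `H : Fin 66 → Fin 66 → Bool` : `W ⊕ J_62`.
-/

set_option autoImplicit false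

namespace Crest.Agent.LibS0066W

/-- Row lines. `tr j x post`: tree row of leaf `x` at depth `j` (it sits at the node
`(j, x / 2^(D-j))`), in the pre-group (`post = false`) or post-group of that node. -/
inductive Row (D N : ℕ) : Type
  | pim (i : Fin N)
  | tr (j : Fin (D + 1)) (x : Fin (2 ^ D)) (post : Bool)
  | pip (i : Fin N)
  | vr (k : Fin (D + 2)) (s : Bool) (i : Fin N)
  | pad (i : Fin N)
  deriving DecidableEq

/-- Column lines. -/
inductive Col (D N : ℕ) : Type
  | km (i : Fin N)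
  | tc (k : Fin (D + 1)) (y : Fin (2 ^ D)) (post : Bool)
  | gam (i : Fin N)
  | phi (i : Fin N)
  | kp (i : Fin N)
  | uc (j : Fin (D + 1)) (s : Bool) (i : Fin N)
  | pad (i : Fin N)
  deriving DecidableEq

variable {D N : ℕ}

/-- The key type: lexicographic 5-tuples of naturals. -/
abbrev Key : Type := ℕ ×ₗ (ℕ ×ₗ (ℕ ×ₗ (ℕ ×ₗ ℕ)))

/-- Build a key. -/
def mkKey (a b c d e : ℕ) : Key := toLex (a, toLex (b, toLex (c, toLex (d, e))))

theorem mkKey_lt {a b c d e a' b' c' d' e' : ℕ} :
    mkKey a b c d e < mkKey a' b' c' d' e' ↔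
      a < a' ∨ a = a' ∧ (b < b' ∨ b = b' ∧ (c < c' ∨ c = c' ∧ (d < d' ∨ d = d' ∧ e < e'))) := by
  simp only [mkKey, Prod.Lex.toLex_lt_toLex]

theorem mkKey_inj {a b c d e a' b' c' d' e' : ℕ} :
    mkKey a b c d e = mkKey a' b' c' d' e' ↔ a = a' ∧ b = b' ∧ c = c' ∧ d = d' ∧ e = e' := by
  simp only [mkKey, EmbeddingLike.apply_eq_iff_eq, Prod.mk.injEq]

/-- First leaf below the depth-`j` node containing leaf `x`. -/
def firstLeaf (D j x : ℕ) : ℕ := x / 2 ^ (D - j) * 2 ^ (D - j)

/-- Last leaf below the depth-`j` node containing leaf `x`. -/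
def lastLeaf (D j x : ℕ) : ℕ := x / 2 ^ (D - j) * 2 ^ (D - j) + (2 ^ (D - j) - 1)

/-- Key of a tree line: pre-lines `(firstLeaf, 0, j, x)`, post-lines `(lastLeaf, 1, D - j, x)`. -/
def treeKey (D : ℕ) (sec j x : ℕ) (post : Bool) : Key :=
  if post then mkKey sec (lastLeaf D j x) 1 (D - j) x else mkKey sec (firstLeaf D j x) 0 j x

/-- Key of a row. -/
def Row.key : Row D N → Key
  | .pim i => mkKey 0 i 0 0 0
  | .tr j x post => treeKey D 1 j x post
  | .pip i => mkKey 2 i 0 0 0
  | .vr k s i => mkKey 3 k s.toNat i 0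
  | .pad i => mkKey 4 i 0 0 0

/-- Key of a column. -/
def Col.key : Col D N → Key
  | .km i => mkKey 0 i 0 0 0
  | .tc k y post => treeKey D 1 k y post
  | .gam i => mkKey 2 i 0 0 0
  | .phi i => mkKey 3 i 0 0 0
  | .kp i => mkKey 4 i 0 0 0
  | .uc j s i => mkKey 5 j s.toNat i 0
  | .pad i => mkKey 6 i 0 0 0

theorem treeKey_inj {D sec : ℕ} {j j' : Fin (D + 1)} {x x' : ℕ} {p p' : Bool}
    (h : treeKey D sec j x p = treeKey D sec j' x' p') : j = j' ∧ x = x' ∧ p = p' := by
  unfold treeKey at h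
  have hj := j.2
  have hj' := j'.2
  cases p <;> cases p' <;> simp only [if_true, if_false, Bool.false_eq_true, mkKey_inj] at h
  · exact ⟨Fin.ext h.2.2.2.1, h.2.2.2.2, rfl⟩
  · omega
  · omega
  · exact ⟨Fin.ext (by omega), h.2.2.2.2, rfl⟩

/-- Section number of a row. -/
def Row.sec : Row D N → ℕ
  | .pim _ => 0
  | .tr .. => 1
  | .pip _ => 2
  | .vr .. => 3
  | .pad _ => 4

/-- Section number of a column. -/
def Col.sec : Col D N → ℕ
  | .km _ => 0
  | .tc .. => 1
  | .gam _ => 2
  | .phi _ => 3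
  | .kp _ => 4
  | .uc .. => 5
  | .pad _ => 6

theorem treeKey_fst (D sec j x : ℕ) (p : Bool) : (ofLex (treeKey D sec j x p)).1 = sec := by
  unfold treeKey; split_ifs <;> rfl

theorem Row.key_fst (r : Row D N) : (ofLex r.key).1 = r.sec := by
  cases r <;> first | rfl | exact treeKey_fst ..

theorem Col.key_fst (c : Col D N) : (ofLex c.key).1 = c.sec := by
  cases c <;> first | rfl | exact treeKey_fst ..

theorem Row.key_injective : Function.Injective (Row.key (D := D) (N := N)) := by
  intro a b h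
  have hsec : a.sec = b.sec := by rw [← Row.key_fst, ← Row.key_fst, h]
  cases a <;> cases b <;> simp only [Row.sec] at hsec <;> try omega
  · simp only [Row.key, mkKey_inj, Fin.val_inj] at h
    rw [h.2.1]
  · obtain ⟨h1, h2, h3⟩ := treeKey_inj h
    subst h1 h3
    have := Fin.ext h2
    subst this
    rfl
  · simp only [Row.key, mkKey_inj, Fin.val_inj] at h
    rw [h.2.1]
  · rename_i k s i k' s' i'
    simp only [Row.key, mkKey_inj, Fin.val_inj] at h
    obtain ⟨-, h2, h3, h4, -⟩ := h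
    have hs : s = s' := by cases s <;> cases s' <;> simp_all
    subst h2 h4 hs
    rfl
  · simp only [Row.key, mkKey_inj, Fin.val_inj] at h
    rw [h.2.1]

theorem Col.key_injective : Function.Injective (Col.key (D := D) (N := N)) := by
  intro a b h
  have hsec : a.sec = b.sec := by rw [← Col.key_fst, ← Col.key_fst, h]
  cases a <;> cases b <;> simp only [Col.sec] at hsec <;> try omega
  · simp only [Col.key, mkKey_inj, Fin.val_inj] at h
    rw [h.2.1]
  · obtain ⟨h1, h2, h3⟩ := treeKey_inj h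
    subst h1 h3
    have := Fin.ext h2
    subst this
    rfl
  · simp only [Col.key, mkKey_inj, Fin.val_inj] at h
    rw [h.2.1]
  · simp only [Col.key, mkKey_inj, Fin.val_inj] at h
    rw [h.2.1]
  · simp only [Col.key, mkKey_inj, Fin.val_inj] at h
    rw [h.2.1]
  · rename_i k s i k' s' i'
    simp only [Col.key, mkKey_inj, Fin.val_inj] at h
    obtain ⟨-, h2, h3, h4, -⟩ := h
    have hs : s = s' := by cases s <;> cases s' <;> simp_all
    subst h2 h4 hs
    rfl
  · simp only [Col.key, mkKey_inj, Fin.val_inj] at h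
    rw [h.2.1]

instance : LinearOrder (Row D N) := LinearOrder.lift' Row.key Row.key_injective
instance : LinearOrder (Col D N) := LinearOrder.lift' Col.key Col.key_injective

theorem Row.lt_iff {a b : Row D N} : a < b ↔ a.key < b.key := Iff.rfl
theorem Row.le_iff {a b : Row D N} : a ≤ b ↔ a.key ≤ b.key := Iff.rfl
theorem Col.lt_iff {a b : Col D N} : a < b ↔ a.key < b.key := Iff.rfl
theorem Col.le_iff {a b : Col D N} : a ≤ b ↔ a.key ≤ b.key := Iff.rfl


/-! ### Fintype instances and cardinalities -/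

/-- `Row D N` as a sum type. -/
def Row.equivSum : Row D N ≃
    (Fin N ⊕ (Fin (D + 1) × Fin (2 ^ D) × Bool)) ⊕ (Fin N ⊕ ((Fin (D + 2) × Bool × Fin N) ⊕ Fin N)) where
  toFun
    | .pim i => .inl (.inl i)
    | .tr j x p => .inl (.inr (j, x, p))
    | .pip i => .inr (.inl i)
    | .vr k s i => .inr (.inr (.inl (k, s, i)))
    | .pad i => .inr (.inr (.inr i))
  invFun
    | .inl (.inl i) => .pim i
    | .inl (.inr (j, x, p)) => .tr j x p
    | .inr (.inl i) => .pip i
    | .inr (.inr (.inl (k, s, i))) => .vr k s i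
    | .inr (.inr (.inr i)) => .pad i
  left_inv r := by cases r <;> rfl
  right_inv r := by
    rcases r with (i | ⟨j, x, p⟩) | (i | (⟨k, s, i⟩ | i)) <;> rfl

/-- `Col D N` as a sum type. -/
def Col.equivSum : Col D N ≃
    (Fin N ⊕ (Fin (D + 1) × Fin (2 ^ D) × Bool)) ⊕
      ((Fin N ⊕ Fin N) ⊕ (Fin N ⊕ ((Fin (D + 1) × Bool × Fin N) ⊕ Fin N))) where
  toFun
    | .km i => .inl (.inl i)
    | .tc j x p => .inl (.inr (j, x, p))
    | .gam i => .inr (.inl (.inl i))
    | .phi i => .inr (.inl (.inr i))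
    | .kp i => .inr (.inr (.inl i))
    | .uc k s i => .inr (.inr (.inr (.inl (k, s, i))))
    | .pad i => .inr (.inr (.inr (.inr i)))
  invFun
    | .inl (.inl i) => .km i
    | .inl (.inr (j, x, p)) => .tc j x p
    | .inr (.inl (.inl i)) => .gam i
    | .inr (.inl (.inr i)) => .phi i
    | .inr (.inr (.inl i)) => .kp i
    | .inr (.inr (.inr (.inl (k, s, i)))) => .uc k s i
    | .inr (.inr (.inr (.inr i))) => .pad i
  left_inv r := by cases r <;> rfl
  right_inv r := by
    rcases r with (i | ⟨j, x, p⟩) | ((i | i) | (i | (⟨k, s, i⟩ | i))) <;> rfl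

instance : Fintype (Row D N) := Fintype.ofEquiv _ Row.equivSum.symm
instance : Fintype (Col D N) := Fintype.ofEquiv _ Col.equivSum.symm

theorem card_row (D N : ℕ) :
    Fintype.card (Row D N) = N + (D + 1) * (2 ^ D * 2) + (N + ((D + 2) * (2 * N) + N)) := by
  rw [Fintype.card_congr Row.equivSum]
  simp only [Fintype.card_sum, Fintype.card_prod, Fintype.card_fin, Fintype.card_bool]

theorem card_col (D N : ℕ) :
    Fintype.card (Col D N) =
      N + (D + 1) * (2 ^ D * 2) + ((N + N) + (N + ((D + 1) * (2 * N) + N))) := by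
  rw [Fintype.card_congr Col.equivSum]
  simp only [Fintype.card_sum, Fintype.card_prod, Fintype.card_fin, Fintype.card_bool]

/-! ### The matrix -/

/-- Side bit of the depth-`j` node above leaf `x` (parity of its index among depth-`j` nodes). -/
def side (D j x : ℕ) : Bool := decide ((x / 2 ^ (D - j)) % 2 = 1)

/-- The matrix of design v2. -/
def A (D N : ℕ) : Row D N → Col D N → Bool
  | .pim _, .tc .. => true
  | .pim _, .gam _ => true
  | .pim _, .phi _ => true
  | .pim _, _ => false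
  | .pip _, .tc .. => true
  | .pip _, .gam _ => true
  | .pip _, .phi _ => true
  | .pip _, _ => false
  | .tr _ _ _, .km _ => true
  | .tr _ _ _, .kp _ => true
  | .tr j x _, .tc k y _ =>
      decide ((x : ℕ) / 2 ^ (D - j) = (y : ℕ) / 2 ^ (D - j) ∧ ((k : ℕ) = j ∨ (k : ℕ) = j + 1))
  | .tr _ _ _, .gam _ => false
  | .tr j _ _, .phi _ => decide ((j : ℕ) = D)
  | .tr j x _, .uc j' s _ => decide ((j' : ℕ) = j ∧ s = side D j x)
  | .tr _ _ _, .pad _ => false
  | .vr k s _, .tc k' y _ => decide ((k : ℕ) = k' ∧ s = side D k' y)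
  | .vr k _ _, .gam _ => decide ((k : ℕ) = D + 1)
  | .vr k s _, .uc j s' _ => decide (((j : ℕ) = k ∧ s = s') ∨ (k : ℕ) = j + 1)
  | .vr _ _ _, _ => false
  | .pad _, .pad _ => true
  | .pad _, _ => false

/-- The 4 × 4 core pattern: rows `p, z, p'', ν`, columns `q, c, q'', μ`. -/
def W : Fin 4 → Fin 4 → Bool :=
  ![![true, true, true, false], ![true, false, true, true], ![true, true, true, false],
    ![false, true, false, true]]

/-- The 66 × 66 pattern `W ⊕ J_62`. -/
def H : Fin 66 → Fin 66 → Bool := fun i j =>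
  if h : (i : ℕ) < 4 ∧ (j : ℕ) < 4 then W ⟨i, h.1⟩ ⟨j, h.2⟩
  else decide (4 ≤ (i : ℕ) ∧ 4 ≤ (j : ℕ))

theorem H_of_lt {i j : Fin 66} (hi : (i : ℕ) < 4) (hj : (j : ℕ) < 4) :
    H i j = W ⟨i, hi⟩ ⟨j, hj⟩ := by
  simp only [H, hi, hj, and_self, dite_true]

theorem H_of_ge_left {i j : Fin 66} (hi : 4 ≤ (i : ℕ)) : H i j = decide (4 ≤ (j : ℕ)) := by
  have : ¬ ((i : ℕ) < 4 ∧ (j : ℕ) < 4) := by omega
  simp only [H, this, dite_false, hi, true_and]

theorem H_of_ge_right {i j : Fin 66} (hj : 4 ≤ (j : ℕ)) : H i j = decide (4 ≤ (i : ℕ)) := by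
  have : ¬ ((i : ℕ) < 4 ∧ (j : ℕ) < 4) := by omega
  simp only [H, this, dite_false, hj, and_true]

theorem H_row (i : Fin 66) : ∃ j, H i j = !false := by
  by_cases hi : (i : ℕ) < 4
  · by_cases h3 : (i : ℕ) = 3
    · refine ⟨⟨1, by norm_num⟩, ?_⟩
      rw [H_of_lt hi (by norm_num)]
      have : (⟨(i : ℕ), hi⟩ : Fin 4) = 3 := Fin.ext h3
      rw [this]; rfl
    · refine ⟨⟨0, by norm_num⟩, ?_⟩
      rw [H_of_lt hi (by norm_num)]
      have h012 : (i : ℕ) = 0 ∨ (i : ℕ) = 1 ∨ (i : ℕ) = 2 := by omega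
      rcases h012 with h | h | h
      · have : (⟨(i : ℕ), hi⟩ : Fin 4) = 0 := Fin.ext h
        rw [this]; rfl
      · have : (⟨(i : ℕ), hi⟩ : Fin 4) = 1 := Fin.ext h
        rw [this]; rfl
      · have : (⟨(i : ℕ), hi⟩ : Fin 4) = 2 := Fin.ext h
        rw [this]; rfl
  · refine ⟨⟨4, by norm_num⟩, ?_⟩
    rw [H_of_ge_left (by omega)]
    simp

theorem H_col (j : Fin 66) : ∃ i, H i j = !false := by
  by_cases hj : (j : ℕ) < 4
  · by_cases h3 : (j : ℕ) = 3
    · refine ⟨⟨1, by norm_num⟩, ?_⟩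
      rw [H_of_lt (by norm_num) hj]
      have : (⟨(j : ℕ), hj⟩ : Fin 4) = 3 := Fin.ext h3
      rw [this]; rfl
    · refine ⟨⟨0, by norm_num⟩, ?_⟩
      rw [H_of_lt (by norm_num) hj]
      have h012 : (j : ℕ) = 0 ∨ (j : ℕ) = 1 ∨ (j : ℕ) = 2 := by omega
      rcases h012 with h | h | h
      · have : (⟨(j : ℕ), hj⟩ : Fin 4) = 0 := Fin.ext h
        rw [this]; rfl
      · have : (⟨(j : ℕ), hj⟩ : Fin 4) = 1 := Fin.ext h
        rw [this]; rfl
      · have : (⟨(j : ℕ), hj⟩ : Fin 4) = 2 := Fin.ext h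
        rw [this]; rfl
  · refine ⟨⟨4, by norm_num⟩, ?_⟩
    rw [H_of_ge_right (by omega)]
    simp


/-! ### Basic order facts -/

theorem key_fst_le_of_lt {a b : Key} (h : a < b) : (ofLex a).1 ≤ (ofLex b).1 := by
  rcases (Prod.Lex.toLex_lt_toLex (x := ofLex a) (y := ofLex b)).1 h with h | h
  · exact h.le
  · exact h.1.le

theorem key_lt_of_fst_lt {a b : Key} (h : (ofLex a).1 < (ofLex b).1) : a < b :=
  (Prod.Lex.toLex_lt_toLex (x := ofLex a) (y := ofLex b)).2 (Or.inl h)

theorem Row.sec_le_of_lt {a b : Row D N} (h : a < b) : a.sec ≤ b.sec := by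
  rw [← Row.key_fst, ← Row.key_fst]; exact key_fst_le_of_lt h

theorem Row.lt_of_sec_lt {a b : Row D N} (h : a.sec < b.sec) : a < b := by
  rw [← Row.key_fst, ← Row.key_fst] at h; exact key_lt_of_fst_lt h

theorem Col.sec_le_of_lt {a b : Col D N} (h : a < b) : a.sec ≤ b.sec := by
  rw [← Col.key_fst, ← Col.key_fst]; exact key_fst_le_of_lt h

theorem Col.lt_of_sec_lt {a b : Col D N} (h : a.sec < b.sec) : a < b := by
  rw [← Col.key_fst, ← Col.key_fst] at h; exact key_lt_of_fst_lt h

theorem Row.sec_le_of_le {a b : Row D N} (h : a ≤ b) : a.sec ≤ b.sec := by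
  rcases h.lt_or_eq with h | h
  · exact Row.sec_le_of_lt h
  · rw [h]

theorem Col.sec_le_of_le {a b : Col D N} (h : a ≤ b) : a.sec ≤ b.sec := by
  rcases h.lt_or_eq with h | h
  · exact Col.sec_le_of_lt h
  · rw [h]

/-- Order inside the ruler-row section: lexicographic in `(k, s, i)`. -/
theorem Row.vr_lt_vr {k k' : Fin (D + 2)} {s s' : Bool} {i i' : Fin N} :
    (Row.vr k s i : Row D N) < Row.vr k' s' i' ↔
      (k : ℕ) < k' ∨ (k : ℕ) = k' ∧ (s.toNat < s'.toNat ∨ s.toNat = s'.toNat ∧ (i : ℕ) < i') := by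
  rw [Row.lt_iff]
  simp only [Row.key, mkKey_lt, lt_self_iff_false, false_or, true_and, and_false, or_false]

/-- Order inside the ruler-column section: lexicographic in `(j, s, i)`. -/
theorem Col.uc_lt_uc {k k' : Fin (D + 1)} {s s' : Bool} {i i' : Fin N} :
    (Col.uc k s i : Col D N) < Col.uc k' s' i' ↔
      (k : ℕ) < k' ∨ (k : ℕ) = k' ∧ (s.toNat < s'.toNat ∨ s.toNat = s'.toNat ∧ (i : ℕ) < i') := by
  rw [Col.lt_iff]
  simp only [Col.key, mkKey_lt, lt_self_iff_false, false_or, true_and, and_false, or_false]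

/-- Order of two tree rows, in terms of keys. -/
theorem Row.tr_lt_tr {j j' : Fin (D + 1)} {x x' : Fin (2 ^ D)} {p p' : Bool} :
    (Row.tr j x p : Row D N) < Row.tr j' x' p' ↔ treeKey D 1 j x p < treeKey D 1 j' x' p' :=
  Iff.rfl

/-- Order of two tree columns, in terms of keys. -/
theorem Col.tc_lt_tc {j j' : Fin (D + 1)} {x x' : Fin (2 ^ D)} {p p' : Bool} :
    (Col.tc j x p : Col D N) < Col.tc j' x' p' ↔ treeKey D 1 j x p < treeKey D 1 j' x' p' :=
  Iff.rfl

/-- Order inside a plain family, e.g. `pim`. -/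
theorem Row.pim_lt_pim {i i' : Fin N} : (Row.pim i : Row D N) < Row.pim i' ↔ i < i' := by
  rw [Row.lt_iff]; simp only [Row.key, mkKey_lt, Fin.lt_def, lt_self_iff_false, false_or, true_and, and_false, or_false]
theorem Row.pip_lt_pip {i i' : Fin N} : (Row.pip i : Row D N) < Row.pip i' ↔ i < i' := by
  rw [Row.lt_iff]; simp only [Row.key, mkKey_lt, Fin.lt_def, lt_self_iff_false, false_or, true_and, and_false, or_false]
theorem Row.pad_lt_pad {i i' : Fin N} : (Row.pad i : Row D N) < Row.pad i' ↔ i < i' := by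
  rw [Row.lt_iff]; simp only [Row.key, mkKey_lt, Fin.lt_def, lt_self_iff_false, false_or, true_and, and_false, or_false]
theorem Col.km_lt_km {i i' : Fin N} : (Col.km i : Col D N) < Col.km i' ↔ i < i' := by
  rw [Col.lt_iff]; simp only [Col.key, mkKey_lt, Fin.lt_def, lt_self_iff_false, false_or, true_and, and_false, or_false]
theorem Col.gam_lt_gam {i i' : Fin N} : (Col.gam i : Col D N) < Col.gam i' ↔ i < i' := by
  rw [Col.lt_iff]; simp only [Col.key, mkKey_lt, Fin.lt_def, lt_self_iff_false, false_or, true_and, and_false, or_false]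
theorem Col.phi_lt_phi {i i' : Fin N} : (Col.phi i : Col D N) < Col.phi i' ↔ i < i' := by
  rw [Col.lt_iff]; simp only [Col.key, mkKey_lt, Fin.lt_def, lt_self_iff_false, false_or, true_and, and_false, or_false]
theorem Col.kp_lt_kp {i i' : Fin N} : (Col.kp i : Col D N) < Col.kp i' ↔ i < i' := by
  rw [Col.lt_iff]; simp only [Col.key, mkKey_lt, Fin.lt_def, lt_self_iff_false, false_or, true_and, and_false, or_false]
theorem Col.pad_lt_pad {i i' : Fin N} : (Col.pad i : Col D N) < Col.pad i' ↔ i < i' := by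
  rw [Col.lt_iff]; simp only [Col.key, mkKey_lt, Fin.lt_def, lt_self_iff_false, false_or, true_and, and_false, or_false]

/-- Realize the auto-generated equation lemmas of `A` once, in the module that defines `A`, so that
every downstream module shares this copy (otherwise sibling modules each generate their own
`A.eq_n`, and a joint kernel check of the whole closure reports colliding constants). -/
theorem A_eqns_realized : True := by
  have := @A.eq_1
  have := @A.eq_2
  have := @A.eq_3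
  have := @A.eq_4
  have := @A.eq_5
  have := @A.eq_6
  have := @A.eq_7
  have := @A.eq_8
  have := @A.eq_9
  have := @A.eq_10
  have := @A.eq_11
  have := @A.eq_12
  have := @A.eq_13
  have := @A.eq_14
  have := @A.eq_15
  have := @A.eq_16
  have := @A.eq_17
  have := @A.eq_18
  have := @A.eq_19
  have := @A.eq_20
  have := @A.eq_21
  trivial

end Crest.Agent.LibS0066W
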