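import Mathlib
import Crest.Agent.Lib_S0066_WDefs

/-!
S0066, design v2: the size bounds for the parameters `D = h + 6`, `N = 2 ^ (h + 6)`.
-/

set_option autoImplicit false

namespace Crest.Agent.LibS0066W

theorem card_row_le (h : ℕ) (hh : 17 ≤ h) :
    Fintype.card (Row (h + 6) (2 ^ (h + 6))) ≤ (386 * h + 2) * 2 ^ h := by
  rw [card_row]
  have h2 : (2 : ℕ) ^ (h + 6) = 64 * 2 ^ h := by rw [pow_add]; ring
  rw [h2]
  have hp : 0 < 2 ^ h := by positivity
  nlinarith [hp]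

theorem card_col_le (h : ℕ) (hh : 17 ≤ h) :
    Fintype.card (Col (h + 6) (2 ^ (h + 6))) ≤ (386 * h + 2) * 2 ^ h := by
  rw [card_col]
  have h2 : (2 : ℕ) ^ (h + 6) = 64 * 2 ^ h := by rw [pow_add]; ring
  rw [h2]
  have hp : 0 < 2 ^ h := by positivity
  nlinarith [hp]

end Crest.Agent.LibS0066W
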