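import Mathlib
import Crest.Agent.Lib_S0066_WDefs

/-!
S0066, design v2, farness: the design-level core (helper11).

* generic counting of "marked" cells in a finite rectangle: `cnt`, `sum_cnt`, `bad_mul_le`,
  selection lemmas `sel_card`, `sel_exists`, `sel_emb`;
* for a competitor `B` of the matrix `A D N`: `chgRow`, `chgCol`, `GoodRow`, `GoodCol`,
  `badRows`, `badCols`, and the counting bounds;
* `no_W_copy_of_good`: if `B` is `H`-free (and few lines are bad), then `B` contains no copy of
  the core pattern `W` on good non-pad lines (pad extension);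
* `force_W`: the generic forcing step (fixed good lines + fat families).
-/

set_option autoImplicit false

namespace Crest.Agent.LibS0066W

open Finset Crest.Agent.Lib_S0066_Reduce

/-! ### Generic counting -/

section generic

variable {ι κ : Type*} [Fintype ι] [Fintype κ]
variable (P : ι → κ → Prop) [∀ i k, Decidable (P i k)]

/-- Number of marked cells in the line `i`. -/
def cnt (i : ι) : ℕ := (univ.filter fun k => P i k).card

theorem sum_cnt : ∑ i, cnt P i = (univ.filter fun ik : ι × κ => P ik.1 ik.2).card := by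
  unfold cnt
  simp only [Finset.card_filter]
  rw [← Finset.sum_product']
  rfl

theorem bad_mul_le (θ : ℕ) :
    (univ.filter fun i => θ ≤ cnt P i).card * θ ≤
      (univ.filter fun ik : ι × κ => P ik.1 ik.2).card := by
  rw [← sum_cnt P]
  calc (univ.filter fun i => θ ≤ cnt P i).card * θ
      = ∑ _i ∈ univ.filter (fun i => θ ≤ cnt P i), θ := by
        rw [Finset.sum_const, smul_eq_mul]
    _ ≤ ∑ i ∈ univ.filter (fun i => θ ≤ cnt P i), cnt P i :=
        Finset.sum_le_sum fun i hi => (Finset.mem_filter.1 hi).2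
    _ ≤ ∑ i, cnt P i := Finset.sum_le_sum_of_subset (Finset.filter_subset _ _)

/-- Selection: among the members of an injective family of lines, all but
`#bad + |S| * θ` are good and unmarked against the lines of `S` (each of which has fewer than
`θ` marks). -/
theorem sel_card {N : ℕ} (θ : ℕ) (f : Fin N → ι) (hf : Function.Injective f) (S : Finset κ)
    (hS : ∀ k ∈ S, (univ.filter fun i => P i k).card < θ) :
    N ≤ (univ.filter fun a : Fin N => cnt P (f a) < θ ∧ ∀ k ∈ S, ¬ P (f a) k).card +
      (univ.filter fun i => θ ≤ cnt P i).card + S.card * θ := by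
  -- indices whose line is bad
  have h1 : (univ.filter fun a : Fin N => θ ≤ cnt P (f a)).card ≤
      (univ.filter fun i => θ ≤ cnt P i).card := by
    refine Finset.card_le_card_of_injOn f ?_ (fun a _ b _ h => hf h)
    intro a ha
    simp only [Finset.coe_filter, Finset.mem_univ, true_and, Set.mem_ofPred_eq] at ha ⊢
    exact ha
  -- indices with a mark against some member of S
  have h2 : (univ.filter fun a : Fin N => ∃ k ∈ S, P (f a) k).card ≤ S.card * θ := by
    have hsub : (univ.filter fun a : Fin N => ∃ k ∈ S, P (f a) k) ⊆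
        S.biUnion (fun k => univ.filter fun a : Fin N => P (f a) k) := by
      intro a ha
      simp only [Finset.mem_filter, Finset.mem_univ, true_and] at ha
      obtain ⟨k, hk, hP⟩ := ha
      exact Finset.mem_biUnion.2 ⟨k, hk, by simp [hP]⟩
    refine (Finset.card_le_card hsub).trans (Finset.card_biUnion_le.trans ?_)
    calc ∑ k ∈ S, (univ.filter fun a : Fin N => P (f a) k).card
        ≤ ∑ _k ∈ S, θ := by
          refine Finset.sum_le_sum fun k hk => ?_
          have h3 : (univ.filter fun a : Fin N => P (f a) k).card ≤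
              (univ.filter fun i => P i k).card := by
            refine Finset.card_le_card_of_injOn f ?_ (fun a _ b _ h => hf h)
            intro a ha
            simp only [Finset.coe_filter, Finset.mem_univ, true_and, Set.mem_ofPred_eq] at ha ⊢
            exact ha
          exact h3.trans (hS k hk).le
      _ = S.card * θ := by rw [Finset.sum_const, smul_eq_mul]
  have hcover : (univ : Finset (Fin N)) ⊆
      (univ.filter fun a : Fin N => cnt P (f a) < θ ∧ ∀ k ∈ S, ¬ P (f a) k) ∪
        ((univ.filter fun a : Fin N => θ ≤ cnt P (f a)) ∪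
          (univ.filter fun a : Fin N => ∃ k ∈ S, P (f a) k)) := by
    intro a _
    simp only [Finset.mem_union, Finset.mem_filter, Finset.mem_univ, true_and]
    by_cases hb : θ ≤ cnt P (f a)
    · exact Or.inr (Or.inl hb)
    · by_cases hm : ∃ k ∈ S, P (f a) k
      · exact Or.inr (Or.inr hm)
      · exact Or.inl ⟨not_le.1 hb, fun k hk hP => hm ⟨k, hk, hP⟩⟩
  have hN : N = (univ : Finset (Fin N)).card := by simp
  have := Finset.card_le_card hcover
  have h4 := Finset.card_union_le
    (univ.filter fun a : Fin N => cnt P (f a) < θ ∧ ∀ k ∈ S, ¬ P (f a) k)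
    ((univ.filter fun a : Fin N => θ ≤ cnt P (f a)) ∪
      (univ.filter fun a : Fin N => ∃ k ∈ S, P (f a) k))
  have h5 := Finset.card_union_le (univ.filter fun a : Fin N => θ ≤ cnt P (f a))
    (univ.filter fun a : Fin N => ∃ k ∈ S, P (f a) k)
  omega

theorem sel_exists {N : ℕ} (θ : ℕ) (f : Fin N → ι) (hf : Function.Injective f) (S : Finset κ)
    (hS : ∀ k ∈ S, (univ.filter fun i => P i k).card < θ)
    (hN : (univ.filter fun i => θ ≤ cnt P i).card + S.card * θ < N) :
    ∃ a : Fin N, cnt P (f a) < θ ∧ ∀ k ∈ S, ¬ P (f a) k := by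
  have h := sel_card P θ f hf S hS
  have hpos : 0 < (univ.filter fun a : Fin N => cnt P (f a) < θ ∧ ∀ k ∈ S, ¬ P (f a) k).card := by
    omega
  obtain ⟨a, ha⟩ := Finset.card_pos.1 hpos
  exact ⟨a, (Finset.mem_filter.1 ha).2⟩

theorem sel_emb {N : ℕ} (θ m : ℕ) (f : Fin N → ι) (hf : Function.Injective f) (S : Finset κ)
    (hS : ∀ k ∈ S, (univ.filter fun i => P i k).card < θ)
    (hN : (univ.filter fun i => θ ≤ cnt P i).card + S.card * θ + m ≤ N) :
    ∃ e : Fin m ↪o Fin N, ∀ b, cnt P (f (e b)) < θ ∧ ∀ k ∈ S, ¬ P (f (e b)) k := by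
  have h := sel_card P θ f hf S hS
  have hm : m ≤ (univ.filter fun a : Fin N => cnt P (f a) < θ ∧ ∀ k ∈ S, ¬ P (f a) k).card := by
    omega
  refine ⟨Finset.orderEmbOfCardLe _ hm, fun b => ?_⟩
  have := Finset.orderEmbOfCardLe_mem
    (univ.filter fun a : Fin N => cnt P (f a) < θ ∧ ∀ k ∈ S, ¬ P (f a) k) hm b
  exact (Finset.mem_filter.1 this).2

end generic

/-! ### Changed cells of a competitor `B` -/

section comp

variable {D N : ℕ} (B : Row D N → Col D N → Bool)

/-- Number of changed cells in a row. -/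
def chgRow (r : Row D N) : ℕ := cnt (fun (r : Row D N) (c : Col D N) => A D N r c ≠ B r c) r

/-- Number of changed cells in a column. -/
def chgCol (c : Col D N) : ℕ := cnt (fun (c : Col D N) (r : Row D N) => A D N r c ≠ B r c) c

/-- A row with fewer than `θ` changed cells. -/
def GoodRow (θ : ℕ) (r : Row D N) : Prop := chgRow B r < θ

/-- A column with fewer than `θ` changed cells. -/
def GoodCol (θ : ℕ) (c : Col D N) : Prop := chgCol B c < θ

/-- The bad rows. -/
def badRows (θ : ℕ) : Finset (Row D N) := univ.filter fun r => θ ≤ chgRow B r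

/-- The bad columns. -/
def badCols (θ : ℕ) : Finset (Col D N) := univ.filter fun c => θ ≤ chgCol B c

/-- The set of changed cells. -/
def chgSet : Finset (Row D N × Col D N) := univ.filter fun rc => A D N rc.1 rc.2 ≠ B rc.1 rc.2

theorem badRows_mul_le (θ : ℕ) : (badRows B θ).card * θ ≤ (chgSet B).card :=
  bad_mul_le (fun (r : Row D N) (c : Col D N) => A D N r c ≠ B r c) θ

theorem badCols_mul_le (θ : ℕ) : (badCols B θ).card * θ ≤ (chgSet B).card := by
  have h := bad_mul_le (fun (c : Col D N) (r : Row D N) => A D N r c ≠ B r c) θ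
  have e : (univ.filter fun ik : Col D N × Row D N => A D N ik.2 ik.1 ≠ B ik.2 ik.1).card =
      (chgSet B).card := by
    unfold chgSet
    refine Finset.card_bij (fun ik _ => (ik.2, ik.1)) ?_ ?_ ?_
    · intro ik hik
      simpa using hik
    · intro a _ b _ hab
      simp only [Prod.mk.injEq] at hab
      exact Prod.ext hab.2 hab.1
    · intro rc hrc
      exact ⟨(rc.2, rc.1), by simpa using hrc, rfl⟩
  rw [← e]
  exact h

theorem not_goodRow_iff {θ : ℕ} {r : Row D N} : ¬ GoodRow B θ r ↔ r ∈ badRows B θ := by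
  simp [GoodRow, badRows]

theorem not_goodCol_iff {θ : ℕ} {c : Col D N} : ¬ GoodCol B θ c ↔ c ∈ badCols B θ := by
  simp [GoodCol, badCols]

/-- Select a good member of a row family, unchanged against a set of good columns. -/
theorem sel_row (θ : ℕ) (f : Fin N → Row D N) (hf : Function.Injective f)
    (S : Finset (Col D N)) (hS : ∀ c ∈ S, GoodCol B θ c)
    (hN : (badRows B θ).card + S.card * θ < N) :
    ∃ a : Fin N, GoodRow B θ (f a) ∧ ∀ c ∈ S, B (f a) c = A D N (f a) c := by
  obtain ⟨a, h1, h2⟩ := sel_exists (fun (r : Row D N) (c : Col D N) => A D N r c ≠ B r c)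
    θ f hf S hS hN
  exact ⟨a, h1, fun c hc => (not_not.1 (h2 c hc)).symm⟩

/-- Select a good member of a column family, unchanged against a set of good rows. -/
theorem sel_col (θ : ℕ) (f : Fin N → Col D N) (hf : Function.Injective f)
    (S : Finset (Row D N)) (hS : ∀ r ∈ S, GoodRow B θ r)
    (hN : (badCols B θ).card + S.card * θ < N) :
    ∃ a : Fin N, GoodCol B θ (f a) ∧ ∀ r ∈ S, B r (f a) = A D N r (f a) := by
  obtain ⟨a, h1, h2⟩ := sel_exists (fun (c : Col D N) (r : Row D N) => A D N r c ≠ B r c)
    θ f hf S hS hN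
  exact ⟨a, h1, fun r hr => (not_not.1 (h2 r hr)).symm⟩

theorem sel_row_emb (θ m : ℕ) (f : Fin N → Row D N) (hf : Function.Injective f)
    (S : Finset (Col D N)) (hS : ∀ c ∈ S, GoodCol B θ c)
    (hN : (badRows B θ).card + S.card * θ + m ≤ N) :
    ∃ e : Fin m ↪o Fin N, ∀ b, GoodRow B θ (f (e b)) ∧ ∀ c ∈ S, B (f (e b)) c = A D N (f (e b)) c := by
  obtain ⟨e, he⟩ := sel_emb (fun (r : Row D N) (c : Col D N) => A D N r c ≠ B r c)
    θ m f hf S hS hN
  exact ⟨e, fun b => ⟨(he b).1, fun c hc => (not_not.1 ((he b).2 c hc)).symm⟩⟩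

theorem sel_col_emb (θ m : ℕ) (f : Fin N → Col D N) (hf : Function.Injective f)
    (S : Finset (Row D N)) (hS : ∀ r ∈ S, GoodRow B θ r)
    (hN : (badCols B θ).card + S.card * θ + m ≤ N) :
    ∃ e : Fin m ↪o Fin N, ∀ b, GoodCol B θ (f (e b)) ∧ ∀ r ∈ S, B r (f (e b)) = A D N r (f (e b)) := by
  obtain ⟨e, he⟩ := sel_emb (fun (c : Col D N) (r : Row D N) => A D N r c ≠ B r c)
    θ m f hf S hS hN
  exact ⟨e, fun b => ⟨(he b).1, fun r hr => (not_not.1 ((he b).2 r hr)).symm⟩⟩

/-! ### Injectivity of the fat families -/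

theorem pim_injective : Function.Injective (Row.pim : Fin N → Row D N) :=
  fun _ _ h => Row.pim.inj h
theorem pip_injective : Function.Injective (Row.pip : Fin N → Row D N) :=
  fun _ _ h => Row.pip.inj h
theorem vr_injective (k : Fin (D + 2)) (s : Bool) :
    Function.Injective (Row.vr k s : Fin N → Row D N) :=
  fun _ _ h => (Row.vr.inj h).2.2
theorem rpad_injective : Function.Injective (Row.pad : Fin N → Row D N) :=
  fun _ _ h => Row.pad.inj h
theorem km_injective : Function.Injective (Col.km : Fin N → Col D N) :=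
  fun _ _ h => Col.km.inj h
theorem gam_injective : Function.Injective (Col.gam : Fin N → Col D N) :=
  fun _ _ h => Col.gam.inj h
theorem phi_injective : Function.Injective (Col.phi : Fin N → Col D N) :=
  fun _ _ h => Col.phi.inj h
theorem kp_injective : Function.Injective (Col.kp : Fin N → Col D N) :=
  fun _ _ h => Col.kp.inj h
theorem uc_injective (j : Fin (D + 1)) (s : Bool) :
    Function.Injective (Col.uc j s : Fin N → Col D N) :=
  fun _ _ h => (Col.uc.inj h).2.2
theorem cpad_injective : Function.Injective (Col.pad : Fin N → Col D N) :=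
  fun _ _ h => Col.pad.inj h

/-! ### Pad extension -/

theorem A_pad_col_of_sec {r : Row D N} (h : r.sec < 4) (i : Fin N) :
    A D N r (Col.pad i) = false := by
  cases r <;> simp_all [A, Row.sec]

theorem A_pad_row_of_sec {c : Col D N} (h : c.sec < 6) (i : Fin N) :
    A D N (Row.pad i) c = false := by
  cases c <;> simp_all [A, Col.sec]

theorem A_pad_pad (i i' : Fin N) : A D N (Row.pad i) (Col.pad i') = true := rfl

/-- **Pad extension.** An `H`-free competitor with few bad lines contains no copy of the core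
pattern `W` on good non-pad lines. -/
theorem no_W_copy_of_good (θ : ℕ) (hB : CopyFree H B)
    (hbr : (badRows B θ).card + 66 * θ + 62 ≤ N) (hbc : (badCols B θ).card + 66 * θ + 62 ≤ N)
    (r4 : Fin 4 → Row D N) (c4 : Fin 4 → Col D N) (hr : StrictMono r4) (hc : StrictMono c4)
    (hrg : ∀ i, GoodRow B θ (r4 i)) (hrs : ∀ i, (r4 i).sec < 4)
    (hcg : ∀ j, GoodCol B θ (c4 j)) (hcs : ∀ j, (c4 j).sec < 6)
    (hW : ∀ i j, B (r4 i) (c4 j) = W i j) : False := by
  classical
  -- pad columns
  obtain ⟨ec, hec⟩ := sel_col_emb B θ 62 Col.pad cpad_injective (univ.image r4)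
    (by intro r hr'; obtain ⟨i, -, rfl⟩ := Finset.mem_image.1 hr'; exact hrg i)
    (by
      have : (univ.image r4).card ≤ 4 := by
        simpa using (Finset.card_image_le (s := (univ : Finset (Fin 4))) (f := r4))
      nlinarith)
  -- pad rows
  obtain ⟨er, her⟩ := sel_row_emb B θ 62 Row.pad rpad_injective
    (univ.image c4 ∪ univ.image (fun b => Col.pad (ec b)))
    (by
      intro c hc'
      rcases Finset.mem_union.1 hc' with h | h
      · obtain ⟨j, -, rfl⟩ := Finset.mem_image.1 h; exact hcg j
      · obtain ⟨b, -, rfl⟩ := Finset.mem_image.1 h; exact (hec b).1)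
    (by
      have h1 : (univ.image c4).card ≤ 4 := by
        simpa using (Finset.card_image_le (s := (univ : Finset (Fin 4))) (f := c4))
      have h2 : (univ.image (fun b => (Col.pad (ec b) : Col D N))).card ≤ 62 := by
        simpa using (Finset.card_image_le (s := (univ : Finset (Fin 62)))
          (f := fun b => (Col.pad (ec b) : Col D N)))
      have h3 := Finset.card_union_le (univ.image c4)
        (univ.image (fun b => (Col.pad (ec b) : Col D N)))
      nlinarith)
  -- the copy of H
  let r : Fin 66 → Row D N := fun i =>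
    if h : (i : ℕ) < 4 then r4 ⟨i, h⟩ else Row.pad (er ⟨(i : ℕ) - 4, by omega⟩)
  let c : Fin 66 → Col D N := fun j =>
    if h : (j : ℕ) < 4 then c4 ⟨j, h⟩ else Col.pad (ec ⟨(j : ℕ) - 4, by omega⟩)
  refine hB r c ⟨?_, ?_, ?_⟩
  · intro i j hij
    have hij' : (i : ℕ) < j := hij
    by_cases hi : (i : ℕ) < 4
    · by_cases hj : (j : ℕ) < 4
      · simp only [r, hi, hj, dite_true]
        exact hr (by exact hij')
      · simp only [r, hi, hj, dite_true, dite_false]
        exact Row.lt_of_sec_lt (by simpa [Row.sec] using hrs ⟨i, hi⟩)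
    · have hj : ¬ (j : ℕ) < 4 := by omega
      simp only [r, hi, hj, dite_false]
      rw [Row.pad_lt_pad]
      exact er.strictMono (by
        show (⟨(i : ℕ) - 4, _⟩ : Fin 62) < ⟨(j : ℕ) - 4, _⟩
        simp only [Fin.mk_lt_mk]; omega)
  · intro i j hij
    have hij' : (i : ℕ) < j := hij
    by_cases hi : (i : ℕ) < 4
    · by_cases hj : (j : ℕ) < 4
      · simp only [c, hi, hj, dite_true]
        exact hc (by exact hij')
      · simp only [c, hi, hj, dite_true, dite_false]
        exact Col.lt_of_sec_lt (by simpa [Col.sec] using hcs ⟨i, hi⟩)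
    · have hj : ¬ (j : ℕ) < 4 := by omega
      simp only [c, hi, hj, dite_false]
      rw [Col.pad_lt_pad]
      exact ec.strictMono (by
        show (⟨(i : ℕ) - 4, _⟩ : Fin 62) < ⟨(j : ℕ) - 4, _⟩
        simp only [Fin.mk_lt_mk]; omega)
  · intro i j
    by_cases hi : (i : ℕ) < 4
    · by_cases hj : (j : ℕ) < 4
      · simp only [r, c, hi, hj, dite_true]
        rw [hW, H_of_lt hi hj]
      · simp only [r, c, hi, hj, dite_true, dite_false]
        rw [(hec _).2 _ (Finset.mem_image_of_mem _ (Finset.mem_univ _)),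
          A_pad_col_of_sec (hrs _), H_of_ge_right (by omega)]
        simp; omega
    · by_cases hj : (j : ℕ) < 4
      · simp only [r, c, hi, hj, dite_true, dite_false]
        rw [(her _).2 _ (Finset.mem_union_left _ (Finset.mem_image_of_mem _ (Finset.mem_univ _))),
          A_pad_row_of_sec (hcs _), H_of_ge_left (by omega)]
        simp; omega
      · simp only [r, c, hi, hj, dite_false]
        rw [(her _).2 _ (Finset.mem_union_right _
            (Finset.mem_image_of_mem (fun b => (Col.pad (ec b) : Col D N)) (Finset.mem_univ _))),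
          A_pad_pad, H_of_ge_left (by omega)]
        simp; omega

/-! ### The generic forcing step -/

/-- **Forcing.** Eight positions (4 rows, 4 columns), each either a fat family
(`fam = true`: an injective map `Fin N → line`) or a fixed good line (`fam = false`: a constant
map whose value is good).  If every choice of members is increasing, avoids the pad sections,
`A` has the values of `W` on every cell touching a family, and `B` has the values of `W` on the
fixed × fixed cells, then an `H`-free `B` with few bad lines yields a contradiction. -/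
theorem force_W (θ : ℕ) (hB : CopyFree H B)
    (hbr : (badRows B θ).card + 66 * θ + 62 ≤ N) (hbc : (badCols B θ).card + 66 * θ + 62 ≤ N)
    (fr : Fin 4 → Fin N → Row D N) (fc : Fin 4 → Fin N → Col D N)
    (famR famC : Fin 4 → Bool)
    (hfr : ∀ i, if famR i = true then Function.Injective (fr i)
        else ∃ l, (∀ a, fr i a = l) ∧ GoodRow B θ l)
    (hfc : ∀ j, if famC j = true then Function.Injective (fc j)
        else ∃ l, (∀ b, fc j b = l) ∧ GoodCol B θ l)
    (hsr : ∀ i a, (fr i a).sec < 4) (hsc : ∀ j b, (fc j b).sec < 6)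
    (hmr : ∀ a : Fin 4 → Fin N, StrictMono fun i => fr i (a i))
    (hmc : ∀ b : Fin 4 → Fin N, StrictMono fun j => fc j (b j))
    (hval : ∀ i j a b, (famR i || famC j) = true → A D N (fr i a) (fc j b) = W i j)
    (hfix : ∀ i j a b, famR i = false → famC j = false → B (fr i a) (fc j b) = W i j) :
    False := by
  classical
  have hNpos : 0 < N := by omega
  let a0 : Fin N := ⟨0, hNpos⟩
  -- the fixed rows
  let SR : Finset (Row D N) := (univ.filter fun i => famR i = false).image (fun i => fr i a0)
  have hSR : ∀ r ∈ SR, GoodRow B θ r := by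
    intro r hr
    obtain ⟨i, hi, rfl⟩ := Finset.mem_image.1 hr
    have hi' : famR i = false := (Finset.mem_filter.1 hi).2
    have h := hfr i
    rw [hi'] at h
    simp only [Bool.false_eq_true, if_false] at h
    obtain ⟨l, hl, hg⟩ := h
    rw [hl]; exact hg
  have hSRcard : SR.card ≤ 4 := by
    refine Finset.card_image_le.trans ?_
    simpa using Finset.card_filter_le (univ : Finset (Fin 4)) (fun i => famR i = false)
  -- choose the columns
  have hb : ∀ j, ∃ b : Fin N, GoodCol B θ (fc j b) ∧
      (famC j = true → ∀ r ∈ SR, B r (fc j b) = A D N r (fc j b)) := by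
    intro j
    have h := hfc j
    by_cases hj : famC j = true
    · rw [if_pos hj] at h
      obtain ⟨b, hb1, hb2⟩ := sel_col B θ (fc j) h SR hSR (by
        have : SR.card * θ ≤ 4 * θ := Nat.mul_le_mul_right θ hSRcard
        omega)
      exact ⟨b, hb1, fun _ => hb2⟩
    · rw [if_neg hj] at h
      obtain ⟨l, hl, hg⟩ := h
      exact ⟨a0, by rw [hl]; exact hg, fun h' => absurd h' hj⟩
  choose b hbg hbu using hb
  -- choose the rows
  let SC : Finset (Col D N) := univ.image (fun j => fc j (b j))
  have hSC : ∀ c ∈ SC, GoodCol B θ c := by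
    intro c hc
    obtain ⟨j, -, rfl⟩ := Finset.mem_image.1 hc
    exact hbg j
  have hSCcard : SC.card ≤ 4 := by
    simpa using (Finset.card_image_le (s := (univ : Finset (Fin 4))) (f := fun j => fc j (b j)))
  have ha : ∀ i, ∃ a : Fin N, GoodRow B θ (fr i a) ∧
      (famR i = true → ∀ c ∈ SC, B (fr i a) c = A D N (fr i a) c) := by
    intro i
    have h := hfr i
    by_cases hi : famR i = true
    · rw [if_pos hi] at h
      obtain ⟨a, ha1, ha2⟩ := sel_row B θ (fr i) h SC hSC (by
        have : SC.card * θ ≤ 4 * θ := Nat.mul_le_mul_right θ hSCcard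
        omega)
      exact ⟨a, ha1, fun _ => ha2⟩
    · rw [if_neg hi] at h
      obtain ⟨l, hl, hg⟩ := h
      exact ⟨a0, by rw [hl]; exact hg, fun h' => absurd h' hi⟩
  choose a hag hau using ha
  refine no_W_copy_of_good B θ hB hbr hbc (fun i => fr i (a i)) (fun j => fc j (b j))
    (hmr a) (hmc b) hag (fun i => hsr i _) hbg (fun j => hsc j _) ?_
  intro i j
  by_cases hi : famR i = true
  · rw [hau i hi _ (Finset.mem_image_of_mem _ (Finset.mem_univ j)), hval i j _ _ (by simp [hi])]
  · have hi' : famR i = false := by simpa using hi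
    by_cases hj : famC j = true
    · have h := hfr i
      rw [if_neg hi] at h
      obtain ⟨l, hl, -⟩ := h
      have e : fr i (a i) = fr i a0 := by rw [hl, hl]
      rw [e, hbu j hj (fr i a0)
        (Finset.mem_image_of_mem _ (Finset.mem_filter.2 ⟨Finset.mem_univ _, hi'⟩)),
        hval i j _ _ (by simp [hj])]
    · exact hfix i j _ _ hi' (by simpa using hj)

/-! ### Interface-shaped corollaries -/

/-- Row selection against at most four good columns. -/
theorem core_selRow (θ : ℕ) (hbr : (badRows B θ).card + 66 * θ + 62 ≤ N) :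
    ∀ (f : Fin N → Row D N), Function.Injective f → ∀ S : Finset (Col D N), S.card ≤ 4 →
      (∀ c ∈ S, GoodCol B θ c) → ∃ i, GoodRow B θ (f i) ∧ ∀ c ∈ S, B (f i) c = A D N (f i) c := by
  intro f hf S hS hg
  refine sel_row B θ f hf S hg ?_
  have : S.card * θ ≤ 4 * θ := Nat.mul_le_mul_right θ hS
  omega

/-- Column selection against at most four good rows. -/
theorem core_selCol (θ : ℕ) (hbc : (badCols B θ).card + 66 * θ + 62 ≤ N) :
    ∀ (f : Fin N → Col D N), Function.Injective f → ∀ S : Finset (Row D N), S.card ≤ 4 →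
      (∀ r ∈ S, GoodRow B θ r) → ∃ i, GoodCol B θ (f i) ∧ ∀ r ∈ S, B r (f i) = A D N r (f i) := by
  intro f hf S hS hg
  refine sel_col B θ f hf S hg ?_
  have : S.card * θ ≤ 4 * θ := Nat.mul_le_mul_right θ hS
  omega

/-- No copy of `W` on good non-pad lines. -/
theorem core_noW (θ : ℕ) (hB : CopyFree H B)
    (hbr : (badRows B θ).card + 66 * θ + 62 ≤ N) (hbc : (badCols B θ).card + 66 * θ + 62 ≤ N) :
    ∀ (r : Fin 4 → Row D N) (c : Fin 4 → Col D N), StrictMono r → StrictMono c →
      (∀ i, GoodRow B θ (r i) ∧ (r i).sec < 4) → (∀ j, GoodCol B θ (c j) ∧ (c j).sec < 6) →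
      ¬ (∀ i j, B (r i) (c j) = W i j) := by
  intro r c hr hc hrg hcg hW
  exact no_W_copy_of_good B θ hB hbr hbc r c hr hc (fun i => (hrg i).1) (fun i => (hrg i).2)
    (fun j => (hcg j).1) (fun j => (hcg j).2) hW

end comp

/-! ### The numeric instantiation `D = h + 6`, `N = 2 ^ (h + 6)`, `θ = 2 ^ (h - 1)` -/

theorem numeric_bad {h : ℕ} (hh : 2 ≤ h) {b c : ℕ} (hb : b * 2 ^ (h - 1) ≤ c) (hc : c < 4 ^ h) :
    b + 66 * 2 ^ (h - 1) + 62 ≤ 2 ^ (h + 6) := by
  obtain ⟨m, rfl⟩ : ∃ m, h = m + 2 := ⟨h - 2, by omega⟩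
  have e1 : m + 2 - 1 = m + 1 := by omega
  rw [e1] at hb ⊢
  have h4 : (4 : ℕ) ^ (m + 2) = 8 * 2 ^ m * 2 ^ (m + 1) := by
    have : (4 : ℕ) ^ (m + 2) = 2 ^ (2 * (m + 2)) := by
      rw [pow_mul]; norm_num
    rw [this, pow_succ 2 m]
    have : 2 * (m + 2) = m + m + 4 := by ring
    rw [this, pow_add, pow_add]
    ring
  have hpos : 0 < 2 ^ (m + 1) := by positivity
  have hb' : b < 8 * 2 ^ m := by
    have : b * 2 ^ (m + 1) < 8 * 2 ^ m * 2 ^ (m + 1) := by rw [← h4]; exact lt_of_le_of_lt hb hc
    exact Nat.lt_of_mul_lt_mul_right this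
  have hm : 1 ≤ 2 ^ m := Nat.one_le_two_pow
  have e2 : 2 ^ (m + 1) = 2 * 2 ^ m := by rw [pow_succ]; ring
  have e3 : 2 ^ (m + 2 + 6) = 256 * 2 ^ m := by
    rw [show m + 2 + 6 = m + 8 by ring, pow_add]; norm_num; ring
  rw [e2, e3]
  omega

/-- From fewer than `4 ^ h` changed cells: the counting hypotheses of the core lemmas. -/
theorem core_numeric {h : ℕ} (hh : 2 ≤ h)
    (B : Row (h + 6) (2 ^ (h + 6)) → Col (h + 6) (2 ^ (h + 6)) → Bool)
    (hchg : (chgSet B).card < 4 ^ h) :
    (badRows B (2 ^ (h - 1))).card + 66 * 2 ^ (h - 1) + 62 ≤ 2 ^ (h + 6) ∧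
      (badCols B (2 ^ (h - 1))).card + 66 * 2 ^ (h - 1) + 62 ≤ 2 ^ (h + 6) :=
  ⟨numeric_bad hh (badRows_mul_le B _) hchg, numeric_bad hh (badCols_mul_le B _) hchg⟩

end Crest.Agent.LibS0066W
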