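import Mathlib
import Crest.Agent.Lib_S0066_WDefs
import Crest.Agent.Lib_S0066_WFarCore

/-!
S0066, design v2, farness: the top of the global argument (helper11).

* `exists_good_leaf`: a leaf all of whose tree lines are good;
* `exists_root_frame`: a good frame at the root with the four cells `true` in `B`;
* `far_of_path`: the final farness statement, from the induction along the path
  (taken as the hypothesis `PathStatement`).
-/

set_option autoImplicit false

namespace Crest.Agent.LibS0066W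

open Finset Crest.Agent.Lib_S0066_Reduce

variable {D N : ℕ}

/-- **All-good leaf.** If there are fewer bad lines than leaves, some leaf has all its tree rows
and tree columns good. -/
theorem exists_good_leaf (B : Row D N → Col D N → Bool) (θ : ℕ)
    (hb : (badRows B θ).card + (badCols B θ).card < 2 ^ D) :
    ∃ x : Fin (2 ^ D), ∀ (j : Fin (D + 1)) (p : Bool),
      GoodRow B θ (Row.tr j x p) ∧ GoodCol B θ (Col.tc j x p) := by
  classical
  by_contra hcon
  push Not at hcon
  -- every leaf has a bad tree line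
  have hex : ∀ x : Fin (2 ^ D), ∃ l : Row D N ⊕ Col D N,
      l ∈ (badRows B θ).disjSum (badCols B θ) ∧
        ((∃ j p, l = Sum.inl (Row.tr j x p)) ∨ (∃ j p, l = Sum.inr (Col.tc j x p))) := by
    intro x
    obtain ⟨j, p, hjp⟩ := hcon x
    by_cases hg : GoodRow B θ (Row.tr j x p)
    · have hc := hjp hg
      exact ⟨Sum.inr (Col.tc j x p),
        Finset.inr_mem_disjSum.2 ((not_goodCol_iff B).1 hc), Or.inr ⟨j, p, rfl⟩⟩
    · exact ⟨Sum.inl (Row.tr j x p),
        Finset.inl_mem_disjSum.2 ((not_goodRow_iff B).1 hg), Or.inl ⟨j, p, rfl⟩⟩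
  choose g hg1 hg2 using hex
  have hinj : Function.Injective g := by
    intro x x' h
    rcases hg2 x with ⟨j, p, e⟩ | ⟨j, p, e⟩ <;> rcases hg2 x' with ⟨j', p', e'⟩ | ⟨j', p', e'⟩
    · rw [e, e'] at h
      exact (Row.tr.inj (Sum.inl.inj h)).2.1
    · rw [e, e'] at h; cases h
    · rw [e, e'] at h; cases h
    · rw [e, e'] at h
      exact (Col.tc.inj (Sum.inr.inj h)).2.1
  have hcard : Fintype.card (Fin (2 ^ D)) ≤ ((badRows B θ).disjSum (badCols B θ)).card := by
    rw [← Finset.card_univ]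
    exact Finset.card_le_card_of_injOn g (fun x _ => hg1 x) (fun x _ x' _ h => hinj h)
  rw [Fintype.card_fin, Finset.card_disjSum] at hcard
  omega

theorem A_root (xr xc : Fin (2 ^ D)) (p p' : Bool) :
    A D N (Row.tr 0 xr p) (Col.tc 0 xc p') = true := by
  have h1 : (xr : ℕ) / 2 ^ D = 0 := Nat.div_eq_of_lt xr.2
  have h2 : (xc : ℕ) / 2 ^ D = 0 := Nat.div_eq_of_lt xc.2
  simp [A, h1, h2]

/-- **Root frame.** Good pre/post rows and columns at the root with the four cells `true`. -/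
theorem exists_root_frame (B : Row D N → Col D N → Bool) (θ : ℕ)
    (hbr : (badRows B θ).card < 2 ^ D) (hbc : (badCols B θ).card + 2 * θ < 2 ^ D) :
    ∃ xp xp2 xq xq2 : Fin (2 ^ D),
      GoodRow B θ (Row.tr 0 xp false) ∧ GoodRow B θ (Row.tr 0 xp2 true) ∧
      GoodCol B θ (Col.tc 0 xq false) ∧ GoodCol B θ (Col.tc 0 xq2 true) ∧
      B (Row.tr 0 xp false) (Col.tc 0 xq false) = true ∧
      B (Row.tr 0 xp false) (Col.tc 0 xq2 true) = true ∧
      B (Row.tr 0 xp2 true) (Col.tc 0 xq false) = true ∧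
      B (Row.tr 0 xp2 true) (Col.tc 0 xq2 true) = true := by
  classical
  have injr : ∀ p : Bool, Function.Injective (fun x : Fin (2 ^ D) => (Row.tr 0 x p : Row D N)) :=
    fun p _ _ h => (Row.tr.inj h).2.1
  have injc : ∀ p : Bool, Function.Injective (fun x : Fin (2 ^ D) => (Col.tc 0 x p : Col D N)) :=
    fun p _ _ h => (Col.tc.inj h).2.1
  obtain ⟨xp, hxp, -⟩ := sel_exists (fun (r : Row D N) (c : Col D N) => A D N r c ≠ B r c)
    θ _ (injr false) ∅ (by simp) (by
      rw [Finset.card_empty, Nat.zero_mul, Nat.add_zero]; exact hbr)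
  obtain ⟨xp2, hxp2, -⟩ := sel_exists (fun (r : Row D N) (c : Col D N) => A D N r c ≠ B r c)
    θ _ (injr true) ∅ (by simp) (by
      rw [Finset.card_empty, Nat.zero_mul, Nat.add_zero]; exact hbr)
  have hS : ∀ r ∈ ({Row.tr 0 xp false, Row.tr 0 xp2 true} : Finset (Row D N)),
      (univ.filter fun c : Col D N => A D N r c ≠ B r c).card < θ := by
    intro r hr
    rcases Finset.mem_insert.1 hr with h | h
    · rw [h]; exact hxp
    · rw [Finset.mem_singleton.1 h]; exact hxp2
  have hScard : ({Row.tr 0 xp false, Row.tr 0 xp2 true} : Finset (Row D N)).card * θ ≤ 2 * θ :=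
    Nat.mul_le_mul_right θ (Finset.card_insert_le _ _)
  obtain ⟨xq, hxq, hq⟩ := sel_exists (fun (c : Col D N) (r : Row D N) => A D N r c ≠ B r c)
    θ _ (injc false) _ hS (by
      have := hScard
      show (badCols B θ).card + _ < _
      omega)
  obtain ⟨xq2, hxq2, hq2⟩ := sel_exists (fun (c : Col D N) (r : Row D N) => A D N r c ≠ B r c)
    θ _ (injc true) _ hS (by
      have := hScard
      show (badCols B θ).card + _ < _
      omega)
  refine ⟨xp, xp2, xq, xq2, hxp, hxp2, hxq, hxq2, ?_, ?_, ?_, ?_⟩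
  · rw [← not_not.1 (hq _ (Finset.mem_insert_self _ _)), A_root]
  · rw [← not_not.1 (hq2 _ (Finset.mem_insert_self _ _)), A_root]
  · rw [← not_not.1 (hq _ (Finset.mem_insert_of_mem (Finset.mem_singleton_self _))), A_root]
  · rw [← not_not.1 (hq2 _ (Finset.mem_insert_of_mem (Finset.mem_singleton_self _))), A_root]

/-- The statement of the induction along the path (to be supplied): with the core counting
hypotheses, an all-good leaf and a good root frame with the four cells `true` are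
contradictory for an `H`-free `B`. -/
def PathStatement : Prop :=
  ∀ (D N θ : ℕ) (B : Row D N → Col D N → Bool), CopyFree H B →
    (badRows B θ).card + 66 * θ + 62 ≤ N → (badCols B θ).card + 66 * θ + 62 ≤ N →
    ∀ x : Fin (2 ^ D),
      (∀ (j : Fin (D + 1)) (p : Bool), GoodRow B θ (Row.tr j x p) ∧ GoodCol B θ (Col.tc j x p)) →
    ∀ xp xp2 xq xq2 : Fin (2 ^ D),
      GoodRow B θ (Row.tr 0 xp false) → GoodRow B θ (Row.tr 0 xp2 true) →
      GoodCol B θ (Col.tc 0 xq false) → GoodCol B θ (Col.tc 0 xq2 true) →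
      B (Row.tr 0 xp false) (Col.tc 0 xq false) = true →
      B (Row.tr 0 xp false) (Col.tc 0 xq2 true) = true →
      B (Row.tr 0 xp2 true) (Col.tc 0 xq false) = true →
      B (Row.tr 0 xp2 true) (Col.tc 0 xq2 true) = true → False

theorem numeric_bad_lt {h : ℕ} (hh : 1 ≤ h) {b c : ℕ} (hb : b * 2 ^ (h - 1) ≤ c)
    (hc : c < 4 ^ h) : b < 2 ^ (h + 1) := by
  obtain ⟨m, rfl⟩ : ∃ m, h = m + 1 := ⟨h - 1, by omega⟩
  have e1 : m + 1 - 1 = m := by omega
  rw [e1] at hb
  have h4 : (4 : ℕ) ^ (m + 1) = 2 ^ (m + 1 + 1) * 2 ^ m := by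
    have : (4 : ℕ) ^ (m + 1) = 2 ^ (2 * (m + 1)) := by
      rw [pow_mul]; norm_num
    rw [this, ← pow_add]
    congr 1; ring
  have : b * 2 ^ m < 2 ^ (m + 1 + 1) * 2 ^ m := by rw [← h4]; exact lt_of_le_of_lt hb hc
  exact Nat.lt_of_mul_lt_mul_right this

/-- **Farness** of the design `A (h+6) (2^(h+6))`, given the induction along the path. -/
theorem far_of_path (path : PathStatement) (h : ℕ) (hh : 17 ≤ h)
    (B : Row (h + 6) (2 ^ (h + 6)) → Col (h + 6) (2 ^ (h + 6)) → Bool) (hB : CopyFree H B) :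
    4 ^ h ≤ (univ.filter fun rc : Row (h + 6) (2 ^ (h + 6)) × Col (h + 6) (2 ^ (h + 6)) =>
      A (h + 6) (2 ^ (h + 6)) rc.1 rc.2 ≠ B rc.1 rc.2).card := by
  by_contra hlt
  have hchg : (chgSet B).card < 4 ^ h := not_le.1 hlt
  obtain ⟨hbr, hbc⟩ := core_numeric (by omega) B hchg
  have h1 : (badRows B (2 ^ (h - 1))).card < 2 ^ (h + 1) :=
    numeric_bad_lt (by omega) (badRows_mul_le B _) hchg
  have h2 : (badCols B (2 ^ (h - 1))).card < 2 ^ (h + 1) :=
    numeric_bad_lt (by omega) (badCols_mul_le B _) hchg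
  have e6 : 2 ^ (h + 6) = 32 * 2 ^ (h + 1) := by
    rw [show h + 6 = h + 1 + 5 by ring, pow_add]; norm_num; ring
  have eθ : 2 * 2 ^ (h - 1) = 2 ^ h := by
    obtain ⟨m, rfl⟩ : ∃ m, h = m + 1 := ⟨h - 1, by omega⟩
    rw [show m + 1 - 1 = m by omega, pow_succ]; ring
  have e1 : 2 ^ (h + 1) = 2 * 2 ^ h := by rw [pow_succ]; ring
  have hpos : 0 < 2 ^ h := by positivity
  obtain ⟨x, hx⟩ := exists_good_leaf B (2 ^ (h - 1)) (by omega)
  obtain ⟨xp, xp2, xq, xq2, g1, g2, g3, g4, b1, b2, b3, b4⟩ :=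
    exists_root_frame B (2 ^ (h - 1)) (by omega) (by omega)
  exact path _ _ _ B hB hbr hbc x hx xp xp2 xq xq2 g1 g2 g3 g4 b1 b2 b3 b4

end Crest.Agent.LibS0066W
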