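import Mathlib
import Crest.Agent.Lib_S0066_WDefs

/-!
S0066, design v2: the three forcing lemmas `R1`, `R2`, `R3` of the farness proof, stated for a
competitor matrix `B` over abstract goodness predicates `gR`, `gC` and a hypothesis bundle
`Forcing` (selection inside fat families + no copy of `W` in `B` on good non-pad lines).
-/

set_option autoImplicit false

namespace Crest.Agent.LibS0066WForce

open Crest.Agent.Lib_S0066_Reduce Crest.Agent.LibS0066W

variable {D N : ℕ}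

/-! ### Frame order (bracket layout of tree lines) -/

/-- Node arithmetic: if `x'` lies under the depth-`j` node `a` and `j < k ≤ D`, then the
depth-`k` block of `x'` lies inside the depth-`j` block of `a`. -/
theorem block_nest {D j k x' a : ℕ} (hjk : j < k) (hk : k ≤ D)
    (hx : x' / 2 ^ (D - j) = a) :
    a * 2 ^ (D - j) ≤ x' / 2 ^ (D - k) * 2 ^ (D - k) ∧
      x' / 2 ^ (D - k) * 2 ^ (D - k) + 2 ^ (D - k) ≤ a * 2 ^ (D - j) + 2 ^ (D - j) := by
  have hM : 2 ^ (D - j) = 2 ^ (k - j) * 2 ^ (D - k) := by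
    rw [← pow_add]; congr 1; omega
  have hm : 0 < 2 ^ (D - k) := by positivity
  have hMpos : 0 < 2 ^ (D - j) := by positivity
  have h1 : a * 2 ^ (D - j) ≤ x' := by rw [← hx]; exact Nat.div_mul_le_self x' _
  have h2 : x' < a * 2 ^ (D - j) + 2 ^ (D - j) := by
    rw [← hx]; exact Nat.lt_div_mul_add hMpos
  constructor
  · have : a * 2 ^ (k - j) ≤ x' / 2 ^ (D - k) := by
      rw [Nat.le_div_iff_mul_le hm]
      calc a * 2 ^ (k - j) * 2 ^ (D - k) = a * 2 ^ (D - j) := by rw [hM]; ring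
        _ ≤ x' := h1
    calc a * 2 ^ (D - j) = a * 2 ^ (k - j) * 2 ^ (D - k) := by rw [hM]; ring
      _ ≤ x' / 2 ^ (D - k) * 2 ^ (D - k) := Nat.mul_le_mul_right _ this
  · have : x' / 2 ^ (D - k) < (a + 1) * 2 ^ (k - j) := by
      rw [Nat.div_lt_iff_lt_mul hm]
      calc x' < a * 2 ^ (D - j) + 2 ^ (D - j) := h2
        _ = (a + 1) * 2 ^ (k - j) * 2 ^ (D - k) := by rw [hM]; ring
    have h3 : x' / 2 ^ (D - k) + 1 ≤ (a + 1) * 2 ^ (k - j) := this
    calc x' / 2 ^ (D - k) * 2 ^ (D - k) + 2 ^ (D - k)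
        = (x' / 2 ^ (D - k) + 1) * 2 ^ (D - k) := by ring
      _ ≤ (a + 1) * 2 ^ (k - j) * 2 ^ (D - k) := Nat.mul_le_mul_right _ h3
      _ = a * 2 ^ (D - j) + 2 ^ (D - j) := by rw [hM]; ring

/-- Frame lemma at key level: a tree line of depth `k > j` under the depth-`j` node of `x`
(resp. `x2`) lies strictly between the pre-line `(j, x)` and the post-line `(j, x2)`. -/
theorem treeKey_frame {D sec j k x x2 x' : ℕ} (hjk : j < k) (hk : k ≤ D)
    (hx : x' / 2 ^ (D - j) = x / 2 ^ (D - j)) (hx2 : x' / 2 ^ (D - j) = x2 / 2 ^ (D - j))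
    (p : Bool) :
    treeKey D sec j x false < treeKey D sec k x' p ∧
      treeKey D sec k x' p < treeKey D sec j x2 true := by
  obtain ⟨h1, h2⟩ := block_nest hjk hk hx
  have hm : 0 < 2 ^ (D - k) := by positivity
  have h3 : x' / 2 ^ (D - k) * 2 ^ (D - k) ≤ x' := Nat.div_mul_le_self x' _
  have h4 : x' < x' / 2 ^ (D - k) * 2 ^ (D - k) + 2 ^ (D - k) := Nat.lt_div_mul_add hm
  have hx2' : x2 / 2 ^ (D - j) = x / 2 ^ (D - j) := by rw [← hx2, hx]
  unfold treeKey firstLeaf lastLeaf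
  rw [hx2']
  generalize x / 2 ^ (D - j) * 2 ^ (D - j) = aM at *
  generalize x' / 2 ^ (D - k) * 2 ^ (D - k) = bm at *
  generalize 2 ^ (D - k) = m at *
  generalize 2 ^ (D - j) = M at *
  cases p
  · simp only [Bool.false_eq_true, if_false, if_true, mkKey_lt, lt_self_iff_false, false_or,
      true_and]
    constructor <;> omega
  · simp only [Bool.false_eq_true, if_false, if_true, mkKey_lt, lt_self_iff_false, false_or,
      true_and]
    constructor <;> omega

/-- Frame lemma for tree rows. -/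
theorem tr_frame {j k : Fin (D + 1)} {x x2 x' : Fin (2 ^ D)} (hjk : (j : ℕ) < k)
    (hx : (x' : ℕ) / 2 ^ (D - j) = (x : ℕ) / 2 ^ (D - j))
    (hx2 : (x' : ℕ) / 2 ^ (D - j) = (x2 : ℕ) / 2 ^ (D - j)) (p : Bool) :
    (Row.tr j x false : Row D N) < Row.tr k x' p ∧ (Row.tr k x' p : Row D N) < Row.tr j x2 true :=
  treeKey_frame hjk (by have := k.2; omega) hx hx2 p

/-- Frame lemma for tree columns. -/
theorem tc_frame {j k : Fin (D + 1)} {x x2 x' : Fin (2 ^ D)} (hjk : (j : ℕ) < k)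
    (hx : (x' : ℕ) / 2 ^ (D - j) = (x : ℕ) / 2 ^ (D - j))
    (hx2 : (x' : ℕ) / 2 ^ (D - j) = (x2 : ℕ) / 2 ^ (D - j)) (p : Bool) :
    (Col.tc j x false : Col D N) < Col.tc k x' p ∧ (Col.tc k x' p : Col D N) < Col.tc j x2 true :=
  treeKey_frame hjk (by have := k.2; omega) hx hx2 p

/-! ### The hypothesis bundle -/

/-- Hypotheses on the competitor `B` used by the forcing lemmas: selection of a good line
inside a fat family, unchanged against at most four given good lines, and absence of copies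
of `W` on good non-pad lines. -/
structure Forcing (B : Row D N → Col D N → Bool) (gR : Row D N → Prop) (gC : Col D N → Prop) :
    Prop where
  selRow : ∀ (f : Fin N → Row D N), Function.Injective f → ∀ S : Finset (Col D N), S.card ≤ 4 →
    (∀ c ∈ S, gC c) → ∃ i, gR (f i) ∧ ∀ c ∈ S, B (f i) c = A D N (f i) c
  selCol : ∀ (f : Fin N → Col D N), Function.Injective f → ∀ S : Finset (Row D N), S.card ≤ 4 →
    (∀ r ∈ S, gR r) → ∃ i, gC (f i) ∧ ∀ r ∈ S, B r (f i) = A D N r (f i)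
  noW : ∀ (r : Fin 4 → Row D N) (c : Fin 4 → Col D N), StrictMono r → StrictMono c →
    (∀ i, gR (r i) ∧ (r i).sec < 4) → (∀ j, gC (c j) ∧ (c j).sec < 6) →
    ¬ (∀ i j, B (r i) (c j) = W i j)

variable {B : Row D N → Col D N → Bool} {gR : Row D N → Prop} {gC : Col D N → Prop}

theorem strictMono_vec4 {α : Type*} [Preorder α] {a b c d : α} (h1 : a < b) (h2 : b < c)
    (h3 : c < d) : StrictMono ![a, b, c, d] := by
  rw [Fin.strictMono_iff_lt_succ]
  intro i
  fin_cases i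
  · exact h1
  · exact h2
  · exact h3

/-- Selection of a good row of a fat family, unchanged against four good columns. -/
theorem Forcing.selRow4 (F : Forcing B gR gC) (f : Fin N → Row D N) (hf : Function.Injective f)
    (c0 c1 c2 c3 : Col D N) (g0 : gC c0) (g1 : gC c1) (g2 : gC c2) (g3 : gC c3) :
    ∃ i, gR (f i) ∧ B (f i) c0 = A D N (f i) c0 ∧ B (f i) c1 = A D N (f i) c1 ∧
      B (f i) c2 = A D N (f i) c2 ∧ B (f i) c3 = A D N (f i) c3 := by
  classical
  obtain ⟨i, hi, h⟩ := F.selRow f hf {c0, c1, c2, c3} Finset.card_le_four (by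
    intro c hc
    simp only [Finset.mem_insert, Finset.mem_singleton] at hc
    rcases hc with rfl | rfl | rfl | rfl <;> assumption)
  exact ⟨i, hi, h _ (by simp), h _ (by simp), h _ (by simp), h _ (by simp)⟩

/-- Selection of a good column of a fat family, unchanged against four good rows. -/
theorem Forcing.selCol4 (F : Forcing B gR gC) (f : Fin N → Col D N) (hf : Function.Injective f)
    (r0 r1 r2 r3 : Row D N) (g0 : gR r0) (g1 : gR r1) (g2 : gR r2) (g3 : gR r3) :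
    ∃ i, gC (f i) ∧ B r0 (f i) = A D N r0 (f i) ∧ B r1 (f i) = A D N r1 (f i) ∧
      B r2 (f i) = A D N r2 (f i) ∧ B r3 (f i) = A D N r3 (f i) := by
  classical
  obtain ⟨i, hi, h⟩ := F.selCol f hf {r0, r1, r2, r3} Finset.card_le_four (by
    intro c hc
    simp only [Finset.mem_insert, Finset.mem_singleton] at hc
    rcases hc with rfl | rfl | rfl | rfl <;> assumption)
  exact ⟨i, hi, h _ (by simp), h _ (by simp), h _ (by simp), h _ (by simp)⟩

/-- The forcing principle: if all cells of a would-be copy of `W` on good non-pad lines,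
except the middle cell `(r1, c1)`, have the values of `W` in `B`, then `B r1 c1 = true`. -/
theorem Forcing.force (F : Forcing B gR gC) (r0 r1 r2 r3 : Row D N) (c0 c1 c2 c3 : Col D N)
    (hr01 : r0 < r1) (hr12 : r1 < r2) (hr23 : r2 < r3)
    (hc01 : c0 < c1) (hc12 : c1 < c2) (hc23 : c2 < c3)
    (gr0 : gR r0) (gr1 : gR r1) (gr2 : gR r2) (gr3 : gR r3)
    (gc0 : gC c0) (gc1 : gC c1) (gc2 : gC c2) (gc3 : gC c3)
    (sr3 : r3.sec < 4) (sc3 : c3.sec < 6)
    (h00 : B r0 c0 = true) (h01 : B r0 c1 = true) (h02 : B r0 c2 = true) (h03 : B r0 c3 = false)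
    (h10 : B r1 c0 = true) (h12 : B r1 c2 = true) (h13 : B r1 c3 = true)
    (h20 : B r2 c0 = true) (h21 : B r2 c1 = true) (h22 : B r2 c2 = true) (h23 : B r2 c3 = false)
    (h30 : B r3 c0 = false) (h31 : B r3 c1 = true) (h32 : B r3 c2 = false)
    (h33 : B r3 c3 = true) : B r1 c1 = true := by
  by_contra hcon
  have h11 : B r1 c1 = false := by simpa using hcon
  have sr2 : r2.sec < 4 := lt_of_le_of_lt (Row.sec_le_of_lt hr23) sr3
  have sr1 : r1.sec < 4 := lt_of_le_of_lt (Row.sec_le_of_lt hr12) sr2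
  have sr0 : r0.sec < 4 := lt_of_le_of_lt (Row.sec_le_of_lt hr01) sr1
  have sc2 : c2.sec < 6 := lt_of_le_of_lt (Col.sec_le_of_lt hc23) sc3
  have sc1 : c1.sec < 6 := lt_of_le_of_lt (Col.sec_le_of_lt hc12) sc2
  have sc0 : c0.sec < 6 := lt_of_le_of_lt (Col.sec_le_of_lt hc01) sc1
  refine F.noW ![r0, r1, r2, r3] ![c0, c1, c2, c3] (strictMono_vec4 hr01 hr12 hr23)
    (strictMono_vec4 hc01 hc12 hc23) ?_ ?_ ?_
  · intro i
    fin_cases i
    · exact ⟨gr0, sr0⟩
    · exact ⟨gr1, sr1⟩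
    · exact ⟨gr2, sr2⟩
    · exact ⟨gr3, sr3⟩
  · intro i
    fin_cases i
    · exact ⟨gc0, sc0⟩
    · exact ⟨gc1, sc1⟩
    · exact ⟨gc2, sc2⟩
    · exact ⟨gc3, sc3⟩
  · intro i j
    fin_cases i <;> fin_cases j
    · exact h00
    · exact h01
    · exact h02
    · exact h03
    · exact h10
    · exact h11
    · exact h12
    · exact h13
    · exact h20
    · exact h21
    · exact h22
    · exact h23
    · exact h30
    · exact h31
    · exact h32
    · exact h33

/-! ### Injectivity of the fat families -/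

theorem pim_inj : Function.Injective (fun i : Fin N => (Row.pim i : Row D N)) :=
  fun _ _ h => Row.pim.inj h
theorem pip_inj : Function.Injective (fun i : Fin N => (Row.pip i : Row D N)) :=
  fun _ _ h => Row.pip.inj h
theorem vr_inj (k : Fin (D + 2)) (s : Bool) :
    Function.Injective (fun i : Fin N => (Row.vr k s i : Row D N)) :=
  fun _ _ h => (Row.vr.inj h).2.2
theorem km_inj : Function.Injective (fun i : Fin N => (Col.km i : Col D N)) :=
  fun _ _ h => Col.km.inj h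
theorem kp_inj : Function.Injective (fun i : Fin N => (Col.kp i : Col D N)) :=
  fun _ _ h => Col.kp.inj h
theorem gam_inj : Function.Injective (fun i : Fin N => (Col.gam i : Col D N)) :=
  fun _ _ h => Col.gam.inj h
theorem phi_inj : Function.Injective (fun i : Fin N => (Col.phi i : Col D N)) :=
  fun _ _ h => Col.phi.inj h
theorem uc_inj (j : Fin (D + 1)) (s : Bool) :
    Function.Injective (fun i : Fin N => (Col.uc j s i : Col D N)) :=
  fun _ _ h => (Col.uc.inj h).2.2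

/-! ### The three forcing lemmas -/

/-- `R1`: a good row `z` at a depth-`j` node `u`, a good pre-column `q` and a good post-column
`q''` at `u` with `B z q = B z q'' = true`, and a good column `c` of depth `j + 1` under `u`:
then `B z c = true`. -/
theorem R1 (F : Forcing B gR gC) {j : ℕ} (hj : j < D) (xz xq xq2 xc : Fin (2 ^ D))
    (pz pc : Bool)
    (hq : (xq : ℕ) / 2 ^ (D - j) = (xz : ℕ) / 2 ^ (D - j))
    (hq2 : (xq2 : ℕ) / 2 ^ (D - j) = (xz : ℕ) / 2 ^ (D - j))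
    (hc : (xc : ℕ) / 2 ^ (D - j) = (xz : ℕ) / 2 ^ (D - j))
    (gz : gR (Row.tr ⟨j, by omega⟩ xz pz))
    (gq : gC (Col.tc ⟨j, by omega⟩ xq false))
    (gq2 : gC (Col.tc ⟨j, by omega⟩ xq2 true))
    (gc : gC (Col.tc ⟨j + 1, by omega⟩ xc pc))
    (h1 : B (Row.tr ⟨j, by omega⟩ xz pz) (Col.tc ⟨j, by omega⟩ xq false) = true)
    (h2 : B (Row.tr ⟨j, by omega⟩ xz pz) (Col.tc ⟨j, by omega⟩ xq2 true) = true) :
    B (Row.tr ⟨j, by omega⟩ xz pz) (Col.tc ⟨j + 1, by omega⟩ xc pc) = true := by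
  -- the ruler column `μ ∈ U_(j, side u)`
  obtain ⟨i3, gmu, hmu, -, -, -⟩ := F.selCol4 (fun i => Col.uc ⟨j, by omega⟩ (side D j xz) i)
    (uc_inj _ _) _ _ _ _ gz gz gz gz
  -- the wild rows
  obtain ⟨i0, g0, a00, a01, a02, a03⟩ := F.selRow4 (fun i => Row.pim i) pim_inj _ _ _ _
    gq gc gq2 gmu
  obtain ⟨i2, g2, a20, a21, a22, a23⟩ := F.selRow4 (fun i => Row.pip i) pip_inj _ _ _ _
    gq gc gq2 gmu
  obtain ⟨i4, g4, a30, a31, a32, a33⟩ := F.selRow4
    (fun i => Row.vr ⟨j + 1, by omega⟩ (side D (j + 1) xc) i) (vr_inj _ _) _ _ _ _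
    gq gc gq2 gmu
  have hfr := tc_frame (N := N) (j := ⟨j, by omega⟩) (k := ⟨j + 1, by omega⟩) (x := xq)
    (x2 := xq2) (x' := xc) (by simp) (hc.trans hq.symm) (hc.trans hq2.symm) pc
  refine F.force (Row.pim i0) _ (Row.pip i2) (Row.vr ⟨j + 1, by omega⟩ (side D (j + 1) xc) i4)
    _ _ _ (Col.uc ⟨j, by omega⟩ (side D j xz) i3)
    (Row.lt_of_sec_lt (by simp [Row.sec])) (Row.lt_of_sec_lt (by simp [Row.sec]))
    (Row.lt_of_sec_lt (by simp [Row.sec])) hfr.1 hfr.2 (Col.lt_of_sec_lt (by simp [Col.sec]))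
    g0 gz g2 g4 gq gc gq2 gmu (by simp [Row.sec]) (by simp [Col.sec])
    ?_ ?_ ?_ ?_ h1 h2 ?_ ?_ ?_ ?_ ?_ ?_ ?_ ?_ ?_
  · rw [a00]; rfl
  · rw [a01]; rfl
  · rw [a02]; rfl
  · rw [a03]; rfl
  · rw [hmu]; simp [A]
  · rw [a20]; rfl
  · rw [a21]; rfl
  · rw [a22]; rfl
  · rw [a23]; rfl
  · rw [a30]; simp [A]
  · rw [a31]; simp [A]
  · rw [a32]; simp [A]
  · rw [a33]; simp [A]

/-- `R2`: a good pre-row `p` and a good post-row `p''` at a depth-`j` node `u`, a good row `z`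
and a good column `c` at the same child node `w` of `u` (depth `j + 1`), with
`B p c = B p'' c = true`: then `B z c = true`. -/
theorem R2 (F : Forcing B gR gC) {j : ℕ} (hj : j < D) (xp xp2 xz xc : Fin (2 ^ D))
    (pz pc : Bool)
    (hp : (xp : ℕ) / 2 ^ (D - j) = (xz : ℕ) / 2 ^ (D - j))
    (hp2 : (xp2 : ℕ) / 2 ^ (D - j) = (xz : ℕ) / 2 ^ (D - j))
    (hc : (xc : ℕ) / 2 ^ (D - (j + 1)) = (xz : ℕ) / 2 ^ (D - (j + 1)))
    (gp : gR (Row.tr ⟨j, by omega⟩ xp false))
    (gp2 : gR (Row.tr ⟨j, by omega⟩ xp2 true))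
    (gz : gR (Row.tr ⟨j + 1, by omega⟩ xz pz))
    (gc : gC (Col.tc ⟨j + 1, by omega⟩ xc pc))
    (h1 : B (Row.tr ⟨j, by omega⟩ xp false) (Col.tc ⟨j + 1, by omega⟩ xc pc) = true)
    (h2 : B (Row.tr ⟨j, by omega⟩ xp2 true) (Col.tc ⟨j + 1, by omega⟩ xc pc) = true) :
    B (Row.tr ⟨j + 1, by omega⟩ xz pz) (Col.tc ⟨j + 1, by omega⟩ xc pc) = true := by
  have hside : side D (j + 1) xc = side D (j + 1) xz := by unfold side; rw [hc]
  -- the columns `KA⁻`, `KA⁺`, `μ ∈ U_(j+1, side w)`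
  obtain ⟨i1, gkm, b01, b11, b21, -⟩ := F.selCol4 (fun i => Col.km i) km_inj _ _ _ _
    gp gz gp2 gp2
  obtain ⟨i2, gkp, b02, b12, b22, -⟩ := F.selCol4 (fun i => Col.kp i) kp_inj _ _ _ _
    gp gz gp2 gp2
  obtain ⟨i3, gmu, b03, b13, b23, -⟩ := F.selCol4
    (fun i => Col.uc ⟨j + 1, by omega⟩ (side D (j + 1) xz) i) (uc_inj _ _) _ _ _ _
    gp gz gp2 gp2
  -- the ruler row `ν ∈ V_(j+1, side w)`
  obtain ⟨i4, gnu, a30, a31, a32, a33⟩ := F.selRow4
    (fun i => Row.vr ⟨j + 1, by omega⟩ (side D (j + 1) xc) i) (vr_inj _ _) _ _ _ _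
    gkm gc gkp gmu
  have hfr := tr_frame (N := N) (j := ⟨j, by omega⟩) (k := ⟨j + 1, by omega⟩) (x := xp)
    (x2 := xp2) (x' := xz) (by simp) hp.symm hp2.symm pz
  refine F.force _ _ _ (Row.vr ⟨j + 1, by omega⟩ (side D (j + 1) xc) i4)
    (Col.km i1) _ (Col.kp i2) (Col.uc ⟨j + 1, by omega⟩ (side D (j + 1) xz) i3)
    hfr.1 hfr.2 (Row.lt_of_sec_lt (by simp [Row.sec]))
    (Col.lt_of_sec_lt (by simp [Col.sec])) (Col.lt_of_sec_lt (by simp [Col.sec]))
    (Col.lt_of_sec_lt (by simp [Col.sec]))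
    gp gz gp2 gnu gkm gc gkp gmu (by simp [Row.sec]) (by simp [Col.sec])
    ?_ h1 ?_ ?_ ?_ ?_ ?_ ?_ h2 ?_ ?_ ?_ ?_ ?_ ?_
  · rw [b01]; rfl
  · rw [b02]; rfl
  · rw [b03]; simp [A]
  · rw [b11]; rfl
  · rw [b12]; rfl
  · rw [b13]; simp [A]
  · rw [b21]; rfl
  · rw [b22]; rfl
  · rw [b23]; simp [A]
  · rw [a30]; rfl
  · rw [a31]; simp [A]
  · rw [a32]; rfl
  · rw [a33]; simp [A, hside]

/-- `R3`: a good leaf row `z` and a good leaf column `q` of the same leaf `x` cannot have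
`B z q = true`. -/
theorem R3 (F : Forcing B gR gC) (x : Fin (2 ^ D)) (pz pq : Bool)
    (gz : gR (Row.tr (Fin.last D) x pz)) (gq : gC (Col.tc (Fin.last D) x pq))
    (h : B (Row.tr (Fin.last D) x pz) (Col.tc (Fin.last D) x pq) = true) : False := by
  obtain ⟨i1, ggam, b1, -, -, -⟩ := F.selCol4 (fun i => Col.gam i) gam_inj _ _ _ _
    gz gz gz gz
  obtain ⟨i2, gphi, b2, -, -, -⟩ := F.selCol4 (fun i => Col.phi i) phi_inj _ _ _ _
    gz gz gz gz
  obtain ⟨i3, gmu, b3, -, -, -⟩ := F.selCol4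
    (fun i => Col.uc (Fin.last D) (side D D x) i) (uc_inj _ _) _ _ _ _ gz gz gz gz
  obtain ⟨i4, g0, a00, a01, a02, a03⟩ := F.selRow4 (fun i => Row.pim i) pim_inj _ _ _ _
    gq ggam gphi gmu
  obtain ⟨i5, g2, a20, a21, a22, a23⟩ := F.selRow4 (fun i => Row.pip i) pip_inj _ _ _ _
    gq ggam gphi gmu
  obtain ⟨i6, g3, a30, a31, a32, a33⟩ := F.selRow4
    (fun i => Row.vr (Fin.last (D + 1)) false i) (vr_inj _ _) _ _ _ _ gq ggam gphi gmu
  have key : B (Row.tr (Fin.last D) x pz) (Col.gam i1) = true := by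
    refine F.force (Row.pim i4) _ (Row.pip i5) (Row.vr (Fin.last (D + 1)) false i6)
      (Col.tc (Fin.last D) x pq) _ (Col.phi i2) (Col.uc (Fin.last D) (side D D x) i3)
      (Row.lt_of_sec_lt (by simp [Row.sec])) (Row.lt_of_sec_lt (by simp [Row.sec]))
      (Row.lt_of_sec_lt (by simp [Row.sec]))
      (Col.lt_of_sec_lt (by simp [Col.sec])) (Col.lt_of_sec_lt (by simp [Col.sec]))
      (Col.lt_of_sec_lt (by simp [Col.sec]))
      g0 gz g2 g3 gq ggam gphi gmu (by simp [Row.sec]) (by simp [Col.sec])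
      ?_ ?_ ?_ ?_ h ?_ ?_ ?_ ?_ ?_ ?_ ?_ ?_ ?_ ?_
    · rw [a00]; rfl
    · rw [a01]; rfl
    · rw [a02]; rfl
    · rw [a03]; rfl
    · rw [b2]; simp [A]
    · rw [b3]; simp [A]
    · rw [a20]; rfl
    · rw [a21]; rfl
    · rw [a22]; rfl
    · rw [a23]; rfl
    · rw [a30]; simp [A]
    · rw [a31]; simp [A]
    · rw [a32]; rfl
    · rw [a33]; simp [A]
  rw [b1] at key
  exact absurd key (by simp [A])

/-! ### Frames and the induction along the path of a leaf -/

/-- A frame at depth `j` above the leaf `x`: a good pre-row, post-row, pre-column and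
post-column at the depth-`j` ancestor of `x`, whose four cells are `true` in `B`. -/
def Frame (B : Row D N → Col D N → Bool) (gR : Row D N → Prop) (gC : Col D N → Prop)
    (j : ℕ) (hj : j ≤ D) (x : Fin (2 ^ D)) : Prop :=
  ∃ xp xp2 xq xq2 : Fin (2 ^ D),
    (xp : ℕ) / 2 ^ (D - j) = (x : ℕ) / 2 ^ (D - j) ∧
    (xp2 : ℕ) / 2 ^ (D - j) = (x : ℕ) / 2 ^ (D - j) ∧
    (xq : ℕ) / 2 ^ (D - j) = (x : ℕ) / 2 ^ (D - j) ∧
    (xq2 : ℕ) / 2 ^ (D - j) = (x : ℕ) / 2 ^ (D - j) ∧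
    gR (Row.tr ⟨j, by omega⟩ xp false) ∧ gR (Row.tr ⟨j, by omega⟩ xp2 true) ∧
    gC (Col.tc ⟨j, by omega⟩ xq false) ∧ gC (Col.tc ⟨j, by omega⟩ xq2 true) ∧
    B (Row.tr ⟨j, by omega⟩ xp false) (Col.tc ⟨j, by omega⟩ xq false) = true ∧
    B (Row.tr ⟨j, by omega⟩ xp false) (Col.tc ⟨j, by omega⟩ xq2 true) = true ∧
    B (Row.tr ⟨j, by omega⟩ xp2 true) (Col.tc ⟨j, by omega⟩ xq false) = true ∧
    B (Row.tr ⟨j, by omega⟩ xp2 true) (Col.tc ⟨j, by omega⟩ xq2 true) = true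

/-- Any four good root lines whose four cells are `true` in `B` form a frame at depth `0`
above every leaf. -/
theorem frame_root (x xp xp2 xq xq2 : Fin (2 ^ D))
    (gp : gR (Row.tr 0 xp false)) (gp2 : gR (Row.tr 0 xp2 true))
    (gq : gC (Col.tc 0 xq false)) (gq2 : gC (Col.tc 0 xq2 true))
    (h1 : B (Row.tr 0 xp false) (Col.tc 0 xq false) = true)
    (h2 : B (Row.tr 0 xp false) (Col.tc 0 xq2 true) = true)
    (h3 : B (Row.tr 0 xp2 true) (Col.tc 0 xq false) = true)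
    (h4 : B (Row.tr 0 xp2 true) (Col.tc 0 xq2 true) = true) :
    Frame B gR gC 0 (Nat.zero_le D) x := by
  have h0 : ∀ y : Fin (2 ^ D), (y : ℕ) / 2 ^ (D - 0) = 0 := fun y =>
    Nat.div_eq_of_lt (by simp)
  exact ⟨xp, xp2, xq, xq2, by rw [h0, h0], by rw [h0, h0], by rw [h0, h0], by rw [h0, h0],
    gp, gp2, gq, gq2, h1, h2, h3, h4⟩

/-- Induction step: a frame at depth `j < D` above `x` and good lines `(j + 1, x, pre/post)`
give the frame at depth `j + 1` made of these lines. -/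
theorem frame_step (F : Forcing B gR gC) {j : ℕ} (hj : j < D) (x : Fin (2 ^ D))
    (gr : ∀ p, gR (Row.tr ⟨j + 1, by omega⟩ x p))
    (gc : ∀ p, gC (Col.tc ⟨j + 1, by omega⟩ x p))
    (hF : Frame B gR gC j hj.le x) : Frame B gR gC (j + 1) hj x := by
  obtain ⟨xp, xp2, xq, xq2, ep, ep2, eq, eq2, gp, gp2, gq, gq2, h1, h2, h3, h4⟩ := hF
  -- `R1` for both frame rows and both new columns
  have s1 : ∀ pc, B (Row.tr ⟨j, by omega⟩ xp false) (Col.tc ⟨j + 1, by omega⟩ x pc) = true :=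
    fun pc => R1 F hj xp xq xq2 x false pc (eq.trans ep.symm) (eq2.trans ep.symm) ep.symm
      gp gq gq2 (gc pc) h1 h2
  have s2 : ∀ pc, B (Row.tr ⟨j, by omega⟩ xp2 true) (Col.tc ⟨j + 1, by omega⟩ x pc) = true :=
    fun pc => R1 F hj xp2 xq xq2 x true pc (eq.trans ep2.symm) (eq2.trans ep2.symm) ep2.symm
      gp2 gq gq2 (gc pc) h3 h4
  -- `R2` for both new rows and both new columns
  have s3 : ∀ pz pc,
      B (Row.tr ⟨j + 1, by omega⟩ x pz) (Col.tc ⟨j + 1, by omega⟩ x pc) = true :=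
    fun pz pc => R2 F hj xp xp2 x x pz pc ep ep2 rfl gp gp2 (gr pz) (gc pc) (s1 pc) (s2 pc)
  exact ⟨x, x, x, x, rfl, rfl, rfl, rfl, gr false, gr true, gc false, gc true,
    s3 false false, s3 false true, s3 true false, s3 true true⟩

/-- There is no frame at the leaf level. -/
theorem frame_leaf (F : Forcing B gR gC) (x : Fin (2 ^ D))
    (hF : Frame B gR gC D le_rfl x) : False := by
  obtain ⟨xp, xp2, xq, xq2, ep, ep2, eq, eq2, gp, gp2, gq, gq2, h1, h2, h3, h4⟩ := hF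
  have e1 : xp = x := by
    apply Fin.ext
    simp only [Nat.sub_self, pow_zero, Nat.div_one] at ep
    exact ep
  have e2 : xq = x := by
    apply Fin.ext
    simp only [Nat.sub_self, pow_zero, Nat.div_one] at eq
    exact eq
  rw [e1] at gp h1
  rw [e2] at gq h1
  exact R3 F x false false gp gq h1

/-- Induction along the path of `x`: if all tree lines `(j, x, pre/post)`, `1 ≤ j ≤ D`, are
good, then there is no frame at the root. -/
theorem no_frame (F : Forcing B gR gC) (x : Fin (2 ^ D))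
    (gr : ∀ (j : Fin (D + 1)) (p : Bool), 1 ≤ (j : ℕ) → gR (Row.tr j x p))
    (gc : ∀ (j : Fin (D + 1)) (p : Bool), 1 ≤ (j : ℕ) → gC (Col.tc j x p))
    (hF : Frame B gR gC 0 (Nat.zero_le D) x) : False := by
  have key : ∀ j (hj : j ≤ D), Frame B gR gC j hj x := by
    intro j
    induction j with
    | zero => intro _; exact hF
    | succ j ih =>
      intro hj
      exact frame_step F hj x (fun p => gr ⟨j + 1, by omega⟩ p (by simp))
        (fun p => gc ⟨j + 1, by omega⟩ p (by simp)) (ih (by omega))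
  exact frame_leaf F x (key D le_rfl)

/-- The root frame exists by selection (here the tree families have `2 ^ D = N` lines). -/
theorem exists_frame_root (F : Forcing B gR gC) (hN : N = 2 ^ D) (x : Fin (2 ^ D)) :
    Frame B gR gC 0 (Nat.zero_le D) x := by
  classical
  have hinjC : ∀ p : Bool, Function.Injective
      (fun i : Fin N => (Col.tc 0 (Fin.cast hN i) p : Col D N)) := by
    intro p a b h
    exact (Fin.cast_injective hN) (Col.tc.inj h).2.1
  have hinjR : ∀ p : Bool, Function.Injective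
      (fun i : Fin N => (Row.tr 0 (Fin.cast hN i) p : Row D N)) := by
    intro p a b h
    exact (Fin.cast_injective hN) (Row.tr.inj h).2.1
  obtain ⟨iq, gq, -⟩ := F.selCol _ (hinjC false) ∅ (by simp) (by simp)
  obtain ⟨iq2, gq2, -⟩ := F.selCol _ (hinjC true) ∅ (by simp) (by simp)
  obtain ⟨ip, gp, a1, a2, -, -⟩ := F.selRow4 _ (hinjR false) _ _ _ _ gq gq2 gq2 gq2
  obtain ⟨ip2, gp2, a3, a4, -, -⟩ := F.selRow4 _ (hinjR true) _ _ _ _ gq gq2 gq2 gq2
  have h0 : ∀ y : Fin N, (y : ℕ) / 2 ^ D = 0 := fun y => Nat.div_eq_of_lt (hN ▸ y.2)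
  refine frame_root x (Fin.cast hN ip) (Fin.cast hN ip2) (Fin.cast hN iq) (Fin.cast hN iq2)
    gp gp2 gq gq2 ?_ ?_ ?_ ?_
  · rw [a1]; simp [A, h0]
  · rw [a2]; simp [A, h0]
  · rw [a3]; simp [A, h0]
  · rw [a4]; simp [A, h0]

/-- LOCAL PART OF THE FARNESS PROOF.  Under the hypothesis bundle `Forcing` (with `N = 2 ^ D`),
no leaf `x` has all its tree lines `(j, x, pre/post)`, `1 ≤ j ≤ D`, good. -/
theorem no_good_leaf (F : Forcing B gR gC) (hN : N = 2 ^ D) (x : Fin (2 ^ D))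
    (gr : ∀ (j : Fin (D + 1)) (p : Bool), 1 ≤ (j : ℕ) → gR (Row.tr j x p))
    (gc : ∀ (j : Fin (D + 1)) (p : Bool), 1 ≤ (j : ℕ) → gC (Col.tc j x p)) : False :=
  no_frame F x gr gc (exists_frame_root F hN x)

end Crest.Agent.LibS0066WForce
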