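import Mathlib
import Crest.Agent.Lib_S0066_WDefs
import Crest.Agent.Lib_S0066_WFarCore
import Crest.Agent.Lib_S0066_WFarTop
import Crest.Agent.Lib_S0066_WForce

/-!
S0066, design v2: the farness statement `far` (package P2), assembled from

* `Lib_S0066_WFarCore` (helper11): counting, selection, pad extension;
* `Lib_S0066_WFarTop` (helper11): all-good leaf, root frame, `far_of_path`;
* `Lib_S0066_WForce` (helper21): forcing lemmas `R1`, `R2`, `R3` and the induction along the
  path of a leaf (`no_frame`).
-/

set_option autoImplicit false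

namespace Crest.Agent.LibS0066WFarFinal

open Finset Crest.Agent.Lib_S0066_Reduce Crest.Agent.LibS0066W Crest.Agent.LibS0066WForce

/-- The induction along the path, in the shape required by `far_of_path`. -/
theorem pathStatement : PathStatement := by
  intro D N θ B hB hbr hbc x hx xp xp2 xq xq2 gp gp2 gq gq2 h1 h2 h3 h4
  have F : Forcing B (GoodRow B θ) (GoodCol B θ) :=
    ⟨core_selRow B θ hbr, core_selCol B θ hbc, core_noW B θ hB hbr hbc⟩
  exact no_frame F x (fun j p _ => (hx j p).1) (fun j p _ => (hx j p).2)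
    (frame_root x xp xp2 xq xq2 gp gp2 gq gq2 h1 h2 h3 h4)

/-- **Farness** (package P2): every `H`-free matrix differs from `A (h+6) (2^(h+6))` in at
least `4 ^ h` cells, for `h ≥ 17`. -/
theorem far (h : ℕ) (hh : 17 ≤ h)
    (B : Row (h + 6) (2 ^ (h + 6)) → Col (h + 6) (2 ^ (h + 6)) → Bool) (hB : CopyFree H B) :
    4 ^ h ≤ (univ.filter fun rc : Row (h + 6) (2 ^ (h + 6)) × Col (h + 6) (2 ^ (h + 6)) =>
      A (h + 6) (2 ^ (h + 6)) rc.1 rc.2 ≠ B rc.1 rc.2).card :=
  far_of_path pathStatement h hh B hB

end Crest.Agent.LibS0066WFarFinal
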