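import Mathlib
import Crest.Agent.Lib_S0066_Reduce
import Crest.Agent.Lib_S0066_Count
import Crest.Agent.Lib_S0066_WDefs
import Crest.Agent.Lib_S0066_WCard
import Crest.Agent.Lib_S0066_WFarFinal

/-!
S0066, design v2: final assembly (package P4).

From the soundness of the core pattern `W` (every copy of `W` in `A D N` has its second row and
first column at the two leaf lines of one leaf) we get the count bound via the thin-cell lemma,
and together with the farness theorem `LibS0066WFarFinal.far` and the size bounds the frozen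
statement S0066 through `Lib_S0066_Reduce.statement_of_design`.
-/

set_option autoImplicit false

namespace Crest.Agent.LibS0066WAssemble

open Crest.Agent.Lib_S0066_Reduce Crest.Agent.Lib_S0066_Count Crest.Agent.LibS0066W Finset

/-- Soundness of the core pattern `W` (package P3), as a proposition. -/
def Sound : Prop :=
  ∀ (D N : ℕ) (r : Fin 4 → Row D N) (c : Fin 4 → Col D N), IsCopy W (A D N) r c →
    ∃ x p p', r 1 = Row.tr (Fin.last D) x p ∧ c 0 = Col.tc (Fin.last D) x p'

/-- A copy of `H = W ⊕ J_62` restricts to a copy of `W` on its first four rows and columns. -/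
theorem isCopy_W_of_H {D N : ℕ} (r : Fin 66 → Row D N) (c : Fin 66 → Col D N)
    (h : IsCopy H (A D N) r c) :
    IsCopy W (A D N) (fun i : Fin 4 => r (Fin.castLE (by norm_num) i))
      (fun j : Fin 4 => c (Fin.castLE (by norm_num) j)) :=
  isCopy_sub H W (Fin.castLE (by norm_num)) (Fin.castLE (by norm_num))
    (Fin.strictMono_castLE _) (Fin.strictMono_castLE _)
    (fun i j => (H_of_lt (i := Fin.castLE (by norm_num) i) (j := Fin.castLE (by norm_num) j)
      i.2 j.2).symm) (A D N) r c h

/-- The thin cells: (leaf row of `x`, leaf column of `x`). -/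
def thin (D N : ℕ) : Finset (Row D N × Col D N) :=
  (Finset.univ : Finset (Fin (2 ^ D) × Bool × Bool)).image
    (fun t => (Row.tr (Fin.last D) t.1 t.2.1, Col.tc (Fin.last D) t.1 t.2.2))

theorem thin_card_le (D N : ℕ) : (thin D N).card ≤ 4 * 2 ^ D := by
  refine Finset.card_image_le.trans (le_of_eq ?_)
  rw [Finset.card_univ, Fintype.card_prod, Fintype.card_prod, Fintype.card_fin,
    Fintype.card_bool]
  ring

theorem mem_thin_of_copy (hs : Sound) {D N : ℕ} (r : Fin 66 → Row D N) (c : Fin 66 → Col D N)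
    (h : IsCopy H (A D N) r c) : (r 1, c 0) ∈ thin D N := by
  obtain ⟨x, p, p', h1, h2⟩ := hs D N _ _ (isCopy_W_of_H r c h)
  have e1 : r 1 = Row.tr (Fin.last D) x p := h1
  have e2 : c 0 = Col.tc (Fin.last D) x p' := h2
  rw [e1, e2]
  exact Finset.mem_image.mpr ⟨(x, p, p'), Finset.mem_univ _, rfl⟩

/-- The count bound (package P4). -/
theorem count (hs : Sound) (h : ℕ) (hh : 17 ≤ h) :
    Nat.card {rc : (Fin 66 → Row (h + 6) (2 ^ (h + 6))) × (Fin 66 → Col (h + 6) (2 ^ (h + 6))) //
      IsCopy H (A (h + 6) (2 ^ (h + 6))) rc.1 rc.2} ≤ (386 * h + 2) ^ 130 * 2 ^ (131 * h) := by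
  refine design_count_of_thin H (A (h + 6) (2 ^ (h + 6))) h 256 (thin _ _) 1 0
    (fun r cc hcopy => mem_thin_of_copy hs r cc hcopy) ?_ ?_ (card_row_le h hh) (card_col_le h hh)
  · calc 256 ≤ 65 ^ 2 := by norm_num
      _ ≤ (Nat.factorial 65) ^ 2 := Nat.pow_le_pow_left (Nat.self_le_factorial 65) 2
  · refine (thin_card_le _ _).trans (le_of_eq ?_)
    rw [pow_add]
    ring

/-- The frozen statement S0066 from the soundness of `W`. -/
theorem result_of_sound (hs : Sound) :
    ∃ H : Fin 66 → Fin 66 → Bool, ∀ h : ℕ, 1 ≤ h →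
      ∃ A : Fin ((386 * h + 2) * 2 ^ h) → Fin ((386 * h + 2) * 2 ^ h) → Bool,
        (∀ B : Fin ((386 * h + 2) * 2 ^ h) → Fin ((386 * h + 2) * 2 ^ h) → Bool,
          Crest.CombinatoricsR.OrderedMatrix.orderedCopyCount H B = 0 →
            ((386 * (h : ℝ) + 2) ^ 2)⁻¹ * (((386 * h + 2) * 2 ^ h : ℕ) : ℝ) ^ 2 ≤
              ((Finset.univ.filter (fun rc : Fin ((386 * h + 2) * 2 ^ h) × Fin ((386 * h + 2) * 2 ^ h) =>
                A rc.1 rc.2 ≠ B rc.1 rc.2)).card : ℝ)) ∧
        (Crest.CombinatoricsR.OrderedMatrix.orderedCopyCount H A : ℝ) /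
            (((386 * h + 2) * 2 ^ h : ℕ) : ℝ) ^ 132 ≤
          ((386 * (h : ℝ) + 2) ^ 2)⁻¹ * (2 : ℝ)⁻¹ ^ h :=
  ⟨H, statement_of_design H false H_row H_col 17 (by norm_num) (fun h hh =>
    ⟨Row (h + 6) (2 ^ (h + 6)), Col (h + 6) (2 ^ (h + 6)), inferInstance, inferInstance,
      inferInstance, inferInstance, A (h + 6) (2 ^ (h + 6)), card_row_le h hh, card_col_le h hh,
      fun B hB => Crest.Agent.LibS0066WFarFinal.far h hh B hB, count hs h hh⟩)⟩

end Crest.Agent.LibS0066WAssemble
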