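import Mathlib
import Crest.Agent.Lib_S0066_WDefs

/-!
S0066, design v2: order lemmas for tree lines (package P1).

* node arithmetic: `div_coarser`, `div_eq_of_side_eq`;
* `firstLeaf` / `lastLeaf` facts;
* frame lemma: `treeKey_frame_pre`, `treeKey_frame_post` (and the `Row`/`Col` versions);
* between lemma: `treeKey_between` (and the `Row`/`Col` versions).
-/

set_option autoImplicit false

namespace Crest.Agent.LibS0066W

variable {D N : ℕ}

/-! ### Node arithmetic -/

theorem pow_sub_split {D j k : ℕ} (hjk : j ≤ k) (hk : k ≤ D) :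
    2 ^ (D - j) = 2 ^ (D - k) * 2 ^ (k - j) := by
  rw [← pow_add]; congr 1; omega

/-- Leaves below the same depth-`k` node are below the same depth-`j` node for `j ≤ k`. -/
theorem div_coarser {D j k x y : ℕ} (hjk : j ≤ k) (hk : k ≤ D)
    (h : x / 2 ^ (D - k) = y / 2 ^ (D - k)) : x / 2 ^ (D - j) = y / 2 ^ (D - j) := by
  rw [pow_sub_split hjk hk, ← Nat.div_div_eq_div_mul, ← Nat.div_div_eq_div_mul, h]

/-- Two children of the same node with the same side bit coincide. -/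
theorem div_eq_of_side_eq {D j x y : ℕ} (hj : j + 1 ≤ D)
    (h : x / 2 ^ (D - j) = y / 2 ^ (D - j)) (hs : side D (j + 1) x = side D (j + 1) y) :
    x / 2 ^ (D - (j + 1)) = y / 2 ^ (D - (j + 1)) := by
  have hsplit : 2 ^ (D - j) = 2 ^ (D - (j + 1)) * 2 := by
    have := pow_sub_split (D := D) (j := j) (k := j + 1) (by omega) hj
    simpa using this
  rw [hsplit, ← Nat.div_div_eq_div_mul, ← Nat.div_div_eq_div_mul] at h
  unfold side at hs
  have hs' : (x / 2 ^ (D - (j + 1)) % 2 = 1) ↔ (y / 2 ^ (D - (j + 1)) % 2 = 1) := by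
    simpa using hs
  omega

/-- At depth `0` every leaf is below the root. -/
theorem div_root {D x : ℕ} (hx : x < 2 ^ D) : x / 2 ^ (D - 0) = 0 := by
  simpa using Nat.div_eq_of_lt hx

/-! ### First and last leaves -/

theorem firstLeaf_le (D j x : ℕ) : firstLeaf D j x ≤ x := Nat.div_mul_le_self _ _

theorem le_lastLeaf (D j x : ℕ) : x ≤ lastLeaf D j x := by
  unfold lastLeaf
  have hpos : 0 < 2 ^ (D - j) := by positivity
  have := Nat.div_add_mod x (2 ^ (D - j))
  have h2 := Nat.mod_lt x hpos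
  have h3 : 2 ^ (D - j) * (x / 2 ^ (D - j)) = x / 2 ^ (D - j) * 2 ^ (D - j) := Nat.mul_comm _ _
  omega

theorem firstLeaf_div {D j k y : ℕ} (hjk : j ≤ k) (hk : k ≤ D) :
    firstLeaf D k y / 2 ^ (D - j) = y / 2 ^ (D - j) := by
  unfold firstLeaf
  have hpos : 0 < 2 ^ (D - k) := by positivity
  rw [pow_sub_split hjk hk, ← Nat.div_div_eq_div_mul, ← Nat.div_div_eq_div_mul,
    Nat.mul_div_cancel _ hpos]

theorem lastLeaf_div {D j k y : ℕ} (hjk : j ≤ k) (hk : k ≤ D) :
    lastLeaf D k y / 2 ^ (D - j) = y / 2 ^ (D - j) := by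
  unfold lastLeaf
  have hpos : 0 < 2 ^ (D - k) := by positivity
  have h1 : (y / 2 ^ (D - k) * 2 ^ (D - k) + (2 ^ (D - k) - 1)) / 2 ^ (D - k) = y / 2 ^ (D - k) := by
    rw [Nat.add_comm, Nat.add_mul_div_right _ _ hpos, Nat.div_eq_of_lt (by omega)]
    omega
  rw [pow_sub_split hjk hk, ← Nat.div_div_eq_div_mul, ← Nat.div_div_eq_div_mul, h1]

/-- Leaves of the same depth-`j` node have the same first leaf. -/
theorem firstLeaf_congr {D j x y : ℕ} (h : x / 2 ^ (D - j) = y / 2 ^ (D - j)) :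
    firstLeaf D j x = firstLeaf D j y := by
  unfold firstLeaf; rw [h]

theorem lastLeaf_congr {D j x y : ℕ} (h : x / 2 ^ (D - j) = y / 2 ^ (D - j)) :
    lastLeaf D j x = lastLeaf D j y := by
  unfold lastLeaf; rw [h]

/-- For `k < j` the first leaf of a depth-`k` node is a multiple of `2^(D-j)`. -/
theorem firstLeaf_mul {D j k y : ℕ} (hkj : k < j) (hj : j ≤ D) :
    firstLeaf D k y = firstLeaf D k y / 2 ^ (D - j) * 2 ^ (D - j) := by
  unfold firstLeaf
  have hpos : 0 < 2 ^ (D - j) := by positivity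
  have hsplit := pow_sub_split (D := D) (j := k) (k := j) hkj.le hj
  rw [hsplit, ← Nat.mul_assoc, Nat.mul_right_comm, Nat.mul_div_cancel _ hpos]

/-- For `k < j` the last leaf of a depth-`k` node is `≡ -1` modulo `2^(D-j)`. -/
theorem lastLeaf_mul {D j k y : ℕ} (hkj : k < j) (hj : j ≤ D) :
    lastLeaf D k y = lastLeaf D k y / 2 ^ (D - j) * 2 ^ (D - j) + (2 ^ (D - j) - 1) := by
  unfold lastLeaf
  have hpos : 0 < 2 ^ (D - j) := by positivity
  have hsplit := pow_sub_split (D := D) (j := k) (k := j) hkj.le hj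
  have hR : 0 < 2 ^ (j - k) := by positivity
  set P := 2 ^ (D - j) with hP
  set R := 2 ^ (j - k) with hRdef
  set c := y / 2 ^ (D - k) with hc
  rw [hsplit]
  have h1 : c * (P * R) + (P * R - 1) = (c * R + (R - 1)) * P + (P - 1) := by
    have hRP : P * R = (R - 1) * P + P := by
      rw [Nat.sub_mul, Nat.one_mul, Nat.mul_comm R P]
      have : P ≤ P * R := Nat.le_mul_of_pos_right _ hR
      omega
    have h2 : c * (P * R) = c * R * P := by ring
    rw [h2, Nat.add_mul]
    omega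
  rw [h1]
  have h3 : ((c * R + (R - 1)) * P + (P - 1)) / P = c * R + (R - 1) := by
    rw [Nat.add_comm, Nat.add_mul_div_right _ _ hpos, Nat.div_eq_of_lt (by omega)]
    omega
  rw [h3]

/-! ### Frame lemma -/

/-- A pre-line of a node precedes every line strictly below the node. -/
theorem treeKey_frame_pre {D sec j k x x' : ℕ} {p : Bool} (hjk : j < k) (hk : k ≤ D)
    (h : x' / 2 ^ (D - j) = x / 2 ^ (D - j)) :
    treeKey D sec j x false < treeKey D sec k x' p := by
  have h1 : firstLeaf D j x = firstLeaf D j x' := firstLeaf_congr h.symm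
  have h2 : firstLeaf D j x' ≤ firstLeaf D k x' := by
    have := firstLeaf_div (D := D) (j := j) (k := k) (y := x') hjk.le hk
    unfold firstLeaf at this ⊢
    have hle := firstLeaf_le D k x'
    unfold firstLeaf at hle
    calc x' / 2 ^ (D - j) * 2 ^ (D - j)
        = (x' / 2 ^ (D - k) * 2 ^ (D - k)) / 2 ^ (D - j) * 2 ^ (D - j) := by rw [this]
      _ ≤ x' / 2 ^ (D - k) * 2 ^ (D - k) := Nat.div_mul_le_self _ _
  have h3 := firstLeaf_le D k x'
  have h4 := le_lastLeaf D k x'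
  cases p
  · simp only [treeKey, Bool.false_eq_true, if_false, mkKey_lt, lt_self_iff_false, false_or,
      true_and]
    omega
  · simp only [treeKey, Bool.false_eq_true, if_false, if_true, mkKey_lt, lt_self_iff_false,
      false_or, true_and]
    omega

/-- A post-line of a node follows every line strictly below the node. -/
theorem treeKey_frame_post {D sec j k x x' : ℕ} {p : Bool} (hjk : j < k) (hk : k ≤ D)
    (h : x' / 2 ^ (D - j) = x / 2 ^ (D - j)) :
    treeKey D sec k x' p < treeKey D sec j x true := by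
  have h1 : lastLeaf D j x = lastLeaf D j x' := lastLeaf_congr h.symm
  have h2 : lastLeaf D k x' ≤ lastLeaf D j x' := by
    have hdiv := lastLeaf_div (D := D) (j := j) (k := k) (y := x') hjk.le hk
    have := le_lastLeaf D j (lastLeaf D k x')
    have hc : lastLeaf D j (lastLeaf D k x') = lastLeaf D j x' := lastLeaf_congr hdiv
    omega
  have h3 := firstLeaf_le D k x'
  have h4 := le_lastLeaf D j x'
  cases p
  · simp only [treeKey, Bool.false_eq_true, if_false, if_true, mkKey_lt, lt_self_iff_false,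
      false_or, true_and]
    omega
  · simp only [treeKey, if_true, mkKey_lt, lt_self_iff_false, false_or, true_and]
    omega

theorem Row.frame_pre {j k : Fin (D + 1)} {x x' : Fin (2 ^ D)} {p : Bool} (hjk : j < k)
    (h : (x' : ℕ) / 2 ^ (D - j) = (x : ℕ) / 2 ^ (D - j)) :
    (Row.tr j x false : Row D N) < Row.tr k x' p :=
  treeKey_frame_pre (Fin.lt_def.1 hjk) (by have := k.2; omega) h

theorem Row.frame_post {j k : Fin (D + 1)} {x x' : Fin (2 ^ D)} {p : Bool} (hjk : j < k)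
    (h : (x' : ℕ) / 2 ^ (D - j) = (x : ℕ) / 2 ^ (D - j)) :
    (Row.tr k x' p : Row D N) < Row.tr j x true :=
  treeKey_frame_post (Fin.lt_def.1 hjk) (by have := k.2; omega) h

theorem Col.frame_pre {j k : Fin (D + 1)} {x x' : Fin (2 ^ D)} {p : Bool} (hjk : j < k)
    (h : (x' : ℕ) / 2 ^ (D - j) = (x : ℕ) / 2 ^ (D - j)) :
    (Col.tc j x false : Col D N) < Col.tc k x' p :=
  treeKey_frame_pre (Fin.lt_def.1 hjk) (by have := k.2; omega) h

theorem Col.frame_post {j k : Fin (D + 1)} {x x' : Fin (2 ^ D)} {p : Bool} (hjk : j < k)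
    (h : (x' : ℕ) / 2 ^ (D - j) = (x : ℕ) / 2 ^ (D - j)) :
    (Col.tc k x' p : Col D N) < Col.tc j x true :=
  treeKey_frame_post (Fin.lt_def.1 hjk) (by have := k.2; omega) h


/-! ### Between lemma -/

theorem div_bounds {P m u : ℕ} (hP : 0 < P) (h : m / P = u) : u * P ≤ m ∧ m < u * P + P := by
  subst h
  refine ⟨Nat.div_mul_le_self _ _, ?_⟩
  have := Nat.lt_mul_div_succ m hP
  have h2 : P * (m / P + 1) = m / P * P + P := by ring
  omega

theorem div_eq_of_bounds {P m u : ℕ} (h1 : u * P ≤ m) (h2 : m < u * P + P) : m / P = u :=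
  Nat.div_eq_of_lt_le h1 (by rw [Nat.add_mul, Nat.one_mul]; exact h2)

/-- A tree line strictly between two lines of the subtree of the depth-`j` node `u` lies in that
subtree. (Stated for keys; `k ≥ j` and `y / 2^(D-j) = u` means "line `(k, y)` is in the subtree".) -/
theorem treeKey_between {D sec j u k₁ k₂ k₃ y₁ y₂ y₃ : ℕ} {p₁ p₂ p₃ : Bool}
    (hj : j ≤ D) (hk₁ : k₁ ≤ D) (hk₂ : k₂ ≤ D) (hk₃ : k₃ ≤ D)
    (h12 : treeKey D sec k₁ y₁ p₁ < treeKey D sec k₂ y₂ p₂)
    (h23 : treeKey D sec k₂ y₂ p₂ < treeKey D sec k₃ y₃ p₃)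
    (h1 : j ≤ k₁) (h3 : j ≤ k₃) (hu1 : y₁ / 2 ^ (D - j) = u) (hu3 : y₃ / 2 ^ (D - j) = u) :
    j ≤ k₂ ∧ y₂ / 2 ^ (D - j) = u := by
  have hP : 0 < 2 ^ (D - j) := by positivity
  -- bounds for the lines 1 and 3
  have b1f := div_bounds hP ((firstLeaf_div (y := y₁) h1 hk₁).trans hu1)
  have b1l := div_bounds hP ((lastLeaf_div (y := y₁) h1 hk₁).trans hu1)
  have b3f := div_bounds hP ((firstLeaf_div (y := y₃) h3 hk₃).trans hu3)
  have b3l := div_bounds hP ((lastLeaf_div (y := y₃) h3 hk₃).trans hu3)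
  -- facts for line 2 when it is shallower than `j`
  have c2f : k₂ < j → firstLeaf D k₂ y₂ = firstLeaf D k₂ y₂ / 2 ^ (D - j) * 2 ^ (D - j) :=
    fun h => firstLeaf_mul h hj
  have c2l : k₂ < j →
      lastLeaf D k₂ y₂ = lastLeaf D k₂ y₂ / 2 ^ (D - j) * 2 ^ (D - j) + (2 ^ (D - j) - 1) :=
    fun h => lastLeaf_mul h hj
  have d2f : j ≤ k₂ → firstLeaf D k₂ y₂ / 2 ^ (D - j) = y₂ / 2 ^ (D - j) :=
    fun h => firstLeaf_div h hk₂
  have d2l : j ≤ k₂ → lastLeaf D k₂ y₂ / 2 ^ (D - j) = y₂ / 2 ^ (D - j) :=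
    fun h => lastLeaf_div h hk₂
  generalize 2 ^ (D - j) = P at *
  generalize hc : u * P = c at *
  cases p₂
  · -- line 2 is a pre-line
    have hm : c ≤ firstLeaf D k₂ y₂ ∧ firstLeaf D k₂ y₂ < c + P := by
      cases p₁ <;> cases p₃ <;>
        simp only [treeKey, Bool.false_eq_true, if_false, if_true, mkKey_lt, lt_self_iff_false,
          false_or, true_and] at h12 h23 <;> omega
    have hdiv : firstLeaf D k₂ y₂ / P = u := div_eq_of_bounds (by omega) (by omega)
    by_cases hk : j ≤ k₂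
    · exact ⟨hk, (d2f hk).symm.trans hdiv⟩
    · exfalso
      have hmul := c2f (by omega)
      rw [hdiv, hc] at hmul
      cases p₁ <;>
        simp only [treeKey, Bool.false_eq_true, if_false, if_true, mkKey_lt, lt_self_iff_false,
          false_or, true_and] at h12 <;> omega
  · -- line 2 is a post-line
    have hm : c ≤ lastLeaf D k₂ y₂ ∧ lastLeaf D k₂ y₂ < c + P := by
      cases p₁ <;> cases p₃ <;>
        simp only [treeKey, Bool.false_eq_true, if_false, if_true, mkKey_lt, lt_self_iff_false,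
          false_or, true_and] at h12 h23 <;> omega
    have hdiv : lastLeaf D k₂ y₂ / P = u := div_eq_of_bounds (by omega) (by omega)
    by_cases hk : j ≤ k₂
    · exact ⟨hk, (d2l hk).symm.trans hdiv⟩
    · exfalso
      have hmul := c2l (by omega)
      rw [hdiv, hc] at hmul
      cases p₃ <;>
        simp only [treeKey, Bool.false_eq_true, if_false, if_true, mkKey_lt, lt_self_iff_false,
          false_or, true_and] at h23 <;> omega

/-- Between lemma for tree rows. -/
theorem Row.between {j : ℕ} {u : ℕ} {k₁ k₂ k₃ : Fin (D + 1)} {y₁ y₂ y₃ : Fin (2 ^ D)}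
    {p₁ p₂ p₃ : Bool} (hj : j ≤ D)
    (h12 : (Row.tr k₁ y₁ p₁ : Row D N) < Row.tr k₂ y₂ p₂)
    (h23 : (Row.tr k₂ y₂ p₂ : Row D N) < Row.tr k₃ y₃ p₃)
    (h1 : j ≤ (k₁ : ℕ)) (h3 : j ≤ (k₃ : ℕ)) (hu1 : (y₁ : ℕ) / 2 ^ (D - j) = u)
    (hu3 : (y₃ : ℕ) / 2 ^ (D - j) = u) :
    j ≤ (k₂ : ℕ) ∧ (y₂ : ℕ) / 2 ^ (D - j) = u :=
  treeKey_between hj (by have := k₁.2; omega) (by have := k₂.2; omega) (by have := k₃.2; omega)
    h12 h23 h1 h3 hu1 hu3

/-- Between lemma for tree columns. -/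
theorem Col.between {j : ℕ} {u : ℕ} {k₁ k₂ k₃ : Fin (D + 1)} {y₁ y₂ y₃ : Fin (2 ^ D)}
    {p₁ p₂ p₃ : Bool} (hj : j ≤ D)
    (h12 : (Col.tc k₁ y₁ p₁ : Col D N) < Col.tc k₂ y₂ p₂)
    (h23 : (Col.tc k₂ y₂ p₂ : Col D N) < Col.tc k₃ y₃ p₃)
    (h1 : j ≤ (k₁ : ℕ)) (h3 : j ≤ (k₃ : ℕ)) (hu1 : (y₁ : ℕ) / 2 ^ (D - j) = u)
    (hu3 : (y₃ : ℕ) / 2 ^ (D - j) = u) :
    j ≤ (k₂ : ℕ) ∧ (y₂ : ℕ) / 2 ^ (D - j) = u :=
  treeKey_between hj (by have := k₁.2; omega) (by have := k₂.2; omega) (by have := k₃.2; omega)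
    h12 h23 h1 h3 hu1 hu3

end Crest.Agent.LibS0066W
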