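import Mathlib
import Crest.Agent.Lib_S0066_WDefs

/-!
S0066, design v2, farness (package P2, global half): the induction along the path of a leaf.

`path_abstract`: given the three forcing rules `R1`, `R2`, `R3` (as hypotheses, for abstract
goodness predicates `gR`, `gC` and a competitor matrix `B`), a leaf `x` all of whose tree lines
are good, and a good frame at the root whose four cells are `true` in `B`, we get `False`.
-/

set_option autoImplicit false

namespace Crest.Agent.LibS0066W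

variable {D N : ℕ}

/-- A frame at depth `j` on the path of the leaf `x`: good pre/post rows and pre/post columns
at the depth-`j` ancestor of `x` whose four cells are `true` in `B`. -/
def PathFrame (B : Row D N → Col D N → Bool) (gR : Row D N → Prop) (gC : Col D N → Prop)
    (x : Fin (2 ^ D)) (j : Fin (D + 1)) : Prop :=
  ∃ xp xp2 xq xq2 : Fin (2 ^ D),
    (xp : ℕ) / 2 ^ (D - j) = (x : ℕ) / 2 ^ (D - j) ∧
    (xp2 : ℕ) / 2 ^ (D - j) = (x : ℕ) / 2 ^ (D - j) ∧
    (xq : ℕ) / 2 ^ (D - j) = (x : ℕ) / 2 ^ (D - j) ∧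
    (xq2 : ℕ) / 2 ^ (D - j) = (x : ℕ) / 2 ^ (D - j) ∧
    gR (.tr j xp false) ∧ gR (.tr j xp2 true) ∧ gC (.tc j xq false) ∧ gC (.tc j xq2 true) ∧
    B (.tr j xp false) (.tc j xq false) = true ∧ B (.tr j xp false) (.tc j xq2 true) = true ∧
    B (.tr j xp2 true) (.tc j xq false) = true ∧ B (.tr j xp2 true) (.tc j xq2 true) = true

/-- One level of the cascade: a frame at depth `j` forces all four cells of the lines of `x`
at depth `k = j + 1`. -/
theorem path_step (B : Row D N → Col D N → Bool) (gR : Row D N → Prop) (gC : Col D N → Prop)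
    (R1 : ∀ (j k : Fin (D + 1)), (k : ℕ) = j + 1 →
      ∀ (xz xq xq2 xc : Fin (2 ^ D)) (pz pc : Bool),
        gR (.tr j xz pz) → gC (.tc j xq false) → gC (.tc j xq2 true) → gC (.tc k xc pc) →
        (xq : ℕ) / 2 ^ (D - j) = (xz : ℕ) / 2 ^ (D - j) →
        (xq2 : ℕ) / 2 ^ (D - j) = (xz : ℕ) / 2 ^ (D - j) →
        (xc : ℕ) / 2 ^ (D - j) = (xz : ℕ) / 2 ^ (D - j) →
        B (.tr j xz pz) (.tc j xq false) = true → B (.tr j xz pz) (.tc j xq2 true) = true →
        B (.tr j xz pz) (.tc k xc pc) = true)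
    (R2 : ∀ (j k : Fin (D + 1)), (k : ℕ) = j + 1 →
      ∀ (xp xp2 xz xc : Fin (2 ^ D)) (pz pc : Bool),
        gR (.tr j xp false) → gR (.tr j xp2 true) → gR (.tr k xz pz) → gC (.tc k xc pc) →
        (xp : ℕ) / 2 ^ (D - j) = (xz : ℕ) / 2 ^ (D - j) →
        (xp2 : ℕ) / 2 ^ (D - j) = (xz : ℕ) / 2 ^ (D - j) →
        (xc : ℕ) / 2 ^ (D - k) = (xz : ℕ) / 2 ^ (D - k) →
        B (.tr j xp false) (.tc k xc pc) = true → B (.tr j xp2 true) (.tc k xc pc) = true →
        B (.tr k xz pz) (.tc k xc pc) = true)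
    (x : Fin (2 ^ D)) (hx : ∀ (j : Fin (D + 1)) (p : Bool), gR (.tr j x p) ∧ gC (.tc j x p))
    (j k : Fin (D + 1)) (hk : (k : ℕ) = j + 1) (hF : PathFrame B gR gC x j) :
    PathFrame B gR gC x k := by
  obtain ⟨xp, xp2, xq, xq2, np, np2, nq, nq2, gp, gp2, gq, gq2, b1, b2, b3, b4⟩ := hF
  -- R1, four times: the two frame rows against the two new columns
  have c1 : ∀ pc : Bool, B (.tr j xp false) (.tc k x pc) = true := fun pc =>
    R1 j k hk xp xq xq2 x false pc gp gq gq2 (hx k pc).2 (nq.trans np.symm) (nq2.trans np.symm)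
      np.symm b1 b2
  have c2 : ∀ pc : Bool, B (.tr j xp2 true) (.tc k x pc) = true := fun pc =>
    R1 j k hk xp2 xq xq2 x true pc gp2 gq gq2 (hx k pc).2 (nq.trans np2.symm)
      (nq2.trans np2.symm) np2.symm b3 b4
  -- R2, four times: the two new rows against the two new columns
  have c3 : ∀ pz pc : Bool, B (.tr k x pz) (.tc k x pc) = true := fun pz pc =>
    R2 j k hk xp xp2 x x pz pc gp gp2 (hx k pz).1 (hx k pc).2 np np2 rfl (c1 pc) (c2 pc)
  exact ⟨x, x, x, x, rfl, rfl, rfl, rfl, (hx k false).1, (hx k true).1, (hx k false).2,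
    (hx k true).2, c3 false false, c3 false true, c3 true false, c3 true true⟩

/-- **Path induction** (abstract form). From the forcing rules `R1`, `R2`, `R3`, a leaf `x` all
of whose tree lines are good and a good root frame with its four cells `true` in `B`: `False`. -/
theorem path_abstract (B : Row D N → Col D N → Bool) (gR : Row D N → Prop) (gC : Col D N → Prop)
    (R1 : ∀ (j k : Fin (D + 1)), (k : ℕ) = j + 1 →
      ∀ (xz xq xq2 xc : Fin (2 ^ D)) (pz pc : Bool),
        gR (.tr j xz pz) → gC (.tc j xq false) → gC (.tc j xq2 true) → gC (.tc k xc pc) →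
        (xq : ℕ) / 2 ^ (D - j) = (xz : ℕ) / 2 ^ (D - j) →
        (xq2 : ℕ) / 2 ^ (D - j) = (xz : ℕ) / 2 ^ (D - j) →
        (xc : ℕ) / 2 ^ (D - j) = (xz : ℕ) / 2 ^ (D - j) →
        B (.tr j xz pz) (.tc j xq false) = true → B (.tr j xz pz) (.tc j xq2 true) = true →
        B (.tr j xz pz) (.tc k xc pc) = true)
    (R2 : ∀ (j k : Fin (D + 1)), (k : ℕ) = j + 1 →
      ∀ (xp xp2 xz xc : Fin (2 ^ D)) (pz pc : Bool),
        gR (.tr j xp false) → gR (.tr j xp2 true) → gR (.tr k xz pz) → gC (.tc k xc pc) →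
        (xp : ℕ) / 2 ^ (D - j) = (xz : ℕ) / 2 ^ (D - j) →
        (xp2 : ℕ) / 2 ^ (D - j) = (xz : ℕ) / 2 ^ (D - j) →
        (xc : ℕ) / 2 ^ (D - k) = (xz : ℕ) / 2 ^ (D - k) →
        B (.tr j xp false) (.tc k xc pc) = true → B (.tr j xp2 true) (.tc k xc pc) = true →
        B (.tr k xz pz) (.tc k xc pc) = true)
    (R3 : ∀ (x : Fin (2 ^ D)) (pz pq : Bool),
        gR (.tr (Fin.last D) x pz) → gC (.tc (Fin.last D) x pq) →
        B (.tr (Fin.last D) x pz) (.tc (Fin.last D) x pq) = true → False)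
    (x : Fin (2 ^ D)) (hx : ∀ (j : Fin (D + 1)) (p : Bool), gR (.tr j x p) ∧ gC (.tc j x p))
    (xp xp2 xq xq2 : Fin (2 ^ D))
    (hp : gR (.tr 0 xp false)) (hp2 : gR (.tr 0 xp2 true))
    (hq : gC (.tc 0 xq false)) (hq2 : gC (.tc 0 xq2 true))
    (h1 : B (.tr 0 xp false) (.tc 0 xq false) = true)
    (h2 : B (.tr 0 xp false) (.tc 0 xq2 true) = true)
    (h3 : B (.tr 0 xp2 true) (.tc 0 xq false) = true)
    (h4 : B (.tr 0 xp2 true) (.tc 0 xq2 true) = true) : False := by
  -- every leaf index divided by `2 ^ D` is `0`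
  have hroot : ∀ y : Fin (2 ^ D), (y : ℕ) / 2 ^ (D - ((0 : Fin (D + 1)) : ℕ)) = 0 := by
    intro y
    simp only [Fin.val_zero, Nat.sub_zero]
    exact Nat.div_eq_of_lt y.2
  have hF0 : PathFrame B gR gC x 0 :=
    ⟨xp, xp2, xq, xq2, by rw [hroot, hroot], by rw [hroot, hroot], by rw [hroot, hroot],
      by rw [hroot, hroot], hp, hp2, hq, hq2, h1, h2, h3, h4⟩
  -- induction along the path
  have hF : ∀ (j : ℕ) (hj : j ≤ D), PathFrame B gR gC x ⟨j, Nat.lt_succ_of_le hj⟩ := by
    intro j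
    induction j with
    | zero => intro _; exact hF0
    | succ j ih =>
      intro hj
      exact path_step B gR gC R1 R2 x hx ⟨j, by omega⟩ ⟨j + 1, Nat.lt_succ_of_le hj⟩ rfl
        (ih (by omega))
  -- at the leaf: `R3`
  obtain ⟨yp, yp2, yq, yq2, np, -, nq, -, gp, -, gq, -, b1, -, -, -⟩ := hF D le_rfl
  have e1 : yp = x := by
    apply Fin.ext
    simpa using np
  have e2 : yq = x := by
    apply Fin.ext
    simpa using nq
  rw [e1] at gp b1
  rw [e2] at gq b1
  exact R3 x false false gp gq b1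

end Crest.Agent.LibS0066W
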