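import Mathlib
import Crest.Agent.Lib_S0066_WDefs

/-!
S0066, design v2: soundness of the core pattern `W`, slices `[pad]`, `[km/kp]`, `[gam]`, `[phi]`
(the last column of a copy of `W` in `A` is never a pad / `km` / `kp` / `gam` / `phi` column).
-/

set_option autoImplicit false
set_option linter.unusedSimpArgs false
set_option linter.unusedVariables false

namespace Crest.Agent.LibS0066W.SoundA

open Crest.Agent.Lib_S0066_Reduce Crest.Agent.LibS0066W

variable {D N : ℕ}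

/-! ### Section numbers of constructors -/

theorem csec_km (i : Fin N) : (Col.km i : Col D N).sec = 0 := rfl
theorem csec_tc (k : Fin (D + 1)) (y : Fin (2 ^ D)) (q : Bool) :
    (Col.tc k y q : Col D N).sec = 1 := rfl
theorem csec_gam (i : Fin N) : (Col.gam i : Col D N).sec = 2 := rfl
theorem csec_phi (i : Fin N) : (Col.phi i : Col D N).sec = 3 := rfl
theorem csec_kp (i : Fin N) : (Col.kp i : Col D N).sec = 4 := rfl
theorem csec_uc (j : Fin (D + 1)) (s : Bool) (i : Fin N) : (Col.uc j s i : Col D N).sec = 5 := rfl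
theorem csec_pad (i : Fin N) : (Col.pad i : Col D N).sec = 6 := rfl
theorem rsec_pim (i : Fin N) : (Row.pim i : Row D N).sec = 0 := rfl
theorem rsec_tr (j : Fin (D + 1)) (x : Fin (2 ^ D)) (p : Bool) :
    (Row.tr j x p : Row D N).sec = 1 := rfl
theorem rsec_pip (i : Fin N) : (Row.pip i : Row D N).sec = 2 := rfl
theorem rsec_vr (k : Fin (D + 2)) (s : Bool) (i : Fin N) : (Row.vr k s i : Row D N).sec = 3 := rfl
theorem rsec_pad (i : Fin N) : (Row.pad i : Row D N).sec = 4 := rfl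

/-- The sixteen entries of a copy of `W`. -/
theorem copy_entries {r : Fin 4 → Row D N} {c : Fin 4 → Col D N} (h : IsCopy W (A D N) r c) :
    (A D N (r 0) (c 0) = true ∧ A D N (r 0) (c 1) = true ∧ A D N (r 0) (c 2) = true ∧
      A D N (r 0) (c 3) = false) ∧
    (A D N (r 1) (c 0) = true ∧ A D N (r 1) (c 1) = false ∧ A D N (r 1) (c 2) = true ∧
      A D N (r 1) (c 3) = true) ∧
    (A D N (r 2) (c 0) = true ∧ A D N (r 2) (c 1) = true ∧ A D N (r 2) (c 2) = true ∧
      A D N (r 2) (c 3) = false) ∧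
    (A D N (r 3) (c 0) = false ∧ A D N (r 3) (c 1) = true ∧ A D N (r 3) (c 2) = false ∧
      A D N (r 3) (c 3) = true) := by
  obtain ⟨-, -, he⟩ := h
  refine ⟨⟨?_, ?_, ?_, ?_⟩, ⟨?_, ?_, ?_, ?_⟩, ⟨?_, ?_, ?_, ?_⟩, ⟨?_, ?_, ?_, ?_⟩⟩ <;>
    rw [he] <;> rfl

/-- The rows of a copy are increasing. -/
theorem copy_rows {r : Fin 4 → Row D N} {c : Fin 4 → Col D N} (h : IsCopy W (A D N) r c) :
    r 0 < r 1 ∧ r 1 < r 2 ∧ r 2 < r 3 :=
  ⟨h.1 (by decide), h.1 (by decide), h.1 (by decide)⟩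

/-- The columns of a copy are increasing. -/
theorem copy_cols {r : Fin 4 → Row D N} {c : Fin 4 → Col D N} (h : IsCopy W (A D N) r c) :
    c 0 < c 1 ∧ c 1 < c 2 ∧ c 2 < c 3 :=
  ⟨h.2.1 (by decide), h.2.1 (by decide), h.2.1 (by decide)⟩

/-! ### Supports by section -/

theorem A_pad_right {r : Row D N} {i : Fin N} : A D N r (Col.pad i) = true ↔ r.sec = 4 := by
  cases r <;> simp [A, rsec_pim, rsec_tr, rsec_pip, rsec_vr, rsec_pad]

theorem A_km {r : Row D N} {i : Fin N} : A D N r (Col.km i) = true ↔ r.sec = 1 := by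
  cases r <;> simp [A, rsec_pim, rsec_tr, rsec_pip, rsec_vr, rsec_pad]

theorem A_kp {r : Row D N} {i : Fin N} : A D N r (Col.kp i) = true ↔ r.sec = 1 := by
  cases r <;> simp [A, rsec_pim, rsec_tr, rsec_pip, rsec_vr, rsec_pad]

theorem A_pim {i : Fin N} {c : Col D N} :
    A D N (Row.pim i) c = true ↔ 1 ≤ c.sec ∧ c.sec ≤ 3 := by
  cases c <;> simp [A, csec_km, csec_tc, csec_gam, csec_phi, csec_kp, csec_uc, csec_pad]

theorem A_pip {i : Fin N} {c : Col D N} :
    A D N (Row.pip i) c = true ↔ 1 ≤ c.sec ∧ c.sec ≤ 3 := by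
  cases c <;> simp [A, csec_km, csec_tc, csec_gam, csec_phi, csec_kp, csec_uc, csec_pad]

/-! ### Slice `[pad]` -/

theorem not_pad {r : Fin 4 → Row D N} {c : Fin 4 → Col D N} (h : IsCopy W (A D N) r c)
    (i : Fin N) (h3 : c 3 = Col.pad i) : False := by
  obtain ⟨-, ⟨-, -, -, e13⟩, ⟨-, -, -, e23⟩, ⟨-, -, -, e33⟩⟩ := copy_entries h
  obtain ⟨-, h12, h23⟩ := copy_rows h
  rw [h3] at e13 e23 e33
  have s1 := A_pad_right.1 e13
  have s3 := A_pad_right.1 e33
  have s2 : (r 2).sec = 4 := by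
    have := Row.sec_le_of_lt h12
    have := Row.sec_le_of_lt h23
    omega
  rw [A_pad_right.2 s2] at e23
  exact Bool.noConfusion e23

/-! ### Slice `[km/kp]` -/

theorem not_km {r : Fin 4 → Row D N} {c : Fin 4 → Col D N} (h : IsCopy W (A D N) r c)
    (i : Fin N) (h3 : c 3 = Col.km i) : False := by
  obtain ⟨-, ⟨-, -, -, e13⟩, ⟨-, -, -, e23⟩, ⟨-, -, -, e33⟩⟩ := copy_entries h
  obtain ⟨-, h12, h23⟩ := copy_rows h
  rw [h3] at e13 e23 e33
  have s1 := A_km.1 e13
  have s3 := A_km.1 e33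
  have s2 : (r 2).sec = 1 := by
    have := Row.sec_le_of_lt h12
    have := Row.sec_le_of_lt h23
    omega
  rw [A_km.2 s2] at e23
  exact Bool.noConfusion e23

theorem not_kp {r : Fin 4 → Row D N} {c : Fin 4 → Col D N} (h : IsCopy W (A D N) r c)
    (i : Fin N) (h3 : c 3 = Col.kp i) : False := by
  obtain ⟨-, ⟨-, -, -, e13⟩, ⟨-, -, -, e23⟩, ⟨-, -, -, e33⟩⟩ := copy_entries h
  obtain ⟨-, h12, h23⟩ := copy_rows h
  rw [h3] at e13 e23 e33
  have s1 := A_kp.1 e13
  have s3 := A_kp.1 e33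
  have s2 : (r 2).sec = 1 := by
    have := Row.sec_le_of_lt h12
    have := Row.sec_le_of_lt h23
    omega
  rw [A_kp.2 s2] at e23
  exact Bool.noConfusion e23

/-! ### Slice `[gam]` -/

theorem col_sec_two {c : Col D N} (h : c.sec = 2) : ∃ i, c = Col.gam i := by
  cases c <;> simp [csec_km, csec_tc, csec_gam, csec_phi, csec_kp, csec_uc, csec_pad] at h
  exact ⟨_, rfl⟩

theorem not_gam {r : Fin 4 → Row D N} {c : Fin 4 → Col D N} (h : IsCopy W (A D N) r c)
    (i : Fin N) (h3 : c 3 = Col.gam i) : False := by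
  obtain ⟨-, ⟨e10, e11, -, e13⟩, -, -⟩ := copy_entries h
  obtain ⟨c01, c12, c23⟩ := copy_cols h
  rw [h3] at e13
  have t0 := Col.sec_le_of_lt c01
  have t1 := Col.sec_le_of_lt c12
  have t2 := Col.sec_le_of_lt c23
  rw [h3] at t2
  simp only [csec_km, csec_tc, csec_gam, csec_phi, csec_kp, csec_uc, csec_pad] at t2
  rcases h1 : r 1 with i1 | ⟨j, x, p⟩ | i1 | ⟨k, s, i1⟩ | i1
  · rw [h1] at e10 e11
    have := A_pim.1 e10
    rw [A_pim.2 ⟨by omega, by omega⟩] at e11
    exact Bool.noConfusion e11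
  · rw [h1] at e13
    simp [A] at e13
  · rw [h1] at e10 e11
    have := A_pip.1 e10
    rw [A_pip.2 ⟨by omega, by omega⟩] at e11
    exact Bool.noConfusion e11
  · rw [h1] at e10 e11 e13
    have hk : (k : ℕ) = D + 1 := by simpa [A] using e13
    have hc0 : (c 0).sec = 2 := by
      rcases h0 : c 0 with i0 | ⟨k0, y0, p0⟩ | i0 | i0 | i0 | ⟨j0, s0, i0⟩ | i0 <;>
        rw [h0] at e10 t0 <;> simp [A, csec_km, csec_tc, csec_gam, csec_phi, csec_kp, csec_uc, csec_pad] at e10 t0 ⊢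
      · have := k0.2
        omega
      · omega
    obtain ⟨i1', hc1⟩ := col_sec_two (c := c 1) (by omega)
    rw [hc1] at e11
    simp [A, hk] at e11
  · rw [h1] at e13
    simp [A] at e13

/-! ### Slice `[phi]` -/

/-- Order of two leaf columns: the leaves are weakly increasing. -/
theorem tc_leaf_le {k k' : Fin (D + 1)} {y y' : Fin (2 ^ D)} {q q' : Bool}
    (hk : (k : ℕ) = D) (hk' : (k' : ℕ) = D)
    (h : (Col.tc k y q : Col D N) < Col.tc k' y' q') : (y : ℕ) ≤ y' := by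
  rw [Col.tc_lt_tc] at h
  unfold treeKey at h
  cases q <;> cases q' <;>
    simp [mkKey_lt, firstLeaf, lastLeaf, hk, hk'] at h <;> omega

theorem not_phi {r : Fin 4 → Row D N} {c : Fin 4 → Col D N} (h : IsCopy W (A D N) r c)
    (i : Fin N) (h3 : c 3 = Col.phi i) : False := by
  obtain ⟨-, ⟨e10, e11, e12, e13⟩, -, ⟨e30, e31, e32, e33⟩⟩ := copy_entries h
  obtain ⟨c01, c12, c23⟩ := copy_cols h
  obtain ⟨-, r12, r23⟩ := copy_rows h
  rw [h3] at e13 e33
  have t0 := Col.sec_le_of_lt c01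
  have t1 := Col.sec_le_of_lt c12
  have t2 := Col.sec_le_of_lt c23
  rw [h3] at t2
  simp only [csec_km, csec_tc, csec_gam, csec_phi, csec_kp, csec_uc, csec_pad] at t2
  rcases h1 : r 1 with i1 | ⟨j1, x1, p1⟩ | i1 | ⟨k1, s1, i1⟩ | i1
  · rw [h1] at e10 e11
    have := A_pim.1 e10
    rw [A_pim.2 ⟨by omega, by omega⟩] at e11
    exact Bool.noConfusion e11
  · rw [h1] at e10 e11 e12 e13
    have hj1 : (j1 : ℕ) = D := by simpa [A] using e13
    rcases h3r : r 3 with i3 | ⟨j3, x3, p3⟩ | i3 | ⟨k3, s3, i3⟩ | i3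
    · have := Row.sec_le_of_lt (r12.trans r23)
      rw [h1, h3r] at this
      simp [rsec_pim, rsec_tr, rsec_pip, rsec_vr, rsec_pad] at this
    · rw [h3r] at e30 e31 e32 e33
      have hj3 : (j3 : ℕ) = D := by simpa [A] using e33
      -- the column `c 1`
      obtain ⟨k, y, q, hc1, hk, hy3, hy1⟩ : ∃ k y q, c 1 = Col.tc k y q ∧ (k : ℕ) = D ∧
          (x3 : ℕ) = y ∧ (x1 : ℕ) ≠ y := by
        rcases hc : c 1 with i0 | ⟨k, y, q⟩ | i0 | i0 | i0 | ⟨j0, s0, i0⟩ | i0 <;>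
          rw [hc] at e11 e31 t1 <;> simp [A, csec_km, csec_tc, csec_gam, csec_phi, csec_kp, csec_uc, csec_pad, hj1, hj3] at e11 e31 t1
        · have := k.2
          refine ⟨k, y, q, rfl, by omega, e31.1, ?_⟩
          intro hxy
          have := e11 hxy
          omega
        · omega
      -- the column `c 0`
      obtain ⟨k0, y0, q0, hc0, hk0, hy0⟩ : ∃ k y q, c 0 = Col.tc k y q ∧ (k : ℕ) = D ∧
          (x1 : ℕ) = y := by
        rw [hc1] at t0
        rcases hc : c 0 with i0 | ⟨k0, y0, q0⟩ | i0 | i0 | i0 | ⟨j0, s0, i0⟩ | i0 <;>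
          rw [hc] at e10 e30 t0 <;> simp [A, csec_km, csec_tc, csec_gam, csec_phi, csec_kp, csec_uc, csec_pad, hj1, hj3] at e10 e30 t0
        have := k0.2
        exact ⟨k0, y0, q0, rfl, by omega, e10.1⟩
      -- the column `c 2`
      obtain ⟨k2, y2, q2, hc2, hk2, hy2⟩ : ∃ k y q, c 2 = Col.tc k y q ∧ (k : ℕ) = D ∧
          (x1 : ℕ) = y := by
        rw [hc1] at t1
        rcases hc : c 2 with i0 | ⟨k2, y2, q2⟩ | i0 | i0 | i0 | ⟨j0, s0, i0⟩ | i0 <;>
          rw [hc] at e12 e32 t1 t2 <;> simp [A, csec_km, csec_tc, csec_gam, csec_phi, csec_kp, csec_uc, csec_pad, hj1, hj3] at e12 e32 t1 t2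
        have := k2.2
        exact ⟨k2, y2, q2, rfl, by omega, e12.1⟩
      rw [hc0, hc1] at c01
      rw [hc1, hc2] at c12
      have := tc_leaf_le hk0 hk c01
      have := tc_leaf_le hk hk2 c12
      omega
    · rw [h3r] at e31 e32
      have := A_pip.1 e31
      rw [A_pip.2 ⟨by omega, by omega⟩] at e32
      exact Bool.noConfusion e32
    · rw [h3r] at e33
      simp [A] at e33
    · rw [h3r] at e33
      simp [A] at e33
  · rw [h1] at e10 e11
    have := A_pip.1 e10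
    rw [A_pip.2 ⟨by omega, by omega⟩] at e11
    exact Bool.noConfusion e11
  · rw [h1] at e13
    simp [A] at e13
  · rw [h1] at e13
    simp [A] at e13

/-! ### Summary: the last column is a tree column or a ruler column -/

/-- The last column of a copy of `W` is a tree column or a ruler column. -/
theorem c3_cases {r : Fin 4 → Row D N} {c : Fin 4 → Col D N} (h : IsCopy W (A D N) r c) :
    (∃ k y q, c 3 = Col.tc k y q) ∨ (∃ j s i, c 3 = Col.uc j s i) := by
  rcases h3 : c 3 with i | ⟨k, y, q⟩ | i | i | i | ⟨j, s, i⟩ | i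
  · exact (not_km h i h3).elim
  · exact Or.inl ⟨k, y, q, rfl⟩
  · exact (not_gam h i h3).elim
  · exact (not_phi h i h3).elim
  · exact (not_kp h i h3).elim
  · exact Or.inr ⟨j, s, i, rfl⟩
  · exact (not_pad h i h3).elim

/-- The last row of a copy of `W` is a tree row or a ruler row. -/
theorem r3_cases {r : Fin 4 → Row D N} {c : Fin 4 → Col D N} (h : IsCopy W (A D N) r c) :
    (∃ j x p, r 3 = Row.tr j x p) ∨ (∃ k s i, r 3 = Row.vr k s i) := by
  obtain ⟨-, ⟨e10, -, -, -⟩, -, ⟨e30, e31, e32, e33⟩⟩ := copy_entries h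
  obtain ⟨c01, c12, c23⟩ := copy_cols h
  obtain ⟨r01, r12, r23⟩ := copy_rows h
  have t1 := Col.sec_le_of_lt c12
  have t2 := Col.sec_le_of_lt c23
  rcases h3 : r 3 with i | ⟨j, x, p⟩ | i | ⟨k, s, i⟩ | i
  · -- `pim`: then `r 1` is a `pim` row as well, with the same support
    have u1 := Row.sec_le_of_lt r01
    have u2 := Row.sec_le_of_lt (r12.trans r23)
    rw [h3] at u2
    simp only [rsec_pim] at u2
    rcases h1 : r 1 with i1 | ⟨j1, x1, p1⟩ | i1 | ⟨k1, s1, i1⟩ | i1 <;> rw [h1] at u2 <;>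
      simp [rsec_pim, rsec_tr, rsec_pip, rsec_vr, rsec_pad] at u2
    rw [h1] at e10
    rw [h3] at e30
    have := A_pim.1 e10
    rw [A_pim.2 this] at e30
    exact Bool.noConfusion e30
  · exact Or.inl ⟨j, x, p, rfl⟩
  · rw [h3] at e31 e32 e33
    have a := A_pip.1 e31
    have b := A_pip.1 e33
    rw [A_pip.2 ⟨by omega, by omega⟩] at e32
    exact Bool.noConfusion e32
  · exact Or.inr ⟨k, s, i, rfl⟩
  · rw [h3] at e31 e32 e33
    have a : (c 1).sec = 6 := by
      rcases hc : c 1 with i0 | ⟨k0, y0, q0⟩ | i0 | i0 | i0 | ⟨j0, s0, i0⟩ | i0 <;>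
        rw [hc] at e31 <;> simp [A] at e31
      rfl
    have b : (c 3).sec = 6 := by
      rcases hc : c 3 with i0 | ⟨k0, y0, q0⟩ | i0 | i0 | i0 | ⟨j0, s0, i0⟩ | i0 <;>
        rw [hc] at e33 <;> simp [A] at e33
      rfl
    have d : (c 2).sec = 6 := by omega
    rcases hc : c 2 with i0 | ⟨k0, y0, q0⟩ | i0 | i0 | i0 | ⟨j0, s0, i0⟩ | i0 <;>
      rw [hc] at d e32 <;>
      simp [A, csec_km, csec_tc, csec_gam, csec_phi, csec_kp, csec_uc, csec_pad] at d e32

end Crest.Agent.LibS0066W.SoundA
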