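import Mathlib
import Crest.Agent.Lib_S0066_WDefs

/-!
S0066, design v2: soundness of the core pattern `W` — common base for the case slices.

* `Snd.Cop D N r0 r1 r2 r3 c0 c1 c2 c3` : the flattened form of "`(r, c)` is a copy of `W` in
  `A D N`" (6 order facts + 16 entries), convenient for `cases` on the constructors.
* `Snd.Cop.of_isCopy` : from `IsCopy W (A D N) r c`.
* node arithmetic: `Snd.node_mono`, `Snd.node_child`, `Snd.node_leaf`.
-/

set_option autoImplicit false

namespace Crest.Agent.LibS0066W.Snd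

open Crest.Agent.Lib_S0066_Reduce

variable {D N : ℕ}

/-- Flattened copy of `W` in `A D N`: rows `r0 < r1 < r2 < r3` (`p, z, p'', ν`), columns
`c0 < c1 < c2 < c3` (`q, c, q'', μ`), entries `1110 / 1011 / 1110 / 0101`. -/
structure Cop (D N : ℕ) (r0 r1 r2 r3 : Row D N) (c0 c1 c2 c3 : Col D N) : Prop where
  r01 : r0 < r1
  r12 : r1 < r2
  r23 : r2 < r3
  c01 : c0 < c1
  c12 : c1 < c2
  c23 : c2 < c3
  e00 : A D N r0 c0 = true
  e01 : A D N r0 c1 = true
  e02 : A D N r0 c2 = true
  e03 : A D N r0 c3 = false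
  e10 : A D N r1 c0 = true
  e11 : A D N r1 c1 = false
  e12 : A D N r1 c2 = true
  e13 : A D N r1 c3 = true
  e20 : A D N r2 c0 = true
  e21 : A D N r2 c1 = true
  e22 : A D N r2 c2 = true
  e23 : A D N r2 c3 = false
  e30 : A D N r3 c0 = false
  e31 : A D N r3 c1 = true
  e32 : A D N r3 c2 = false
  e33 : A D N r3 c3 = true

theorem Cop.of_isCopy {r : Fin 4 → Row D N} {c : Fin 4 → Col D N}
    (h : IsCopy W (A D N) r c) : Cop D N (r 0) (r 1) (r 2) (r 3) (c 0) (c 1) (c 2) (c 3) := by
  obtain ⟨hr, hc, he⟩ := h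
  exact
    { r01 := hr (by decide)
      r12 := hr (by decide)
      r23 := hr (by decide)
      c01 := hc (by decide)
      c12 := hc (by decide)
      c23 := hc (by decide)
      e00 := he 0 0
      e01 := he 0 1
      e02 := he 0 2
      e03 := he 0 3
      e10 := he 1 0
      e11 := he 1 1
      e12 := he 1 2
      e13 := he 1 3
      e20 := he 2 0
      e21 := he 2 1
      e22 := he 2 2
      e23 := he 2 3
      e30 := he 3 0
      e31 := he 3 1
      e32 := he 3 2
      e33 := he 3 3 }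

/-- Same node at depth `k` implies same node at every depth `j ≤ k`. -/
theorem node_mono {D j k x y : ℕ} (hjk : j ≤ k)
    (h : x / 2 ^ (D - k) = y / 2 ^ (D - k)) : x / 2 ^ (D - j) = y / 2 ^ (D - j) := by
  have hpow : 2 ^ (D - j) = 2 ^ (D - k) * 2 ^ ((D - j) - (D - k)) := by
    rw [← pow_add]; congr 1; omega
  rw [hpow, ← Nat.div_div_eq_div_mul, ← Nat.div_div_eq_div_mul, h]

/-- Same leaf-node (depth `D`) means the same leaf. -/
theorem node_leaf {D x y : ℕ} (h : x / 2 ^ (D - D) = y / 2 ^ (D - D)) : x = y := by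
  simpa using h

/-- Same node at depth `j`, equal sides at depth `j + 1 ≤ D`: same node at depth `j + 1`. -/
theorem node_child {D j x y : ℕ} (hj : j + 1 ≤ D)
    (h : x / 2 ^ (D - j) = y / 2 ^ (D - j)) (hs : side D (j + 1) x = side D (j + 1) y) :
    x / 2 ^ (D - (j + 1)) = y / 2 ^ (D - (j + 1)) := by
  have hpow : 2 ^ (D - j) = 2 ^ (D - (j + 1)) * 2 := by
    rw [← pow_succ]; congr 1; omega
  rw [hpow, ← Nat.div_div_eq_div_mul, ← Nat.div_div_eq_div_mul] at h
  unfold side at hs
  generalize x / 2 ^ (D - (j + 1)) = a at h hs ⊢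
  generalize y / 2 ^ (D - (j + 1)) = b at h hs ⊢
  have : (a % 2 = 1) ↔ (b % 2 = 1) := by
    simpa using hs
  omega

end Crest.Agent.LibS0066W.Snd
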