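import Mathlib
import Crest.Agent.Lib_S0066_WSoundBase
import Crest.Agent.Lib_S0066_WOrder

/-!
S0066, design v2, soundness of `W`: slices `[gam]` and `[phi]` in `Cop` form
(the last column of a copy of `W` is neither a `gam` nor a `phi` column).
-/

set_option autoImplicit false
set_option linter.unusedSimpArgs false
set_option linter.unusedVariables false

namespace Crest.Agent.LibS0066W.Snd.GamPhi

variable {D N : ℕ}

/-! ### Section numbers of constructors -/

theorem csec_km (i : Fin N) : (Col.km i : Col D N).sec = 0 := rfl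
theorem csec_tc (k : Fin (D + 1)) (y : Fin (2 ^ D)) (q : Bool) :
    (Col.tc k y q : Col D N).sec = 1 := rfl
theorem csec_gam (i : Fin N) : (Col.gam i : Col D N).sec = 2 := rfl
theorem csec_phi (i : Fin N) : (Col.phi i : Col D N).sec = 3 := rfl
theorem csec_kp (i : Fin N) : (Col.kp i : Col D N).sec = 4 := rfl
theorem csec_uc (j : Fin (D + 1)) (s : Bool) (i : Fin N) : (Col.uc j s i : Col D N).sec = 5 := rfl
theorem csec_pad (i : Fin N) : (Col.pad i : Col D N).sec = 6 := rfl
theorem rsec_pim (i : Fin N) : (Row.pim i : Row D N).sec = 0 := rfl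
theorem rsec_tr (j : Fin (D + 1)) (x : Fin (2 ^ D)) (p : Bool) :
    (Row.tr j x p : Row D N).sec = 1 := rfl
theorem rsec_pip (i : Fin N) : (Row.pip i : Row D N).sec = 2 := rfl
theorem rsec_vr (k : Fin (D + 2)) (s : Bool) (i : Fin N) : (Row.vr k s i : Row D N).sec = 3 := rfl
theorem rsec_pad (i : Fin N) : (Row.pad i : Row D N).sec = 4 := rfl

theorem A_pim {i : Fin N} {c : Col D N} :
    A D N (Row.pim i) c = true ↔ 1 ≤ c.sec ∧ c.sec ≤ 3 := by
  cases c <;> simp [A, csec_km, csec_tc, csec_gam, csec_phi, csec_kp, csec_uc, csec_pad]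

theorem A_pip {i : Fin N} {c : Col D N} :
    A D N (Row.pip i) c = true ↔ 1 ≤ c.sec ∧ c.sec ≤ 3 := by
  cases c <;> simp [A, csec_km, csec_tc, csec_gam, csec_phi, csec_kp, csec_uc, csec_pad]

theorem col_sec_two {c : Col D N} (h : c.sec = 2) : ∃ i, c = Col.gam i := by
  cases c <;> simp [csec_km, csec_tc, csec_gam, csec_phi, csec_kp, csec_uc, csec_pad] at h
  exact ⟨_, rfl⟩

/-! ### Slice `[gam]` -/

theorem c3_gam {r0 r1 r2 r3 : Row D N} {c0 c1 c2 : Col D N} {i : Fin N}
    (h : Cop D N r0 r1 r2 r3 c0 c1 c2 (.gam i)) : False := by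
  have e10 := h.e10
  have e11 := h.e11
  have e13 := h.e13
  have t0 := Col.sec_le_of_lt h.c01
  have t1 := Col.sec_le_of_lt h.c12
  have t2 : c2.sec ≤ 2 := Col.sec_le_of_lt h.c23
  rcases r1 with i1 | ⟨j, x, p⟩ | i1 | ⟨k, s, i1⟩ | i1
  · have := A_pim.1 e10
    rw [A_pim.2 ⟨by omega, by omega⟩] at e11
    exact Bool.noConfusion e11
  · simp [A] at e13
  · have := A_pip.1 e10
    rw [A_pip.2 ⟨by omega, by omega⟩] at e11
    exact Bool.noConfusion e11
  · have hk : (k : ℕ) = D + 1 := by simpa [A] using e13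
    have hc0 : c0.sec = 2 := by
      rcases c0 with i0 | ⟨k0, y0, p0⟩ | i0 | i0 | i0 | ⟨j0, s0, i0⟩ | i0 <;>
        simp [A, csec_km, csec_tc, csec_gam, csec_phi, csec_kp, csec_uc, csec_pad] at e10 t0 ⊢
      · have := k0.2
        omega
      · omega
    obtain ⟨i1', hc1⟩ := col_sec_two (c := c1) (by omega)
    rw [hc1] at e11
    simp [A, hk] at e11
  · simp [A] at e13

/-! ### Slice `[phi]` -/

/-- Order of two leaf columns: the leaves are weakly increasing. -/
theorem tc_leaf_le {k k' : Fin (D + 1)} {y y' : Fin (2 ^ D)} {q q' : Bool}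
    (hk : (k : ℕ) = D) (hk' : (k' : ℕ) = D)
    (h : (Col.tc k y q : Col D N) < Col.tc k' y' q') : (y : ℕ) ≤ y' := by
  rw [Col.tc_lt_tc] at h
  unfold treeKey at h
  cases q <;> cases q' <;>
    simp [mkKey_lt, firstLeaf, lastLeaf, hk, hk'] at h <;> omega

theorem c3_phi {r0 r1 r2 r3 : Row D N} {c0 c1 c2 : Col D N} {i : Fin N}
    (h : Cop D N r0 r1 r2 r3 c0 c1 c2 (.phi i)) : False := by
  have e10 := h.e10
  have e11 := h.e11
  have e12 := h.e12
  have e13 := h.e13
  have e30 := h.e30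
  have e31 := h.e31
  have e32 := h.e32
  have e33 := h.e33
  have c01 := h.c01
  have c12 := h.c12
  have t0 := Col.sec_le_of_lt h.c01
  have t1 := Col.sec_le_of_lt h.c12
  have t2 : c2.sec ≤ 3 := Col.sec_le_of_lt h.c23
  have u13 := Row.sec_le_of_lt (h.r12.trans h.r23)
  rcases r1 with i1 | ⟨j1, x1, p1⟩ | i1 | ⟨k1, s1, i1⟩ | i1
  · have := A_pim.1 e10
    rw [A_pim.2 ⟨by omega, by omega⟩] at e11
    exact Bool.noConfusion e11
  · have hj1 : (j1 : ℕ) = D := by simpa [A] using e13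
    rcases r3 with i3 | ⟨j3, x3, p3⟩ | i3 | ⟨k3, s3, i3⟩ | i3
    · simp [rsec_pim, rsec_tr, rsec_pip, rsec_vr, rsec_pad] at u13
    · have hj3 : (j3 : ℕ) = D := by simpa [A] using e33
      -- the column `c1`
      obtain ⟨k, y, q, hc1, hk, hy3, hy1⟩ : ∃ k y q, c1 = Col.tc k y q ∧ (k : ℕ) = D ∧
          (x3 : ℕ) = y ∧ (x1 : ℕ) ≠ y := by
        rcases c1 with i0 | ⟨k, y, q⟩ | i0 | i0 | i0 | ⟨j0, s0, i0⟩ | i0 <;>
          simp [A, csec_km, csec_tc, csec_gam, csec_phi, csec_kp, csec_uc, csec_pad, hj1, hj3]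
            at e11 e31 t1
        · have := k.2
          refine ⟨k, y, q, rfl, by omega, e31.1, ?_⟩
          intro hxy
          have := e11 hxy
          omega
        · omega
      subst hc1
      -- the column `c0`
      obtain ⟨k0, y0, q0, hc0, hk0, hy0⟩ : ∃ k y q, c0 = Col.tc k y q ∧ (k : ℕ) = D ∧
          (x1 : ℕ) = y := by
        rcases c0 with i0 | ⟨k0, y0, q0⟩ | i0 | i0 | i0 | ⟨j0, s0, i0⟩ | i0 <;>
          simp [A, csec_km, csec_tc, csec_gam, csec_phi, csec_kp, csec_uc, csec_pad, hj1, hj3]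
            at e10 e30 t0
        have := k0.2
        exact ⟨k0, y0, q0, rfl, by omega, e10.1⟩
      subst hc0
      -- the column `c2`
      obtain ⟨k2, y2, q2, hc2, hk2, hy2⟩ : ∃ k y q, c2 = Col.tc k y q ∧ (k : ℕ) = D ∧
          (x1 : ℕ) = y := by
        rcases c2 with i0 | ⟨k2, y2, q2⟩ | i0 | i0 | i0 | ⟨j0, s0, i0⟩ | i0 <;>
          simp [A, csec_km, csec_tc, csec_gam, csec_phi, csec_kp, csec_uc, csec_pad, hj1, hj3]
            at e12 e32 t1 t2
        have := k2.2
        exact ⟨k2, y2, q2, rfl, by omega, e12.1⟩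
      subst hc2
      have := tc_leaf_le hk0 hk c01
      have := tc_leaf_le hk hk2 c12
      omega
    · have := A_pip.1 e31
      rw [A_pip.2 ⟨by omega, by omega⟩] at e32
      exact Bool.noConfusion e32
    · simp [A] at e33
    · simp [A] at e33
  · have := A_pip.1 e10
    rw [A_pip.2 ⟨by omega, by omega⟩] at e11
    exact Bool.noConfusion e11
  · simp [A] at e13
  · simp [A] at e13

end Crest.Agent.LibS0066W.Snd.GamPhi
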