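import Mathlib
import Crest.Agent.Lib_S0066_WSoundBase
import Crest.Agent.Lib_S0066_WOrder

/-!
S0066, design v2, soundness of `W` (package P3), slice `[tc]` (+ the trivial slices
`[pad]`, `[km]`, `[kp]`): a copy of `W` in `A D N` cannot have its last column `c3` in the
sections `tc`, `pad`, `km`, `kp`.
-/

set_option autoImplicit false
set_option linter.unusedSimpArgs false
set_option linter.unusedVariables false
set_option linter.unreachableTactic false
set_option linter.unusedTactic false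
set_option linter.unnecessarySeqFocus false

namespace Crest.Agent.LibS0066W.Snd.Tc

variable {D N : ℕ}

@[simp] theorem rsec_pim (i : Fin N) : (Row.pim i : Row D N).sec = 0 := rfl
@[simp] theorem rsec_tr (j : Fin (D + 1)) (x : Fin (2 ^ D)) (p : Bool) :
    (Row.tr j x p : Row D N).sec = 1 := rfl
@[simp] theorem rsec_pip (i : Fin N) : (Row.pip i : Row D N).sec = 2 := rfl
@[simp] theorem rsec_vr (k : Fin (D + 2)) (s : Bool) (i : Fin N) :
    (Row.vr k s i : Row D N).sec = 3 := rfl
@[simp] theorem rsec_pad (i : Fin N) : (Row.pad i : Row D N).sec = 4 := rfl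
@[simp] theorem csec_km (i : Fin N) : (Col.km i : Col D N).sec = 0 := rfl
@[simp] theorem csec_tc (j : Fin (D + 1)) (x : Fin (2 ^ D)) (p : Bool) :
    (Col.tc j x p : Col D N).sec = 1 := rfl
@[simp] theorem csec_gam (i : Fin N) : (Col.gam i : Col D N).sec = 2 := rfl
@[simp] theorem csec_phi (i : Fin N) : (Col.phi i : Col D N).sec = 3 := rfl
@[simp] theorem csec_kp (i : Fin N) : (Col.kp i : Col D N).sec = 4 := rfl
@[simp] theorem csec_uc (k : Fin (D + 1)) (s : Bool) (i : Fin N) :
    (Col.uc k s i : Col D N).sec = 5 := rfl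
@[simp] theorem csec_pad (i : Fin N) : (Col.pad i : Col D N).sec = 6 := rfl

/-- Case (i) of `[tc]`: `r1`, `r3` tree rows, all four columns tree columns. -/
theorem tc_tr_tr {j1 j3 k0 k1 k2 k3 : Fin (D + 1)} {x1 x3 y0 y1 y2 y3 : Fin (2 ^ D)}
    {p1 p3 q0 q1 q2 q3 : Bool}
    (c01 : (Col.tc k0 y0 q0 : Col D N) < Col.tc k1 y1 q1)
    (c12 : (Col.tc k1 y1 q1 : Col D N) < Col.tc k2 y2 q2)
    (c23 : (Col.tc k2 y2 q2 : Col D N) < Col.tc k3 y3 q3)
    (e10 : A D N (.tr j1 x1 p1) (.tc k0 y0 q0) = true)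
    (e11 : A D N (.tr j1 x1 p1) (.tc k1 y1 q1) = false)
    (e12 : A D N (.tr j1 x1 p1) (.tc k2 y2 q2) = true)
    (e13 : A D N (.tr j1 x1 p1) (.tc k3 y3 q3) = true)
    (e30 : A D N (.tr j3 x3 p3) (.tc k0 y0 q0) = false)
    (e31 : A D N (.tr j3 x3 p3) (.tc k1 y1 q1) = true)
    (e32 : A D N (.tr j3 x3 p3) (.tc k2 y2 q2) = false)
    (e33 : A D N (.tr j3 x3 p3) (.tc k3 y3 q3) = true) : False := by
  simp only [A, decide_eq_true_eq, decide_eq_false_iff_not] at e10 e11 e12 e13 e30 e31 e32 e33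
  have hj1 := j1.2
  have hj3 := j3.2
  rcases Nat.lt_trichotomy (j1 : ℕ) (j3 : ℕ) with hlt | heq | hgt
  · -- j3 = j1 + 1
    have hj : (j3 : ℕ) = j1 + 1 := by omega
    have m33 := node_mono (D := D) (j := j1) (k := j3) (by omega) e33.1
    have m31 := node_mono (D := D) (j := j1) (k := j3) (by omega) e31.1
    have hk1 : (k1 : ℕ) = j3 + 1 := by omega
    have hb := Col.between (j := j3) (u := (x3 : ℕ) / 2 ^ (D - (j3 : ℕ))) (by omega) c12 c23
      (by omega) (by omega) e31.1.symm e33.1.symm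
    omega
  · have m33 := node_mono (D := D) (j := j1) (k := j3) (by omega) e33.1
    have m31 := node_mono (D := D) (j := j1) (k := j3) (by omega) e31.1
    omega
  · -- j1 = j3 + 1
    have hj : (j1 : ℕ) = j3 + 1 := by omega
    have m13 := node_mono (D := D) (j := j3) (k := j1) (by omega) e13.1
    have m10 := node_mono (D := D) (j := j3) (k := j1) (by omega) e10.1
    have m12 := node_mono (D := D) (j := j3) (k := j1) (by omega) e12.1
    have hk0 : (k0 : ℕ) = j1 + 1 := by omega
    have hk2 : (k2 : ℕ) = j1 + 1 := by omega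
    have hb := Col.between (j := j1) (u := (x1 : ℕ) / 2 ^ (D - (j1 : ℕ))) (by omega) c01 c12
      (by omega) (by omega) e10.1.symm e12.1.symm
    omega

/-- Case (ii) of `[tc]`: `r1`, `r2` tree rows, `r3` a ruler row, `c1 c2 c3` tree columns. -/
theorem tc_tr_vr {j1 j2 k1 k2 k3 : Fin (D + 1)} {x1 x2 y1 y2 y3 : Fin (2 ^ D)}
    {p1 p2 q1 q2 q3 : Bool} {k : Fin (D + 2)} {s : Bool} {i : Fin N}
    (e11 : A D N (.tr j1 x1 p1) (.tc k1 y1 q1) = false)
    (e12 : A D N (.tr j1 x1 p1) (.tc k2 y2 q2) = true)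
    (e13 : A D N (.tr j1 x1 p1) (.tc k3 y3 q3) = true)
    (e21 : A D N (.tr j2 x2 p2) (.tc k1 y1 q1) = true)
    (e22 : A D N (.tr j2 x2 p2) (.tc k2 y2 q2) = true)
    (e23 : A D N (.tr j2 x2 p2) (.tc k3 y3 q3) = false)
    (e31 : A D N (.vr k s i) (.tc k1 y1 q1) = true)
    (e33 : A D N (.vr k s i) (.tc k3 y3 q3) = true) : False := by
  simp only [A, decide_eq_true_eq, decide_eq_false_iff_not] at e11 e12 e13 e21 e22 e23 e31 e33
  have hj1 := j1.2
  have hj2 := j2.2
  rcases Nat.lt_or_ge (j2 : ℕ) (j1 : ℕ) with hlt | hge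
  · have m13 := node_mono (D := D) (j := j2) (k := j1) (by omega) e13.1
    have m12 := node_mono (D := D) (j := j2) (k := j1) (by omega) e12.1
    omega
  · have m21 := node_mono (D := D) (j := j1) (k := j2) (by omega) e21.1
    have m22 := node_mono (D := D) (j := j1) (k := j2) (by omega) e22.1
    omega

theorem c3_tc {r0 r1 r2 r3 : Row D N} {c0 c1 c2 : Col D N} {k3 : Fin (D + 1)} {y3 : Fin (2 ^ D)}
    {q3 : Bool} (h : Cop D N r0 r1 r2 r3 c0 c1 c2 (.tc k3 y3 q3)) : False := by
  obtain ⟨r01, r12, r23, c01, c12, c23, e00, e01, e02, e03, e10, e11, e12, e13, e20, e21, e22,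
    e23, e30, e31, e32, e33⟩ := h
  have sr01 := Row.sec_le_of_lt r01
  have sr12 := Row.sec_le_of_lt r12
  have sr23 := Row.sec_le_of_lt r23
  have sc01 := Col.sec_le_of_lt c01
  have sc12 := Col.sec_le_of_lt c12
  have sc23 := Col.sec_le_of_lt c23
  rw [csec_tc] at sc23
  cases r1 <;> simp only [A, Bool.false_eq_true] at e13
  · -- r1 = pim
    cases c0 <;> simp [A] at e10 sc01 <;> try omega
    cases c1 <;> simp [A] at e11 sc01 sc12 <;> omega
  · -- r1 = tr
    rename_i j1 x1 p1
    cases r3 <;> simp only [A, Bool.false_eq_true] at e33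
    · -- r3 = pim
      cases c1 <;> simp [A] at e31 sc12 <;> try omega
      cases c2 <;> simp [A] at e32 sc12 sc23 <;> omega
    · -- r3 = tr : case (i)
      rename_i j3 x3 p3
      cases c0 <;> simp only [A, Bool.true_eq_false] at e30 <;> simp at sc01 <;> try omega
      cases c1 <;> simp only [A, Bool.true_eq_false] at e11 <;> simp at sc01 sc12 <;> try omega
      cases c2 <;> simp only [A, Bool.true_eq_false] at e32 <;> simp at sc12 sc23 <;> try omega
      exact tc_tr_tr c01 c12 c23 e10 e11 e12 e13 e30 e31 e32 e33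
    · -- r3 = pip
      cases c1 <;> simp [A] at e31 sc12 <;> try omega
      cases c2 <;> simp [A] at e32 sc12 sc23 <;> omega
    · -- r3 = vr : case (ii)
      rename_i k s i
      cases c1 <;> simp only [A, Bool.false_eq_true] at e31 <;> simp at sc12 <;> try omega
      cases c2 <;> simp at sc12 sc23 <;> try omega
      cases r2 <;> simp at sr12 sr23 <;> try omega
      · -- r2 = tr
        exact tc_tr_vr (i := i) e11 e12 e13 e21 e22 e23 e31 e33
      · -- r2 = pip
        simp [A] at e23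
      · -- r2 = vr
        simp [A] at e21 e23 e31 e33
        exact e23 (by omega) (e21.2.trans (e31.2.symm.trans e33.2))
  · -- r1 = pip
    cases c0 <;> simp [A] at e10 sc01 <;> try omega
    cases c1 <;> simp [A] at e11 sc01 sc12 <;> omega
  · -- r1 = vr
    rename_i k s i
    simp [rsec_vr] at sr12
    cases r3 <;> simp [A] at e33 sr23 sr12 <;> try omega
    rename_i k' s' i'
    simp [A] at e13
    have hk : k = k' := Fin.ext (by omega)
    have hs : s = s' := e13.2.trans e33.2.symm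
    subst hk hs
    have hcongr : A D N (Row.vr k s i) c0 = A D N (Row.vr k s i') c0 := by cases c0 <;> rfl
    rw [hcongr, e30] at e10
    exact absurd e10 (by simp)

theorem c3_pad {r0 r1 r2 r3 : Row D N} {c0 c1 c2 : Col D N} {i : Fin N}
    (h : Cop D N r0 r1 r2 r3 c0 c1 c2 (.pad i)) : False := by
  have s12 := Row.sec_le_of_lt h.r12
  have s23 := Row.sec_le_of_lt h.r23
  have e13 := h.e13
  have e23 := h.e23
  have e33 := h.e33
  cases r1 <;> simp [A] at e13
  cases r3 <;> simp [A] at e33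
  cases r2 <;> simp [A] at e23 s12 s23

theorem c3_km {r0 r1 r2 r3 : Row D N} {c0 c1 c2 : Col D N} {i : Fin N}
    (h : Cop D N r0 r1 r2 r3 c0 c1 c2 (.km i)) : False := by
  have s12 := Row.sec_le_of_lt h.r12
  have s23 := Row.sec_le_of_lt h.r23
  have e13 := h.e13
  have e23 := h.e23
  have e33 := h.e33
  cases r1 <;> simp [A] at e13
  cases r3 <;> simp [A] at e33
  cases r2 <;> simp [A] at e23 s12 s23

theorem c3_kp {r0 r1 r2 r3 : Row D N} {c0 c1 c2 : Col D N} {i : Fin N}
    (h : Cop D N r0 r1 r2 r3 c0 c1 c2 (.kp i)) : False := by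
  have s12 := Row.sec_le_of_lt h.r12
  have s23 := Row.sec_le_of_lt h.r23
  have e13 := h.e13
  have e23 := h.e23
  have e33 := h.e33
  cases r1 <;> simp [A] at e13
  cases r3 <;> simp [A] at e33
  cases r2 <;> simp [A] at e23 s12 s23

end Crest.Agent.LibS0066W.Snd.Tc
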