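import Mathlib
import Crest.Agent.Lib_S0066_WSoundBase
import Crest.Agent.Lib_S0066_WOrder

/-!
S0066, design v2, soundness of `W`: slices `[uc-a]` (`c3` a ruler column, `r3` a tree row) and
`[uc-b1]` (`c3` a ruler column, `r1` and `r3` ruler rows), in `Cop` form.
-/

set_option autoImplicit false
set_option linter.unusedSimpArgs false
set_option linter.unusedVariables false

namespace Crest.Agent.LibS0066W.Snd.UcA6

variable {D N : ℕ}

/-! ### Section numbers of constructors -/

theorem csec_km (i : Fin N) : (Col.km i : Col D N).sec = 0 := rfl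
theorem csec_tc (k : Fin (D + 1)) (y : Fin (2 ^ D)) (q : Bool) :
    (Col.tc k y q : Col D N).sec = 1 := rfl
theorem csec_gam (i : Fin N) : (Col.gam i : Col D N).sec = 2 := rfl
theorem csec_phi (i : Fin N) : (Col.phi i : Col D N).sec = 3 := rfl
theorem csec_kp (i : Fin N) : (Col.kp i : Col D N).sec = 4 := rfl
theorem csec_uc (j : Fin (D + 1)) (s : Bool) (i : Fin N) : (Col.uc j s i : Col D N).sec = 5 := rfl
theorem csec_pad (i : Fin N) : (Col.pad i : Col D N).sec = 6 := rfl
theorem rsec_pim (i : Fin N) : (Row.pim i : Row D N).sec = 0 := rfl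
theorem rsec_tr (j : Fin (D + 1)) (x : Fin (2 ^ D)) (p : Bool) :
    (Row.tr j x p : Row D N).sec = 1 := rfl
theorem rsec_pip (i : Fin N) : (Row.pip i : Row D N).sec = 2 := rfl
theorem rsec_vr (k : Fin (D + 2)) (s : Bool) (i : Fin N) : (Row.vr k s i : Row D N).sec = 3 := rfl
theorem rsec_pad (i : Fin N) : (Row.pad i : Row D N).sec = 4 := rfl

/-! ### Slice `[uc-a]` -/

/-- A column seen by the tree row `tr j3 x3` but not by the tree row `tr j1 x1` of the same depth
and side is a tree column below the node of `x3` and not below the node of `x1`. -/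
theorem col_of_seen_not_seen {j1 j3 : Fin (D + 1)} {x1 x3 : Fin (2 ^ D)} {p1 p3 : Bool}
    (hj : (j1 : ℕ) = j3) (hs : side D j1 x1 = side D j3 x3) {c : Col D N}
    (h3 : A D N (.tr j3 x3 p3) c = true) (h1 : A D N (.tr j1 x1 p1) c = false) :
    ∃ k y q, c = Col.tc k y q ∧ (j3 : ℕ) ≤ k ∧
      (y : ℕ) / 2 ^ (D - j3) = (x3 : ℕ) / 2 ^ (D - j3) ∧
      (y : ℕ) / 2 ^ (D - j3) ≠ (x1 : ℕ) / 2 ^ (D - j3) := by
  rcases c with i0 | ⟨k, y, q⟩ | i0 | i0 | i0 | ⟨j0, s0, i0⟩ | i0
  · simp [A] at h1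
  · simp only [A, decide_eq_true_eq, decide_eq_false_iff_not] at h3 h1
    rw [hj] at h1
    refine ⟨k, y, q, rfl, by omega, h3.1.symm, ?_⟩
    intro hxy
    exact h1 ⟨hxy.symm, h3.2⟩
  · simp [A] at h3
  · simp only [A, decide_eq_true_eq, decide_eq_false_iff_not] at h3 h1
    omega
  · simp [A] at h1
  · simp only [A, decide_eq_true_eq, decide_eq_false_iff_not] at h3 h1
    rw [hj] at hs h1
    rw [hs] at h1
    exact (h1 h3).elim
  · simp [A] at h3

theorem c3_uc_tr {r0 r1 r2 : Row D N} {c0 c1 c2 : Col D N} {j3 : Fin (D + 1)} {x3 : Fin (2 ^ D)}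
    {p3 : Bool} {j : Fin (D + 1)} {s : Bool} {i : Fin N}
    (h : Cop D N r0 r1 r2 (.tr j3 x3 p3) c0 c1 c2 (.uc j s i)) : False := by
  have e10 := h.e10
  have e11 := h.e11
  have e12 := h.e12
  have e13 := h.e13
  have e30 := h.e30
  have e31 := h.e31
  have e32 := h.e32
  have e33 := h.e33
  have c01 := h.c01
  have c12 := h.c12
  have u13 := Row.sec_le_of_lt (h.r12.trans h.r23)
  simp only [A, decide_eq_true_eq] at e33
  rcases r1 with i1 | ⟨j1, x1, p1⟩ | i1 | ⟨k1, s1, i1⟩ | i1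
  · simp [A] at e13
  · simp only [A, decide_eq_true_eq] at e13
    have hj : (j1 : ℕ) = j3 := by omega
    have hs : side D j1 x1 = side D j3 x3 := by rw [← e13.2, ← e33.2]
    obtain ⟨k, y, q, rfl, hk, hy3, hy1⟩ := col_of_seen_not_seen hj hs e31 e11
    obtain ⟨k0, y0, q0, rfl, hk0, hy0, -⟩ := col_of_seen_not_seen hj.symm hs.symm e10 e30
    obtain ⟨k2, y2, q2, rfl, hk2, hy2, -⟩ := col_of_seen_not_seen hj.symm hs.symm e12 e32
    have hD : (j1 : ℕ) ≤ D := by have := j1.2; omega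
    have := (Col.between hD c01 c12 hk0 hk2 hy0 hy2).2
    rw [hj] at this
    exact hy1 this
  · simp [A] at e13
  · simp [rsec_pim, rsec_tr, rsec_pip, rsec_vr, rsec_pad] at u13
  · simp [A] at e13

/-! ### Slice `[uc-b1]` -/

theorem c3_uc_vr_vr {r0 r2 : Row D N} {c0 c1 c2 : Col D N} {k1 k3 : Fin (D + 2)} {s1 s3 : Bool}
    {i1 i3 : Fin N} {j : Fin (D + 1)} {s : Bool} {i : Fin N}
    (h : Cop D N r0 (.vr k1 s1 i1) r2 (.vr k3 s3 i3) c0 c1 c2 (.uc j s i)) : False := by
  have e11 := h.e11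
  have e12 := h.e12
  have e13 := h.e13
  have e21 := h.e21
  have e23 := h.e23
  have e31 := h.e31
  have e32 := h.e32
  have e33 := h.e33
  have c12 := h.c12
  have c23 := h.c23
  have r13 := h.r12.trans h.r23
  have u12 := Row.sec_le_of_lt h.r12
  have u23 := Row.sec_le_of_lt h.r23
  have t12 := Col.sec_le_of_lt h.c12
  have t23 := Col.sec_le_of_lt h.c23
  have hj := j.2
  rcases r2 with i2 | ⟨j2, x2, p2⟩ | i2 | ⟨k2, s2, i2⟩ | i2 <;>
    simp only [rsec_pim, rsec_tr, rsec_pip, rsec_vr, rsec_pad] at u12 u23 <;> try omega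
  rcases c1 with i0 | ⟨k', y, q⟩ | i0 | i0 | i0 | ⟨j1, t1, i1'⟩ | i0
  · simp [A] at e31
  · simp only [A, decide_eq_true_eq, decide_eq_false_iff_not] at e31 e21 e23 e33
    have hk : (k2 : ℕ) = k3 := by omega
    have hs : s2 = s3 := by rw [e21.2, e31.2]
    rw [hk, hs] at e23
    exact e23 e33
  · simp only [A, decide_eq_true_eq, decide_eq_false_iff_not] at e31 e21 e23 e33
    omega
  · simp [A] at e31
  · simp [A] at e31
  · rcases c2 with i0 | ⟨k', y, q⟩ | i0 | i0 | i0 | ⟨j2, t2, i2'⟩ | i0 <;>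
      simp only [csec_km, csec_tc, csec_gam, csec_phi, csec_kp, csec_uc, csec_pad] at t12 t23 <;>
      try omega
    rw [Col.uc_lt_uc] at c12 c23
    rw [Row.vr_lt_vr] at r13
    simp only [A, decide_eq_true_eq, decide_eq_false_iff_not] at e31 e32 e33 e12 e13 e11
    cases s <;> cases s1 <;> cases s3 <;> cases t1 <;> cases t2 <;>
      simp only [Bool.toNat_false, Bool.toNat_true, Bool.false_eq_true, Bool.true_eq_false,
        and_false, and_true, false_or, or_false, false_and, true_and, lt_self_iff_false,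
        Nat.lt_irrefl, not_false_eq_true, not_true_eq_false, zero_lt_one, Nat.not_lt_zero,
        one_ne_zero, zero_ne_one, or_true, true_or] at c12 c23 r13 e31 e32 e33 e12 e13 e11 <;>
      omega
  · simp [A] at e31

end Crest.Agent.LibS0066W.Snd.UcA6
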