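import Mathlib
import Crest.Agent.Lib_S0066_WSoundBase
import Crest.Agent.Lib_S0066_WOrder

/-!
S0066, design v2, soundness of `W` (package P3), slice `[uc-b2]`, the two short sub-branches:
last column `c3 = uc`, `r1 = tr`, `r3 = vr`, and `c1 = uc` (impossible) or `c1 = gam`
(the genuine copies: thin pair `(r1, c0)`).
-/

set_option autoImplicit false
set_option linter.unusedSimpArgs false
set_option linter.unusedVariables false
set_option linter.unreachableTactic false
set_option linter.unusedTactic false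
set_option linter.unnecessarySeqFocus false

namespace Crest.Agent.LibS0066W.Snd.UcB2Short

variable {D N : ℕ}

@[simp] theorem rsec_pim (i : Fin N) : (Row.pim i : Row D N).sec = 0 := rfl
@[simp] theorem rsec_tr (j : Fin (D + 1)) (x : Fin (2 ^ D)) (p : Bool) :
    (Row.tr j x p : Row D N).sec = 1 := rfl
@[simp] theorem rsec_pip (i : Fin N) : (Row.pip i : Row D N).sec = 2 := rfl
@[simp] theorem rsec_vr (k : Fin (D + 2)) (s : Bool) (i : Fin N) :
    (Row.vr k s i : Row D N).sec = 3 := rfl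
@[simp] theorem rsec_pad (i : Fin N) : (Row.pad i : Row D N).sec = 4 := rfl
@[simp] theorem csec_km (i : Fin N) : (Col.km i : Col D N).sec = 0 := rfl
@[simp] theorem csec_tc (j : Fin (D + 1)) (x : Fin (2 ^ D)) (p : Bool) :
    (Col.tc j x p : Col D N).sec = 1 := rfl
@[simp] theorem csec_gam (i : Fin N) : (Col.gam i : Col D N).sec = 2 := rfl
@[simp] theorem csec_phi (i : Fin N) : (Col.phi i : Col D N).sec = 3 := rfl
@[simp] theorem csec_kp (i : Fin N) : (Col.kp i : Col D N).sec = 4 := rfl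
@[simp] theorem csec_uc (k : Fin (D + 1)) (s : Bool) (i : Fin N) :
    (Col.uc k s i : Col D N).sec = 5 := rfl
@[simp] theorem csec_pad (i : Fin N) : (Col.pad i : Col D N).sec = 6 := rfl

/-- `[uc-b2]`, `c1 = uc`: impossible. -/
theorem uc_b2_uc {r0 r2 : Row D N} {c0 c2 : Col D N} {j1 j' j : Fin (D + 1)} {x1 : Fin (2 ^ D)}
    {p1 s3 s' s : Bool} {k3 : Fin (D + 2)} {i3 i' i : Fin N}
    (h : Cop D N r0 (.tr j1 x1 p1) r2 (.vr k3 s3 i3) c0 (.uc j' s' i') c2 (.uc j s i)) :
    False := by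
  obtain ⟨r01, r12, r23, c01, c12, c23, e00, e01, e02, e03, e10, e11, e12, e13, e20, e21, e22,
    e23, e30, e31, e32, e33⟩ := h
  have sc12 := Col.sec_le_of_lt c12
  have sc23 := Col.sec_le_of_lt c23
  cases c2 <;> simp at sc12 sc23
  rename_i j2 s2 i2
  simp only [A, decide_eq_true_eq, decide_eq_false_iff_not] at e12 e13 e32 e33
  obtain ⟨h2, hs2⟩ := e12
  obtain ⟨h3, hs3⟩ := e13
  have hs : s2 = s := hs2.trans hs3.symm
  subst hs
  rcases e33 with ⟨h4, h5⟩ | h4
  · exact e32 (Or.inl ⟨by omega, h5⟩)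
  · exact e32 (Or.inr (by omega))

/-- `[uc-b2]`, `c1 = gam`: the genuine copies; `r1` is a leaf row and `c0` a leaf column of the
same leaf. -/
theorem uc_b2_gam {r0 r2 : Row D N} {c0 c2 : Col D N} {j1 j : Fin (D + 1)} {x1 : Fin (2 ^ D)}
    {p1 s3 s : Bool} {k3 : Fin (D + 2)} {i3 i' i : Fin N}
    (h : Cop D N r0 (.tr j1 x1 p1) r2 (.vr k3 s3 i3) c0 (.gam i') c2 (.uc j s i)) :
    j1 = Fin.last D ∧ ∃ p', c0 = Col.tc (Fin.last D) x1 p' := by
  obtain ⟨r01, r12, r23, c01, c12, c23, e00, e01, e02, e03, e10, e11, e12, e13, e20, e21, e22,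
    e23, e30, e31, e32, e33⟩ := h
  have sc01 := Col.sec_le_of_lt c01
  have sr01 := Row.sec_le_of_lt r01
  simp only [A, decide_eq_true_eq] at e31 e33 e13
  have hj := j.2
  have hj1 : (j1 : ℕ) = D := by omega
  cases c0 <;> simp [A] at e10 sc01
  · -- c0 = km : r0 sees km and gam, impossible
    cases r0 <;> simp [A] at e00 e01
  · -- c0 = tc
    rename_i k0 y0 q0
    have hk0 := k0.2
    have hk : k0 = Fin.last D := Fin.ext (by simp only [Fin.val_last]; omega)
    have hx : x1 = y0 := by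
      have h1 := e10.1
      rw [hj1] at h1
      exact Fin.ext (node_leaf h1)
    refine ⟨Fin.ext (by simp only [Fin.val_last]; omega), q0, ?_⟩
    rw [hk, hx]

end Crest.Agent.LibS0066W.Snd.UcB2Short
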