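import Mathlib
import Crest.Agent.Lib_S0066_WSoundBase
import Crest.Agent.Lib_S0066_WOrder
import Crest.Agent.Lib_S0066_WSound_Tc
import Crest.Agent.Lib_S0066_WSound_GamPhi
import Crest.Agent.Lib_S0066_WSound_UcA6
import Crest.Agent.Lib_S0066_WSound_UcB2Short

/-!
S0066, design v2, soundness of `W` (package P3): the glue.

Every copy of `W` in `A D N` has `r 1 = tr (last D) x _` and `c 0 = tc (last D) x _` for the same
leaf `x`, *given* the one remaining slice `[uc-b2], c1 = tc` (`B2Tc D N`), which is proved in a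
separate file.  The final `W_sound` is `W_sound_of` applied to that slice.
-/

set_option autoImplicit false

namespace Crest.Agent.LibS0066W.Snd.Glue

open Crest.Agent.Lib_S0066_Reduce

variable {D N : ℕ}

/-- The statement of the slice `[uc-b2], c1 = tc`. -/
def B2Tc (D N : ℕ) : Prop :=
  ∀ (r0 r2 : Row D N) (c0 c2 : Col D N) (j1 k1 j : Fin (D + 1)) (x1 y1 : Fin (2 ^ D))
    (p1 q1 s3 s : Bool) (k3 : Fin (D + 2)) (i3 i : Fin N),
    Cop D N r0 (.tr j1 x1 p1) r2 (.vr k3 s3 i3) c0 (.tc k1 y1 q1) c2 (.uc j s i) →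
      j1 = Fin.last D ∧ ∃ p', c0 = Col.tc (Fin.last D) x1 p'

/-- The slice `[uc-b2]` (last column `uc`, `r1 = tr`, `r3 = vr`) from its three sub-branches. -/
theorem c3_uc_tr_vr_of (hb : B2Tc D N) {r0 r2 : Row D N} {c0 c1 c2 : Col D N}
    {j1 : Fin (D + 1)} {x1 : Fin (2 ^ D)} {p1 : Bool} {k3 : Fin (D + 2)} {s3 : Bool} {i3 : Fin N}
    {j : Fin (D + 1)} {s : Bool} {i : Fin N}
    (h : Cop D N r0 (.tr j1 x1 p1) r2 (.vr k3 s3 i3) c0 c1 c2 (.uc j s i)) :
    j1 = Fin.last D ∧ ∃ p', c0 = Col.tc (Fin.last D) x1 p' := by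
  have e31 := h.e31
  cases c1 with
  | km i' => simp [A] at e31
  | tc k1 y1 q1 => exact hb _ _ _ _ _ _ _ _ _ _ _ _ _ _ _ _ h
  | gam i' => exact UcB2Short.uc_b2_gam h
  | phi i' => simp [A] at e31
  | kp i' => simp [A] at e31
  | uc j' s' i' => exact (UcB2Short.uc_b2_uc h).elim
  | pad i' => simp [A] at e31

/-- Soundness in flattened form. -/
theorem cop_sound_of (hb : B2Tc D N) {r0 r1 r2 r3 : Row D N} {c0 c1 c2 c3 : Col D N}
    (h : Cop D N r0 r1 r2 r3 c0 c1 c2 c3) :
    ∃ x p p', r1 = Row.tr (Fin.last D) x p ∧ c0 = Col.tc (Fin.last D) x p' := by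
  cases c3 with
  | km i => exact (Tc.c3_km h).elim
  | tc k y q => exact (Tc.c3_tc h).elim
  | gam i => exact (GamPhi.c3_gam h).elim
  | phi i => exact (GamPhi.c3_phi h).elim
  | kp i => exact (Tc.c3_kp h).elim
  | pad i => exact (Tc.c3_pad h).elim
  | uc j s i =>
    have e33 := h.e33
    have e13 := h.e13
    cases r3 with
    | pim _ => simp [A] at e33
    | pip _ => simp [A] at e33
    | pad _ => simp [A] at e33
    | tr j3 x3 p3 => exact (UcA6.c3_uc_tr h).elim
    | vr k3 s3 i3 =>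
      cases r1 with
      | pim _ => simp [A] at e13
      | pip _ => simp [A] at e13
      | pad _ => simp [A] at e13
      | vr k1 s1 i1 => exact (UcA6.c3_uc_vr_vr h).elim
      | tr j1 x1 p1 =>
        obtain ⟨hj, p', hc0⟩ := c3_uc_tr_vr_of hb h
        exact ⟨x1, p1, p', by rw [hj], hc0⟩

/-- Soundness of `W`, given the slice `[uc-b2], c1 = tc`: every copy of `W` in `A D N` has its
second row and first column at the leaf lines of one and the same leaf. -/
theorem W_sound_of (hb : B2Tc D N) (r : Fin 4 → Row D N) (c : Fin 4 → Col D N)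
    (hc : IsCopy W (A D N) r c) :
    ∃ x p p', r 1 = Row.tr (Fin.last D) x p ∧ c 0 = Col.tc (Fin.last D) x p' :=
  cop_sound_of hb (Cop.of_isCopy hc)

end Crest.Agent.LibS0066W.Snd.Glue
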