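import Mathlib
import Crest.Agent.Lib_S0066_WSoundBase
import Crest.Agent.Lib_S0066_WOrder

/-!
S0066, design v2, soundness of `W`: slice `[uc-b2]` (`c3` a ruler column, `r3` a ruler row,
`r1` a tree row), in `Cop` form: this is the branch that contains the genuine copies, and the
conclusion is the thin pair.
-/

set_option autoImplicit false
set_option linter.unusedSimpArgs false
set_option linter.unusedVariables false

namespace Crest.Agent.LibS0066W.Snd.UcB26

variable {D N : ℕ}

/-! ### Section numbers of constructors -/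

theorem csec_km (i : Fin N) : (Col.km i : Col D N).sec = 0 := rfl
theorem csec_tc (k : Fin (D + 1)) (y : Fin (2 ^ D)) (q : Bool) :
    (Col.tc k y q : Col D N).sec = 1 := rfl
theorem csec_gam (i : Fin N) : (Col.gam i : Col D N).sec = 2 := rfl
theorem csec_phi (i : Fin N) : (Col.phi i : Col D N).sec = 3 := rfl
theorem csec_kp (i : Fin N) : (Col.kp i : Col D N).sec = 4 := rfl
theorem csec_uc (j : Fin (D + 1)) (s : Bool) (i : Fin N) : (Col.uc j s i : Col D N).sec = 5 := rfl
theorem csec_pad (i : Fin N) : (Col.pad i : Col D N).sec = 6 := rfl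
theorem rsec_pim (i : Fin N) : (Row.pim i : Row D N).sec = 0 := rfl
theorem rsec_tr (j : Fin (D + 1)) (x : Fin (2 ^ D)) (p : Bool) :
    (Row.tr j x p : Row D N).sec = 1 := rfl
theorem rsec_pip (i : Fin N) : (Row.pip i : Row D N).sec = 2 := rfl
theorem rsec_vr (k : Fin (D + 2)) (s : Bool) (i : Fin N) : (Row.vr k s i : Row D N).sec = 3 := rfl
theorem rsec_pad (i : Fin N) : (Row.pad i : Row D N).sec = 4 := rfl

theorem A_pim {i : Fin N} {c : Col D N} :
    A D N (Row.pim i) c = true ↔ 1 ≤ c.sec ∧ c.sec ≤ 3 := by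
  cases c <;> simp [A, csec_km, csec_tc, csec_gam, csec_phi, csec_kp, csec_uc, csec_pad]

theorem A_pip {i : Fin N} {c : Col D N} :
    A D N (Row.pip i) c = true ↔ 1 ≤ c.sec ∧ c.sec ≤ 3 := by
  cases c <;> simp [A, csec_km, csec_tc, csec_gam, csec_phi, csec_kp, csec_uc, csec_pad]

/-- The side bit depends only on the node. -/
theorem side_congr {j x y : ℕ} (h : x / 2 ^ (D - j) = y / 2 ^ (D - j)) :
    side D j x = side D j y := by
  unfold side
  rw [h]

/-- A tree column seen by a leaf row is a leaf column of the same leaf: the thin pair. -/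
theorem thin_of {j1 : Fin (D + 1)} {x1 : Fin (2 ^ D)} {p1 : Bool} {c0 : Col D N}
    (hj1 : (j1 : ℕ) = D) (hsec : c0.sec = 1) (e10 : A D N (.tr j1 x1 p1) c0 = true) :
    j1 = Fin.last D ∧ ∃ p', c0 = Col.tc (Fin.last D) x1 p' := by
  rcases c0 with i0 | ⟨k0, y0, q0⟩ | i0 | i0 | i0 | ⟨j0, s0, i0⟩ | i0 <;>
    simp only [csec_km, csec_tc, csec_gam, csec_phi, csec_kp, csec_uc, csec_pad] at hsec <;>
    try omega
  simp only [A, decide_eq_true_eq, hj1, Nat.sub_self, pow_zero, Nat.div_one] at e10
  have hk0 := k0.2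
  have h1 : j1 = Fin.last D := Fin.ext (by simpa using hj1)
  have h2 : k0 = Fin.last D := Fin.ext (by simp only [Fin.val_last]; omega)
  have h3 : y0 = x1 := Fin.ext e10.1.symm
  exact ⟨h1, q0, by rw [h2, h3]⟩

/-- The branch in which the columns `c0`, `c2` lie in sections `1..3` (because a `pim` / `pip`
row sees them) and are seen by the tree row `r1`, while the tree column `c1` between them is not
below the node of `r1`. -/
theorem pi_branch {j1 : Fin (D + 1)} {x1 : Fin (2 ^ D)} {p1 : Bool} {c0 c2 : Col D N}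
    {k1 : Fin (D + 1)} {y1 : Fin (2 ^ D)} {q1 : Bool}
    (hs0 : 1 ≤ c0.sec ∧ c0.sec ≤ 3) (hs2 : 1 ≤ c2.sec ∧ c2.sec ≤ 3)
    (c01 : c0 < Col.tc k1 y1 q1) (c12 : Col.tc k1 y1 q1 < c2)
    (e10 : A D N (.tr j1 x1 p1) c0 = true) (e12 : A D N (.tr j1 x1 p1) c2 = true)
    (hny : (x1 : ℕ) / 2 ^ (D - j1) ≠ (y1 : ℕ) / 2 ^ (D - j1)) :
    j1 = Fin.last D ∧ ∃ p', c0 = Col.tc (Fin.last D) x1 p' := by
  have t01 := Col.sec_le_of_lt c01
  have hD : (j1 : ℕ) ≤ D := by have := j1.2; omega
  rcases c0 with i0 | ⟨k0, y0, q0⟩ | i0 | i0 | i0 | ⟨j0, s0, i0⟩ | i0 <;>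
    simp only [csec_km, csec_tc, csec_gam, csec_phi, csec_kp, csec_uc, csec_pad] at hs0 t01 <;>
    try omega
  rcases c2 with i2 | ⟨k2, y2, q2⟩ | i2 | i2 | i2 | ⟨j2, s2, i2⟩ | i2 <;>
    simp only [csec_km, csec_tc, csec_gam, csec_phi, csec_kp, csec_uc, csec_pad] at hs2 <;>
    try omega
  · -- `c2` a tree column: between lemma
    have e10' := e10
    simp only [A, decide_eq_true_eq] at e10' e12
    have := (Col.between hD c01 c12 (by omega) (by omega) e10'.1.symm e12.1.symm).2
    exact (hny this.symm).elim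
  · simp [A] at e12
  · -- `c2 = phi`: the row `r1` is a leaf row
    have hj1 : (j1 : ℕ) = D := by simpa [A] using e12
    exact thin_of hj1 rfl e10

theorem c3_uc_tr_vr {r0 r2 : Row D N} {c0 c1 c2 : Col D N} {j1 : Fin (D + 1)}
    {x1 : Fin (2 ^ D)} {p1 : Bool} {k3 : Fin (D + 2)} {s3 : Bool} {i3 : Fin N}
    {j : Fin (D + 1)} {s : Bool} {i : Fin N}
    (h : Cop D N r0 (.tr j1 x1 p1) r2 (.vr k3 s3 i3) c0 c1 c2 (.uc j s i)) :
    j1 = Fin.last D ∧ ∃ p', c0 = Col.tc (Fin.last D) x1 p' := by
  have e00 := h.e00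
  have e01 := h.e01
  have e02 := h.e02
  have e03 := h.e03
  have e10 := h.e10
  have e11 := h.e11
  have e12 := h.e12
  have e13 := h.e13
  have e20 := h.e20
  have e21 := h.e21
  have e22 := h.e22
  have e23 := h.e23
  have e31 := h.e31
  have e32 := h.e32
  have e33 := h.e33
  have r01 := h.r01
  have r12 := h.r12
  have c01 := h.c01
  have c12 := h.c12
  have u01 := Row.sec_le_of_lt h.r01
  have u12 := Row.sec_le_of_lt h.r12
  have u23 := Row.sec_le_of_lt h.r23
  have t01 := Col.sec_le_of_lt h.c01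
  have t12 := Col.sec_le_of_lt h.c12
  have t23 := Col.sec_le_of_lt h.c23
  have hjD := j.2
  have hj1D := j1.2
  simp only [A, decide_eq_true_eq] at e13 e33
  simp only [rsec_pim, rsec_tr, rsec_pip, rsec_vr, rsec_pad] at u01 u12 u23
  simp only [csec_km, csec_tc, csec_gam, csec_phi, csec_kp, csec_uc, csec_pad] at t23
  rcases c1 with i0 | ⟨k1, y1, q1⟩ | i0 | i0 | i0 | ⟨j1', t1, i1'⟩ | i0
  · simp [A] at e31
  · -- `c1` a tree column
    simp only [A, decide_eq_true_eq, decide_eq_false_iff_not] at e31 e11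
    have hk : (k1 : ℕ) = j1 ∨ (k1 : ℕ) = j1 + 1 := by omega
    have hny : (x1 : ℕ) / 2 ^ (D - j1) ≠ (y1 : ℕ) / 2 ^ (D - j1) := fun hxy => e11 ⟨hxy, hk⟩
    rcases r2 with i2 | ⟨j2, x2, p2⟩ | i2 | ⟨k2, s2, i2⟩ | i2 <;>
      simp only [rsec_pim, rsec_tr, rsec_pip, rsec_vr, rsec_pad] at u12 u23 <;> try omega
    · -- `r2` a tree row
      simp only [A, decide_eq_true_eq, decide_eq_false_iff_not] at e21 e23
      rcases r0 with i0 | ⟨j0, x0, p0⟩ | i0 | ⟨k0, s0, i0⟩ | i0 <;>
        simp only [rsec_pim, rsec_tr, rsec_pip, rsec_vr, rsec_pad] at u01 <;> try omega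
      · exact pi_branch (A_pim.1 e00) (A_pim.1 e02) c01 c12 e10 e12 hny
      · -- `r0` a tree row
        simp only [A, decide_eq_true_eq, decide_eq_false_iff_not] at e01 e03
        exfalso
        have hj0D := j0.2
        have hj2D := j2.2
        rcases e33 with ⟨hjk, hss⟩ | hk3
        · -- case A: `k1 = j1`, equal sides
          have hk1 : (k1 : ℕ) = j1 := by omega
          have hj0 : (j0 : ℕ) + 1 = j1 := by
            by_contra hne
            have h0 : (j0 : ℕ) = k1 := by omega
            apply e03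
            refine ⟨by omega, ?_⟩
            rw [side_congr e01.1, h0, ← e31.2, hss]
          have hj2 : (j2 : ℕ) + 1 = j1 := by
            by_contra hne
            have h2 : (j2 : ℕ) = k1 := by omega
            apply e23
            refine ⟨by omega, ?_⟩
            rw [side_congr e21.1, h2, ← e31.2, hss]
          have h20 : (j2 : ℕ) = j0 := by omega
          have e21' := e21.1
          rw [h20] at e21'
          have hb := (Row.between (j := (j0 : ℕ)) (by omega) r01 r12 le_rfl (by omega)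
            e01.1 e21').2
          have hside : side D ((j0 : ℕ) + 1) x1 = side D ((j0 : ℕ) + 1) y1 := by
            have a1 := e13.2
            have a3 := e31.2
            rw [hk1] at a3
            rw [hj0, ← a1, ← a3, hss]
          have := node_child (by omega) hb hside
          rw [hj0] at this
          exact hny this
        · -- case B: `k1 = j1 + 1`
          have hk1 : (k1 : ℕ) = j1 + 1 := by omega
          have h0 : (j1 : ℕ) ≤ j0 := by omega
          have h2 : (j1 : ℕ) ≤ j2 := by omega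
          have a0 := node_mono h0 e01.1
          have a2 := node_mono h2 e21.1
          have hb := (Row.between (j := (j1 : ℕ)) (by omega) r01 r12 h0 h2 a0 a2).2
          exact hny hb
    · exact pi_branch (A_pip.1 e20) (A_pip.1 e22) c01 c12 e10 e12 hny
    · -- `r2` a ruler row: same family as `r3`
      exfalso
      simp only [A, decide_eq_true_eq, decide_eq_false_iff_not] at e21 e23
      have hk2 : (k2 : ℕ) = k3 := by omega
      have hs2 : s2 = s3 := by rw [e21.2, e31.2]
      rw [hk2, hs2] at e23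
      exact e23 e33
  · -- `c1 = gam`: the genuine copies
    have hk3 : (k3 : ℕ) = D + 1 := by simpa [A] using e31
    have hj1 : (j1 : ℕ) = D := by omega
    have hsec : c0.sec = 1 := by
      rcases r0 with i0 | ⟨j0, x0, p0⟩ | i0 | ⟨k0, s0, i0⟩ | i0 <;>
        simp only [rsec_pim, rsec_tr, rsec_pip, rsec_vr, rsec_pad] at u01 <;> try omega
      · have a := A_pim.1 e00
        rcases c0 with i0 | ⟨k0, y0, q0⟩ | i0 | i0 | i0 | ⟨j0, s0, i0⟩ | i0 <;>
          simp [A, csec_km, csec_tc, csec_gam, csec_phi, csec_kp, csec_uc, csec_pad]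
            at a t01 e10 ⊢
      · simp [A] at e01
    exact thin_of hj1 hsec e10
  · simp [A] at e31
  · simp [A] at e31
  · -- `c1` a ruler column: then `c2` is in the family of `c3`
    exfalso
    rcases c2 with i2 | ⟨k2, y2, q2⟩ | i2 | i2 | i2 | ⟨j2, t2, i2⟩ | i2 <;>
      simp only [csec_km, csec_tc, csec_gam, csec_phi, csec_kp, csec_uc, csec_pad] at t12 t23 <;>
      try omega
    simp only [A, decide_eq_true_eq, decide_eq_false_iff_not] at e12 e32
    have hj2 : (j2 : ℕ) = j := by omega
    have ht : t2 = s := by rw [e12.2, e13.2]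
    rw [hj2, ht] at e32
    exact e32 e33
  · simp [A] at e31

end Crest.Agent.LibS0066W.Snd.UcB26
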