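import Mathlib
import Crest.Agent.Lib_S0066_WSoundGlue
import Crest.Agent.Lib_S0066_WSound_UcB26

/-!
S0066, design v2, soundness of the core pattern `W` (package P3), final statement:
every ordered copy of `W` in `A D N` has its second row and its first column at the leaf lines
of one and the same leaf.
-/

set_option autoImplicit false

namespace Crest.Agent.LibS0066W.Snd.Final

open Crest.Agent.Lib_S0066_Reduce

variable {D N : ℕ}

/-- The slice `[uc-b2], c1 = tc` in the shape required by the glue. -/
theorem b2tc : Glue.B2Tc D N :=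
  fun _ _ _ _ _ _ _ _ _ _ _ _ _ _ _ _ h => UcB26.c3_uc_tr_vr h

/-- Soundness of `W`: every copy of `W` in `A D N` contains the thin pair. -/
theorem W_sound (r : Fin 4 → Row D N) (c : Fin 4 → Col D N) (hc : IsCopy W (A D N) r c) :
    ∃ x p p', r 1 = Row.tr (Fin.last D) x p ∧ c 0 = Col.tc (Fin.last D) x p' :=
  Glue.W_sound_of b2tc r c hc

end Crest.Agent.LibS0066W.Snd.Final
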