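import Mathlib
import Crest.Agent.Lib_S0066_WDefs
import Crest.Agent.Lib_S0066_WOrder

/-!
S0066, design v2, package P3 (soundness of the core pattern `W`), slice `[uc-b2]`:
the branch `c 3 = uc`, `r 3 = vr`, `r 1 = tr` of the case analysis.

Main statement: `sound_uc_b2`.
-/

set_option autoImplicit false
set_option linter.unusedSimpArgs false

namespace Crest.Agent.LibS0066W

open Crest.Agent.Lib_S0066_Reduce

variable {D N : ℕ}

/-- A wild row (`pim` or `pip`) only sees columns of the sections `1, 2, 3`. -/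
theorem ucb2_wild_sees {ρ : Row D N} (hρ : ρ.sec = 0 ∨ ρ.sec = 2) {γ : Col D N}
    (h : A D N ρ γ = true) : 1 ≤ γ.sec ∧ γ.sec ≤ 3 := by
  cases ρ <;> cases γ <;> simp_all [A, Row.sec, Col.sec]

/-- The thin pair: a leaf row `r 1` seeing a tree column `c 0`. -/
theorem ucb2_thin_of {r : Fin 4 → Row D N} {c : Fin 4 → Col D N}
    {j1 : Fin (D + 1)} {x1 : Fin (2 ^ D)} {p1 : Bool} (hr1 : r 1 = Row.tr j1 x1 p1)
    (hj : (j1 : ℕ) = D)
    {k0 : Fin (D + 1)} {y0 : Fin (2 ^ D)} {q0 : Bool} (hc0 : c 0 = Col.tc k0 y0 q0)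
    (e10 : A D N (r 1) (c 0) = true) :
    ∃ x p p', r 1 = Row.tr (Fin.last D) x p ∧ c 0 = Col.tc (Fin.last D) x p' := by
  rw [hr1, hc0] at e10
  simp only [A, decide_eq_true_eq] at e10
  obtain ⟨h1, h2⟩ := e10
  rw [hj, Nat.sub_self, pow_zero, Nat.div_one, Nat.div_one] at h1
  have hk0 : (k0 : ℕ) = D := by have := k0.2; omega
  have hj1 : j1 = Fin.last D := Fin.ext hj
  have hk0' : k0 = Fin.last D := Fin.ext hk0
  have hy : y0 = x1 := Fin.ext h1.symm
  exact ⟨x1, p1, q0, by rw [hr1, hj1], by rw [hc0, hk0', hy]⟩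

/-- Finishing lemma for the branches in which a wild row sees `c 0` and `c 2`. -/
theorem ucb2_finish_wild {r : Fin 4 → Row D N} {c : Fin 4 → Col D N}
    {j : Fin (D + 1)} {x1 : Fin (2 ^ D)} {p1 : Bool} (hr1 : r 1 = Row.tr j x1 p1)
    {k1 : Fin (D + 1)} {y1 : Fin (2 ^ D)} {q1 : Bool} (hc1 : c 1 = Col.tc k1 y1 q1)
    (hnot : ¬ ((x1 : ℕ) / 2 ^ (D - (j : ℕ)) = (y1 : ℕ) / 2 ^ (D - (j : ℕ))))
    (h0 : 1 ≤ (c 0).sec) (h2 : 1 ≤ (c 2).sec ∧ (c 2).sec ≤ 3)
    (c01 : c 0 < c 1) (c12 : c 1 < c 2)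
    (e10 : A D N (r 1) (c 0) = true) (e12 : A D N (r 1) (c 2) = true) :
    ∃ x p p', r 1 = Row.tr (Fin.last D) x p ∧ c 0 = Col.tc (Fin.last D) x p' := by
  have s01 := Col.sec_le_of_lt c01
  rw [hc1] at s01 c01 c12
  have s01' : (c 0).sec ≤ 1 := s01
  rcases hc0 : c 0 with i0 | ⟨k0, y0, q0⟩ | i0 | i0 | i0 | ⟨j0, s0, i0⟩ | i0
  case tc =>
    rcases hc2 : c 2 with i2 | ⟨k2, y2, q2⟩ | i2 | i2 | i2 | ⟨j2, s2, i2⟩ | i2
    case tc =>
      exfalso
      have e10' := e10
      rw [hr1, hc0] at e10'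
      rw [hr1, hc2] at e12
      simp only [A, decide_eq_true_eq] at e10' e12
      rw [hc0] at c01
      rw [hc2] at c12
      have := Col.between (j := (j : ℕ)) (u := (x1 : ℕ) / 2 ^ (D - (j : ℕ)))
        (by have := j.2; omega) c01 c12 (by omega) (by omega) e10'.1.symm e12.1.symm
      exact hnot this.2.symm
    case gam =>
      rw [hr1, hc2] at e12
      simp only [A, Bool.false_eq_true] at e12
    case phi =>
      rw [hr1, hc2] at e12
      simp only [A, decide_eq_true_eq] at e12
      have h := ucb2_thin_of hr1 e12 hc0 e10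
      rwa [hc0] at h
    all_goals (rw [hc2] at h2; simp only [Col.sec] at h2; omega)
  all_goals (rw [hc0] at h0 s01'; simp only [Col.sec] at h0 s01'; omega)

/-- Equal nodes have equal sides. -/
theorem ucb2_side_congr {D j x y : ℕ} (h : x / 2 ^ (D - j) = y / 2 ^ (D - j)) :
    side D j x = side D j y := by
  unfold side; rw [h]

/-- Slice `[uc-b2]` of the soundness of `W`: the branch `c 3 = uc`, `r 3 = vr`, `r 1 = tr`. -/
theorem sound_uc_b2 (r : Fin 4 → Row D N) (c : Fin 4 → Col D N) (hc : IsCopy W (A D N) r c)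
    {j : Fin (D + 1)} {s' : Bool} {i3 : Fin N} (hc3 : c 3 = Col.uc j s' i3)
    {k : Fin (D + 2)} {s : Bool} {i : Fin N} (hr3 : r 3 = Row.vr k s i)
    {j1 : Fin (D + 1)} {x1 : Fin (2 ^ D)} {p1 : Bool} (hr1 : r 1 = Row.tr j1 x1 p1) :
    ∃ x p p', r 1 = Row.tr (Fin.last D) x p ∧ c 0 = Col.tc (Fin.last D) x p' := by
  obtain ⟨hr, hcm, he⟩ := hc
  have e00 : A D N (r 0) (c 0) = true := he 0 0
  have e01 : A D N (r 0) (c 1) = true := he 0 1
  have e02 : A D N (r 0) (c 2) = true := he 0 2
  have e03 : A D N (r 0) (c 3) = false := he 0 3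
  have e10 : A D N (r 1) (c 0) = true := he 1 0
  have e11 : A D N (r 1) (c 1) = false := he 1 1
  have e12 : A D N (r 1) (c 2) = true := he 1 2
  have e13 : A D N (r 1) (c 3) = true := he 1 3
  have e20 : A D N (r 2) (c 0) = true := he 2 0
  have e21 : A D N (r 2) (c 1) = true := he 2 1
  have e22 : A D N (r 2) (c 2) = true := he 2 2
  have e23 : A D N (r 2) (c 3) = false := he 2 3
  have e30 : A D N (r 3) (c 0) = false := he 3 0
  have e31 : A D N (r 3) (c 1) = true := he 3 1
  have e32 : A D N (r 3) (c 2) = false := he 3 2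
  have e33 : A D N (r 3) (c 3) = true := he 3 3
  have r01 : r 0 < r 1 := hr (by decide)
  have r12 : r 1 < r 2 := hr (by decide)
  have r23 : r 2 < r 3 := hr (by decide)
  have c01 : c 0 < c 1 := hcm (by decide)
  have c12 : c 1 < c 2 := hcm (by decide)
  have c23 : c 2 < c 3 := hcm (by decide)
  have sr01 := Row.sec_le_of_lt r01
  have sr12 := Row.sec_le_of_lt r12
  have sr23 := Row.sec_le_of_lt r23
  have sc01 := Col.sec_le_of_lt c01
  have sc12 := Col.sec_le_of_lt c12
  have sc23 := Col.sec_le_of_lt c23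
  rw [hr1] at sr01 sr12
  rw [hr3] at sr23
  rw [hc3] at sc23
  simp only [Row.sec, Col.sec] at sr01 sr12 sr23 sc23
  have e13' := e13
  rw [hr1, hc3] at e13'
  rw [hr3, hc3] at e33
  simp only [A, decide_eq_true_eq] at e13' e33
  obtain ⟨hjj1, hs'⟩ := e13'
  obtain rfl : j = j1 := Fin.ext hjj1
  have hjD : (j : ℕ) ≤ D := by have := j.2; omega
  rcases hc1 : c 1 with i1 | ⟨k1, y1, q1⟩ | i1 | i1 | i1 | ⟨j'', s'', i''⟩ | i1
  case km => rw [hr3, hc1] at e31; simp only [A, Bool.false_eq_true] at e31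
  case phi => rw [hr3, hc1] at e31; simp only [A, Bool.false_eq_true] at e31
  case kp => rw [hr3, hc1] at e31; simp only [A, Bool.false_eq_true] at e31
  case pad => rw [hr3, hc1] at e31; simp only [A, Bool.false_eq_true] at e31
  case uc =>
    -- `c 2` is a ruler column of the same family as `c 3`, so `r 3` sees it
    exfalso
    rw [hc1] at sc12
    simp only [Col.sec] at sc12
    rcases hc2 : c 2 with i2 | ⟨k2, y2, q2⟩ | i2 | i2 | i2 | ⟨j2, s2, i2⟩ | i2
    case uc =>
      rw [hr1, hc2] at e12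
      rw [hr3, hc2] at e32
      simp only [A, decide_eq_true_eq, decide_eq_false_iff_not] at e12 e32
      apply e32
      rcases e33 with ⟨h1, h2⟩ | h
      · left
        refine ⟨by omega, ?_⟩
        rw [h2, e12.2, hs']
      · right; omega
    all_goals (rw [hc2] at sc12 sc23; simp only [Col.sec] at sc12 sc23; omega)
  case gam =>
    -- the genuine copies
    rw [hr3, hc1] at e31
    simp only [A, decide_eq_true_eq] at e31
    have hjD' : (j : ℕ) = D := by
      rcases e33 with ⟨h1, _⟩ | h <;> omega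
    rcases hr0 : r 0 with i0 | ⟨j0, x0, p0⟩ | i0 | ⟨k0, s0, i0⟩ | i0
    case pim =>
      have h0 : 1 ≤ (c 0).sec := (ucb2_wild_sees (ρ := r 0) (by rw [hr0]; simp [Row.sec]) e00).1
      rw [hc1] at sc01
      simp only [Col.sec] at sc01
      rcases hc0 : c 0 with i0' | ⟨k0, y0, q0⟩ | i0' | i0' | i0' | ⟨j0', s0', i0'⟩ | i0'
      case tc =>
        have h := ucb2_thin_of hr1 hjD' hc0 e10
        rwa [hc0] at h
      case gam =>
        rw [hr1, hc0] at e10
        simp only [A, Bool.false_eq_true] at e10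
      all_goals (rw [hc0] at h0 sc01; simp only [Col.sec] at h0 sc01; omega)
    case tr =>
      rw [hr0, hc1] at e01
      simp only [A, Bool.false_eq_true] at e01
    all_goals (rw [hr0] at sr01; simp only [Row.sec] at sr01; omega)
  case tc =>
    rw [hr3, hc1] at e31
    simp only [A, decide_eq_true_eq] at e31
    obtain ⟨hkk1, hs⟩ := e31
    have e11' := e11
    rw [hr1, hc1] at e11'
    simp only [A, decide_eq_false_iff_not] at e11'
    have hk1 : (k1 : ℕ) = j ∨ (k1 : ℕ) = j + 1 := by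
      rcases e33 with ⟨h1, _⟩ | h <;> omega
    have hnot : ¬ ((x1 : ℕ) / 2 ^ (D - (j : ℕ)) = (y1 : ℕ) / 2 ^ (D - (j : ℕ))) :=
      fun h => e11' ⟨h, hk1⟩
    rcases hr2 : r 2 with i2 | ⟨j2, x2, p2⟩ | i2 | ⟨k2, s2, i2⟩ | i2
    case pim => rw [hr2] at sr12; simp only [Row.sec] at sr12; omega
    case pad => rw [hr2] at sr23; simp only [Row.sec] at sr23; omega
    case pip =>
      have h0 := (ucb2_wild_sees (ρ := r 2) (by rw [hr2]; simp [Row.sec]) e20).1
      have h2 := ucb2_wild_sees (ρ := r 2) (by rw [hr2]; simp [Row.sec]) e22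
      exact ucb2_finish_wild hr1 hc1 hnot h0 h2 c01 c12 e10 e12
    case vr =>
      exfalso
      rw [hr2, hc1] at e21
      rw [hr2, hc3] at e23
      simp only [A, decide_eq_true_eq, decide_eq_false_iff_not] at e21 e23
      apply e23
      rcases e33 with ⟨h1, h2⟩ | h
      · left
        refine ⟨by omega, ?_⟩
        rw [e21.2, ← hs, h2]
      · right; omega
    case tr =>
      rw [hr2, hc1] at e21
      rw [hr2, hc3] at e23
      simp only [A, decide_eq_true_eq, decide_eq_false_iff_not] at e21 e23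
      rcases hr0 : r 0 with i0 | ⟨j0, x0, p0⟩ | i0 | ⟨k0, s0, i0⟩ | i0
      case pim =>
        have h0 := (ucb2_wild_sees (ρ := r 0) (by rw [hr0]; simp [Row.sec]) e00).1
        have h2 := ucb2_wild_sees (ρ := r 0) (by rw [hr0]; simp [Row.sec]) e02
        exact ucb2_finish_wild hr1 hc1 hnot h0 h2 c01 c12 e10 e12
      case tr =>
        exfalso
        rw [hr0, hc1] at e01
        rw [hr0, hc3] at e03
        simp only [A, decide_eq_true_eq, decide_eq_false_iff_not] at e01 e03
        rw [hr0, hr1] at r01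
        rw [hr1, hr2] at r12
        have hj0D : (j0 : ℕ) ≤ D := by have := j0.2; omega
        have hj2D : (j2 : ℕ) ≤ D := by have := j2.2; omega
        rcases e33 with ⟨h1, h2⟩ | h
        · -- `k = j`, `s = s'`
          have hk1j : (k1 : ℕ) = j := by omega
          have hj0 : (j0 : ℕ) + 1 = j := by
            rcases e01.2 with h | h
            · exfalso
              apply e03
              have hj0j : (j : ℕ) = j0 := by omega
              refine ⟨hj0j, ?_⟩
              rw [← h2, hs, ucb2_side_congr e01.1, h]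
            · omega
          have hj2 : (j2 : ℕ) + 1 = j := by
            rcases e21.2 with h | h
            · exfalso
              apply e23
              have hj2j : (j : ℕ) = j2 := by omega
              refine ⟨hj2j, ?_⟩
              rw [← h2, hs, ucb2_side_congr e21.1, h]
            · omega
          have hj20 : (j2 : ℕ) = j0 := by omega
          have hu3 : (x2 : ℕ) / 2 ^ (D - (j0 : ℕ)) = (y1 : ℕ) / 2 ^ (D - (j0 : ℕ)) := by
            rw [← hj20]; exact e21.1
          have hb := Row.between (j := (j0 : ℕ)) (u := (y1 : ℕ) / 2 ^ (D - (j0 : ℕ))) hj0D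
            r01 r12 le_rfl (by omega) e01.1 hu3
          have hside : side D ((j0 : ℕ) + 1) x1 = side D ((j0 : ℕ) + 1) y1 := by
            rw [hj0, ← hs', ← h2, hs, hk1j]
          have := div_eq_of_side_eq (D := D) (j := (j0 : ℕ)) (by omega) hb.2 hside
          rw [hj0] at this
          exact hnot this
        · -- `k = j + 1`
          have hk1j : (k1 : ℕ) = j + 1 := by omega
          have hj0 : (j : ℕ) ≤ j0 := by rcases e01.2 with h | h <;> omega
          have hj2 : (j : ℕ) ≤ j2 := by rcases e21.2 with h | h <;> omega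
          have hu1 := div_coarser hj0 hj0D e01.1
          have hu3 := div_coarser hj2 hj2D e21.1
          have hb := Row.between (j := (j : ℕ)) (u := (y1 : ℕ) / 2 ^ (D - (j : ℕ))) hjD
            r01 r12 hj0 hj2 hu1 hu3
          exact hnot hb.2
      all_goals (rw [hr0] at sr01; simp only [Row.sec] at sr01; omega)

end Crest.Agent.LibS0066W
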