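import Mathlib
import Crest.Agent.Lib_S0066_WSoundBase
import Crest.Agent.Lib_S0066_WOrder

/-!
S0066, design v2, soundness of `W` (package P3), slice `[uc-b2]`, sub-branch `c1 = tc`:
a copy of `W` in `A D N` with `r1` a tree row, `r3` a ruler row, `c1` a tree column and `c3` a
ruler column has `r1` a leaf row and `c0` a leaf column of the same leaf (a thin pair).
-/

set_option autoImplicit false
set_option linter.unusedSimpArgs false
set_option linter.unusedVariables false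
set_option linter.unreachableTactic false
set_option linter.unusedTactic false
set_option linter.unnecessarySeqFocus false

namespace Crest.Agent.LibS0066W.Snd.UcB2Tc

variable {D N : ℕ}

@[simp] theorem rsec_pim (i : Fin N) : (Row.pim i : Row D N).sec = 0 := rfl
@[simp] theorem rsec_tr (j : Fin (D + 1)) (x : Fin (2 ^ D)) (p : Bool) :
    (Row.tr j x p : Row D N).sec = 1 := rfl
@[simp] theorem rsec_pip (i : Fin N) : (Row.pip i : Row D N).sec = 2 := rfl
@[simp] theorem rsec_vr (k : Fin (D + 2)) (s : Bool) (i : Fin N) :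
    (Row.vr k s i : Row D N).sec = 3 := rfl
@[simp] theorem rsec_pad (i : Fin N) : (Row.pad i : Row D N).sec = 4 := rfl
@[simp] theorem csec_km (i : Fin N) : (Col.km i : Col D N).sec = 0 := rfl
@[simp] theorem csec_tc (j : Fin (D + 1)) (x : Fin (2 ^ D)) (p : Bool) :
    (Col.tc j x p : Col D N).sec = 1 := rfl
@[simp] theorem csec_gam (i : Fin N) : (Col.gam i : Col D N).sec = 2 := rfl
@[simp] theorem csec_phi (i : Fin N) : (Col.phi i : Col D N).sec = 3 := rfl
@[simp] theorem csec_kp (i : Fin N) : (Col.kp i : Col D N).sec = 4 := rfl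
@[simp] theorem csec_uc (k : Fin (D + 1)) (s : Bool) (i : Fin N) :
    (Col.uc k s i : Col D N).sec = 5 := rfl
@[simp] theorem csec_pad (i : Fin N) : (Col.pad i : Col D N).sec = 6 := rfl

theorem side_congr {D j x y : ℕ} (h : x / 2 ^ (D - j) = y / 2 ^ (D - j)) :
    side D j x = side D j y := by
  unfold side; rw [h]

/-- Column betweenness: `c0 < c1 < c2` tree columns, `c0`, `c2` seen by the tree row `r1`:
then `c1` lies under the node of `r1`. -/
theorem b2_col {j1 k0 k1 k2 : Fin (D + 1)} {x1 y0 y1 y2 : Fin (2 ^ D)} {p1 q0 q1 q2 : Bool}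
    (c01 : (Col.tc k0 y0 q0 : Col D N) < Col.tc k1 y1 q1)
    (c12 : (Col.tc k1 y1 q1 : Col D N) < Col.tc k2 y2 q2)
    (e10 : A D N (.tr j1 x1 p1) (.tc k0 y0 q0) = true)
    (e12 : A D N (.tr j1 x1 p1) (.tc k2 y2 q2) = true)
    (hn : ¬ ((x1 : ℕ) / 2 ^ (D - (j1 : ℕ)) = (y1 : ℕ) / 2 ^ (D - (j1 : ℕ)))) : False := by
  simp only [A, decide_eq_true_eq] at e10 e12
  have hj1 := j1.2
  have hb := Col.between (N := N) (j := (j1 : ℕ)) (u := (x1 : ℕ) / 2 ^ (D - (j1 : ℕ)))
    (by omega) c01 c12 (by omega) (by omega) e10.1.symm e12.1.symm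
  exact hn hb.2.symm

/-- The thin pair: a tree row seeing `phi` is a leaf row, and a tree column it sees is a leaf
column of the same leaf. -/
theorem b2_thin {j1 k0 : Fin (D + 1)} {x1 y0 : Fin (2 ^ D)} {p1 q0 : Bool} {i : Fin N}
    (e10 : A D N (.tr j1 x1 p1) (.tc k0 y0 q0) = true)
    (e12 : A D N (.tr j1 x1 p1) (.phi i) = true) :
    j1 = Fin.last D ∧ ∃ p', (Col.tc k0 y0 q0 : Col D N) = Col.tc (Fin.last D) x1 p' := by
  simp only [A, decide_eq_true_eq] at e10 e12
  have hj : j1 = Fin.last D := Fin.ext (by simpa using e12)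
  subst hj
  have hk0 := k0.2
  have hk : k0 = Fin.last D := Fin.ext (by
    have := e10.2
    simp only [Fin.val_last] at this ⊢
    omega)
  subst hk
  have hy : y0 = x1 := by
    have := e10.1
    simp only [Fin.val_last] at this
    exact Fin.ext (node_leaf this).symm
  subst hy
  exact ⟨rfl, q0, rfl⟩

/-- Sub-case "a wild row sees `c0` and `c2`": `c0` is a tree column, `c2` is in sections
`tc`, `gam`, `phi`. -/
theorem b2_wild {c0 c2 : Col D N} {j1 k1 : Fin (D + 1)} {x1 y1 : Fin (2 ^ D)} {p1 q1 : Bool}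
    (c01 : c0 < Col.tc k1 y1 q1) (c12 : (Col.tc k1 y1 q1 : Col D N) < c2)
    (s0 : 1 ≤ c0.sec) (s2 : c2.sec ≤ 3)
    (e10 : A D N (.tr j1 x1 p1) c0 = true)
    (e12 : A D N (.tr j1 x1 p1) c2 = true)
    (hn : ¬ ((x1 : ℕ) / 2 ^ (D - (j1 : ℕ)) = (y1 : ℕ) / 2 ^ (D - (j1 : ℕ)))) :
    j1 = Fin.last D ∧ ∃ p', c0 = Col.tc (Fin.last D) x1 p' := by
  have sc01 := Col.sec_le_of_lt c01
  have sc12 := Col.sec_le_of_lt c12
  rw [csec_tc] at sc01 sc12
  cases c0 with
  | km i0 => simp at s0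
  | tc k0 y0 q0 =>
    cases c2 with
    | km i2 => simp at sc12
    | tc k2 y2 q2 => exact (b2_col c01 c12 e10 e12 hn).elim
    | gam i2 => simp [A] at e12
    | phi i2 => exact b2_thin e10 e12
    | kp i2 => simp at s2
    | uc j2 s2' i2 => simp at s2
    | pad i2 => simp at s2
  | gam i0 => simp at sc01
  | phi i0 => simp at sc01
  | kp i0 => simp at sc01
  | uc j0 s0' i0 => simp at sc01
  | pad i0 => simp at sc01

/-- Sub-case "`r0`, `r1`, `r2` tree rows": row betweenness gives a contradiction. -/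
theorem b2_rows {j0 j1 j2 k1 j : Fin (D + 1)} {x0 x1 x2 y1 : Fin (2 ^ D)}
    {p0 p1 p2 q1 s3 s : Bool} {k3 : Fin (D + 2)} {i3 i : Fin N}
    (r01 : (Row.tr j0 x0 p0 : Row D N) < Row.tr j1 x1 p1)
    (r12 : (Row.tr j1 x1 p1 : Row D N) < Row.tr j2 x2 p2)
    (e01 : A D N (.tr j0 x0 p0) (.tc k1 y1 q1) = true)
    (e03 : A D N (.tr j0 x0 p0) (.uc j s i) = false)
    (e11 : A D N (.tr j1 x1 p1) (.tc k1 y1 q1) = false)
    (e13 : A D N (.tr j1 x1 p1) (.uc j s i) = true)
    (e21 : A D N (.tr j2 x2 p2) (.tc k1 y1 q1) = true)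
    (e23 : A D N (.tr j2 x2 p2) (.uc j s i) = false)
    (e31 : A D N (.vr k3 s3 i3) (.tc k1 y1 q1) = true)
    (e33 : A D N (.vr k3 s3 i3) (.uc j s i) = true) : False := by
  simp only [A, decide_eq_true_eq, decide_eq_false_iff_not] at e01 e03 e11 e13 e21 e23 e31 e33
  have hj0 := j0.2
  have hj1 := j1.2
  have hj2 := j2.2
  have hk1 := k1.2
  obtain ⟨e13j, e13s⟩ := e13
  obtain ⟨e31k, e31s⟩ := e31
  obtain ⟨e01n, e01k⟩ := e01
  obtain ⟨e21n, e21k⟩ := e21
  have hkk : (k1 : ℕ) = j1 ∨ (k1 : ℕ) = j1 + 1 := by omega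
  have hn : ¬ ((x1 : ℕ) / 2 ^ (D - (j1 : ℕ)) = (y1 : ℕ) / 2 ^ (D - (j1 : ℕ))) :=
    fun hx => e11 ⟨hx, hkk⟩
  rcases hkk with hk | hk
  · -- k1 = j1 : the ruler row has the side of `r1`
    have hs3 : s3 = s := by
      rcases e33 with h | h
      · exact h.2
      · omega
    have hside : side D (j1 : ℕ) (y1 : ℕ) = s := by
      rw [← hk, ← e31s, hs3]
    -- j0 = j1 is impossible
    have hj0' : (j0 : ℕ) + 1 = j1 := by
      rcases e01k with h | h
      · exfalso
        apply e03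
        refine ⟨by omega, ?_⟩
        have e : (j0 : ℕ) = j1 := by omega
        have := side_congr e01n
        rw [this, e, hside]
      · omega
    have hj2' : (j2 : ℕ) + 1 = j1 := by
      rcases e21k with h | h
      · exfalso
        apply e23
        refine ⟨by omega, ?_⟩
        have e : (j2 : ℕ) = j1 := by omega
        have := side_congr e21n
        rw [this, e, hside]
      · omega
    have m0 := node_mono (D := D) (j := (j1 : ℕ) - 1) (k := (j0 : ℕ)) (by omega) e01n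
    have m2 := node_mono (D := D) (j := (j1 : ℕ) - 1) (k := (j2 : ℕ)) (by omega) e21n
    have hb := Row.between (N := N) (j := (j1 : ℕ) - 1)
      (u := (y1 : ℕ) / 2 ^ (D - ((j1 : ℕ) - 1))) (by omega) r01 r12 (by omega) (by omega) m0 m2
    have e1 : (j1 : ℕ) - 1 + 1 = j1 := by omega
    have hc := node_child (D := D) (j := (j1 : ℕ) - 1) (x := (x1 : ℕ)) (y := (y1 : ℕ))
      (by omega) hb.2 (by rw [e1, hside, ← e13s])
    rw [e1] at hc
    exact hn hc
  · -- k1 = j1 + 1
    have m0 := node_mono (D := D) (j := (j1 : ℕ)) (k := (j0 : ℕ)) (by omega) e01n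
    have m2 := node_mono (D := D) (j := (j1 : ℕ)) (k := (j2 : ℕ)) (by omega) e21n
    have hb := Row.between (N := N) (j := (j1 : ℕ))
      (u := (y1 : ℕ) / 2 ^ (D - (j1 : ℕ))) (by omega) r01 r12 (by omega) (by omega) m0 m2
    exact hn hb.2

/-- `[uc-b2]`, sub-branch `c1 = tc`. -/
theorem uc_b2_tc {r0 r2 : Row D N} {c0 c2 : Col D N} {j1 k1 j : Fin (D + 1)}
    {x1 y1 : Fin (2 ^ D)} {p1 q1 s3 s : Bool} {k3 : Fin (D + 2)} {i3 i : Fin N}
    (h : Cop D N r0 (.tr j1 x1 p1) r2 (.vr k3 s3 i3) c0 (.tc k1 y1 q1) c2 (.uc j s i)) :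
    j1 = Fin.last D ∧ ∃ p', c0 = Col.tc (Fin.last D) x1 p' := by
  obtain ⟨r01, r12, r23, c01, c12, c23, e00, e01, e02, e03, e10, e11, e12, e13, e20, e21, e22,
    e23, e30, e31, e32, e33⟩ := h
  have sr01 := Row.sec_le_of_lt r01
  have sr12 := Row.sec_le_of_lt r12
  have sr23 := Row.sec_le_of_lt r23
  rw [rsec_tr] at sr01 sr12
  rw [rsec_vr] at sr23
  -- `c1` is not under the node of `r1`
  have hn : ¬ ((x1 : ℕ) / 2 ^ (D - (j1 : ℕ)) = (y1 : ℕ) / 2 ^ (D - (j1 : ℕ))) := by
    have a11 := e11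
    have a13 := e13
    have a31 := e31
    have a33 := e33
    simp only [A, decide_eq_true_eq, decide_eq_false_iff_not] at a11 a13 a31 a33
    intro hx
    apply a11
    refine ⟨hx, ?_⟩
    have hk1 := k1.2
    omega
  -- supports of the wild rows
  have wild : ∀ (w : Row D N), (w.sec = 0 ∨ w.sec = 2) → ∀ c : Col D N,
      A D N w c = true → 1 ≤ c.sec ∧ c.sec ≤ 3 := by
    intro w hw c hc
    cases w <;> simp at hw <;> cases c <;> simp [A] at hc ⊢
  cases r2 with
  | pim i2 => simp at sr12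
  | tr j2 x2 p2 =>
    cases r0 with
    | pim i0 =>
      exact b2_wild c01 c12 (wild _ (Or.inl rfl) _ e00).1 (wild _ (Or.inl rfl) _ e02).2 e10 e12 hn
    | tr j0 x0 p0 => exact (b2_rows r01 r12 e01 e03 e11 e13 e21 e23 e31 e33).elim
    | pip i0 => simp at sr01
    | vr k0 s0 i0 => simp at sr01
    | pad i0 => simp at sr01
  | pip i2 =>
    exact b2_wild c01 c12 (wild _ (Or.inr rfl) _ e20).1 (wild _ (Or.inr rfl) _ e22).2 e10 e12 hn
  | vr k2 s2 i2 =>
    exfalso
    simp only [A, decide_eq_true_eq, decide_eq_false_iff_not] at e21 e23 e31 e33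
    apply e23
    rcases e33 with h | h
    · exact Or.inl ⟨by omega, by rw [e21.2, ← e31.2]; exact h.2⟩
    · exact Or.inr (by omega)
  | pad i2 => simp at sr23

end Crest.Agent.LibS0066W.Snd.UcB2Tc
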