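import Mathlib
import Crest.Agent.Lib_S0066_WSoundBase
import Crest.Agent.Lib_S0066_WOrder
import Crest.Agent.Lib_S0066_WSoundGlue

/-!
S0066, design v2, soundness of `W` (package P3), slice `[uc-b2]`, sub-branch `c1 = tc`
(last column `c3 = uc`, `r1 = tr`, `r3 = vr`, `c1 = tc`).
-/

set_option autoImplicit false
set_option linter.unusedSimpArgs false
set_option linter.unusedVariables false
set_option linter.unreachableTactic false
set_option linter.unusedTactic false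
set_option linter.unnecessarySeqFocus false

namespace Crest.Agent.LibS0066W.Snd.UcB2Tc14

open Crest.Agent.Lib_S0066_Reduce

variable {D N : ℕ}

@[simp] theorem rsec_pim (i : Fin N) : (Row.pim i : Row D N).sec = 0 := rfl
@[simp] theorem rsec_tr (j : Fin (D + 1)) (x : Fin (2 ^ D)) (p : Bool) :
    (Row.tr j x p : Row D N).sec = 1 := rfl
@[simp] theorem rsec_pip (i : Fin N) : (Row.pip i : Row D N).sec = 2 := rfl
@[simp] theorem rsec_vr (k : Fin (D + 2)) (s : Bool) (i : Fin N) :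
    (Row.vr k s i : Row D N).sec = 3 := rfl
@[simp] theorem rsec_pad (i : Fin N) : (Row.pad i : Row D N).sec = 4 := rfl
@[simp] theorem csec_km (i : Fin N) : (Col.km i : Col D N).sec = 0 := rfl
@[simp] theorem csec_tc (j : Fin (D + 1)) (x : Fin (2 ^ D)) (p : Bool) :
    (Col.tc j x p : Col D N).sec = 1 := rfl
@[simp] theorem csec_gam (i : Fin N) : (Col.gam i : Col D N).sec = 2 := rfl
@[simp] theorem csec_phi (i : Fin N) : (Col.phi i : Col D N).sec = 3 := rfl
@[simp] theorem csec_kp (i : Fin N) : (Col.kp i : Col D N).sec = 4 := rfl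
@[simp] theorem csec_uc (k : Fin (D + 1)) (s : Bool) (i : Fin N) :
    (Col.uc k s i : Col D N).sec = 5 := rfl
@[simp] theorem csec_pad (i : Fin N) : (Col.pad i : Col D N).sec = 6 := rfl

theorem side_congr {D j j' x y : ℕ} (hj : j = j') (h : x / 2 ^ (D - j) = y / 2 ^ (D - j)) :
    side D j x = side D j' y := by
  subst hj
  unfold side
  rw [h]

/-- `c0, c1, c2` tree columns, `c0`, `c2` seen by the tree row `r1`, `c1` not: impossible
(`c1` has depth `j1` or `j1 + 1` because the ruler row `r3` sees `c1` and `c3`). -/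
theorem tc_between {j1 k0 k1 k2 j : Fin (D + 1)} {x1 y0 y1 y2 : Fin (2 ^ D)}
    {p1 q0 q1 q2 s3 s : Bool} {k3 : Fin (D + 2)} {i3 i : Fin N}
    (c01 : (Col.tc k0 y0 q0 : Col D N) < Col.tc k1 y1 q1)
    (c12 : (Col.tc k1 y1 q1 : Col D N) < Col.tc k2 y2 q2)
    (e10 : A D N (.tr j1 x1 p1) (.tc k0 y0 q0) = true)
    (e11 : A D N (.tr j1 x1 p1) (.tc k1 y1 q1) = false)
    (e12 : A D N (.tr j1 x1 p1) (.tc k2 y2 q2) = true)
    (e13 : A D N (.tr j1 x1 p1) (.uc j s i) = true)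
    (e31 : A D N (.vr k3 s3 i3) (.tc k1 y1 q1) = true)
    (e33 : A D N (.vr k3 s3 i3) (.uc j s i) = true) : False := by
  simp only [A, decide_eq_true_eq, decide_eq_false_iff_not] at e10 e11 e12 e13 e31 e33
  have hj1 := j1.2
  have hb := Col.between (j := j1) (u := (x1 : ℕ) / 2 ^ (D - (j1 : ℕ))) (by omega) c01 c12
    (by omega) (by omega) e10.1.symm e12.1.symm
  have hk : (k1 : ℕ) = j1 ∨ (k1 : ℕ) = j1 + 1 := by omega
  exact e11 ⟨hb.2.symm, hk⟩

/-- Thin pair: `c0` a tree column seen by the tree row `r1`, which also sees a `phi` column. -/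
theorem thin_phi {j1 k0 : Fin (D + 1)} {x1 y0 : Fin (2 ^ D)} {p1 q0 : Bool} {i2 : Fin N}
    (e10 : A D N (.tr j1 x1 p1) (.tc k0 y0 q0) = true)
    (e12 : A D N (.tr j1 x1 p1) (.phi i2) = true) :
    j1 = Fin.last D ∧ ∃ p', (Col.tc k0 y0 q0 : Col D N) = Col.tc (Fin.last D) x1 p' := by
  simp only [A, decide_eq_true_eq] at e10 e12
  have hk0 := k0.2
  have hk : k0 = Fin.last D := Fin.ext (by simp only [Fin.val_last]; omega)
  have hx : x1 = y0 := by
    have h1 := e10.1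
    rw [e12] at h1
    exact Fin.ext (node_leaf h1)
  refine ⟨Fin.ext (by simp only [Fin.val_last]; omega), q0, ?_⟩
  rw [hk, hx]

/-- `r0, r1, r2` tree rows, `r3` a ruler row, `c1` a tree column, `c3` a ruler column:
impossible. -/
theorem tr_tr_tr {j0 j1 j2 k1 j : Fin (D + 1)} {x0 x1 x2 y1 : Fin (2 ^ D)}
    {p0 p1 p2 q1 s3 s : Bool} {k3 : Fin (D + 2)} {i3 i : Fin N}
    (r01 : (Row.tr j0 x0 p0 : Row D N) < Row.tr j1 x1 p1)
    (r12 : (Row.tr j1 x1 p1 : Row D N) < Row.tr j2 x2 p2)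
    (e01 : A D N (.tr j0 x0 p0) (.tc k1 y1 q1) = true)
    (e03 : A D N (.tr j0 x0 p0) (.uc j s i) = false)
    (e11 : A D N (.tr j1 x1 p1) (.tc k1 y1 q1) = false)
    (e13 : A D N (.tr j1 x1 p1) (.uc j s i) = true)
    (e21 : A D N (.tr j2 x2 p2) (.tc k1 y1 q1) = true)
    (e23 : A D N (.tr j2 x2 p2) (.uc j s i) = false)
    (e31 : A D N (.vr k3 s3 i3) (.tc k1 y1 q1) = true)
    (e33 : A D N (.vr k3 s3 i3) (.uc j s i) = true) : False := by
  simp only [A, decide_eq_true_eq, decide_eq_false_iff_not] at e01 e03 e11 e13 e21 e23 e31 e33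
  have hj0 := j0.2
  have hj1 := j1.2
  have hj2 := j2.2
  have hk1 := k1.2
  obtain ⟨hjj1, hs1⟩ := e13
  obtain ⟨hk31, hs3⟩ := e31
  obtain ⟨h01, h01k⟩ := e01
  obtain ⟨h21, h21k⟩ := e21
  rcases e33 with ⟨hjk3, hs3s⟩ | hk3
  · -- k3 = j = j1 = k1, s3 = s
    have hk1j1 : (k1 : ℕ) = j1 := by omega
    -- j0 = j1 is impossible
    have hj0' : (j0 : ℕ) + 1 = j1 := by
      rcases h01k with h | h
      · exfalso
        refine e03 ⟨by omega, ?_⟩
        rw [← hs3s, hs3]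
        exact (side_congr (by omega) h01).symm
      · omega
    have hj2' : (j2 : ℕ) + 1 = j1 := by
      rcases h21k with h | h
      · exfalso
        refine e23 ⟨by omega, ?_⟩
        rw [← hs3s, hs3]
        exact (side_congr (by omega) h21).symm
      · omega
    have h21' : (x2 : ℕ) / 2 ^ (D - (j0 : ℕ)) = (y1 : ℕ) / 2 ^ (D - (j0 : ℕ)) :=
      node_mono (D := D) (j := j0) (k := j2) (by omega) h21
    have hb := Row.between (N := N) (j := j0) (u := (y1 : ℕ) / 2 ^ (D - (j0 : ℕ))) (by omega)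
      r01 r12 (le_refl _) (by omega) h01 h21'
    have hside : side D ((j0 : ℕ) + 1) x1 = side D ((j0 : ℕ) + 1) y1 := by
      have e1 : side D ((j0 : ℕ) + 1) x1 = side D j1 x1 := by rw [hj0']
      have e2 : side D ((j0 : ℕ) + 1) y1 = side D k1 y1 := by rw [hj0', hk1j1]
      rw [e1, e2, ← hs1, ← hs3, hs3s]
    have hc := node_child (D := D) (j := j0) (by omega) hb.2 hside
    rw [hj0'] at hc
    exact e11 ⟨hc, Or.inl hk1j1⟩
  · -- k3 = j + 1 = j1 + 1 = k1
    have hk1j1 : (k1 : ℕ) = j1 + 1 := by omega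
    have h01' : (x0 : ℕ) / 2 ^ (D - (j1 : ℕ)) = (y1 : ℕ) / 2 ^ (D - (j1 : ℕ)) :=
      node_mono (D := D) (j := j1) (k := j0) (by omega) h01
    have h21' : (x2 : ℕ) / 2 ^ (D - (j1 : ℕ)) = (y1 : ℕ) / 2 ^ (D - (j1 : ℕ)) :=
      node_mono (D := D) (j := j1) (k := j2) (by omega) h21
    have hb := Row.between (N := N) (j := j1) (u := (y1 : ℕ) / 2 ^ (D - (j1 : ℕ))) (by omega)
      r01 r12 (by omega) (by omega) h01' h21'
    exact e11 ⟨hb.2, Or.inr hk1j1⟩

/-- Slice `[uc-b2]`, sub-branch `c1 = tc`. -/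
theorem uc_b2_tc {r0 r2 : Row D N} {c0 c2 : Col D N} {j1 k1 j : Fin (D + 1)}
    {x1 y1 : Fin (2 ^ D)} {p1 q1 s3 s : Bool} {k3 : Fin (D + 2)} {i3 i : Fin N}
    (h : Cop D N r0 (.tr j1 x1 p1) r2 (.vr k3 s3 i3) c0 (.tc k1 y1 q1) c2 (.uc j s i)) :
    j1 = Fin.last D ∧ ∃ p', c0 = Col.tc (Fin.last D) x1 p' := by
  obtain ⟨r01, r12, r23, c01, c12, c23, e00, e01, e02, e03, e10, e11, e12, e13, e20, e21, e22,
    e23, e30, e31, e32, e33⟩ := h
  have sr01 := Row.sec_le_of_lt r01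
  have sr12 := Row.sec_le_of_lt r12
  have sr23 := Row.sec_le_of_lt r23
  have sc01 := Col.sec_le_of_lt c01
  have sc12 := Col.sec_le_of_lt c12
  have sc23 := Col.sec_le_of_lt c23
  simp only [rsec_tr, rsec_vr, csec_tc, csec_uc] at sr01 sr12 sr23 sc01 sc12 sc23
  -- the part common to `r2 = pip` and `r0 = pim`: a wild row sees `c0` and `c2`
  have wild : ∀ (rw : Row D N), rw.sec = 0 ∨ rw.sec = 2 → A D N rw c0 = true →
      A D N rw c2 = true → j1 = Fin.last D ∧ ∃ p', c0 = Col.tc (Fin.last D) x1 p' := by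
    intro rw hsec hw0 hw2
    cases rw <;> simp at hsec
    all_goals
      cases c0 <;> simp [A] at hw0 sc01
      rename_i k0 y0 q0
      have e12' := e12
      cases c2 <;> simp [A] at hw2 e12' sc12 sc23
      · exact (tc_between (i3 := i3) c01 c12 e10 e11 e12 e13 e31 e33).elim
      · exact thin_phi e10 e12
  cases r2 <;> simp at sr12 sr23
  · -- r2 = tr
    rename_i j2 x2 p2
    cases r0 <;> simp at sr01
    · -- r0 = pim
      exact wild _ (Or.inl rfl) e00 e02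
    · -- r0 = tr
      exact (tr_tr_tr (i3 := i3) r01 r12 e01 e03 e11 e13 e21 e23 e31 e33).elim
  · -- r2 = pip
    exact wild _ (Or.inr rfl) e20 e22
  · -- r2 = vr
    rename_i k2 s2 i2
    exfalso
    simp only [A, decide_eq_true_eq, decide_eq_false_iff_not] at e21 e23 e31 e33
    rcases e33 with ⟨h1, h2⟩ | h1
    · exact e23 (Or.inl ⟨by omega, by rw [e21.2, ← e31.2, h2]⟩)
    · exact e23 (Or.inr (by omega))

theorem b2Tc (D N : ℕ) : Glue.B2Tc D N :=
  fun _ _ _ _ _ _ _ _ _ _ _ _ _ _ _ _ h => uc_b2_tc h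

end Crest.Agent.LibS0066W.Snd.UcB2Tc14
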