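import Mathlib
import Crest.Agent.Lib_S0066_WOrder

/-!
S0066, design v2: support lemmas for the soundness proof (package P3): which columns the
constant-type rows see, and "lines of the same family / node have the same entries".
-/

set_option autoImplicit false

namespace Crest.Agent.LibS0066W

open Crest.Agent.Lib_S0066_Reduce

variable {D N : ℕ}

/-! ### Supports of the constant-type rows and columns -/

theorem A_pim_iff {i : Fin N} {c : Col D N} :
    A D N (.pim i) c = true ↔ (1 ≤ c.sec ∧ c.sec ≤ 3) := by
  cases c <;> simp [A, Col.sec]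

theorem A_pip_iff {i : Fin N} {c : Col D N} :
    A D N (.pip i) c = true ↔ (1 ≤ c.sec ∧ c.sec ≤ 3) := by
  cases c <;> simp [A, Col.sec]

theorem A_pad_iff {i : Fin N} {c : Col D N} : A D N (.pad i) c = true ↔ c.sec = 6 := by
  cases c <;> simp [A, Col.sec]

theorem A_km_iff {r : Row D N} {i : Fin N} : A D N r (.km i) = true ↔ r.sec = 1 := by
  cases r <;> simp [A, Row.sec]

theorem A_kp_iff {r : Row D N} {i : Fin N} : A D N r (.kp i) = true ↔ r.sec = 1 := by
  cases r <;> simp [A, Row.sec]

theorem A_cpad_iff {r : Row D N} {i : Fin N} : A D N r (.pad i) = true ↔ r.sec = 4 := by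
  cases r <;> simp [A, Row.sec]

/-- Rows of the same ruler family have the same entries. -/
theorem A_vr_congr {k : Fin (D + 2)} {s : Bool} (i i' : Fin N) (c : Col D N) :
    A D N (.vr k s i) c = A D N (.vr k s i') c := by
  cases c <;> simp [A]

/-- Columns of the same ruler family have the same entries. -/
theorem A_uc_congr {j : Fin (D + 1)} {s : Bool} (i i' : Fin N) (r : Row D N) :
    A D N r (.uc j s i) = A D N r (.uc j s i') := by
  cases r <;> simp [A]

/-- Tree rows at the same node have the same entries. -/
theorem A_tr_congr {j : Fin (D + 1)} {x x' : Fin (2 ^ D)} (p p' : Bool)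
    (h : (x : ℕ) / 2 ^ (D - j) = (x' : ℕ) / 2 ^ (D - j)) (c : Col D N) :
    A D N (.tr j x p) c = A D N (.tr j x' p') c := by
  cases c <;> first | rfl | (simp only [A, side, h]; done) | (simp only [A, side, h]; congr 1)

/-- Tree columns at the same node have the same entries. -/
theorem A_tc_congr {k : Fin (D + 1)} {y y' : Fin (2 ^ D)} (p p' : Bool)
    (h : (y : ℕ) / 2 ^ (D - k) = (y' : ℕ) / 2 ^ (D - k)) (r : Row D N) :
    A D N r (.tc k y p) = A D N r (.tc k y' p') := by
  cases r with
  | pim i => simp [A]
  | pip i => simp [A]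
  | pad i => simp [A]
  | vr k' s i => first | (simp only [A, side, h]; done) | (simp only [A, side, h]; congr 1)
  | tr j x q =>
    simp only [A]
    by_cases hk : (k : ℕ) = j ∨ (k : ℕ) = j + 1
    · have hjk : (j : ℕ) ≤ k := by omega
      have hk' : (k : ℕ) ≤ D := by have := k.2; omega
      have hco := div_coarser (x := (y : ℕ)) (y := (y' : ℕ)) hjk hk' h
      simp only [hk, and_true, hco]
    · simp only [hk, and_false]

end Crest.Agent.LibS0066W
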