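import Crest.Agent.Lib_S0109_Defs

/-!
# Row 82 (S0109), package APPROX: internal interface (statements only).

* `St_A1` (helper4, `Lib_S0109_ApproxA1.lean`): generic small shift of finitely many paired atoms
  making the whole interpolation injective (pure finite geometry, needs `2 ≤ d`).
* `St_A2` (helper14, `Lib_S0109_ApproxA2.lean`): single-scale finite approximation of a coupling
  carried by `Y × Y`, with an explicit error bound for every continuous test function on pairs.
* `St_A2fin`: the same as `St_A2` but with an arbitrary finite nonempty index type instead of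
  `Fin N`; `Lib_S0109_ApproxGlue_h4.lean` proves `St_A2fin → St_A2`, so either form may be proved.
* GLUE (helper4, `Lib_S0109_ApproxGlue_h4.lean`): `St_A1 → St_A2 → St_APPROX`.

The statements `St_A1`, `St_A2` are the ones posted by helper13 (board #506).
-/

set_option autoImplicit false
open MeasureTheory
open scoped ENNReal NNReal InnerProductSpace

namespace Crest.Agent.LibS0109

/-- **A1** (generic shift): finitely many paired atoms `p i, q i` can be moved by at most `η` so
that the interpolated atoms `y i + t • (z i - y i)` are pairwise distinct for all `t ∈ [0,1]`. -/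
def St_A1 : Prop :=
  ∀ (d N : ℕ), 2 ≤ d → ∀ (p q : Fin N → E d) (η : ℝ), 0 < η →
    ∃ y z : Fin N → E d, (∀ i, ‖y i - p i‖ ≤ η) ∧ (∀ i, ‖z i - q i‖ ≤ η) ∧
      ∀ t : ℝ, 0 ≤ t → t ≤ 1 → Function.Injective (fun i => y i + t • (z i - y i))

/-- **A2** (single-scale approximation of a coupling): for every scale `η > 0` there are finitely
many weighted pairs of atoms in `Y` which integrate every continuous `F` on pairs up to the
`η`-oscillation of `F` on `Y × Y`. -/
def St_A2 : Prop :=
  ∀ (d : ℕ) (Y : Set (E d)), IsCompact Y → Y.Nonempty →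
    ∀ (μ ν : Measure (E d)) (π : Measure (E d × E d)),
      Crest.AnalysisR.OT.IsProbabilityOn Y μ → Crest.AnalysisR.OT.IsProbabilityOn Y ν →
      Crest.AnalysisR.OT.IsPairCoupling μ ν π →
      ∀ η > 0, ∃ (N : ℕ) (_ : NeZero N) (m : Fin N → ℝ) (p q : Fin N → E d),
        (∀ i, 0 < m i) ∧ ∑ i, m i = 1 ∧ (∀ i, p i ∈ Y) ∧ (∀ i, q i ∈ Y) ∧
        ∀ (F : E d × E d → ℝ) (ε : ℝ), Continuous F →
          (∀ a ∈ Y, ∀ b ∈ Y, ∀ a' ∈ Y, ∀ b' ∈ Y, ‖a - a'‖ ≤ η → ‖b - b'‖ ≤ η →
            |F (a, b) - F (a', b')| ≤ ε) →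
          |∑ i, m i * F (p i, q i) - ∫ x, F x ∂π| ≤ ε

/-- **A2fin**: `St_A2` with an arbitrary finite nonempty index type instead of `Fin N`
(e.g. the subtype of pairs of pieces of positive mass). -/
def St_A2fin : Prop :=
  ∀ (d : ℕ) (Y : Set (E d)), IsCompact Y → Y.Nonempty →
    ∀ (μ ν : Measure (E d)) (π : Measure (E d × E d)),
      Crest.AnalysisR.OT.IsProbabilityOn Y μ → Crest.AnalysisR.OT.IsProbabilityOn Y ν →
      Crest.AnalysisR.OT.IsPairCoupling μ ν π →
      ∀ η > 0, ∃ (ι : Type) (_ : Fintype ι) (_ : Nonempty ι) (m : ι → ℝ) (p q : ι → E d),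
        (∀ i, 0 < m i) ∧ ∑ i, m i = 1 ∧ (∀ i, p i ∈ Y) ∧ (∀ i, q i ∈ Y) ∧
        ∀ (F : E d × E d → ℝ) (ε : ℝ), Continuous F →
          (∀ a ∈ Y, ∀ b ∈ Y, ∀ a' ∈ Y, ∀ b' ∈ Y, ‖a - a'‖ ≤ η → ‖b - b'‖ ≤ η →
            |F (a, b) - F (a', b')| ≤ ε) →
          |∑ i, m i * F (p i, q i) - ∫ x, F x ∂π| ≤ ε

end Crest.Agent.LibS0109
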