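import Mathlib
import Crest.Agent.Lib_S0109_ApproxDefs_h4

/-!
# Row 82 (S0109), package APPROX, part A2 (single-scale finite approximation of a coupling).

`Crest.Agent.LibS0109.A2h12.pkg_A2fin : St_A2fin`.

Route: a finite `η`-net of `Y`, the measurable map `r` sending a point to the first net point
within distance `η`, and the push-forward of `π` under `(r ∘ fst, r ∘ snd)`, which is a finitely
supported probability measure.
-/

set_option autoImplicit false
open MeasureTheory Filter Topology
open scoped ENNReal NNReal InnerProductSpace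

namespace Crest.Agent.LibS0109
namespace A2h12

variable {d : ℕ}

/-- First point of the list `l` within distance `< η` of `a` (default `y₀`). -/
noncomputable def near (y₀ : E d) (η : ℝ) (l : List (E d)) (a : E d) : E d :=
  open Classical in l.foldr (fun c acc => if a ∈ Metric.ball c η then c else acc) y₀

lemma near_nil (y₀ : E d) (η : ℝ) (a : E d) : near y₀ η [] a = y₀ := rfl

lemma near_cons (y₀ : E d) (η : ℝ) (c : E d) (l : List (E d)) (a : E d) :
    near y₀ η (c :: l) a = open Classical in
      if a ∈ Metric.ball c η then c else near y₀ η l a := rfl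

lemma measurable_near (y₀ : E d) (η : ℝ) (l : List (E d)) : Measurable (near y₀ η l) := by
  classical
  induction l with
  | nil => exact measurable_const
  | cons c l ih =>
    have h : near y₀ η (c :: l) = fun a => if a ∈ Metric.ball c η then c else near y₀ η l a := by
      funext a
      rw [near_cons]
    rw [h]
    exact Measurable.ite Metric.isOpen_ball.measurableSet measurable_const ih

lemma near_mem (y₀ : E d) (η : ℝ) (l : List (E d)) (a : E d) :
    near y₀ η l a = y₀ ∨ near y₀ η l a ∈ l := by
  classical
  induction l with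
  | nil => exact Or.inl rfl
  | cons c l ih =>
    rw [near_cons]
    by_cases h : a ∈ Metric.ball c η
    · rw [if_pos h]
      exact Or.inr List.mem_cons_self
    · rw [if_neg h]
      rcases ih with h1 | h1
      · exact Or.inl h1
      · exact Or.inr (List.mem_cons_of_mem _ h1)

lemma near_close (y₀ : E d) (η : ℝ) (l : List (E d)) (a : E d)
    (h : ∃ c ∈ l, a ∈ Metric.ball c η) : a ∈ Metric.ball (near y₀ η l a) η := by
  classical
  induction l with
  | nil =>
    obtain ⟨c, hc, -⟩ := h
    simp at hc
  | cons c l ih =>
    rw [near_cons]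
    by_cases h1 : a ∈ Metric.ball c η
    · rw [if_pos h1]
      exact h1
    · rw [if_neg h1]
      apply ih
      obtain ⟨c', hc', hac'⟩ := h
      rcases List.mem_cons.mp hc' with rfl | hc''
      · exact absurd hac' h1
      · exact ⟨c', hc'', hac'⟩

end A2h12

open A2h12 in
/-- **A2fin**: single-scale finite approximation of a coupling carried by `Y × Y`. -/
theorem A2h12.pkg_A2fin : St_A2fin := by
  intro d Y hYc hYne μ ν π hμ hν hπ η hη
  classical
  obtain ⟨y₀, hy₀⟩ := hYne
  obtain ⟨t, htY, htfin, hcov⟩ := hYc.finite_cover_balls hη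
  set l : List (E d) := htfin.toFinset.toList with hl
  have hlmem : ∀ c, c ∈ l ↔ c ∈ t := by
    intro c
    simp [hl]
  set r : E d → E d := near y₀ η l with hr
  have hr_meas : Measurable r := measurable_near y₀ η l
  have hr_Y : ∀ a, r a ∈ Y := by
    intro a
    rcases near_mem y₀ η l a with h | h
    · rw [hr, h]
      exact hy₀
    · exact htY ((hlmem _).mp h)
  have hr_close : ∀ a ∈ Y, ‖r a - a‖ ≤ η := by
    intro a ha
    have h1 : ∃ c ∈ l, a ∈ Metric.ball c η := by
      have := hcov ha
      simp only [Set.mem_iUnion, exists_prop] at this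
      obtain ⟨c, hc, hac⟩ := this
      exact ⟨c, (hlmem c).mpr hc, hac⟩
    have h2 := near_close y₀ η l a h1
    rw [Metric.mem_ball, dist_eq_norm, norm_sub_rev] at h2
    exact h2.le
  set R : E d × E d → E d × E d := fun x => (r x.1, r x.2) with hR
  have hR_meas : Measurable R :=
    (hr_meas.comp measurable_fst).prodMk (hr_meas.comp measurable_snd)
  -- facts about `π`
  have hYmeas : MeasurableSet Y := hYc.isClosed.measurableSet
  have hπprob : IsProbabilityMeasure π := by
    refine ⟨?_⟩
    have h1 : μ Set.univ = 1 := hμ.1.measure_univ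
    rw [← hπ.1, Measure.map_apply measurable_fst MeasurableSet.univ] at h1
    simpa using h1
  have hπYY : π (Y ×ˢ Y)ᶜ = 0 := by
    have hsub : (Y ×ˢ Y)ᶜ ⊆ Prod.fst ⁻¹' Yᶜ ∪ Prod.snd ⁻¹' Yᶜ := by
      intro x hx
      by_contra hcon
      simp only [Set.mem_union, Set.mem_preimage, Set.mem_compl_iff, not_or, not_not] at hcon
      exact hx ⟨hcon.1, hcon.2⟩
    refine measure_mono_null hsub (measure_union_null ?_ ?_)
    · have h1 : μ Yᶜ = 0 := hμ.2
      rw [← hπ.1, Measure.map_apply measurable_fst hYmeas.compl] at h1
      exact h1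
    · have h1 : ν Yᶜ = 0 := hν.2
      rw [← hπ.2, Measure.map_apply measurable_snd hYmeas.compl] at h1
      exact h1
  have hae : ∀ᵐ x ∂π, x ∈ Y ×ˢ Y := by
    have := measure_eq_zero_iff_ae_notMem.mp hπYY
    filter_upwards [this] with x hx
    by_contra hcon
    exact hx hcon
  -- the finite support
  set T : Finset (E d) := insert y₀ l.toFinset with hT
  set S : Finset (E d × E d) := T ×ˢ T with hS
  have hrT : ∀ a, r a ∈ T := by
    intro a
    rcases near_mem y₀ η l a with h | h
    · rw [hr, h, hT]
      exact Finset.mem_insert_self _ _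
    · rw [hT]
      exact Finset.mem_insert_of_mem (List.mem_toFinset.mpr h)
  have hRS : ∀ x, R x ∈ S := fun x => Finset.mem_product.mpr ⟨hrT x.1, hrT x.2⟩
  set π' : Measure (E d × E d) := π.map R with hπ'
  have hπ'prob : IsProbabilityMeasure π' := Measure.isProbabilityMeasure_map hR_meas.aemeasurable
  have hπ'S : π' (↑S : Set (E d × E d))ᶜ = 0 := by
    rw [hπ', Measure.map_apply hR_meas S.measurableSet.compl]
    have hempty : R ⁻¹' (↑S : Set (E d × E d))ᶜ = ∅ := by
      ext x
      simp only [Set.mem_preimage, Set.mem_compl_iff, Finset.mem_coe, Set.mem_empty_iff_false,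
        iff_false, not_not]
      exact hRS x
    rw [hempty, measure_empty]
  have hae' : ∀ᵐ x ∂π', x ∈ (↑S : Set (E d × E d)) := by
    have := measure_eq_zero_iff_ae_notMem.mp hπ'S
    filter_upwards [this] with x hx
    by_contra hcon
    exact hx hcon
  have hsumS : ∑ s ∈ S, π'.real {s} = 1 := by
    rw [sum_measureReal_singleton]
    have h1 : π' (↑S : Set (E d × E d)) = 1 := by
      have h2 := prob_compl_eq_zero_iff (μ := π') S.measurableSet
      exact h2.mp hπ'S
    rw [measureReal_def, h1]
    simp
  -- the index type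
  set S' : Finset (E d × E d) := S.filter (fun s => 0 < π'.real {s}) with hS'
  have hsumS' : ∑ s ∈ S', π'.real {s} = 1 := by
    rw [hS', Finset.sum_filter_of_ne]
    · exact hsumS
    · intro x _ hx
      exact lt_of_le_of_ne measureReal_nonneg (Ne.symm hx)
  have hne : S'.Nonempty := by
    by_contra hcon
    rw [Finset.not_nonempty_iff_eq_empty] at hcon
    rw [hcon, Finset.sum_empty] at hsumS'
    exact zero_ne_one hsumS'
  refine ⟨↥S', inferInstance, hne.to_subtype, fun i => π'.real {i.1}, fun i => i.1.1,
    fun i => i.1.2, ?_, ?_, ?_, ?_, ?_⟩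
  · intro i
    exact (Finset.mem_filter.mp i.2).2
  · rw [Finset.sum_coe_sort S' (fun s => π'.real {s})]
    exact hsumS'
  · intro i
    have h1 := (Finset.mem_product.mp (Finset.mem_filter.mp i.2).1).1
    rw [hT, Finset.mem_insert, List.mem_toFinset] at h1
    show i.1.1 ∈ Y
    rcases h1 with h1 | h1
    · rw [h1]
      exact hy₀
    · exact htY ((hlmem _).mp h1)
  · intro i
    have h1 := (Finset.mem_product.mp (Finset.mem_filter.mp i.2).1).2
    rw [hT, Finset.mem_insert, List.mem_toFinset] at h1
    show i.1.2 ∈ Y
    rcases h1 with h1 | h1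
    · rw [h1]
      exact hy₀
    · exact htY ((hlmem _).mp h1)
  · intro F ε hF hosc
    have hFm : Measurable F := hF.measurable
    -- the sum is the integral of `F ∘ R`
    have hsum : ∑ i : ↥S', π'.real {i.1} * F (i.1.1, i.1.2) = ∫ x, F (R x) ∂π := by
      have h1 : ∑ i : ↥S', π'.real {i.1} * F (i.1.1, i.1.2) = ∑ s ∈ S', π'.real {s} * F s :=
        Finset.sum_coe_sort S' (fun s => π'.real {s} * F s)
      have h2 : ∑ s ∈ S', π'.real {s} * F s = ∑ s ∈ S, π'.real {s} * F s := by
        rw [hS', Finset.sum_filter_of_ne]
        intro x _ hx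
        have hx' : π'.real {x} ≠ 0 := fun h0 => hx (by rw [h0, zero_mul])
        exact lt_of_le_of_ne measureReal_nonneg (Ne.symm hx')
      have hintS : IntegrableOn F (↑S : Set (E d × E d)) π' := by
        refine Integrable.of_bound hFm.aestronglyMeasurable (∑ s ∈ S, |F s|) ?_
        filter_upwards [ae_restrict_mem S.measurableSet] with x hx
        rw [Real.norm_eq_abs]
        exact Finset.single_le_sum (f := fun s => |F s|) (fun s _ => abs_nonneg _)
          (Finset.mem_coe.mp hx)
      have h3 : ∫ x in (↑S : Set (E d × E d)), F x ∂π' = ∑ s ∈ S, π'.real {s} • F s :=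
        setIntegral_finset S hintS
      have h4 : ∫ x in (↑S : Set (E d × E d)), F x ∂π' = ∫ x, F x ∂π' := by
        rw [Measure.restrict_eq_self_of_ae_mem hae']
      have h5 : ∫ x, F x ∂π' = ∫ x, F (R x) ∂π :=
        integral_map hR_meas.aemeasurable hFm.aestronglyMeasurable
      rw [h1, h2, ← h5, ← h4, h3]
      simp only [smul_eq_mul]
    rw [hsum]
    -- integrability
    have hint1 : Integrable (fun x => F (R x)) π := by
      refine Integrable.of_bound (hFm.comp hR_meas).aestronglyMeasurable (∑ s ∈ S, |F s|) ?_
      refine Eventually.of_forall fun x => ?_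
      rw [Real.norm_eq_abs]
      exact Finset.single_le_sum (f := fun s => |F s|) (fun s _ => abs_nonneg _) (hRS x)
    obtain ⟨C, hC⟩ := (hYc.prod hYc).exists_bound_of_continuousOn hF.continuousOn
    have hint2 : Integrable F π := by
      refine Integrable.of_bound hFm.aestronglyMeasurable C ?_
      filter_upwards [hae] with x hx
      exact hC x hx
    rw [← integral_sub hint1 hint2]
    have hbound : ∀ᵐ x ∂π, ‖F (R x) - F x‖ ≤ ε := by
      filter_upwards [hae] with x hx
      rw [Real.norm_eq_abs]
      exact hosc (r x.1) (hr_Y _) (r x.2) (hr_Y _) x.1 hx.1 x.2 hx.2 (hr_close _ hx.1)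
        (hr_close _ hx.2)
    have h6 := norm_integral_le_of_norm_le_const hbound
    rw [Real.norm_eq_abs] at h6
    simpa using h6

end Crest.Agent.LibS0109
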