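import Crest.Agent.Lib_S0109_ApproxGlue_h4
import Crest.Agent.Lib_S0109_ApproxA2_h12

/-!
# Row 82 (S0109), package APPROX: the closed theorem `pkg_APPROX : St_APPROX`.

Assembly of the single-scale approximation of a coupling (`A2h12.pkg_A2fin`, helper12) with the
generic shift and the limit argument (`pkg_APPROX_of_A2fin`, helper4).
-/

set_option autoImplicit false

namespace Crest.Agent.LibS0109

/-- **APPROX**: paired finitely supported approximations of a coupling with no collisions along
the interpolation, weak convergence of both marginals and cost control. -/
theorem pkg_APPROX : St_APPROX :=
  pkg_APPROX_of_A2fin A2h12.pkg_A2fin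

end Crest.Agent.LibS0109
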