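import Crest.Agent.Lib_S0109_ApproxDefs_h4

/-!
# Row 82 (S0109), package APPROX, part A1: the generic shift (helper4).

`generic_shift`: in dimension `d ≥ 2`, finitely many paired atoms `p a, q a` can be translated by
vectors `s a` of norm `≤ η` (the SAME translation for `p a` and `q a`) so that the interpolated
atoms are pairwise distinct for every real `t`.  `pkg_A1 : St_A1` is the interface form.

Proof: `s a = (ε * a) • e` where `e = e₀ + δ e₁` is a direction to which no nonzero difference
`p a - p b`, `q a - q b` is parallel (all but finitely many `δ`), and `ε ∈ (0, εmax]` avoids at most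
one bad value for each ordered pair `a ≠ b`.
-/

set_option autoImplicit false
open MeasureTheory
open scoped ENNReal NNReal InnerProductSpace

namespace Crest.Agent.LibS0109

namespace ApproxA1

/-- A direction `e ≠ 0` such that no nonzero vector of the finite set `D` is a multiple of `e`. -/
theorem exists_generic_direction {d : ℕ} (hd : 2 ≤ d) (D : Finset (E d)) :
    ∃ e : E d, e ≠ 0 ∧ ∀ w ∈ D, ∀ c : ℝ, w = c • e → w = 0 := by
  classical
  let i0 : Fin d := ⟨0, by omega⟩
  let i1 : Fin d := ⟨1, by omega⟩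
  have h01 : i0 ≠ i1 := by
    intro h
    have := congrArg Fin.val h
    simp [i0, i1] at this
  let e : ℝ → E d := fun δ => EuclideanSpace.single i0 (1 : ℝ) + δ • EuclideanSpace.single i1 (1 : ℝ)
  have he0 : ∀ δ, (e δ) i0 = 1 := by
    intro δ
    simp [e, h01]
  have he1 : ∀ δ, (e δ) i1 = δ := by
    intro δ
    simp [e, h01.symm]
  -- bad parameters for a nonzero vector
  let S : E d → Set ℝ := fun w => {δ | ∃ c : ℝ, w = c • e δ}
  have hS : ∀ w : E d, w ≠ 0 → (S w).Subsingleton := by
    intro w hw δ hδ δ' hδ'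
    obtain ⟨c, hc⟩ := hδ
    obtain ⟨c', hc'⟩ := hδ'
    have h0 : w i0 = c := by
      have := congrArg (fun v : E d => v i0) hc
      simpa [he0] using this
    have h0' : w i0 = c' := by
      have := congrArg (fun v : E d => v i0) hc'
      simpa [he0] using this
    have h1 : w i1 = c * δ := by
      have := congrArg (fun v : E d => v i1) hc
      simpa [he1] using this
    have h1' : w i1 = c' * δ' := by
      have := congrArg (fun v : E d => v i1) hc'
      simpa [he1] using this
    have hcc : c = c' := by rw [← h0, h0']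
    have hc0 : c ≠ 0 := by
      intro hc0
      apply hw
      rw [hc, hc0, zero_smul]
    subst hcc
    have : c * δ = c * δ' := by rw [← h1, h1']
    exact mul_left_cancel₀ hc0 this
  have hfin : (⋃ w ∈ {w : E d | w ∈ D ∧ w ≠ 0}, S w).Finite := by
    apply Set.Finite.biUnion
    · exact (D.finite_toSet).subset (fun w hw => hw.1)
    · intro w hw
      exact (hS w hw.2).finite
  obtain ⟨δ, hδ⟩ := hfin.exists_notMem
  refine ⟨e δ, ?_, ?_⟩
  · intro h
    have := he0 δ
    rw [h] at this
    simp at this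
  · intro w hw c hc
    by_contra hw0
    apply hδ
    simp only [Set.mem_iUnion, Set.mem_ofPred_eq, exists_prop]
    exact ⟨w, ⟨hw, hw0⟩, c, hc⟩

/-- The generic shift: a common small translation `s a` of each pair `p a, q a` making the whole
interpolation injective (for every real `t`). -/
theorem generic_shift {d : ℕ} (hd : 2 ≤ d) {N : ℕ} (p q : Fin N → E d) {η : ℝ} (hη : 0 < η) :
    ∃ s : Fin N → E d, (∀ a, ‖s a‖ ≤ η) ∧
      ∀ t : ℝ, Function.Injective
        (fun a => (p a + s a) + t • ((q a + s a) - (p a + s a))) := by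
  classical
  let D : Finset (E d) :=
    (Finset.univ.image (fun ab : Fin N × Fin N => p ab.1 - p ab.2)) ∪
      (Finset.univ.image (fun ab : Fin N × Fin N => q ab.1 - q ab.2))
  have hDp : ∀ a b : Fin N, p a - p b ∈ D := by
    intro a b
    apply Finset.mem_union_left
    exact Finset.mem_image.2 ⟨(a, b), Finset.mem_univ _, rfl⟩
  have hDq : ∀ a b : Fin N, q a - q b ∈ D := by
    intro a b
    apply Finset.mem_union_right
    exact Finset.mem_image.2 ⟨(a, b), Finset.mem_univ _, rfl⟩
  obtain ⟨e, he0, he⟩ := exists_generic_direction hd D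
  -- the bad values of `ε` for an ordered pair
  let B : Fin N × Fin N → Set ℝ := fun ab =>
    {ε | ε ≠ 0 ∧ ∃ t : ℝ, (p ab.1 - p ab.2) + t • ((q ab.1 - q ab.2) - (p ab.1 - p ab.2)) =
      (ε * (((ab.2 : ℕ) : ℝ) - ((ab.1 : ℕ) : ℝ))) • e}
  have hB : ∀ ab : Fin N × Fin N, ab.1 ≠ ab.2 → (B ab).Subsingleton := by
    rintro ⟨a, b⟩ hab ε hε ε' hε'
    simp only [ne_eq] at hab
    obtain ⟨hε0, t, ht⟩ := hε
    obtain ⟨hε0', t', ht'⟩ := hε'
    simp only at ht ht'
    set u : E d := p a - p b with hu
    set v : E d := q a - q b with hv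
    set κ : ℝ := ((b : ℕ) : ℝ) - ((a : ℕ) : ℝ) with hκ
    have hκ0 : κ ≠ 0 := by
      intro h
      apply hab
      have h' : ((b : ℕ) : ℝ) = ((a : ℕ) : ℝ) := by linarith
      have h'' : (b : ℕ) = (a : ℕ) := by exact_mod_cast h'
      exact (Fin.ext h'').symm
    by_contra hne
    have hne' : (ε - ε') * κ ≠ 0 := mul_ne_zero (sub_ne_zero.2 hne) hκ0
    have hsub : (t - t') • (v - u) = ((ε - ε') * κ) • e := by
      have : (u + t • (v - u)) - (u + t' • (v - u)) = (ε * κ) • e - (ε' * κ) • e := by
        rw [ht, ht']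
      calc (t - t') • (v - u) = (u + t • (v - u)) - (u + t' • (v - u)) := by
            rw [sub_smul]; abel
        _ = (ε * κ) • e - (ε' * κ) • e := this
        _ = ((ε - ε') * κ) • e := by rw [← sub_smul]; ring_nf
    have htt : t - t' ≠ 0 := by
      intro h
      rw [h, zero_smul] at hsub
      have := hsub.symm
      rcases smul_eq_zero.1 this with h1 | h1
      · exact hne' h1
      · exact he0 h1
    have hvu : v - u = (((ε - ε') * κ) / (t - t')) • e := by
      have : v - u = (t - t')⁻¹ • ((t - t') • (v - u)) := by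
        rw [smul_smul, inv_mul_cancel₀ htt, one_smul]
      rw [this, hsub, smul_smul]
      congr 1
      field_simp
    have hu' : u = (ε * κ - t * (((ε - ε') * κ) / (t - t'))) • e := by
      have : u = (ε * κ) • e - t • (v - u) := by
        rw [← ht]; abel
      rw [this, hvu, smul_smul, ← sub_smul]
    have hu0 : u = 0 := he u (hDp a b) _ hu'
    have hv' : v = (((ε - ε') * κ) / (t - t')) • e := by
      have h : v - u = v := by rw [hu0, sub_zero]
      rw [← h]
      exact hvu
    have hv0 : v = 0 := he v (hDq a b) _ hv'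
    rw [hu0, hv0] at ht
    simp only [sub_self, smul_zero, add_zero] at ht
    rcases smul_eq_zero.1 ht.symm with h1 | h1
    · exact (mul_ne_zero hε0 hκ0) h1
    · exact he0 h1
  have hfin : (⋃ ab ∈ {ab : Fin N × Fin N | ab.1 ≠ ab.2}, B ab).Finite :=
    Set.Finite.biUnion (Set.toFinite _) (fun ab hab => (hB ab hab).finite)
  set εmax : ℝ := η / ((N : ℝ) * ‖e‖ + 1) with hεmax_def
  have hden : 0 < (N : ℝ) * ‖e‖ + 1 := by positivity
  have hεmax : 0 < εmax := div_pos hη hden
  obtain ⟨ε, hεmem, hεbad⟩ :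
      ∃ ε ∈ Set.Ioc (0 : ℝ) εmax, ε ∉ ⋃ ab ∈ {ab : Fin N × Fin N | ab.1 ≠ ab.2}, B ab := by
    have h := ((Set.Ioc_infinite hεmax).sdiff hfin).nonempty
    obtain ⟨ε, h1, h2⟩ := h
    exact ⟨ε, h1, h2⟩
  have hε0 : 0 < ε := hεmem.1
  refine ⟨fun a => (ε * ((a : ℕ) : ℝ)) • e, ?_, ?_⟩
  · intro a
    rw [norm_smul, Real.norm_eq_abs, abs_of_nonneg (by positivity)]
    have ha : ((a : ℕ) : ℝ) ≤ (N : ℝ) := by exact_mod_cast a.2.le
    have h1 : ε * ((a : ℕ) : ℝ) * ‖e‖ ≤ εmax * ((N : ℝ) * ‖e‖ + 1) := by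
      have h2 : ε * ((a : ℕ) : ℝ) * ‖e‖ ≤ εmax * ((N : ℝ) * ‖e‖) := by
        have := mul_le_mul hεmem.2 (mul_le_mul_of_nonneg_right ha (norm_nonneg e))
          (by positivity) hεmax.le
        calc ε * ((a : ℕ) : ℝ) * ‖e‖ = ε * (((a : ℕ) : ℝ) * ‖e‖) := by ring
          _ ≤ εmax * ((N : ℝ) * ‖e‖) := this
      have h3 : εmax * ((N : ℝ) * ‖e‖) ≤ εmax * ((N : ℝ) * ‖e‖ + 1) := by
        apply mul_le_mul_of_nonneg_left _ hεmax.le
        linarith
      exact h2.trans h3
    have h4 : εmax * ((N : ℝ) * ‖e‖ + 1) = η := by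
      rw [hεmax_def]
      field_simp
    linarith
  · intro t a b hab
    by_contra hne
    apply hεbad
    simp only [Set.mem_iUnion, Set.mem_ofPred_eq, exists_prop]
    refine ⟨(a, b), hne, hε0.ne', t, ?_⟩
    simp only at hab ⊢
    have h1 : (p a + (ε * ((a : ℕ) : ℝ)) • e) + t • (q a - p a) =
        (p b + (ε * ((b : ℕ) : ℝ)) • e) + t • (q b - p b) := by
      have e1 : q a + (ε * ((a : ℕ) : ℝ)) • e - (p a + (ε * ((a : ℕ) : ℝ)) • e) = q a - p a := by
        abel
      have e2 : q b + (ε * ((b : ℕ) : ℝ)) • e - (p b + (ε * ((b : ℕ) : ℝ)) • e) = q b - p b := by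
        abel
      rw [e1, e2] at hab
      exact hab
    have h2 : (p a - p b) + t • ((q a - q b) - (p a - p b)) =
        (ε * ((b : ℕ) : ℝ)) • e - (ε * ((a : ℕ) : ℝ)) • e := by
      have e3 : (p a - p b) + t • ((q a - q b) - (p a - p b)) =
          ((p a + (ε * ((a : ℕ) : ℝ)) • e) + t • (q a - p a)) -
            ((p b + (ε * ((b : ℕ) : ℝ)) • e) + t • (q b - p b)) +
            ((ε * ((b : ℕ) : ℝ)) • e - (ε * ((a : ℕ) : ℝ)) • e) := by
        simp only [smul_sub]
        abel
      rw [e3, h1]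
      abel
    rw [h2, ← sub_smul]
    congr 1
    ring

end ApproxA1

/-- **A1**: interface form of the generic shift. -/
theorem pkg_A1 : St_A1 := by
  intro d N hd p q η hη
  obtain ⟨s, hs, hinj⟩ := ApproxA1.generic_shift hd p q hη
  refine ⟨fun i => p i + s i, fun i => q i + s i, ?_, ?_, ?_⟩
  · intro i
    simpa using hs i
  · intro i
    simpa using hs i
  · intro t _ _
    exact hinj t

end Crest.Agent.LibS0109
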