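import Crest.Agent.Lib_S0109_ApproxA1

/-!
# Row 82 (S0109), package APPROX: the glue (helper4).

* `A2_of_A2fin : St_A2fin → St_A2` (transfer of the index type to `Fin N`).
* `pkg_APPROX_of_A2 : St_A2 → St_APPROX`: apply `St_A2` at the scales `η_n = 1/(n+1)`, shift the
  atoms by the generic shift of size `≤ η_n` (`ApproxA1.generic_shift`), and pass to the limit:
  the shifted atoms stay in `cthickening 1 Y`; `z - y = q - p`, so the cost sums are unchanged;
  the weak limits are unchanged because a continuous `f` is uniformly continuous on the compact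
  set `cthickening 1 Y`; the cost test function `‖a - b‖²` has `η`-oscillation `≤ 8 D η` on
  `Y × Y` (`Y ⊆ closedBall 0 D`), and `(quadCost π).toReal = ∫ ‖a - b‖² dπ`.
-/

set_option autoImplicit false
open MeasureTheory
open scoped ENNReal NNReal InnerProductSpace

namespace Crest.Agent.LibS0109

/-- Transfer of the index type: the `Fintype` form of A2 implies the `Fin N` form. -/
theorem A2_of_A2fin (h : St_A2fin) : St_A2 := by
  intro d Y hYc hYn μ ν π hμ hν hπ η hη
  obtain ⟨ι, hfin, hne, m, p, q, hm, hsum, hp, hq, hF⟩ := h d Y hYc hYn μ ν π hμ hν hπ η hη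
  let e : ι ≃ Fin (Fintype.card ι) := Fintype.equivFin ι
  refine ⟨Fintype.card ι, ⟨Fintype.card_ne_zero⟩, fun i => m (e.symm i), fun i => p (e.symm i),
    fun i => q (e.symm i), fun i => hm _, ?_, fun i => hp _, fun i => hq _, ?_⟩
  · rw [← hsum]
    exact Equiv.sum_comp e.symm m
  · intro F ε hFc hosc
    have h1 := hF F ε hFc hosc
    have h2 : ∑ i, m (e.symm i) * F (p (e.symm i), q (e.symm i)) = ∑ i, m i * F (p i, q i) :=
      Equiv.sum_comp e.symm (fun i => m i * F (p i, q i))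
    rw [h2]
    exact h1

namespace ApproxGlue

/-- The quadratic cost as a Bochner integral. -/
theorem quadCost_toReal {d : ℕ} (π : Measure (E d × E d)) :
    (Crest.AnalysisR.OT.quadCost π).toReal = ∫ x, ‖x.1 - x.2‖ ^ 2 ∂π := by
  unfold Crest.AnalysisR.OT.quadCost
  rw [← integral_toReal]
  · refine integral_congr_ae (Filter.Eventually.of_forall fun x => ?_)
    simp [ENNReal.toReal_pow]
  · fun_prop
  · exact Filter.Eventually.of_forall (fun x => by simp)

/-- Oscillation of the quadratic cost on a bounded set. -/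
theorem cost_osc {d : ℕ} {D η : ℝ} {a b a' b' : E d} (ha : ‖a‖ ≤ D) (hb : ‖b‖ ≤ D)
    (ha' : ‖a'‖ ≤ D) (hb' : ‖b'‖ ≤ D) (h1 : ‖a - a'‖ ≤ η) (h2 : ‖b - b'‖ ≤ η) :
    |‖a - b‖ ^ 2 - ‖a' - b'‖ ^ 2| ≤ 8 * D * η := by
  have hx : ‖a - b‖ ≤ 2 * D := (norm_sub_le a b).trans (by linarith)
  have hx' : ‖a' - b'‖ ≤ 2 * D := (norm_sub_le a' b').trans (by linarith)
  have hd : |‖a - b‖ - ‖a' - b'‖| ≤ 2 * η := by
    calc |‖a - b‖ - ‖a' - b'‖| ≤ ‖(a - b) - (a' - b')‖ := abs_norm_sub_norm_le _ _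
      _ = ‖(a - a') - (b - b')‖ := by congr 1; abel
      _ ≤ ‖a - a'‖ + ‖b - b'‖ := norm_sub_le _ _
      _ ≤ 2 * η := by linarith
  have hη : 0 ≤ 2 * η := (abs_nonneg _).trans hd
  have hfac : ‖a - b‖ ^ 2 - ‖a' - b'‖ ^ 2 =
      (‖a - b‖ - ‖a' - b'‖) * (‖a - b‖ + ‖a' - b'‖) := by ring
  rw [hfac, abs_mul]
  have h3 : |‖a - b‖ + ‖a' - b'‖| ≤ 4 * D := by
    rw [abs_of_nonneg (by positivity)]
    linarith
  calc |‖a - b‖ - ‖a' - b'‖| * |‖a - b‖ + ‖a' - b'‖| ≤ (2 * η) * (4 * D) :=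
        mul_le_mul hd h3 (abs_nonneg _) hη
    _ = 8 * D * η := by ring

/-- Two weighted sums with probability weights differ by at most the sup of the differences. -/
theorem sum_close {N : ℕ} (m : Fin N → ℝ) (hm : ∀ i, 0 < m i) (hsum : ∑ i, m i = 1)
    (g g' : Fin N → ℝ) {ε : ℝ} (h : ∀ i, |g i - g' i| ≤ ε) :
    |∑ i, m i * g i - ∑ i, m i * g' i| ≤ ε := by
  rw [← Finset.sum_sub_distrib]
  calc |∑ i, (m i * g i - m i * g' i)| ≤ ∑ i, |m i * g i - m i * g' i| :=
        Finset.abs_sum_le_sum_abs _ _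
    _ ≤ ∑ i, m i * ε := by
        apply Finset.sum_le_sum
        intro i _
        rw [← mul_sub, abs_mul, abs_of_pos (hm i)]
        exact mul_le_mul_of_nonneg_left (h i) (hm i).le
    _ = ε := by rw [← Finset.sum_mul, hsum, one_mul]

/-- Weak convergence of the shifted atoms, from the single-scale estimate for the unshifted
atoms (`hA`). -/
theorem weak_aux {d : ℕ} {Y : Set (E d)} (hYc : IsCompact Y)
    (N : ℕ → ℕ) (m : ∀ n, Fin (N n) → ℝ) (hm : ∀ n i, 0 < m n i) (hsum : ∀ n, ∑ i, m n i = 1)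
    (r : ∀ n, Fin (N n) → E d) (hr : ∀ n i, r n i ∈ Y)
    (s : ∀ n, Fin (N n) → E d) (hs : ∀ n i, ‖s n i‖ ≤ 1 / ((n : ℝ) + 1))
    (f : BoundedContinuousFunction (E d) ℝ) (I : ℝ)
    (hA : ∀ (n : ℕ) (ε : ℝ),
      (∀ a ∈ Y, ∀ a' ∈ Y, ‖a - a'‖ ≤ 1 / ((n : ℝ) + 1) → |f a - f a'| ≤ ε) →
        |∑ i, m n i * f (r n i) - I| ≤ ε) :
    Filter.Tendsto (fun n => ∑ i, m n i * f (r n i + s n i)) Filter.atTop (nhds I) := by
  have hY' : IsCompact (Metric.cthickening 1 Y) := hYc.cthickening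
  have hYsub : Y ⊆ Metric.cthickening 1 Y := Metric.self_subset_cthickening Y
  have huc : UniformContinuousOn f (Metric.cthickening 1 Y) :=
    hY'.uniformContinuousOn_of_continuous f.continuous.continuousOn
  rw [Metric.uniformContinuousOn_iff] at huc
  rw [Metric.tendsto_atTop]
  intro ε hε
  obtain ⟨δ, hδ, hδf⟩ := huc (ε / 3) (by positivity)
  obtain ⟨n0, hn0⟩ := exists_nat_one_div_lt hδ
  refine ⟨n0, fun n hn => ?_⟩
  have hηn : 1 / ((n : ℝ) + 1) < δ := by
    have h1 : 1 / ((n : ℝ) + 1) ≤ 1 / ((n0 : ℝ) + 1) := by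
      apply one_div_le_one_div_of_le (by positivity)
      have : (n0 : ℝ) ≤ (n : ℝ) := by exact_mod_cast hn
      linarith
    exact lt_of_le_of_lt h1 hn0
  have hη1 : 1 / ((n : ℝ) + 1) ≤ 1 := by
    rw [div_le_one (by positivity)]
    have : (0 : ℝ) ≤ (n : ℝ) := Nat.cast_nonneg n
    linarith
  have hmem : ∀ i, r n i + s n i ∈ Metric.cthickening 1 Y := by
    intro i
    apply Metric.mem_cthickening_of_dist_le _ (r n i) 1 Y (hr n i)
    rw [dist_eq_norm]
    simpa using (hs n i).trans hη1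
  have h1 : |∑ i, m n i * f (r n i) - I| ≤ ε / 3 := by
    apply hA n (ε / 3)
    intro a ha a' ha' haa
    have := hδf a (hYsub ha) a' (hYsub ha') (by rw [dist_eq_norm]; exact lt_of_le_of_lt haa hηn)
    rw [Real.dist_eq] at this
    exact this.le
  have h2 : |∑ i, m n i * f (r n i + s n i) - ∑ i, m n i * f (r n i)| ≤ ε / 3 := by
    apply sum_close (m n) (hm n) (hsum n)
    intro i
    have := hδf (r n i + s n i) (hmem i) (r n i) (hYsub (hr n i))
      (by rw [dist_eq_norm]; simpa using lt_of_le_of_lt (hs n i) hηn)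
    rw [Real.dist_eq] at this
    exact this.le
  rw [Real.dist_eq]
  have h3 : ∑ i, m n i * f (r n i + s n i) - I =
      (∑ i, m n i * f (r n i + s n i) - ∑ i, m n i * f (r n i)) +
        (∑ i, m n i * f (r n i) - I) := by ring
  rw [h3]
  calc |(∑ i, m n i * f (r n i + s n i) - ∑ i, m n i * f (r n i)) +
        (∑ i, m n i * f (r n i) - I)|
      ≤ |∑ i, m n i * f (r n i + s n i) - ∑ i, m n i * f (r n i)| +
        |∑ i, m n i * f (r n i) - I| := abs_add_le _ _
    _ ≤ ε / 3 + ε / 3 := add_le_add h2 h1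
    _ < ε := by linarith

end ApproxGlue

open ApproxGlue in
/-- **GLUE**: the single-scale approximation `St_A2` (with the generic shift) gives `St_APPROX`. -/
theorem pkg_APPROX_of_A2 (h2 : St_A2) : St_APPROX := by
  intro d hd Y hYc hYn μ ν π hμ hν hπ
  have hη : ∀ n : ℕ, (0 : ℝ) < 1 / ((n : ℝ) + 1) := fun n => by positivity
  have hη1 : ∀ n : ℕ, 1 / ((n : ℝ) + 1) ≤ 1 := fun n => by
    rw [div_le_one (by positivity)]
    have : (0 : ℝ) ≤ (n : ℝ) := Nat.cast_nonneg n
    linarith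
  choose N hN m p q hm hsum hp hq hF using
    fun n : ℕ => h2 d Y hYc hYn μ ν π hμ hν hπ (1 / ((n : ℝ) + 1)) (hη n)
  choose s hs hinj using fun n : ℕ => ApproxA1.generic_shift hd (p n) (q n) (hη n)
  have hmemY : ∀ (r : ∀ n, Fin (N n) → E d), (∀ n i, r n i ∈ Y) →
      ∀ n i, r n i + s n i ∈ Metric.cthickening 1 Y := by
    intro r hr n i
    apply Metric.mem_cthickening_of_dist_le _ (r n i) 1 Y (hr n i)
    rw [dist_eq_norm]
    simpa using (hs n i).trans (hη1 n)
  refine ⟨N, hN, m, fun n i => p n i + s n i, fun n i => q n i + s n i, hm, hsum,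
    hmemY p hp, hmemY q hq, fun n t _ _ => hinj n t, ?_, ?_, ?_⟩
  · -- first marginal
    intro f
    apply weak_aux hYc N m hm hsum p hp s hs f
    intro n ε hosc
    have hI : ∫ x, f x ∂μ = ∫ x, f x.1 ∂π := by
      rw [← hπ.1]
      exact integral_map measurable_fst.aemeasurable f.continuous.aestronglyMeasurable
    rw [hI]
    exact hF n (fun x => f x.1) ε (f.continuous.comp continuous_fst)
      (fun a ha b _ a' ha' b' _ haa _ => hosc a ha a' ha' haa)
  · -- second marginal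
    intro f
    apply weak_aux hYc N m hm hsum q hq s hs f
    intro n ε hosc
    have hI : ∫ x, f x ∂ν = ∫ x, f x.2 ∂π := by
      rw [← hπ.2]
      exact integral_map measurable_snd.aemeasurable f.continuous.aestronglyMeasurable
    rw [hI]
    exact hF n (fun x => f x.2) ε (f.continuous.comp continuous_snd)
      (fun a _ b hb a' _ b' hb' _ hbb => hosc b hb b' hb' hbb)
  · -- cost
    intro ε hε
    obtain ⟨D, hD⟩ := hYc.isBounded.exists_norm_le
    have hD0 : 0 ≤ D := by
      obtain ⟨a, ha⟩ := hYn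
      exact (norm_nonneg a).trans (hD a ha)
    obtain ⟨n0, hn0⟩ := exists_nat_one_div_lt (show (0 : ℝ) < ε / (8 * D + 1) by positivity)
    rw [Filter.eventually_atTop]
    refine ⟨n0, fun n hn => ?_⟩
    have hηn : 1 / ((n : ℝ) + 1) < ε / (8 * D + 1) := by
      have h1 : 1 / ((n : ℝ) + 1) ≤ 1 / ((n0 : ℝ) + 1) := by
        apply one_div_le_one_div_of_le (by positivity)
        have : (n0 : ℝ) ≤ (n : ℝ) := by exact_mod_cast hn
        linarith
      exact lt_of_le_of_lt h1 hn0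
    have h8 : 8 * D * (1 / ((n : ℝ) + 1)) ≤ ε := by
      have hpos : (0 : ℝ) < 8 * D + 1 := by positivity
      have h1 : (8 * D + 1) * (1 / ((n : ℝ) + 1)) < ε := by
        have := mul_lt_mul_of_pos_left hηn hpos
        rwa [mul_div_cancel₀ _ hpos.ne'] at this
      have h2 : 8 * D * (1 / ((n : ℝ) + 1)) ≤ (8 * D + 1) * (1 / ((n : ℝ) + 1)) := by
        apply mul_le_mul_of_nonneg_right _ (hη n).le
        linarith
      linarith
    have hcost := hF n (fun x => ‖x.1 - x.2‖ ^ 2) ε (by fun_prop)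
      (fun a ha b hb a' ha' b' hb' haa hbb =>
        (cost_osc (hD a ha) (hD b hb) (hD a' ha') (hD b' hb') haa hbb).trans h8)
    rw [← quadCost_toReal] at hcost
    have hterm : ∀ i, m n i * ‖q n i + s n i - (p n i + s n i)‖ ^ 2 =
        m n i * ‖p n i - q n i‖ ^ 2 := by
      intro i
      rw [add_sub_add_right_eq_sub, norm_sub_rev]
    rw [Finset.sum_congr rfl (fun i _ => hterm i)]
    have := (abs_le.1 hcost).2
    linarith

/-- **GLUE**, second form: from the `Fintype`-indexed single-scale approximation. -/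
theorem pkg_APPROX_of_A2fin (h2 : St_A2fin) : St_APPROX :=
  pkg_APPROX_of_A2 (A2_of_A2fin h2)

end Crest.Agent.LibS0109
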