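import Mathlib
import Crest.Prelude.Def_QuadraticTransport

/-!
# Row 82 (S0109 / S0110): shared definitions and the PLAN (package statements).

Architecture by helper13 (see board topic S0109).  Every `St_*` below is the *statement* of one
package; a package file proves `theorem pkg_X (deps...) : St_X`, taking the statements it depends
on as hypotheses.  Nothing here is proved; this file contains no `sorry`.

Conventions: `E d = EuclideanSpace ℝ (Fin d)`, `ρ K = uniformProbOn K`, index type `Fin N`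
(`[NeZero N]`), points `y : Fin N → E d`, weights `ψ : Fin N → ℝ`.
-/

set_option autoImplicit false
open MeasureTheory
open scoped ENNReal NNReal InnerProductSpace

namespace Crest.Agent.LibS0109

/-- The ambient Euclidean space. -/
abbrev E (d : ℕ) := EuclideanSpace ℝ (Fin d)

/-- The uniform probability measure on `K` (Prelude definition). -/
noncomputable abbrev ρ {d : ℕ} (K : Set (E d)) : Measure (E d) :=
  Crest.AnalysisR.OT.uniformProbOn K

/-- Laguerre cell of index `i` (in the whole space; it is intersected with `K` by `ρ K`). -/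
def cell {d N : ℕ} (y : Fin N → E d) (ψ : Fin N → ℝ) (i : Fin N) : Set (E d) :=
  {x | ∀ j, ⟪x, y j⟫_ℝ - ψ j ≤ ⟪x, y i⟫_ℝ - ψ i}

/-- The max-affine potential `x ↦ max_i (⟨x, y i⟩ - ψ i)`. -/
noncomputable def pot {d N : ℕ} (y : Fin N → E d) (ψ : Fin N → ℝ) (x : E d) : ℝ :=
  ⨆ i, (⟪x, y i⟫_ℝ - ψ i)

open Classical in
/-- The least index whose cell contains `x`. -/
noncomputable def lagIdx {d N : ℕ} [NeZero N] (y : Fin N → E d) (ψ : Fin N → ℝ) (x : E d) :
    Fin N :=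
  if h : (Finset.univ.filter (fun i => x ∈ cell y ψ i)).Nonempty then
    (Finset.univ.filter (fun i => x ∈ cell y ψ i)).min' h else 0

/-- The Laguerre map `x ↦ y (lagIdx x)`. -/
noncomputable def lagMap {d N : ℕ} [NeZero N] (y : Fin N → E d) (ψ : Fin N → ℝ) (x : E d) : E d :=
  y (lagIdx y ψ x)

/-- `ψ` is an optimal weight vector for the target `∑ m i • δ_{y i}`: the cells have
`ρ K`-masses `m`. -/
def IsOptW {d N : ℕ} (K : Set (E d)) (y : Fin N → E d) (m : Fin N → ℝ) (ψ : Fin N → ℝ) : Prop :=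
  ∀ i, (ρ K).real (cell y ψ i) = m i

/-- Lebesgue barycentre of a set. -/
noncomputable def vbary {d : ℕ} (S : Set (E d)) : E d :=
  (volume.real S)⁻¹ • ∫ x in S, x

/-! ## Package statements -/

/-- **PL**: Prékopa–Leindler with `θ = 1/2` (written with squares instead of square roots). -/
def St_PL : Prop :=
  ∀ (d : ℕ) (f g h : E d → ℝ≥0∞), Measurable f → Measurable g → Measurable h →
    (∀ x y, f x * g y ≤ h ((1 / 2 : ℝ) • (x + y)) ^ 2) →
    (∫⁻ x, f x) * (∫⁻ x, g x) ≤ (∫⁻ x, h x) ^ 2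

/-- **UB**: uniform barycentre bound for three families of cells `A, B, Cm` in `K ⊆ B(x0, R)`:
`A` and `B` are a.e. partitions of `K`, `Cm i` contains all midpoints of `A i × B i`, the `Cm i`
are a.e. disjoint, and the volume ratios are within `e^{±1}`. -/
def St_UB : Prop :=
  ∃ C : ℝ, 0 ≤ C ∧ ∀ (d N : ℕ) (x0 : E d) (R : ℝ) (K : Set (E d)) (A B Cm : Fin N → Set (E d)),
    0 < R → MeasurableSet K → K ⊆ Metric.closedBall x0 R →
    (∀ i, MeasurableSet (A i) ∧ A i ⊆ K) → (∀ i, MeasurableSet (B i) ∧ B i ⊆ K) →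
    (∀ i, MeasurableSet (Cm i) ∧ Cm i ⊆ K) →
    (∀ i, ∀ x ∈ A i, ∀ x' ∈ B i, (1 / 2 : ℝ) • (x + x') ∈ Cm i) →
    (∀ i j, i ≠ j → volume (A i ∩ A j) = 0) → volume (K \ ⋃ i, A i) = 0 →
    (∀ i j, i ≠ j → volume (B i ∩ B j) = 0) → volume (K \ ⋃ i, B i) = 0 →
    (∀ i j, i ≠ j → volume (Cm i ∩ Cm j) = 0) →
    (∀ i, 0 < volume.real (A i)) → (∀ i, 0 < volume.real (B i)) →
    (∀ i, |Real.log (volume.real (B i) / volume.real (A i))| ≤ 1) →
    ∑ i, volume.real (A i) * ‖vbary (B i) - vbary (A i)‖ ^ 2 ≤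
      C * R ^ 2 * ∑ i, volume.real (A i) * (Real.log (volume.real (B i) / volume.real (A i))) ^ 2

/-- **EX**: existence of optimal weights (semi-discrete optimal transport). -/
def St_EX : Prop :=
  ∀ (d N : ℕ) [NeZero N] (K : Set (E d)), IsCompact K → Convex ℝ K → (interior K).Nonempty →
    ∀ (y : Fin N → E d) (m : Fin N → ℝ), Function.Injective y → (∀ i, 0 < m i) → ∑ i, m i = 1 →
      ∃ ψ : Fin N → ℝ, IsOptW K y m ψ

/-- **CONT**: the optimal weights depend continuously on the masses (paired with a mean-zero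
direction `g`, which kills the additive constant). -/
def St_CONT : Prop :=
  ∀ (d N : ℕ) [NeZero N] (K : Set (E d)), IsCompact K → Convex ℝ K → (interior K).Nonempty →
    ∀ (y : Fin N → E d) (m g : Fin N → ℝ), Function.Injective y → (∀ i, 0 < m i) →
      ∑ i, m i = 1 → ∑ i, m i * g i = 0 →
      ∀ ψ0, IsOptW K y m ψ0 → ∀ ε > 0, ∃ δ > 0, ∀ s : ℝ, |s| < δ →
        ∀ ψs, IsOptW K y (fun i => m i * (1 + s * g i)) ψs →
          |∑ i, m i * g i * (ψs i - ψ0 i)| ≤ ε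

/-- **DUAL** (the key estimate (b) for paired finitely supported targets): the potentials are
`W₂`-Lipschitz in `L²(ρ K)` modulo constants. -/
def St_DUAL : Prop :=
  ∀ (d : ℕ) (K : Set (E d)), IsCompact K → Convex ℝ K → (interior K).Nonempty →
    ∃ C : ℝ, 0 ≤ C ∧ ∀ (N : ℕ) [NeZero N] (y z : Fin N → E d) (m ψ0 ψ1 : Fin N → ℝ),
      (∀ t : ℝ, 0 ≤ t → t ≤ 1 → Function.Injective (fun i => y i + t • (z i - y i))) →
      (∀ i, 0 < m i) → ∑ i, m i = 1 → IsOptW K y m ψ0 → IsOptW K z m ψ1 →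
      ∃ c : ℝ, ∫ x, (pot z ψ1 x - pot y ψ0 x - c) ^ 2 ∂(ρ K) ≤ C * ∑ i, m i * ‖z i - y i‖ ^ 2

/-- **GN**: calculus-free Gagliardo–Nirenberg inequality for subgradient selections. -/
def St_GN : Prop :=
  ∀ (d : ℕ) (K : Set (E d)) (xc : E d) (r M h : ℝ) (u v : E d → ℝ) (Tu Tv : E d → E d),
    IsCompact K → Convex ℝ K → Metric.ball xc r ⊆ K → 0 < r → 0 < h → h ≤ r / 2 → 0 ≤ M →
    Measurable Tu → Measurable Tv → (∀ x ∈ K, ‖Tu x‖ ≤ M) → (∀ x ∈ K, ‖Tv x‖ ≤ M) →
    (∀ x ∈ K, ∀ z ∈ K, u x + ⟪Tu x, z - x⟫_ℝ ≤ u z) →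
    (∀ x ∈ K, ∀ z ∈ K, v x + ⟪Tv x, z - x⟫_ℝ ≤ v z) →
    ∫ x, ‖Tu x - Tv x‖ ^ 2 ∂(ρ K) ≤
      32 * d / h ^ 2 * ∫ x, (u x - v x) ^ 2 ∂(ρ K) + 32 * d ^ 2 * M ^ 2 * h / r

/-- **APPROX**: paired finitely supported approximations of a coupling, with distinct atoms along
the whole interpolation (no collisions), weak convergence of both marginals and cost control. -/
def St_APPROX : Prop :=
  ∀ (d : ℕ), 2 ≤ d → ∀ (Y : Set (E d)), IsCompact Y → Y.Nonempty →
    ∀ (μ ν : Measure (E d)) (π : Measure (E d × E d)),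
      Crest.AnalysisR.OT.IsProbabilityOn Y μ → Crest.AnalysisR.OT.IsProbabilityOn Y ν →
      Crest.AnalysisR.OT.IsPairCoupling μ ν π →
      ∃ (N : ℕ → ℕ) (_ : ∀ n, NeZero (N n)) (m : ∀ n, Fin (N n) → ℝ)
        (y z : ∀ n, Fin (N n) → E d),
        (∀ n i, 0 < m n i) ∧ (∀ n, ∑ i, m n i = 1) ∧
        (∀ n i, y n i ∈ Metric.cthickening 1 Y) ∧ (∀ n i, z n i ∈ Metric.cthickening 1 Y) ∧
        (∀ n, ∀ t : ℝ, 0 ≤ t → t ≤ 1 →
          Function.Injective (fun i => y n i + t • (z n i - y n i))) ∧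
        (∀ f : BoundedContinuousFunction (E d) ℝ,
          Filter.Tendsto (fun n => ∑ i, m n i * f (y n i)) Filter.atTop (nhds (∫ x, f x ∂μ))) ∧
        (∀ f : BoundedContinuousFunction (E d) ℝ,
          Filter.Tendsto (fun n => ∑ i, m n i * f (z n i)) Filter.atTop (nhds (∫ x, f x ∂ν))) ∧
        (∀ ε > 0, ∀ᶠ n in Filter.atTop,
          ∑ i, m n i * ‖z n i - y n i‖ ^ 2 ≤ (Crest.AnalysisR.OT.quadCost π).toReal + ε)

/-- **BRENIER**: if finitely supported `μ_n = ∑ m n i • δ_{y n i}` (atoms in a compact set `Y`)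
converge weakly to `μ` and `T` is ANY quadratic optimal map from `ρ K` to `μ`, then along a
subsequence of any given subsequence the Laguerre maps of the `μ_n` converge to `T` a.e. -/
def St_BRENIER : Prop :=
  ∀ (d : ℕ) (K : Set (E d)), IsCompact K → Convex ℝ K → (interior K).Nonempty →
    ∀ (Y : Set (E d)), IsCompact Y →
    ∀ (μ : Measure (E d)) (T : E d → E d), IsProbabilityMeasure μ → μ Yᶜ = 0 →
      Crest.AnalysisR.OT.IsOptimalMap (ρ K) μ T →
    ∀ (N : ℕ → ℕ) [∀ n, NeZero (N n)] (m : ∀ n, Fin (N n) → ℝ) (y : ∀ n, Fin (N n) → E d)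
      (ψ : ∀ n, Fin (N n) → ℝ),
      (∀ n, Function.Injective (y n)) → (∀ n i, 0 < m n i) → (∀ n, ∑ i, m n i = 1) →
      (∀ n i, y n i ∈ Y) → (∀ n, IsOptW K (y n) (m n) (ψ n)) →
      (∀ f : BoundedContinuousFunction (E d) ℝ,
        Filter.Tendsto (fun n => ∑ i, m n i * f (y n i)) Filter.atTop (nhds (∫ x, f x ∂μ))) →
      ∀ k : ℕ → ℕ, StrictMono k → ∃ k' : ℕ → ℕ, StrictMono k' ∧
        ∀ᵐ x ∂(ρ K), Filter.Tendsto (fun j => lagMap (y (k (k' j))) (ψ (k (k' j))) x)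
          Filter.atTop (nhds (T x))

end Crest.Agent.LibS0109
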