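import Crest.Agent.Lib_S0109_Defs

/-!
# Row 82: basic facts on Laguerre cells, the max-affine potential and the Laguerre map (package LAG)
-/

set_option autoImplicit false
open MeasureTheory
open scoped ENNReal NNReal InnerProductSpace

namespace Crest.Agent.LibS0109

variable {d N : ℕ}

/-! ### The measure `ρ K` -/

theorem rho_def (K : Set (E d)) : ρ K = (volume K)⁻¹ • volume.restrict K := rfl

theorem rho_apply (K : Set (E d)) {s : Set (E d)} (hs : MeasurableSet s) :
    ρ K s = (volume K)⁻¹ * volume (s ∩ K) := by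
  rw [rho_def, Measure.smul_apply, Measure.restrict_apply hs, smul_eq_mul]

theorem rho_absolutelyContinuous (K : Set (E d)) : ρ K ≪ (volume : Measure (E d)) := by
  rw [rho_def]
  exact (Measure.absolutelyContinuous_of_le Measure.restrict_le_self).smul_left _

theorem volume_ne_zero_of_interior {K : Set (E d)} (hKi : (interior K).Nonempty) :
    volume K ≠ 0 := by
  have h := (isOpen_interior (s := K)).measure_pos (volume : Measure (E d)) hKi
  exact ((h.trans_le (measure_mono interior_subset))).ne'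

theorem volume_ne_top_of_isCompact {K : Set (E d)} (hK : IsCompact K) : volume K ≠ ⊤ :=
  hK.measure_lt_top.ne

theorem rho_isProbabilityMeasure {K : Set (E d)} (h0 : volume K ≠ 0) (hT : volume K ≠ ⊤) :
    IsProbabilityMeasure (ρ K) := by
  constructor
  rw [rho_def, Measure.smul_apply, Measure.restrict_apply MeasurableSet.univ, Set.univ_inter,
    smul_eq_mul, ENNReal.inv_mul_cancel h0 hT]

theorem rho_compl_eq_zero (K : Set (E d)) (hK : MeasurableSet K) : ρ K Kᶜ = 0 := by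
  rw [rho_apply K hK.compl]; simp

theorem ae_rho_mem (K : Set (E d)) (hK : MeasurableSet K) : ∀ᵐ x ∂(ρ K), x ∈ K := by
  rw [ae_iff]; exact rho_compl_eq_zero K hK

theorem integrable_rho_of_continuousOn {K : Set (E d)} (hK : IsCompact K) (h0 : volume K ≠ 0)
    {F : Type*} [NormedAddCommGroup F] {f : E d → F} (hf : ContinuousOn f K) :
    Integrable f (ρ K) := by
  rw [rho_def]
  have h1 : IntegrableOn f K (volume : Measure (E d)) := hf.integrableOn_compact hK
  exact h1.smul_measure (ENNReal.inv_ne_top.mpr h0)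

/-! ### Cells -/

theorem cell_eq_iInter (y : Fin N → E d) (ψ : Fin N → ℝ) (i : Fin N) :
    cell y ψ i = ⋂ j, {x : E d | ⟪x, y j⟫_ℝ - ψ j ≤ ⟪x, y i⟫_ℝ - ψ i} := by
  ext x; simp [cell]

theorem isClosed_cell (y : Fin N → E d) (ψ : Fin N → ℝ) (i : Fin N) : IsClosed (cell y ψ i) := by
  rw [cell_eq_iInter]
  refine isClosed_iInter fun j => ?_
  exact isClosed_le (by fun_prop) (by fun_prop)

theorem measurableSet_cell (y : Fin N → E d) (ψ : Fin N → ℝ) (i : Fin N) :
    MeasurableSet (cell y ψ i) := (isClosed_cell y ψ i).measurableSet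

theorem convex_cell (y : Fin N → E d) (ψ : Fin N → ℝ) (i : Fin N) : Convex ℝ (cell y ψ i) := by
  intro x hx x' hx' a b ha hb hab j
  have h1 := hx j
  have h2 := hx' j
  simp only [inner_add_left, inner_smul_left, conj_trivial]
  have e1 : a * ψ j + b * ψ j = ψ j := by rw [← add_mul, hab, one_mul]
  have e2 : a * ψ i + b * ψ i = ψ i := by rw [← add_mul, hab, one_mul]
  have h1' := mul_le_mul_of_nonneg_left h1 ha
  have h2' := mul_le_mul_of_nonneg_left h2 hb
  linarith

theorem exists_mem_cell [NeZero N] (y : Fin N → E d) (ψ : Fin N → ℝ) (x : E d) :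
    ∃ i, x ∈ cell y ψ i := by
  obtain ⟨i, hi⟩ := Finite.exists_max (fun i : Fin N => ⟪x, y i⟫_ℝ - ψ i)
  exact ⟨i, fun j => hi j⟩

theorem lagIdx_mem [NeZero N] (y : Fin N → E d) (ψ : Fin N → ℝ) (x : E d) :
    x ∈ cell y ψ (lagIdx y ψ x) := by
  classical
  have hne : (Finset.univ.filter (fun i => x ∈ cell y ψ i)).Nonempty := by
    obtain ⟨i, hi⟩ := exists_mem_cell y ψ x
    exact ⟨i, by simp [hi]⟩
  unfold lagIdx
  rw [dif_pos hne]
  have := Finset.min'_mem _ hne
  simpa using this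

theorem lagIdx_le [NeZero N] (y : Fin N → E d) (ψ : Fin N → ℝ) {x : E d} {i : Fin N}
    (hi : x ∈ cell y ψ i) : lagIdx y ψ x ≤ i := by
  classical
  have hne : (Finset.univ.filter (fun i => x ∈ cell y ψ i)).Nonempty := ⟨i, by simp [hi]⟩
  unfold lagIdx
  rw [dif_pos hne]
  exact Finset.min'_le _ _ (by simp [hi])

theorem lagIdx_eq_iff [NeZero N] (y : Fin N → E d) (ψ : Fin N → ℝ) (x : E d) (i : Fin N) :
    lagIdx y ψ x = i ↔ x ∈ cell y ψ i ∧ ∀ j, j < i → x ∉ cell y ψ j := by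
  constructor
  · rintro rfl
    exact ⟨lagIdx_mem y ψ x, fun j hj hx => absurd (lagIdx_le y ψ hx) (not_le.mpr hj)⟩
  · rintro ⟨hi, hlt⟩
    rcases (lagIdx_le y ψ hi).lt_or_eq with h | h
    · exact absurd (lagIdx_mem y ψ x) (hlt _ h)
    · exact h

theorem measurableSet_lagIdx_preimage [NeZero N] (y : Fin N → E d) (ψ : Fin N → ℝ) (i : Fin N) :
    MeasurableSet (lagIdx y ψ ⁻¹' {i}) := by
  have : lagIdx y ψ ⁻¹' {i} = cell y ψ i ∩ ⋂ j, ⋂ (_ : j < i), (cell y ψ j)ᶜ := by
    ext x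
    simp only [Set.mem_preimage, Set.mem_singleton_iff, Set.mem_inter_iff, Set.mem_iInter,
      Set.mem_compl_iff]
    exact lagIdx_eq_iff y ψ x i
  rw [this]
  exact (measurableSet_cell y ψ i).inter
    (MeasurableSet.iInter fun j => MeasurableSet.iInter fun _ => (measurableSet_cell y ψ j).compl)

theorem measurable_lagIdx [NeZero N] (y : Fin N → E d) (ψ : Fin N → ℝ) :
    Measurable (lagIdx y ψ) :=
  measurable_to_countable' fun i => measurableSet_lagIdx_preimage y ψ i

theorem measurable_lagMap [NeZero N] (y : Fin N → E d) (ψ : Fin N → ℝ) :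
    Measurable (lagMap y ψ) :=
  (measurable_of_finite y).comp (measurable_lagIdx y ψ)

theorem lagIdx_preimage_subset_cell [NeZero N] (y : Fin N → E d) (ψ : Fin N → ℝ) (i : Fin N) :
    lagIdx y ψ ⁻¹' {i} ⊆ cell y ψ i := by
  intro x hx
  rw [Set.mem_preimage, Set.mem_singleton_iff] at hx
  rw [← hx]
  exact lagIdx_mem y ψ x

/-! ### The potential -/

theorem le_pot (y : Fin N → E d) (ψ : Fin N → ℝ) (x : E d) (i : Fin N) :
    ⟪x, y i⟫_ℝ - ψ i ≤ pot y ψ x :=
  le_ciSup (f := fun i => ⟪x, y i⟫_ℝ - ψ i) (Finite.bddAbove_range _) i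

theorem pot_eq_of_mem_cell {y : Fin N → E d} {ψ : Fin N → ℝ} {x : E d} {i : Fin N}
    (h : x ∈ cell y ψ i) : pot y ψ x = ⟪x, y i⟫_ℝ - ψ i := by
  have : Nonempty (Fin N) := ⟨i⟩
  exact le_antisymm (ciSup_le fun j => h j) (le_pot y ψ x i)

theorem pot_eq_lagIdx [NeZero N] (y : Fin N → E d) (ψ : Fin N → ℝ) (x : E d) :
    pot y ψ x = ⟪x, lagMap y ψ x⟫_ℝ - ψ (lagIdx y ψ x) :=
  pot_eq_of_mem_cell (lagIdx_mem y ψ x)

theorem pot_subgradient [NeZero N] (y : Fin N → E d) (ψ : Fin N → ℝ) (x z : E d) :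
    pot y ψ x + ⟪lagMap y ψ x, z - x⟫_ℝ ≤ pot y ψ z := by
  have h1 := pot_eq_lagIdx y ψ x
  have h2 := le_pot y ψ z (lagIdx y ψ x)
  have h3 : ⟪lagMap y ψ x, z - x⟫_ℝ = ⟪z, lagMap y ψ x⟫_ℝ - ⟪x, lagMap y ψ x⟫_ℝ := by
    rw [inner_sub_right, real_inner_comm (lagMap y ψ x) z, real_inner_comm (lagMap y ψ x) x]
  unfold lagMap at *
  linarith

theorem pot_lipschitz [NeZero N] (y : Fin N → E d) (ψ : Fin N → ℝ) (M : ℝ≥0)
    (hM : ∀ i, ‖y i‖ ≤ M) : LipschitzWith M (pot y ψ) := by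
  refine LipschitzWith.of_le_add_mul M fun x z => ?_
  have h := pot_subgradient y ψ x z
  have h2 : |⟪lagMap y ψ x, z - x⟫_ℝ| ≤ M * dist x z := by
    calc |⟪lagMap y ψ x, z - x⟫_ℝ| ≤ ‖lagMap y ψ x‖ * ‖z - x‖ := abs_real_inner_le_norm _ _
      _ ≤ M * dist x z := by
        rw [dist_comm, dist_eq_norm]
        exact mul_le_mul_of_nonneg_right (hM _) (norm_nonneg _)
  have := abs_le.mp h2
  linarith

theorem continuous_pot [NeZero N] (y : Fin N → E d) (ψ : Fin N → ℝ) : Continuous (pot y ψ) := by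
  obtain ⟨M, hM⟩ : ∃ M : ℝ≥0, ∀ i, ‖y i‖ ≤ M := by
    refine ⟨∑ i, ‖y i‖₊, fun i => ?_⟩
    have : ‖y i‖₊ ≤ ∑ i, ‖y i‖₊ := Finset.single_le_sum (f := fun i => ‖y i‖₊)
      (fun _ _ => zero_le) (Finset.mem_univ i)
    exact_mod_cast this
  exact (pot_lipschitz y ψ M hM).continuous

/-! ### Ties are null; midpoints -/

theorem volume_hyperplane_eq_zero (v : E d) (hv : v ≠ 0) (c : ℝ) :
    volume {x : E d | ⟪x, v⟫_ℝ = c} = 0 := by
  set f : E d →ₗ[ℝ] ℝ := (innerSL ℝ v : E d →L[ℝ] ℝ).toLinearMap with hf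
  have hfx : ∀ x, f x = ⟪x, v⟫_ℝ := fun x => by simp [hf, real_inner_comm]
  have hker : LinearMap.ker f ≠ ⊤ := by
    intro h
    have hvk : v ∈ LinearMap.ker f := by rw [h]; trivial
    rw [LinearMap.mem_ker, hfx, real_inner_self_eq_norm_sq] at hvk
    exact hv (by simpa using hvk)
  have h0 : volume (LinearMap.ker f : Set (E d)) = 0 :=
    Measure.addHaar_submodule volume _ hker
  set p : E d := (c / ‖v‖ ^ 2) • v with hp
  have hpc : ⟪p, v⟫_ℝ = c := by
    rw [hp, inner_smul_left, real_inner_self_eq_norm_sq]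
    have : ‖v‖ ^ 2 ≠ 0 := by positivity
    simp; field_simp
  have hset : {x : E d | ⟪x, v⟫_ℝ = c} = (fun x => -p + x) ⁻¹' (LinearMap.ker f : Set (E d)) := by
    ext x
    simp only [Set.mem_ofPred_eq, Set.mem_preimage, SetLike.mem_coe, LinearMap.mem_ker, hfx,
      inner_add_left, inner_neg_left, hpc]
    constructor <;> intro h <;> linarith
  rw [hset, measure_preimage_add]
  exact h0

theorem volume_cell_inter_cell {y : Fin N → E d} (hy : Function.Injective y) (ψ : Fin N → ℝ)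
    {i j : Fin N} (hij : i ≠ j) : volume (cell y ψ i ∩ cell y ψ j) = 0 := by
  have hv : y i - y j ≠ 0 := sub_ne_zero.mpr (fun h => hij (hy h))
  refine measure_mono_null ?_ (volume_hyperplane_eq_zero (y i - y j) hv (ψ i - ψ j))
  rintro x ⟨hi, hj⟩
  have h1 := hi j
  have h2 := hj i
  simp only [Set.mem_ofPred_eq, inner_sub_right]
  linarith

theorem mid_mem_cell {y : Fin N → E d} {ψ ψ' : Fin N → ℝ} {i : Fin N} {x x' : E d}
    (hx : x ∈ cell y ψ i) (hx' : x' ∈ cell y ψ' i) :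
    (1 / 2 : ℝ) • (x + x') ∈ cell y (fun j => (ψ j + ψ' j) / 2) i := by
  intro j
  have h1 := hx j
  have h2 := hx' j
  simp only [inner_add_left, inner_smul_left, conj_trivial]
  linarith

/-! ### Cells as an a.e. partition -/

theorem cell_ae_eq_lagIdx_preimage [NeZero N] {y : Fin N → E d} (hy : Function.Injective y)
    (ψ : Fin N → ℝ) (K : Set (E d)) (i : Fin N) :
    (cell y ψ i : Set (E d)) =ᵐ[ρ K] lagIdx y ψ ⁻¹' {i} := by
  have hsub : lagIdx y ψ ⁻¹' {i} ⊆ cell y ψ i := lagIdx_preimage_subset_cell y ψ i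
  have hdiff : cell y ψ i \ lagIdx y ψ ⁻¹' {i} ⊆ ⋃ j, ⋃ (_ : j ≠ i), (cell y ψ i ∩ cell y ψ j) := by
    rintro x ⟨hxi, hxn⟩
    simp only [Set.mem_preimage, Set.mem_singleton_iff] at hxn
    simp only [Set.mem_iUnion, Set.mem_inter_iff, exists_prop]
    exact ⟨lagIdx y ψ x, hxn, hxi, lagIdx_mem y ψ x⟩
  have hnull : ρ K (cell y ψ i \ lagIdx y ψ ⁻¹' {i}) = 0 := by
    apply rho_absolutelyContinuous K
    refine measure_mono_null hdiff ?_
    refine (measure_iUnion_null_iff).mpr fun j => ?_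
    refine (measure_iUnion_null_iff).mpr fun hj => ?_
    exact volume_cell_inter_cell hy ψ (Ne.symm hj)
  exact ae_eq_set.mpr ⟨hnull, by rw [Set.sdiff_eq_empty.mpr hsub]; simp⟩

theorem rho_cell_eq [NeZero N] {y : Fin N → E d} (hy : Function.Injective y)
    (ψ : Fin N → ℝ) (K : Set (E d)) (i : Fin N) :
    ρ K (cell y ψ i) = ρ K (lagIdx y ψ ⁻¹' {i}) :=
  measure_congr (cell_ae_eq_lagIdx_preimage hy ψ K i)

/-- The cells form an a.e. partition: integrals split. -/
theorem sum_setIntegral_cell [NeZero N] {y : Fin N → E d} (hy : Function.Injective y)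
    (ψ : Fin N → ℝ) (K : Set (E d)) {F : Type*} [NormedAddCommGroup F] [NormedSpace ℝ F]
    {f : E d → F} (hf : Integrable f (ρ K)) :
    ∑ i, ∫ x in cell y ψ i, f x ∂(ρ K) = ∫ x, f x ∂(ρ K) := by
  have h1 : ∀ i, ∫ x in cell y ψ i, f x ∂(ρ K) = ∫ x in lagIdx y ψ ⁻¹' {i}, f x ∂(ρ K) :=
    fun i => setIntegral_congr_set (cell_ae_eq_lagIdx_preimage hy ψ K i)
  simp_rw [h1]
  have h2 := integral_iUnion_fintype (μ := ρ K) (f := f) (s := fun i => lagIdx y ψ ⁻¹' {i})
    (fun i => measurableSet_lagIdx_preimage y ψ i)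
    (by
      intro i j hij
      exact Disjoint.preimage _ (Set.disjoint_singleton.mpr hij))
    (fun i => hf.integrableOn)
  rw [← h2]
  have : (⋃ i : Fin N, lagIdx y ψ ⁻¹' {i}) = Set.univ := by
    ext x; simp
  rw [this, Measure.restrict_univ]

theorem rho_real_cell_of_isOptW {K : Set (E d)} {y : Fin N → E d} {m ψ : Fin N → ℝ}
    (h : IsOptW K y m ψ) (i : Fin N) : (ρ K).real (cell y ψ i) = m i := h i

theorem rho_cell_of_isOptW {K : Set (E d)} (h0 : volume K ≠ 0) (hT : volume K ≠ ⊤)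
    {y : Fin N → E d} {m ψ : Fin N → ℝ}
    (h : IsOptW K y m ψ) (i : Fin N) : ρ K (cell y ψ i) = ENNReal.ofReal (m i) := by
  have := rho_isProbabilityMeasure h0 hT
  rw [← h i, Measure.real, ENNReal.ofReal_toReal (measure_ne_top _ _)]

/-- The Laguerre map pushes `ρ K` to the discrete target. -/
theorem map_lagMap [NeZero N] {K : Set (E d)} (h0 : volume K ≠ 0) (hT : volume K ≠ ⊤)
    {y : Fin N → E d} (hy : Function.Injective y) {m ψ : Fin N → ℝ} (h : IsOptW K y m ψ) :
    (ρ K).map (lagMap y ψ) = ∑ i, ENNReal.ofReal (m i) • Measure.dirac (y i) := by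
  ext S hS
  rw [Measure.map_apply (measurable_lagMap y ψ) hS, Measure.finsetSum_apply]
  simp only [Measure.smul_apply, Measure.dirac_apply' _ hS, smul_eq_mul]
  classical
  have hpre : lagMap y ψ ⁻¹' S =
      ⋃ i ∈ Finset.univ.filter (fun i => y i ∈ S), lagIdx y ψ ⁻¹' {i} := by
    ext x
    simp only [Set.mem_preimage, lagMap, Finset.mem_filter, Finset.mem_univ, true_and,
      Set.mem_iUnion, Set.mem_singleton_iff, exists_prop]
    constructor
    · intro hx; exact ⟨_, hx, rfl⟩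
    · rintro ⟨i, hi, rfl⟩; exact hi
  rw [hpre, measure_biUnion_finset
    (fun i _ j _ hij => Disjoint.preimage _ (Set.disjoint_singleton.mpr hij))
    (fun i _ => measurableSet_lagIdx_preimage y ψ i), Finset.sum_filter]
  refine Finset.sum_congr rfl fun i _ => ?_
  rw [← rho_cell_eq hy ψ K i, rho_cell_of_isOptW h0 hT h i]
  by_cases hi : y i ∈ S <;> simp [hi]

/-- Weak duality: the cells of an optimal `ψ` (masses `m`) tested against ANY `y', ψ'`. -/
theorem weak_duality [NeZero N] {K : Set (E d)} (hK : IsCompact K) (h0 : volume K ≠ 0)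
    {y : Fin N → E d} (hy : Function.Injective y) {m ψ : Fin N → ℝ} (h : IsOptW K y m ψ)
    (y' : Fin N → E d) (ψ' : Fin N → ℝ) :
    ∑ i, ∫ x in cell y ψ i, ⟪x, y' i⟫_ℝ ∂(ρ K) ≤
      ∫ x, pot y' ψ' x ∂(ρ K) + ∑ i, m i * ψ' i := by
  have hT := volume_ne_top_of_isCompact hK
  have := rho_isProbabilityMeasure h0 hT
  have hint : Integrable (pot y' ψ') (ρ K) :=
    integrable_rho_of_continuousOn hK h0 (continuous_pot y' ψ').continuousOn
  rw [← sum_setIntegral_cell hy ψ K hint, ← Finset.sum_add_distrib]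
  refine Finset.sum_le_sum fun i _ => ?_
  have hi1 : IntegrableOn (fun x => ⟪x, y' i⟫_ℝ) (cell y ψ i) (ρ K) :=
    (integrable_rho_of_continuousOn hK h0 (by fun_prop : Continuous fun x : E d => ⟪x, y' i⟫_ℝ).continuousOn).integrableOn
  have hi2 : IntegrableOn (fun x => pot y' ψ' x + ψ' i) (cell y ψ i) (ρ K) :=
    (hint.add (integrable_const _)).integrableOn
  calc ∫ x in cell y ψ i, ⟪x, y' i⟫_ℝ ∂(ρ K)
      ≤ ∫ x in cell y ψ i, (pot y' ψ' x + ψ' i) ∂(ρ K) := by
        refine setIntegral_mono hi1 hi2 fun x => ?_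
        have := le_pot y' ψ' x i
        linarith
    _ = ∫ x in cell y ψ i, pot y' ψ' x ∂(ρ K) + m i * ψ' i := by
        rw [integral_add hint.integrableOn (integrable_const _).integrableOn, setIntegral_const,
          h i, smul_eq_mul]

/-- Duality equality for the optimal weights themselves. -/
theorem duality_eq [NeZero N] {K : Set (E d)} (hK : IsCompact K) (h0 : volume K ≠ 0)
    {y : Fin N → E d} (hy : Function.Injective y) {m ψ : Fin N → ℝ} (h : IsOptW K y m ψ) :
    ∑ i, ∫ x in cell y ψ i, ⟪x, y i⟫_ℝ ∂(ρ K) =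
      ∫ x, pot y ψ x ∂(ρ K) + ∑ i, m i * ψ i := by
  have hT := volume_ne_top_of_isCompact hK
  have := rho_isProbabilityMeasure h0 hT
  have hint : Integrable (pot y ψ) (ρ K) :=
    integrable_rho_of_continuousOn hK h0 (continuous_pot y ψ).continuousOn
  rw [← sum_setIntegral_cell hy ψ K hint, ← Finset.sum_add_distrib]
  refine Finset.sum_congr rfl fun i _ => ?_
  calc ∫ x in cell y ψ i, ⟪x, y i⟫_ℝ ∂(ρ K)
      = ∫ x in cell y ψ i, (pot y ψ x + ψ i) ∂(ρ K) := by
        refine setIntegral_congr_fun (measurableSet_cell y ψ i) fun x hx => ?_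
        rw [pot_eq_of_mem_cell hx]; ring
    _ = ∫ x in cell y ψ i, pot y ψ x ∂(ρ K) + m i * ψ i := by
        rw [integral_add hint.integrableOn (integrable_const _).integrableOn, setIntegral_const,
          h i, smul_eq_mul]

end Crest.Agent.LibS0109
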