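import Mathlib
import Crest.Prelude.Def_QuadraticTransport
import Crest.Agent.Lib_S0109_Defs
import Crest.Agent.Lib_S0109_Lag

/-!
# Row 82 (S0109), BRENIER piece B1 = BrA (helper19): Arzelà–Ascoli extraction.

* `BrA.arzela_lipschitz`: a sequence of `M`-Lipschitz real functions on `E d`, normalised at a
  point `x0` of a compact set `K`, has a subsequence converging uniformly on `K` to a globally
  `M`-Lipschitz function.
* `BrA.pot_subseq`: the instance for Laguerre potentials `pot (y n) (ψ n)` with atoms bounded by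
  `M`, along an arbitrary index map `k`.
-/

set_option autoImplicit false
open MeasureTheory Filter Topology
open scoped ENNReal NNReal InnerProductSpace

namespace Crest.Agent.LibS0109
namespace BrA

theorem arzela_lipschitz {d : ℕ} (K : Set (E d)) (hK : IsCompact K) (x0 : E d) (_hx0 : x0 ∈ K)
    (M : ℝ≥0) (f : ℕ → E d → ℝ) (hf : ∀ n, LipschitzWith M (f n)) :
    ∃ k' : ℕ → ℕ, StrictMono k' ∧ ∃ φ : E d → ℝ, LipschitzWith M φ ∧
      TendstoUniformlyOn (fun j x => f (k' j) x - f (k' j) x0) φ Filter.atTop K := by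
  classical
  have : CompactSpace K := isCompact_iff_compactSpace.1 hK
  obtain ⟨R, hR⟩ := hK.isBounded.subset_closedBall x0
  -- the normalised functions as bounded continuous functions on `K`
  let g : ℕ → C(K, ℝ) := fun n =>
    ⟨fun x => f n x - f n x0, ((hf n).continuous.comp continuous_subtype_val).sub continuous_const⟩
  let G : ℕ → BoundedContinuousFunction K ℝ := fun n => BoundedContinuousFunction.mkOfCompact (g n)
  have hG : ∀ n (x : K), G n x = f n x - f n x0 := fun n x => rfl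
  have hGlip : ∀ n (x z : K), dist (G n x) (G n z) ≤ M * dist x z := by
    intro n x z
    rw [hG, hG]
    have := (hf n).dist_le_mul (x : E d) (z : E d)
    rw [Real.dist_eq] at this ⊢
    have e : f n ↑x - f n x0 - (f n ↑z - f n x0) = f n ↑x - f n ↑z := by ring
    rw [e]
    exact this
  set A : Set (BoundedContinuousFunction K ℝ) := Set.range G with hA
  have hcomp : IsCompact (closure A) := by
    apply BoundedContinuousFunction.arzela_ascoli (Metric.closedBall (0 : ℝ) (M * R))
      (isCompact_closedBall _ _)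
    · rintro F x ⟨n, rfl⟩
      rw [Metric.mem_closedBall, Real.dist_eq, sub_zero, hG]
      have h1 := (hf n).dist_le_mul (x : E d) x0
      rw [Real.dist_eq] at h1
      have h2 : dist (x : E d) x0 ≤ R := Metric.mem_closedBall.1 (hR x.2)
      calc |f n ↑x - f n x0| ≤ M * dist (x : E d) x0 := h1
        _ ≤ M * R := mul_le_mul_of_nonneg_left h2 M.coe_nonneg
    · apply Metric.equicontinuous_of_continuity_modulus (fun t => (M : ℝ) * t)
      · have : Tendsto (fun t : ℝ => (M : ℝ) * t) (𝓝 0) (𝓝 ((M : ℝ) * 0)) :=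
          (continuous_const.mul continuous_id).tendsto 0
        simpa using this
      · rintro x z ⟨F, n, rfl⟩
        exact hGlip n x z
  obtain ⟨a, -, k', hk', hlim⟩ := hcomp.tendsto_subseq (x := G) (fun n => subset_closure ⟨n, rfl⟩)
  have hunif : TendstoUniformly (fun j => ⇑(G (k' j))) ⇑a atTop :=
    BoundedContinuousFunction.tendsto_iff_tendstoUniformly.1 hlim
  -- the limit is `M`-Lipschitz on `K`
  have halip : ∀ x z : K, dist (a x) (a z) ≤ M * dist x z := by
    intro x z
    have h1 : Tendsto (fun j => G (k' j) x) atTop (𝓝 (a x)) := hunif.tendsto_at x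
    have h2 : Tendsto (fun j => G (k' j) z) atTop (𝓝 (a z)) := hunif.tendsto_at z
    have h3 : Tendsto (fun j => dist (G (k' j) x) (G (k' j) z)) atTop (𝓝 (dist (a x) (a z))) :=
      h1.dist h2
    exact le_of_tendsto' h3 (fun j => hGlip (k' j) x z)
  let φ0 : E d → ℝ := fun x => if h : x ∈ K then a ⟨x, h⟩ else 0
  have hφ0 : ∀ (x : E d) (h : x ∈ K), φ0 x = a ⟨x, h⟩ := fun x h => dif_pos h
  have hφ0lip : LipschitzOnWith M φ0 K := by
    refine LipschitzOnWith.of_dist_le_mul fun x hx z hz => ?_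
    rw [hφ0 x hx, hφ0 z hz]
    exact halip ⟨x, hx⟩ ⟨z, hz⟩
  obtain ⟨φ, hφlip, hφeq⟩ := hφ0lip.extend_real
  refine ⟨k', hk', φ, hφlip, ?_⟩
  rw [Metric.tendstoUniformlyOn_iff]
  intro ε hε
  filter_upwards [Metric.tendstoUniformly_iff.1 hunif ε hε] with j hj x hx
  have := hj ⟨x, hx⟩
  rw [← hφeq hx, hφ0 x hx]
  exact this

theorem pot_subseq {d : ℕ} (K : Set (E d)) (hK : IsCompact K) (hKne : K.Nonempty) (N : ℕ → ℕ)
    [∀ n, NeZero (N n)] (y : ∀ n, Fin (N n) → E d) (ψ : ∀ n, Fin (N n) → ℝ) (M : ℝ≥0)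
    (hM : ∀ n i, ‖y n i‖ ≤ M) (k : ℕ → ℕ) :
    ∃ k' : ℕ → ℕ, StrictMono k' ∧ ∃ (φ : E d → ℝ) (c : ℕ → ℝ), LipschitzWith M φ ∧
      TendstoUniformlyOn (fun j x => pot (y (k (k' j))) (ψ (k (k' j))) x - c j) φ Filter.atTop K ∧
      ∀ x ∈ K, Filter.Tendsto (fun j => pot (y (k (k' j))) (ψ (k (k' j))) x - c j) Filter.atTop
        (nhds (φ x)) := by
  obtain ⟨x0, hx0⟩ := hKne
  obtain ⟨k', hk', φ, hφ, hu⟩ := arzela_lipschitz K hK x0 hx0 M
    (fun j => pot (y (k j)) (ψ (k j))) (fun j => pot_lipschitz (y (k j)) (ψ (k j)) M (hM (k j)))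
  refine ⟨k', hk', φ, fun j => pot (y (k (k' j))) (ψ (k (k' j))) x0, hφ, hu, fun x hx => ?_⟩
  exact hu.tendsto_at hx

end BrA
end Crest.Agent.LibS0109
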