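import Crest.Agent.Lib_S0109_Defs

/-!
# Row 82, package BRENIER: interface statements of the sub-packages (helper23)

* `St_BrA` (Arzelà–Ascoli extraction): a sequence of `M`-Lipschitz functions, normalised at a
  point `x0 ∈ K` of a compact set `K`, has a subsequence converging pointwise on `K` to an
  `M`-Lipschitz function.
* `St_BrD` (Fenchel–Young identification, statement of helper1's `brenier_ident`): an optimal map
  `T` agrees a.e. with a measurable map `S` pushing `ρ K` to `μ` which is a.e. the unique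
  `K`-subgradient of a continuous `φ`.

Nothing is proved here; this file contains no `sorry`.
-/

set_option autoImplicit false
open MeasureTheory
open scoped ENNReal NNReal InnerProductSpace

namespace Crest.Agent.LibS0109

/-- **BrA**: Arzelà–Ascoli extraction for uniformly Lipschitz functions normalised at `x0`. -/
def St_BrA : Prop :=
  ∀ (d : ℕ) (K : Set (E d)), IsCompact K → ∀ x0 ∈ K, ∀ (M : ℝ≥0) (u : ℕ → E d → ℝ),
    (∀ n, LipschitzWith M (u n)) →
    ∃ k' : ℕ → ℕ, StrictMono k' ∧ ∃ φ : E d → ℝ, LipschitzWith M φ ∧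
      ∀ x ∈ K, Filter.Tendsto (fun j => u (k' j) x - u (k' j) x0) Filter.atTop (nhds (φ x))

/-- **BrD**: identification (uniqueness part of Brenier's theorem). -/
def St_BrD : Prop :=
  ∀ (d : ℕ) (K : Set (E d)), IsCompact K → (interior K).Nonempty →
    ∀ (Y : Set (E d)), IsCompact Y →
    ∀ (μ : Measure (E d)), IsProbabilityMeasure μ → μ Yᶜ = 0 →
    ∀ (T S : E d → E d), Crest.AnalysisR.OT.IsOptimalMap (ρ K) μ T →
      Measurable S → (ρ K).map S = μ →
    ∀ (φ : E d → ℝ), ContinuousOn φ K →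
      (∀ᵐ x ∂(ρ K), ∀ z ∈ K, φ x + ⟪S x, z - x⟫_ℝ ≤ φ z) →
      (∀ᵐ x ∂(ρ K), ∀ p : E d, (∀ z ∈ K, φ x + ⟪p, z - x⟫_ℝ ≤ φ z) → p = S x) →
      T =ᵐ[ρ K] S

end Crest.Agent.LibS0109
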