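import Mathlib
import Crest.Agent.Lib_S0109_Defs
import Crest.Agent.Lib_S0109_BrDefs_h23
import Crest.Agent.Lib_S0109_BrA_h19

/-!
# Row 82 (S0109), BRENIER piece BrA (helper19): `pkg_BrA : St_BrA`.

The interface statement `St_BrA` of `Lib_S0109_BrDefs_h23` (pointwise convergence on `K` of a
subsequence of an equi-Lipschitz sequence normalised at a point), from
`BrA.arzela_lipschitz` (uniform convergence) in `Lib_S0109_BrA_h19`.
-/

set_option autoImplicit false
open scoped NNReal

namespace Crest.Agent.LibS0109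

theorem pkg_BrA : St_BrA := by
  intro d K hK x0 hx0 M u hu
  obtain ⟨k', hk', φ, hφ, hunif⟩ := BrA.arzela_lipschitz K hK x0 hx0 M u hu
  exact ⟨k', hk', φ, hφ, fun x hx => hunif.tendsto_at hx⟩

end Crest.Agent.LibS0109
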