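import Mathlib
import Crest.Prelude.Def_QuadraticTransport
import Crest.Agent.Lib_S0109_Defs

/-!
# Row 82 (S0109), package BRENIER, part B3: identification (uniqueness part of Brenier).

`brenier_ident`: if `S` pushes `ρ K` to `μ`, `S x` is a.e. the unique `K`-subgradient at `x` of
some function `φ`, and `T` is any quadratic optimal map from `ρ K` to `μ`, then `T = S` a.e.

`map_eq_of_ae_tendsto`: the a.e. limit `S` of maps `L n` whose image measures converge weakly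
(tested against bounded continuous functions) to `μ` pushes the source measure to `μ`.

Everything except the exported theorems lives in the sub-namespace `Crest.Agent.LibS0109.B3`.
-/

set_option autoImplicit false
open MeasureTheory Filter Topology
open scoped ENNReal NNReal InnerProductSpace BoundedContinuousFunction

namespace Crest.Agent.LibS0109
namespace B3

variable {d : ℕ}

/-- The conjugate of `φ` relative to `K`: `q ↦ sup_{z ∈ K} (⟨z, q⟩ - φ z)`. -/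
noncomputable def conj (K : Set (E d)) (φ : E d → ℝ) (q : E d) : ℝ :=
  ⨆ z : K, (⟪(z : E d), q⟫_ℝ - φ z)

theorem conj_bdd (K : Set (E d)) (φ : E d → ℝ) (RK m : ℝ) (hRK : ∀ z ∈ K, ‖z‖ ≤ RK)
    (hm : ∀ z ∈ K, m ≤ φ z) (q : E d) :
    BddAbove (Set.range fun z : K => ⟪(z : E d), q⟫_ℝ - φ z) := by
  refine ⟨RK * ‖q‖ - m, ?_⟩
  rintro _ ⟨⟨z, hz⟩, rfl⟩
  have h1 : ⟪z, q⟫_ℝ ≤ ‖z‖ * ‖q‖ := real_inner_le_norm z q
  have h2 : ‖z‖ * ‖q‖ ≤ RK * ‖q‖ := mul_le_mul_of_nonneg_right (hRK z hz) (norm_nonneg q)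
  have h3 := hm z hz
  show ⟪z, q⟫_ℝ - φ z ≤ RK * ‖q‖ - m
  linarith

theorem young (K : Set (E d)) (φ : E d → ℝ) (RK m : ℝ) (hRK : ∀ z ∈ K, ‖z‖ ≤ RK)
    (hm : ∀ z ∈ K, m ≤ φ z) (z : E d) (hz : z ∈ K) (q : E d) :
    ⟪z, q⟫_ℝ - φ z ≤ conj K φ q :=
  le_ciSup (conj_bdd K φ RK m hRK hm q) (⟨z, hz⟩ : K)

theorem conj_lipschitz (K : Set (E d)) (hK : K.Nonempty) (φ : E d → ℝ) (RK m : ℝ)
    (hRK : ∀ z ∈ K, ‖z‖ ≤ RK) (hm : ∀ z ∈ K, m ≤ φ z) :
    LipschitzWith (Real.toNNReal RK) (conj K φ) := by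
  have : Nonempty K := hK.to_subtype
  have hRK0 : 0 ≤ RK := by
    obtain ⟨z, hz⟩ := hK
    exact le_trans (norm_nonneg z) (hRK z hz)
  apply LipschitzWith.of_le_add_mul
  intro q q'
  apply ciSup_le
  rintro ⟨z, hz⟩
  have h1 : ⟪z, q⟫_ℝ - φ z = (⟪z, q'⟫_ℝ - φ z) + ⟪z, q - q'⟫_ℝ := by
    rw [inner_sub_right]; ring
  have h2 : ⟪z, q - q'⟫_ℝ ≤ ‖z‖ * ‖q - q'‖ := real_inner_le_norm z (q - q')
  have h3 : ‖z‖ * ‖q - q'‖ ≤ RK * ‖q - q'‖ :=
    mul_le_mul_of_nonneg_right (hRK z hz) (norm_nonneg _)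
  have h4 := young K φ RK m hRK hm z hz q'
  rw [Real.coe_toNNReal _ hRK0, dist_eq_norm]
  show ⟪z, q⟫_ℝ - φ z ≤ conj K φ q' + RK * ‖q - q'‖
  linarith

/-- Core identification lemma for an abstract probability measure `ν` carried by a bounded
set `K`. -/
theorem ident_core (K : Set (E d)) (hKb : Bornology.IsBounded K) (ν : Measure (E d))
    [IsProbabilityMeasure ν] (hνK : ∀ᵐ x ∂ν, x ∈ K) (Y : Set (E d)) (hY : IsCompact Y)
    (μ : Measure (E d)) (hμY : μ Yᶜ = 0) (T S : E d → E d)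
    (hT : Crest.AnalysisR.OT.IsOptimalMap ν μ T) (hS : Measurable S) (hSμ : ν.map S = μ)
    (φ : E d → ℝ)
    (hsub : ∀ᵐ x ∂ν, ∀ z ∈ K, φ x + ⟪S x, z - x⟫_ℝ ≤ φ z)
    (huniq : ∀ᵐ x ∂ν, ∀ p : E d, (∀ z ∈ K, φ x + ⟪p, z - x⟫_ℝ ≤ φ z) → p = S x) :
    T =ᵐ[ν] S := by
  obtain ⟨hTm, hTμ, hTopt⟩ := hT
  obtain ⟨x0, hx0K, hx0sub⟩ := (hνK.and hsub).exists
  have hKne : K.Nonempty := ⟨x0, hx0K⟩
  obtain ⟨RK, hRK0, hRK⟩ := hKb.exists_pos_norm_le
  obtain ⟨RY, hRY0, hRY⟩ := hY.isBounded.exists_pos_norm_le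
  -- lower bound of φ on K
  have hφlb : ∀ z ∈ K, φ x0 - ‖S x0‖ * (2 * RK) ≤ φ z := by
    intro z hz
    have h1 := hx0sub z hz
    have h2 : -(‖S x0‖ * ‖z - x0‖) ≤ ⟪S x0, z - x0⟫_ℝ := by
      have := abs_real_inner_le_norm (S x0) (z - x0)
      linarith [neg_abs_le ⟪S x0, z - x0⟫_ℝ]
    have h3 : ‖z - x0‖ ≤ 2 * RK := by
      calc ‖z - x0‖ ≤ ‖z‖ + ‖x0‖ := norm_sub_le _ _
        _ ≤ RK + RK := add_le_add (hRK z hz) (hRK x0 hx0K)
        _ = 2 * RK := by ring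
    have h4 : ‖S x0‖ * ‖z - x0‖ ≤ ‖S x0‖ * (2 * RK) :=
      mul_le_mul_of_nonneg_left h3 (norm_nonneg _)
    linarith
  set m : ℝ := φ x0 - ‖S x0‖ * (2 * RK) with hm_def
  have hyoung : ∀ z ∈ K, ∀ q, ⟪z, q⟫_ℝ - φ z ≤ conj K φ q :=
    fun z hz q => young K φ RK m hRK hφlb z hz q
  have hlip : LipschitzWith (Real.toNNReal RK) (conj K φ) :=
    conj_lipschitz K hKne φ RK m hRK hφlb
  have hcont : Continuous (conj K φ) := hlip.continuous
  obtain ⟨M, hM⟩ := hY.exists_bound_of_continuousOn hcont.continuousOn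
  -- T and S take values in Y a.e.
  have hYm : MeasurableSet Yᶜ := hY.isClosed.isOpen_compl.measurableSet
  have hTY : ∀ᵐ x ∂ν, T x ∈ Y := by
    have h0 : ν (T ⁻¹' Yᶜ) = 0 := by
      rw [← Measure.map_apply hTm hYm, hTμ]; exact hμY
    filter_upwards [measure_eq_zero_iff_ae_notMem.mp h0] with x hx
    simpa using hx
  have hSY : ∀ᵐ x ∂ν, S x ∈ Y := by
    have h0 : ν (S ⁻¹' Yᶜ) = 0 := by
      rw [← Measure.map_apply hS hYm, hSμ]; exact hμY
    filter_upwards [measure_eq_zero_iff_ae_notMem.mp h0] with x hx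
    simpa using hx
  -- Young equality for S, inequality for T
  have hSeq : ∀ᵐ x ∂ν, ⟪x, S x⟫_ℝ = φ x + conj K φ (S x) := by
    filter_upwards [hνK, hsub] with x hxK hx
    apply le_antisymm
    · linarith [hyoung x hxK (S x)]
    · have : conj K φ (S x) ≤ ⟪x, S x⟫_ℝ - φ x := by
        have : Nonempty K := hKne.to_subtype
        apply ciSup_le
        rintro ⟨z, hz⟩
        have h1 := hx z hz
        rw [inner_sub_right, real_inner_comm z (S x), real_inner_comm x (S x)] at h1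
        show ⟪z, S x⟫_ℝ - φ z ≤ ⟪x, S x⟫_ℝ - φ x
        linarith
      linarith
  have hTle : ∀ᵐ x ∂ν, ⟪x, T x⟫_ℝ ≤ φ x + conj K φ (T x) := by
    filter_upwards [hνK] with x hxK
    linarith [hyoung x hxK (T x)]
  -- integrability
  have hmeas_in : ∀ U : E d → E d, Measurable U → Measurable fun x => ⟪x, U x⟫_ℝ :=
    fun U hU => measurable_id.inner hU
  have int_in : ∀ U : E d → E d, Measurable U → (∀ᵐ x ∂ν, U x ∈ Y) →
      Integrable (fun x => ⟪x, U x⟫_ℝ) ν := by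
    intro U hU hUY
    refine Integrable.of_bound (hmeas_in U hU).aestronglyMeasurable (RK * RY) ?_
    filter_upwards [hνK, hUY] with x hxK hxY
    rw [Real.norm_eq_abs]
    calc |⟪x, U x⟫_ℝ| ≤ ‖x‖ * ‖U x‖ := abs_real_inner_le_norm _ _
      _ ≤ RK * RY := mul_le_mul (hRK x hxK) (hRY _ hxY) (norm_nonneg _) hRK0.le
  have int_conj : ∀ U : E d → E d, Measurable U → (∀ᵐ x ∂ν, U x ∈ Y) →
      Integrable (fun x => conj K φ (U x)) ν := by
    intro U hU hUY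
    refine Integrable.of_bound (hcont.measurable.comp hU).aestronglyMeasurable M ?_
    filter_upwards [hUY] with x hxY
    exact hM _ hxY
  have int_sq : ∀ U : E d → E d, Measurable U → (∀ᵐ x ∂ν, U x ∈ Y) →
      Integrable (fun x => ‖U x‖ ^ 2) ν := by
    intro U hU hUY
    refine Integrable.of_bound (hU.norm.pow_const 2).aestronglyMeasurable (RY ^ 2) ?_
    filter_upwards [hUY] with x hxY
    rw [Real.norm_eq_abs, abs_of_nonneg (by positivity)]
    exact pow_le_pow_left₀ (norm_nonneg _) (hRY _ hxY) 2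
  have int_xsq : Integrable (fun x : E d => ‖x‖ ^ 2) ν := by
    refine Integrable.of_bound (measurable_norm.pow_const 2).aestronglyMeasurable (RK ^ 2) ?_
    filter_upwards [hνK] with x hxK
    rw [Real.norm_eq_abs, abs_of_nonneg (by positivity)]
    exact pow_le_pow_left₀ (norm_nonneg _) (hRK _ hxK) 2
  -- change of variables
  have hconj_eq : ∫ x, conj K φ (S x) ∂ν = ∫ x, conj K φ (T x) ∂ν := by
    rw [← integral_map hS.aemeasurable hcont.aestronglyMeasurable,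
      ← integral_map hTm.aemeasurable hcont.aestronglyMeasurable, hSμ, hTμ]
  have hsq_eq : ∫ x, ‖S x‖ ^ 2 ∂ν = ∫ x, ‖T x‖ ^ 2 ∂ν := by
    have hc : Continuous fun y : E d => ‖y‖ ^ 2 := by fun_prop
    rw [← integral_map hS.aemeasurable (f := fun y : E d => ‖y‖ ^ 2) hc.aestronglyMeasurable,
      ← integral_map hTm.aemeasurable (f := fun y : E d => ‖y‖ ^ 2) hc.aestronglyMeasurable,
      hSμ, hTμ]
  -- cost as a real integral
  have hcost : ∀ U : E d → E d, Measurable U → (∀ᵐ x ∂ν, U x ∈ Y) →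
      Integrable (fun x => ‖x - U x‖ ^ 2) ν ∧
      ∫⁻ x, ‖x - U x‖ₑ ^ 2 ∂ν = ENNReal.ofReal (∫ x, ‖x - U x‖ ^ 2 ∂ν) ∧
      ∫ x, ‖x - U x‖ ^ 2 ∂ν
        = ∫ x, ‖x‖ ^ 2 ∂ν - 2 * ∫ x, ⟪x, U x⟫_ℝ ∂ν + ∫ x, ‖U x‖ ^ 2 ∂ν := by
    intro U hU hUY
    have hexp : ∀ x, ‖x - U x‖ ^ 2 = ‖x‖ ^ 2 - 2 * ⟪x, U x⟫_ℝ + ‖U x‖ ^ 2 :=
      fun x => norm_sub_sq_real x (U x)
    have hi : Integrable (fun x => ‖x - U x‖ ^ 2) ν := by
      have : (fun x => ‖x - U x‖ ^ 2) = fun x => ‖x‖ ^ 2 - 2 * ⟪x, U x⟫_ℝ + ‖U x‖ ^ 2 :=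
        funext hexp
      rw [this]
      exact (int_xsq.sub ((int_in U hU hUY).const_mul 2)).add (int_sq U hU hUY)
    refine ⟨hi, ?_, ?_⟩
    · rw [ofReal_integral_eq_lintegral_ofReal hi (ae_of_all _ fun x => by positivity)]
      refine lintegral_congr fun x => ?_
      rw [ENNReal.ofReal_pow (norm_nonneg _), ofReal_norm]
    · simp_rw [hexp]
      have hA : Integrable (fun x : E d => ‖x‖ ^ 2 - 2 * ⟪x, U x⟫_ℝ) ν :=
        int_xsq.sub ((int_in U hU hUY).const_mul 2)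
      have e1 : ∫ x, (‖x‖ ^ 2 - 2 * ⟪x, U x⟫_ℝ + ‖U x‖ ^ 2) ∂ν
          = ∫ x, (‖x‖ ^ 2 - 2 * ⟪x, U x⟫_ℝ) ∂ν + ∫ x, ‖U x‖ ^ 2 ∂ν :=
        integral_add hA (int_sq U hU hUY)
      have e2 : ∫ x, (‖x‖ ^ 2 - 2 * ⟪x, U x⟫_ℝ) ∂ν
          = ∫ x, ‖x‖ ^ 2 ∂ν - ∫ x, 2 * ⟪x, U x⟫_ℝ ∂ν :=
        integral_sub int_xsq ((int_in U hU hUY).const_mul 2)
      rw [e1, e2, integral_const_mul]
  obtain ⟨hiT, hcT, heT⟩ := hcost T hTm hTY
  obtain ⟨hiS, hcS, heS⟩ := hcost S hS hSY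
  -- optimality of T against S
  have hopt : ∫ x, ⟪x, S x⟫_ℝ ∂ν ≤ ∫ x, ⟪x, T x⟫_ℝ ∂ν := by
    have h1 := hTopt S hS hSμ
    rw [hcT, hcS] at h1
    have h2 : ∫ x, ‖x - T x‖ ^ 2 ∂ν ≤ ∫ x, ‖x - S x‖ ^ 2 ∂ν :=
      (ENNReal.ofReal_le_ofReal_iff (integral_nonneg fun x => by positivity)).mp h1
    rw [heT, heS, hsq_eq] at h2
    linarith
  -- the nonnegative gap function
  set g : E d → ℝ := fun x => ⟪x, S x⟫_ℝ - conj K φ (S x) + conj K φ (T x) - ⟪x, T x⟫_ℝ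
    with hg_def
  have hg_nonneg : 0 ≤ᵐ[ν] g := by
    filter_upwards [hSeq, hTle] with x h1 h2
    show 0 ≤ ⟪x, S x⟫_ℝ - conj K φ (S x) + conj K φ (T x) - ⟪x, T x⟫_ℝ
    linarith
  have hg_int : Integrable g ν :=
    (((int_in S hS hSY).sub (int_conj S hS hSY)).add (int_conj T hTm hTY)).sub (int_in T hTm hTY)
  have hg_integral : ∫ x, g x ∂ν = ∫ x, ⟪x, S x⟫_ℝ ∂ν - ∫ x, ⟪x, T x⟫_ℝ ∂ν := by
    have e1 : ∫ x, g x ∂ν = ∫ x, ⟪x, S x⟫_ℝ ∂ν - ∫ x, conj K φ (S x) ∂ν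
        + ∫ x, conj K φ (T x) ∂ν - ∫ x, ⟪x, T x⟫_ℝ ∂ν := by
      have hA : Integrable (fun x => ⟪x, S x⟫_ℝ - conj K φ (S x)) ν :=
        (int_in S hS hSY).sub (int_conj S hS hSY)
      have hB : Integrable (fun x => ⟪x, S x⟫_ℝ - conj K φ (S x) + conj K φ (T x)) ν :=
        hA.add (int_conj T hTm hTY)
      have f1 : ∫ x, g x ∂ν = ∫ x, (⟪x, S x⟫_ℝ - conj K φ (S x) + conj K φ (T x)) ∂ν
          - ∫ x, ⟪x, T x⟫_ℝ ∂ν := integral_sub hB (int_in T hTm hTY)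
      have f2 : ∫ x, (⟪x, S x⟫_ℝ - conj K φ (S x) + conj K φ (T x)) ∂ν
          = ∫ x, (⟪x, S x⟫_ℝ - conj K φ (S x)) ∂ν + ∫ x, conj K φ (T x) ∂ν :=
        integral_add hA (int_conj T hTm hTY)
      have f3 : ∫ x, (⟪x, S x⟫_ℝ - conj K φ (S x)) ∂ν
          = ∫ x, ⟪x, S x⟫_ℝ ∂ν - ∫ x, conj K φ (S x) ∂ν :=
        integral_sub (int_in S hS hSY) (int_conj S hS hSY)
      rw [f1, f2, f3]
    rw [e1, hconj_eq]; ring
  have hg_zero : g =ᵐ[ν] 0 := by
    apply (integral_eq_zero_iff_of_nonneg_ae hg_nonneg hg_int).mp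
    apply le_antisymm
    · rw [hg_integral]; linarith
    · exact integral_nonneg_of_ae hg_nonneg
  -- conclusion
  filter_upwards [hνK, hSeq, hg_zero, huniq] with x hxK hS' hg' hu
  have hg'' : ⟪x, S x⟫_ℝ - conj K φ (S x) + conj K φ (T x) - ⟪x, T x⟫_ℝ = 0 := hg'
  have hTeq : ⟪x, T x⟫_ℝ = φ x + conj K φ (T x) := by linarith
  apply hu (T x)
  intro z hz
  have h1 := hyoung z hz (T x)
  rw [inner_sub_right, real_inner_comm z (T x), real_inner_comm x (T x)]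
  linarith

/-- `ρ K` is a probability measure for compact `K` with nonempty interior. -/
theorem rho_isProbabilityMeasure (K : Set (E d)) (hKc : IsCompact K)
    (hKi : (interior K).Nonempty) : IsProbabilityMeasure (ρ K) := by
  constructor
  have h0 : volume K ≠ 0 := by
    have h := isOpen_interior.measure_pos (volume : Measure (E d)) hKi
    exact (lt_of_lt_of_le h (measure_mono interior_subset)).ne'
  have h1 : volume K ≠ ⊤ := hKc.measure_lt_top.ne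
  show (Crest.AnalysisR.OT.uniformProbOn K) Set.univ = 1
  unfold Crest.AnalysisR.OT.uniformProbOn
  rw [Measure.smul_apply, Measure.restrict_apply MeasurableSet.univ, Set.univ_inter,
    smul_eq_mul, ENNReal.inv_mul_cancel h0 h1]

/-- `ρ K` is carried by `K`. -/
theorem rho_ae_mem (K : Set (E d)) (hKm : MeasurableSet K) : ∀ᵐ x ∂(ρ K), x ∈ K := by
  show ∀ᵐ x ∂(Crest.AnalysisR.OT.uniformProbOn K), x ∈ K
  unfold Crest.AnalysisR.OT.uniformProbOn
  exact Measure.ae_smul_measure (ae_restrict_mem hKm) _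

end B3

/-- **BRENIER, part B3 (identification)**: any quadratic optimal map `T` from `ρ K` to `μ`
coincides a.e. with a measurable map `S` pushing `ρ K` to `μ` such that `S x` is a.e. the unique
`K`-subgradient of some function `φ` at `x`. (`hφ` is not needed by the proof; it is kept so
that the statement is the one posted on the board.) -/
theorem brenier_ident {d : ℕ} (K : Set (E d)) (hKc : IsCompact K) (hKi : (interior K).Nonempty)
    (Y : Set (E d)) (hY : IsCompact Y) (μ : Measure (E d)) (_hμ : IsProbabilityMeasure μ)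
    (hμY : μ Yᶜ = 0) (T S : E d → E d) (hT : Crest.AnalysisR.OT.IsOptimalMap (ρ K) μ T)
    (hS : Measurable S) (hSμ : (ρ K).map S = μ) (φ : E d → ℝ) (_hφ : ContinuousOn φ K)
    (hsub : ∀ᵐ x ∂(ρ K), ∀ z ∈ K, φ x + ⟪S x, z - x⟫_ℝ ≤ φ z)
    (huniq : ∀ᵐ x ∂(ρ K), ∀ p : E d, (∀ z ∈ K, φ x + ⟪p, z - x⟫_ℝ ≤ φ z) → p = S x) :
    T =ᵐ[ρ K] S := by
  have := B3.rho_isProbabilityMeasure K hKc hKi
  exact B3.ident_core K hKc.isBounded (ρ K) (B3.rho_ae_mem K hKc.measurableSet) Y hY μ hμY T S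
    hT hS hSμ φ hsub huniq

/-- **BRENIER, glue lemma**: if measurable maps `L n` converge `ν`-a.e. to a measurable map `S`
and the image measures `ν.map (L n)` converge weakly to `μ` (tested against bounded continuous
functions), then `ν.map S = μ`. -/
theorem map_eq_of_ae_tendsto {d : ℕ} (ν : Measure (E d)) [IsProbabilityMeasure ν]
    (μ : Measure (E d)) [IsFiniteMeasure μ] (L : ℕ → E d → E d) (S : E d → E d)
    (hL : ∀ n, Measurable (L n)) (hS : Measurable S)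
    (hconv : ∀ᵐ x ∂ν, Tendsto (fun n => L n x) atTop (𝓝 (S x)))
    (hint : ∀ f : BoundedContinuousFunction (E d) ℝ,
      Tendsto (fun n => ∫ x, f (L n x) ∂ν) atTop (𝓝 (∫ x, f x ∂μ))) :
    ν.map S = μ := by
  have : IsFiniteMeasure (ν.map S) := Measure.isFiniteMeasure_map ν S
  apply ext_of_forall_integral_eq_of_IsFiniteMeasure
  intro f
  rw [integral_map hS.aemeasurable f.continuous.aestronglyMeasurable]
  have h1 : Tendsto (fun n => ∫ x, f (L n x) ∂ν) atTop (𝓝 (∫ x, f (S x) ∂ν)) := by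
    apply tendsto_integral_of_dominated_convergence (fun _ => ‖f‖)
    · intro n
      exact (f.continuous.measurable.comp (hL n)).aestronglyMeasurable
    · exact integrable_const _
    · intro n
      exact ae_of_all _ fun x => f.norm_coe_le_norm _
    · filter_upwards [hconv] with x hx
      exact (f.continuous.tendsto _).comp hx
  exact tendsto_nhds_unique h1 (hint f)

end Crest.Agent.LibS0109
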