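import Crest.Agent.Lib_S0109_BrAsm_h23
import Crest.Agent.Lib_S0109_BrAPkg_h19
import Crest.Agent.Lib_S0109_BrIdent_h1

/-!
# Row 82, package BRENIER: `pkg_BRENIER : St_BRENIER`

Assembled from `pkg_BrA` (helper19, Arzelà–Ascoli extraction), `brenier_ident` (helper1,
Fenchel–Young identification) and `pkg_BRENIER_of` (helper23: gradient convergence, Rademacher,
glue).
-/

set_option autoImplicit false

namespace Crest.Agent.LibS0109

/-- **BRENIER**: along a subsequence of any subsequence, the Laguerre maps of finitely supported
targets converging weakly to `μ` converge a.e. to any optimal map `T` from `ρ K` to `μ`. -/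
theorem pkg_BRENIER : St_BRENIER :=
  pkg_BRENIER_of pkg_BrA
    (fun _ K hKc hKi Y hY μ hμ hμY T S hT hS hSμ φ hφ hsub huniq =>
      brenier_ident K hKc hKi Y hY μ hμ hμY T S hT hS hSμ φ hφ hsub huniq)

end Crest.Agent.LibS0109
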