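import Crest.Agent.Lib_S0109_Lag

/-!
# Row 82, package BRENIER: glue lemmas (helper23)

* `BrGlue.map_eq_of_tendsto_ae`: if measurable maps `S n` converge `ρ`-a.e. to a measurable `S0`
  and `∫ f ∘ S n ∂ρ → ∫ f ∂μ` for every bounded continuous `f`, then `ρ.map S0 = μ`.
* `BrGlue.integral_comp_lagMap`: `∫ f (lagMap y ψ x) ∂(ρ K) = ∑ i, m i * f (y i)` for optimal
  weights.
* `BrGlue.map_limit_lagMap`: the instance needed for `St_BRENIER`.
-/

set_option autoImplicit false
open MeasureTheory Filter Topology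
open scoped ENNReal NNReal InnerProductSpace BoundedContinuousFunction

namespace Crest.Agent.LibS0109.BrGlue

open Crest.Agent.LibS0109

/-- If measurable maps `S n` converge `ρ`-a.e. to a measurable `S0` and the integrals of every
bounded continuous function along `S n` converge to its `μ`-integral, then `ρ.map S0 = μ`. -/
theorem map_eq_of_tendsto_ae {Ω F : Type*} [MeasurableSpace Ω]
    [MeasurableSpace F] [TopologicalSpace F] [HasOuterApproxClosed F] [BorelSpace F]
    (ρ : Measure Ω) (μ : Measure F) [IsFiniteMeasure ρ] [IsFiniteMeasure μ]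
    (S : ℕ → Ω → F) (S0 : Ω → F) (hS : ∀ n, Measurable (S n)) (hS0 : Measurable S0)
    (hlim : ∀ᵐ x ∂ρ, Tendsto (fun n => S n x) atTop (𝓝 (S0 x)))
    (hweak : ∀ f : F →ᵇ ℝ,
      Tendsto (fun n => ∫ x, f (S n x) ∂ρ) atTop (𝓝 (∫ x, f x ∂μ))) :
    ρ.map S0 = μ := by
  have : IsFiniteMeasure (ρ.map S0) := Measure.isFiniteMeasure_map ρ S0
  apply ext_of_forall_integral_eq_of_IsFiniteMeasure
  intro f
  rw [integral_map hS0.aemeasurable f.continuous.aestronglyMeasurable]
  have hdc : Tendsto (fun n => ∫ x, f (S n x) ∂ρ) atTop (𝓝 (∫ x, f (S0 x) ∂ρ)) := by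
    apply tendsto_integral_of_dominated_convergence (fun _ => ‖f‖)
    · intro n; exact (f.continuous.measurable.comp (hS n)).aestronglyMeasurable
    · exact integrable_const _
    · intro n; exact Eventually.of_forall fun x => f.norm_coe_le_norm _
    · filter_upwards [hlim] with x hx
      exact (f.continuous.tendsto _).comp hx
  exact tendsto_nhds_unique hdc (hweak f)

variable {d N : ℕ}

/-- Integral of a function along the Laguerre map of optimal weights. -/
theorem integral_comp_lagMap [NeZero N] {K : Set (E d)} (h0 : volume K ≠ 0) (hT : volume K ≠ ⊤)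
    {y : Fin N → E d} (hy : Function.Injective y) {m ψ : Fin N → ℝ} (hm : ∀ i, 0 ≤ m i)
    (h : IsOptW K y m ψ) (f : E d → ℝ) (hf : Measurable f) :
    ∫ x, f (lagMap y ψ x) ∂(ρ K) = ∑ i, m i * f (y i) := by
  rw [← integral_map (measurable_lagMap y ψ).aemeasurable hf.aestronglyMeasurable,
    map_lagMap h0 hT hy h]
  rw [integral_finsetSum_measure]
  · refine Finset.sum_congr rfl fun i _ => ?_
    rw [integral_smul_measure, integral_dirac, ENNReal.toReal_ofReal (hm i), smul_eq_mul]
  · intro i _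
    exact (integrable_dirac (by simp)).smul_measure ENNReal.ofReal_ne_top

/-- The glue step of BRENIER: an a.e. limit of Laguerre maps of optimal weights for targets
converging weakly to `μ` pushes `ρ K` to `μ`. -/
theorem map_limit_lagMap {K : Set (E d)} (h0 : volume K ≠ 0) (hT : volume K ≠ ⊤)
    (μ : Measure (E d)) [IsFiniteMeasure μ]
    (N : ℕ → ℕ) [∀ n, NeZero (N n)] (m : ∀ n, Fin (N n) → ℝ) (y : ∀ n, Fin (N n) → E d)
    (ψ : ∀ n, Fin (N n) → ℝ)
    (hy : ∀ n, Function.Injective (y n)) (hm : ∀ n i, 0 ≤ m n i)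
    (hopt : ∀ n, IsOptW K (y n) (m n) (ψ n))
    (hweak : ∀ f : BoundedContinuousFunction (E d) ℝ,
      Tendsto (fun n => ∑ i, m n i * f (y n i)) atTop (𝓝 (∫ x, f x ∂μ)))
    (kk : ℕ → ℕ) (hkk : Tendsto kk atTop atTop)
    (S0 : E d → E d) (hS0 : Measurable S0)
    (hlim : ∀ᵐ x ∂(ρ K), Tendsto (fun j => lagMap (y (kk j)) (ψ (kk j)) x) atTop (𝓝 (S0 x))) :
    (ρ K).map S0 = μ := by
  have := rho_isProbabilityMeasure h0 hT
  refine map_eq_of_tendsto_ae (ρ K) μ (fun j => lagMap (y (kk j)) (ψ (kk j))) S0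
    (fun j => measurable_lagMap _ _) hS0 hlim fun f => ?_
  have h1 : ∀ j, ∫ x, f (lagMap (y (kk j)) (ψ (kk j)) x) ∂(ρ K)
      = ∑ i, m (kk j) i * f (y (kk j) i) := fun j =>
    integral_comp_lagMap h0 hT (hy _) (hm _) (hopt _) f f.continuous.measurable
  simp only [h1]
  exact (hweak f).comp hkk

end Crest.Agent.LibS0109.BrGlue
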