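import Crest.Agent.Lib_S0109_BrDefs_h23
import Crest.Agent.Lib_S0109_BrGlue_h23

/-!
# Row 82, package BRENIER: gradient convergence, a.e. differentiability and the assembly (helper23)
-/

set_option autoImplicit false
open MeasureTheory Filter Topology
open scoped ENNReal NNReal InnerProductSpace

namespace Crest.Agent.LibS0109.BrAsm

open Crest.Agent.LibS0109

variable {d : ℕ}

/-- One-sided directional bound for subgradients of functions converging pointwise. -/
theorem eventually_inner_le {K : Set (E d)} {x : E d} (hx : x ∈ interior K)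
    {φ : E d → ℝ} {g : E d} (hg : HasGradientAt φ g x)
    {w : ℕ → E d → ℝ} {p : ℕ → E d}
    (hw : ∀ z ∈ K, Tendsto (fun j => w j z) atTop (𝓝 (φ z)))
    (hp : ∀ j, ∀ z ∈ K, w j x + ⟪p j, z - x⟫_ℝ ≤ w j z) (v : E d) {ε : ℝ} (hε : 0 < ε) :
    ∀ᶠ j in atTop, ⟪p j, v⟫_ℝ < ⟪g, v⟫_ℝ + ε := by
  have hline : HasLineDerivAt ℝ φ (⟪g, v⟫_ℝ) x v := by
    have := hg.hasFDerivAt.hasLineDerivAt v
    simpa using this
  have hslope := (HasDerivAt.tendsto_slope_zero_right hline)
  have h1 : ∀ᶠ t in 𝓝[>] (0 : ℝ), t⁻¹ • (φ (x + (0 + t) • v) - φ (x + (0 : ℝ) • v))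
      < ⟪g, v⟫_ℝ + ε / 2 :=
    hslope.eventually (gt_mem_nhds (by linarith))
  have h2 : ∀ᶠ t in 𝓝[>] (0 : ℝ), x + t • v ∈ K := by
    have hcont : ContinuousAt (fun t : ℝ => x + t • v) 0 := by fun_prop
    have hmem : K ∈ 𝓝 (x + (0 : ℝ) • v) := by
      simpa using mem_interior_iff_mem_nhds.mp hx
    exact (hcont.eventually hmem).filter_mono nhdsWithin_le_nhds
  have h3 : ∀ᶠ t in 𝓝[>] (0 : ℝ), 0 < t := self_mem_nhdsWithin
  obtain ⟨t, ht1, ht2, ht3⟩ := (h1.and (h2.and h3)).exists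
  simp only [zero_add, zero_smul, add_zero, smul_eq_mul] at ht1
  have hxK : x ∈ K := interior_subset hx
  have hlim : Tendsto (fun j => w j (x + t • v) - w j x) atTop
      (𝓝 (φ (x + t • v) - φ x)) := (hw _ ht2).sub (hw _ hxK)
  have hlt : φ (x + t • v) - φ x < t * (⟪g, v⟫_ℝ + ε) := by
    have h5 : t⁻¹ * (φ (x + t • v) - φ x) < ⟪g, v⟫_ℝ + ε / 2 := ht1
    have h6 : φ (x + t • v) - φ x < t * (⟪g, v⟫_ℝ + ε / 2) := by
      have := mul_lt_mul_of_pos_left h5 ht3
      rwa [← mul_assoc, mul_inv_cancel₀ ht3.ne', one_mul] at this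
    nlinarith
  filter_upwards [hlim.eventually (gt_mem_nhds hlt)] with j hj
  have h7 := hp j _ ht2
  have h8 : ⟪p j, x + t • v - x⟫_ℝ = t * ⟪p j, v⟫_ℝ := by
    rw [add_sub_cancel_left, inner_smul_right]
  rw [h8] at h7
  have h9 : t * ⟪p j, v⟫_ℝ < t * (⟪g, v⟫_ℝ + ε) := by linarith
  exact lt_of_mul_lt_mul_left h9 ht3.le

/-- **BrB**: subgradients (relative to `K`) of functions converging pointwise on `K` converge to
the gradient of the limit at an interior differentiability point. -/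
theorem tendsto_subgrad {K : Set (E d)} {x : E d} (hx : x ∈ interior K)
    {φ : E d → ℝ} {g : E d} (hg : HasGradientAt φ g x)
    {w : ℕ → E d → ℝ} {p : ℕ → E d}
    (hw : ∀ z ∈ K, Tendsto (fun j => w j z) atTop (𝓝 (φ z)))
    (hp : ∀ j, ∀ z ∈ K, w j x + ⟪p j, z - x⟫_ℝ ≤ w j z) :
    Tendsto p atTop (𝓝 g) := by
  have hdir : ∀ v : E d, Tendsto (fun j => ⟪p j, v⟫_ℝ) atTop (𝓝 ⟪g, v⟫_ℝ) := by
    intro v
    rw [tendsto_order]
    constructor
    · intro a ha
      have h := eventually_inner_le hx hg hw hp (-v) (ε := ⟪g, v⟫_ℝ - a) (by linarith)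
      filter_upwards [h] with j hj
      rw [inner_neg_right, inner_neg_right] at hj
      linarith
    · intro a ha
      have h := eventually_inner_le hx hg hw hp v (ε := a - ⟪g, v⟫_ℝ) (by linarith)
      filter_upwards [h] with j hj
      linarith
  have hcoord : ∀ i : Fin d, Tendsto (fun j => p j i) atTop (𝓝 (g i)) := by
    intro i
    have h := hdir (EuclideanSpace.single i (1 : ℝ))
    simpa [EuclideanSpace.inner_single_right] using h
  have hpi : Tendsto (fun j => WithLp.ofLp (p j)) atTop (𝓝 (WithLp.ofLp g)) :=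
    tendsto_pi_nhds.2 hcoord
  have hcont := (PiLp.continuous_toLp 2 (fun _ : Fin d => ℝ)).tendsto (WithLp.ofLp g)
  have h := hcont.comp hpi
  have h2 : (WithLp.toLp 2 ∘ fun j => WithLp.ofLp (p j)) = p := by
    funext j; simp
  rw [h2] at h
  simpa using h

/-- A `K`-subgradient of `φ` at an interior differentiability point is the gradient. -/
theorem subgrad_unique {K : Set (E d)} {x : E d} (hx : x ∈ interior K)
    {φ : E d → ℝ} {g : E d} (hg : HasGradientAt φ g x) {p : E d}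
    (hp : ∀ z ∈ K, φ x + ⟪p, z - x⟫_ℝ ≤ φ z) : p = g :=
  tendsto_nhds_unique tendsto_const_nhds
    (tendsto_subgrad hx hg (w := fun _ => φ) (p := fun _ => p)
      (fun _ _ => tendsto_const_nhds) (fun _ => hp))

/-- **BrE**: `ρ K`-a.e. point is an interior point of `K` at which a Lipschitz function is
differentiable. -/
theorem ae_interior_differentiableAt {K : Set (E d)} (hKc : IsCompact K) (hKconv : Convex ℝ K)
    {M : ℝ≥0} {φ : E d → ℝ} (hφ : LipschitzWith M φ) :
    ∀ᵐ x ∂(ρ K), x ∈ interior K ∧ DifferentiableAt ℝ φ x := by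
  have h1 : ∀ᵐ x ∂(ρ K), DifferentiableAt ℝ φ x :=
    (rho_absolutelyContinuous K).ae_le (hφ.ae_differentiableAt (μ := volume))
  have h2 : ∀ᵐ x ∂(ρ K), x ∉ frontier K := by
    have h : ∀ᵐ x ∂(volume : Measure (E d)), x ∉ frontier K := by
      rw [ae_iff]
      simpa using hKconv.addHaar_frontier (volume : Measure (E d))
    exact (rho_absolutelyContinuous K).ae_le h
  have h3 := ae_rho_mem K hKc.measurableSet
  filter_upwards [h1, h2, h3] with x hx1 hx2 hx3
  refine ⟨?_, hx1⟩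
  by_contra hx4
  exact hx2 ⟨subset_closure hx3, hx4⟩

/-- The gradient of a function is measurable. -/
theorem measurable_gradient (φ : E d → ℝ) : Measurable (fun x => gradient φ x) := by
  have h := measurable_fderiv ℝ φ
  exact (InnerProductSpace.toDual ℝ (E d)).symm.continuous.measurable.comp h

end Crest.Agent.LibS0109.BrAsm

namespace Crest.Agent.LibS0109

open BrAsm in
/-- **BRENIER** from its two sub-packages `BrA` (Arzelà–Ascoli extraction) and `BrD`
(Fenchel–Young identification). -/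
theorem pkg_BRENIER_of (hA : St_BrA) (hD : St_BrD) : St_BRENIER := by
  intro d K hKc hKconv hKi Y hY μ T hμ hμY hT N _ m y ψ hy hm hsum hyY hopt hweak k hk
  have h0 : volume K ≠ 0 := volume_ne_zero_of_interior hKi
  have hT' : volume K ≠ ⊤ := volume_ne_top_of_isCompact hKc
  have hprob := rho_isProbabilityMeasure h0 hT'
  obtain ⟨M, hM⟩ : ∃ M : ℝ≥0, ∀ p ∈ Y, ‖p‖ ≤ M := by
    obtain ⟨C, hC⟩ := hY.isBounded.exists_norm_le
    exact ⟨C.toNNReal, fun p hp => (hC p hp).trans (Real.le_coe_toNNReal C)⟩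
  obtain ⟨x0, hx0⟩ := hKi
  have hx0K : x0 ∈ K := interior_subset hx0
  obtain ⟨k', hk', φ, hφ, hconv⟩ := hA d K hKc x0 hx0K M (fun n => pot (y (k n)) (ψ (k n)))
    (fun n => pot_lipschitz _ _ M (fun i => hM _ (hyY _ i)))
  refine ⟨k', hk', ?_⟩
  have hsubw : ∀ j x z,
      (pot (y (k (k' j))) (ψ (k (k' j))) x - pot (y (k (k' j))) (ψ (k (k' j))) x0)
        + ⟪lagMap (y (k (k' j))) (ψ (k (k' j))) x, z - x⟫_ℝ
      ≤ pot (y (k (k' j))) (ψ (k (k' j))) z - pot (y (k (k' j))) (ψ (k (k' j))) x0 := by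
    intro j x z
    have := pot_subgradient (y (k (k' j))) (ψ (k (k' j))) x z
    linarith
  have hGm : Measurable (fun x => gradient φ x) := measurable_gradient φ
  have hae := ae_interior_differentiableAt hKc hKconv hφ
  have hlimG : ∀ᵐ x ∂(ρ K), Tendsto (fun j => lagMap (y (k (k' j))) (ψ (k (k' j))) x) atTop
      (𝓝 (gradient φ x)) := by
    filter_upwards [hae] with x hx
    exact tendsto_subgrad hx.1 hx.2.hasGradientAt
      (w := fun j z => pot (y (k (k' j))) (ψ (k (k' j))) z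
        - pot (y (k (k' j))) (ψ (k (k' j))) x0)
      (fun z hz => hconv z hz) (fun j z _ => hsubw j x z)
  have hmap : (ρ K).map (fun x => gradient φ x) = μ :=
    BrGlue.map_limit_lagMap h0 hT' μ N m y ψ hy (fun n i => (hm n i).le) hopt hweak
      (fun j => k (k' j)) ((hk.comp hk').tendsto_atTop) _ hGm hlimG
  have hsub : ∀ᵐ x ∂(ρ K), ∀ z ∈ K, φ x + ⟪gradient φ x, z - x⟫_ℝ ≤ φ z := by
    filter_upwards [hae, hlimG] with x hx hxl z hz
    have hxK : x ∈ K := interior_subset hx.1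
    have h1 : Tendsto (fun j =>
        (pot (y (k (k' j))) (ψ (k (k' j))) x - pot (y (k (k' j))) (ψ (k (k' j))) x0)
          + ⟪lagMap (y (k (k' j))) (ψ (k (k' j))) x, z - x⟫_ℝ) atTop
        (𝓝 (φ x + ⟪gradient φ x, z - x⟫_ℝ)) :=
      (hconv x hxK).add (hxl.inner tendsto_const_nhds)
    exact le_of_tendsto_of_tendsto' h1 (hconv z hz) (fun j => hsubw j x z)
  have huniq : ∀ᵐ x ∂(ρ K), ∀ p : E d, (∀ z ∈ K, φ x + ⟪p, z - x⟫_ℝ ≤ φ z) →
      p = gradient φ x := by
    filter_upwards [hae] with x hx p hp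
    exact subgrad_unique hx.1 hx.2.hasGradientAt hp
  have hTG : T =ᵐ[ρ K] (fun x => gradient φ x) :=
    hD d K hKc ⟨x0, hx0⟩ Y hY μ hμ hμY T _ hT hGm hmap φ hφ.continuous.continuousOn hsub huniq
  filter_upwards [hTG, hlimG] with x hx1 hx2
  rw [hx1]; exact hx2

end Crest.Agent.LibS0109
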