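import Mathlib
import Crest.Prelude.Def_QuadraticTransport
import Crest.Agent.Lib_S0109_Defs

/-!
# Row 82 (S0109), package BRENIER, part BrE/BrB: differentiability points and subgradients.

* `ae_interior_differentiable`: for convex compact `K` and Lipschitz `φ`, `ρ K`-a.e. point is an
  interior point of `K` at which `φ` is differentiable (Rademacher + null frontier).
* `subgrad_eq_gradient`: at such a point, every `K`-subgradient of `φ` is the gradient.
* `measurable_gradient`: the gradient is a measurable map.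
* `tendsto_subgrad`: bounded `K`-subgradients of functions converging pointwise on `K` converge
  to the gradient of the limit at an interior differentiability point.
* `subgrad_gradient_of_tendsto`: in that situation the gradient is a `K`-subgradient of the limit.

Everything except these exported theorems lives in `Crest.Agent.LibS0109.BrE`.
-/

set_option autoImplicit false
open MeasureTheory Filter Topology
open scoped ENNReal NNReal InnerProductSpace

namespace Crest.Agent.LibS0109
namespace BrE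

variable {d : ℕ}

theorem rho_ac (K : Set (E d)) : ρ K ≪ (volume : Measure (E d)) := by
  show Crest.AnalysisR.OT.uniformProbOn K ≪ volume
  unfold Crest.AnalysisR.OT.uniformProbOn
  exact (Measure.absolutelyContinuous_of_le Measure.restrict_le_self).smul_left _

theorem rho_ae_mem (K : Set (E d)) (hKm : MeasurableSet K) : ∀ᵐ x ∂(ρ K), x ∈ K := by
  show ∀ᵐ x ∂(Crest.AnalysisR.OT.uniformProbOn K), x ∈ K
  unfold Crest.AnalysisR.OT.uniformProbOn
  exact Measure.ae_smul_measure (ae_restrict_mem hKm) _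

/-- A limit of `K`-subgradients (of functions converging pointwise on `K`) is a `K`-subgradient
of the limit. -/
theorem subgrad_of_tendsto (K : Set (E d)) (φ : E d → ℝ) (x : E d) (hx : x ∈ K)
    (w : ℕ → E d → ℝ) (hw : ∀ z ∈ K, Tendsto (fun j => w j z) atTop (𝓝 (φ z)))
    (p : ℕ → E d) (a : E d) (hpa : Tendsto p atTop (𝓝 a))
    (hp : ∀ j, ∀ z ∈ K, w j x + ⟪p j, z - x⟫_ℝ ≤ w j z) :
    ∀ z ∈ K, φ x + ⟪a, z - x⟫_ℝ ≤ φ z := by
  intro z hz
  have h1 : Tendsto (fun j => w j x + ⟪p j, z - x⟫_ℝ) atTop (𝓝 (φ x + ⟪a, z - x⟫_ℝ)) :=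
    (hw x hx).add (hpa.inner tendsto_const_nhds)
  exact le_of_tendsto_of_tendsto' h1 (hw z hz) fun j => hp j z hz

end BrE

/-- **BrE (E1)**: for compact convex `K` and a Lipschitz function `φ`, `ρ K`-almost every point
is an interior point of `K` at which `φ` is differentiable. -/
theorem ae_interior_differentiable {d : ℕ} (K : Set (E d)) (hKc : IsCompact K)
    (hKv : Convex ℝ K) (M : ℝ≥0) (φ : E d → ℝ) (hφ : LipschitzWith M φ) :
    ∀ᵐ x ∂(ρ K), x ∈ interior K ∧ DifferentiableAt ℝ φ x := by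
  have h1 : ∀ᵐ x ∂(ρ K), DifferentiableAt ℝ φ x :=
    (BrE.rho_ac K).ae_le (hφ.ae_differentiableAt (μ := (volume : Measure (E d))))
  have h2 : ∀ᵐ x ∂(ρ K), x ∉ frontier K := by
    have h0 : (volume : Measure (E d)) (frontier K) = 0 := hKv.addHaar_frontier volume
    exact measure_eq_zero_iff_ae_notMem.mp ((BrE.rho_ac K) h0)
  filter_upwards [h1, h2, BrE.rho_ae_mem K hKc.measurableSet] with x hx1 hx2 hx3
  refine ⟨?_, hx1⟩
  by_contra hni
  exact hx2 ⟨subset_closure hx3, hni⟩

/-- **BrE (E2)**: at an interior point of `K` where `φ` is differentiable, every `K`-subgradient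
of `φ` equals the gradient. -/
theorem subgrad_eq_gradient {d : ℕ} (K : Set (E d)) (φ : E d → ℝ) (x : E d)
    (hx : x ∈ interior K) (hd : DifferentiableAt ℝ φ x) (p : E d)
    (hp : ∀ z ∈ K, φ x + ⟪p, z - x⟫_ℝ ≤ φ z) : p = gradient φ x := by
  have hmin : IsLocalMin (fun z => φ z - innerSL ℝ p z) x := by
    have hK : K ∈ 𝓝 x := mem_interior_iff_mem_nhds.mp hx
    filter_upwards [hK] with z hz
    have h1 := hp z hz
    rw [inner_sub_right] at h1
    show φ x - innerSL ℝ p x ≤ φ z - innerSL ℝ p z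
    simp only [innerSL_apply_apply]
    linarith
  have hder : HasFDerivAt (fun z => φ z - innerSL ℝ p z) (fderiv ℝ φ x - innerSL ℝ p) x :=
    hd.hasFDerivAt.sub (innerSL ℝ p).hasFDerivAt
  have h0 : fderiv ℝ φ x - innerSL ℝ p = 0 := hmin.hasFDerivAt_eq_zero hder
  have h1 : fderiv ℝ φ x = innerSL ℝ p := sub_eq_zero.mp h0
  unfold gradient
  rw [h1]
  symm
  rw [LinearIsometryEquiv.symm_apply_eq]
  ext v
  simp [InnerProductSpace.toDual_apply_apply]

/-- **BrE (E3)**: the gradient of any function is a measurable map. -/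
theorem measurable_gradient {d : ℕ} (φ : E d → ℝ) : Measurable (fun x => gradient φ x) := by
  unfold gradient
  exact (InnerProductSpace.toDual ℝ (E d)).symm.continuous.measurable.comp (measurable_fderiv ℝ φ)

/-- **BrB (E4)**: bounded `K`-subgradients `p j` at `x` of functions `w j` converging pointwise on
`K` to `φ` converge to the gradient of `φ` at `x`, if `x` is an interior point of `K` where `φ`
is differentiable. -/
theorem tendsto_subgrad {d : ℕ} (K : Set (E d)) (φ : E d → ℝ) (x : E d) (hx : x ∈ interior K)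
    (hd : DifferentiableAt ℝ φ x) (w : ℕ → E d → ℝ)
    (hw : ∀ z ∈ K, Tendsto (fun j => w j z) atTop (𝓝 (φ z))) (p : ℕ → E d) (R : ℝ)
    (hpR : ∀ j, ‖p j‖ ≤ R) (hp : ∀ j, ∀ z ∈ K, w j x + ⟪p j, z - x⟫_ℝ ≤ w j z) :
    Tendsto p atTop (𝓝 (gradient φ x)) := by
  apply tendsto_of_subseq_tendsto
  intro ns hns
  have hball : ∀ n, p (ns n) ∈ Metric.closedBall (0 : E d) R := fun n => by
    rw [mem_closedBall_zero_iff]; exact hpR _
  obtain ⟨a, -, ms, hms, ha⟩ := (isCompact_closedBall (0 : E d) R).tendsto_subseq hball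
  refine ⟨ms, ?_⟩
  have hsub : ∀ z ∈ K, φ x + ⟪a, z - x⟫_ℝ ≤ φ z := by
    apply BrE.subgrad_of_tendsto K φ x (interior_subset hx) (fun j => w (ns (ms j)))
      (fun z hz => (hw z hz).comp (hns.comp hms.tendsto_atTop)) (fun j => p (ns (ms j))) a ha
    intro j z hz
    exact hp _ z hz
  have hag : a = gradient φ x := subgrad_eq_gradient K φ x hx hd a hsub
  rw [← hag]
  exact ha

/-- In the situation of `tendsto_subgrad`, the gradient is a `K`-subgradient of the limit. -/
theorem subgrad_gradient_of_tendsto {d : ℕ} (K : Set (E d)) (φ : E d → ℝ) (x : E d)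
    (hx : x ∈ interior K) (hd : DifferentiableAt ℝ φ x) (w : ℕ → E d → ℝ)
    (hw : ∀ z ∈ K, Tendsto (fun j => w j z) atTop (𝓝 (φ z))) (p : ℕ → E d) (R : ℝ)
    (hpR : ∀ j, ‖p j‖ ≤ R) (hp : ∀ j, ∀ z ∈ K, w j x + ⟪p j, z - x⟫_ℝ ≤ w j z) :
    ∀ z ∈ K, φ x + ⟪gradient φ x, z - x⟫_ℝ ≤ φ z :=
  BrE.subgrad_of_tendsto K φ x (interior_subset hx) w hw p (gradient φ x)
    (tendsto_subgrad K φ x hx hd w hw p R hpR hp) hp

end Crest.Agent.LibS0109
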