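import Mathlib
import Crest.Agent.Lib_S0109_Defs

/-!
# Row 82 (S0109), package CONT: continuity of optimal weights in the masses.

`pkg_CONT : St_CONT`.  Self-contained (the few Laguerre facts needed are proved here, in the
namespace `Crest.Agent.LibS0109.CONT`).
-/

set_option autoImplicit false
open MeasureTheory Filter Topology
open scoped ENNReal NNReal InnerProductSpace

namespace Crest.Agent.LibS0109
namespace CONT

variable {d N : ℕ}

/-! ## Basic facts about cells -/

lemma cell_eq_iInter (y : Fin N → E d) (ψ : Fin N → ℝ) (i : Fin N) :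
    cell y ψ i = ⋂ j, {x | ⟪x, y j⟫_ℝ - ψ j ≤ ⟪x, y i⟫_ℝ - ψ i} := by
  ext x; simp [cell]

lemma isClosed_cell (y : Fin N → E d) (ψ : Fin N → ℝ) (i : Fin N) : IsClosed (cell y ψ i) := by
  rw [cell_eq_iInter]
  refine isClosed_iInter fun j => ?_
  exact isClosed_le (by fun_prop) (by fun_prop)

lemma measurableSet_cell (y : Fin N → E d) (ψ : Fin N → ℝ) (i : Fin N) :
    MeasurableSet (cell y ψ i) := (isClosed_cell y ψ i).measurableSet

lemma exists_mem_cell [NeZero N] (y : Fin N → E d) (ψ : Fin N → ℝ) (x : E d) :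
    ∃ i, x ∈ cell y ψ i := by
  obtain ⟨i, hi⟩ := Finite.exists_max (fun i : Fin N => ⟪x, y i⟫_ℝ - ψ i)
  exact ⟨i, fun j => hi j⟩

/-- Cells do not change when a constant is added to the weights. -/
lemma cell_add_const (y : Fin N → E d) (ψ : Fin N → ℝ) (c : ℝ) (i : Fin N) :
    cell y (fun j => ψ j + c) i = cell y ψ i := by
  ext x
  simp only [cell, Set.mem_ofPred_eq]
  constructor
  · intro h j; have := h j; linarith
  · intro h j; have := h j; linarith

/-- A level set of a nonzero linear functional is Lebesgue-null. -/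
lemma volume_hyperplane_eq_zero (v : E d) (hv : v ≠ 0) (c : ℝ) :
    volume {x : E d | ⟪x, v⟫_ℝ = c} = 0 := by
  classical
  let S : AffineSubspace ℝ (E d) :=
    AffineSubspace.mk' ((c / ⟪v, v⟫_ℝ) • v) (LinearMap.ker (innerSL ℝ v).toLinearMap)
  have hvv : ⟪v, v⟫_ℝ ≠ 0 := by
    simpa using hv
  have hS : ({x : E d | ⟪x, v⟫_ℝ = c} : Set (E d)) = S := by
    ext x
    simp only [Set.mem_ofPred_eq, S, SetLike.mem_coe, AffineSubspace.mem_mk', vsub_eq_sub,
      LinearMap.mem_ker, ContinuousLinearMap.coe_coe, innerSL_apply_apply, inner_sub_right,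
      inner_smul_right]
    rw [real_inner_comm v x]
    constructor
    · intro h; rw [h]; field_simp; ring
    · intro h
      have : c / ⟪v, v⟫_ℝ * ⟪v, v⟫_ℝ = c := by field_simp
      linarith
  rw [hS]
  apply Measure.addHaar_affineSubspace
  intro htop
  have hv' : v ∈ S := by rw [htop]; trivial
  have h0 : (0 : E d) ∈ S := by rw [htop]; trivial
  have hdir : v - 0 ∈ S.direction := AffineSubspace.vsub_mem_direction hv' h0
  simp only [S, AffineSubspace.direction_mk', sub_zero, LinearMap.mem_ker,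
    ContinuousLinearMap.coe_coe, innerSL_apply_apply] at hdir
  exact hvv hdir

/-- Tie sets are Lebesgue-null when the points are distinct. -/
lemma tie_null (y : Fin N → E d) (hy : Function.Injective y) (ψ : Fin N → ℝ) {i j : Fin N}
    (hij : i ≠ j) : volume (cell y ψ i ∩ cell y ψ j) = 0 := by
  have hv : y i - y j ≠ 0 := sub_ne_zero.mpr (fun h => hij (hy h))
  refine measure_mono_null ?_ (volume_hyperplane_eq_zero (y i - y j) hv (ψ i - ψ j))
  rintro x ⟨h1, h2⟩
  have a := h1 j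
  have b := h2 i
  simp only [Set.mem_ofPred_eq, inner_sub_right]
  linarith

/-! ## The uniform probability measure on `K` -/

section Rho
variable {K : Set (E d)}

lemma volume_K_pos (hKi : (interior K).Nonempty) : 0 < volume K :=
  lt_of_lt_of_le (isOpen_interior.measure_pos volume hKi) (measure_mono interior_subset)

lemma volume_K_ne_top (hKc : IsCompact K) : volume K ≠ ∞ := hKc.measure_lt_top.ne

lemma rho_apply (hKc : IsCompact K) (S : Set (E d)) :
    ρ K S = (volume K)⁻¹ * volume (S ∩ K) := by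
  simp only [Crest.AnalysisR.OT.uniformProbOn, Measure.smul_apply, smul_eq_mul,
    Measure.restrict_apply' hKc.measurableSet]

lemma isProb (hKc : IsCompact K) (hKi : (interior K).Nonempty) : IsProbabilityMeasure (ρ K) :=
  ⟨by rw [rho_apply hKc, Set.univ_inter,
    ENNReal.inv_mul_cancel (volume_K_pos hKi).ne' (volume_K_ne_top hKc)]⟩

lemma rho_null_of_volume_null (hKc : IsCompact K) {S : Set (E d)} (h : volume S = 0) :
    ρ K S = 0 := by
  rw [rho_apply hKc, measure_mono_null Set.inter_subset_left h, mul_zero]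

lemma rho_pos_of_open (hKc : IsCompact K) {U : Set (E d)} (hU : IsOpen U)
    (hne : (U ∩ interior K).Nonempty) : 0 < ρ K U := by
  rw [rho_apply hKc]
  have h1 : 0 < volume (U ∩ K) :=
    lt_of_lt_of_le ((hU.inter isOpen_interior).measure_pos volume hne)
      (measure_mono (Set.inter_subset_inter_right _ interior_subset))
  exact ENNReal.mul_pos (ENNReal.inv_ne_zero.mpr (volume_K_ne_top hKc)) h1.ne'

lemma inter_interior_nonempty_of_rho_pos (hKc : IsCompact K) (hKv : Convex ℝ K) {S : Set (E d)}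
    (h : 0 < ρ K S) : (S ∩ interior K).Nonempty := by
  by_contra hne
  rw [Set.not_nonempty_iff_eq_empty] at hne
  have hsub : S ∩ K ⊆ frontier K := by
    rintro x ⟨hxS, hxK⟩
    refine ⟨subset_closure hxK, fun hxi => ?_⟩
    have : x ∈ S ∩ interior K := ⟨hxS, hxi⟩
    rw [hne] at this
    exact this
  have h0 : volume (S ∩ K) = 0 := measure_mono_null hsub (hKv.addHaar_frontier volume)
  rw [rho_apply hKc, h0, mul_zero] at h
  exact lt_irrefl _ h

lemma inter_K_nonempty_of_rho_pos (hKc : IsCompact K) (hKv : Convex ℝ K) {S : Set (E d)}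
    (h : 0 < ρ K S) : (S ∩ K).Nonempty :=
  (inter_interior_nonempty_of_rho_pos hKc hKv h).mono
    (Set.inter_subset_inter_right _ interior_subset)

end Rho

/-! ## Uniqueness of optimal weights up to an additive constant -/

theorem optW_unique [NeZero N] {K : Set (E d)} (hKc : IsCompact K) (hKv : Convex ℝ K)
    (hKi : (interior K).Nonempty) (y : Fin N → E d) (m : Fin N → ℝ)
    (hy : Function.Injective y) (hm : ∀ i, 0 < m i) (ψ ψ' : Fin N → ℝ)
    (h : IsOptW K y m ψ) (h' : IsOptW K y m ψ') : ∃ c : ℝ, ∀ i, ψ' i = ψ i + c := by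
  classical
  have := isProb hKc hKi
  obtain ⟨i₀, hi₀⟩ := Finite.exists_max (fun i : Fin N => ψ' i - ψ i)
  refine ⟨ψ' i₀ - ψ i₀, fun i => ?_⟩
  by_contra hne
  have hi : ψ' i - ψ i < ψ' i₀ - ψ i₀ := lt_of_le_of_ne (hi₀ i) (fun e => hne (by linarith))
  set c := ψ' i₀ - ψ i₀ with hc
  let I : Set (Fin N) := {k | ψ' k - ψ k = c}
  let P : Set (E d) := ⋃ k ∈ I, cell y ψ' k
  let Q : Set (E d) := ⋃ k ∈ I, cell y ψ k
  let A : Set (E d) := ⋃ k ∈ I, ⋂ j ∈ Iᶜ, {x | ⟪x, y j⟫_ℝ - ψ j < ⟪x, y k⟫_ℝ - ψ k}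
  have hPclosed : IsClosed P :=
    (Set.toFinite I).isClosed_biUnion fun k _ => isClosed_cell y ψ' k
  have hAopen : IsOpen A := by
    refine isOpen_biUnion fun k _ => ?_
    refine (Set.toFinite (Iᶜ)).isOpen_biInter fun j _ => ?_
    exact isOpen_lt (by fun_prop) (by fun_prop)
  have hPA : P ⊆ A := by
    intro x hx
    simp only [P, Set.mem_iUnion, exists_prop] at hx
    obtain ⟨k, hkI, hxk⟩ := hx
    simp only [A, Set.mem_iUnion, Set.mem_iInter, exists_prop]
    refine ⟨k, hkI, fun j hj => ?_⟩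
    have h1 := hxk j
    have h2 : ψ' j - ψ j < c := lt_of_le_of_ne (hi₀ j) hj
    have h3 : ψ' k - ψ k = c := hkI
    show ⟪x, y j⟫_ℝ - ψ j < ⟪x, y k⟫_ℝ - ψ k
    linarith
  have hAQ : A ⊆ Q := by
    intro x hx
    simp only [A, Set.mem_iUnion, Set.mem_iInter, exists_prop] at hx
    obtain ⟨k, hkI, hxk⟩ := hx
    obtain ⟨l, hl⟩ := exists_mem_cell y ψ x
    have hlI : l ∈ I := by
      by_contra hlI
      have h1 : ⟪x, y l⟫_ℝ - ψ l < ⟪x, y k⟫_ℝ - ψ k := hxk l hlI
      have h2 := hl k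
      linarith
    simp only [Q, Set.mem_iUnion, exists_prop]
    exact ⟨l, hlI, hl⟩
  -- `ρ (Q \ P) = 0`
  have hQP : ρ K (Q \ P) = 0 := by
    have hsub : Q \ P ⊆ ⋃ k ∈ I, (cell y ψ k \ cell y ψ' k) := by
      rintro x ⟨hxQ, hxP⟩
      simp only [Q, Set.mem_iUnion, exists_prop] at hxQ
      obtain ⟨k, hkI, hxk⟩ := hxQ
      simp only [Set.mem_iUnion, exists_prop]
      refine ⟨k, hkI, hxk, fun hx' => hxP ?_⟩
      simp only [P, Set.mem_iUnion, exists_prop]
      exact ⟨k, hkI, hx'⟩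
    refine measure_mono_null hsub ?_
    rw [measure_biUnion_null_iff (Set.to_countable I)]
    intro k hkI
    have hsub' : cell y ψ' k ⊆ cell y ψ k := by
      intro x hx j
      have h1 := hx j
      have h2 : ψ' j - ψ j ≤ c := hi₀ j
      have h3 : ψ' k - ψ k = c := hkI
      linarith
    have heq : ρ K (cell y ψ' k) = ρ K (cell y ψ k) := by
      have e1 := h k
      have e2 := h' k
      rw [← ENNReal.toReal_eq_toReal_iff' (measure_ne_top _ _) (measure_ne_top _ _)]
      exact e2.trans e1.symm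
    rw [measure_sdiff hsub' (measurableSet_cell y ψ' k).nullMeasurableSet (measure_ne_top _ _),
      heq, tsub_self]
  -- a point of `P` in the interior of `K`
  have hposcell : ∀ (χ : Fin N → ℝ), IsOptW K y m χ → ∀ k, 0 < ρ K (cell y χ k) := by
    intro χ hχ k
    have e := hχ k
    have : 0 < (ρ K (cell y χ k)).toReal := by
      have e' : (ρ K (cell y χ k)).toReal = m k := e
      rw [e']; exact hm k
    exact ENNReal.toReal_pos_iff.mp this |>.1
  obtain ⟨p, hpcell, hpK⟩ := inter_interior_nonempty_of_rho_pos hKc hKv (hposcell ψ' h' i₀)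
  have hpP : p ∈ P := by
    simp only [P, Set.mem_iUnion, exists_prop]
    exact ⟨i₀, rfl, hpcell⟩
  -- a point outside `Q` in the interior of `K`
  have hiI : i ∉ I := fun hiI => (ne_of_lt hi) hiI
  have hcellQ : ρ K (cell y ψ i ∩ Q) = 0 := by
    have hsub : cell y ψ i ∩ Q ⊆ ⋃ k ∈ I, (cell y ψ i ∩ cell y ψ k) := by
      rintro x ⟨hxi, hxQ⟩
      simp only [Q, Set.mem_iUnion, exists_prop] at hxQ
      obtain ⟨k, hkI, hxk⟩ := hxQ
      simp only [Set.mem_iUnion, exists_prop]
      exact ⟨k, hkI, hxi, hxk⟩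
    refine measure_mono_null hsub ?_
    rw [measure_biUnion_null_iff (Set.to_countable I)]
    intro k hkI
    have hik : i ≠ k := fun e => hiI (e ▸ hkI)
    exact rho_null_of_volume_null hKc (tie_null y hy ψ hik)
  have hpos' : 0 < ρ K (cell y ψ i \ Q) := by
    rw [measure_sdiff_null' hcellQ]
    exact hposcell ψ h i
  obtain ⟨q, ⟨-, hqQ⟩, hqK⟩ := inter_interior_nonempty_of_rho_pos hKc hKv hpos'
  have hqP : q ∉ P := fun hq => hqQ (hAQ (hPA hq))
  -- connectedness of the interior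
  have hconn : IsPreconnected (interior K) := hKv.interior.isPreconnected
  obtain ⟨r, hrK, hrA, hrP⟩ := hconn A Pᶜ hAopen hPclosed.isOpen_compl
    (fun x _ => by
      by_cases hx : x ∈ P
      · exact Or.inl (hPA hx)
      · exact Or.inr hx)
    ⟨p, hpK, hPA hpP⟩ ⟨q, hqK, hqP⟩
  have hpos : 0 < ρ K (A ∩ Pᶜ) :=
    rho_pos_of_open hKc (hAopen.inter hPclosed.isOpen_compl) ⟨r, ⟨hrA, hrP⟩, hrK⟩
  have hle : ρ K (A ∩ Pᶜ) ≤ ρ K (Q \ P) :=
    measure_mono (fun x hx => ⟨hAQ hx.1, hx.2⟩)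
  rw [hQP] at hle
  exact absurd hpos (not_lt.mpr hle)

/-! ## Boundedness of optimal weights -/

lemma weight_diff_le {K : Set (E d)} {R : ℝ} (hR : ∀ x ∈ K, ‖x‖ ≤ R) (y : Fin N → E d)
    (ψ : Fin N → ℝ) {a b : Fin N} (ha : (cell y ψ a ∩ K).Nonempty) :
    ψ a - ψ b ≤ R * ‖y a - y b‖ := by
  obtain ⟨x, hxa, hxK⟩ := ha
  have h1 := hxa b
  have h2 : ⟪x, y a - y b⟫_ℝ ≤ ‖x‖ * ‖y a - y b‖ := real_inner_le_norm _ _
  have h3 : ‖x‖ * ‖y a - y b‖ ≤ R * ‖y a - y b‖ :=
    mul_le_mul_of_nonneg_right (hR x hxK) (norm_nonneg _)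
  rw [inner_sub_right] at h2
  linarith

/-! ## Continuity of the cell masses in the weights -/

lemma tendsto_rho_cell [NeZero N] {K : Set (E d)} (hKc : IsCompact K)
    (hKi : (interior K).Nonempty) (y : Fin N → E d) (hy : Function.Injective y)
    (φ : ℕ → Fin N → ℝ) (ψ' : Fin N → ℝ) (hφ : Tendsto φ atTop (𝓝 ψ')) (i : Fin N) :
    Tendsto (fun n => ρ K (cell y (φ n) i)) atTop (𝓝 (ρ K (cell y ψ' i))) := by
  have := isProb hKc hKi
  refine tendsto_measure_of_ae_tendsto_indicator_of_isFiniteMeasure atTop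
    (measurableSet_cell _ _ _) (fun n => measurableSet_cell _ _ _) ?_
  have hae : ∀ᵐ x ∂(ρ K), ∀ j, j ≠ i → x ∉ cell y ψ' i ∩ cell y ψ' j := by
    rw [ae_all_iff]
    intro j
    by_cases hj : j = i
    · simp [hj]
    · have h0 : ρ K (cell y ψ' i ∩ cell y ψ' j) = 0 :=
        rho_null_of_volume_null hKc (tie_null y hy ψ' (Ne.symm hj))
      filter_upwards [measure_eq_zero_iff_ae_notMem.mp h0] with x hx _ using hx
  filter_upwards [hae] with x hx
  have hcoord : ∀ j, Tendsto (fun n => φ n j) atTop (𝓝 (ψ' j)) :=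
    fun j => (tendsto_pi_nhds.mp hφ) j
  have hdiff : ∀ a b : Fin N, Tendsto
      (fun n => (⟪x, y a⟫_ℝ - φ n a) - (⟪x, y b⟫_ℝ - φ n b)) atTop
      (𝓝 ((⟪x, y a⟫_ℝ - ψ' a) - (⟪x, y b⟫_ℝ - ψ' b))) :=
    fun a b => (tendsto_const_nhds.sub (hcoord a)).sub (tendsto_const_nhds.sub (hcoord b))
  by_cases hxA : x ∈ cell y ψ' i
  · have hstrict : ∀ j, j ≠ i → ⟪x, y j⟫_ℝ - ψ' j < ⟪x, y i⟫_ℝ - ψ' i := by
      intro j hj
      refine lt_of_le_of_ne (hxA j) (fun heq => hx j hj ⟨hxA, ?_⟩)
      intro l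
      have := hxA l
      linarith
    have hev : ∀ᶠ n in atTop, ∀ j, ⟪x, y j⟫_ℝ - φ n j ≤ ⟪x, y i⟫_ℝ - φ n i := by
      rw [eventually_all]
      intro j
      by_cases hj : j = i
      · subst hj
        exact Eventually.of_forall fun n => le_rfl
      · have hpos : 0 < (⟪x, y i⟫_ℝ - ψ' i) - (⟪x, y j⟫_ℝ - ψ' j) := by
          linarith [hstrict j hj]
        filter_upwards [(hdiff i j).eventually (lt_mem_nhds hpos)] with n hn
        linarith
    filter_upwards [hev] with n hn
    exact ⟨fun _ => hxA, fun _ => hn⟩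
  · have hex : ∃ j, ⟪x, y i⟫_ℝ - ψ' i < ⟪x, y j⟫_ℝ - ψ' j := by
      by_contra hcon
      push Not at hcon
      exact hxA hcon
    obtain ⟨j, hj⟩ := hex
    have hpos : 0 < (⟪x, y j⟫_ℝ - ψ' j) - (⟪x, y i⟫_ℝ - ψ' i) := by linarith
    filter_upwards [(hdiff j i).eventually (lt_mem_nhds hpos)] with n hn
    constructor
    · intro hmem
      have := hmem j
      linarith
    · intro h
      exact absurd h hxA

end CONT

open CONT in
/-- **CONT**: the optimal weights depend continuously on the masses (paired with a mean-zero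
direction `g`). -/
theorem pkg_CONT : St_CONT := by
  intro d N _ K hKc hKv hKi y m g hy hm hsum hg ψ0 hψ0 ε hε
  classical
  have hprob := isProb hKc hKi
  by_contra hcon
  push Not at hcon
  choose s hs ψ hψ hbig using fun n : ℕ => hcon (1 / ((n : ℝ) + 1)) (by positivity)
  -- `s n → 0`
  have hs0 : Tendsto s atTop (𝓝 0) := by
    refine squeeze_zero_norm (fun n => ?_) tendsto_one_div_add_atTop_nhds_zero_nat
    rw [Real.norm_eq_abs]
    exact (hs n).le
  -- normalisation `φ n 0 = ψ0 0`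
  let φ : ℕ → Fin N → ℝ := fun n i => ψ n i - ψ n 0 + ψ0 0
  have hφcell : ∀ n i, cell y (φ n) i = cell y (ψ n) i := by
    intro n i
    have h1 := cell_add_const y (ψ n) (- ψ n 0 + ψ0 0) i
    have h2 : φ n = fun j => ψ n j + (- ψ n 0 + ψ0 0) := by
      funext j
      simp only [φ]
      ring
    rw [h2]
    exact h1
  have hφopt : ∀ n, IsOptW K y (fun i => m i * (1 + s n * g i)) (φ n) := by
    intro n i
    rw [hφcell n i]
    exact hψ n i
  have hφpair : ∀ n, ∑ i, m i * g i * (φ n i - ψ0 i) = ∑ i, m i * g i * (ψ n i - ψ0 i) := by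
    intro n
    have h1 : ∀ i, m i * g i * (φ n i - ψ0 i)
        = m i * g i * (ψ n i - ψ0 i) + (m i * g i) * (- ψ n 0 + ψ0 0) := by
      intro i
      simp only [φ]
      ring
    simp_rw [h1]
    rw [Finset.sum_add_distrib, ← Finset.sum_mul, hg, zero_mul, add_zero]
  -- a bound for `K`
  obtain ⟨R, hR⟩ := hKc.isBounded.exists_norm_le
  -- eventually all masses are positive
  have hG : ∀ i, |g i| ≤ ∑ j, |g j| := fun i =>
    Finset.single_le_sum (fun j _ => abs_nonneg (g j)) (Finset.mem_univ i)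
  set G : ℝ := ∑ j, |g j| with hGdef
  have hG0 : 0 ≤ G := Finset.sum_nonneg fun j _ => abs_nonneg (g j)
  have hpos_ev : ∀ᶠ n in atTop, ∀ i, 0 < m i * (1 + s n * g i) := by
    have hlt : ∀ᶠ n in atTop, |s n| * (G + 1) < 1 := by
      have ht : Tendsto (fun n => |s n| * (G + 1)) atTop (𝓝 (|(0 : ℝ)| * (G + 1))) :=
        (hs0.abs).mul_const _
      rw [abs_zero, zero_mul] at ht
      exact ht.eventually (gt_mem_nhds one_pos)
    filter_upwards [hlt] with n hn i
    apply mul_pos (hm i)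
    have h1 : |s n * g i| ≤ |s n| * (G + 1) := by
      rw [abs_mul]
      exact mul_le_mul_of_nonneg_left (by linarith [hG i]) (abs_nonneg _)
    have h2 := abs_lt.mp (lt_of_le_of_lt h1 hn)
    linarith [h2.1]
  -- eventually the normalised weights lie in a fixed box
  set B : ℝ := R * ∑ i, ‖y i - y 0‖ with hBdef
  have hR0 : 0 ≤ R := by
    obtain ⟨x, hx⟩ := hKi
    exact le_trans (norm_nonneg _) (hR x (interior_subset hx))
  have hB0 : 0 ≤ B := mul_nonneg hR0 (Finset.sum_nonneg fun i _ => norm_nonneg _)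
  have hbox_ev : ∀ᶠ n in atTop, φ n ∈ Metric.closedBall (fun _ : Fin N => ψ0 0) B := by
    filter_upwards [hpos_ev] with n hn
    have hmeet : ∀ k, (cell y (φ n) k ∩ K).Nonempty := by
      intro k
      apply inter_K_nonempty_of_rho_pos hKc hKv
      have e : (ρ K (cell y (φ n) k)).toReal = m k * (1 + s n * g k) := hφopt n k
      have hpos : 0 < (ρ K (cell y (φ n) k)).toReal := by
        rw [e]
        exact hn k
      exact (ENNReal.toReal_pos_iff.mp hpos).1
    rw [mem_closedBall_iff_norm, pi_norm_le_iff_of_nonneg hB0]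
    intro i
    have h1 := weight_diff_le hR y (φ n) (a := i) (b := 0) (hmeet i)
    have h2 := weight_diff_le hR y (φ n) (a := 0) (b := i) (hmeet 0)
    have h3 : ‖y i - y 0‖ ≤ ∑ j, ‖y j - y 0‖ :=
      Finset.single_le_sum (f := fun j => ‖y j - y 0‖) (fun j _ => norm_nonneg _)
        (Finset.mem_univ i)
    have h4 : R * ‖y i - y 0‖ ≤ B := mul_le_mul_of_nonneg_left h3 hR0
    have h5 : ‖y 0 - y i‖ = ‖y i - y 0‖ := norm_sub_rev _ _
    rw [h5] at h2
    have h6 : φ n 0 = ψ0 0 := by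
      simp only [φ]
      ring
    rw [Real.norm_eq_abs, Pi.sub_apply, abs_le]
    constructor <;> linarith
  -- extract a convergent subsequence
  obtain ⟨n₀, hn₀⟩ := eventually_atTop.mp hbox_ev
  obtain ⟨ψ', -, k, hk, hlim⟩ :=
    (isCompact_closedBall (fun _ : Fin N => ψ0 0) B).tendsto_subseq
      (x := fun n => φ (n + n₀)) (fun n => hn₀ _ (Nat.le_add_left _ _))
  have hsk : Tendsto (fun j => s (k j + n₀)) atTop (𝓝 0) :=
    hs0.comp (tendsto_atTop_mono (fun j => Nat.le_add_right (k j) n₀) hk.tendsto_atTop)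
  -- the limit is optimal for `m`
  have hopt : IsOptW K y m ψ' := by
    intro i
    have h1 := tendsto_rho_cell hKc hKi y hy (fun j => φ (k j + n₀)) ψ' hlim i
    have h2 : Tendsto (fun j => (ρ K (cell y (φ (k j + n₀)) i)).toReal) atTop
        (𝓝 ((ρ K (cell y ψ' i)).toReal)) :=
      (ENNReal.tendsto_toReal (measure_ne_top _ _)).comp h1
    have h3 : Tendsto (fun j => m i * (1 + s (k j + n₀) * g i)) atTop
        (𝓝 (m i * (1 + 0 * g i))) :=
      (tendsto_const_nhds.add (hsk.mul_const _)).const_mul _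
    have h4 : (fun j => (ρ K (cell y (φ (k j + n₀)) i)).toReal)
        = fun j => m i * (1 + s (k j + n₀) * g i) :=
      funext fun j => hφopt (k j + n₀) i
    rw [h4] at h2
    have h5 := tendsto_nhds_unique h2 h3
    show (ρ K (cell y ψ' i)).toReal = m i
    rw [h5]
    ring
  obtain ⟨c, hc⟩ := optW_unique hKc hKv hKi y m hy hm ψ0 ψ' hψ0 hopt
  -- the pairing tends to zero
  have hpair : Tendsto (fun j => ∑ i, m i * g i * (φ (k j + n₀) i - ψ0 i)) atTop
      (𝓝 (∑ i, m i * g i * (ψ' i - ψ0 i))) := by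
    refine tendsto_finsetSum _ fun i _ => ?_
    exact ((tendsto_pi_nhds.mp hlim i).sub tendsto_const_nhds).const_mul _
  have hzero : ∑ i, m i * g i * (ψ' i - ψ0 i) = 0 := by
    have h1 : ∀ i, m i * g i * (ψ' i - ψ0 i) = (m i * g i) * c := by
      intro i
      rw [hc i]
      ring
    simp_rw [h1]
    rw [← Finset.sum_mul, hg, zero_mul]
  rw [hzero] at hpair
  have hsmall : ∀ᶠ j in atTop, |∑ i, m i * g i * (φ (k j + n₀) i - ψ0 i)| < ε := by
    have h1 := hpair.abs
    rw [abs_zero] at h1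
    exact h1.eventually (gt_mem_nhds hε)
  obtain ⟨j, hj⟩ := hsmall.exists
  rw [hφpair] at hj
  exact absurd hj (not_lt.mpr (hbig _).le)

end Crest.Agent.LibS0109
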