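import Mathlib
import Crest.Agent.Lib_S0109_Defs

/-!
# Row 82, package DUAL: internal interface (helper13).

`Kfun` = Kantorovich functional, `Bc` = unnormalised `ρ K`-barycentre of a Laguerre cell, and the
two sub-package statements `St_D2` (barycentre stability, from `St_UB`) and `St_D5` (squeeze).
Nothing is proved here; no `sorry`.
-/

set_option autoImplicit false
open MeasureTheory
open scoped ENNReal NNReal InnerProductSpace

namespace Crest.Agent.LibS0109

/-- Kantorovich functional `∫ pot y ψ dρ + ∑ m ψ`. -/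
noncomputable def Kfun {d N : ℕ} (K : Set (E d)) (y : Fin N → E d) (m ψ : Fin N → ℝ) : ℝ :=
  ∫ x, pot y ψ x ∂(ρ K) + ∑ i, m i * ψ i

/-- Unnormalised barycentre `∫_{cell i} x dρ` of the `i`-th Laguerre cell. -/
noncomputable def Bc {d N : ℕ} (K : Set (E d)) (y : Fin N → E d) (ψ : Fin N → ℝ) (i : Fin N) :
    E d :=
  ∫ x in cell y ψ i, x ∂(ρ K)

/-- **D2** (from `St_UB`): stability of the normalised barycentres of the cells under a relative
perturbation `m ↦ m (1 + s g)` of the masses (same points `y`). -/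
def St_D2 : Prop :=
  ∃ C : ℝ, 0 ≤ C ∧ ∀ (d N : ℕ) [NeZero N] (K : Set (E d)) (RK : ℝ),
    IsCompact K → Convex ℝ K → (interior K).Nonempty → (∀ x ∈ K, ‖x‖ ≤ RK) →
    ∀ (y : Fin N → E d) (m g ψ ψ' : Fin N → ℝ) (s : ℝ), Function.Injective y →
      (∀ i, 0 < m i) → ∑ i, m i = 1 → (∀ i, |s * g i| ≤ 1 / 2) →
      IsOptW K y m ψ → IsOptW K y (fun i => m i * (1 + s * g i)) ψ' →
      ∑ i, m i * ‖(m i * (1 + s * g i))⁻¹ • Bc K y ψ' i - (m i)⁻¹ • Bc K y ψ i‖ ^ 2 ≤
        C * RK ^ 2 * s ^ 2 * ∑ i, m i * g i ^ 2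

/-- **D5** (squeeze): the `L²(ρ K)` distance of the potentials is controlled by the displacement
and the weighted `ℓ²` distance of the weights. -/
def St_D5 : Prop :=
  ∀ (d N : ℕ) [NeZero N] (K : Set (E d)) (RK : ℝ),
    IsCompact K → (interior K).Nonempty → (∀ x ∈ K, ‖x‖ ≤ RK) →
    ∀ (y z : Fin N → E d) (m ψ0 ψ1 : Fin N → ℝ) (c : ℝ), Function.Injective y →
      Function.Injective z → IsOptW K y m ψ0 → IsOptW K z m ψ1 →
      ∫ x, (pot z ψ1 x - pot y ψ0 x + c) ^ 2 ∂(ρ K) ≤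
        4 * RK ^ 2 * ∑ i, m i * ‖z i - y i‖ ^ 2 + 4 * ∑ i, m i * (ψ1 i - ψ0 i - c) ^ 2

end Crest.Agent.LibS0109
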