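import Mathlib
import Crest.Agent.Lib_S0109_Defs
import Crest.Agent.Lib_S0109_Lag
import Crest.Agent.Lib_S0109_DualDefs

/-!
# Row 82, package DUAL (helper13): `St_EX → St_CONT → St_D2 → St_D5 → St_DUAL`.

The value `Kfun K y m ψ` at optimal weights is concave in the masses (supergradient `ψ`) and
convex in the positions (subgradient = unnormalised barycentres `Bc`).  Telescoping the position
sandwich along the path for the two mass vectors `m` and `m (1 + s g)`, bounding the barycentre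
differences by `St_D2`, and letting `s → 0` with `St_CONT` shows that the optimal weights are
Lipschitz in `ℓ²(m)` modulo constants; `St_D5` transfers this to the potentials.
-/

set_option autoImplicit false
open MeasureTheory
open scoped ENNReal NNReal InnerProductSpace

namespace Crest.Agent.LibS0109.DUAL
open Crest.Agent.LibS0109

variable {d N : ℕ}

/-- Weighted Cauchy–Schwarz. -/
theorem wcs (m a b : Fin N → ℝ) (hm : ∀ i, 0 ≤ m i) :
    ∑ i, m i * (a i * b i) ≤ √(∑ i, m i * a i ^ 2) * √(∑ i, m i * b i ^ 2) := by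
  have h := Finset.sum_mul_sq_le_sq_mul_sq Finset.univ (fun i => √(m i) * a i)
    (fun i => √(m i) * b i)
  have e1 : ∀ i, √(m i) * a i * (√(m i) * b i) = m i * (a i * b i) := by
    intro i
    calc √(m i) * a i * (√(m i) * b i) = (√(m i) * √(m i)) * (a i * b i) := by ring
      _ = m i * (a i * b i) := by rw [Real.mul_self_sqrt (hm i)]
  have e2 : ∀ c : Fin N → ℝ, ∀ i, (√(m i) * c i) ^ 2 = m i * c i ^ 2 := by
    intro c i; rw [mul_pow, Real.sq_sqrt (hm i)]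
  simp only [e1, e2] at h
  calc ∑ i, m i * (a i * b i) ≤ |∑ i, m i * (a i * b i)| := le_abs_self _
    _ ≤ √((∑ i, m i * a i ^ 2) * (∑ i, m i * b i ^ 2)) := Real.abs_le_sqrt h
    _ = _ := Real.sqrt_mul (Finset.sum_nonneg fun i _ => mul_nonneg (hm i) (sq_nonneg _)) _

section basic
variable [NeZero N] {K : Set (E d)}

/-- Mass supergradient: the optimal value at masses `M2` is below the Kantorovich functional of
any weights `ψ`, rewritten at masses `M`. -/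
theorem mass_super (hK : IsCompact K) (h0 : volume K ≠ 0) {y : Fin N → E d}
    (hy : Function.Injective y) {M M2 ψ ψ2 : Fin N → ℝ} (h2 : IsOptW K y M2 ψ2) :
    Kfun K y M2 ψ2 ≤ Kfun K y M ψ + ∑ i, (M2 i - M i) * ψ i := by
  have e := duality_eq hK h0 hy h2
  have w := weak_duality hK h0 hy h2 y ψ
  unfold Kfun
  have : ∑ i, (M2 i - M i) * ψ i = ∑ i, M2 i * ψ i - ∑ i, M i * ψ i := by
    rw [← Finset.sum_sub_distrib]; exact Finset.sum_congr rfl fun i _ => by ring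
  rw [this]; linarith

/-- The optimal value does not depend on the choice of optimal weights. -/
theorem value_indep (hK : IsCompact K) (h0 : volume K ≠ 0) {y : Fin N → E d}
    (hy : Function.Injective y) {M ψ ψ' : Fin N → ℝ} (h : IsOptW K y M ψ)
    (h' : IsOptW K y M ψ') : Kfun K y M ψ = Kfun K y M ψ' := by
  have a := mass_super hK h0 hy (M := M) (ψ := ψ') h
  have b := mass_super hK h0 hy (M := M) (ψ := ψ) h'
  simp only [sub_self, zero_mul, Finset.sum_const_zero, add_zero] at a b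
  linarith

theorem integrableOn_id (hK : IsCompact K) (h0 : volume K ≠ 0) (S : Set (E d)) :
    IntegrableOn (fun x : E d => x) S (ρ K) :=
  (integrable_rho_of_continuousOn hK h0 continuous_id.continuousOn).integrableOn

theorem integrableOn_inner (hK : IsCompact K) (h0 : volume K ≠ 0) (S : Set (E d)) (v : E d) :
    IntegrableOn (fun x : E d => ⟪x, v⟫_ℝ) S (ρ K) :=
  (integrable_rho_of_continuousOn hK h0
    (by fun_prop : Continuous fun x : E d => ⟪x, v⟫_ℝ).continuousOn).integrableOn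

omit [NeZero N] in
theorem inner_Bc (hK : IsCompact K) (h0 : volume K ≠ 0) (y : Fin N → E d) (ψ : Fin N → ℝ)
    (i : Fin N) (v : E d) :
    ⟪Bc K y ψ i, v⟫_ℝ = ∫ x in cell y ψ i, ⟪x, v⟫_ℝ ∂(ρ K) := by
  unfold Bc
  rw [real_inner_comm, ← integral_inner (integrableOn_id hK h0 _) v]
  refine integral_congr_ae (Filter.Eventually.of_forall fun x => ?_)
  exact real_inner_comm _ _

/-- Position subgradient. -/
theorem pos_sub (hK : IsCompact K) (h0 : volume K ≠ 0) {y y2 : Fin N → E d}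
    (hy : Function.Injective y) {M ψ ψ2 : Fin N → ℝ} (h : IsOptW K y M ψ) :
    Kfun K y M ψ + ∑ i, ⟪Bc K y ψ i, y2 i - y i⟫_ℝ ≤ Kfun K y2 M ψ2 := by
  have e := duality_eq hK h0 hy h
  have w := weak_duality hK h0 hy h y2 ψ2
  have key : ∑ i, ∫ x in cell y ψ i, ⟪x, y2 i⟫_ℝ ∂(ρ K) =
      ∑ i, ∫ x in cell y ψ i, ⟪x, y i⟫_ℝ ∂(ρ K) + ∑ i, ⟪Bc K y ψ i, y2 i - y i⟫_ℝ := by
    rw [← Finset.sum_add_distrib]
    refine Finset.sum_congr rfl fun i _ => ?_
    rw [inner_Bc hK h0, ← integral_add (integrableOn_inner hK h0 _ _)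
      (integrableOn_inner hK h0 _ _)]
    refine integral_congr_ae (Filter.Eventually.of_forall fun x => ?_)
    simp only [inner_sub_right]; ring
  unfold Kfun
  linarith

omit [NeZero N] in
theorem norm_Bc_le (hK : IsCompact K) (h0 : volume K ≠ 0) {RK : ℝ} (hRK : ∀ x ∈ K, ‖x‖ ≤ RK)
    {y : Fin N → E d} {M ψ : Fin N → ℝ} (h : IsOptW K y M ψ) (i : Fin N) :
    ‖Bc K y ψ i‖ ≤ RK * M i := by
  have hT := volume_ne_top_of_isCompact hK
  have := rho_isProbabilityMeasure h0 hT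
  rw [← h i]
  unfold Bc
  refine norm_setIntegral_le_of_norm_le_const_ae (measure_lt_top _ _) ?_
  exact ae_restrict_of_ae ((ae_rho_mem K hK.measurableSet).mono fun x hx => hRK x hx)

end basic

/-- The `St_D2` property for a fixed `K` and a fixed constant. -/
def D2K (K : Set (E d)) (RK CD : ℝ) (N : ℕ) [NeZero N] : Prop :=
  ∀ (y : Fin N → E d) (m g ψ ψ' : Fin N → ℝ) (s : ℝ), Function.Injective y →
      (∀ i, 0 < m i) → ∑ i, m i = 1 → (∀ i, |s * g i| ≤ 1 / 2) →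
      IsOptW K y m ψ → IsOptW K y (fun i => m i * (1 + s * g i)) ψ' →
      ∑ i, m i * ‖(m i * (1 + s * g i))⁻¹ • Bc K y ψ' i - (m i)⁻¹ • Bc K y ψ i‖ ^ 2 ≤
        CD * RK ^ 2 * s ^ 2 * ∑ i, m i * g i ^ 2

section tele
variable [NeZero N] {K : Set (E d)}

theorem pos_of_half {s a : ℝ} (h : |s * a| ≤ 1 / 2) : 0 < 1 + s * a := by
  have := (abs_le.mp h).1; linarith

theorem beta_diff (hK : IsCompact K) (h0 : volume K ≠ 0) {RK CD : ℝ} (hRK0 : 0 ≤ RK)
    (hCD : 0 ≤ CD) (hRK : ∀ x ∈ K, ‖x‖ ≤ RK) (hD2 : D2K K RK CD N)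
    {y : Fin N → E d} (hy : Function.Injective y) {m g ψ ψ' : Fin N → ℝ} {s : ℝ}
    (hm : ∀ i, 0 < m i) (hsum : ∑ i, m i = 1) (hs : ∀ i, |s * g i| ≤ 1 / 2)
    (h : IsOptW K y m ψ) (h' : IsOptW K y (fun i => m i * (1 + s * g i)) ψ')
    (w : Fin N → E d) :
    ∑ i, ⟪Bc K y ψ' i, w i⟫_ℝ - ∑ i, ⟪Bc K y ψ i, w i⟫_ℝ ≤
      |s| * ((√CD + 1) * RK) * √(∑ i, m i * g i ^ 2) * √(∑ i, m i * ‖w i‖ ^ 2) := by
  have hd2 := hD2 y m g ψ ψ' s hy hm hsum hs h h'
  set δ : Fin N → E d := fun i =>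
    (m i * (1 + s * g i))⁻¹ • Bc K y ψ' i - (m i)⁻¹ • Bc K y ψ i with hδ
  set G := √(∑ i, m i * g i ^ 2) with hG
  set W := √(∑ i, m i * ‖w i‖ ^ 2) with hW
  have hm' : ∀ i, 0 < m i * (1 + s * g i) := fun i => mul_pos (hm i) (pos_of_half (hs i))
  have hG0 : 0 ≤ G := Real.sqrt_nonneg _
  have hW0 : 0 ≤ W := Real.sqrt_nonneg _
  -- termwise identity
  have hterm : ∀ i, ⟪Bc K y ψ' i, w i⟫_ℝ - ⟪Bc K y ψ i, w i⟫_ℝ =
      m i * ⟪δ i, w i⟫_ℝ +
        s * m i * g i * ⟪(m i * (1 + s * g i))⁻¹ • Bc K y ψ' i, w i⟫_ℝ := by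
    intro i
    simp only [hδ, inner_sub_left, real_inner_smul_left]
    have h1 := (hm i).ne'
    have h2 := (hm' i).ne'
    have h3 : (1 + s * g i) ≠ 0 := (pos_of_half (hs i)).ne'
    field_simp
    ring
  have hnorm : ∀ i, ‖(m i * (1 + s * g i))⁻¹ • Bc K y ψ' i‖ ≤ RK := by
    intro i
    rw [norm_smul, Real.norm_eq_abs, abs_of_pos (inv_pos.mpr (hm' i))]
    have := norm_Bc_le hK h0 hRK h' i
    rw [inv_mul_le_iff₀ (hm' i)]
    linarith [mul_comm RK (m i * (1 + s * g i))]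
  have hbound : ∀ i, ⟪Bc K y ψ' i, w i⟫_ℝ - ⟪Bc K y ψ i, w i⟫_ℝ ≤
      m i * (‖δ i‖ * ‖w i‖) + (|s| * RK) * (m i * (|g i| * ‖w i‖)) := by
    intro i
    rw [hterm i]
    have a1 : m i * ⟪δ i, w i⟫_ℝ ≤ m i * (‖δ i‖ * ‖w i‖) :=
      mul_le_mul_of_nonneg_left (real_inner_le_norm _ _) (hm i).le
    have a2 : s * m i * g i * ⟪(m i * (1 + s * g i))⁻¹ • Bc K y ψ' i, w i⟫_ℝ ≤
        (|s| * RK) * (m i * (|g i| * ‖w i‖)) := by
      calc s * m i * g i * ⟪(m i * (1 + s * g i))⁻¹ • Bc K y ψ' i, w i⟫_ℝ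
          ≤ |s * m i * g i * ⟪(m i * (1 + s * g i))⁻¹ • Bc K y ψ' i, w i⟫_ℝ| := le_abs_self _
        _ = |s| * m i * |g i| * |⟪(m i * (1 + s * g i))⁻¹ • Bc K y ψ' i, w i⟫_ℝ| := by
            rw [abs_mul, abs_mul, abs_mul, abs_of_pos (hm i)]
        _ ≤ |s| * m i * |g i| * (RK * ‖w i‖) := by
            refine mul_le_mul_of_nonneg_left ?_
              (mul_nonneg (mul_nonneg (abs_nonneg _) (hm i).le) (abs_nonneg _))
            exact (abs_real_inner_le_norm _ _).trans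
              (mul_le_mul_of_nonneg_right (hnorm i) (norm_nonneg _))
        _ = (|s| * RK) * (m i * (|g i| * ‖w i‖)) := by ring
    linarith
  have hsumb : ∑ i, ⟪Bc K y ψ' i, w i⟫_ℝ - ∑ i, ⟪Bc K y ψ i, w i⟫_ℝ ≤
      ∑ i, m i * (‖δ i‖ * ‖w i‖) + (|s| * RK) * ∑ i, m i * (|g i| * ‖w i‖) := by
    rw [← Finset.sum_sub_distrib, Finset.mul_sum, ← Finset.sum_add_distrib]
    exact Finset.sum_le_sum fun i _ => hbound i
  have c1 : ∑ i, m i * (‖δ i‖ * ‖w i‖) ≤ √(∑ i, m i * ‖δ i‖ ^ 2) * W :=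
    wcs m (fun i => ‖δ i‖) (fun i => ‖w i‖) fun i => (hm i).le
  have c2 : ∑ i, m i * (|g i| * ‖w i‖) ≤ G * W := by
    have := wcs m (fun i => |g i|) (fun i => ‖w i‖) fun i => (hm i).le
    simpa only [sq_abs] using this
  have c3 : √(∑ i, m i * ‖δ i‖ ^ 2) ≤ √CD * RK * |s| * G := by
    rw [Real.sqrt_le_iff]
    refine ⟨by positivity, ?_⟩
    have e : (√CD * RK * |s| * G) ^ 2 = CD * RK ^ 2 * s ^ 2 * ∑ i, m i * g i ^ 2 := by
      rw [mul_pow, mul_pow, mul_pow, Real.sq_sqrt hCD, sq_abs, hG,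
        Real.sq_sqrt (Finset.sum_nonneg fun i _ => mul_nonneg (hm i).le (sq_nonneg _))]
    rw [e]; exact hd2
  calc ∑ i, ⟪Bc K y ψ' i, w i⟫_ℝ - ∑ i, ⟪Bc K y ψ i, w i⟫_ℝ
      ≤ ∑ i, m i * (‖δ i‖ * ‖w i‖) + (|s| * RK) * ∑ i, m i * (|g i| * ‖w i‖) := hsumb
    _ ≤ (√CD * RK * |s| * G) * W + (|s| * RK) * (G * W) := by
        have := mul_le_mul_of_nonneg_right c3 hW0
        have := mul_le_mul_of_nonneg_left c2 (by positivity : 0 ≤ |s| * RK)
        linarith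
    _ = |s| * ((√CD + 1) * RK) * G * W := by ring

omit [NeZero N] in
theorem beta_abs (hK : IsCompact K) (h0 : volume K ≠ 0) {RK : ℝ} (hRK0 : 0 ≤ RK)
    (hRK : ∀ x ∈ K, ‖x‖ ≤ RK) {y : Fin N → E d} {m ψ : Fin N → ℝ}
    (hm : ∀ i, 0 < m i) (hsum : ∑ i, m i = 1) (h : IsOptW K y m ψ) (w : Fin N → E d) :
    |∑ i, ⟪Bc K y ψ i, w i⟫_ℝ| ≤ RK * √(∑ i, m i * ‖w i‖ ^ 2) := by
  have c := wcs m (fun _ => (1 : ℝ)) (fun i => ‖w i‖) fun i => (hm i).le
  simp only [one_pow, mul_one, hsum, Real.sqrt_one, one_mul] at c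
  calc |∑ i, ⟪Bc K y ψ i, w i⟫_ℝ| ≤ ∑ i, |⟪Bc K y ψ i, w i⟫_ℝ| := Finset.abs_sum_le_sum_abs _ _
    _ ≤ ∑ i, RK * (m i * ‖w i‖) := by
        refine Finset.sum_le_sum fun i _ => ?_
        calc |⟪Bc K y ψ i, w i⟫_ℝ| ≤ ‖Bc K y ψ i‖ * ‖w i‖ := abs_real_inner_le_norm _ _
          _ ≤ (RK * m i) * ‖w i‖ :=
              mul_le_mul_of_nonneg_right (norm_Bc_le hK h0 hRK h i) (norm_nonneg _)
          _ = RK * (m i * ‖w i‖) := by ring
    _ = RK * ∑ i, m i * ‖w i‖ := by rw [Finset.mul_sum]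
    _ ≤ RK * √(∑ i, m i * ‖w i‖ ^ 2) := mul_le_mul_of_nonneg_left c hRK0

/-- Telescoping along a discrete path `Yk 0, …, Yk n` with constant increments `c • w`. -/
theorem tele (hK : IsCompact K) (h0 : volume K ≠ 0) {RK CD : ℝ} (hRK0 : 0 ≤ RK)
    (hCD : 0 ≤ CD) (hRK : ∀ x ∈ K, ‖x‖ ≤ RK) (hD2 : D2K K RK CD N)
    {m g : Fin N → ℝ} {s : ℝ}
    (hm : ∀ i, 0 < m i) (hsum : ∑ i, m i = 1) (hs : ∀ i, |s * g i| ≤ 1 / 2)
    (n : ℕ) (Yk : ℕ → Fin N → E d) (w : Fin N → E d) (c : ℝ) (hc : 0 ≤ c)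
    (hstep : ∀ k < n, ∀ i, Yk (k + 1) i - Yk k i = c • w i)
    (hinj : ∀ k ≤ n, Function.Injective (Yk k))
    (ψa ψb : ℕ → Fin N → ℝ)
    (ha : ∀ k ≤ n, IsOptW K (Yk k) m (ψa k))
    (hb : ∀ k ≤ n, IsOptW K (Yk k) (fun i => m i * (1 + s * g i)) (ψb k)) :
    (Kfun K (Yk n) (fun i => m i * (1 + s * g i)) (ψb n) -
        Kfun K (Yk 0) (fun i => m i * (1 + s * g i)) (ψb 0)) -
      (Kfun K (Yk n) m (ψa n) - Kfun K (Yk 0) m (ψa 0)) ≤
      n * c * (|s| * ((√CD + 1) * RK) * √(∑ i, m i * g i ^ 2) * √(∑ i, m i * ‖w i‖ ^ 2)) +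
        c * (2 * RK * √(∑ i, m i * ‖w i‖ ^ 2)) := by
  set m' : Fin N → ℝ := fun i => m i * (1 + s * g i) with hm'
  set X := |s| * ((√CD + 1) * RK) * √(∑ i, m i * g i ^ 2) * √(∑ i, m i * ‖w i‖ ^ 2) with hX
  set W := √(∑ i, m i * ‖w i‖ ^ 2) with hW
  set Va : ℕ → ℝ := fun k => Kfun K (Yk k) m (ψa k) with hVa
  set Vb : ℕ → ℝ := fun k => Kfun K (Yk k) m' (ψb k) with hVb
  set βa : ℕ → ℝ := fun k => ∑ i, ⟪Bc K (Yk k) (ψa k) i, w i⟫_ℝ with hβa
  set βb : ℕ → ℝ := fun k => ∑ i, ⟪Bc K (Yk k) (ψb k) i, w i⟫_ℝ with hβb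
  have fa : ∀ k < n, Va k + c * βa k ≤ Va (k + 1) := by
    intro k hk
    have := pos_sub hK h0 (y2 := Yk (k + 1)) (ψ2 := ψa (k + 1)) (hinj k hk.le) (ha k hk.le)
    have e : ∑ i, ⟪Bc K (Yk k) (ψa k) i, Yk (k + 1) i - Yk k i⟫_ℝ = c * βa k := by
      rw [hβa, Finset.mul_sum]
      refine Finset.sum_congr rfl fun i _ => ?_
      rw [hstep k hk i, real_inner_smul_right]
    rw [e] at this
    exact this
  have gb : ∀ k < n, Vb (k + 1) - c * βb (k + 1) ≤ Vb k := by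
    intro k hk
    have := pos_sub hK h0 (y2 := Yk k) (ψ2 := ψb k) (hinj (k + 1) hk) (hb (k + 1) hk)
    have e : ∑ i, ⟪Bc K (Yk (k + 1)) (ψb (k + 1)) i, Yk k i - Yk (k + 1) i⟫_ℝ =
        -(c * βb (k + 1)) := by
      rw [hβb, Finset.mul_sum, ← Finset.sum_neg_distrib]
      refine Finset.sum_congr rfl fun i _ => ?_
      rw [← neg_sub (Yk (k + 1) i) (Yk k i), hstep k hk i, inner_neg_right,
        real_inner_smul_right]
    rw [e] at this
    linarith
  have hβ : ∀ k ≤ n, βb k - βa k ≤ X := by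
    intro k hk
    exact beta_diff hK h0 hRK0 hCD hRK hD2 (hinj k hk) hm hsum hs (ha k hk) (hb k hk) w
  have hβabs : ∀ k ≤ n, |βa k| ≤ RK * W := by
    intro k hk
    exact beta_abs hK h0 hRK0 hRK hm hsum (ha k hk) w
  have main : ∀ j ≤ n, (Vb j - Vb 0) - (Va j - Va 0) ≤ j * c * X + c * (βa j - βa 0) := by
    intro j
    induction j with
    | zero => intro _; simp
    | succ j ih =>
      intro hj
      have hj' : j < n := hj
      have i1 := ih hj'.le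
      have i2 := fa j hj'
      have i3 := gb j hj'
      have i4 := mul_le_mul_of_nonneg_left (hβ (j + 1) hj) hc
      push_cast
      nlinarith
  have hfin := main n le_rfl
  have b1 := (abs_le.mp (hβabs n le_rfl)).2
  have b0 := (abs_le.mp (hβabs 0 (Nat.zero_le n))).1
  have : c * (βa n - βa 0) ≤ c * (2 * RK * W) :=
    mul_le_mul_of_nonneg_left (by linarith) hc
  linarith

end tele

section main
variable [NeZero N] {K : Set (E d)}

theorem mixed_bound (hEX : St_EX) (hKc : IsCompact K) (hKv : Convex ℝ K)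
    (hKi : (interior K).Nonempty) {RK CD : ℝ} (hRK0 : 0 ≤ RK)
    (hCD : 0 ≤ CD) (hRK : ∀ x ∈ K, ‖x‖ ≤ RK) (hD2 : D2K K RK CD N)
    {y z : Fin N → E d}
    (hpath : ∀ t : ℝ, 0 ≤ t → t ≤ 1 → Function.Injective (fun i => y i + t • (z i - y i)))
    {m g : Fin N → ℝ} {s : ℝ}
    (hm : ∀ i, 0 < m i) (hsum : ∑ i, m i = 1) (hg0 : ∑ i, m i * g i = 0)
    (hs : ∀ i, |s * g i| ≤ 1 / 2)
    {ψ00 ψ01 ψs0 ψs1 : Fin N → ℝ} (h00 : IsOptW K y m ψ00) (h01 : IsOptW K z m ψ01)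
    (hs0 : IsOptW K y (fun i => m i * (1 + s * g i)) ψs0)
    (hs1 : IsOptW K z (fun i => m i * (1 + s * g i)) ψs1) :
    (Kfun K z (fun i => m i * (1 + s * g i)) ψs1 -
        Kfun K y (fun i => m i * (1 + s * g i)) ψs0) -
      (Kfun K z m ψ01 - Kfun K y m ψ00) ≤
      |s| * ((√CD + 1) * RK) * √(∑ i, m i * g i ^ 2) * √(∑ i, m i * ‖z i - y i‖ ^ 2) := by
  have h0 := volume_ne_zero_of_interior hKi
  set m' : Fin N → ℝ := fun i => m i * (1 + s * g i) with hm'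
  set W := √(∑ i, m i * ‖z i - y i‖ ^ 2) with hW
  have hW0 : 0 ≤ W := Real.sqrt_nonneg _
  have hm'pos : ∀ i, 0 < m' i := fun i => mul_pos (hm i) (pos_of_half (hs i))
  have hm'sum : ∑ i, m' i = 1 := by
    have : ∑ i, m' i = ∑ i, m i + s * ∑ i, m i * g i := by
      rw [Finset.mul_sum, ← Finset.sum_add_distrib]
      exact Finset.sum_congr rfl fun i _ => by simp only [hm']; ring
    rw [this, hsum, hg0]; ring
  refine le_of_forall_pos_le_add fun ε hε => ?_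
  obtain ⟨n0, hn0⟩ := exists_nat_gt (2 * RK * W / ε)
  set n := n0 + 1 with hn
  have hnpos : (0 : ℝ) < n := by rw [hn]; positivity
  have hn0' : 2 * RK * W / ε < n := by
    rw [hn]; push_cast; linarith
  set Yk : ℕ → Fin N → E d := fun k i => y i + ((k : ℝ) / n) • (z i - y i) with hYk
  have hinj : ∀ k ≤ n, Function.Injective (Yk k) := by
    intro k hk
    refine hpath _ (by positivity) ?_
    rw [div_le_one hnpos]
    exact_mod_cast hk
  have exa : ∀ k, ∃ ψ, k ≤ n → IsOptW K (Yk k) m ψ := by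
    intro k
    by_cases hk : k ≤ n
    · obtain ⟨ψ, hψ⟩ := hEX d N K hKc hKv hKi (Yk k) m (hinj k hk) hm hsum
      exact ⟨ψ, fun _ => hψ⟩
    · exact ⟨0, fun h => absurd h hk⟩
  have exb : ∀ k, ∃ ψ, k ≤ n → IsOptW K (Yk k) m' ψ := by
    intro k
    by_cases hk : k ≤ n
    · obtain ⟨ψ, hψ⟩ := hEX d N K hKc hKv hKi (Yk k) m' (hinj k hk) hm'pos hm'sum
      exact ⟨ψ, fun _ => hψ⟩
    · exact ⟨0, fun h => absurd h hk⟩
  choose ψa hψa using exa
  choose ψb hψb using exb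
  have hstep : ∀ k < n, ∀ i, Yk (k + 1) i - Yk k i = (1 / (n : ℝ)) • (z i - y i) := by
    intro k _ i
    simp only [hYk]
    rw [add_sub_add_left_eq_sub, ← sub_smul]
    congr 1
    push_cast
    field_simp
    ring
  have T := tele hKc h0 hRK0 hCD hRK hD2 hm hsum hs n Yk (fun i => z i - y i) (1 / (n : ℝ))
    (by positivity) hstep hinj ψa ψb hψa hψb
  have hYn : Yk n = z := by
    funext i
    simp only [hYk]
    rw [div_self hnpos.ne', one_smul]; abel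
  have hY0 : Yk 0 = y := by
    funext i
    simp only [hYk]
    simp
  have ea := hψa n le_rfl
  have eb := hψb n le_rfl
  have ea0 := hψa 0 (Nat.zero_le n)
  have eb0 := hψb 0 (Nat.zero_le n)
  rw [hYn] at T ea eb
  rw [hY0] at T ea0 eb0
  have hz : Function.Injective z := by
    have := hinj n le_rfl; rwa [hYn] at this
  have hy : Function.Injective y := by
    have := hinj 0 (Nat.zero_le n); rwa [hY0] at this
  rw [value_indep hKc h0 hz eb hs1, value_indep hKc h0 hy eb0 hs0,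
    value_indep hKc h0 hz ea h01, value_indep hKc h0 hy ea0 h00] at T
  have e1 : (n : ℝ) * (1 / (n : ℝ)) = 1 := by field_simp
  have e2 : 1 / (n : ℝ) * (2 * RK * W) ≤ ε := by
    rw [div_lt_iff₀ hε] at hn0'
    rw [one_div, inv_mul_le_iff₀ hnpos]
    linarith
  rw [e1, one_mul] at T
  linarith

/-- The pairing of the weight difference with a mean-zero direction is bounded. -/
theorem pairing_bound (hEX : St_EX) (hCONT : St_CONT) (hKc : IsCompact K) (hKv : Convex ℝ K)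
    (hKi : (interior K).Nonempty) {RK CD : ℝ} (hRK0 : 0 ≤ RK)
    (hCD : 0 ≤ CD) (hRK : ∀ x ∈ K, ‖x‖ ≤ RK) (hD2 : D2K K RK CD N)
    {y z : Fin N → E d}
    (hpath : ∀ t : ℝ, 0 ≤ t → t ≤ 1 → Function.Injective (fun i => y i + t • (z i - y i)))
    {m : Fin N → ℝ} (hm : ∀ i, 0 < m i) (hsum : ∑ i, m i = 1)
    {ψ0 ψ1 : Fin N → ℝ} (h00 : IsOptW K y m ψ0) (h01 : IsOptW K z m ψ1)
    (g : Fin N → ℝ) (hg0 : ∑ i, m i * g i = 0) :
    ∑ i, m i * g i * (ψ1 i - ψ0 i) ≤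
      ((√CD + 1) * RK) * √(∑ i, m i * g i ^ 2) * √(∑ i, m i * ‖z i - y i‖ ^ 2) := by
  have h0 := volume_ne_zero_of_interior hKi
  have hz : Function.Injective z := by
    have := hpath 1 zero_le_one le_rfl
    simpa using this
  have hy : Function.Injective y := by
    have := hpath 0 le_rfl zero_le_one
    simpa using this
  refine le_of_forall_pos_le_add fun ε hε => ?_
  obtain ⟨δ, hδ, hcont⟩ := hCONT d N K hKc hKv hKi z m g hz hm hsum hg0 ψ1 h01 ε hε
  set Gm := ∑ i, |g i| with hGm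
  have hGm0 : 0 ≤ Gm := Finset.sum_nonneg fun i _ => abs_nonneg _
  have hgle : ∀ i, |g i| ≤ Gm := fun i =>
    Finset.single_le_sum (f := fun i => |g i|) (fun j _ => abs_nonneg _) (Finset.mem_univ i)
  set s := min (δ / 2) (1 / (2 * (Gm + 1))) with hsdef
  have hspos : 0 < s := lt_min (by positivity) (by positivity)
  have hsδ : |s| < δ := by
    rw [abs_of_pos hspos]
    exact (min_le_left _ _).trans_lt (by linarith)
  have hs : ∀ i, |s * g i| ≤ 1 / 2 := by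
    intro i
    rw [abs_mul, abs_of_pos hspos]
    have h1 : s ≤ 1 / (2 * (Gm + 1)) := min_le_right _ _
    calc s * |g i| ≤ 1 / (2 * (Gm + 1)) * (Gm + 1) :=
          mul_le_mul h1 ((hgle i).trans (by linarith)) (abs_nonneg _) (by positivity)
      _ = 1 / 2 := by field_simp
  set m' : Fin N → ℝ := fun i => m i * (1 + s * g i) with hm'
  have hm'pos : ∀ i, 0 < m' i := fun i => mul_pos (hm i) (pos_of_half (hs i))
  have hm'sum : ∑ i, m' i = 1 := by
    have : ∑ i, m' i = ∑ i, m i + s * ∑ i, m i * g i := by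
      rw [Finset.mul_sum, ← Finset.sum_add_distrib]
      exact Finset.sum_congr rfl fun i _ => by simp only [hm']; ring
    rw [this, hsum, hg0]; ring
  obtain ⟨ψs0, hs0⟩ := hEX d N K hKc hKv hKi y m' hy hm'pos hm'sum
  obtain ⟨ψs1, hs1⟩ := hEX d N K hKc hKv hKi z m' hz hm'pos hm'sum
  have MB := mixed_bound hEX hKc hKv hKi hRK0 hCD hRK hD2 hpath hm hsum hg0 hs h00 h01 hs0 hs1
  rw [abs_of_pos hspos] at MB
  have S1 := mass_super hKc h0 hz (M := m') (ψ := ψs1) h01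
  have S0 := mass_super hKc h0 hy (M := m) (ψ := ψ0) hs0
  have e1 : ∑ i, (m i - m' i) * ψs1 i = -(s * ∑ i, m i * g i * ψs1 i) := by
    rw [Finset.mul_sum, ← Finset.sum_neg_distrib]
    exact Finset.sum_congr rfl fun i _ => by simp only [hm']; ring
  have e0 : ∑ i, (m' i - m i) * ψ0 i = s * ∑ i, m i * g i * ψ0 i := by
    rw [Finset.mul_sum]
    exact Finset.sum_congr rfl fun i _ => by simp only [hm']; ring
  rw [e1] at S1
  rw [e0] at S0
  have C := hcont s hsδ ψs1 hs1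
  have e2 : ∑ i, m i * g i * (ψs1 i - ψ1 i) =
      ∑ i, m i * g i * ψs1 i - ∑ i, m i * g i * ψ1 i := by
    rw [← Finset.sum_sub_distrib]; exact Finset.sum_congr rfl fun i _ => by ring
  have e3 : ∑ i, m i * g i * (ψ1 i - ψ0 i) =
      ∑ i, m i * g i * ψ1 i - ∑ i, m i * g i * ψ0 i := by
    rw [← Finset.sum_sub_distrib]; exact Finset.sum_congr rfl fun i _ => by ring
  rw [e2] at C
  have C' := (abs_le.mp C).1
  rw [e3]
  set P := ((√CD + 1) * RK) * √(∑ i, m i * g i ^ 2) * √(∑ i, m i * ‖z i - y i‖ ^ 2) with hP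
  have key : s * (∑ i, m i * g i * ψs1 i - ∑ i, m i * g i * ψ0 i) ≤ s * P := by
    have : s * ((√CD + 1) * RK) * √(∑ i, m i * g i ^ 2) * √(∑ i, m i * ‖z i - y i‖ ^ 2)
        = s * P := by rw [hP]; ring
    linarith
  have key' := le_of_mul_le_mul_left key hspos
  linarith

end main

end Crest.Agent.LibS0109.DUAL

namespace Crest.Agent.LibS0109

open Crest.Agent.LibS0109.DUAL in
/-- **DUAL** from existence, continuity, barycentre stability and the squeeze. -/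
theorem pkg_DUAL_of (hEX : St_EX) (hCONT : St_CONT) (hD2 : St_D2) (hD5 : St_D5) : St_DUAL := by
  intro d K hKc hKv hKi
  obtain ⟨CD, hCD, hD2'⟩ := hD2
  obtain ⟨RK, hRK⟩ := hKc.isBounded.exists_norm_le
  have hRK0 : 0 ≤ RK := by
    obtain ⟨x, hx⟩ := hKi
    exact (norm_nonneg x).trans (hRK x (interior_subset hx))
  set C2 := (√CD + 1) * RK with hC2
  have hC20 : 0 ≤ C2 := by positivity
  refine ⟨4 * RK ^ 2 + 4 * C2 ^ 2, by positivity, ?_⟩
  intro N _ y z m ψ0 ψ1 hpath hm hsum h0 h1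
  have hz : Function.Injective z := by
    have := hpath 1 zero_le_one le_rfl
    simpa using this
  have hy : Function.Injective y := by
    have := hpath 0 le_rfl zero_le_one
    simpa using this
  have hD2K : D2K K RK CD N := fun y m g ψ ψ' s hy hm hsum hs h h' =>
    hD2' d N K RK hKc hKv hKi hRK y m g ψ ψ' s hy hm hsum hs h h'
  set c := ∑ i, m i * (ψ1 i - ψ0 i) with hc
  set g : Fin N → ℝ := fun i => ψ1 i - ψ0 i - c with hg
  have hg0 : ∑ i, m i * g i = 0 := by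
    have : ∑ i, m i * g i = ∑ i, m i * (ψ1 i - ψ0 i) - c * ∑ i, m i := by
      rw [Finset.mul_sum, ← Finset.sum_sub_distrib]
      exact Finset.sum_congr rfl fun i _ => by simp only [hg]; ring
    rw [this, hsum, ← hc]; ring
  have PB := pairing_bound hEX hCONT hKc hKv hKi hRK0 hCD hRK hD2K hpath hm hsum h0 h1 g hg0
  set G := √(∑ i, m i * g i ^ 2) with hG
  set W := √(∑ i, m i * ‖z i - y i‖ ^ 2) with hW
  have hG0 : 0 ≤ G := Real.sqrt_nonneg _
  have hW0 : 0 ≤ W := Real.sqrt_nonneg _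
  have hGsq : G ^ 2 = ∑ i, m i * g i ^ 2 :=
    Real.sq_sqrt (Finset.sum_nonneg fun i _ => mul_nonneg (hm i).le (sq_nonneg _))
  have hWsq : W ^ 2 = ∑ i, m i * ‖z i - y i‖ ^ 2 :=
    Real.sq_sqrt (Finset.sum_nonneg fun i _ => mul_nonneg (hm i).le (sq_nonneg _))
  have e : ∑ i, m i * g i * (ψ1 i - ψ0 i) = G ^ 2 := by
    rw [hGsq]
    have : ∑ i, m i * g i * (ψ1 i - ψ0 i) = ∑ i, m i * g i ^ 2 + c * ∑ i, m i * g i := by
      rw [Finset.mul_sum, ← Finset.sum_add_distrib]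
      exact Finset.sum_congr rfl fun i _ => by simp only [hg]; ring
    rw [this, hg0]; ring
  rw [e] at PB
  have hGle : G ≤ C2 * W := by
    by_contra hcon
    push Not at hcon
    have hGpos : 0 < G := lt_of_le_of_lt (by positivity) hcon
    nlinarith
  have hGle2 : ∑ i, m i * g i ^ 2 ≤ C2 ^ 2 * ∑ i, m i * ‖z i - y i‖ ^ 2 := by
    rw [← hGsq, ← hWsq, ← mul_pow]
    exact pow_le_pow_left₀ hG0 hGle 2
  have D5 := hD5 d N K RK hKc hKi hRK y z m ψ0 ψ1 c hy hz h0 h1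
  refine ⟨-c, ?_⟩
  have e5 : ∀ x, (pot z ψ1 x - pot y ψ0 x - -c) ^ 2 = (pot z ψ1 x - pot y ψ0 x + c) ^ 2 := by
    intro x; ring_nf
  simp only [e5]
  have : ∑ i, m i * (ψ1 i - ψ0 i - c) ^ 2 = ∑ i, m i * g i ^ 2 := rfl
  rw [this] at D5
  nlinarith

end Crest.Agent.LibS0109
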