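import Mathlib
import Crest.Agent.Lib_S0109_Defs
import Crest.Agent.Lib_S0109_Lag
import Crest.Agent.Lib_S0109_DualDefs

/-!
# Row 82, package DUAL, piece D2 (helper15): barycentre stability of Laguerre cells from `St_UB`.

`pkg_D2 (hUB : St_UB) : St_D2`: apply `St_UB` with `x0 = 0`, `R = RK`, `A i = cell y ψ i ∩ K`,
`B i = cell y ψ' i ∩ K`, `Cm i = cell y ((ψ + ψ') / 2) i ∩ K`.
-/

set_option autoImplicit false
open MeasureTheory
open scoped ENNReal NNReal InnerProductSpace

namespace Crest.Agent.LibS0109.D2h15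

open Crest.Agent.LibS0109

variable {d N : ℕ}

/-- `|log (1 + u)| ≤ 2 |u|` for `|u| ≤ 1/2`. -/
theorem abs_log_one_add_le {u : ℝ} (hu : |u| ≤ 1 / 2) : |Real.log (1 + u)| ≤ 2 * |u| := by
  have hu' := abs_le.mp hu
  have h1 : (0 : ℝ) < 1 + u := by linarith [hu'.1]
  rw [abs_le]
  constructor
  · have h2 := Real.one_sub_inv_le_log_of_pos h1
    have h4 : (1 + u)⁻¹ ≤ 1 + 2 * |u| := by
      rw [inv_le_iff_one_le_mul₀ h1]
      rcases abs_cases u with ⟨h5, h6⟩ | ⟨h5, h6⟩
      · rw [h5]; nlinarith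
      · rw [h5]; nlinarith [hu'.1]
    linarith
  · have h2 := Real.log_le_sub_one_of_pos h1
    have h3 := le_abs_self u
    linarith [abs_nonneg u]

theorem volume_real_cell_inter {K : Set (E d)} (hK : IsCompact K) (hKi : (interior K).Nonempty)
    {y : Fin N → E d} {m ψ : Fin N → ℝ} (h : IsOptW K y m ψ) (i : Fin N) :
    volume.real (cell y ψ i ∩ K) = m i * volume.real K := by
  have h0 := volume_ne_zero_of_interior hKi
  have hT := volume_ne_top_of_isCompact hK
  have hV : 0 < volume.real K := ENNReal.toReal_pos h0 hT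
  have h1 := h i
  rw [Measure.real, rho_apply K (measurableSet_cell y ψ i), ENNReal.toReal_mul,
    ENNReal.toReal_inv] at h1
  have h2 : volume.real (cell y ψ i ∩ K) = (volume (cell y ψ i ∩ K)).toReal := rfl
  have h3 : volume.real K = (volume K).toReal := rfl
  rw [h2, ← h1, h3]
  rw [h3] at hV
  field_simp

theorem Bc_eq {K : Set (E d)} (y : Fin N → E d) (ψ : Fin N → ℝ) (i : Fin N) :
    Bc K y ψ i = (volume.real K)⁻¹ • ∫ x in cell y ψ i ∩ K, x := by
  unfold Bc
  rw [rho_def, Measure.restrict_smul, integral_smul_measure,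
    Measure.restrict_restrict (measurableSet_cell y ψ i), ENNReal.toReal_inv]
  rfl

theorem vbary_cell_inter {K : Set (E d)} (hK : IsCompact K) (hKi : (interior K).Nonempty)
    {y : Fin N → E d} {m ψ : Fin N → ℝ} (h : IsOptW K y m ψ) (i : Fin N) :
    vbary (cell y ψ i ∩ K) = (m i)⁻¹ • Bc K y ψ i := by
  unfold vbary
  rw [volume_real_cell_inter hK hKi h i, Bc_eq, smul_smul, mul_inv]

end Crest.Agent.LibS0109.D2h15

namespace Crest.Agent.LibS0109

open Crest.Agent.LibS0109.D2h15 in
/-- **D2**: barycentre stability of Laguerre cells under relative mass perturbations. -/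
theorem pkg_D2 (hUB : St_UB) : St_D2 := by
  obtain ⟨C, hC, hUB⟩ := hUB
  refine ⟨4 * C, by positivity, ?_⟩
  intro d N _ K RK hKc hKv hKi hRK y m g ψ ψ' s hy hm hsum hsg hψ hψ'
  have h0 := volume_ne_zero_of_interior hKi
  have hT := volume_ne_top_of_isCompact hKc
  have hV : 0 < volume.real K := ENNReal.toReal_pos h0 hT
  have hKm : MeasurableSet K := hKc.isClosed.measurableSet
  have h1s : ∀ i, 0 < 1 + s * g i := fun i => by
    have := (abs_le.mp (hsg i)).1
    linarith
  have hm' : ∀ i, 0 < m i * (1 + s * g i) := fun i => mul_pos (hm i) (h1s i)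
  rcases le_or_gt RK 0 with hR0 | hRpos
  · -- degenerate case: `K ⊆ {0}`, all barycentres vanish
    have hBc : ∀ (ψ : Fin N → ℝ) (i : Fin N), Bc K y ψ i = 0 := by
      intro ψ i
      unfold Bc
      apply integral_eq_zero_of_ae
      refine (ae_restrict_of_ae (ae_rho_mem K hKm)).mono fun x hx => ?_
      have h1 : ‖x‖ ≤ 0 := (hRK x hx).trans hR0
      simpa using h1
    have hL : ∑ i, m i * ‖(m i * (1 + s * g i))⁻¹ • Bc K y ψ' i - (m i)⁻¹ • Bc K y ψ i‖ ^ 2
        = 0 := by
      refine Finset.sum_eq_zero fun i _ => ?_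
      rw [hBc, hBc]
      simp
    rw [hL]
    have : 0 ≤ ∑ i, m i * g i ^ 2 :=
      Finset.sum_nonneg fun i _ => mul_nonneg (hm i).le (sq_nonneg _)
    positivity
  · set A : Fin N → Set (E d) := fun i => cell y ψ i ∩ K with hA
    set B : Fin N → Set (E d) := fun i => cell y ψ' i ∩ K with hB
    set Cm : Fin N → Set (E d) := fun i => cell y (fun j => (ψ j + ψ' j) / 2) i ∩ K with hCm
    have hsub : K ⊆ Metric.closedBall (0 : E d) RK := fun x hx => by
      rw [mem_closedBall_zero_iff]; exact hRK x hx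
    have hAm : ∀ i, MeasurableSet (A i) ∧ A i ⊆ K := fun i =>
      ⟨(measurableSet_cell y ψ i).inter hKm, Set.inter_subset_right⟩
    have hBm : ∀ i, MeasurableSet (B i) ∧ B i ⊆ K := fun i =>
      ⟨(measurableSet_cell y ψ' i).inter hKm, Set.inter_subset_right⟩
    have hCmm : ∀ i, MeasurableSet (Cm i) ∧ Cm i ⊆ K := fun i =>
      ⟨(measurableSet_cell y _ i).inter hKm, Set.inter_subset_right⟩
    have hmid : ∀ i, ∀ x ∈ A i, ∀ x' ∈ B i, (1 / 2 : ℝ) • (x + x') ∈ Cm i := by
      intro i x hx x' hx'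
      refine ⟨mid_mem_cell hx.1 hx'.1, ?_⟩
      have := hKv hx.2 hx'.2 (by norm_num : (0 : ℝ) ≤ 1 / 2) (by norm_num : (0 : ℝ) ≤ 1 / 2)
        (by norm_num : (1 / 2 : ℝ) + 1 / 2 = 1)
      rwa [← smul_add] at this
    have hdisj : ∀ (φ : Fin N → ℝ) (i j : Fin N), i ≠ j →
        volume ((cell y φ i ∩ K) ∩ (cell y φ j ∩ K)) = 0 := by
      intro φ i j hij
      refine measure_mono_null ?_ (volume_cell_inter_cell hy φ hij)
      exact fun x hx => ⟨hx.1.1, hx.2.1⟩
    have hcov : ∀ φ : Fin N → ℝ, volume (K \ ⋃ i, (cell y φ i ∩ K)) = 0 := by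
      intro φ
      have : K \ ⋃ i, (cell y φ i ∩ K) = ∅ := by
        refine Set.eq_empty_iff_forall_notMem.mpr ?_
        rintro x ⟨hxK, hx⟩
        obtain ⟨i, hi⟩ := exists_mem_cell y φ x
        exact hx (Set.mem_iUnion.mpr ⟨i, hi, hxK⟩)
      rw [this, measure_empty]
    have hAvol : ∀ i, volume.real (A i) = m i * volume.real K := fun i =>
      volume_real_cell_inter hKc hKi hψ i
    have hBvol : ∀ i, volume.real (B i) = m i * (1 + s * g i) * volume.real K := fun i =>
      volume_real_cell_inter hKc hKi hψ' i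
    have hApos : ∀ i, 0 < volume.real (A i) := fun i => by
      rw [hAvol]; exact mul_pos (hm i) hV
    have hBpos : ∀ i, 0 < volume.real (B i) := fun i => by
      rw [hBvol]; exact mul_pos (hm' i) hV
    have hratio : ∀ i, volume.real (B i) / volume.real (A i) = 1 + s * g i := fun i => by
      rw [hAvol, hBvol]
      have := (hm i).ne'
      have := hV.ne'
      field_simp
    have hlog : ∀ i, |Real.log (volume.real (B i) / volume.real (A i))| ≤ 1 := fun i => by
      rw [hratio]
      have h1 := abs_log_one_add_le (hsg i)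
      have h2 := hsg i
      linarith
    have key := hUB d N 0 RK K A B Cm hRpos hKm hsub hAm hBm hCmm hmid (hdisj ψ) (hcov ψ)
      (hdisj ψ') (hcov ψ') (hdisj _) hApos hBpos hlog
    have hvA : ∀ i, vbary (A i) = (m i)⁻¹ • Bc K y ψ i := fun i =>
      vbary_cell_inter hKc hKi hψ i
    have hvB : ∀ i, vbary (B i) = (m i * (1 + s * g i))⁻¹ • Bc K y ψ' i := fun i =>
      vbary_cell_inter hKc hKi hψ' i
    have hL : ∑ i, volume.real (A i) * ‖vbary (B i) - vbary (A i)‖ ^ 2 = volume.real K *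
        ∑ i, m i * ‖(m i * (1 + s * g i))⁻¹ • Bc K y ψ' i - (m i)⁻¹ • Bc K y ψ i‖ ^ 2 := by
      rw [Finset.mul_sum]
      refine Finset.sum_congr rfl fun i _ => ?_
      rw [hAvol, hvA, hvB]
      ring
    have hR : ∑ i, volume.real (A i) * (Real.log (volume.real (B i) / volume.real (A i))) ^ 2 ≤
        volume.real K * (4 * s ^ 2 * ∑ i, m i * g i ^ 2) := by
      rw [Finset.mul_sum, Finset.mul_sum]
      refine Finset.sum_le_sum fun i _ => ?_
      rw [hratio, hAvol]
      have h1 := abs_log_one_add_le (hsg i)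
      have h2 : (Real.log (1 + s * g i)) ^ 2 ≤ (2 * |s * g i|) ^ 2 := by
        rw [← sq_abs (Real.log (1 + s * g i))]
        exact pow_le_pow_left₀ (abs_nonneg _) h1 2
      have h3 : (2 * |s * g i|) ^ 2 = 4 * s ^ 2 * g i ^ 2 := by
        rw [mul_pow, sq_abs]; ring
      rw [h3] at h2
      have h4 : 0 ≤ m i * volume.real K := mul_nonneg (hm i).le hV.le
      calc m i * volume.real K * Real.log (1 + s * g i) ^ 2
          ≤ m i * volume.real K * (4 * s ^ 2 * g i ^ 2) := mul_le_mul_of_nonneg_left h2 h4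
        _ = volume.real K * (4 * s ^ 2 * (m i * g i ^ 2)) := by ring
    rw [hL] at key
    have hCR : 0 ≤ C * RK ^ 2 := by positivity
    have key2 : volume.real K *
        ∑ i, m i * ‖(m i * (1 + s * g i))⁻¹ • Bc K y ψ' i - (m i)⁻¹ • Bc K y ψ i‖ ^ 2 ≤
        volume.real K * (4 * C * RK ^ 2 * s ^ 2 * ∑ i, m i * g i ^ 2) := by
      calc _ ≤ C * RK ^ 2 * ∑ i, volume.real (A i) *
            (Real.log (volume.real (B i) / volume.real (A i))) ^ 2 := key
        _ ≤ C * RK ^ 2 * (volume.real K * (4 * s ^ 2 * ∑ i, m i * g i ^ 2)) :=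
            mul_le_mul_of_nonneg_left hR hCR
        _ = volume.real K * (4 * C * RK ^ 2 * s ^ 2 * ∑ i, m i * g i ^ 2) := by ring
    exact le_of_mul_le_mul_left key2 hV

end Crest.Agent.LibS0109
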