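import Mathlib
import Crest.Agent.Lib_S0109_Defs
import Crest.Agent.Lib_S0109_Lag
import Crest.Agent.Lib_S0109_DualDefs

/-!
# Row 82 (S0109), package DUAL, step (D5): from weights to potentials ("squeeze").

If `ψ0` is optimal for `(y, m)` and `ψ1` is optimal for `(z, m)` then, for every real `c`,
`∫ (pot z ψ1 - pot y ψ0 + c)² d(ρ K) ≤ 4 R² ∑ m_i ‖z_i - y_i‖² + 4 ∑ m_i (ψ1_i - ψ0_i - c)²`,
where `R` bounds the norm on `K`.

Exported: `Crest.Agent.LibS0109.pkg_D5 : St_D5`; everything else lives in the sub-namespace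
`Crest.Agent.LibS0109.DualSqueeze`.
-/

set_option autoImplicit false
open MeasureTheory
open scoped ENNReal NNReal InnerProductSpace

namespace Crest.Agent.LibS0109.DualSqueeze

open Crest.Agent.LibS0109

variable {d N : ℕ}

theorem integrable_rho_indicator (K : Set (E d)) (hKc : IsCompact K)
    (hKi : (interior K).Nonempty) (S : Set (E d)) (hS : MeasurableSet S) :
    Integrable (S.indicator (1 : E d → ℝ)) (ρ K) := by
  have : IsProbabilityMeasure (ρ K) :=
    rho_isProbabilityMeasure (volume_ne_zero_of_interior hKi) (volume_ne_top_of_isCompact hKc)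
  exact (integrable_const (1 : ℝ)).indicator hS

/-- **(D5) squeeze**: the `L²(ρ K)` distance of the potentials (with any additive constant `c`)
is controlled by the displacement of the atoms and the `ℓ²(m)` distance of the weights. -/
theorem dual_squeeze [NeZero N] (K : Set (E d)) (hKc : IsCompact K) (hKi : (interior K).Nonempty)
    (y z : Fin N → E d) (m ψ0 ψ1 : Fin N → ℝ) (h0 : IsOptW K y m ψ0) (h1 : IsOptW K z m ψ1)
    (RK : ℝ) (hRK : ∀ x ∈ K, ‖x‖ ≤ RK) (c : ℝ) :
    ∫ x, (pot z ψ1 x - pot y ψ0 x + c) ^ 2 ∂(ρ K) ≤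
      4 * RK ^ 2 * ∑ i, m i * ‖z i - y i‖ ^ 2 + 4 * ∑ i, m i * (ψ1 i - ψ0 i - c) ^ 2 := by
  classical
  set G : Fin N → ℝ := fun k => 2 * RK ^ 2 * ‖z k - y k‖ ^ 2 + 2 * (ψ1 k - ψ0 k - c) ^ 2 with hG
  have hG0 : ∀ k, 0 ≤ G k := fun k => by positivity
  set g1 : E d → ℝ := fun x => ∑ k, G k * (cell z ψ1 k).indicator (1 : E d → ℝ) x with hg1
  set g0 : E d → ℝ := fun x => ∑ k, G k * (cell y ψ0 k).indicator (1 : E d → ℝ) x with hg0
  have hpt : ∀ x ∈ K, (pot z ψ1 x - pot y ψ0 x + c) ^ 2 ≤ g1 x + g0 x := by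
    intro x hx
    set i := lagIdx z ψ1 x with hi_def
    set j := lagIdx y ψ0 x with hj_def
    have hi : x ∈ cell z ψ1 i := lagIdx_mem z ψ1 x
    have hj : x ∈ cell y ψ0 j := lagIdx_mem y ψ0 x
    have e1 := pot_eq_of_mem_cell hi
    have e0 := pot_eq_of_mem_cell hj
    have l1 := le_pot z ψ1 x j
    have l0 := le_pot y ψ0 x i
    have hU : pot z ψ1 x - pot y ψ0 x + c ≤ ⟪x, z i - y i⟫_ℝ - (ψ1 i - ψ0 i - c) := by
      rw [inner_sub_right]; linarith
    have hL : ⟪x, z j - y j⟫_ℝ - (ψ1 j - ψ0 j - c) ≤ pot z ψ1 x - pot y ψ0 x + c := by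
      rw [inner_sub_right]; linarith
    have hsq : ∀ k, (⟪x, z k - y k⟫_ℝ - (ψ1 k - ψ0 k - c)) ^ 2 ≤ G k := by
      intro k
      have hin : |⟪x, z k - y k⟫_ℝ| ≤ RK * ‖z k - y k‖ :=
        (abs_real_inner_le_norm _ _).trans
          (mul_le_mul_of_nonneg_right (hRK x hx) (norm_nonneg _))
      have h2 : (⟪x, z k - y k⟫_ℝ) ^ 2 ≤ (RK * ‖z k - y k‖) ^ 2 := by
        rw [← sq_abs]; exact pow_le_pow_left₀ (abs_nonneg _) hin 2
      simp only [hG]
      nlinarith [sq_nonneg (⟪x, z k - y k⟫_ℝ + (ψ1 k - ψ0 k - c))]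
    have hf : (pot z ψ1 x - pot y ψ0 x + c) ^ 2 ≤ G i + G j := by
      have hi' := hsq i
      have hj' := hsq j
      rcases le_total 0 (pot z ψ1 x - pot y ψ0 x + c) with hpos | hneg
      · have : (pot z ψ1 x - pot y ψ0 x + c) ^ 2 ≤
            (⟪x, z i - y i⟫_ℝ - (ψ1 i - ψ0 i - c)) ^ 2 := pow_le_pow_left₀ hpos hU 2
        linarith [hG0 j]
      · have : (pot z ψ1 x - pot y ψ0 x + c) ^ 2 ≤
            (⟪x, z j - y j⟫_ℝ - (ψ1 j - ψ0 j - c)) ^ 2 := by
          rw [← neg_sq (pot z ψ1 x - pot y ψ0 x + c),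
            ← neg_sq (⟪x, z j - y j⟫_ℝ - (ψ1 j - ψ0 j - c))]
          exact pow_le_pow_left₀ (by linarith) (by linarith) 2
        linarith [hG0 i]
    have hg1i : G i ≤ g1 x := by
      have hterm : G i = G i * (cell z ψ1 i).indicator (1 : E d → ℝ) x := by
        rw [Set.indicator_of_mem hi]; simp
      rw [hterm]
      exact Finset.single_le_sum (f := fun k => G k * (cell z ψ1 k).indicator (1 : E d → ℝ) x)
        (fun k _ => mul_nonneg (hG0 k) (Set.indicator_nonneg (fun _ _ => zero_le_one) _))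
        (Finset.mem_univ i)
    have hg0j : G j ≤ g0 x := by
      have hterm : G j = G j * (cell y ψ0 j).indicator (1 : E d → ℝ) x := by
        rw [Set.indicator_of_mem hj]; simp
      rw [hterm]
      exact Finset.single_le_sum (f := fun k => G k * (cell y ψ0 k).indicator (1 : E d → ℝ) x)
        (fun k _ => mul_nonneg (hG0 k) (Set.indicator_nonneg (fun _ _ => zero_le_one) _))
        (Finset.mem_univ j)
    linarith
  -- integrability
  have hv0 : volume K ≠ 0 := volume_ne_zero_of_interior hKi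
  have hfi : Integrable (fun x => (pot z ψ1 x - pot y ψ0 x + c) ^ 2) (ρ K) :=
    integrable_rho_of_continuousOn hKc hv0
      ((((continuous_pot z ψ1).sub (continuous_pot y ψ0)).add continuous_const).pow 2).continuousOn
  have hg1i : Integrable g1 (ρ K) :=
    integrable_finsetSum _ fun k _ =>
      (integrable_rho_indicator K hKc hKi _ (measurableSet_cell z ψ1 k)).const_mul (G k)
  have hg0i : Integrable g0 (ρ K) :=
    integrable_finsetSum _ fun k _ =>
      (integrable_rho_indicator K hKc hKi _ (measurableSet_cell y ψ0 k)).const_mul (G k)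
  have hmono : ∫ x, (pot z ψ1 x - pot y ψ0 x + c) ^ 2 ∂(ρ K) ≤ ∫ x, (g1 x + g0 x) ∂(ρ K) := by
    refine integral_mono_ae hfi (hg1i.add hg0i) ?_
    filter_upwards [ae_rho_mem K hKc.measurableSet] with x hx using hpt x hx
  have hint1 : ∫ x, g1 x ∂(ρ K) = ∑ k, G k * m k := by
    simp only [hg1]
    rw [integral_finsetSum _ fun k _ =>
      (integrable_rho_indicator K hKc hKi _ (measurableSet_cell z ψ1 k)).const_mul (G k)]
    refine Finset.sum_congr rfl fun k _ => ?_
    rw [integral_const_mul, integral_indicator_one (measurableSet_cell z ψ1 k), h1 k]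
  have hint0 : ∫ x, g0 x ∂(ρ K) = ∑ k, G k * m k := by
    simp only [hg0]
    rw [integral_finsetSum _ fun k _ =>
      (integrable_rho_indicator K hKc hKi _ (measurableSet_cell y ψ0 k)).const_mul (G k)]
    refine Finset.sum_congr rfl fun k _ => ?_
    rw [integral_const_mul, integral_indicator_one (measurableSet_cell y ψ0 k), h0 k]
  rw [integral_add hg1i hg0i, hint1, hint0] at hmono
  have halg : (∑ k, G k * m k) + ∑ k, G k * m k =
      4 * RK ^ 2 * ∑ i, m i * ‖z i - y i‖ ^ 2 + 4 * ∑ i, m i * (ψ1 i - ψ0 i - c) ^ 2 := by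
    simp only [hG, Finset.mul_sum, ← Finset.sum_add_distrib]
    refine Finset.sum_congr rfl fun k _ => ?_
    ring
  linarith

end Crest.Agent.LibS0109.DualSqueeze

namespace Crest.Agent.LibS0109

/-- **D5** (squeeze), in the interface shape of `Lib_S0109_DualDefs`. -/
theorem pkg_D5 : St_D5 := by
  intro d N _ K RK hKc hKi hRK y z m ψ0 ψ1 c _ _ h0 h1
  exact DualSqueeze.dual_squeeze K hKc hKi y z m ψ0 ψ1 h0 h1 RK hRK c

end Crest.Agent.LibS0109
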