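import Crest.Agent.Lib_S0109_Defs

/-!
# Row 82, package EX (helper3): existence of optimal weights for semi-discrete optimal transport.

`pkg_EX : St_EX`.  Proof: minimise the Kantorovich functional
`Kfun ψ = ∫ pot y ψ ∂(ρ K) + ∑ i, m i * ψ i` (shift invariant, continuous, coercive after
normalising `min ψ = 0`), then the one-sided first order condition at a minimiser gives
`ρ (strict cell i) ≤ m i`; ties are Lebesgue-null and the cells cover, so equality holds.
-/

set_option autoImplicit false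
open MeasureTheory
open scoped ENNReal NNReal InnerProductSpace

namespace Crest.Agent.LibS0109
namespace EX

variable {d N : ℕ}

/-! ### The uniform probability measure -/

theorem rho_isProb {K : Set (E d)} (hKc : IsCompact K) (hKi : (interior K).Nonempty) :
    IsProbabilityMeasure (ρ K) := by
  have h0 : volume K ≠ 0 := by
    have : 0 < volume (interior K) := isOpen_interior.measure_pos volume hKi
    exact (lt_of_lt_of_le this (measure_mono interior_subset)).ne'
  have h1 : volume K ≠ ⊤ := hKc.measure_lt_top.ne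
  constructor
  show ((volume K)⁻¹ • volume.restrict K) Set.univ = 1
  simp [ENNReal.inv_mul_cancel h0 h1]

theorem integrable_of_continuous {K : Set (E d)} (hKc : IsCompact K)
    (hKi : (interior K).Nonempty) {f : E d → ℝ}
    (hf : Continuous f) : Integrable f (ρ K) := by
  have h1 : IntegrableOn f K volume := hf.continuousOn.integrableOn_compact hKc
  have h0 : volume K ≠ 0 := by
    have : 0 < volume (interior K) := isOpen_interior.measure_pos volume hKi
    exact (lt_of_lt_of_le this (measure_mono interior_subset)).ne'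
  have h2 : (volume K)⁻¹ ≠ ⊤ := by simpa using h0
  exact Integrable.smul_measure h1 h2

/-! ### The potential -/

theorem pot_bdd (y : Fin N → E d) (ψ : Fin N → ℝ) (x : E d) :
    BddAbove (Set.range fun i => ⟪x, y i⟫_ℝ - ψ i) := (Set.finite_range _).bddAbove

theorem le_pot (y : Fin N → E d) (ψ : Fin N → ℝ) (x : E d) (i : Fin N) :
    ⟪x, y i⟫_ℝ - ψ i ≤ pot y ψ x := le_ciSup (pot_bdd y ψ x) i

theorem pot_le [NeZero N] (y : Fin N → E d) (ψ : Fin N → ℝ) (x : E d) (c : ℝ)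
    (h : ∀ i, ⟪x, y i⟫_ℝ - ψ i ≤ c) : pot y ψ x ≤ c := ciSup_le h

theorem continuous_pot [NeZero N] (y : Fin N → E d) (ψ : Fin N → ℝ) : Continuous (pot y ψ) := by
  have : pot y ψ = fun x => Finset.univ.sup' Finset.univ_nonempty (fun i => ⟪x, y i⟫_ℝ - ψ i) := by
    funext x
    rw [Finset.sup'_univ_eq_ciSup]; rfl
  rw [this]
  apply Continuous.finset_sup'_apply
  intro i _
  fun_prop

theorem pot_le_add_norm [NeZero N] (y : Fin N → E d) (ψ ψ' : Fin N → ℝ) (x : E d) :
    pot y ψ x ≤ pot y ψ' x + ‖ψ - ψ'‖ := by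
  apply pot_le
  intro i
  have h1 := le_pot y ψ' x i
  have h2 : ‖(ψ - ψ') i‖ ≤ ‖ψ - ψ'‖ := norm_le_pi_norm (ψ - ψ') i
  rw [Real.norm_eq_abs, Pi.sub_apply] at h2
  have h3 := neg_abs_le (ψ i - ψ' i)
  linarith

theorem abs_pot_sub_le [NeZero N] (y : Fin N → E d) (ψ ψ' : Fin N → ℝ) (x : E d) :
    |pot y ψ x - pot y ψ' x| ≤ ‖ψ - ψ'‖ := by
  have h1 := pot_le_add_norm y ψ ψ' x
  have h2 := pot_le_add_norm y ψ' ψ x
  rw [norm_sub_rev] at h2
  rw [abs_le]; constructor <;> linarith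

/-- shift invariance of `pot` -/
theorem pot_add_const [NeZero N] (y : Fin N → E d) (ψ : Fin N → ℝ) (c : ℝ) (x : E d) :
    pot y (fun i => ψ i + c) x = pot y ψ x - c := by
  apply le_antisymm
  · apply pot_le; intro i
    have := le_pot y ψ x i
    linarith
  · have : pot y ψ x ≤ pot y (fun i => ψ i + c) x + c := by
      apply pot_le; intro i
      have := le_pot y (fun i => ψ i + c) x i
      linarith
    linarith

/-! ### The Kantorovich functional -/

/-- The Kantorovich functional. -/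
noncomputable def Kfun (K : Set (E d)) (y : Fin N → E d) (m : Fin N → ℝ) (ψ : Fin N → ℝ) : ℝ :=
  ∫ x, pot y ψ x ∂(ρ K) + ∑ i, m i * ψ i

section
variable [NeZero N] {K : Set (E d)} (hKc : IsCompact K) (hKi : (interior K).Nonempty)
  (y : Fin N → E d) (m : Fin N → ℝ)
include hKc hKi

theorem integrable_pot (ψ : Fin N → ℝ) : Integrable (pot y ψ) (ρ K) :=
  integrable_of_continuous hKc hKi (continuous_pot y ψ)

theorem Kfun_add_const (hm : ∑ i, m i = 1) (ψ : Fin N → ℝ) (c : ℝ) :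
    Kfun K y m (fun i => ψ i + c) = Kfun K y m ψ := by
  have := rho_isProb hKc hKi
  unfold Kfun
  have h1 : ∫ x, pot y (fun i => ψ i + c) x ∂(ρ K) = ∫ x, pot y ψ x ∂(ρ K) - c := by
    simp_rw [pot_add_const]
    rw [integral_sub (integrable_pot hKc hKi y ψ) (integrable_const c)]
    simp
  have h2 : ∑ i, m i * (ψ i + c) = ∑ i, m i * ψ i + c := by
    simp_rw [mul_add]
    rw [Finset.sum_add_distrib, ← Finset.sum_mul, hm, one_mul]
  rw [h1, h2]; ring

theorem Kfun_lipschitz (hm0 : ∀ i, 0 ≤ m i) (hm : ∑ i, m i = 1) (ψ ψ' : Fin N → ℝ) :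
    |Kfun K y m ψ - Kfun K y m ψ'| ≤ 2 * ‖ψ - ψ'‖ := by
  have := rho_isProb hKc hKi
  unfold Kfun
  have h1 : |∫ x, pot y ψ x ∂(ρ K) - ∫ x, pot y ψ' x ∂(ρ K)| ≤ ‖ψ - ψ'‖ := by
    rw [← integral_sub (integrable_pot hKc hKi y ψ) (integrable_pot hKc hKi y ψ')]
    have := norm_integral_le_of_norm_le_const (μ := ρ K) (f := fun x => pot y ψ x - pot y ψ' x)
      (C := ‖ψ - ψ'‖) (Filter.Eventually.of_forall fun x => by
        rw [Real.norm_eq_abs]; exact abs_pot_sub_le y ψ ψ' x)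
    simpa [Real.norm_eq_abs] using this
  have h2 : |∑ i, m i * ψ i - ∑ i, m i * ψ' i| ≤ ‖ψ - ψ'‖ := by
    rw [← Finset.sum_sub_distrib]
    calc |∑ i, (m i * ψ i - m i * ψ' i)| ≤ ∑ i, |m i * ψ i - m i * ψ' i| :=
          Finset.abs_sum_le_sum_abs _ _
      _ ≤ ∑ i, m i * ‖ψ - ψ'‖ := by
          apply Finset.sum_le_sum; intro i _
          rw [← mul_sub, abs_mul, abs_of_nonneg (hm0 i)]
          apply mul_le_mul_of_nonneg_left _ (hm0 i)
          have h2 : ‖(ψ - ψ') i‖ ≤ ‖ψ - ψ'‖ := norm_le_pi_norm (ψ - ψ') i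
          simpa [Real.norm_eq_abs] using h2
      _ = ‖ψ - ψ'‖ := by rw [← Finset.sum_mul, hm, one_mul]
  have h3 : ∫ x, pot y ψ x ∂(ρ K) + ∑ i, m i * ψ i - (∫ x, pot y ψ' x ∂(ρ K) + ∑ i, m i * ψ' i)
      = (∫ x, pot y ψ x ∂(ρ K) - ∫ x, pot y ψ' x ∂(ρ K)) + (∑ i, m i * ψ i - ∑ i, m i * ψ' i) := by
    ring
  rw [h3]
  calc _ ≤ |∫ x, pot y ψ x ∂(ρ K) - ∫ x, pot y ψ' x ∂(ρ K)| + |∑ i, m i * ψ i - ∑ i, m i * ψ' i| :=
        abs_add_le _ _
    _ ≤ 2 * ‖ψ - ψ'‖ := by linarith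

theorem continuous_Kfun (hm0 : ∀ i, 0 ≤ m i) (hm : ∑ i, m i = 1) : Continuous (Kfun K y m) := by
  have : LipschitzWith 2 (Kfun K y m) := by
    apply LipschitzWith.of_dist_le_mul
    intro ψ ψ'
    rw [Real.dist_eq, dist_eq_norm]
    simpa using Kfun_lipschitz hKc hKi y m hm0 hm ψ ψ'
  exact this.continuous

/-- A global minimiser of the Kantorovich functional exists. -/
theorem exists_min (hm0 : ∀ i, 0 < m i) (hm : ∑ i, m i = 1) :
    ∃ ψ : Fin N → ℝ, ∀ ψ', Kfun K y m ψ ≤ Kfun K y m ψ' := by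
  have hprob := rho_isProb hKc hKi
  let a : Fin N → ℝ := fun i => ∫ x, ⟪x, y i⟫_ℝ ∂(ρ K)
  obtain ⟨A, hA⟩ : ∃ A : ℝ, ∀ i, A ≤ a i :=
    ⟨Finset.univ.inf' Finset.univ_nonempty a, fun i => Finset.inf'_le _ (Finset.mem_univ i)⟩
  obtain ⟨μ, hμ0, hμ⟩ : ∃ μ : ℝ, 0 < μ ∧ ∀ i, μ ≤ m i :=
    ⟨Finset.univ.inf' Finset.univ_nonempty m, by
      rw [Finset.lt_inf'_iff]; intro i _; exact hm0 i,
      fun i => Finset.inf'_le _ (Finset.mem_univ i)⟩
  have hlow : ∀ ψ : Fin N → ℝ, (∀ i, 0 ≤ ψ i) → ∀ i0, ψ i0 = 0 → ∀ i1,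
      A + μ * ψ i1 ≤ Kfun K y m ψ := by
    intro ψ hψ i0 hi0 i1
    unfold Kfun
    have h1 : a i0 ≤ ∫ x, pot y ψ x ∂(ρ K) := by
      apply integral_mono (integrable_of_continuous hKc hKi (by fun_prop))
        (integrable_pot hKc hKi y ψ)
      intro x
      have := le_pot y ψ x i0
      rw [hi0, sub_zero] at this
      exact this
    have h2 : μ * ψ i1 ≤ ∑ i, m i * ψ i := by
      calc μ * ψ i1 ≤ m i1 * ψ i1 := mul_le_mul_of_nonneg_right (hμ i1) (hψ i1)
        _ ≤ ∑ i, m i * ψ i :=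
          Finset.single_le_sum (f := fun i => m i * ψ i)
            (fun i _ => mul_nonneg (hm0 i).le (hψ i)) (Finset.mem_univ i1)
    linarith [hA i0]
  set B : ℝ := |Kfun K y m 0 - A| / μ + 1 with hB
  have hBpos : 0 ≤ B := by positivity
  have hcomp : IsCompact (Set.Icc (0 : Fin N → ℝ) (fun _ => B)) := isCompact_Icc
  have h0mem : (0 : Fin N → ℝ) ∈ Set.Icc (0 : Fin N → ℝ) (fun _ => B) :=
    ⟨le_refl _, fun _ => hBpos⟩
  obtain ⟨ψ, hψmem, hψmin⟩ := hcomp.exists_isMinOn ⟨0, h0mem⟩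
    (continuous_Kfun hKc hKi y m (fun i => (hm0 i).le) hm).continuousOn
  refine ⟨ψ, fun ψ' => ?_⟩
  obtain ⟨i0, hi0⟩ : ∃ i0, ∀ i, ψ' i0 ≤ ψ' i := by
    obtain ⟨i0, _, h⟩ := Finset.exists_min_image Finset.univ ψ' Finset.univ_nonempty
    exact ⟨i0, fun i => h i (Finset.mem_univ i)⟩
  have hK'' : Kfun K y m (fun i => ψ' i + (- ψ' i0)) = Kfun K y m ψ' :=
    Kfun_add_const hKc hKi y m hm ψ' _
  rw [← hK'']
  have hnn : ∀ i, 0 ≤ ψ' i + (- ψ' i0) := fun i => by linarith [hi0 i]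
  have hz : ψ' i0 + (- ψ' i0) = 0 := by ring
  by_cases hbox : ∀ i, ψ' i + (- ψ' i0) ≤ B
  · exact hψmin (show (fun i => ψ' i + (- ψ' i0)) ∈ Set.Icc (0 : Fin N → ℝ) (fun _ => B) from
      ⟨fun i => hnn i, fun i => hbox i⟩)
  · push Not at hbox
    obtain ⟨i1, hi1⟩ := hbox
    have h1 := hlow (fun i => ψ' i + (- ψ' i0)) hnn i0 hz i1
    have h2 : Kfun K y m ψ ≤ Kfun K y m 0 := hψmin h0mem
    have h3 : Kfun K y m 0 - A < μ * B := by
      rw [hB, mul_add, mul_div_cancel₀ _ hμ0.ne', mul_one]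
      have := le_abs_self (Kfun K y m 0 - A)
      linarith
    have h4 : μ * B < μ * (ψ' i1 + (- ψ' i0)) := mul_lt_mul_of_pos_left hi1 hμ0
    linarith

end

/-! ### First order condition -/

/-- the set where index `i` wins by a margin of at least `h` -/
def Mset (y : Fin N → E d) (ψ : Fin N → ℝ) (i : Fin N) (h : ℝ) : Set (E d) :=
  {x | ∀ j, j ≠ i → ⟪x, y j⟫_ℝ - ψ j + h ≤ ⟪x, y i⟫_ℝ - ψ i}

/-- the strict cell -/
def Sset (y : Fin N → E d) (ψ : Fin N → ℝ) (i : Fin N) : Set (E d) :=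
  {x | ∀ j, j ≠ i → ⟪x, y j⟫_ℝ - ψ j < ⟪x, y i⟫_ℝ - ψ i}

theorem isClosed_Mset (y : Fin N → E d) (ψ : Fin N → ℝ) (i : Fin N) (h : ℝ) :
    IsClosed (Mset y ψ i h) := by
  have : Mset y ψ i h = ⋂ j, ⋂ (_ : j ≠ i),
      {x | ⟪x, y j⟫_ℝ - ψ j + h ≤ ⟪x, y i⟫_ℝ - ψ i} := by
    ext x; simp [Mset]
  rw [this]
  exact isClosed_iInter fun j => isClosed_iInter fun _ =>
    isClosed_le (by fun_prop) (by fun_prop)

theorem pot_update_le [NeZero N] (y : Fin N → E d) (ψ : Fin N → ℝ) (i : Fin N) (h : ℝ)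
    (hh : 0 ≤ h) (x : E d) :
    pot y (Function.update ψ i (ψ i + h)) x ≤
      pot y ψ x - h * (Mset y ψ i h).indicator (1 : E d → ℝ) x := by
  by_cases hx : x ∈ Mset y ψ i h
  · rw [Set.indicator_of_mem hx, Pi.one_apply, mul_one]
    apply pot_le
    intro j
    by_cases hj : j = i
    · subst hj
      rw [Function.update_self]
      have := le_pot y ψ x j
      linarith
    · rw [Function.update_of_ne hj]
      have h1 := hx j hj
      have h2 := le_pot y ψ x i
      linarith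
  · rw [Set.indicator_of_notMem hx, mul_zero, sub_zero]
    apply pot_le
    intro j
    by_cases hj : j = i
    · subst hj
      rw [Function.update_self]
      have := le_pot y ψ x j
      linarith
    · rw [Function.update_of_ne hj]
      exact le_pot y ψ x j

theorem first_order [NeZero N] {K : Set (E d)} (hKc : IsCompact K) (hKi : (interior K).Nonempty)
    (y : Fin N → E d) (m : Fin N → ℝ) (ψ : Fin N → ℝ)
    (hmin : ∀ ψ', Kfun K y m ψ ≤ Kfun K y m ψ') (i : Fin N) (h : ℝ) (hh : 0 < h) :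
    (ρ K).real (Mset y ψ i h) ≤ m i := by
  have hprob := rho_isProb hKc hKi
  have h1 := hmin (Function.update ψ i (ψ i + h))
  unfold Kfun at h1
  have hmeas : MeasurableSet (Mset y ψ i h) := (isClosed_Mset y ψ i h).measurableSet
  have hind : Integrable (fun x => h * (Mset y ψ i h).indicator (1 : E d → ℝ) x) (ρ K) := by
    apply Integrable.const_mul
    exact (integrable_const (1 : ℝ)).indicator hmeas
  have hint : Integrable (fun x => pot y ψ x - h * (Mset y ψ i h).indicator (1 : E d → ℝ) x)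
      (ρ K) := (integrable_pot hKc hKi y ψ).sub hind
  have h2 : ∫ x, pot y (Function.update ψ i (ψ i + h)) x ∂(ρ K) ≤
      ∫ x, pot y ψ x ∂(ρ K) - h * (ρ K).real (Mset y ψ i h) := by
    calc ∫ x, pot y (Function.update ψ i (ψ i + h)) x ∂(ρ K)
        ≤ ∫ x, (pot y ψ x - h * (Mset y ψ i h).indicator (1 : E d → ℝ) x) ∂(ρ K) :=
          integral_mono (integrable_pot hKc hKi y _) hint (pot_update_le y ψ i h hh.le)
      _ = ∫ x, pot y ψ x ∂(ρ K) - h * (ρ K).real (Mset y ψ i h) := by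
          rw [integral_sub (integrable_pot hKc hKi y ψ) hind, integral_const_mul,
            integral_indicator_one hmeas]
  have h3 : ∑ j, m j * Function.update ψ i (ψ i + h) j = ∑ j, m j * ψ j + m i * h := by
    have : ∀ j, m j * Function.update ψ i (ψ i + h) j =
        m j * ψ j + (if j = i then m i * h else 0) := by
      intro j
      by_cases hj : j = i
      · subst hj; simp; ring
      · simp [hj]
    simp_rw [this]
    rw [Finset.sum_add_distrib]
    simp
  rw [h3] at h1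
  have h4 : h * (ρ K).real (Mset y ψ i h) ≤ h * m i := by linarith
  exact le_of_mul_le_mul_left h4 hh

theorem Sset_eq_iUnion [NeZero N] (y : Fin N → E d) (ψ : Fin N → ℝ) (i : Fin N) :
    Sset y ψ i = ⋃ n : ℕ, Mset y ψ i (1 / ((n : ℝ) + 1)) := by
  ext x
  simp only [Sset, Mset, Set.mem_ofPred_eq, Set.mem_iUnion]
  constructor
  · intro hx
    let g : Fin N → ℝ := fun j =>
      if j = i then 1 else (⟪x, y i⟫_ℝ - ψ i) - (⟪x, y j⟫_ℝ - ψ j)
    have hg : 0 < Finset.univ.inf' Finset.univ_nonempty g := by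
      rw [Finset.lt_inf'_iff]
      intro j _
      by_cases hj : j = i
      · simp [g, hj]
      · simp only [g, hj, if_false]
        have := hx j hj
        linarith
    obtain ⟨n, hn⟩ := exists_nat_one_div_lt hg
    refine ⟨n, fun j hj => ?_⟩
    have h1 : Finset.univ.inf' Finset.univ_nonempty g ≤ g j :=
      Finset.inf'_le _ (Finset.mem_univ j)
    simp only [g, hj, if_false] at h1
    linarith
  · rintro ⟨n, hn⟩ j hj
    have := hn j hj
    have hpos : (0 : ℝ) < 1 / ((n : ℝ) + 1) := by positivity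
    linarith

theorem Mset_mono (y : Fin N → E d) (ψ : Fin N → ℝ) (i : Fin N) :
    Monotone fun n : ℕ => Mset y ψ i (1 / ((n : ℝ) + 1)) := by
  intro n n' hnn' x hx j hj
  have := hx j hj
  have h1 : (1 : ℝ) / ((n' : ℝ) + 1) ≤ 1 / ((n : ℝ) + 1) := by
    apply one_div_le_one_div_of_le (by positivity)
    have : (n : ℝ) ≤ n' := by exact_mod_cast hnn'
    linarith
  linarith

/-! ### Ties are null -/

theorem tie_null (y : Fin N → E d) (hy : Function.Injective y) (ψ : Fin N → ℝ) (i j : Fin N)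
    (hij : j ≠ i) : volume {x : E d | ⟪x, y j⟫_ℝ - ψ j = ⟪x, y i⟫_ℝ - ψ i} = 0 := by
  have hv : y j - y i ≠ 0 := sub_ne_zero.mpr (fun h => hij (hy h))
  let s : AffineSubspace ℝ (E d) :=
    { carrier := {x : E d | ⟪x, y j⟫_ℝ - ψ j = ⟪x, y i⟫_ℝ - ψ i}
      smul_vsub_vadd_mem' := by
        intro c p1 p2 p3 h1 h2 h3
        simp only [Set.mem_ofPred_eq] at h1 h2 h3 ⊢
        simp only [vsub_eq_sub, vadd_eq_add, inner_add_left, inner_smul_left, inner_sub_left,
          RCLike.conj_to_real]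
        have e1 : ⟪p1, y j⟫_ℝ - ⟪p1, y i⟫_ℝ = ψ j - ψ i := by linarith
        have e2 : ⟪p2, y j⟫_ℝ - ⟪p2, y i⟫_ℝ = ψ j - ψ i := by linarith
        have : c * (⟪p1, y j⟫_ℝ - ⟪p2, y j⟫_ℝ) = c * (⟪p1, y i⟫_ℝ - ⟪p2, y i⟫_ℝ) := by
          congr 1; linarith
        linarith }
  have hs : s ≠ ⊤ := by
    intro htop
    have h0 : (0 : E d) ∈ s := by rw [htop]; exact AffineSubspace.mem_top ℝ _ _
    have h1 : (y j - y i) ∈ s := by rw [htop]; exact AffineSubspace.mem_top ℝ _ _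
    have h0' : ⟪(0 : E d), y j⟫_ℝ - ψ j = ⟪(0 : E d), y i⟫_ℝ - ψ i := h0
    have h1' : ⟪y j - y i, y j⟫_ℝ - ψ j = ⟪y j - y i, y i⟫_ℝ - ψ i := h1
    simp only [inner_zero_left] at h0'
    have : ⟪y j - y i, y j - y i⟫_ℝ = 0 := by
      rw [inner_sub_right]; linarith
    exact hv (inner_self_eq_zero.mp this)
  exact Measure.addHaar_affineSubspace volume s hs

theorem rho_null_of_volume_null (K : Set (E d)) {S : Set (E d)} (h : volume S = 0) :
    (ρ K) S = 0 := by
  have h1 : volume.restrict K S = 0 :=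
    Measure.absolutelyContinuous_of_le Measure.restrict_le_self h
  show ((volume K)⁻¹ • volume.restrict K) S = 0
  simp [h1]

theorem cell_diff_Sset_null (K : Set (E d)) (y : Fin N → E d) (hy : Function.Injective y)
    (ψ : Fin N → ℝ) (i : Fin N) : (ρ K) (cell y ψ i \ Sset y ψ i) = 0 := by
  have hsub : cell y ψ i \ Sset y ψ i ⊆
      ⋃ j, ⋃ (_ : j ≠ i), {x : E d | ⟪x, y j⟫_ℝ - ψ j = ⟪x, y i⟫_ℝ - ψ i} := by
    rintro x ⟨hx1, hx2⟩
    simp only [Sset, Set.mem_ofPred_eq, not_forall, not_lt] at hx2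
    obtain ⟨j, hj, hle⟩ := hx2
    simp only [Set.mem_iUnion, Set.mem_ofPred_eq]
    exact ⟨j, hj, le_antisymm (hx1 j) hle⟩
  apply measure_mono_null hsub
  rw [measure_iUnion_null_iff]
  intro j
  rw [measure_iUnion_null_iff]
  intro hj
  exact rho_null_of_volume_null K (tie_null y hy ψ i j hj)

theorem cells_cover [NeZero N] (y : Fin N → E d) (ψ : Fin N → ℝ) :
    (⋃ i, cell y ψ i) = Set.univ := by
  apply Set.eq_univ_of_forall
  intro x
  obtain ⟨i, _, hi⟩ := Finset.exists_max_image Finset.univ (fun i => ⟪x, y i⟫_ℝ - ψ i)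
    Finset.univ_nonempty
  exact Set.mem_iUnion.mpr ⟨i, fun j => hi j (Finset.mem_univ j)⟩

end EX

/-- **Package EX**: existence of optimal weights. -/
theorem pkg_EX : St_EX := by
  intro d N _ K hKc _ hKi y m hy hm0 hm
  have hprob := EX.rho_isProb hKc hKi
  obtain ⟨ψ, hmin⟩ := EX.exists_min hKc hKi y m hm0 hm
  refine ⟨ψ, ?_⟩
  -- each cell has mass at most `m i`
  have hle : ∀ i, (ρ K).real (cell y ψ i) ≤ m i := by
    intro i
    have h1 : (ρ K) (EX.Sset y ψ i) ≤ ENNReal.ofReal (m i) := by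
      rw [EX.Sset_eq_iUnion, (EX.Mset_mono y ψ i).measure_iUnion]
      apply iSup_le
      intro n
      have hh : (0 : ℝ) < 1 / ((n : ℝ) + 1) := by positivity
      have := EX.first_order hKc hKi y m ψ hmin i _ hh
      rw [← ENNReal.ofReal_toReal (measure_ne_top (ρ K) _)]
      exact ENNReal.ofReal_le_ofReal this
    have h2 : (ρ K) (cell y ψ i) ≤ ENNReal.ofReal (m i) := by
      calc (ρ K) (cell y ψ i) ≤ (ρ K) (EX.Sset y ψ i ∪ (cell y ψ i \ EX.Sset y ψ i)) :=
            measure_mono (by intro x hx; by_cases h : x ∈ EX.Sset y ψ i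
                             · exact Or.inl h
                             · exact Or.inr ⟨hx, h⟩)
        _ ≤ (ρ K) (EX.Sset y ψ i) + (ρ K) (cell y ψ i \ EX.Sset y ψ i) := measure_union_le _ _
        _ = (ρ K) (EX.Sset y ψ i) := by rw [EX.cell_diff_Sset_null K y hy ψ i, add_zero]
        _ ≤ ENNReal.ofReal (m i) := h1
    exact ENNReal.toReal_le_of_le_ofReal (hm0 i).le h2
  have hsum : (1 : ℝ) ≤ ∑ i, (ρ K).real (cell y ψ i) := by
    have := measureReal_iUnion_fintype_le (μ := ρ K) (fun i => cell y ψ i)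
    rw [EX.cells_cover y ψ, probReal_univ] at this
    exact this
  intro i
  by_contra hne
  have hlt : (ρ K).real (cell y ψ i) < m i := lt_of_le_of_ne (hle i) hne
  have : ∑ i, (ρ K).real (cell y ψ i) < ∑ i, m i :=
    Finset.sum_lt_sum (fun j _ => hle j) ⟨i, Finset.mem_univ i, hlt⟩
  linarith

end Crest.Agent.LibS0109
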