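import Mathlib
import Crest.Agent.Lib_S0109_Defs

/-!
# Row 82 (S0109), package UB: shared definitions for the two halves (helper25).

`gw lam x0` is the Gaussian weight `exp (-(lam/2) ‖x - x0‖²)`, `Gm` the Gaussian mass of a set,
`Emean` the Gaussian mean of a function on a set.  `St_BT` is the statement of the first half
(Prékopa–Leindler with a Lipschitz tilt, summed over the cells); the second half (absorption)
derives `St_UB` from it.  Nothing is proved in this file; it contains no `sorry`.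
-/

set_option autoImplicit false
open MeasureTheory
open scoped ENNReal NNReal InnerProductSpace

namespace Crest.Agent.LibS0109

/-- Gaussian weight `exp (-(lam / 2) * ‖x - x0‖ ^ 2)`. -/
noncomputable def gw {d : ℕ} (lam : ℝ) (x0 : E d) (x : E d) : ℝ :=
  Real.exp (-(lam / 2 * ‖x - x0‖ ^ 2))

/-- Gaussian mass of a set. -/
noncomputable def Gm {d : ℕ} (lam : ℝ) (x0 : E d) (S : Set (E d)) : ℝ :=
  ∫ x in S, gw lam x0 x

/-- Gaussian mean of `ζ` on `S`. -/
noncomputable def Emean {d : ℕ} (lam : ℝ) (x0 : E d) (S : Set (E d)) (ζ : E d → ℝ) : ℝ :=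
  (Gm lam x0 S)⁻¹ * ∫ x in S, ζ x * gw lam x0 x

/-- **BT** (first half of UB): for a.e. partitions `A`, `B` of `K ⊆ closedBall x0 R` and a.e.
disjoint `Cm` with the midpoint property, and tilts `ζ i` that are `L`-Lipschitz on `K`:
the Gaussian masses of the two partitions have the same total, and the weighted squared
differences of the Gaussian means are bounded by the relative entropy. -/
def St_BT : Prop :=
  ∀ (d N : ℕ) (x0 : E d) (R lam L : ℝ) (K : Set (E d)) (A B Cm : Fin N → Set (E d))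
    (ζ : Fin N → E d → ℝ),
    0 < lam → 0 < L → MeasurableSet K → K ⊆ Metric.closedBall x0 R →
    (∀ i, MeasurableSet (A i) ∧ A i ⊆ K) → (∀ i, MeasurableSet (B i) ∧ B i ⊆ K) →
    (∀ i, MeasurableSet (Cm i) ∧ Cm i ⊆ K) →
    (∀ i, ∀ x ∈ A i, ∀ x' ∈ B i, (1 / 2 : ℝ) • (x + x') ∈ Cm i) →
    (∀ i j, i ≠ j → volume (A i ∩ A j) = 0) → volume (K \ ⋃ i, A i) = 0 →
    (∀ i j, i ≠ j → volume (B i ∩ B j) = 0) → volume (K \ ⋃ i, B i) = 0 →
    (∀ i j, i ≠ j → volume (Cm i ∩ Cm j) = 0) →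
    (∀ i, 0 < volume.real (A i)) → (∀ i, 0 < volume.real (B i)) →
    (∀ i, Continuous (ζ i)) →
    (∀ i, ∀ x ∈ K, ∀ x' ∈ K, |ζ i x - ζ i x'| ≤ L * ‖x - x'‖) →
    (∑ i, Gm lam x0 (A i) = ∑ i, Gm lam x0 (B i)) ∧
    lam / (4 * L ^ 2) *
        ∑ i, Gm lam x0 (A i) * (Emean lam x0 (A i) (ζ i) - Emean lam x0 (B i) (ζ i)) ^ 2 ≤
      ∑ i, Gm lam x0 (A i) * Real.log (Gm lam x0 (A i) / Gm lam x0 (B i))

end Crest.Agent.LibS0109
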