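import Mathlib
import Crest.Agent.Lib_S0109_Defs
import Crest.Agent.Lib_S0109_UBDefs_h25

/-!
# Row 82 (S0109), package UB, first half: `pkg_BT : St_PL → St_BT` (helper25).
-/

set_option autoImplicit false
open MeasureTheory
open scoped ENNReal NNReal InnerProductSpace

namespace Crest.Agent.LibS0109

section basic

variable {d : ℕ}

lemma gw_pos (lam : ℝ) (x0 x : E d) : 0 < gw lam x0 x := Real.exp_pos _

lemma gw_le_one {lam : ℝ} (hlam : 0 ≤ lam) (x0 x : E d) : gw lam x0 x ≤ 1 := by
  unfold gw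
  rw [Real.exp_le_one_iff]
  have : 0 ≤ lam / 2 * ‖x - x0‖ ^ 2 := by positivity
  linarith

lemma continuous_gw (lam : ℝ) (x0 : E d) : Continuous (gw lam x0) := by
  unfold gw
  fun_prop

/-- The midpoint identity for the Gaussian weight. -/
lemma gw_mul_gw (lam : ℝ) (x0 x y : E d) :
    gw lam x0 x * gw lam x0 y =
      gw lam x0 ((1 / 2 : ℝ) • (x + y)) ^ 2 * Real.exp (-(lam / 4 * ‖x - y‖ ^ 2)) := by
  unfold gw
  rw [← Real.exp_add, ← Real.exp_nat_mul, ← Real.exp_add]
  congr 1
  have h1 : (1 / 2 : ℝ) • (x + y) - x0 = (1 / 2 : ℝ) • ((x - x0) + (y - x0)) := by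
    rw [smul_add, smul_add, smul_sub, smul_sub]
    have : x0 = (1 / 2 : ℝ) • x0 + (1 / 2 : ℝ) • x0 := by
      rw [← add_smul]; norm_num
    nth_rewrite 1 [this]
    abel
  have h2 : x - y = (x - x0) - (y - x0) := by abel
  rw [h1, h2, norm_smul]
  have hpar := parallelogram_law_with_norm ℝ (x - x0) (y - x0)
  have hn : ‖(1 / 2 : ℝ)‖ = 1 / 2 := by norm_num
  rw [hn]
  push_cast
  linear_combination (lam / 4) * hpar

end basic

section sbm

variable {d : ℕ}

/-- Continuous functions are integrable on bounded sets. -/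
lemma integrableOn_of_cont_bdd {S : Set (E d)} {x0 : E d} {R : ℝ}
    (hSb : S ⊆ Metric.closedBall x0 R) {F : E d → ℝ} (hF : Continuous F) :
    IntegrableOn F S volume :=
  (hF.continuousOn.integrableOn_compact (isCompact_closedBall x0 R)).mono_set hSb

lemma emean_mul_gm {S : Set (E d)} {x0 : E d} {lam : ℝ} (ζ : E d → ℝ)
    (hG : 0 < Gm lam x0 S) :
    ∫ x in S, ζ x * gw lam x0 x = Emean lam x0 S ζ * Gm lam x0 S := by
  unfold Emean
  field_simp

/-- Jensen's inequality for `exp` with respect to the Gaussian weight on `S`, proved with the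
tangent line. -/
lemma jensen_exp {S : Set (E d)} {x0 : E d} {R lam : ℝ} (c : ℝ)
    (hSb : S ⊆ Metric.closedBall x0 R) {ζ : E d → ℝ} (hζ : Continuous ζ)
    (hG : 0 < Gm lam x0 S) :
    Gm lam x0 S * Real.exp (c * Emean lam x0 S ζ) ≤
      ∫ x in S, gw lam x0 x * Real.exp (c * ζ x) := by
  set m := c * Emean lam x0 S ζ with hm
  have hpt : ∀ x, Real.exp m * ((1 - m) * gw lam x0 x + c * (ζ x * gw lam x0 x)) ≤
      gw lam x0 x * Real.exp (c * ζ x) := by
    intro x
    have h1 : (c * ζ x - m) + 1 ≤ Real.exp (c * ζ x - m) := Real.add_one_le_exp _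
    have h2 : Real.exp (c * ζ x) = Real.exp m * Real.exp (c * ζ x - m) := by
      rw [← Real.exp_add]; ring_nf
    rw [h2]
    have h3 := mul_le_mul_of_nonneg_left h1 (mul_pos (Real.exp_pos m) (gw_pos lam x0 x)).le
    nlinarith [h3]
  have hcg := continuous_gw lam x0
  have hint1 : IntegrableOn (fun x => Real.exp m * ((1 - m) * gw lam x0 x +
      c * (ζ x * gw lam x0 x))) S volume :=
    integrableOn_of_cont_bdd hSb (by fun_prop)
  have hint2 : IntegrableOn (fun x => gw lam x0 x * Real.exp (c * ζ x)) S volume :=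
    integrableOn_of_cont_bdd hSb (by fun_prop)
  have hint3 : IntegrableOn (fun x => (1 - m) * gw lam x0 x) S volume :=
    integrableOn_of_cont_bdd hSb (by fun_prop)
  have hint4 : IntegrableOn (fun x => c * (ζ x * gw lam x0 x)) S volume :=
    integrableOn_of_cont_bdd hSb (by fun_prop)
  have hmono := setIntegral_mono hint1 hint2 hpt
  have hcalc : ∫ x in S, Real.exp m * ((1 - m) * gw lam x0 x + c * (ζ x * gw lam x0 x)) =
      Gm lam x0 S * Real.exp m := by
    rw [integral_const_mul, integral_add hint3 hint4, integral_const_mul, integral_const_mul,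
      emean_mul_gm ζ hG]
    simp only [Gm, hm]
    ring
  linarith

/-- **SBM**: Prékopa–Leindler with a Lipschitz tilt for the Gaussian weight. -/
theorem sbm (hPL : St_PL) (x0 : E d) (R lam L : ℝ) (A B Cm : Set (E d)) (ζ : E d → ℝ)
    (hlam : 0 < lam) (hL : 0 < L) (hA : MeasurableSet A) (hB : MeasurableSet B)
    (hC : MeasurableSet Cm) (hAb : A ⊆ Metric.closedBall x0 R)
    (hBb : B ⊆ Metric.closedBall x0 R) (hCb : Cm ⊆ Metric.closedBall x0 R)
    (hmid : ∀ x ∈ A, ∀ x' ∈ B, (1 / 2 : ℝ) • (x + x') ∈ Cm)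
    (hζ : Continuous ζ) (hLip : ∀ x ∈ A, ∀ x' ∈ B, |ζ x - ζ x'| ≤ L * ‖x - x'‖)
    (hGA : 0 < Gm lam x0 A) (hGB : 0 < Gm lam x0 B) :
    Gm lam x0 A * Gm lam x0 B *
        Real.exp (lam / (4 * L ^ 2) * (Emean lam x0 A ζ - Emean lam x0 B ζ) ^ 2) ≤
      Gm lam x0 Cm ^ 2 := by
  set Δ := Emean lam x0 A ζ - Emean lam x0 B ζ with hΔ
  set c := lam * Δ / (2 * L ^ 2) with hc
  set κ := c ^ 2 * L ^ 2 / (2 * lam) with hκ
  have hcg := continuous_gw lam x0
  let f : E d → ℝ≥0∞ :=
    A.indicator (fun x => ENNReal.ofReal (gw lam x0 x * Real.exp (c * ζ x)))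
  let g : E d → ℝ≥0∞ :=
    B.indicator (fun x => ENNReal.ofReal (gw lam x0 x * Real.exp (-c * ζ x)))
  let h : E d → ℝ≥0∞ :=
    Cm.indicator (fun x => ENNReal.ofReal (gw lam x0 x * Real.exp κ))
  have hcf : Continuous (fun x => gw lam x0 x * Real.exp (c * ζ x)) := by fun_prop
  have hcg' : Continuous (fun x => gw lam x0 x * Real.exp (-c * ζ x)) := by fun_prop
  have hch : Continuous (fun x => gw lam x0 x * Real.exp κ) := by fun_prop
  have hf : Measurable f := (hcf.measurable.ennreal_ofReal).indicator hA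
  have hg : Measurable g := (hcg'.measurable.ennreal_ofReal).indicator hB
  have hh : Measurable h := (hch.measurable.ennreal_ofReal).indicator hC
  have hkey : ∀ x y, f x * g y ≤ h ((1 / 2 : ℝ) • (x + y)) ^ 2 := by
    intro x y
    by_cases hx : x ∈ A
    · by_cases hy : y ∈ B
      · have hz := hmid x hx y hy
        simp only [f, g, h, Set.indicator_of_mem hx, Set.indicator_of_mem hy,
          Set.indicator_of_mem hz]
        have hgx := gw_pos lam x0 x
        have hgy := gw_pos lam x0 y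
        have hgz := gw_pos lam x0 ((1 / 2 : ℝ) • (x + y))
        rw [← ENNReal.ofReal_mul (by positivity), ← ENNReal.ofReal_pow (by positivity)]
        apply ENNReal.ofReal_le_ofReal
        set r := ‖x - y‖ with hr
        have hr0 : 0 ≤ r := norm_nonneg _
        have h1 : c * (ζ x - ζ y) ≤ |c| * (L * r) := by
          calc c * (ζ x - ζ y) ≤ |c * (ζ x - ζ y)| := le_abs_self _
            _ = |c| * |ζ x - ζ y| := abs_mul _ _
            _ ≤ |c| * (L * r) := mul_le_mul_of_nonneg_left (hLip x hx y hy) (abs_nonneg c)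
        have h2 : |c| * (L * r) ≤ lam / 4 * r ^ 2 + 2 * κ := by
          have e : lam / 4 * r ^ 2 + 2 * κ - |c| * (L * r) = (lam * r / 2 - |c| * L) ^ 2 / lam := by
            rw [hκ, ← sq_abs c]
            field_simp
            ring
          have : 0 ≤ (lam * r / 2 - |c| * L) ^ 2 / lam := by positivity
          linarith
        have h3 : -(lam / 4 * r ^ 2) + c * ζ x + -c * ζ y ≤ 2 * κ := by nlinarith
        calc gw lam x0 x * Real.exp (c * ζ x) * (gw lam x0 y * Real.exp (-c * ζ y))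
            = (gw lam x0 x * gw lam x0 y) * (Real.exp (c * ζ x) * Real.exp (-c * ζ y)) := by ring
          _ = gw lam x0 ((1 / 2 : ℝ) • (x + y)) ^ 2 *
                Real.exp (-(lam / 4 * r ^ 2) + c * ζ x + -c * ζ y) := by
              rw [gw_mul_gw, Real.exp_add, Real.exp_add]; ring
          _ ≤ gw lam x0 ((1 / 2 : ℝ) • (x + y)) ^ 2 * Real.exp (2 * κ) := by
              apply mul_le_mul_of_nonneg_left (Real.exp_le_exp.mpr h3) (by positivity)
          _ = (gw lam x0 ((1 / 2 : ℝ) • (x + y)) * Real.exp κ) ^ 2 := by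
              rw [mul_pow, ← Real.exp_nat_mul]; norm_num
      · simp [g, Set.indicator_of_notMem hy]
    · simp [f, Set.indicator_of_notMem hx]
  have hpl := hPL d f g h hf hg hh hkey
  have e1 : ∫⁻ x, f x = ENNReal.ofReal (∫ x in A, gw lam x0 x * Real.exp (c * ζ x)) := by
    simp only [f]
    rw [lintegral_indicator hA, ofReal_integral_eq_lintegral_ofReal
      (integrableOn_of_cont_bdd hAb hcf)]
    exact Filter.Eventually.of_forall (fun x => by have := gw_pos lam x0 x; positivity)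
  have e2 : ∫⁻ x, g x = ENNReal.ofReal (∫ x in B, gw lam x0 x * Real.exp (-c * ζ x)) := by
    simp only [g]
    rw [lintegral_indicator hB, ofReal_integral_eq_lintegral_ofReal
      (integrableOn_of_cont_bdd hBb hcg')]
    exact Filter.Eventually.of_forall (fun x => by have := gw_pos lam x0 x; positivity)
  have e3 : ∫⁻ x, h x = ENNReal.ofReal (∫ x in Cm, gw lam x0 x * Real.exp κ) := by
    simp only [h]
    rw [lintegral_indicator hC, ofReal_integral_eq_lintegral_ofReal
      (integrableOn_of_cont_bdd hCb hch)]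
    exact Filter.Eventually.of_forall (fun x => by have := gw_pos lam x0 x; positivity)
  have n1 : 0 ≤ ∫ x in A, gw lam x0 x * Real.exp (c * ζ x) :=
    integral_nonneg (fun x => by have := gw_pos lam x0 x; positivity)
  have n2 : 0 ≤ ∫ x in B, gw lam x0 x * Real.exp (-c * ζ x) :=
    integral_nonneg (fun x => by have := gw_pos lam x0 x; positivity)
  have n3 : 0 ≤ ∫ x in Cm, gw lam x0 x * Real.exp κ :=
    integral_nonneg (fun x => by have := gw_pos lam x0 x; positivity)
  rw [e1, e2, e3, ← ENNReal.ofReal_mul n1, ← ENNReal.ofReal_pow n3,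
    ENNReal.ofReal_le_ofReal_iff (by positivity)] at hpl
  have j1 := jensen_exp c hAb hζ hGA
  have j2 := jensen_exp (-c) hBb hζ hGB
  have e4 : ∫ x in Cm, gw lam x0 x * Real.exp κ = Gm lam x0 Cm * Real.exp κ := by
    rw [integral_mul_const]; rfl
  rw [e4] at hpl
  have hexp : Real.exp (lam / (4 * L ^ 2) * Δ ^ 2) =
      Real.exp (c * Emean lam x0 A ζ) * Real.exp (-c * Emean lam x0 B ζ) *
        Real.exp (-(2 * κ)) := by
    rw [← Real.exp_add, ← Real.exp_add]
    congr 1
    simp only [hc, hκ, hΔ]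
    field_simp
    ring
  have hGC : 0 ≤ Gm lam x0 Cm := integral_nonneg (fun x => (gw_pos lam x0 x).le)
  have j12 : (Gm lam x0 A * Real.exp (c * Emean lam x0 A ζ)) *
      (Gm lam x0 B * Real.exp (-c * Emean lam x0 B ζ)) ≤
      (Gm lam x0 Cm * Real.exp κ) ^ 2 :=
    le_trans (mul_le_mul j1 j2 (by positivity) n1) hpl
  have e5 : (Gm lam x0 Cm * Real.exp κ) ^ 2 * Real.exp (-(2 * κ)) = Gm lam x0 Cm ^ 2 := by
    rw [mul_pow, ← Real.exp_nat_mul, mul_assoc, ← Real.exp_add]
    norm_num
  calc Gm lam x0 A * Gm lam x0 B * Real.exp (lam / (4 * L ^ 2) * Δ ^ 2)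
      = (Gm lam x0 A * Real.exp (c * Emean lam x0 A ζ)) *
        (Gm lam x0 B * Real.exp (-c * Emean lam x0 B ζ)) * Real.exp (-(2 * κ)) := by
        rw [hexp]; ring
    _ ≤ (Gm lam x0 Cm * Real.exp κ) ^ 2 * Real.exp (-(2 * κ)) :=
        mul_le_mul_of_nonneg_right j12 (Real.exp_pos _).le
    _ = Gm lam x0 Cm ^ 2 := e5

end sbm

section bt

variable {d : ℕ}

lemma sum_setIntegral_ae_disjoint {N : ℕ} {K : Set (E d)} {S : Fin N → Set (E d)}
    {F : E d → ℝ} (hS : ∀ i, MeasurableSet (S i) ∧ S i ⊆ K)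
    (hdis : ∀ i j, i ≠ j → volume (S i ∩ S j) = 0) (hF : IntegrableOn F K volume) :
    ∑ i, ∫ x in S i, F x = ∫ x in ⋃ i, S i, F x := by
  rw [integral_iUnion_ae (fun i => (hS i).1.nullMeasurableSet) (fun i j hij => hdis i j hij)
    (hF.mono_set (Set.iUnion_subset fun i => (hS i).2)), tsum_fintype]

lemma setIntegral_iUnion_eq_of_cover {N : ℕ} {K : Set (E d)} {S : Fin N → Set (E d)}
    (F : E d → ℝ) (hS : ∀ i, MeasurableSet (S i) ∧ S i ⊆ K)
    (hcov : volume (K \ ⋃ i, S i) = 0) :
    ∫ x in ⋃ i, S i, F x = ∫ x in K, F x := by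
  apply setIntegral_congr_set
  have hsub : (⋃ i, S i) ⊆ K := Set.iUnion_subset fun i => (hS i).2
  exact ae_eq_set.mpr ⟨by rw [Set.sdiff_eq_empty.mpr hsub]; simp, hcov⟩

/-- The sum of the integrals over an a.e. partition of `K` is the integral over `K`. -/
lemma sum_setIntegral_ae_partition {N : ℕ} {K : Set (E d)} {S : Fin N → Set (E d)}
    {F : E d → ℝ} (hS : ∀ i, MeasurableSet (S i) ∧ S i ⊆ K)
    (hdis : ∀ i j, i ≠ j → volume (S i ∩ S j) = 0) (hcov : volume (K \ ⋃ i, S i) = 0)
    (hF : IntegrableOn F K volume) :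
    ∑ i, ∫ x in S i, F x = ∫ x in K, F x := by
  rw [sum_setIntegral_ae_disjoint hS hdis hF, setIntegral_iUnion_eq_of_cover F hS hcov]

/-- Sets of positive volume inside a ball have positive Gaussian mass. -/
lemma gm_pos {S : Set (E d)} {x0 : E d} {R : ℝ} (lam : ℝ) (hlam : 0 ≤ lam)
    (hS : MeasurableSet S) (hSb : S ⊆ Metric.closedBall x0 R) (hvol : 0 < volume.real S) :
    0 < Gm lam x0 S := by
  have hcg := continuous_gw lam x0
  have h1 : ∫ x in S, Real.exp (-(lam / 2 * R ^ 2)) ≤ ∫ x in S, gw lam x0 x := by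
    apply setIntegral_mono_on (integrableOn_of_cont_bdd hSb continuous_const)
      (integrableOn_of_cont_bdd hSb hcg) hS
    intro x hx
    have hx' : ‖x - x0‖ ≤ R := by
      have := hSb hx
      rwa [Metric.mem_closedBall, dist_eq_norm] at this
    unfold gw
    apply Real.exp_le_exp.mpr
    have : ‖x - x0‖ ^ 2 ≤ R ^ 2 := pow_le_pow_left₀ (norm_nonneg _) hx' 2
    nlinarith
  rw [setIntegral_const] at h1
  have h2 : 0 < volume.real S • Real.exp (-(lam / 2 * R ^ 2)) := by
    rw [smul_eq_mul]; positivity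
  exact lt_of_lt_of_le h2 h1

theorem pkg_BT (hPL : St_PL) : St_BT := by
  intro d N x0 R lam L K A B Cm ζ hlam hL hK hKb hA hB hC hmid hAd hAc hBd hBc hCd hAp hBp
    hζ hLip
  have hcg := continuous_gw lam x0
  have hgK : IntegrableOn (gw lam x0) K volume := integrableOn_of_cont_bdd hKb hcg
  have hsumA : ∑ i, Gm lam x0 (A i) = Gm lam x0 K := by
    unfold Gm
    exact sum_setIntegral_ae_partition hA hAd hAc hgK
  have hsumB : ∑ i, Gm lam x0 (B i) = Gm lam x0 K := by
    unfold Gm
    exact sum_setIntegral_ae_partition hB hBd hBc hgK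
  have hsumC : ∑ i, Gm lam x0 (Cm i) ≤ Gm lam x0 K := by
    unfold Gm
    rw [sum_setIntegral_ae_disjoint hC hCd hgK]
    exact setIntegral_mono_set hgK (Filter.Eventually.of_forall fun x => (gw_pos lam x0 x).le)
      (LE.le.eventuallyLE (Set.iUnion_subset fun i => (hC i).2))
  refine ⟨by rw [hsumA, hsumB], ?_⟩
  have hcell : ∀ i, lam / (4 * L ^ 2) * (Gm lam x0 (A i) *
      (Emean lam x0 (A i) (ζ i) - Emean lam x0 (B i) (ζ i)) ^ 2) ≤
      2 * (Gm lam x0 (Cm i) - Gm lam x0 (A i)) +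
        Gm lam x0 (A i) * Real.log (Gm lam x0 (A i) / Gm lam x0 (B i)) := by
    intro i
    have hp : 0 < Gm lam x0 (A i) :=
      gm_pos lam hlam.le (hA i).1 ((hA i).2.trans hKb) (hAp i)
    have hp' : 0 < Gm lam x0 (B i) :=
      gm_pos lam hlam.le (hB i).1 ((hB i).2.trans hKb) (hBp i)
    have hs := sbm hPL x0 R lam L (A i) (B i) (Cm i) (ζ i) hlam hL (hA i).1 (hB i).1 (hC i).1
      ((hA i).2.trans hKb) ((hB i).2.trans hKb) ((hC i).2.trans hKb) (hmid i) (hζ i)
      (fun x hx x' hx' => hLip i x ((hA i).2 hx) x' ((hB i).2 hx')) hp hp'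
    set p := Gm lam x0 (A i) with hpdef
    set p' := Gm lam x0 (B i) with hp'def
    set c := Gm lam x0 (Cm i) with hcdef
    set Δ := Emean lam x0 (A i) (ζ i) - Emean lam x0 (B i) (ζ i) with hΔ
    have hc0 : 0 ≤ c := integral_nonneg (fun x => (gw_pos lam x0 x).le)
    have hc : 0 < c := by
      rcases hc0.lt_or_eq with h | h
      · exact h
      · exfalso
        rw [← h] at hs
        have : 0 < p * p' * Real.exp (lam / (4 * L ^ 2) * Δ ^ 2) := by positivity
        nlinarith
    have hlog : Real.log p + Real.log p' + lam / (4 * L ^ 2) * Δ ^ 2 ≤ 2 * Real.log c := by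
      have h1 := Real.log_le_log (by positivity) hs
      rw [Real.log_mul (by positivity) (by positivity), Real.log_mul hp.ne' hp'.ne',
        Real.log_exp, Real.log_pow] at h1
      push_cast at h1
      linarith
    have h1 : Real.log (c / p) ≤ c / p - 1 := Real.log_le_sub_one_of_pos (by positivity)
    rw [Real.log_div hc.ne' hp.ne'] at h1
    rw [Real.log_div hp.ne' hp'.ne']
    have h2 : p * (lam / (4 * L ^ 2) * Δ ^ 2) ≤
        p * (2 * (c / p - 1) + (Real.log p - Real.log p')) :=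
      mul_le_mul_of_nonneg_left (by linarith) hp.le
    have h3 : p * (2 * (c / p - 1) + (Real.log p - Real.log p')) =
        2 * (c - p) + p * (Real.log p - Real.log p') := by
      field_simp
    linarith
  calc lam / (4 * L ^ 2) *
        ∑ i, Gm lam x0 (A i) * (Emean lam x0 (A i) (ζ i) - Emean lam x0 (B i) (ζ i)) ^ 2
      = ∑ i, lam / (4 * L ^ 2) * (Gm lam x0 (A i) *
          (Emean lam x0 (A i) (ζ i) - Emean lam x0 (B i) (ζ i)) ^ 2) := Finset.mul_sum _ _ _
    _ ≤ ∑ i, (2 * (Gm lam x0 (Cm i) - Gm lam x0 (A i)) +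
          Gm lam x0 (A i) * Real.log (Gm lam x0 (A i) / Gm lam x0 (B i))) :=
        Finset.sum_le_sum (fun i _ => hcell i)
    _ = 2 * (∑ i, Gm lam x0 (Cm i) - ∑ i, Gm lam x0 (A i)) +
          ∑ i, Gm lam x0 (A i) * Real.log (Gm lam x0 (A i) / Gm lam x0 (B i)) := by
        rw [Finset.sum_add_distrib, ← Finset.mul_sum, Finset.sum_sub_distrib]
    _ ≤ ∑ i, Gm lam x0 (A i) * Real.log (Gm lam x0 (A i) / Gm lam x0 (B i)) := by
        linarith

end bt

end Crest.Agent.LibS0109
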