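import Mathlib
import Crest.Agent.Lib_S0109_Defs
import Crest.Agent.Lib_S0109_UBDefs_h25
import Crest.Agent.Lib_S0109_UBBT_h25

/-!
# Row 82 (S0109), package UB, second half (absorption): `pkg_UB_of_BT : St_BT → St_UB` (helper25).
-/

set_option autoImplicit false
open MeasureTheory
open scoped ENNReal NNReal InnerProductSpace

namespace Crest.Agent.LibS0109.UBAbs

open Crest.Agent.LibS0109

section analytic

variable {d : ℕ}

/-- The inverse Gaussian weight `exp ((lam / 2) * ‖x - x0‖ ^ 2)`. -/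
noncomputable def z0 (lam : ℝ) (x0 : E d) (x : E d) : ℝ :=
  Real.exp (lam / 2 * ‖x - x0‖ ^ 2)

lemma z0_mul_gw (lam : ℝ) (x0 x : E d) : z0 lam x0 x * gw lam x0 x = 1 := by
  unfold z0 gw
  rw [← Real.exp_add]
  simp

lemma continuous_z0 (lam : ℝ) (x0 : E d) : Continuous (z0 lam x0) := by
  unfold z0
  fun_prop

lemma z0_pos (lam : ℝ) (x0 x : E d) : 0 < z0 lam x0 x := Real.exp_pos _

lemma one_le_z0 {lam : ℝ} (hlam : 0 ≤ lam) (x0 x : E d) : 1 ≤ z0 lam x0 x := by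
  unfold z0
  rw [Real.one_le_exp_iff]
  positivity

lemma norm_sub_le_of_mem {x0 x : E d} {R : ℝ} (hx : x ∈ Metric.closedBall x0 R) :
    ‖x - x0‖ ≤ R := by
  rwa [Metric.mem_closedBall, dist_eq_norm] at hx

lemma z0_le {lam : ℝ} (hlam : 0 ≤ lam) {x0 x : E d} {R : ℝ}
    (hx : x ∈ Metric.closedBall x0 R) : z0 lam x0 x ≤ Real.exp (lam / 2 * R ^ 2) := by
  unfold z0
  apply Real.exp_le_exp.mpr
  have h1 := norm_sub_le_of_mem hx
  have : ‖x - x0‖ ^ 2 ≤ R ^ 2 := pow_le_pow_left₀ (norm_nonneg _) h1 2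
  nlinarith

/-- `|exp a - exp b| ≤ exp M * |a - b|` when `a, b ≤ M`. -/
lemma abs_exp_sub_exp_le {a b M : ℝ} (ha : a ≤ M) (hb : b ≤ M) :
    |Real.exp a - Real.exp b| ≤ Real.exp M * |a - b| := by
  wlog hab : b ≤ a generalizing a b
  · have := this hb ha (le_of_not_ge hab)
    rwa [abs_sub_comm, abs_sub_comm a b]
  have h1 : Real.exp b ≤ Real.exp a := Real.exp_le_exp.mpr hab
  rw [abs_of_nonneg (by linarith), abs_of_nonneg (by linarith)]
  have h2 : (b - a) + 1 ≤ Real.exp (b - a) := Real.add_one_le_exp _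
  have h3 : Real.exp b = Real.exp a * Real.exp (b - a) := by
    rw [← Real.exp_add]; ring_nf
  have h4 : Real.exp a ≤ Real.exp M := Real.exp_le_exp.mpr ha
  have h5 : Real.exp a - Real.exp b ≤ Real.exp a * (a - b) := by
    rw [h3]
    nlinarith [mul_le_mul_of_nonneg_left h2 (Real.exp_pos a).le]
  have h6 : Real.exp a * (a - b) ≤ Real.exp M * (a - b) :=
    mul_le_mul_of_nonneg_right h4 (by linarith)
  linarith

/-- Lipschitz bound for `z0` on the ball. -/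
lemma z0_lip {lam : ℝ} (hlam : 0 ≤ lam) {x0 x x' : E d} {R : ℝ}
    (hx : x ∈ Metric.closedBall x0 R) (hx' : x' ∈ Metric.closedBall x0 R) :
    |z0 lam x0 x - z0 lam x0 x'| ≤ lam * R * Real.exp (lam / 2 * R ^ 2) * ‖x - x'‖ := by
  have h1 := norm_sub_le_of_mem hx
  have h1' := norm_sub_le_of_mem hx'
  have hR : 0 ≤ R := le_trans (norm_nonneg _) h1
  have hsq : ‖x - x0‖ ^ 2 ≤ R ^ 2 := pow_le_pow_left₀ (norm_nonneg _) h1 2
  have hsq' : ‖x' - x0‖ ^ 2 ≤ R ^ 2 := pow_le_pow_left₀ (norm_nonneg _) h1' 2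
  have h2 := abs_exp_sub_exp_le (a := lam / 2 * ‖x - x0‖ ^ 2) (b := lam / 2 * ‖x' - x0‖ ^ 2)
    (M := lam / 2 * R ^ 2) (by nlinarith) (by nlinarith)
  have h3 : |‖x - x0‖ - ‖x' - x0‖| ≤ ‖x - x'‖ := by
    have := abs_norm_sub_norm_le (x - x0) (x' - x0)
    simpa using this
  have h4 : |lam / 2 * ‖x - x0‖ ^ 2 - lam / 2 * ‖x' - x0‖ ^ 2| ≤ lam * R * ‖x - x'‖ := by
    have e : lam / 2 * ‖x - x0‖ ^ 2 - lam / 2 * ‖x' - x0‖ ^ 2 =
        lam / 2 * ((‖x - x0‖ + ‖x' - x0‖) * (‖x - x0‖ - ‖x' - x0‖)) := by ring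
    rw [e, abs_mul, abs_mul, abs_of_nonneg (by positivity : (0:ℝ) ≤ lam / 2),
      abs_of_nonneg (by positivity : (0:ℝ) ≤ ‖x - x0‖ + ‖x' - x0‖)]
    have h5 : (‖x - x0‖ + ‖x' - x0‖) * |‖x - x0‖ - ‖x' - x0‖| ≤ (2 * R) * ‖x - x'‖ :=
      mul_le_mul (by linarith) h3 (abs_nonneg _) (by linarith)
    nlinarith [mul_le_mul_of_nonneg_left h5 (by positivity : (0:ℝ) ≤ lam / 2)]
  unfold z0
  calc |Real.exp (lam / 2 * ‖x - x0‖ ^ 2) - Real.exp (lam / 2 * ‖x' - x0‖ ^ 2)|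
      ≤ Real.exp (lam / 2 * R ^ 2) * |lam / 2 * ‖x - x0‖ ^ 2 - lam / 2 * ‖x' - x0‖ ^ 2| := h2
    _ ≤ Real.exp (lam / 2 * R ^ 2) * (lam * R * ‖x - x'‖) :=
        mul_le_mul_of_nonneg_left h4 (Real.exp_pos _).le
    _ = lam * R * Real.exp (lam / 2 * R ^ 2) * ‖x - x'‖ := by ring

/-- Lipschitz bound for `x ↦ ⟪e, x - x0⟫ * z0 x` on the ball. -/
lemma z1_lip {lam : ℝ} (hlam : 0 ≤ lam) {x0 x x' e : E d} {R : ℝ} (he : ‖e‖ ≤ 1)
    (hx : x ∈ Metric.closedBall x0 R) (hx' : x' ∈ Metric.closedBall x0 R) :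
    |⟪e, x - x0⟫_ℝ * z0 lam x0 x - ⟪e, x' - x0⟫_ℝ * z0 lam x0 x'| ≤
      Real.exp (lam / 2 * R ^ 2) * (1 + lam * R ^ 2) * ‖x - x'‖ := by
  have h1 := norm_sub_le_of_mem hx
  have h1' := norm_sub_le_of_mem hx'
  have hR : 0 ≤ R := le_trans (norm_nonneg _) h1
  have e1 : ⟪e, x - x0⟫_ℝ * z0 lam x0 x - ⟪e, x' - x0⟫_ℝ * z0 lam x0 x' =
      ⟪e, x - x'⟫_ℝ * z0 lam x0 x + ⟪e, x' - x0⟫_ℝ * (z0 lam x0 x - z0 lam x0 x') := by
    have : x - x0 = (x - x') + (x' - x0) := by abel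
    rw [this, inner_add_right]
    ring
  rw [e1]
  have h2 : |⟪e, x - x'⟫_ℝ| ≤ ‖x - x'‖ := by
    have := abs_real_inner_le_norm e (x - x')
    have h3 : ‖e‖ * ‖x - x'‖ ≤ 1 * ‖x - x'‖ := mul_le_mul_of_nonneg_right he (norm_nonneg _)
    linarith
  have h3 : |⟪e, x' - x0⟫_ℝ| ≤ R := by
    have := abs_real_inner_le_norm e (x' - x0)
    have h4 : ‖e‖ * ‖x' - x0‖ ≤ 1 * R := mul_le_mul he h1' (norm_nonneg _) (by norm_num)
    linarith
  have h4 := z0_lip hlam hx hx'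
  have h5 := z0_le hlam hx
  have h6 := z0_pos lam x0 x
  have hβ := Real.exp_pos (lam / 2 * R ^ 2)
  calc |⟪e, x - x'⟫_ℝ * z0 lam x0 x + ⟪e, x' - x0⟫_ℝ * (z0 lam x0 x - z0 lam x0 x')|
      ≤ |⟪e, x - x'⟫_ℝ * z0 lam x0 x| + |⟪e, x' - x0⟫_ℝ * (z0 lam x0 x - z0 lam x0 x')| :=
        abs_add_le _ _
    _ = |⟪e, x - x'⟫_ℝ| * z0 lam x0 x + |⟪e, x' - x0⟫_ℝ| * |z0 lam x0 x - z0 lam x0 x'| := by
        rw [abs_mul, abs_mul, abs_of_pos h6]
    _ ≤ ‖x - x'‖ * Real.exp (lam / 2 * R ^ 2) +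
          R * (lam * R * Real.exp (lam / 2 * R ^ 2) * ‖x - x'‖) := by
        apply add_le_add
        · exact mul_le_mul h2 h5 h6.le (norm_nonneg _)
        · exact mul_le_mul h3 h4 (abs_nonneg _) hR
    _ = Real.exp (lam / 2 * R ^ 2) * (1 + lam * R ^ 2) * ‖x - x'‖ := by ring

end analytic

section integrals

variable {d : ℕ}

lemma integrableOn_vec {S : Set (E d)} {x0 : E d} {R : ℝ}
    (hSb : S ⊆ Metric.closedBall x0 R) {F : E d → E d} (hF : Continuous F) :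
    IntegrableOn F S volume :=
  (hF.continuousOn.integrableOn_compact (isCompact_closedBall x0 R)).mono_set hSb

lemma vol_lt_top {S : Set (E d)} {x0 : E d} {R : ℝ} (hSb : S ⊆ Metric.closedBall x0 R) :
    volume S < ⊤ :=
  (measure_mono hSb).trans_lt measure_closedBall_lt_top

/-- `∫_S z0 * gw = vol S`. -/
lemma integral_z0_gw (lam : ℝ) (x0 : E d) (S : Set (E d)) :
    ∫ x in S, z0 lam x0 x * gw lam x0 x = volume.real S := by
  simp only [z0_mul_gw]
  rw [setIntegral_const]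
  simp

/-- `Gm S ≤ vol S ≤ β * Gm S`. -/
lemma gm_le_vol {lam : ℝ} (hlam : 0 ≤ lam) {x0 : E d} {R : ℝ} {S : Set (E d)}
    (hS : MeasurableSet S) (hSb : S ⊆ Metric.closedBall x0 R) :
    Gm lam x0 S ≤ volume.real S := by
  have h1 : ∫ x in S, gw lam x0 x ≤ ∫ x in S, (1 : ℝ) :=
    setIntegral_mono_on (integrableOn_of_cont_bdd hSb (continuous_gw lam x0))
      (integrableOn_of_cont_bdd hSb continuous_const) hS (fun x _ => gw_le_one hlam x0 x)
  rw [setIntegral_const] at h1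
  simpa [Gm] using h1

lemma vol_le_gm {lam : ℝ} (hlam : 0 ≤ lam) {x0 : E d} {R : ℝ} {S : Set (E d)}
    (hS : MeasurableSet S) (hSb : S ⊆ Metric.closedBall x0 R) :
    volume.real S ≤ Real.exp (lam / 2 * R ^ 2) * Gm lam x0 S := by
  have hcz := continuous_z0 lam x0
  have hcg := continuous_gw lam x0
  have h1 : ∫ x in S, z0 lam x0 x * gw lam x0 x ≤
      ∫ x in S, Real.exp (lam / 2 * R ^ 2) * gw lam x0 x :=
    setIntegral_mono_on (integrableOn_of_cont_bdd hSb (by fun_prop))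
      (integrableOn_of_cont_bdd hSb (by fun_prop)) hS
      (fun x hx => mul_le_mul_of_nonneg_right (z0_le hlam (hSb hx)) (gw_pos lam x0 x).le)
  rw [integral_z0_gw, integral_const_mul] at h1
  exact h1

/-- `Emean S z0 = vol S / Gm S`. -/
lemma emean_z0 (lam : ℝ) (x0 : E d) (S : Set (E d)) :
    Emean lam x0 S (z0 lam x0) = volume.real S / Gm lam x0 S := by
  unfold Emean
  rw [integral_z0_gw]
  ring

/-- `Emean S (⟪e, · - x0⟫ z0) = ⟪e, vbary S - x0⟫ * (vol S / Gm S)`. -/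
lemma emean_z1 (lam : ℝ) {x0 : E d} {R : ℝ} {S : Set (E d)}
    (hSb : S ⊆ Metric.closedBall x0 R) (hvol : 0 < volume.real S) (e : E d) :
    Emean lam x0 S (fun x => ⟪e, x - x0⟫_ℝ * z0 lam x0 x) =
      ⟪e, vbary S - x0⟫_ℝ * (volume.real S / Gm lam x0 S) := by
  unfold Emean
  have h1 : ∀ x, ⟪e, x - x0⟫_ℝ * z0 lam x0 x * gw lam x0 x = ⟪e, x - x0⟫_ℝ := by
    intro x
    rw [mul_assoc, z0_mul_gw, mul_one]
  simp only [h1]
  have hint : IntegrableOn (fun x : E d => x - x0) S volume :=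
    integrableOn_vec hSb (by fun_prop)
  have hintx : IntegrableOn (fun x : E d => x) S volume :=
    integrableOn_vec hSb (by fun_prop)
  have h2 : ∫ x in S, ⟪e, x - x0⟫_ℝ = ⟪e, ∫ x in S, (x - x0)⟫_ℝ :=
    integral_inner hint e
  have h3 : ∫ x in S, (x - x0) = volume.real S • (vbary S - x0) := by
    rw [integral_sub hintx (integrableOn_vec hSb continuous_const), setIntegral_const]
    unfold vbary
    rw [smul_sub, smul_smul, mul_inv_cancel₀ hvol.ne', one_smul]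
  rw [h2, h3, inner_smul_right]
  ring

/-- The barycentre of a subset of a ball lies in the ball. -/
lemma norm_vbary_sub_le {x0 : E d} {R : ℝ} {S : Set (E d)}
    (hSb : S ⊆ Metric.closedBall x0 R) (hvol : 0 < volume.real S) :
    ‖vbary S - x0‖ ≤ R := by
  have hintx : IntegrableOn (fun x : E d => x) S volume :=
    integrableOn_vec hSb (by fun_prop)
  have h3 : ∫ x in S, (x - x0) = volume.real S • (vbary S - x0) := by
    rw [integral_sub hintx (integrableOn_vec hSb continuous_const), setIntegral_const]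
    unfold vbary
    rw [smul_sub, smul_smul, mul_inv_cancel₀ hvol.ne', one_smul]
  have h4 : ‖∫ x in S, (x - x0)‖ ≤ R * volume.real S :=
    norm_setIntegral_le_of_norm_le_const (vol_lt_top hSb)
      (fun x hx => norm_sub_le_of_mem (hSb hx))
  rw [h3, norm_smul, Real.norm_of_nonneg hvol.le] at h4
  have h5 : volume.real S * ‖vbary S - x0‖ ≤ volume.real S * R := by linarith
  exact le_of_mul_le_mul_left h5 hvol

end integrals

section core

/-- `log` is 1-Lipschitz on `[1, ∞)`. -/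
lemma abs_log_sub_log_le {s t : ℝ} (hs : 1 ≤ s) (ht : 1 ≤ t) :
    |Real.log s - Real.log t| ≤ |s - t| := by
  wlog hst : t ≤ s generalizing s t
  · have := this ht hs (le_of_not_ge hst)
    rwa [abs_sub_comm, abs_sub_comm s t]
  have hs0 : 0 < s := by linarith
  have ht0 : 0 < t := by linarith
  have h1 : Real.log t ≤ Real.log s := Real.log_le_log ht0 hst
  rw [abs_of_nonneg (by linarith), abs_of_nonneg (by linarith)]
  have h2 : Real.log (s / t) ≤ s / t - 1 := Real.log_le_sub_one_of_pos (by positivity)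
  rw [Real.log_div hs0.ne' ht0.ne'] at h2
  have h3 : s / t - 1 ≤ s - t := by
    rw [div_sub_one ht0.ne', div_le_iff₀ ht0]
    nlinarith
  linarith

/-- `exp u - 1 - u ≤ (3/2) u²` for `|u| ≤ 2`. -/
lemma exp_sub_le_sq {u : ℝ} (hu : |u| ≤ 2) : Real.exp u - 1 - u ≤ 3 / 2 * u ^ 2 := by
  have hv : |u / 2| ≤ 1 := by
    rw [abs_div, abs_of_pos (by norm_num : (0:ℝ) < 2)]
    linarith
  have h1 := Real.abs_exp_sub_one_sub_id_le hv
  set v := u / 2 with hvdef
  set r := Real.exp v - 1 - v with hr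
  have hu2 : u = 2 * v := by rw [hvdef]; ring
  have h2 : Real.exp u = (1 + v + r) ^ 2 := by
    rw [hu2, hr]
    have : (1 + v + (Real.exp v - 1 - v)) = Real.exp v := by ring
    rw [this, ← Real.exp_nat_mul]
    norm_num
  have hv2 : v ^ 2 ≤ 1 := by
    have := abs_le.mp hv
    nlinarith
  have hr1 := abs_le.mp h1
  have hvv := abs_le.mp hv
  have h3 : r * (1 + v) ≤ v ^ 2 * 2 := by
    have : r * (1 + v) ≤ v ^ 2 * (1 + v) := mul_le_mul_of_nonneg_right hr1.2 (by linarith)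
    nlinarith [sq_nonneg v]
  have h4 : r ^ 2 ≤ v ^ 2 := by
    have : r ^ 2 ≤ (v ^ 2) ^ 2 := by
      rw [← sq_abs r]
      exact pow_le_pow_left₀ (abs_nonneg _) h1 2
    nlinarith [sq_nonneg v]
  rw [h2, hu2]
  nlinarith

/-- Scalar absorption step. -/
lemma core1 {N : ℕ} (p p' a b EA EB : Fin N → ℝ) (β c0 : ℝ)
    (hp : ∀ i, 0 < p i) (hp' : ∀ i, 0 < p' i)
    (ha : ∀ i, a i = p i * EA i) (hb : ∀ i, b i = p' i * EB i)
    (hEA : ∀ i, 1 ≤ EA i ∧ EA i ≤ β) (hEB : ∀ i, 1 ≤ EB i ∧ EB i ≤ β)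
    (hβ : Real.log β ≤ 1) (hℓ : ∀ i, |Real.log (b i / a i)| ≤ 1)
    (hsum : ∑ i, p i = ∑ i, p' i) (hc0 : 4 ≤ c0)
    (hBT : c0 * ∑ i, p i * (EA i - EB i) ^ 2 ≤ ∑ i, p i * Real.log (p i / p' i)) :
    ∑ i, p i * (EA i - EB i) ^ 2 ≤ 3 * ∑ i, p i * (Real.log (b i / a i)) ^ 2 ∧
      ∑ i, p i * Real.log (p i / p' i) ≤ 12 * ∑ i, p i * (Real.log (b i / a i)) ^ 2 := by
  have hcell : ∀ i, p i * Real.log (p i / p' i) ≤
      3 * (p i * (Real.log (b i / a i)) ^ 2) + 3 * (p i * (EA i - EB i) ^ 2) - (p' i - p i) := by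
    intro i
    have hpi := hp i
    have hpi' := hp' i
    obtain ⟨hA1, hA2⟩ := hEA i
    obtain ⟨hB1, hB2⟩ := hEB i
    have hA0 : 0 < EA i := by linarith
    have hB0 : 0 < EB i := by linarith
    set u := Real.log (p' i / p i) with hu
    have hlog : Real.log (b i / a i) = u + (Real.log (EB i) - Real.log (EA i)) := by
      rw [ha i, hb i, hu, Real.log_div (by positivity) (by positivity),
        Real.log_mul hpi'.ne' hB0.ne', Real.log_mul hpi.ne' hA0.ne',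
        Real.log_div hpi'.ne' hpi.ne']
      ring
    have hδ1 : |Real.log (EB i) - Real.log (EA i)| ≤ |EA i - EB i| := by
      rw [abs_sub_comm (EA i)]
      exact abs_log_sub_log_le hB1 hA1
    have hδ2 : |Real.log (EB i) - Real.log (EA i)| ≤ 1 := by
      have h1 : 0 ≤ Real.log (EB i) := Real.log_nonneg hB1
      have h2 : 0 ≤ Real.log (EA i) := Real.log_nonneg hA1
      have h3 : Real.log (EB i) ≤ Real.log β := Real.log_le_log hB0 hB2
      have h4 : Real.log (EA i) ≤ Real.log β := Real.log_le_log hA0 hA2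
      rw [abs_le]
      constructor <;> linarith
    set δ := Real.log (EB i) - Real.log (EA i) with hδ
    have hu2 : |u| ≤ 2 := by
      have h1 := hℓ i
      rw [hlog] at h1
      have h2 : |u| ≤ |u + δ| + |δ| := by
        have := abs_sub (u + δ) δ
        simpa using this
      linarith
    have hexp := exp_sub_le_sq hu2
    have hexpu : Real.exp u = p' i / p i := by
      rw [hu, Real.exp_log (by positivity)]
    have hlogneg : Real.log (p i / p' i) = -u := by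
      rw [hu, Real.log_div hpi.ne' hpi'.ne', Real.log_div hpi'.ne' hpi.ne']
      ring
    have husq : u ^ 2 ≤ 2 * (Real.log (b i / a i)) ^ 2 + 2 * (EA i - EB i) ^ 2 := by
      have h1 : u = Real.log (b i / a i) - δ := by rw [hlog]; ring
      have h2 : δ ^ 2 ≤ (EA i - EB i) ^ 2 := by
        rw [← sq_abs δ, ← sq_abs (EA i - EB i)]
        exact pow_le_pow_left₀ (abs_nonneg _) hδ1 2
      rw [h1]
      nlinarith [sq_nonneg (Real.log (b i / a i) + δ)]
    rw [hlogneg]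
    have h5 : p i * Real.exp u = p' i := by
      rw [hexpu]; field_simp
    have h6 : p i * (Real.exp u - 1 - u) ≤ p i * (3 / 2 * u ^ 2) :=
      mul_le_mul_of_nonneg_left hexp hpi.le
    have h7 : p i * (3 / 2 * u ^ 2) ≤
        p i * (3 / 2 * (2 * (Real.log (b i / a i)) ^ 2 + 2 * (EA i - EB i) ^ 2)) :=
      mul_le_mul_of_nonneg_left (by linarith) hpi.le
    nlinarith
  have hKL : ∑ i, p i * Real.log (p i / p' i) ≤
      3 * ∑ i, p i * (Real.log (b i / a i)) ^ 2 + 3 * ∑ i, p i * (EA i - EB i) ^ 2 := by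
    calc ∑ i, p i * Real.log (p i / p' i)
        ≤ ∑ i, (3 * (p i * (Real.log (b i / a i)) ^ 2) + 3 * (p i * (EA i - EB i) ^ 2) -
            (p' i - p i)) := Finset.sum_le_sum (fun i _ => hcell i)
      _ = 3 * ∑ i, p i * (Real.log (b i / a i)) ^ 2 + 3 * ∑ i, p i * (EA i - EB i) ^ 2 -
            (∑ i, p' i - ∑ i, p i) := by
          rw [Finset.sum_sub_distrib, Finset.sum_add_distrib, ← Finset.mul_sum, ← Finset.mul_sum,
            Finset.sum_sub_distrib]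
      _ = 3 * ∑ i, p i * (Real.log (b i / a i)) ^ 2 + 3 * ∑ i, p i * (EA i - EB i) ^ 2 := by
          rw [hsum]; ring
  have hD0nn : 0 ≤ ∑ i, p i * (EA i - EB i) ^ 2 :=
    Finset.sum_nonneg (fun i _ => mul_nonneg (hp i).le (sq_nonneg _))
  have hD0 : ∑ i, p i * (EA i - EB i) ^ 2 ≤ 3 * ∑ i, p i * (Real.log (b i / a i)) ^ 2 := by
    nlinarith
  exact ⟨hD0, by linarith⟩

/-- Vector step: from the tilted means back to the barycentres. -/
lemma core2 {d N : ℕ} (p a EA EB ℓ : Fin N → ℝ) (vA vB : Fin N → E d) (β R c1 KL : ℝ)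
    (hp : ∀ i, 0 < p i) (ha : ∀ i, a i = p i * EA i)
    (hEA : ∀ i, 1 ≤ EA i ∧ EA i ≤ β) (hEB : ∀ i, 1 ≤ EB i) (hβ0 : 0 ≤ β)
    (hvA : ∀ i, ‖vA i‖ ≤ R) (hc1 : 0 < c1)
    (hD0 : ∑ i, p i * (EA i - EB i) ^ 2 ≤ 3 * ∑ i, p i * ℓ i ^ 2)
    (hKL : KL ≤ 12 * ∑ i, p i * ℓ i ^ 2)
    (hBT : c1 * ∑ i, p i * ‖EA i • vA i - EB i • vB i‖ ^ 2 ≤ KL) :
    ∑ i, a i * ‖vB i - vA i‖ ^ 2 ≤ β * (24 / c1 + 6 * R ^ 2) * ∑ i, a i * ℓ i ^ 2 := by
  have hcell : ∀ i, a i * ‖vB i - vA i‖ ^ 2 ≤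
      β * (2 * (p i * ‖EA i • vA i - EB i • vB i‖ ^ 2) +
        2 * R ^ 2 * (p i * (EA i - EB i) ^ 2)) := by
    intro i
    obtain ⟨hA1, hA2⟩ := hEA i
    have hB1 := hEB i
    have hB0 : 0 < EB i := by linarith
    have hpi := hp i
    have hR : 0 ≤ R := le_trans (norm_nonneg _) (hvA i)
    set w := EA i • vA i - EB i • vB i with hw
    have e1 : vB i - vA i = (-(EB i)⁻¹) • w + ((EA i - EB i) / EB i) • vA i := by
      rw [hw, smul_sub, smul_smul, smul_smul, ← sub_eq_zero]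
      have h1 : -(EB i)⁻¹ * EB i = -1 := by field_simp
      have h2 : -(EB i)⁻¹ * EA i + (EA i - EB i) / EB i = -1 := by field_simp; ring
      rw [h1]
      have : vB i - vA i - ((-(EB i)⁻¹ * EA i) • vA i - (-1 : ℝ) • vB i +
          ((EA i - EB i) / EB i) • vA i) =
          -(1 : ℝ) • vA i - (-(EB i)⁻¹ * EA i + (EA i - EB i) / EB i) • vA i := by
        rw [add_smul]
        simp only [neg_smul, one_smul]
        abel
      rw [this, h2]
      simp
    have h1 : ‖vB i - vA i‖ ≤ ‖w‖ + |EA i - EB i| * R := by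
      rw [e1]
      calc ‖(-(EB i)⁻¹) • w + ((EA i - EB i) / EB i) • vA i‖
          ≤ ‖(-(EB i)⁻¹) • w‖ + ‖((EA i - EB i) / EB i) • vA i‖ := norm_add_le _ _
        _ = (EB i)⁻¹ * ‖w‖ + |EA i - EB i| / EB i * ‖vA i‖ := by
            rw [norm_smul, norm_smul, Real.norm_eq_abs, Real.norm_eq_abs, abs_neg,
              abs_of_pos (inv_pos.mpr hB0), abs_div, abs_of_pos hB0]
        _ ≤ 1 * ‖w‖ + |EA i - EB i| * R := by
            apply add_le_add
            · exact mul_le_mul_of_nonneg_right (inv_le_one_of_one_le₀ hB1) (norm_nonneg _)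
            · apply mul_le_mul _ (hvA i) (norm_nonneg _) (abs_nonneg _)
              exact div_le_self (abs_nonneg _) hB1
        _ = ‖w‖ + |EA i - EB i| * R := by ring
    have h2 : ‖vB i - vA i‖ ^ 2 ≤ 2 * ‖w‖ ^ 2 + 2 * R ^ 2 * (EA i - EB i) ^ 2 := by
      have h3 : ‖vB i - vA i‖ ^ 2 ≤ (‖w‖ + |EA i - EB i| * R) ^ 2 :=
        pow_le_pow_left₀ (norm_nonneg _) h1 2
      have h4 : (|EA i - EB i| * R) ^ 2 = R ^ 2 * (EA i - EB i) ^ 2 := by
        rw [mul_pow, sq_abs]; ring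
      nlinarith [sq_nonneg (‖w‖ - |EA i - EB i| * R)]
    have h5 : a i ≤ β * p i := by
      rw [ha i]; nlinarith
    have h6 : 0 ≤ 2 * ‖w‖ ^ 2 + 2 * R ^ 2 * (EA i - EB i) ^ 2 := by positivity
    calc a i * ‖vB i - vA i‖ ^ 2
        ≤ (β * p i) * (2 * ‖w‖ ^ 2 + 2 * R ^ 2 * (EA i - EB i) ^ 2) :=
          mul_le_mul h5 h2 (by positivity) (by nlinarith)
      _ = β * (2 * (p i * ‖w‖ ^ 2) + 2 * R ^ 2 * (p i * (EA i - EB i) ^ 2)) := by ring
  have hS1 : ∑ i, a i * ‖vB i - vA i‖ ^ 2 ≤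
      β * (2 * ∑ i, p i * ‖EA i • vA i - EB i • vB i‖ ^ 2 +
        2 * R ^ 2 * ∑ i, p i * (EA i - EB i) ^ 2) := by
    calc ∑ i, a i * ‖vB i - vA i‖ ^ 2
        ≤ ∑ i, β * (2 * (p i * ‖EA i • vA i - EB i • vB i‖ ^ 2) +
            2 * R ^ 2 * (p i * (EA i - EB i) ^ 2)) := Finset.sum_le_sum (fun i _ => hcell i)
      _ = β * (2 * ∑ i, p i * ‖EA i • vA i - EB i • vB i‖ ^ 2 +
            2 * R ^ 2 * ∑ i, p i * (EA i - EB i) ^ 2) := by
          rw [← Finset.mul_sum, Finset.sum_add_distrib, ← Finset.mul_sum, ← Finset.mul_sum]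
  have hW : ∑ i, p i * ‖EA i • vA i - EB i • vB i‖ ^ 2 ≤ 12 / c1 * ∑ i, p i * ℓ i ^ 2 := by
    have h1 : c1 * ∑ i, p i * ‖EA i • vA i - EB i • vB i‖ ^ 2 ≤ 12 * ∑ i, p i * ℓ i ^ 2 :=
      le_trans hBT hKL
    rw [div_mul_eq_mul_div, le_div_iff₀ hc1]
    linarith
  have hpl : ∑ i, p i * ℓ i ^ 2 ≤ ∑ i, a i * ℓ i ^ 2 := by
    apply Finset.sum_le_sum
    intro i _
    apply mul_le_mul_of_nonneg_right _ (sq_nonneg _)
    rw [ha i]
    nlinarith [(hEA i).1, hp i]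
  have hplnn : 0 ≤ ∑ i, p i * ℓ i ^ 2 :=
    Finset.sum_nonneg (fun i _ => mul_nonneg (hp i).le (sq_nonneg _))
  have hcoef : 0 ≤ 24 / c1 + 6 * R ^ 2 := by positivity
  calc ∑ i, a i * ‖vB i - vA i‖ ^ 2
      ≤ β * (2 * ∑ i, p i * ‖EA i • vA i - EB i • vB i‖ ^ 2 +
          2 * R ^ 2 * ∑ i, p i * (EA i - EB i) ^ 2) := hS1
    _ ≤ β * (2 * (12 / c1 * ∑ i, p i * ℓ i ^ 2) +
          2 * R ^ 2 * (3 * ∑ i, p i * ℓ i ^ 2)) := by
        apply mul_le_mul_of_nonneg_left _ hβ0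
        apply add_le_add
        · linarith
        · exact mul_le_mul_of_nonneg_left hD0 (by positivity)
    _ = β * (24 / c1 + 6 * R ^ 2) * ∑ i, p i * ℓ i ^ 2 := by ring
    _ ≤ β * (24 / c1 + 6 * R ^ 2) * ∑ i, a i * ℓ i ^ 2 :=
        mul_le_mul_of_nonneg_left hpl (mul_nonneg hβ0 hcoef)

end core

end Crest.Agent.LibS0109.UBAbs

namespace Crest.Agent.LibS0109

open UBAbs in
/-- **ABS** (second half of UB): the uniform barycentre bound from `St_BT`. -/
theorem pkg_UB_of_BT (hBT : St_BT) : St_UB := by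
  refine ⟨Real.exp (1 / 96) * (96 * Real.exp (1 / 96) ^ 2 * (1 + 1 / 48) ^ 2 / (1 / 48) + 6),
    by positivity, ?_⟩
  intro d N x0 R K A B Cm hR hK hKb hA hB hC hmid hAd hAc hBd hBc hCd hAp hBp hℓ
  set lam : ℝ := (1 / 48) / R ^ 2 with hlam
  have hlam0 : 0 < lam := by positivity
  have hlamR : lam * R ^ 2 = 1 / 48 := by rw [hlam]; field_simp
  have hβeq : lam / 2 * R ^ 2 = 1 / 96 := by linarith [hlamR]
  set β := Real.exp (1 / 96) with hβ
  have hβ1 : 1 ≤ β := Real.one_le_exp (by norm_num)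
  have hβ0 : 0 < β := by linarith
  have hβsq : β ^ 2 ≤ 3 := by
    rw [hβ, ← Real.exp_nat_mul]
    have h1 : Real.exp ((2 : ℕ) * (1 / 96 : ℝ)) ≤ Real.exp 1 :=
      Real.exp_le_exp.mpr (by norm_num)
    have h2 := Real.exp_one_lt_d9
    linarith
  have hlogβ : Real.log β ≤ 1 := by rw [hβ, Real.log_exp]; norm_num
  have hAb : ∀ i, A i ⊆ Metric.closedBall x0 R := fun i => (hA i).2.trans hKb
  have hBb : ∀ i, B i ⊆ Metric.closedBall x0 R := fun i => (hB i).2.trans hKb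
  set p : Fin N → ℝ := fun i => Gm lam x0 (A i) with hp
  set p' : Fin N → ℝ := fun i => Gm lam x0 (B i) with hp'
  set a : Fin N → ℝ := fun i => volume.real (A i) with ha
  set b : Fin N → ℝ := fun i => volume.real (B i) with hb
  have hppos : ∀ i, 0 < p i := fun i => gm_pos lam hlam0.le (hA i).1 (hAb i) (hAp i)
  have hp'pos : ∀ i, 0 < p' i := fun i => gm_pos lam hlam0.le (hB i).1 (hBb i) (hBp i)
  set EA : Fin N → ℝ := fun i => a i / p i with hEAdef
  set EB : Fin N → ℝ := fun i => b i / p' i with hEBdef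
  have haE : ∀ i, a i = p i * EA i := fun i => by
    have := (hppos i).ne'
    simp only [hEAdef]; field_simp
  have hbE : ∀ i, b i = p' i * EB i := fun i => by
    have := (hp'pos i).ne'
    simp only [hEBdef]; field_simp
  have hEA : ∀ i, 1 ≤ EA i ∧ EA i ≤ β := by
    intro i
    have h1 := gm_le_vol hlam0.le (hA i).1 (hAb i)
    have h2 := vol_le_gm hlam0.le (hA i).1 (hAb i)
    rw [hβeq] at h2
    constructor
    · rw [le_div_iff₀ (hppos i)]; simpa using h1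
    · rw [div_le_iff₀ (hppos i)]; exact h2
  have hEB : ∀ i, 1 ≤ EB i ∧ EB i ≤ β := by
    intro i
    have h1 := gm_le_vol hlam0.le (hB i).1 (hBb i)
    have h2 := vol_le_gm hlam0.le (hB i).1 (hBb i)
    rw [hβeq] at h2
    constructor
    · rw [le_div_iff₀ (hp'pos i)]; simpa using h1
    · rw [div_le_iff₀ (hp'pos i)]; exact h2
  -- first application of BT: the tilt `z0`
  have hL0 : 0 < lam * R * β := by positivity
  obtain ⟨hsum, hbt1⟩ := hBT d N x0 R lam (lam * R * β) K A B Cm (fun _ => z0 lam x0) hlam0 hL0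
    hK hKb hA hB hC hmid hAd hAc hBd hBc hCd hAp hBp (fun _ => continuous_z0 lam x0)
    (fun i x hx x' hx' => by
      have := z0_lip hlam0.le (hKb hx) (hKb hx')
      rwa [hβeq] at this)
  simp only [emean_z0] at hbt1
  have hc0 : 4 ≤ lam / (4 * (lam * R * β) ^ 2) := by
    have e : lam / (4 * (lam * R * β) ^ 2) = 12 / β ^ 2 := by
      have h1 : (lam * R * β) ^ 2 = lam * (lam * R ^ 2) * β ^ 2 := by ring
      rw [h1, hlamR]
      field_simp
      ring
    rw [e, le_div_iff₀ (by positivity)]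
    linarith
  obtain ⟨hD0, hKL⟩ := core1 p p' a b EA EB β _ hppos hp'pos haE hbE hEA hEB hlogβ hℓ hsum hc0
    hbt1
  -- second application of BT: the tilts `⟪e i, x - x0⟫ * z0 x`
  set vA : Fin N → E d := fun i => vbary (A i) - x0 with hvAdef
  set vB : Fin N → E d := fun i => vbary (B i) - x0 with hvBdef
  set w : Fin N → E d := fun i => EA i • vA i - EB i • vB i with hwdef
  set e : Fin N → E d := fun i => (‖w i‖)⁻¹ • w i with hedef
  have he : ∀ i, ‖e i‖ ≤ 1 := by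
    intro i
    simp only [hedef]
    rw [norm_smul, norm_inv, norm_norm]
    exact inv_mul_le_one
  have hew : ∀ i, ⟪e i, w i⟫_ℝ = ‖w i‖ := by
    intro i
    simp only [hedef]
    rw [real_inner_smul_left, real_inner_self_eq_norm_sq]
    by_cases h : ‖w i‖ = 0
    · rw [h]; simp
    · field_simp
  have hL1 : 0 < β * (1 + lam * R ^ 2) := by positivity
  have hcz := continuous_z0 lam x0
  obtain ⟨-, hbt2⟩ := hBT d N x0 R lam (β * (1 + lam * R ^ 2)) K A B Cm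
    (fun i x => ⟪e i, x - x0⟫_ℝ * z0 lam x0 x) hlam0 hL1
    hK hKb hA hB hC hmid hAd hAc hBd hBc hCd hAp hBp (fun i => by fun_prop)
    (fun i x hx x' hx' => by
      have := z1_lip hlam0.le (he i) (hKb hx) (hKb hx')
      rwa [hβeq] at this)
  have hdiff : ∀ i, (Emean lam x0 (A i) (fun x => ⟪e i, x - x0⟫_ℝ * z0 lam x0 x) -
      Emean lam x0 (B i) (fun x => ⟪e i, x - x0⟫_ℝ * z0 lam x0 x)) ^ 2 =
      ‖EA i • vA i - EB i • vB i‖ ^ 2 := by
    intro i
    rw [emean_z1 lam (hAb i) (hAp i), emean_z1 lam (hBb i) (hBp i)]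
    have h1 : ⟪e i, vbary (A i) - x0⟫_ℝ * (volume.real (A i) / Gm lam x0 (A i)) -
        ⟪e i, vbary (B i) - x0⟫_ℝ * (volume.real (B i) / Gm lam x0 (B i)) = ⟪e i, w i⟫_ℝ := by
      simp only [hwdef, hvAdef, hvBdef, hEAdef, hEBdef, ha, hb, hp, hp', inner_sub_right,
        real_inner_smul_right]
      ring
    rw [h1, hew]
  simp only [hdiff] at hbt2
  have hc1 : 0 < lam / (4 * (β * (1 + lam * R ^ 2)) ^ 2) := by positivity
  have hvA : ∀ i, ‖vA i‖ ≤ R := fun i => norm_vbary_sub_le (hAb i) (hAp i)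
  have hfin := core2 p a EA EB (fun i => Real.log (b i / a i)) vA vB β R _ _ hppos haE hEA
    (fun i => (hEB i).1) hβ0.le hvA hc1 hD0 hKL hbt2
  have e1 : ∀ i, vB i - vA i = vbary (B i) - vbary (A i) := fun i => by
    simp only [hvAdef, hvBdef]; abel
  simp only [e1] at hfin
  have e2 : β * (24 / (lam / (4 * (β * (1 + lam * R ^ 2)) ^ 2)) + 6 * R ^ 2) =
      (β * (96 * β ^ 2 * (1 + 1 / 48) ^ 2 / (1 / 48) + 6)) * R ^ 2 := by
    rw [hlamR, hlam]
    field_simp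
    ring
  rw [e2] at hfin
  exact hfin

end Crest.Agent.LibS0109
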