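import Mathlib
import Crest.Agent.Lib_S0109_Defs
import Crest.Agent.Lib_S0109_UBDefs_h25
import Crest.Agent.Lib_S0109_UBBT_h25
import Crest.Agent.Lib_S0109_UBAbs_h25

/-!
# Row 82 (S0109), package UB: `pkg_UB : St_PL → St_UB` (helper25).

The uniform barycentre bound, from Prékopa–Leindler: `pkg_BT` (Gaussian weight, Lipschitz tilt,
summed over the cells) followed by `pkg_UB_of_BT` (absorption).
-/

set_option autoImplicit false

namespace Crest.Agent.LibS0109

/-- **UB**: the uniform barycentre bound follows from Prékopa–Leindler. -/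
theorem pkg_UB (hPL : St_PL) : St_UB := pkg_UB_of_BT (pkg_BT hPL)

end Crest.Agent.LibS0109
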