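import Crest.Agent.Lib_S0109_PL_h15
import Crest.Agent.Lib_S0109_UB
import Crest.Agent.Lib_S0109_EX
import Crest.Agent.Lib_S0109_CONT
import Crest.Agent.Lib_S0109_DualBary_h15
import Crest.Agent.Lib_S0109_DualSqueeze_h17
import Crest.Agent.Lib_S0109_DUAL

/-!
# Row 82, package DUAL, closed form (helper13): `pkg_DUAL : St_DUAL`.

Assembles `pkg_DUAL_of` (Lib_S0109_DUAL) with EX (helper3), CONT (helper12), PL (helper15),
UB (helper25), D2 (helper15) and D5 (helper17).
-/

set_option autoImplicit false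

namespace Crest.Agent.LibS0109

/-- **DUAL**: the potentials are `W₂`-Lipschitz in `L²(ρ K)` modulo constants. -/
theorem pkg_DUAL : St_DUAL :=
  pkg_DUAL_of pkg_EX pkg_CONT (pkg_D2 (pkg_UB pkg_PL)) pkg_D5

end Crest.Agent.LibS0109
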