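import Mathlib

/-!
# Row 82 (S0109), package DUAL: the abstract core of steps (D3)+(D4)  (helper26)

No Laguerre objects and no measure theory here: `V t s`, `b t s i`, `Ψ t s i` stand for the optimal
value, the mass-weighted barycentres `∫_{cell i} x dρ` and the optimal weights at positions
`y + t (z - y)` and masses `m (1 + s g)`.  From the position subgradient inequality, the two mass
supergradient inequalities, the uniform barycentre bound and continuity of the optimal weights in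
the masses we get the `ℓ²(m)`-Lipschitz bound for the optimal weights along the path.
-/

set_option autoImplicit false
open scoped InnerProductSpace

namespace Crest.Agent.LibS0109.DualCore

variable {N : ℕ} {F : Type*} [NormedAddCommGroup F] [InnerProductSpace ℝ F]

/-- Weighted Cauchy–Schwarz. -/
lemma wcs (m a c : Fin N → ℝ) (hm : ∀ i, 0 ≤ m i) :
    ∑ i, m i * a i * c i ≤ Real.sqrt (∑ i, m i * a i ^ 2) * Real.sqrt (∑ i, m i * c i ^ 2) := by
  have h := Real.sum_mul_le_sqrt_mul_sqrt Finset.univ (fun i => Real.sqrt (m i) * a i)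
    (fun i => Real.sqrt (m i) * c i)
  have e1 : ∀ i, Real.sqrt (m i) * a i * (Real.sqrt (m i) * c i) = m i * a i * c i := by
    intro i
    have := Real.mul_self_sqrt (hm i)
    calc Real.sqrt (m i) * a i * (Real.sqrt (m i) * c i)
        = (Real.sqrt (m i) * Real.sqrt (m i)) * a i * c i := by ring
      _ = m i * a i * c i := by rw [this]
  have e2 : ∀ (a : Fin N → ℝ) (i : Fin N), (Real.sqrt (m i) * a i) ^ 2 = m i * a i ^ 2 := by
    intro a i
    rw [mul_pow, Real.sq_sqrt (hm i)]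
  simpa only [e1, e2] using h

/-- The part of `b t s i - b t 0 i` coming from the change of the mass. -/
lemma norm_sub_smul_le (v : F) (RK mi q : ℝ) (hmi : 0 < mi) (hRK : 0 ≤ RK)
    (hv : ‖v‖ ≤ RK * (mi * q)) : ‖v - (mi * (mi * q)⁻¹) • v‖ ≤ RK * mi * |q - 1| := by
  rcases le_or_gt q 0 with hq | hq
  · have h0 : ‖v‖ ≤ 0 := hv.trans (mul_nonpos_of_nonneg_of_nonpos hRK
      (mul_nonpos_of_nonneg_of_nonpos hmi.le hq))
    have hv0 : v = 0 := norm_le_zero_iff.mp h0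
    subst hv0
    simp only [smul_zero, sub_zero, norm_zero]
    positivity
  · have e : mi * (mi * q)⁻¹ = q⁻¹ := by
      field_simp
    rw [e]
    have e2 : v - q⁻¹ • v = (1 - q⁻¹) • v := by rw [sub_smul, one_smul]
    rw [e2, norm_smul, Real.norm_eq_abs]
    have e3 : |1 - q⁻¹| = |q - 1| / q := by
      have : 1 - q⁻¹ = (q - 1) / q := by field_simp
      rw [this, abs_div, abs_of_pos hq]
    rw [e3]
    calc |q - 1| / q * ‖v‖ ≤ |q - 1| / q * (RK * (mi * q)) :=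
          mul_le_mul_of_nonneg_left hv (by positivity)
      _ = RK * mi * |q - 1| := by field_simp

/-- **Abstract core of (D3)+(D4).** -/
theorem dual_core (y z : Fin N → F) (m g : Fin N → ℝ) (RK CU δ : ℝ)
    (hm : ∀ i, 0 < m i) (hRK : 0 ≤ RK) (hCU : 0 ≤ CU) (hδ : 0 < δ)
    (V : ℝ → ℝ → ℝ) (b : ℝ → ℝ → Fin N → F) (Ψ : ℝ → ℝ → Fin N → ℝ)
    (hPos : ∀ s, 0 ≤ s → s < δ → ∀ t t', 0 ≤ t → t ≤ 1 → 0 ≤ t' → t' ≤ 1 →
      V t s + (t' - t) * ∑ i, ⟪b t s i, z i - y i⟫_ℝ ≤ V t' s)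
    (hMass0 : ∀ s, 0 ≤ s → s < δ → V 0 0 ≤ V 0 s - s * ∑ i, m i * g i * Ψ 0 s i)
    (hMass1 : ∀ s, 0 ≤ s → s < δ → V 1 s ≤ V 1 0 + s * ∑ i, m i * g i * Ψ 1 0 i)
    (hUB : ∀ s, 0 ≤ s → s < δ → ∀ t, 0 ≤ t → t ≤ 1 →
      ∑ i, m i * ‖(m i * (1 + s * g i))⁻¹ • b t s i - (m i)⁻¹ • b t 0 i‖ ^ 2
        ≤ CU ^ 2 * s ^ 2 * ∑ i, m i * g i ^ 2)
    (hBdd : ∀ s, 0 ≤ s → s < δ → ∀ t, 0 ≤ t → t ≤ 1 → ∀ i,
      ‖b t s i‖ ≤ RK * (m i * (1 + s * g i)))
    (hCont : Filter.Tendsto (fun s => ∑ i, m i * g i * Ψ 0 s i) (nhdsWithin 0 (Set.Ioi 0))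
      (nhds (∑ i, m i * g i * Ψ 0 0 i))) :
    ∑ i, m i * g i * (Ψ 0 0 i - Ψ 1 0 i) ≤
      (CU + RK) * Real.sqrt (∑ i, m i * g i ^ 2) * Real.sqrt (∑ i, m i * ‖z i - y i‖ ^ 2) := by
  classical
  set w : Fin N → F := fun i => z i - y i with hw
  set P : ℝ → ℝ → ℝ := fun t s => ∑ i, ⟪b t s i, w i⟫_ℝ with hP
  set G : ℝ := Real.sqrt (∑ i, m i * g i ^ 2) with hG
  set Wn : ℝ := Real.sqrt (∑ i, m i * ‖w i‖ ^ 2) with hWn
  set W1 : ℝ := ∑ i, m i * ‖w i‖ with hW1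
  have hG0 : 0 ≤ G := Real.sqrt_nonneg _
  have hWn0 : 0 ≤ Wn := Real.sqrt_nonneg _
  have hGsq : G ^ 2 = ∑ i, m i * g i ^ 2 :=
    Real.sq_sqrt (Finset.sum_nonneg fun i _ => mul_nonneg (hm i).le (sq_nonneg _))
  have hW10 : 0 ≤ W1 := Finset.sum_nonneg fun i _ => mul_nonneg (hm i).le (norm_nonneg _)
  -- bound on `P t 0`
  have hP0 : ∀ t, 0 ≤ t → t ≤ 1 → |P t 0| ≤ RK * W1 := by
    intro t ht0 ht1
    calc |P t 0| ≤ ∑ i, |⟪b t 0 i, w i⟫_ℝ| := Finset.abs_sum_le_sum_abs _ _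
      _ ≤ ∑ i, RK * (m i * ‖w i‖) := by
          refine Finset.sum_le_sum fun i _ => ?_
          have h1 := abs_real_inner_le_norm (b t 0 i) (w i)
          have h2 := hBdd 0 le_rfl hδ t ht0 ht1 i
          have h3 : ‖b t 0 i‖ ≤ RK * m i := by simpa using h2
          calc |⟪b t 0 i, w i⟫_ℝ| ≤ ‖b t 0 i‖ * ‖w i‖ := h1
            _ ≤ RK * m i * ‖w i‖ := mul_le_mul_of_nonneg_right h3 (norm_nonneg _)
            _ = RK * (m i * ‖w i‖) := by ring
      _ = RK * W1 := by rw [hW1, Finset.mul_sum]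
  -- bound on `P t s - P t 0`
  have hPd : ∀ s, 0 ≤ s → s < δ → ∀ t, 0 ≤ t → t ≤ 1 →
      |P t s - P t 0| ≤ (CU + RK) * s * G * Wn := by
    intro s hs0 hsδ t ht0 ht1
    set Δ : Fin N → F := fun i => (m i * (1 + s * g i))⁻¹ • b t s i - (m i)⁻¹ • b t 0 i with hΔ
    have hterm : ∀ i, |⟪b t s i - b t 0 i, w i⟫_ℝ| ≤
        m i * ‖Δ i‖ * ‖w i‖ + RK * s * (m i * |g i| * ‖w i‖) := by
      intro i
      have hmi := hm i
      have hdec : b t s i - b t 0 i = m i • Δ i +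
          (b t s i - (m i * (m i * (1 + s * g i))⁻¹) • b t s i) := by
        rw [hΔ]
        simp only [smul_sub, smul_smul]
        rw [mul_inv_cancel₀ hmi.ne', one_smul]
        abel
      have hn2 := norm_sub_smul_le (b t s i) RK (m i) (1 + s * g i) hmi hRK
        (hBdd s hs0 hsδ t ht0 ht1 i)
      have hq : |1 + s * g i - 1| = s * |g i| := by
        rw [add_sub_cancel_left, abs_mul, abs_of_nonneg hs0]
      rw [hq] at hn2
      have hn : ‖b t s i - b t 0 i‖ ≤ m i * ‖Δ i‖ + RK * m i * (s * |g i|) := by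
        rw [hdec]
        refine (norm_add_le _ _).trans ?_
        rw [norm_smul, Real.norm_eq_abs, abs_of_pos hmi]
        exact add_le_add le_rfl hn2
      calc |⟪b t s i - b t 0 i, w i⟫_ℝ| ≤ ‖b t s i - b t 0 i‖ * ‖w i‖ :=
            abs_real_inner_le_norm _ _
        _ ≤ (m i * ‖Δ i‖ + RK * m i * (s * |g i|)) * ‖w i‖ :=
            mul_le_mul_of_nonneg_right hn (norm_nonneg _)
        _ = m i * ‖Δ i‖ * ‖w i‖ + RK * s * (m i * |g i| * ‖w i‖) := by ring
    have hsum1 : ∑ i, m i * ‖Δ i‖ * ‖w i‖ ≤ CU * s * G * Wn := by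
      have h1 := wcs m (fun i => ‖Δ i‖) (fun i => ‖w i‖) (fun i => (hm i).le)
      have h2 : Real.sqrt (∑ i, m i * ‖Δ i‖ ^ 2) ≤ CU * s * G := by
        apply Real.sqrt_le_iff.mpr
        refine ⟨by positivity, ?_⟩
        have := hUB s hs0 hsδ t ht0 ht1
        calc ∑ i, m i * ‖Δ i‖ ^ 2 ≤ CU ^ 2 * s ^ 2 * ∑ i, m i * g i ^ 2 := this
          _ = (CU * s * G) ^ 2 := by rw [← hGsq]; ring
      calc ∑ i, m i * ‖Δ i‖ * ‖w i‖
          ≤ Real.sqrt (∑ i, m i * ‖Δ i‖ ^ 2) * Real.sqrt (∑ i, m i * ‖w i‖ ^ 2) := h1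
        _ ≤ CU * s * G * Wn := mul_le_mul_of_nonneg_right h2 hWn0
    have hsum2 : ∑ i, m i * |g i| * ‖w i‖ ≤ G * Wn := by
      have h1 := wcs m (fun i => |g i|) (fun i => ‖w i‖) (fun i => (hm i).le)
      simpa only [sq_abs] using h1
    have hsub : P t s - P t 0 = ∑ i, ⟪b t s i - b t 0 i, w i⟫_ℝ := by
      rw [hP]
      simp only [inner_sub_left, Finset.sum_sub_distrib]
    calc |P t s - P t 0| = |∑ i, ⟪b t s i - b t 0 i, w i⟫_ℝ| := by rw [hsub]
      _ ≤ ∑ i, |⟪b t s i - b t 0 i, w i⟫_ℝ| := Finset.abs_sum_le_sum_abs _ _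
      _ ≤ ∑ i, (m i * ‖Δ i‖ * ‖w i‖ + RK * s * (m i * |g i| * ‖w i‖)) :=
          Finset.sum_le_sum fun i _ => hterm i
      _ = ∑ i, m i * ‖Δ i‖ * ‖w i‖ + RK * s * ∑ i, m i * |g i| * ‖w i‖ := by
          rw [Finset.sum_add_distrib, Finset.mul_sum]
      _ ≤ CU * s * G * Wn + RK * s * (G * Wn) :=
          add_le_add hsum1 (mul_le_mul_of_nonneg_left hsum2 (by positivity))
      _ = (CU + RK) * s * G * Wn := by ring
  -- the mixed second difference is bounded below, for every mesh `1/n`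
  have hD : ∀ s, 0 ≤ s → s < δ → ∀ n : ℕ, 0 < n →
      -((CU + RK) * s * G * Wn) - 2 * (RK * W1) / n ≤ (V 1 s - V 0 s) - (V 1 0 - V 0 0) := by
    intro s hs0 hsδ n hn
    have hnR : (0 : ℝ) < n := by exact_mod_cast hn
    have hk0 : ∀ k : ℕ, (0 : ℝ) ≤ (k : ℝ) / n := fun k => by positivity
    have hk1 : ∀ k : ℕ, k ≤ n → (k : ℝ) / n ≤ 1 := by
      intro k hk
      rw [div_le_one hnR]
      exact_mod_cast hk
    have hstep : ∀ k : ℕ, ((k + 1 : ℕ) : ℝ) / n - (k : ℝ) / n = 1 / n := by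
      intro k
      push_cast
      ring
    -- lower bound at mass `s`
    have hlow : ∑ k ∈ Finset.range n, (1 / (n : ℝ)) * P ((k : ℝ) / n) s ≤ V 1 s - V 0 s := by
      have htel := Finset.sum_range_sub (fun k : ℕ => V ((k : ℝ) / n) s) n
      simp only [Nat.cast_zero, zero_div] at htel
      rw [div_self hnR.ne'] at htel
      rw [← htel]
      refine Finset.sum_le_sum fun k hk => ?_
      have hkn : k + 1 ≤ n := Finset.mem_range.mp hk
      have h := hPos s hs0 hsδ ((k : ℝ) / n) (((k + 1 : ℕ) : ℝ) / n) (hk0 k)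
        (hk1 k (by omega)) (hk0 (k + 1)) (hk1 (k + 1) hkn)
      rw [hstep k] at h
      linarith
    -- upper bound at mass `0`
    have hupp : V 1 0 - V 0 0 ≤
        ∑ k ∈ Finset.range n, (1 / (n : ℝ)) * P (((k + 1 : ℕ) : ℝ) / n) 0 := by
      have htel := Finset.sum_range_sub (fun k : ℕ => V ((k : ℝ) / n) 0) n
      simp only [Nat.cast_zero, zero_div] at htel
      rw [div_self hnR.ne'] at htel
      rw [← htel]
      refine Finset.sum_le_sum fun k hk => ?_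
      have hkn : k + 1 ≤ n := Finset.mem_range.mp hk
      have h := hPos 0 le_rfl hδ (((k + 1 : ℕ) : ℝ) / n) ((k : ℝ) / n) (hk0 (k + 1))
        (hk1 (k + 1) hkn) (hk0 k) (hk1 k (by omega))
      have e : (k : ℝ) / n - ((k + 1 : ℕ) : ℝ) / n = -(1 / n) := by
        rw [← hstep k]; ring
      rw [e] at h
      linarith
    -- telescoping of the endpoint mismatch
    have htel2 : ∑ k ∈ Finset.range n, (P (((k + 1 : ℕ) : ℝ) / n) 0 - P ((k : ℝ) / n) 0)
        = P 1 0 - P 0 0 := by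
      have htel := Finset.sum_range_sub (fun k : ℕ => P ((k : ℝ) / n) 0) n
      simp only [Nat.cast_zero, zero_div] at htel
      rw [div_self hnR.ne'] at htel
      exact htel
    have hsplit : ∑ k ∈ Finset.range n, (1 / (n : ℝ)) * P ((k : ℝ) / n) s
        - ∑ k ∈ Finset.range n, (1 / (n : ℝ)) * P (((k + 1 : ℕ) : ℝ) / n) 0
        = (1 / (n : ℝ)) * ∑ k ∈ Finset.range n, (P ((k : ℝ) / n) s - P ((k : ℝ) / n) 0)
          - (1 / (n : ℝ)) * (P 1 0 - P 0 0) := by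
      rw [← htel2, ← Finset.mul_sum, ← Finset.mul_sum, ← mul_sub, ← mul_sub,
        ← Finset.sum_sub_distrib, ← Finset.sum_sub_distrib]
      congr 1
      refine Finset.sum_congr rfl fun k _ => ?_
      ring
    have hA : -((CU + RK) * s * G * Wn) ≤
        (1 / (n : ℝ)) * ∑ k ∈ Finset.range n, (P ((k : ℝ) / n) s - P ((k : ℝ) / n) 0) := by
      have h1 : ∑ k ∈ Finset.range n, (-((CU + RK) * s * G * Wn)) ≤
          ∑ k ∈ Finset.range n, (P ((k : ℝ) / n) s - P ((k : ℝ) / n) 0) := by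
        refine Finset.sum_le_sum fun k hk => ?_
        have hkn : k < n := Finset.mem_range.mp hk
        have := hPd s hs0 hsδ ((k : ℝ) / n) (hk0 k) (hk1 k hkn.le)
        exact (abs_le.mp this).1
      rw [Finset.sum_const, Finset.card_range, nsmul_eq_mul] at h1
      have h2 := mul_le_mul_of_nonneg_left h1 (by positivity : (0 : ℝ) ≤ 1 / (n : ℝ))
      have e : (1 / (n : ℝ)) * ((n : ℝ) * -((CU + RK) * s * G * Wn))
          = -((CU + RK) * s * G * Wn) := by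
        field_simp
      rw [e] at h2
      exact h2
    have hB : (1 / (n : ℝ)) * (P 1 0 - P 0 0) ≤ 2 * (RK * W1) / n := by
      have h1 := hP0 1 zero_le_one le_rfl
      have h0 := hP0 0 le_rfl zero_le_one
      have : P 1 0 - P 0 0 ≤ 2 * (RK * W1) := by
        have := (abs_le.mp h1).2
        have := (abs_le.mp h0).1
        linarith
      calc (1 / (n : ℝ)) * (P 1 0 - P 0 0) ≤ (1 / (n : ℝ)) * (2 * (RK * W1)) :=
            mul_le_mul_of_nonneg_left this (by positivity)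
        _ = 2 * (RK * W1) / n := by ring
    linarith
  -- let the mesh go to zero
  have hD' : ∀ s, 0 ≤ s → s < δ →
      -((CU + RK) * s * G * Wn) ≤ (V 1 s - V 0 s) - (V 1 0 - V 0 0) := by
    intro s hs0 hsδ
    have hlim : Filter.Tendsto (fun n : ℕ => -((CU + RK) * s * G * Wn) - 2 * (RK * W1) / n)
        Filter.atTop (nhds (-((CU + RK) * s * G * Wn) - 0)) :=
      tendsto_const_nhds.sub (tendsto_const_div_atTop_nhds_zero_nat _)
    rw [sub_zero] at hlim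
    refine le_of_tendsto hlim ?_
    filter_upwards [Filter.eventually_gt_atTop 0] with n hn
    exact hD s hs0 hsδ n hn
  -- divide by `s > 0`
  have hs : ∀ s, 0 < s → s < δ →
      ∑ i, m i * g i * Ψ 0 s i - ∑ i, m i * g i * Ψ 1 0 i ≤ (CU + RK) * G * Wn := by
    intro s hs0 hsδ
    have h1 := hD' s hs0.le hsδ
    have h2 := hMass0 s hs0.le hsδ
    have h3 := hMass1 s hs0.le hsδ
    have h4 : s * (∑ i, m i * g i * Ψ 0 s i - ∑ i, m i * g i * Ψ 1 0 i)
        ≤ s * ((CU + RK) * G * Wn) := by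
      nlinarith
    exact le_of_mul_le_mul_left h4 hs0
  -- let `s → 0+`
  have hlim : Filter.Tendsto
      (fun s => ∑ i, m i * g i * Ψ 0 s i - ∑ i, m i * g i * Ψ 1 0 i)
      (nhdsWithin 0 (Set.Ioi 0))
      (nhds (∑ i, m i * g i * Ψ 0 0 i - ∑ i, m i * g i * Ψ 1 0 i)) :=
    hCont.sub tendsto_const_nhds
  have hfin : ∑ i, m i * g i * Ψ 0 0 i - ∑ i, m i * g i * Ψ 1 0 i ≤ (CU + RK) * G * Wn := by
    refine le_of_tendsto hlim ?_
    filter_upwards [Ioo_mem_nhdsGT hδ] with s hs'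
    exact hs s hs'.1 hs'.2
  calc ∑ i, m i * g i * (Ψ 0 0 i - Ψ 1 0 i)
      = ∑ i, m i * g i * Ψ 0 0 i - ∑ i, m i * g i * Ψ 1 0 i := by
        rw [← Finset.sum_sub_distrib]
        exact Finset.sum_congr rfl fun i _ => by ring
    _ ≤ (CU + RK) * G * Wn := hfin

omit [InnerProductSpace ℝ F] in
/-- **Corollary**: if the pairing bound of `dual_core` holds for every mean-zero direction `g`,
the optimal weights are `ℓ²(m)`-Lipschitz along the path, modulo the constant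
`c = ∑ m i * (ψ1 i - ψ0 i)`. -/
theorem weights_lipschitz (y z : Fin N → F) (m ψ0 ψ1 : Fin N → ℝ) (A : ℝ)
    (hm : ∀ i, 0 < m i) (hsum : ∑ i, m i = 1) (hA : 0 ≤ A)
    (h : ∀ g : Fin N → ℝ, ∑ i, m i * g i = 0 →
      ∑ i, m i * g i * (ψ0 i - ψ1 i) ≤
        A * Real.sqrt (∑ i, m i * g i ^ 2) * Real.sqrt (∑ i, m i * ‖z i - y i‖ ^ 2)) :
    ∑ i, m i * (ψ1 i - ψ0 i - ∑ j, m j * (ψ1 j - ψ0 j)) ^ 2 ≤
      A ^ 2 * ∑ i, m i * ‖z i - y i‖ ^ 2 := by
  set c : ℝ := ∑ j, m j * (ψ1 j - ψ0 j) with hc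
  set g : Fin N → ℝ := fun i => ψ0 i - ψ1 i + c with hg
  set Q : ℝ := ∑ i, m i * g i ^ 2 with hQ
  set B : ℝ := Real.sqrt (∑ i, m i * ‖z i - y i‖ ^ 2) with hB
  have hW0 : 0 ≤ ∑ i, m i * ‖z i - y i‖ ^ 2 :=
    Finset.sum_nonneg fun i _ => mul_nonneg (hm i).le (sq_nonneg _)
  have hB0 : 0 ≤ B := Real.sqrt_nonneg _
  have hBsq : B ^ 2 = ∑ i, m i * ‖z i - y i‖ ^ 2 := Real.sq_sqrt hW0
  have hQ0 : 0 ≤ Q := Finset.sum_nonneg fun i _ => mul_nonneg (hm i).le (sq_nonneg _)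
  have hmean : ∑ i, m i * g i = 0 := by
    have e : ∀ i, m i * g i = m i * c - m i * (ψ1 i - ψ0 i) := by
      intro i; rw [hg]; ring
    rw [Finset.sum_congr rfl fun i _ => e i, Finset.sum_sub_distrib, ← Finset.sum_mul, hsum,
      one_mul, ← hc, sub_self]
  have hpair : ∑ i, m i * g i * (ψ0 i - ψ1 i) = Q := by
    have e : ∀ i, m i * g i * (ψ0 i - ψ1 i) = m i * g i ^ 2 - c * (m i * g i) := by
      intro i
      have : ψ0 i - ψ1 i = g i - c := by rw [hg]; ring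
      rw [this]; ring
    rw [Finset.sum_congr rfl fun i _ => e i, Finset.sum_sub_distrib, ← Finset.mul_sum, hmean,
      mul_zero, sub_zero]
  have hmain := h g hmean
  rw [hpair] at hmain
  have hsq : ∀ i, (ψ1 i - ψ0 i - c) ^ 2 = g i ^ 2 := by
    intro i; rw [hg]; ring
  have hgoal : Q ≤ A ^ 2 * B ^ 2 := by
    have hs0 : 0 ≤ Real.sqrt Q := Real.sqrt_nonneg _
    have hs2 : Real.sqrt Q ^ 2 = Q := Real.sq_sqrt hQ0
    have h1 : Real.sqrt Q ≤ A * B := by
      by_contra hcon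
      rw [not_le] at hcon
      have hpos : 0 < Real.sqrt Q := lt_of_le_of_lt (mul_nonneg hA hB0) hcon
      have : Real.sqrt Q * Real.sqrt Q ≤ (A * B) * Real.sqrt Q := by
        calc Real.sqrt Q * Real.sqrt Q = Q := by rw [← sq]; exact hs2
          _ ≤ A * Real.sqrt Q * B := hmain
          _ = (A * B) * Real.sqrt Q := by ring
      have := le_of_mul_le_mul_right this hpos
      linarith
    calc Q = Real.sqrt Q ^ 2 := hs2.symm
      _ ≤ (A * B) ^ 2 := pow_le_pow_left₀ hs0 h1 2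
      _ = A ^ 2 * B ^ 2 := by ring
  calc ∑ i, m i * (ψ1 i - ψ0 i - c) ^ 2 = Q := by
        rw [hQ]; exact Finset.sum_congr rfl fun i _ => by rw [hsq i]
    _ ≤ A ^ 2 * B ^ 2 := hgoal
    _ = A ^ 2 * ∑ i, m i * ‖z i - y i‖ ^ 2 := by rw [hBsq]

end Crest.Agent.LibS0109.DualCore
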