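import Mathlib
import Crest.Agent.Lib_S0109_Defs
import Crest.Agent.Lib_S0109_Lag
import Crest.Agent.Lib_S0109_DualDefs
import Crest.Agent.Lib_S0109_DualCore_h26

/-!
# Row 82 (S0109), package DUAL: Laguerre-side assembly (helper26)

`dual_of_parts : St_EX → St_CONT → St_D2 → St_D5 → St_DUAL`.

(D1) position subgradient / mass supergradient of the Kantorovich functional come from the weak
duality lemmas of `Lib_S0109_Lag`; (D3)+(D4) are the abstract `DualCore.dual_core`; the final step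
is `DualCore.weights_lipschitz` followed by the squeeze `St_D5`.
-/

set_option autoImplicit false
open MeasureTheory
open scoped ENNReal NNReal InnerProductSpace

namespace Crest.Agent.LibS0109.DualAsm

open Crest.Agent.LibS0109

variable {d N : ℕ}

/-- `∫_{cell} ⟪x, v⟫ dρ = ⟪Bc, v⟫`. -/
lemma setIntegral_inner_eq {K : Set (E d)} (hK : IsCompact K) (h0 : volume K ≠ 0)
    (y : Fin N → E d) (ψ : Fin N → ℝ) (i : Fin N) (v : E d) :
    ∫ x in cell y ψ i, ⟪x, v⟫_ℝ ∂(ρ K) = ⟪Bc K y ψ i, v⟫_ℝ := by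
  have hid : IntegrableOn (fun x : E d => x) (cell y ψ i) (ρ K) :=
    (integrable_rho_of_continuousOn hK h0 (continuous_id.continuousOn)).integrableOn
  unfold Bc
  rw [real_inner_comm, ← integral_inner hid v]
  refine integral_congr_ae (Filter.Eventually.of_forall fun x => ?_)
  exact real_inner_comm _ _

/-- (D1a) position subgradient of the Kantorovich functional. -/
lemma kfun_pos [NeZero N] {K : Set (E d)} (hK : IsCompact K) (h0 : volume K ≠ 0)
    {ya : Fin N → E d} (hya : Function.Injective ya) {M ψa : Fin N → ℝ} (h : IsOptW K ya M ψa)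
    (yb : Fin N → E d) (ψb : Fin N → ℝ) :
    Kfun K ya M ψa + ∑ i, ⟪Bc K ya ψa i, yb i - ya i⟫_ℝ ≤ Kfun K yb M ψb := by
  have hw := weak_duality hK h0 hya h yb ψb
  have he := duality_eq hK h0 hya h
  unfold Kfun
  rw [← he, ← Finset.sum_add_distrib]
  refine le_trans (le_of_eq ?_) hw
  refine Finset.sum_congr rfl fun i _ => ?_
  rw [setIntegral_inner_eq hK h0, setIntegral_inner_eq hK h0, ← inner_add_right]
  congr 1
  abel

/-- Optimal weights minimise the Kantorovich functional. -/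
lemma kfun_min [NeZero N] {K : Set (E d)} (hK : IsCompact K) (h0 : volume K ≠ 0)
    {y : Fin N → E d} (hy : Function.Injective y) {M ψ : Fin N → ℝ} (h : IsOptW K y M ψ)
    (ψ' : Fin N → ℝ) : Kfun K y M ψ ≤ Kfun K y M ψ' := by
  have hw := weak_duality hK h0 hy h y ψ'
  have he := duality_eq hK h0 hy h
  unfold Kfun
  rw [← he]
  exact hw

/-- Change of the masses in `Kfun`. -/
lemma kfun_mass (K : Set (E d)) (y : Fin N → E d) (M M' ψ : Fin N → ℝ) :
    Kfun K y M' ψ = Kfun K y M ψ + ∑ i, (M' i - M i) * ψ i := by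
  unfold Kfun
  rw [add_assoc, ← Finset.sum_add_distrib]
  congr 1
  exact Finset.sum_congr rfl fun i _ => by ring

/-- The unnormalised barycentre is bounded by the radius times the mass. -/
lemma norm_Bc_le {K : Set (E d)} (hK : IsCompact K) (h0 : volume K ≠ 0) (RK : ℝ)
    (hRK : ∀ x ∈ K, ‖x‖ ≤ RK) {y : Fin N → E d} {M ψ : Fin N → ℝ} (h : IsOptW K y M ψ)
    (i : Fin N) : ‖Bc K y ψ i‖ ≤ RK * M i := by
  have hT := volume_ne_top_of_isCompact hK
  have := rho_isProbabilityMeasure h0 hT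
  unfold Bc
  have h1 := norm_setIntegral_le_of_norm_le_const_ae (μ := ρ K) (s := cell y ψ i)
    (f := fun x : E d => x) (C := RK) (measure_lt_top _ _)
    (ae_restrict_of_ae ((ae_rho_mem K hK.measurableSet).mono fun x hx => hRK x hx))
  rw [h i] at h1
  exact h1

/-- The pairing bound for one mean-zero direction `g` (instantiation of `dual_core`). -/
lemma pairing_bound (hEX : St_EX) (hCONT : St_CONT) [NeZero N] {K : Set (E d)}
    (hKc : IsCompact K) (hKv : Convex ℝ K) (hKi : (interior K).Nonempty)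
    (RK C2 : ℝ) (hRK : ∀ x ∈ K, ‖x‖ ≤ RK) (hRK0 : 0 ≤ RK) (hC2 : 0 ≤ C2)
    (hD2 : ∀ (y : Fin N → E d) (m g ψ ψ' : Fin N → ℝ) (s : ℝ), Function.Injective y →
      (∀ i, 0 < m i) → ∑ i, m i = 1 → (∀ i, |s * g i| ≤ 1 / 2) →
      IsOptW K y m ψ → IsOptW K y (fun i => m i * (1 + s * g i)) ψ' →
      ∑ i, m i * ‖(m i * (1 + s * g i))⁻¹ • Bc K y ψ' i - (m i)⁻¹ • Bc K y ψ i‖ ^ 2 ≤
        C2 * RK ^ 2 * s ^ 2 * ∑ i, m i * g i ^ 2)
    (y z : Fin N → E d) (m ψ0 ψ1 g : Fin N → ℝ)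
    (hinj : ∀ t : ℝ, 0 ≤ t → t ≤ 1 → Function.Injective (fun i => y i + t • (z i - y i)))
    (hm : ∀ i, 0 < m i) (hsum : ∑ i, m i = 1) (hopt0 : IsOptW K y m ψ0)
    (hopt1 : IsOptW K z m ψ1) (hg : ∑ i, m i * g i = 0) :
    ∑ i, m i * g i * (ψ0 i - ψ1 i) ≤
      (Real.sqrt C2 * RK + RK) * Real.sqrt (∑ i, m i * g i ^ 2) *
        Real.sqrt (∑ i, m i * ‖z i - y i‖ ^ 2) := by
  classical
  have h0 : volume K ≠ 0 := volume_ne_zero_of_interior hKi
  set yt : ℝ → Fin N → E d := fun t i => y i + t • (z i - y i) with hyt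
  set ms : ℝ → Fin N → ℝ := fun s i => m i * (1 + s * g i) with hms
  have hyt0 : yt 0 = y := by funext i; simp [hyt]
  have hyt1 : yt 1 = z := by funext i; simp [hyt]
  have hms0 : ms 0 = m := by funext i; simp [hms]
  have hy : Function.Injective y := by
    have := hinj 0 le_rfl zero_le_one
    simpa using this
  set Gm : ℝ := ∑ i, |g i| with hGm
  have hGm0 : 0 ≤ Gm := Finset.sum_nonneg fun i _ => abs_nonneg _
  have hgle : ∀ i, |g i| ≤ Gm := fun i =>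
    Finset.single_le_sum (fun j _ => abs_nonneg (g j)) (Finset.mem_univ i)
  set δ : ℝ := 1 / (2 * (1 + Gm)) with hδ
  have hδ0 : 0 < δ := by positivity
  have hsg : ∀ s, 0 ≤ s → s < δ → ∀ i, |s * g i| ≤ 1 / 2 := by
    intro s hs0 hsδ i
    rw [abs_mul, abs_of_nonneg hs0]
    have h1 : s * |g i| ≤ δ * Gm := mul_le_mul hsδ.le (hgle i) (abs_nonneg _) hδ0.le
    have h2 : δ * Gm ≤ 1 / 2 := by
      rw [hδ, div_mul_eq_mul_div, one_mul, div_le_div_iff₀ (by positivity) (by norm_num)]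
      linarith
    linarith
  have hmspos : ∀ s, 0 ≤ s → s < δ → ∀ i, 0 < ms s i := by
    intro s hs0 hsδ i
    have := abs_le.mp (hsg s hs0 hsδ i)
    exact mul_pos (hm i) (by linarith [this.1])
  have hmssum : ∀ s, ∑ i, ms s i = 1 := by
    intro s
    have : ∀ i, ms s i = m i + s * (m i * g i) := fun i => by simp only [hms]; ring
    rw [Finset.sum_congr rfl fun i _ => this i, Finset.sum_add_distrib, ← Finset.mul_sum, hg,
      hsum]
    ring
  -- optimal weights along the path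
  have hex : ∀ t s : ℝ, ∃ ψ : Fin N → ℝ,
      (0 ≤ t ∧ t ≤ 1 ∧ 0 ≤ s ∧ s < δ) → IsOptW K (yt t) (ms s) ψ := by
    intro t s
    by_cases h : 0 ≤ t ∧ t ≤ 1 ∧ 0 ≤ s ∧ s < δ
    · obtain ⟨ψ, hψ⟩ := hEX d N K hKc hKv hKi (yt t) (ms s) (hinj t h.1 h.2.1)
        (hmspos s h.2.2.1 h.2.2.2) (hmssum s)
      exact ⟨ψ, fun _ => hψ⟩
    · exact ⟨0, fun h' => absurd h' h⟩
  choose Ψ' hΨ' using hex
  set Ψ : ℝ → ℝ → Fin N → ℝ := fun t s =>
    if t = 0 ∧ s = 0 then ψ0 else if t = 1 ∧ s = 0 then ψ1 else Ψ' t s with hΨdef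
  have hΨ00 : Ψ 0 0 = ψ0 := by simp [hΨdef]
  have hΨ10 : Ψ 1 0 = ψ1 := by simp [hΨdef]
  have hΨ : ∀ t s, 0 ≤ t → t ≤ 1 → 0 ≤ s → s < δ → IsOptW K (yt t) (ms s) (Ψ t s) := by
    intro t s ht0 ht1 hs0 hsδ
    by_cases h1 : t = 0 ∧ s = 0
    · obtain ⟨rfl, rfl⟩ := h1
      rw [hΨ00, hyt0, hms0]; exact hopt0
    · by_cases h2 : t = 1 ∧ s = 0
      · obtain ⟨rfl, rfl⟩ := h2
        rw [hΨ10, hyt1, hms0]; exact hopt1
      · have : Ψ t s = Ψ' t s := by simp [hΨdef, h1, h2]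
        rw [this]; exact hΨ' t s ⟨ht0, ht1, hs0, hsδ⟩
  have hcore := DualCore.dual_core y z m g RK (Real.sqrt C2 * RK) δ hm hRK0
    (mul_nonneg (Real.sqrt_nonneg _) hRK0) hδ0
    (fun t s => Kfun K (yt t) (ms s) (Ψ t s)) (fun t s => Bc K (yt t) (Ψ t s)) Ψ
    ?hPos ?hMass0 ?hMass1 ?hUB ?hBdd ?hCont
  · rw [hΨ00, hΨ10] at hcore; exact hcore
  case hPos =>
    intro s hs0 hsδ t t' ht0 ht1 ht0' ht1'
    have h := kfun_pos hKc h0 (hinj t ht0 ht1) (hΨ t s ht0 ht1 hs0 hsδ) (yt t') (Ψ t' s)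
    have e : ∀ i, ⟪Bc K (yt t) (Ψ t s) i, yt t' i - yt t i⟫_ℝ =
        (t' - t) * ⟪Bc K (yt t) (Ψ t s) i, z i - y i⟫_ℝ := by
      intro i
      have : yt t' i - yt t i = (t' - t) • (z i - y i) := by
        simp only [hyt]; rw [sub_smul]; abel
      rw [this, inner_smul_right]
    rw [Finset.sum_congr rfl fun i _ => e i, ← Finset.mul_sum] at h
    exact h
  case hMass0 =>
    intro s hs0 hsδ
    have h1 := kfun_min hKc h0 (hinj 0 le_rfl zero_le_one) (hΨ 0 0 le_rfl zero_le_one le_rfl hδ0)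
      (Ψ 0 s)
    have h2 := kfun_mass K (yt 0) (ms s) (ms 0) (Ψ 0 s)
    have e : ∑ i, (ms 0 i - ms s i) * Ψ 0 s i = -(s * ∑ i, m i * g i * Ψ 0 s i) := by
      rw [Finset.mul_sum, ← Finset.sum_neg_distrib]
      refine Finset.sum_congr rfl fun i _ => ?_
      simp only [hms]; ring
    show Kfun K (yt 0) (ms 0) (Ψ 0 0) ≤
      Kfun K (yt 0) (ms s) (Ψ 0 s) - s * ∑ i, m i * g i * Ψ 0 s i
    linarith
  case hMass1 =>
    intro s hs0 hsδ
    have h1 := kfun_min hKc h0 (hinj 1 zero_le_one le_rfl) (hΨ 1 s zero_le_one le_rfl hs0 hsδ)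
      (Ψ 1 0)
    have h2 := kfun_mass K (yt 1) (ms 0) (ms s) (Ψ 1 0)
    have e : ∑ i, (ms s i - ms 0 i) * Ψ 1 0 i = s * ∑ i, m i * g i * Ψ 1 0 i := by
      rw [Finset.mul_sum]
      refine Finset.sum_congr rfl fun i _ => ?_
      simp only [hms]; ring
    show Kfun K (yt 1) (ms s) (Ψ 1 s) ≤
      Kfun K (yt 1) (ms 0) (Ψ 1 0) + s * ∑ i, m i * g i * Ψ 1 0 i
    linarith
  case hUB =>
    intro s hs0 hsδ t ht0 ht1
    have hopt : IsOptW K (yt t) m (Ψ t 0) := by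
      have := hΨ t 0 ht0 ht1 le_rfl hδ0
      rwa [hms0] at this
    have h := hD2 (yt t) m g (Ψ t 0) (Ψ t s) s (hinj t ht0 ht1) hm hsum (hsg s hs0 hsδ) hopt
      (hΨ t s ht0 ht1 hs0 hsδ)
    have e : (Real.sqrt C2 * RK) ^ 2 = C2 * RK ^ 2 := by rw [mul_pow, Real.sq_sqrt hC2]
    rw [e]
    exact h
  case hBdd =>
    intro s hs0 hsδ t ht0 ht1 i
    exact norm_Bc_le hKc h0 RK hRK (hΨ t s ht0 ht1 hs0 hsδ) i
  case hCont =>
    have hc := hCONT d N K hKc hKv hKi y m g hy hm hsum hg ψ0 hopt0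
    rw [Metric.tendsto_nhdsWithin_nhds]
    intro ε hε
    obtain ⟨δ1, hδ1, hδ1'⟩ := hc (ε / 2) (by positivity)
    refine ⟨min δ1 δ, lt_min hδ1 hδ0, ?_⟩
    intro s hs hdist
    rw [Set.mem_Ioi] at hs
    rw [Real.dist_eq, sub_zero, abs_of_pos hs] at hdist
    have hsδ1 : |s| < δ1 := by
      rw [abs_of_pos hs]; exact lt_of_lt_of_le hdist (min_le_left _ _)
    have hsδ : s < δ := lt_of_lt_of_le hdist (min_le_right _ _)
    have hoptS : IsOptW K y (fun i => m i * (1 + s * g i)) (Ψ 0 s) := by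
      have := hΨ 0 s le_rfl zero_le_one hs.le hsδ
      rwa [hyt0] at this
    have hfin := hδ1' s hsδ1 (Ψ 0 s) hoptS
    rw [Real.dist_eq, hΨ00]
    have e : ∑ i, m i * g i * Ψ 0 s i - ∑ i, m i * g i * ψ0 i =
        ∑ i, m i * g i * (Ψ 0 s i - ψ0 i) := by
      rw [← Finset.sum_sub_distrib]
      exact Finset.sum_congr rfl fun i _ => by ring
    rw [e]
    linarith

/-- **DUAL from its parts.** -/
theorem dual_of_parts (hEX : St_EX) (hCONT : St_CONT) (hD2 : St_D2) (hD5 : St_D5) : St_DUAL := by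
  intro d K hKc hKv hKi
  obtain ⟨C2, hC2, hD2'⟩ := hD2
  obtain ⟨RK, hRK⟩ := hKc.isBounded.exists_norm_le
  have hRK0 : 0 ≤ RK := by
    obtain ⟨x, hx⟩ := hKi
    exact (norm_nonneg x).trans (hRK x (interior_subset hx))
  set A : ℝ := Real.sqrt C2 * RK + RK with hA
  have hA0 : 0 ≤ A := add_nonneg (mul_nonneg (Real.sqrt_nonneg _) hRK0) hRK0
  refine ⟨4 * RK ^ 2 + 4 * A ^ 2, by positivity, ?_⟩
  intro N _ y z m ψ0 ψ1 hinj hm hsum hopt0 hopt1
  have hy : Function.Injective y := by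
    have := hinj 0 le_rfl zero_le_one
    simpa using this
  have hz : Function.Injective z := by
    have := hinj 1 zero_le_one le_rfl
    simpa using this
  have hpair : ∀ g : Fin N → ℝ, ∑ i, m i * g i = 0 →
      ∑ i, m i * g i * (ψ0 i - ψ1 i) ≤
        A * Real.sqrt (∑ i, m i * g i ^ 2) * Real.sqrt (∑ i, m i * ‖z i - y i‖ ^ 2) := by
    intro g hg
    exact pairing_bound hEX hCONT hKc hKv hKi RK C2 hRK hRK0 hC2
      (fun y m g ψ ψ' s hy hm hsum hs h1 h2 =>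
        hD2' d N K RK hKc hKv hKi hRK y m g ψ ψ' s hy hm hsum hs h1 h2)
      y z m ψ0 ψ1 g hinj hm hsum hopt0 hopt1 hg
  have hwl := DualCore.weights_lipschitz y z m ψ0 ψ1 A hm hsum hA0 hpair
  set c0 : ℝ := ∑ j, m j * (ψ1 j - ψ0 j) with hc0
  refine ⟨-c0, ?_⟩
  have h5 := hD5 d N K RK hKc hKi hRK y z m ψ0 ψ1 c0 hy hz hopt0 hopt1
  have e : ∀ x, (pot z ψ1 x - pot y ψ0 x - -c0) ^ 2 = (pot z ψ1 x - pot y ψ0 x + c0) ^ 2 := by
    intro x; ring
  simp only [e]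
  calc ∫ x, (pot z ψ1 x - pot y ψ0 x + c0) ^ 2 ∂(ρ K)
      ≤ 4 * RK ^ 2 * ∑ i, m i * ‖z i - y i‖ ^ 2 + 4 * ∑ i, m i * (ψ1 i - ψ0 i - c0) ^ 2 := h5
    _ ≤ 4 * RK ^ 2 * ∑ i, m i * ‖z i - y i‖ ^ 2 +
          4 * (A ^ 2 * ∑ i, m i * ‖z i - y i‖ ^ 2) := by linarith
    _ = (4 * RK ^ 2 + 4 * A ^ 2) * ∑ i, m i * ‖z i - y i‖ ^ 2 := by ring

end Crest.Agent.LibS0109.DualAsm
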