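import Mathlib
import Crest.Agent.Lib_S0109_Lag
import Crest.Agent.Lib_S0109_DualDefs

/-!
# Row 82, package DUAL, step D2 (helper21): barycentre stability of Laguerre cells from `St_UB`.

`pkg_D2 (hUB : St_UB) : St_D2`.  We apply `St_UB` with `x0 = 0`, `R = RK`,
`A i = cell y ψ i ∩ K`, `B i = cell y ψ' i ∩ K`, `Cm i = cell y ((ψ + ψ') / 2) i ∩ K`.
Auxiliary names live in `Crest.Agent.LibS0109.DualBary`.
-/

set_option autoImplicit false
open MeasureTheory
open scoped ENNReal NNReal InnerProductSpace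

namespace Crest.Agent.LibS0109

namespace DualBary

variable {d N : ℕ}

/-- `|log (1 + u)| ≤ 2 |u|` for `|u| ≤ 1/2`. -/
theorem abs_log_one_add_le {u : ℝ} (hu : |u| ≤ 1 / 2) : |Real.log (1 + u)| ≤ 2 * |u| := by
  have hu' := abs_le.mp hu
  have h1 : 0 < 1 + u := by linarith
  have hup : Real.log (1 + u) ≤ u := by
    have := Real.log_le_sub_one_of_pos h1
    linarith
  have hlo : 1 - (1 + u)⁻¹ ≤ Real.log (1 + u) := Real.one_sub_inv_le_log_of_pos h1
  have hq : 1 - (1 + u)⁻¹ = u / (1 + u) := by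
    field_simp
    ring
  have h2 : |u / (1 + u)| ≤ 2 * |u| := by
    rw [abs_div, abs_of_pos h1, div_le_iff₀ h1]
    nlinarith [abs_nonneg u]
  rw [abs_le]
  constructor
  · have := (abs_le.mp h2).1
    linarith
  · have := le_abs_self u
    linarith [abs_nonneg u]

/-- Lebesgue volume of the `i`-th cell of an optimal weight vector. -/
theorem volume_real_cell_inter {K : Set (E d)} (hKc : IsCompact K) (hKi : (interior K).Nonempty)
    {y : Fin N → E d} {m ψ : Fin N → ℝ} (h : IsOptW K y m ψ) (i : Fin N) :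
    volume.real (cell y ψ i ∩ K) = m i * volume.real K := by
  have h0 : volume K ≠ 0 := volume_ne_zero_of_interior hKi
  have hT : volume K ≠ ⊤ := volume_ne_top_of_isCompact hKc
  have hV : 0 < volume.real K := ENNReal.toReal_pos h0 hT
  have h1 : (ρ K).real (cell y ψ i) = (volume.real K)⁻¹ * volume.real (cell y ψ i ∩ K) := by
    simp only [Measure.real]
    rw [rho_apply K (measurableSet_cell y ψ i), ENNReal.toReal_mul, ENNReal.toReal_inv]
  have h2 := h i
  rw [h1] at h2
  rw [← h2]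
  field_simp

/-- The unnormalised `ρ K`-barycentre as a Lebesgue integral. -/
theorem Bc_eq {K : Set (E d)} (y : Fin N → E d) (ψ : Fin N → ℝ) (i : Fin N) :
    Bc K y ψ i = (volume.real K)⁻¹ • ∫ x in cell y ψ i ∩ K, x := by
  have hμ : (ρ K).restrict (cell y ψ i) = (volume K)⁻¹ • volume.restrict (cell y ψ i ∩ K) := by
    rw [rho_def, Measure.restrict_smul, Measure.restrict_restrict (measurableSet_cell y ψ i)]
  unfold Bc
  rw [hμ, integral_smul_measure, ENNReal.toReal_inv]
  rfl

/-- The Lebesgue barycentre of the `i`-th cell is the normalised `Bc`. -/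
theorem vbary_cell_inter {K : Set (E d)} (hKc : IsCompact K) (hKi : (interior K).Nonempty)
    {y : Fin N → E d} {m ψ : Fin N → ℝ} (h : IsOptW K y m ψ) (i : Fin N) :
    vbary (cell y ψ i ∩ K) = (m i)⁻¹ • Bc K y ψ i := by
  unfold vbary
  rw [volume_real_cell_inter hKc hKi h i, Bc_eq, mul_inv, smul_smul]

/-- Norm bound for the unnormalised barycentre (used for `hBdd` in the DUAL assembly). -/
theorem norm_Bc_le {K : Set (E d)} (hKc : IsCompact K) (hKi : (interior K).Nonempty) {RK : ℝ}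
    (hRK : ∀ x ∈ K, ‖x‖ ≤ RK) (y : Fin N → E d) (ψ : Fin N → ℝ) (i : Fin N) :
    ‖Bc K y ψ i‖ ≤ RK * (ρ K).real (cell y ψ i) := by
  have h0 : volume K ≠ 0 := volume_ne_zero_of_interior hKi
  have hT : volume K ≠ ⊤ := volume_ne_top_of_isCompact hKc
  have hV : 0 < volume.real K := ENNReal.toReal_pos h0 hT
  have h1 : (ρ K).real (cell y ψ i) = (volume.real K)⁻¹ * volume.real (cell y ψ i ∩ K) := by
    simp only [Measure.real]
    rw [rho_apply K (measurableSet_cell y ψ i), ENNReal.toReal_mul, ENNReal.toReal_inv]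
  have hfin : volume (cell y ψ i ∩ K) < ⊤ :=
    lt_of_le_of_lt (measure_mono Set.inter_subset_right) hKc.measure_lt_top
  have h2 : ‖∫ x in cell y ψ i ∩ K, x‖ ≤ RK * volume.real (cell y ψ i ∩ K) :=
    norm_setIntegral_le_of_norm_le_const hfin (fun x hx => hRK x hx.2)
  rw [Bc_eq, norm_smul, Real.norm_of_nonneg (inv_nonneg.mpr hV.le), h1]
  calc (volume.real K)⁻¹ * ‖∫ x in cell y ψ i ∩ K, x‖
      ≤ (volume.real K)⁻¹ * (RK * volume.real (cell y ψ i ∩ K)) :=
        mul_le_mul_of_nonneg_left h2 (inv_nonneg.mpr hV.le)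
    _ = RK * ((volume.real K)⁻¹ * volume.real (cell y ψ i ∩ K)) := by ring

/-- Norm bound for the unnormalised barycentre of a cell of optimal weights. -/
theorem norm_Bc_le_of_isOptW {K : Set (E d)} (hKc : IsCompact K) (hKi : (interior K).Nonempty)
    {RK : ℝ} (hRK : ∀ x ∈ K, ‖x‖ ≤ RK) {y : Fin N → E d} {m ψ : Fin N → ℝ}
    (h : IsOptW K y m ψ) (i : Fin N) : ‖Bc K y ψ i‖ ≤ RK * m i := by
  have := norm_Bc_le hKc hKi hRK y ψ i
  rwa [h i] at this

end DualBary

open DualBary in
/-- **D2**: barycentre stability of the Laguerre cells, from the uniform barycentre bound. -/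
theorem pkg_D2 (hUB : St_UB) : St_D2 := by
  obtain ⟨CU, hCU0, hCU⟩ := hUB
  refine ⟨4 * CU, by positivity, ?_⟩
  intro d N _ K RK hKc hKv hKi hRK y m g ψ ψ' s hy hm hm1 hsg hψ hψ'
  have hKm : MeasurableSet K := hKc.measurableSet
  have h0 : volume K ≠ 0 := volume_ne_zero_of_interior hKi
  have hT : volume K ≠ ⊤ := volume_ne_top_of_isCompact hKc
  have hV : 0 < volume.real K := ENNReal.toReal_pos h0 hT
  have h1g : ∀ i, 0 < 1 + s * g i := fun i => by
    have := abs_le.mp (hsg i)
    linarith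
  have hm' : ∀ i, 0 < m i * (1 + s * g i) := fun i => mul_pos (hm i) (h1g i)
  rcases lt_or_ge 0 RK with hR | hR
  · -- main case: apply `St_UB`
    have hA : ∀ i, volume.real (cell y ψ i ∩ K) = m i * volume.real K :=
      fun i => volume_real_cell_inter hKc hKi hψ i
    have hB : ∀ i, volume.real (cell y ψ' i ∩ K) = m i * (1 + s * g i) * volume.real K :=
      fun i => volume_real_cell_inter hKc hKi hψ' i
    have hbA : ∀ i, vbary (cell y ψ i ∩ K) = (m i)⁻¹ • Bc K y ψ i :=
      fun i => vbary_cell_inter hKc hKi hψ i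
    have hbB : ∀ i, vbary (cell y ψ' i ∩ K) = (m i * (1 + s * g i))⁻¹ • Bc K y ψ' i :=
      fun i => vbary_cell_inter hKc hKi hψ' i
    have hratio : ∀ i, volume.real (cell y ψ' i ∩ K) / volume.real (cell y ψ i ∩ K)
        = 1 + s * g i := by
      intro i
      rw [hA, hB]
      have := (hm i).ne'
      have := hV.ne'
      field_simp
    have hlog : ∀ i, |Real.log (1 + s * g i)| ≤ 2 * |s * g i| :=
      fun i => abs_log_one_add_le (hsg i)
    have hcover : ∀ φ : Fin N → ℝ, volume (K \ ⋃ i, (cell y φ i ∩ K)) = 0 := by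
      intro φ
      have : K \ ⋃ i, (cell y φ i ∩ K) = ∅ := by
        ext x
        simp only [Set.mem_sdiff, Set.mem_iUnion, Set.mem_inter_iff, Set.mem_empty_iff_false,
          iff_false]
        rintro ⟨hx, hnot⟩
        obtain ⟨i, hi⟩ := exists_mem_cell y φ x
        exact hnot ⟨i, hi, hx⟩
      rw [this, measure_empty]
    have hdisj : ∀ φ : Fin N → ℝ, ∀ i j, i ≠ j →
        volume ((cell y φ i ∩ K) ∩ (cell y φ j ∩ K)) = 0 := by
      intro φ i j hij
      refine measure_mono_null ?_ (volume_cell_inter_cell hy φ hij)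
      rintro x ⟨⟨h1, _⟩, ⟨h2, _⟩⟩
      exact ⟨h1, h2⟩
    have key := hCU d N 0 RK K (fun i => cell y ψ i ∩ K) (fun i => cell y ψ' i ∩ K)
      (fun i => cell y (fun j => (ψ j + ψ' j) / 2) i ∩ K) hR hKm
      (fun x hx => mem_closedBall_zero_iff.mpr (hRK x hx))
      (fun i => ⟨(measurableSet_cell y ψ i).inter hKm, Set.inter_subset_right⟩)
      (fun i => ⟨(measurableSet_cell y ψ' i).inter hKm, Set.inter_subset_right⟩)
      (fun i => ⟨(measurableSet_cell y _ i).inter hKm, Set.inter_subset_right⟩)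
      (fun i x hx x' hx' => ⟨mid_mem_cell hx.1 hx'.1, by
        have := hKv hx.2 hx'.2 (by norm_num : (0:ℝ) ≤ 1 / 2) (by norm_num : (0:ℝ) ≤ 1 / 2)
          (by norm_num)
        rwa [← smul_add] at this⟩)
      (hdisj ψ) (hcover ψ) (hdisj ψ') (hcover ψ') (hdisj _)
      (fun i => by rw [hA]; exact mul_pos (hm i) hV)
      (fun i => by rw [hB]; exact mul_pos (hm' i) hV)
      (fun i => by
        rw [hratio]
        have := hlog i
        have := hsg i
        linarith)
    simp only [hratio] at key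
    simp only [hbA, hbB, hA] at key
    -- key : ∑ i, m i * V * ‖...‖^2 ≤ CU * RK^2 * ∑ i, m i * V * log(1 + s g i)^2
    have hlog2 : ∀ i, (Real.log (1 + s * g i)) ^ 2 ≤ 4 * s ^ 2 * g i ^ 2 := by
      intro i
      have h1 := hlog i
      have h2 : (Real.log (1 + s * g i)) ^ 2 = |Real.log (1 + s * g i)| ^ 2 := (sq_abs _).symm
      have h3 : |Real.log (1 + s * g i)| ^ 2 ≤ (2 * |s * g i|) ^ 2 :=
        pow_le_pow_left₀ (abs_nonneg _) h1 2
      have h4 : (2 * |s * g i|) ^ 2 = 4 * s ^ 2 * g i ^ 2 := by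
        rw [mul_pow, sq_abs]; ring
      linarith
    have hsum : ∑ i, m i * volume.real K * (Real.log (1 + s * g i)) ^ 2
        ≤ volume.real K * (4 * s ^ 2 * ∑ i, m i * g i ^ 2) := by
      rw [Finset.mul_sum, Finset.mul_sum]
      refine Finset.sum_le_sum (fun i _ => ?_)
      have := mul_le_mul_of_nonneg_left (hlog2 i) (mul_pos (hm i) hV).le
      calc m i * volume.real K * (Real.log (1 + s * g i)) ^ 2
          ≤ m i * volume.real K * (4 * s ^ 2 * g i ^ 2) := this
        _ = volume.real K * (4 * s ^ 2 * (m i * g i ^ 2)) := by ring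
    have hCR : 0 ≤ CU * RK ^ 2 := by positivity
    have hfin : volume.real K * ∑ i, m i *
        ‖(m i * (1 + s * g i))⁻¹ • Bc K y ψ' i - (m i)⁻¹ • Bc K y ψ i‖ ^ 2
        ≤ volume.real K * (4 * CU * RK ^ 2 * s ^ 2 * ∑ i, m i * g i ^ 2) := by
      calc volume.real K * ∑ i, m i *
            ‖(m i * (1 + s * g i))⁻¹ • Bc K y ψ' i - (m i)⁻¹ • Bc K y ψ i‖ ^ 2
          = ∑ i, m i * volume.real K *
            ‖(m i * (1 + s * g i))⁻¹ • Bc K y ψ' i - (m i)⁻¹ • Bc K y ψ i‖ ^ 2 := by
            rw [Finset.mul_sum]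
            exact Finset.sum_congr rfl (fun i _ => by ring)
        _ ≤ CU * RK ^ 2 * ∑ i, m i * volume.real K * (Real.log (1 + s * g i)) ^ 2 := key
        _ ≤ CU * RK ^ 2 * (volume.real K * (4 * s ^ 2 * ∑ i, m i * g i ^ 2)) :=
            mul_le_mul_of_nonneg_left hsum hCR
        _ = volume.real K * (4 * CU * RK ^ 2 * s ^ 2 * ∑ i, m i * g i ^ 2) := by ring
    exact le_of_mul_le_mul_left hfin hV
  · -- degenerate case `RK ≤ 0`: `K ⊆ {0}` and all barycentres vanish
    have hz : ∀ (φ : Fin N → ℝ) (i : Fin N), Bc K y φ i = 0 := by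
      intro φ i
      rw [Bc_eq]
      have : ∫ x in cell y φ i ∩ K, x = (0 : E d) := by
        refine setIntegral_eq_zero_of_forall_eq_zero (fun x hx => ?_)
        have h1 := hRK x hx.2
        exact norm_le_zero_iff.mp (h1.trans hR)
      rw [this, smul_zero]
    simp only [hz, smul_zero, sub_zero, norm_zero]
    have h1 : 0 ≤ ∑ i, m i * g i ^ 2 :=
      Finset.sum_nonneg (fun i _ => mul_nonneg (hm i).le (sq_nonneg _))
    have h2 : 0 ≤ 4 * CU * RK ^ 2 * s ^ 2 := by positivity
    have h3 := mul_nonneg h2 h1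
    simpa using h3

end Crest.Agent.LibS0109
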