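import Mathlib
import Crest.Agent.Lib_S0109_Defs
import Crest.Agent.Lib_S0109_Lag
import Crest.Agent.Lib_S0109_DualDefs

/-!
# Row 82 (S0109), package DUAL, step (D1): first-order inequalities for the Kantorovich value.

For optimal weights `ψ` of `(y, m)` the value is `Kfun K y m ψ`.  Two consequences of LAG's weak
duality:

* `kfun_position_subgradient`: moving the atoms, `Kfun K y m ψ + ∑ ⟪Bc K y ψ i, y' i - y i⟫ ≤
  Kfun K y' m ψ'` for ANY weights `ψ'` at the new positions;
* `kfun_mass_supergradient`: changing the masses, `Kfun K y m' ψ' ≤ Kfun K y m ψ +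
  ∑ (m' i - m i) * ψ i` whenever `ψ'` is optimal for `(y, m')` and `ψ` is ANY weight vector.

Everything lives in the sub-namespace `Crest.Agent.LibS0109.DualD1`.
-/

set_option autoImplicit false
open MeasureTheory
open scoped ENNReal NNReal InnerProductSpace

namespace Crest.Agent.LibS0109.DualD1

open Crest.Agent.LibS0109

variable {d N : ℕ}

/-- The identity is `ρ K`-integrable on a compact `K` with nonempty interior. -/
theorem integrable_id (K : Set (E d)) (hKc : IsCompact K) (hKi : (interior K).Nonempty) :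
    Integrable (fun x : E d => x) (ρ K) :=
  integrable_rho_of_continuousOn hKc (volume_ne_zero_of_interior hKi) continuous_id.continuousOn

/-- `∫_{cell i} ⟪x, v⟫ dρ = ⟪Bc i, v⟫`. -/
theorem setIntegral_inner_eq (K : Set (E d)) (hKc : IsCompact K) (hKi : (interior K).Nonempty)
    (y : Fin N → E d) (ψ : Fin N → ℝ) (i : Fin N) (v : E d) :
    ∫ x in cell y ψ i, ⟪x, v⟫_ℝ ∂(ρ K) = ⟪Bc K y ψ i, v⟫_ℝ := by
  unfold Bc
  have h := integral_inner (𝕜 := ℝ) (μ := (ρ K).restrict (cell y ψ i)) (f := fun x : E d => x)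
    (integrable_id K hKc hKi).integrableOn v
  rw [real_inner_comm, ← h]
  exact integral_congr_ae (Filter.Eventually.of_forall fun x => real_inner_comm _ _)

/-- **(D1a) position subgradient** of the Kantorovich value. -/
theorem kfun_position_subgradient [NeZero N] (K : Set (E d)) (hKc : IsCompact K)
    (hKi : (interior K).Nonempty) (y : Fin N → E d) (hy : Function.Injective y)
    (m ψ : Fin N → ℝ) (h : IsOptW K y m ψ) (y' : Fin N → E d) (ψ' : Fin N → ℝ) :
    Kfun K y m ψ + ∑ i, ⟪Bc K y ψ i, y' i - y i⟫_ℝ ≤ Kfun K y' m ψ' := by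
  have h0 := volume_ne_zero_of_interior hKi
  have hw := weak_duality hKc h0 hy h y' ψ'
  have he := duality_eq hKc h0 hy h
  unfold Kfun
  rw [← he]
  have hsum : ∑ i, ⟪Bc K y ψ i, y' i - y i⟫_ℝ =
      ∑ i, ∫ x in cell y ψ i, ⟪x, y' i⟫_ℝ ∂(ρ K) - ∑ i, ∫ x in cell y ψ i, ⟪x, y i⟫_ℝ ∂(ρ K) := by
    rw [← Finset.sum_sub_distrib]
    refine Finset.sum_congr rfl fun i _ => ?_
    rw [setIntegral_inner_eq K hKc hKi, setIntegral_inner_eq K hKc hKi, inner_sub_right]
  rw [hsum]
  linarith

/-- **(D1b) mass supergradient** of the Kantorovich value. -/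
theorem kfun_mass_supergradient [NeZero N] (K : Set (E d)) (hKc : IsCompact K)
    (hKi : (interior K).Nonempty) (y : Fin N → E d) (hy : Function.Injective y)
    (m' ψ' : Fin N → ℝ) (h' : IsOptW K y m' ψ') (m ψ : Fin N → ℝ) :
    Kfun K y m' ψ' ≤ Kfun K y m ψ + ∑ i, (m' i - m i) * ψ i := by
  have h0 := volume_ne_zero_of_interior hKi
  have hw := weak_duality hKc h0 hy h' y ψ
  have he := duality_eq hKc h0 hy h'
  unfold Kfun
  rw [← he]
  have hsum : ∑ i, (m' i - m i) * ψ i = ∑ i, m' i * ψ i - ∑ i, m i * ψ i := by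
    rw [← Finset.sum_sub_distrib]
    exact Finset.sum_congr rfl fun i _ => by ring
  rw [hsum]
  linarith

end Crest.Agent.LibS0109.DualD1
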