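import Mathlib
import Crest.Agent.Lib_S0109_Defs

/-!
# Row 82 (S0109): FINAL assembly (package P10), by helper24.

`final_of_packages` derives the frozen statement S0109 from the package statements
`St_APPROX`, `St_EX`, `St_DUAL`, `St_GN`, `St_BRENIER` of `Lib_S0109_Defs`.
The few Laguerre-cell facts that are needed (measurability of `lagMap`, the subgradient
inequality for `pot`) are proved here, in the namespace `Final24`.
-/

set_option autoImplicit false
open MeasureTheory Filter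
open scoped ENNReal NNReal InnerProductSpace Topology
open Crest.AnalysisR.OT

namespace Crest.Agent.LibS0109

namespace Final24

variable {d N : ℕ}

lemma exists_mem_cell [NeZero N] (y : Fin N → E d) (ψ : Fin N → ℝ) (x : E d) :
    ∃ i, x ∈ cell y ψ i := by
  obtain ⟨i, hi⟩ := Finite.exists_max (fun j : Fin N => ⟪x, y j⟫_ℝ - ψ j)
  exact ⟨i, fun j => hi j⟩

lemma lagIdx_mem [NeZero N] (y : Fin N → E d) (ψ : Fin N → ℝ) (x : E d) :
    x ∈ cell y ψ (lagIdx y ψ x) := by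
  classical
  have hne : (Finset.univ.filter (fun i => x ∈ cell y ψ i)).Nonempty := by
    obtain ⟨i, hi⟩ := exists_mem_cell y ψ x
    exact ⟨i, by simp [hi]⟩
  have hmem := Finset.min'_mem _ hne
  unfold lagIdx
  rw [dif_pos hne]
  exact (Finset.mem_filter.mp hmem).2

lemma pot_ge [NeZero N] (y : Fin N → E d) (ψ : Fin N → ℝ) (x : E d) (i : Fin N) :
    ⟪x, y i⟫_ℝ - ψ i ≤ pot y ψ x :=
  le_ciSup (f := fun i => ⟪x, y i⟫_ℝ - ψ i) (Set.finite_range _).bddAbove i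

lemma pot_eq_of_mem_cell [NeZero N] (y : Fin N → E d) (ψ : Fin N → ℝ) (x : E d) (i : Fin N)
    (h : x ∈ cell y ψ i) : pot y ψ x = ⟪x, y i⟫_ℝ - ψ i :=
  le_antisymm (ciSup_le fun j => h j) (pot_ge y ψ x i)

lemma pot_subgrad [NeZero N] (y : Fin N → E d) (ψ : Fin N → ℝ) (x z : E d) :
    pot y ψ x + ⟪lagMap y ψ x, z - x⟫_ℝ ≤ pot y ψ z := by
  have h1 := pot_eq_of_mem_cell y ψ x _ (lagIdx_mem y ψ x)
  have h2 := pot_ge y ψ z (lagIdx y ψ x)
  have h3 : ⟪lagMap y ψ x, z - x⟫_ℝ =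
      ⟪z, y (lagIdx y ψ x)⟫_ℝ - ⟪x, y (lagIdx y ψ x)⟫_ℝ := by
    unfold lagMap
    rw [inner_sub_right, real_inner_comm z, real_inner_comm x]
  linarith

lemma isClosed_cell (y : Fin N → E d) (ψ : Fin N → ℝ) (i : Fin N) : IsClosed (cell y ψ i) := by
  have : cell y ψ i = ⋂ j, {x | ⟪x, y j⟫_ℝ - ψ j ≤ ⟪x, y i⟫_ℝ - ψ i} := by
    ext x; simp [cell]
  rw [this]
  exact isClosed_iInter fun j => isClosed_le (by fun_prop) (by fun_prop)

lemma measurable_lagIdx [NeZero N] (y : Fin N → E d) (ψ : Fin N → ℝ) :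
    Measurable (lagIdx y ψ) := by
  classical
  refine measurable_to_countable' fun i => ?_
  have hset : lagIdx y ψ ⁻¹' {i} = cell y ψ i ∩ ⋂ b, {x | x ∈ cell y ψ b → i ≤ b} := by
    ext x
    have hne : (Finset.univ.filter (fun i => x ∈ cell y ψ i)).Nonempty := by
      obtain ⟨i, hi⟩ := exists_mem_cell y ψ x
      exact ⟨i, by simp [hi]⟩
    have hx : lagIdx y ψ x = (Finset.univ.filter (fun i => x ∈ cell y ψ i)).min' hne := by
      unfold lagIdx
      rw [dif_pos hne]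
    simp only [Set.mem_preimage, Set.mem_singleton_iff, Set.mem_inter_iff, Set.mem_iInter,
      Set.mem_ofPred_eq]
    rw [hx, Finset.min'_eq_iff]
    simp
  rw [hset]
  refine (isClosed_cell y ψ i).measurableSet.inter (MeasurableSet.iInter fun b => ?_)
  by_cases hb : i ≤ b
  · simp [hb]
  · have : {x | x ∈ cell y ψ b → i ≤ b} = (cell y ψ b)ᶜ := by
      ext x; simp [hb]
    rw [this]
    exact (isClosed_cell y ψ b).measurableSet.compl

lemma measurable_lagMap [NeZero N] (y : Fin N → E d) (ψ : Fin N → ℝ) :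
    Measurable (lagMap y ψ) :=
  (measurable_of_countable y).comp (measurable_lagIdx y ψ)

/-- The elementary optimisation in `h`. -/
lemma real_opt {I c a b r T C' : ℝ} (hr : 0 < r) (ha : 0 ≤ a) (hb : 0 ≤ b)
    (hc : 0 ≤ c) (hcT : c ^ (1 / 3 : ℝ) ≤ T)
    (key : ∀ h : ℝ, 0 < h → h ≤ r / 2 → I ≤ a / h ^ 2 * c + b * h)
    (hC' : C' = a + b + 4 * a * T ^ 2 / r ^ 2) :
    I ≤ C' * c ^ (1 / 3 : ℝ) := by
  set t := c ^ (1 / 3 : ℝ) with ht
  have ht0 : 0 ≤ t := Real.rpow_nonneg hc _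
  have ht3 : t ^ 3 = c := by
    rw [ht, ← Real.rpow_natCast, ← Real.rpow_mul hc]
    norm_num
  have hT0 : 0 ≤ T := ht0.trans hcT
  have hextra : 0 ≤ 4 * a * T ^ 2 / r ^ 2 := by positivity
  rcases eq_or_lt_of_le ht0 with h0 | hpos
  · have hc0 : c = 0 := by rw [← ht3, ← h0]; norm_num
    rw [← h0, mul_zero]
    by_contra hI
    push Not at hI
    have hb1 : 0 < b + 1 := by linarith
    have hh : 0 < min (r / 2) (I / (2 * (b + 1))) := lt_min (by linarith) (by positivity)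
    have h1 := key _ hh (min_le_left _ _)
    rw [hc0, mul_zero, zero_add] at h1
    have h2 : b * min (r / 2) (I / (2 * (b + 1))) ≤ b * (I / (2 * (b + 1))) :=
      mul_le_mul_of_nonneg_left (min_le_right _ _) hb
    have h3 : b * (I / (2 * (b + 1))) < I := by
      rw [← mul_div_assoc, div_lt_iff₀ (by positivity)]
      nlinarith
    linarith
  · rcases le_or_gt t (r / 2) with hle | hgt
    · have h1 := key t hpos hle
      have e : a / t ^ 2 * c = a * t := by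
        rw [← ht3]; field_simp
      rw [e] at h1
      have h2 : (a + b) * t ≤ C' * t := by
        apply mul_le_mul_of_nonneg_right _ ht0
        rw [hC']; linarith
      linarith
    · have h1 := key (r / 2) (by linarith) le_rfl
      have e1 : a / (r / 2) ^ 2 * c = 4 * a * t ^ 3 / r ^ 2 := by
        rw [ht3]; field_simp; ring
      have e2 : 4 * a * t ^ 3 / r ^ 2 ≤ 4 * a * T ^ 2 / r ^ 2 * t := by
        have h3 : t ^ 3 ≤ T ^ 2 * t := by
          have : t ^ 2 ≤ T ^ 2 := pow_le_pow_left₀ ht0 hcT 2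
          nlinarith
        rw [div_mul_eq_mul_div]
        apply div_le_div_of_nonneg_right _ (by positivity)
        nlinarith
      have e3 : b * (r / 2) ≤ b * t := mul_le_mul_of_nonneg_left hgt.le hb
      have e4 : C' * t = (a + b) * t + 4 * a * T ^ 2 / r ^ 2 * t := by rw [hC']; ring
      have e5 : 0 ≤ a * t := mul_nonneg ha ht0
      rw [e1] at h1
      linarith

end Final24

open Final24 in
/-- **FINAL**: the frozen statement S0109 from the package statements. -/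
theorem final_of_packages (hAPPROX : St_APPROX) (hEX : St_EX) (hDUAL : St_DUAL) (hGN : St_GN)
    (hBRENIER : St_BRENIER)
    (d : ℕ) (hd : 2 ≤ d) (K : Set (EuclideanSpace ℝ (Fin d))) (hKc : IsCompact K)
    (hKv : Convex ℝ K) (hKi : (interior K).Nonempty) (Y : Set (EuclideanSpace ℝ (Fin d)))
    (hYc : IsCompact Y) (hYn : Y.Nonempty) :
    ∃ C : ℝ≥0, ∀ μ ν : Measure (EuclideanSpace ℝ (Fin d)), IsProbabilityOn Y μ →
      IsProbabilityOn Y ν →
      ∀ Tμ Tν : EuclideanSpace ℝ (Fin d) → EuclideanSpace ℝ (Fin d),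
        IsOptimalMap (uniformProbOn K) μ Tμ → IsOptimalMap (uniformProbOn K) ν Tν →
        ∀ π : Measure (EuclideanSpace ℝ (Fin d) × EuclideanSpace ℝ (Fin d)),
          IsPairCoupling μ ν π →
          ∫⁻ x, ‖Tμ x - Tν x‖ₑ ^ 2 ∂(uniformProbOn K) ≤ C * quadCost π ^ (1 / 3 : ℝ) := by
  classical
  obtain ⟨xc, hxc⟩ := hKi
  obtain ⟨r, hr, hball⟩ := Metric.mem_nhds_iff.mp (mem_interior_iff_mem_nhds.mp hxc)
  have hY1c : IsCompact (Metric.cthickening 1 Y) := hYc.cthickening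
  obtain ⟨M0, hM0⟩ := hY1c.isBounded.exists_norm_le
  set M : ℝ := max M0 0 with hMdef
  have hM : 0 ≤ M := le_max_right _ _
  have hMb : ∀ x ∈ Metric.cthickening 1 Y, ‖x‖ ≤ M :=
    fun x hx => (hM0 x hx).trans (le_max_left _ _)
  obtain ⟨CD, hCD0, hCD⟩ := hDUAL d K hKc hKv ⟨xc, hxc⟩
  have hvol0 : volume K ≠ 0 := fun h =>
    (isOpen_interior.measure_pos volume ⟨xc, hxc⟩).ne' (measure_mono_null interior_subset h)
  have hvolT : volume K ≠ ⊤ := hKc.measure_lt_top.ne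
  have hρ : IsProbabilityMeasure (ρ K) := ⟨by
    show ((volume K)⁻¹ • volume.restrict K) Set.univ = 1
    rw [Measure.smul_apply, Measure.restrict_apply_univ, smul_eq_mul,
      ENNReal.inv_mul_cancel hvol0 hvolT]⟩
  set a : ℝ := 32 * d * CD with ha
  set b : ℝ := 32 * d ^ 2 * M ^ 2 / r with hb
  set T : ℝ := (4 * M ^ 2) ^ (1 / 3 : ℝ) with hT
  set C' : ℝ := a + b + 4 * a * T ^ 2 / r ^ 2 with hC'def
  have ha0 : 0 ≤ a := by positivity
  have hb0 : 0 ≤ b := by positivity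
  have hT0 : 0 ≤ T := Real.rpow_nonneg (by positivity) _
  have hC' : 0 ≤ C' := by positivity
  refine ⟨⟨C' + 1, by positivity⟩, ?_⟩
  intro μ ν hμ hν Tμ Tν hTμ hTν π hπ
  by_cases hQ : quadCost π = ⊤
  · rw [hQ, ENNReal.top_rpow_of_pos (by norm_num), ENNReal.mul_top]
    · exact le_top
    · refine ENNReal.coe_ne_zero.mpr (fun h => ?_)
      have : (C' + 1 : ℝ) = 0 := congrArg NNReal.toReal h
      linarith
  obtain ⟨N, hN, m, y, z, hm, hsum, hyY, hzY, hinj, hwy, hwz, hcost⟩ :=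
    hAPPROX d hd Y hYc hYn μ ν π hμ hν hπ
  have := hN
  have hyinj : ∀ n, Function.Injective (y n) := fun n => by
    simpa using hinj n 0 le_rfl zero_le_one
  have hzinj : ∀ n, Function.Injective (z n) := fun n => by
    simpa using hinj n 1 zero_le_one le_rfl
  choose ψ hψ using fun n =>
    hEX d (N n) K hKc hKv ⟨xc, hxc⟩ (y n) (m n) (hyinj n) (hm n) (hsum n)
  choose ψ' hψ' using fun n =>
    hEX d (N n) K hKc hKv ⟨xc, hxc⟩ (z n) (m n) (hzinj n) (hm n) (hsum n)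
  set cost : ℕ → ℝ := fun n => ∑ i, m n i * ‖z n i - y n i‖ ^ 2 with hcostdef
  have hcost0 : ∀ n, 0 ≤ cost n := fun n =>
    Finset.sum_nonneg fun i _ => mul_nonneg (hm n i).le (sq_nonneg _)
  have hcostB : ∀ n, cost n ≤ 4 * M ^ 2 := by
    intro n
    calc cost n ≤ ∑ i, m n i * (4 * M ^ 2) := Finset.sum_le_sum fun i _ =>
          mul_le_mul_of_nonneg_left (by
            have h1 : ‖z n i - y n i‖ ≤ 2 * M := by
              calc ‖z n i - y n i‖ ≤ ‖z n i‖ + ‖y n i‖ := norm_sub_le _ _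
                _ ≤ M + M := add_le_add (hMb _ (hzY n i)) (hMb _ (hyY n i))
                _ = 2 * M := by ring
            nlinarith [norm_nonneg (z n i - y n i)]) (hm n i).le
      _ = 4 * M ^ 2 := by rw [← Finset.sum_mul, hsum n, one_mul]
  set Tn : ℕ → E d → E d := fun n => lagMap (y n) (ψ n) with hTn
  set Tn' : ℕ → E d → E d := fun n => lagMap (z n) (ψ' n) with hTn'
  have hTnb : ∀ n x, ‖Tn n x‖ ≤ M := fun n x => hMb _ (hyY n _)
  have hTnb' : ∀ n x, ‖Tn' n x‖ ≤ M := fun n x => hMb _ (hzY n _)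
  have hI : ∀ n, ∫ x, ‖Tn n x - Tn' n x‖ ^ 2 ∂(ρ K) ≤ C' * (cost n) ^ (1 / 3 : ℝ) := by
    intro n
    obtain ⟨c, hc⟩ := hCD (N n) (y n) (z n) (m n) (ψ n) (ψ' n) (hinj n) (hm n) (hsum n)
      (hψ n) (hψ' n)
    have key : ∀ h : ℝ, 0 < h → h ≤ r / 2 →
        ∫ x, ‖Tn n x - Tn' n x‖ ^ 2 ∂(ρ K) ≤ a / h ^ 2 * cost n + b * h := by
      intro h hh hh2
      have h1 := hGN d K xc r M h (pot (y n) (ψ n)) (fun x => pot (z n) (ψ' n) x - c)
        (Tn n) (Tn' n) hKc hKv hball hr hh hh2 hM (measurable_lagMap _ _)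
        (measurable_lagMap _ _) (fun x _ => hTnb n x) (fun x _ => hTnb' n x)
        (fun x _ w _ => pot_subgrad _ _ x w)
        (fun x _ w _ => by have := pot_subgrad (z n) (ψ' n) x w; linarith)
      have e : ∫ x, (pot (y n) (ψ n) x - (pot (z n) (ψ' n) x - c)) ^ 2 ∂(ρ K) =
          ∫ x, (pot (z n) (ψ' n) x - pot (y n) (ψ n) x - c) ^ 2 ∂(ρ K) := by
        congr 1; ext x; ring
      rw [e] at h1
      have h2 : 32 * (d : ℝ) / h ^ 2 *
          ∫ x, (pot (z n) (ψ' n) x - pot (y n) (ψ n) x - c) ^ 2 ∂(ρ K) ≤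
          32 * (d : ℝ) / h ^ 2 * (CD * cost n) :=
        mul_le_mul_of_nonneg_left hc (by positivity)
      have e2 : 32 * (d : ℝ) / h ^ 2 * (CD * cost n) + 32 * (d : ℝ) ^ 2 * M ^ 2 * h / r =
          a / h ^ 2 * cost n + b * h := by
        rw [ha, hb]; field_simp
      linarith
    exact real_opt hr ha0 hb0 (hcost0 n)
      (Real.rpow_le_rpow (hcost0 n) (hcostB n) (by norm_num)) key hC'def
  have hFmeas : ∀ n, Measurable (fun x => ‖Tn n x - Tn' n x‖ₑ ^ 2) := fun n =>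
    ((measurable_lagMap _ _).sub (measurable_lagMap _ _)).enorm.pow_const _
  have hlin : ∀ n, ∫⁻ x, ‖Tn n x - Tn' n x‖ₑ ^ 2 ∂(ρ K) ≤
      ENNReal.ofReal (C' * (cost n) ^ (1 / 3 : ℝ)) := by
    intro n
    have hint : Integrable (fun x => ‖Tn n x - Tn' n x‖ ^ 2) (ρ K) := by
      refine Integrable.of_bound
        (((measurable_lagMap _ _).sub (measurable_lagMap _ _)).norm.pow_const
          2).aestronglyMeasurable ((2 * M) ^ 2) (ae_of_all _ fun x => ?_)
      have h1 : ‖Tn n x - Tn' n x‖ ≤ 2 * M := by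
        calc ‖Tn n x - Tn' n x‖ ≤ ‖Tn n x‖ + ‖Tn' n x‖ := norm_sub_le _ _
          _ ≤ M + M := add_le_add (hTnb n x) (hTnb' n x)
          _ = 2 * M := by ring
      rw [Real.norm_eq_abs, abs_of_nonneg (sq_nonneg _)]
      exact pow_le_pow_left₀ (norm_nonneg _) h1 2
    have e : ∫⁻ x, ‖Tn n x - Tn' n x‖ₑ ^ 2 ∂(ρ K) =
        ENNReal.ofReal (∫ x, ‖Tn n x - Tn' n x‖ ^ 2 ∂(ρ K)) := by
      rw [ofReal_integral_eq_lintegral_ofReal hint (ae_of_all _ fun x => sq_nonneg _)]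
      congr 1; ext x
      rw [← ofReal_norm, ENNReal.ofReal_pow (norm_nonneg _)]
    rw [e]
    exact ENNReal.ofReal_le_ofReal (hI n)
  have hμY1 : μ (Metric.cthickening 1 Y)ᶜ = 0 :=
    measure_mono_null (Set.compl_subset_compl.mpr (Metric.self_subset_cthickening Y)) hμ.2
  have hνY1 : ν (Metric.cthickening 1 Y)ᶜ = 0 :=
    measure_mono_null (Set.compl_subset_compl.mpr (Metric.self_subset_cthickening Y)) hν.2
  have := hμ.1
  have := hν.1
  obtain ⟨k1, hk1, hconv1⟩ := hBRENIER d K hKc hKv ⟨xc, hxc⟩ (Metric.cthickening 1 Y) hY1c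
    μ Tμ hμ.1 hμY1 hTμ N m y ψ hyinj hm hsum hyY hψ hwy id strictMono_id
  obtain ⟨k2, hk2, hconv2⟩ := hBRENIER d K hKc hKv ⟨xc, hxc⟩ (Metric.cthickening 1 Y) hY1c
    ν Tν hν.1 hνY1 hTν N m z ψ' hzinj hm hsum hzY hψ' hwz k1 hk1
  have hconv1' : ∀ᵐ x ∂(ρ K), Tendsto (fun j => Tn (k1 (k2 j)) x) atTop (𝓝 (Tμ x)) := by
    filter_upwards [hconv1] with x hx
    exact hx.comp hk2.tendsto_atTop
  have hlim : ∀ᵐ x ∂(ρ K), Tendsto
      (fun j => ‖Tn (k1 (k2 j)) x - Tn' (k1 (k2 j)) x‖ₑ ^ 2) atTop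
      (𝓝 (‖Tμ x - Tν x‖ₑ ^ 2)) := by
    filter_upwards [hconv1', hconv2] with x h1 h2
    exact ENNReal.Tendsto.pow ((continuous_enorm.tendsto _).comp (h1.sub h2))
  have hfatou : ∫⁻ x, ‖Tμ x - Tν x‖ₑ ^ 2 ∂(ρ K) ≤
      liminf (fun j => ∫⁻ x, ‖Tn (k1 (k2 j)) x - Tn' (k1 (k2 j)) x‖ₑ ^ 2 ∂(ρ K)) atTop := by
    calc ∫⁻ x, ‖Tμ x - Tν x‖ₑ ^ 2 ∂(ρ K)
        = ∫⁻ x, liminf (fun j => ‖Tn (k1 (k2 j)) x - Tn' (k1 (k2 j)) x‖ₑ ^ 2) atTop ∂(ρ K) := by
          apply lintegral_congr_ae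
          filter_upwards [hlim] with x hx
          exact hx.liminf_eq.symm
      _ ≤ _ := lintegral_liminf_le (fun j => hFmeas _)
  set Q : ℝ := (quadCost π).toReal with hQdef
  have hstep : ∀ ε > 0, ∫⁻ x, ‖Tμ x - Tν x‖ₑ ^ 2 ∂(ρ K) ≤
      ENNReal.ofReal (C' * (Q + ε) ^ (1 / 3 : ℝ)) := by
    intro ε hε
    refine hfatou.trans (Filter.liminf_le_of_frequently_le' (Filter.Eventually.frequently ?_))
    have hev := (hk1.tendsto_atTop.comp hk2.tendsto_atTop).eventually (hcost ε hε)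
    filter_upwards [hev] with j hj
    refine (hlin _).trans (ENNReal.ofReal_le_ofReal ?_)
    exact mul_le_mul_of_nonneg_left (Real.rpow_le_rpow (hcost0 _) hj (by norm_num)) hC'
  have hfin : ∫⁻ x, ‖Tμ x - Tν x‖ₑ ^ 2 ∂(ρ K) ≤ ENNReal.ofReal (C' * Q ^ (1 / 3 : ℝ)) := by
    have hcont : Tendsto (fun ε : ℝ => ENNReal.ofReal (C' * (Q + ε) ^ (1 / 3 : ℝ)))
        (𝓝[>] 0) (𝓝 (ENNReal.ofReal (C' * (Q + 0) ^ (1 / 3 : ℝ)))) := by
      apply Tendsto.mono_left _ nhdsWithin_le_nhds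
      have hc : Continuous (fun ε : ℝ => ENNReal.ofReal (C' * (Q + ε) ^ (1 / 3 : ℝ))) :=
        ENNReal.continuous_ofReal.comp (continuous_const.mul
          ((Real.continuous_rpow_const (by norm_num)).comp (continuous_const.add continuous_id)))
      exact hc.tendsto 0
    rw [add_zero] at hcont
    exact ge_of_tendsto hcont (eventually_mem_nhdsWithin.mono fun ε hε => hstep ε hε)
  refine hfin.trans ?_
  have hQ0 : 0 ≤ Q := ENNReal.toReal_nonneg
  rw [ENNReal.ofReal_mul hC', ← ENNReal.ofReal_rpow_of_nonneg hQ0 (by norm_num), hQdef,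
    ENNReal.ofReal_toReal hQ]
  gcongr
  rw [ENNReal.ofReal_eq_coe_nnreal hC']
  refine ENNReal.coe_le_coe.mpr ?_
  change C' ≤ C' + 1
  linarith

end Crest.Agent.LibS0109
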