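import Mathlib
import Crest.Agent.Lib_S0109_Defs

/-!
# Row 82 (S0109), package P7 **GN**: calculus-free Gagliardo–Nirenberg inequality for
subgradient selections (helper10).  Main result: `pkg_GN : St_GN`.
-/

set_option autoImplicit false
open MeasureTheory
open scoped ENNReal NNReal InnerProductSpace

namespace Crest.Agent.LibS0109GN

open Crest.Agent.LibS0109

variable {d : ℕ}

/-- A function with a bounded subgradient selection on `K` is Lipschitz on `K`. -/
theorem abs_sub_le_of_subgrad {K : Set (E d)} {M : ℝ} {u : E d → ℝ} {Tu : E d → E d}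
    (hTu : ∀ x ∈ K, ‖Tu x‖ ≤ M)
    (hu : ∀ x ∈ K, ∀ z ∈ K, u x + ⟪Tu x, z - x⟫_ℝ ≤ u z) {x z : E d} (hx : x ∈ K) (hz : z ∈ K) :
    |u z - u x| ≤ M * ‖z - x‖ := by
  have h1 := hu x hx z hz
  have h2 := hu z hz x hx
  have h3 : |⟪Tu x, z - x⟫_ℝ| ≤ M * ‖z - x‖ :=
    (abs_real_inner_le_norm _ _).trans (mul_le_mul_of_nonneg_right (hTu x hx) (norm_nonneg _))
  have h4 : |⟪Tu z, x - z⟫_ℝ| ≤ M * ‖z - x‖ := by
    rw [norm_sub_rev z x]
    exact (abs_real_inner_le_norm _ _).trans (mul_le_mul_of_nonneg_right (hTu z hz) (norm_nonneg _))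
  rw [abs_le] at h3 h4 ⊢
  constructor <;> linarith [h3.1, h3.2, h4.1, h4.2]

theorem continuousOn_of_subgrad {K : Set (E d)} {M : ℝ} {u : E d → ℝ} {Tu : E d → E d}
    (hTu : ∀ x ∈ K, ‖Tu x‖ ≤ M)
    (hu : ∀ x ∈ K, ∀ z ∈ K, u x + ⟪Tu x, z - x⟫_ℝ ≤ u z) : ContinuousOn u K := by
  have hL : LipschitzOnWith (Real.toNNReal M) u K := by
    refine LipschitzOnWith.of_dist_le_mul fun x hx z hz => ?_
    rw [Real.dist_eq, dist_eq_norm]
    have h := abs_sub_le_of_subgrad hTu hu hz hx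
    refine h.trans (mul_le_mul_of_nonneg_right (Real.le_coe_toNNReal M) (norm_nonneg _))
  exact hL.continuousOn

/-- Geometry: the homothetic copy `xc + (1 - 2h/r) (K - xc)` can be moved by `2h` inside `K`. -/
theorem homothety_add_mem {K : Set (E d)} {xc : E d} {r h : ℝ} (hKc : IsCompact K)
    (hKv : Convex ℝ K) (hball : Metric.ball xc r ⊆ K) (hr : 0 < r) (hh : 0 < h) (hhr : h ≤ r / 2)
    {x : E d} (hx : x ∈ AffineMap.homothety xc (1 - 2 * h / r) '' K) {w : E d}
    (hw : ‖w‖ ≤ 2 * h) : x + w ∈ K := by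
  have hcb : Metric.closedBall xc r ⊆ K := by
    rw [← closure_ball xc hr.ne']
    exact closure_minimal hball hKc.isClosed
  obtain ⟨k, hk, rfl⟩ := hx
  set t : ℝ := 1 - 2 * h / r with ht
  have ht0 : 0 ≤ t := by
    rw [ht, sub_nonneg, div_le_one hr]; linarith
  have h1t : 0 < 1 - t := by
    rw [ht]; have : 0 < 2 * h / r := by positivity
    linarith
  have hp : xc + (1 - t)⁻¹ • w ∈ K := by
    apply hcb
    rw [Metric.mem_closedBall, dist_eq_norm, add_sub_cancel_left, norm_smul, norm_inv,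
      Real.norm_of_nonneg h1t.le]
    have : 1 - t = 2 * h / r := by rw [ht]; ring
    rw [this, inv_div]
    calc r / (2 * h) * ‖w‖ ≤ r / (2 * h) * (2 * h) :=
          mul_le_mul_of_nonneg_left hw (by positivity)
      _ = r := by field_simp
  have key := hKv hk hp ht0 h1t.le (by ring)
  have e : (AffineMap.homothety xc t) k + w = t • k + (1 - t) • (xc + (1 - t)⁻¹ • w) := by
    rw [AffineMap.homothety_apply, vsub_eq_sub, vadd_eq_add, smul_add (1 - t), smul_smul,
      mul_inv_cancel₀ h1t.ne', one_smul]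
    module
  rw [e]; exact key

/-- The pointwise inequality. -/
theorem pointwise_ineq {h M D fp f0 fm Δ : ℝ} (hh : 0 < h) (_hM : 0 ≤ M)
    (hD : |D| ≤ 2 * M) (hΔ : 0 ≤ Δ)
    (h1 : h * D ≤ (fp - f0) + Δ) (h2 : (f0 - fm) - Δ ≤ h * D) :
    D ^ 2 ≤ (4 * fp ^ 2 + 8 * f0 ^ 2 + 4 * fm ^ 2) / h ^ 2 + 4 * M * Δ / h := by
  have hhD : |h * D| ≤ |fp - f0| + |f0 - fm| + Δ := by
    rw [abs_le]
    constructor
    · have := neg_abs_le (f0 - fm)
      have := abs_nonneg (fp - f0)
      linarith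
    · have := le_abs_self (fp - f0)
      have := abs_nonneg (f0 - fm)
      linarith
  have hhD2 : |h * D| ≤ 2 * M * h := by
    rw [abs_mul, abs_of_pos hh]; nlinarith
  set P := |fp - f0| + |f0 - fm| with hP
  have hP0 : 0 ≤ P := by positivity
  have hsq : (h * D) ^ 2 ≤ P ^ 2 + 4 * M * h * Δ := by
    have e1 : (h * D) ^ 2 = |h * D| * |h * D| := by rw [abs_mul_abs_self]; ring
    have e2 : |h * D| * |h * D| ≤ |h * D| * (P + Δ) :=
      mul_le_mul_of_nonneg_left hhD (abs_nonneg _)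
    have e3 : |h * D| * Δ ≤ 2 * M * h * Δ := mul_le_mul_of_nonneg_right hhD2 hΔ
    have e4 : |h * D| * P ≤ (|h * D| * |h * D|) / 2 + P ^ 2 / 2 := by
      nlinarith [sq_nonneg (|h * D| - P)]
    nlinarith
  have hP2 : P ^ 2 ≤ 4 * fp ^ 2 + 8 * f0 ^ 2 + 4 * fm ^ 2 := by
    have a1 : |fp - f0| ^ 2 = (fp - f0) ^ 2 := sq_abs _
    have a2 : |f0 - fm| ^ 2 = (f0 - fm) ^ 2 := sq_abs _
    have : P ^ 2 ≤ 2 * |fp - f0| ^ 2 + 2 * |f0 - fm| ^ 2 := by
      rw [hP]; nlinarith [sq_nonneg (|fp - f0| - |f0 - fm|)]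
    rw [a1, a2] at this
    nlinarith [sq_nonneg (fp + f0), sq_nonneg (f0 + fm)]
  have hfin : D ^ 2 = (h * D) ^ 2 / h ^ 2 := by field_simp
  rw [hfin]
  have : (4 * fp ^ 2 + 8 * f0 ^ 2 + 4 * fm ^ 2) / h ^ 2 + 4 * M * Δ / h
      = (4 * fp ^ 2 + 8 * f0 ^ 2 + 4 * fm ^ 2 + 4 * M * h * Δ) / h ^ 2 := by
    field_simp
  rw [this]
  exact div_le_div_of_nonneg_right (by linarith) (by positivity)


theorem integral_lin4 {α : Type*} [MeasurableSpace α] {μ : Measure α} {F1 F2 F3 F4 : α → ℝ}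
    (h1 : Integrable F1 μ) (h2 : Integrable F2 μ) (h3 : Integrable F3 μ) (h4 : Integrable F4 μ)
    (c1 c2 c3 c4 : ℝ) :
    ∫ x, (c1 * F1 x + c2 * F2 x + c3 * F3 x + c4 * F4 x) ∂μ =
      c1 * ∫ x, F1 x ∂μ + c2 * ∫ x, F2 x ∂μ + c3 * ∫ x, F3 x ∂μ + c4 * ∫ x, F4 x ∂μ := by
  have e1 := integral_add (((h1.const_mul c1).add (h2.const_mul c2)).add (h3.const_mul c3))
    (h4.const_mul c4)
  have e2 := integral_add ((h1.const_mul c1).add (h2.const_mul c2)) (h3.const_mul c3)
  have e3 := integral_add (h1.const_mul c1) (h2.const_mul c2)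
  simp only [Pi.add_apply] at e1 e2 e3
  rw [e1, e2, e3, integral_const_mul, integral_const_mul, integral_const_mul, integral_const_mul]

/-- The inequality in one direction `e`. -/
theorem dir_ineq {K : Set (E d)} {xc : E d} {r M h : ℝ} {u v : E d → ℝ} {Tu Tv : E d → E d}
    (hKc : IsCompact K) (hKv : Convex ℝ K) (hball : Metric.ball xc r ⊆ K) (hr : 0 < r)
    (hh : 0 < h) (hhr : h ≤ r / 2) (hM : 0 ≤ M) (hTum : Measurable Tu) (hTvm : Measurable Tv)
    (hTu : ∀ x ∈ K, ‖Tu x‖ ≤ M) (hTv : ∀ x ∈ K, ‖Tv x‖ ≤ M)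
    (hu : ∀ x ∈ K, ∀ z ∈ K, u x + ⟪Tu x, z - x⟫_ℝ ≤ u z)
    (hv : ∀ x ∈ K, ∀ z ∈ K, v x + ⟪Tv x, z - x⟫_ℝ ≤ v z) (e : E d) (he : ‖e‖ = 1) :
    ∫ x in K, ⟪Tu x - Tv x, e⟫_ℝ ^ 2 ≤
      16 / h ^ 2 * (∫ x in K, (u x - v x) ^ 2) + 16 * d * M ^ 2 * (h / r) * volume.real K := by
  classical
  set a : E d := h • e with ha
  have hna : ‖a‖ = h := by rw [ha, norm_smul, he, mul_one, Real.norm_of_nonneg hh.le]
  set t : ℝ := 1 - 2 * h / r with ht
  have ht0 : 0 ≤ t := by rw [ht, sub_nonneg, div_le_one hr]; linarith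
  set K2 : Set (E d) := AffineMap.homothety xc t '' K with hK2
  set Sp : Set (E d) := (fun x => x + a) ⁻¹' K with hSp
  set Sm : Set (E d) := (fun x => x - a) ⁻¹' K with hSm
  set Kh : Set (E d) := K ∩ (Sp ∩ Sm) with hKh
  set f : E d → ℝ := fun x => u x - v x with hf
  set D : E d → ℝ := fun x => ⟪Tu x - Tv x, e⟫_ℝ with hD
  set w : E d → ℝ := fun x => v (x + a) - v x with hw
  have hKcl : IsClosed K := hKc.isClosed
  have hKm : MeasurableSet K := hKcl.measurableSet
  have hSpcl : IsClosed Sp := hKcl.preimage (continuous_add_const a)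
  have hSmcl : IsClosed Sm := hKcl.preimage (continuous_sub_right a)
  have hKhcl : IsClosed Kh := hKcl.inter (hSpcl.inter hSmcl)
  have hKhK : Kh ⊆ K := Set.inter_subset_left
  have hKhc : IsCompact Kh := hKc.of_isClosed_subset hKhcl hKhK
  have hKhm : MeasurableSet Kh := hKhcl.measurableSet
  have hK2c : IsCompact K2 := hKc.image (AffineMap.homothety xc t).continuous_of_finiteDimensional
  have hK2m : MeasurableSet K2 := hK2c.isClosed.measurableSet
  have hmem : ∀ x ∈ K2, ∀ w : E d, ‖w‖ ≤ 2 * h → x + w ∈ K := fun x hx w hw =>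
    homothety_add_mem hKc hKv hball hr hh hhr hx hw
  have hK2K : K2 ⊆ K := fun x hx => by
    have := hmem x hx 0 (by rw [norm_zero]; linarith)
    simpa using this
  have hK2Kh : K2 ⊆ Kh := fun x hx => by
    refine ⟨hK2K hx, hmem x hx a (by rw [hna]; linarith), ?_⟩
    have := hmem x hx (-a) (by rw [norm_neg, hna]; linarith)
    simpa [hSm, sub_eq_add_neg] using this
  have hK2Kh' : K2 ⊆ (fun x => x + a) ⁻¹' Kh := fun x hx => by
    refine ⟨hmem x hx a (by rw [hna]; linarith), ?_, ?_⟩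
    · have := hmem x hx (a + a) ((norm_add_le _ _).trans (by rw [hna]; linarith))
      simpa [hSp, add_assoc] using this
    · have := hK2K hx
      simpa [hSm] using this
  -- volume of `K \ K2`
  have hVfin : volume K ≠ ∞ := hKc.measure_lt_top.ne
  have hV0 : 0 ≤ volume.real K := measureReal_nonneg
  have hvol : volume.real (K \ K2) ≤ d * (2 * h / r) * volume.real K := by
    have e1 : volume.real K2 = t ^ d * volume.real K := by
      rw [measureReal_def, hK2, Measure.addHaar_image_homothety, ENNReal.toReal_mul,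
        ENNReal.toReal_ofReal (abs_nonneg _), finrank_euclideanSpace_fin,
        abs_of_nonneg (pow_nonneg ht0 d)]
      rfl
    rw [measureReal_sdiff hK2K hK2m, e1]
    have h2 : 0 ≤ 2 * h / r := by positivity
    have h3 : 2 * h / r ≤ 1 := by rw [div_le_one hr]; linarith
    have hb : 1 + (d : ℝ) * (-(2 * h / r)) ≤ (1 + -(2 * h / r)) ^ d :=
      one_add_mul_le_pow (by linarith) d
    have : t = 1 + -(2 * h / r) := by rw [ht]; ring
    rw [this]
    nlinarith
  have hvol0 : 0 ≤ volume.real (K \ K2) := measureReal_nonneg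
  -- continuity and integrability
  have hcu : ContinuousOn u K := continuousOn_of_subgrad hTu hu
  have hcv : ContinuousOn v K := continuousOn_of_subgrad hTv hv
  have hcf : ContinuousOn f K := hcu.sub hcv
  have hif2 : IntegrableOn (fun x => f x ^ 2) K := (hcf.pow 2).integrableOn_compact hKc
  have hmp : MeasurePreserving (fun x : E d => x + a) volume volume :=
    measurePreserving_add_right volume a
  have hme : MeasurableEmbedding (fun x : E d => x + a) := measurableEmbedding_addRight a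
  have hmp' : MeasurePreserving (fun x : E d => x - a) volume volume :=
    measurePreserving_sub_right volume a
  have hme' : MeasurableEmbedding (fun x : E d => x - a) := measurableEmbedding_subRight a
  have hIp : IntegrableOn (fun x => f (x + a) ^ 2) Sp :=
    (hmp.integrableOn_comp_preimage hme).2 hif2
  have hIm : IntegrableOn (fun x => f (x - a) ^ 2) Sm :=
    (hmp'.integrableOn_comp_preimage hme').2 hif2
  have hI1 : ∫ x in Kh, f (x + a) ^ 2 ≤ ∫ x in K, f x ^ 2 := by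
    have e1 : ∫ x in Sp, f (x + a) ^ 2 = ∫ x in K, f x ^ 2 :=
      hmp.setIntegral_preimage_emb hme (fun x => f x ^ 2) K
    rw [← e1]
    exact setIntegral_mono_set hIp (ae_of_all _ fun x => sq_nonneg _)
      (LE.le.eventuallyLE (fun x hx => hx.2.1 : Kh ⊆ Sp))
  have hI2 : ∫ x in Kh, f (x - a) ^ 2 ≤ ∫ x in K, f x ^ 2 := by
    have e1 : ∫ x in Sm, f (x - a) ^ 2 = ∫ x in K, f x ^ 2 :=
      hmp'.setIntegral_preimage_emb hme' (fun x => f x ^ 2) K
    rw [← e1]
    exact setIntegral_mono_set hIm (ae_of_all _ fun x => sq_nonneg _)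
      (LE.le.eventuallyLE (fun x hx => hx.2.2 : Kh ⊆ Sm))
  have hI3 : ∫ x in Kh, f x ^ 2 ≤ ∫ x in K, f x ^ 2 :=
    setIntegral_mono_set hif2 (ae_of_all _ fun x => sq_nonneg _)
      (LE.le.eventuallyLE hKhK)
  -- the second difference
  set K1 : Set (E d) := K ∩ Sp with hK1
  have hK1c : IsCompact K1 := hKc.inter_right hSpcl
  have hK1m : MeasurableSet K1 := hK1c.isClosed.measurableSet
  have hwb : ∀ x ∈ K1, |w x| ≤ M * h := fun x hx => by
    have := abs_sub_le_of_subgrad hTv hv hx.1 hx.2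
    simpa [hna] using this
  have hcw : ContinuousOn w K1 :=
    (hcv.comp (continuous_add_const a).continuousOn (fun x hx => hx.2)).sub
      (hcv.mono Set.inter_subset_left)
  have hiw : IntegrableOn w K1 := hcw.integrableOn_compact hK1c
  set Kh' : Set (E d) := (fun x => x + a) ⁻¹' Kh with hKh'
  have hKh'm : MeasurableSet Kh' := hKhm.preimage (measurable_add_const a)
  have hKhK1 : Kh ⊆ K1 := fun x hx => ⟨hx.1, hx.2.1⟩
  have hKh'K1 : Kh' ⊆ K1 := fun x hx => by
    refine ⟨?_, hx.1⟩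
    have := hx.2.2
    simpa [hSm] using this
  have hKheq : Kh = (fun x => x - a) ⁻¹' Kh' := by
    ext x; simp [hKh']
  have hiΔ : IntegrableOn (fun x => v (x + a) - 2 * v x + v (x - a)) Kh := by
    refine ContinuousOn.integrableOn_compact hKhc ?_
    refine ((hcv.comp (continuous_add_const a).continuousOn (fun x hx => hx.2.1)).sub
      ((hcv.mono hKhK).const_smul (2 : ℝ) |>.congr (fun x _ => by simp))).add
      (hcv.comp (continuous_sub_right a).continuousOn (fun x hx => hx.2.2))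
  have hI4 : ∫ x in Kh, (v (x + a) - 2 * v x + v (x - a)) ≤ M * h * volume.real (K \ K2) := by
    have e0 : ∀ x, v (x + a) - 2 * v x + v (x - a) = w x - w (x - a) := fun x => by
      simp only [hw, sub_add_cancel]; ring
    simp_rw [e0]
    have iw1 : IntegrableOn w Kh := hiw.mono_set hKhK1
    have iw2 : IntegrableOn (fun x => w (x - a)) Kh := by
      rw [hKheq]
      exact (hmp'.integrableOn_comp_preimage hme').2 (hiw.mono_set hKh'K1)
    rw [integral_sub iw1 iw2]
    have e1 : ∫ x in Kh, w (x - a) = ∫ x in Kh', w x := by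
      conv_lhs => rw [hKheq]
      exact hmp'.setIntegral_preimage_emb hme' w Kh'
    rw [e1]
    have e2 : ∫ x in Kh, w x = ∫ x in K1, Kh.indicator w x := by
      rw [setIntegral_indicator hKhm, Set.inter_eq_self_of_subset_right hKhK1]
    have e3 : ∫ x in Kh', w x = ∫ x in K1, Kh'.indicator w x := by
      rw [setIntegral_indicator hKh'm, Set.inter_eq_self_of_subset_right hKh'K1]
    rw [e2, e3, ← integral_sub (hiw.indicator hKhm) (hiw.indicator hKh'm)]
    have e4 : ∫ x in K1, (K \ K2).indicator (fun _ => M * h) x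
        = M * h * volume.real (K1 ∩ (K \ K2)) := by
      rw [setIntegral_indicator (hKm.diff hK2m), setIntegral_const, smul_eq_mul, mul_comm]
    have e5 : volume.real (K1 ∩ (K \ K2)) ≤ volume.real (K \ K2) :=
      measureReal_mono Set.inter_subset_right
        (ne_top_of_le_ne_top hVfin (measure_mono Set.sdiff_subset))
    have hic : IntegrableOn ((K \ K2).indicator (fun _ => M * h)) K1 :=
      (integrableOn_const (hK1c.measure_lt_top.ne)).indicator (hKm.diff hK2m)
    calc ∫ x in K1, (Kh.indicator w x - Kh'.indicator w x)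
        ≤ ∫ x in K1, (K \ K2).indicator (fun _ => M * h) x := by
          refine setIntegral_mono_on ((hiw.indicator hKhm).sub (hiw.indicator hKh'm)) hic hK1m ?_
          intro x hx
          by_cases hx2 : x ∈ K2
          · have h1 : x ∈ Kh := hK2Kh hx2
            have h2 : x ∈ Kh' := hK2Kh' hx2
            have h3 : x ∉ K \ K2 := fun hh => hh.2 hx2
            rw [Set.indicator_of_mem h1, Set.indicator_of_mem h2, Set.indicator_of_notMem h3]
            simp
          · have hxm : x ∈ K \ K2 := ⟨hx.1, hx2⟩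
            rw [Set.indicator_of_mem hxm]
            have hb := hwb x hx
            rw [abs_le] at hb
            have hMh : 0 ≤ M * h := mul_nonneg hM hh.le
            by_cases h1 : x ∈ Kh <;> by_cases h2 : x ∈ Kh' <;>
              simp only [h1, h2, Set.indicator_of_mem, Set.indicator_of_notMem,
                not_false_eq_true] <;> linarith [hb.1, hb.2]
      _ = M * h * volume.real (K1 ∩ (K \ K2)) := e4
      _ ≤ M * h * volume.real (K \ K2) := mul_le_mul_of_nonneg_left e5 (mul_nonneg hM hh.le)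
  -- facts on `D`
  have hDm : Measurable D := (hTum.sub hTvm).inner measurable_const
  have hDb : ∀ x ∈ K, |D x| ≤ 2 * M := fun x hx => by
    calc |D x| ≤ ‖Tu x - Tv x‖ * ‖e‖ := abs_real_inner_le_norm _ _
      _ = ‖Tu x - Tv x‖ := by rw [he, mul_one]
      _ ≤ ‖Tu x‖ + ‖Tv x‖ := norm_sub_le _ _
      _ ≤ 2 * M := by linarith [hTu x hx, hTv x hx]
  have hDsq : ∀ x ∈ K, D x ^ 2 ≤ 4 * M ^ 2 := fun x hx => by
    have h1 := hDb x hx
    have h2 : D x ^ 2 = |D x| ^ 2 := (sq_abs _).symm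
    nlinarith [abs_nonneg (D x)]
  have hiD : IntegrableOn (fun x => D x ^ 2) K := by
    refine Measure.integrableOn_of_bounded hVfin (hDm.pow_const 2).aestronglyMeasurable
      (M := 4 * M ^ 2) ?_
    refine (ae_restrict_iff' hKm).2 (ae_of_all _ fun x hx => ?_)
    rw [Real.norm_of_nonneg (sq_nonneg _)]; exact hDsq x hx
  have hsplit : ∫ x in K, D x ^ 2 = (∫ x in Kh, D x ^ 2) + ∫ x in K \ Kh, D x ^ 2 := by
    rw [← integral_inter_add_sdiff hKhm hiD, Set.inter_eq_self_of_subset_right hKhK]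
  have hA : ∫ x in K \ Kh, D x ^ 2 ≤ 4 * M ^ 2 * volume.real (K \ K2) := by
    have hfin : volume (K \ Kh) ≠ ∞ := ne_top_of_le_ne_top hVfin (measure_mono Set.sdiff_subset)
    calc ∫ x in K \ Kh, D x ^ 2 ≤ ∫ _ in K \ Kh, (4 * M ^ 2 : ℝ) :=
          setIntegral_mono_on (hiD.mono_set Set.sdiff_subset) (integrableOn_const hfin)
            (hKm.diff hKhm) (fun x hx => hDsq x hx.1)
      _ = 4 * M ^ 2 * volume.real (K \ Kh) := by rw [setIntegral_const, smul_eq_mul, mul_comm]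
      _ ≤ 4 * M ^ 2 * volume.real (K \ K2) :=
          mul_le_mul_of_nonneg_left (measureReal_mono (Set.sdiff_subset_sdiff_right hK2Kh)
            (ne_top_of_le_ne_top hVfin (measure_mono Set.sdiff_subset))) (by positivity)
  have hpt : ∀ x ∈ Kh, D x ^ 2 ≤ 4 / h ^ 2 * f (x + a) ^ 2 + 8 / h ^ 2 * f x ^ 2
      + 4 / h ^ 2 * f (x - a) ^ 2 + 4 * M / h * (v (x + a) - 2 * v x + v (x - a)) := by
    intro x hx
    obtain ⟨hx0, hxp, hxm⟩ := hx
    have hxp' : x + a ∈ K := hxp
    have hxm' : x - a ∈ K := hxm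
    have u1 := hu x hx0 (x + a) hxp'
    have u2 := hu x hx0 (x - a) hxm'
    have v1 := hv x hx0 (x + a) hxp'
    have v2 := hv x hx0 (x - a) hxm'
    have ea : x + a - x = a := by abel
    have eb : x - a - x = -a := by abel
    rw [ea] at u1 v1
    rw [eb, inner_neg_right] at u2 v2
    have iu : ⟪Tu x, a⟫_ℝ = h * ⟪Tu x, e⟫_ℝ := by rw [ha, inner_smul_right]
    have iv : ⟪Tv x, a⟫_ℝ = h * ⟪Tv x, e⟫_ℝ := by rw [ha, inner_smul_right]
    have hDx : D x = ⟪Tu x, e⟫_ℝ - ⟪Tv x, e⟫_ℝ := inner_sub_left _ _ _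
    rw [iu] at u1 u2
    rw [iv] at v1 v2
    have key := pointwise_ineq (D := D x) (fp := f (x + a)) (f0 := f x) (fm := f (x - a))
      (Δ := v (x + a) - 2 * v x + v (x - a)) hh hM (hDb x hx0) (by linarith)
      (by rw [hDx, mul_sub]; simp only [hf]; linarith)
      (by rw [hDx, mul_sub]; simp only [hf]; linarith)
    calc D x ^ 2 ≤ _ := key
      _ = _ := by ring
  have hB : ∫ x in Kh, D x ^ 2 ≤ 16 / h ^ 2 * (∫ x in K, f x ^ 2)
      + 4 * M ^ 2 * volume.real (K \ K2) := by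
    have i1 : IntegrableOn (fun x => f (x + a) ^ 2) Kh := hIp.mono_set (fun x hx => hx.2.1)
    have i2 : IntegrableOn (fun x => f x ^ 2) Kh := hif2.mono_set hKhK
    have i3 : IntegrableOn (fun x => f (x - a) ^ 2) Kh := hIm.mono_set (fun x hx => hx.2.2)
    have hlin := integral_lin4 i1 i2 i3 hiΔ (4 / h ^ 2) (8 / h ^ 2) (4 / h ^ 2) (4 * M / h)
    have hmono : ∫ x in Kh, D x ^ 2 ≤ ∫ x in Kh, (4 / h ^ 2 * f (x + a) ^ 2
        + 8 / h ^ 2 * f x ^ 2 + 4 / h ^ 2 * f (x - a) ^ 2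
        + 4 * M / h * (v (x + a) - 2 * v x + v (x - a))) :=
      setIntegral_mono_on (hiD.mono_set hKhK)
        ((((i1.const_mul (4 / h ^ 2)).add (i2.const_mul (8 / h ^ 2))).add
          (i3.const_mul (4 / h ^ 2))).add (hiΔ.const_mul (4 * M / h))) hKhm hpt
    rw [hlin] at hmono
    have hc : 0 ≤ 4 / h ^ 2 := by positivity
    have hc' : 0 ≤ 8 / h ^ 2 := by positivity
    have hc'' : 0 ≤ 4 * M / h := by positivity
    have t1 := mul_le_mul_of_nonneg_left hI1 hc
    have t2 := mul_le_mul_of_nonneg_left hI3 hc'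
    have t3 := mul_le_mul_of_nonneg_left hI2 hc
    have t4 := mul_le_mul_of_nonneg_left hI4 hc''
    have e : 4 * M / h * (M * h * volume.real (K \ K2)) = 4 * M ^ 2 * volume.real (K \ K2) := by
      field_simp
    have e' : 4 / h ^ 2 * (∫ x in K, f x ^ 2) + 8 / h ^ 2 * (∫ x in K, f x ^ 2)
        + 4 / h ^ 2 * (∫ x in K, f x ^ 2) = 16 / h ^ 2 * (∫ x in K, f x ^ 2) := by ring
    linarith
  have hfinal : 8 * M ^ 2 * volume.real (K \ K2) ≤ 16 * d * M ^ 2 * (h / r) * volume.real K := by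
    have := mul_le_mul_of_nonneg_left hvol (by positivity : (0 : ℝ) ≤ 8 * M ^ 2)
    calc 8 * M ^ 2 * volume.real (K \ K2) ≤ 8 * M ^ 2 * (d * (2 * h / r) * volume.real K) := this
      _ = 16 * d * M ^ 2 * (h / r) * volume.real K := by ring
  rw [hsplit]
  linarith

/-- **GN**: the calculus-free Gagliardo–Nirenberg inequality for subgradient selections. -/
theorem pkg_GN : St_GN := by
  intro d K xc r M h u v Tu Tv hKc hKv hball hr hh hhr hM hTum hTvm hTu hTv hu hv
  have hKm : MeasurableSet K := hKc.isClosed.measurableSet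
  have hVfin : volume K ≠ ∞ := hKc.measure_lt_top.ne
  have hVpos : 0 < volume K :=
    lt_of_lt_of_le (Metric.measure_ball_pos volume xc hr) (measure_mono hball)
  have hVr : 0 < volume.real K := ENNReal.toReal_pos hVpos.ne' hVfin
  have hρ : ∀ g : E d → ℝ, ∫ x, g x ∂(ρ K) = (volume.real K)⁻¹ * ∫ x in K, g x := by
    intro g
    show ∫ x, g x ∂((volume K)⁻¹ • volume.restrict K) = _
    rw [integral_smul_measure, ENNReal.toReal_inv, smul_eq_mul]
    rfl
  rw [hρ, hρ]
  have hnorm : ∀ x, ‖Tu x - Tv x‖ ^ 2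
      = ∑ i : Fin d, ⟪Tu x - Tv x, EuclideanSpace.single i (1 : ℝ)⟫_ℝ ^ 2 := by
    intro x
    rw [EuclideanSpace.real_norm_sq_eq]
    refine Finset.sum_congr rfl fun i _ => ?_
    simp [EuclideanSpace.inner_single_right]
  have hint : ∀ i : Fin d, IntegrableOn
      (fun x => ⟪Tu x - Tv x, EuclideanSpace.single i (1 : ℝ)⟫_ℝ ^ 2) K := by
    intro i
    refine Measure.integrableOn_of_bounded hVfin
      (((hTum.sub hTvm).inner measurable_const).pow_const 2).aestronglyMeasurable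
      (M := (2 * M) ^ 2) ?_
    refine (ae_restrict_iff' hKm).2 (ae_of_all _ fun x hx => ?_)
    rw [Real.norm_of_nonneg (sq_nonneg _)]
    have h1 : |⟪Tu x - Tv x, EuclideanSpace.single i (1 : ℝ)⟫_ℝ| ≤ 2 * M := by
      calc |⟪Tu x - Tv x, EuclideanSpace.single i (1 : ℝ)⟫_ℝ|
          ≤ ‖Tu x - Tv x‖ * ‖EuclideanSpace.single i (1 : ℝ)‖ := abs_real_inner_le_norm _ _
        _ = ‖Tu x - Tv x‖ := by simp
        _ ≤ ‖Tu x‖ + ‖Tv x‖ := norm_sub_le _ _
        _ ≤ 2 * M := by linarith [hTu x hx, hTv x hx]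
    rw [← sq_abs]
    exact pow_le_pow_left₀ (abs_nonneg _) h1 2
  simp_rw [hnorm]
  rw [integral_finsetSum _ (fun i _ => hint i)]
  have hdir : ∀ i : Fin d, ∫ x in K, ⟪Tu x - Tv x, EuclideanSpace.single i (1 : ℝ)⟫_ℝ ^ 2
      ≤ 16 / h ^ 2 * (∫ x in K, (u x - v x) ^ 2) + 16 * d * M ^ 2 * (h / r) * volume.real K :=
    fun i => dir_ineq hKc hKv hball hr hh hhr hM hTum hTvm hTu hTv hu hv _ (by simp)
  have hsum := Finset.sum_le_sum (fun i (_ : i ∈ Finset.univ) => hdir i)
  rw [Finset.sum_const, Finset.card_univ, Fintype.card_fin, nsmul_eq_mul] at hsum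
  have hF : 0 ≤ ∫ x in K, (u x - v x) ^ 2 := integral_nonneg (fun x => sq_nonneg _)
  set F := ∫ x in K, (u x - v x) ^ 2 with hFdef
  set V := volume.real K with hVdef
  calc V⁻¹ * ∑ i : Fin d, ∫ x in K, ⟪Tu x - Tv x, EuclideanSpace.single i (1 : ℝ)⟫_ℝ ^ 2
      ≤ V⁻¹ * ((d : ℝ) * (16 / h ^ 2 * F + 16 * d * M ^ 2 * (h / r) * V)) :=
        mul_le_mul_of_nonneg_left hsum (inv_nonneg.2 hVr.le)
    _ = 16 * d / h ^ 2 * (V⁻¹ * F) + 16 * d ^ 2 * M ^ 2 * h / r := by
        field_simp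
    _ ≤ 32 * d / h ^ 2 * (V⁻¹ * F) + 32 * d ^ 2 * M ^ 2 * h / r := by
        have h1 : 0 ≤ (d : ℝ) / h ^ 2 * (V⁻¹ * F) := by positivity
        have h2 : 0 ≤ (d : ℝ) ^ 2 * M ^ 2 * h / r := by positivity
        have e1 : 16 * d / h ^ 2 * (V⁻¹ * F) = 16 * ((d : ℝ) / h ^ 2 * (V⁻¹ * F)) := by ring
        have e2 : 32 * d / h ^ 2 * (V⁻¹ * F) = 32 * ((d : ℝ) / h ^ 2 * (V⁻¹ * F)) := by ring
        have e3 : 16 * (d : ℝ) ^ 2 * M ^ 2 * h / r = 16 * ((d : ℝ) ^ 2 * M ^ 2 * h / r) := by ring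
        have e4 : 32 * (d : ℝ) ^ 2 * M ^ 2 * h / r = 32 * ((d : ℝ) ^ 2 * M ^ 2 * h / r) := by ring
        rw [e1, e2, e3, e4]
        linarith

end Crest.Agent.LibS0109GN
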