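import Mathlib
import Crest.Agent.Lib_S0109_Defs

/-!
# Prékopa–Leindler inequality (θ = 1/2) — helper15

* `volume_add_le_two_mul`: one-dimensional Brunn–Minkowski (midpoint form) for measurable sets.
* `pl_real`: one-dimensional Prékopa–Leindler for measurable `ℝ → ℝ≥0∞`.
* `pl_pi`: Prékopa–Leindler on `Fin n → ℝ`.
* `pl_euclidean`: Prékopa–Leindler on `EuclideanSpace ℝ (Fin n)`.
* `Crest.Agent.LibS0109.pkg_PL : St_PL`: the row-82 package statement.
-/

set_option autoImplicit false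

open MeasureTheory Set
open scoped ENNReal Pointwise

namespace Crest.Agent.LibS0109PL15

/-! ### One-dimensional Brunn–Minkowski -/

/-- Brunn–Minkowski on the line for nonempty compact sets. -/
theorem volume_add_compact {A B : Set ℝ} (hA : IsCompact A) (hB : IsCompact B)
    (hAn : A.Nonempty) (hBn : B.Nonempty) :
    volume A + volume B ≤ volume (A + B) := by
  obtain ⟨a, haA, ha⟩ := hA.exists_isGreatest hAn
  obtain ⟨b, hbB, hb⟩ := hB.exists_isLeast hBn
  have h1 : (fun x => x + b) '' A ⊆ A + B := by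
    rintro _ ⟨x, hx, rfl⟩
    exact Set.add_mem_add hx hbB
  have h2 : (fun y => a + y) '' B ⊆ A + B := by
    rintro _ ⟨y, hy, rfl⟩
    exact Set.add_mem_add haA hy
  have h3 : ((fun x => x + b) '' A) ∩ ((fun y => a + y) '' B) ⊆ {a + b} := by
    rintro z ⟨⟨x, hx, rfl⟩, ⟨y, hy, hxy⟩⟩
    have hxa : x ≤ a := ha hx
    have hby : b ≤ y := hb hy
    simp only [Set.mem_singleton_iff]
    have : a + y = x + b := hxy
    linarith
  have m2 : MeasurableSet ((fun y => a + y) '' B) :=
    (hB.image (continuous_const.add continuous_id)).isClosed.measurableSet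
  have e1 : volume ((fun x => x + b) '' A) = volume A := by
    rw [Set.image_add_right]
    exact measure_preimage_add_right volume (-b) A
  have e2 : volume ((fun y => a + y) '' B) = volume B := by
    rw [Set.image_add_left]
    exact measure_preimage_add volume (-a) B
  calc volume A + volume B
      = volume ((fun x => x + b) '' A) + volume ((fun y => a + y) '' B) := by rw [e1, e2]
    _ = volume (((fun x => x + b) '' A) ∪ ((fun y => a + y) '' B))
          + volume (((fun x => x + b) '' A) ∩ ((fun y => a + y) '' B)) :=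
        (measure_union_add_inter _ m2).symm
    _ ≤ volume (A + B) + volume ({a + b} : Set ℝ) :=
        add_le_add (measure_mono (Set.union_subset h1 h2)) (measure_mono h3)
    _ = volume (A + B) := by simp

/-- Midpoint form for compact sets. -/
theorem volume_add_le_two_mul_compact {A B C : Set ℝ} (hA : IsCompact A) (hB : IsCompact B)
    (hAn : A.Nonempty) (hBn : B.Nonempty)
    (hC : ∀ x ∈ A, ∀ y ∈ B, (x + y) / 2 ∈ C) :
    volume A + volume B ≤ 2 * volume C := by
  have hsub : A + B ⊆ (fun z : ℝ => (1 / 2 : ℝ) * z) ⁻¹' C := by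
    rintro _ ⟨x, hx, y, hy, rfl⟩
    have := hC x hx y hy
    simp only [Set.mem_preimage]
    convert this using 1
    ring
  calc volume A + volume B ≤ volume (A + B) := volume_add_compact hA hB hAn hBn
    _ ≤ volume ((fun z : ℝ => (1 / 2 : ℝ) * z) ⁻¹' C) := measure_mono hsub
    _ = 2 * volume C := by
        rw [Real.volume_preimage_mul_left (by norm_num : (1 / 2 : ℝ) ≠ 0)]
        norm_num

/-- One-dimensional Brunn–Minkowski, midpoint form, for nonempty measurable sets `A`, `B`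
and any set `C` containing all midpoints. -/
theorem volume_add_le_two_mul {A B C : Set ℝ} (hA : MeasurableSet A) (hB : MeasurableSet B)
    (hAn : A.Nonempty) (hBn : B.Nonempty)
    (hC : ∀ x ∈ A, ∀ y ∈ B, (x + y) / 2 ∈ C) :
    volume A + volume B ≤ 2 * volume C := by
  obtain ⟨a0, ha0⟩ := hAn
  obtain ⟨b0, hb0⟩ := hBn
  -- Step 1: compact subsets
  have key : ∀ KA KB : Set ℝ, KA ⊆ A → IsCompact KA → KB ⊆ B → IsCompact KB →
      volume KA + volume KB ≤ 2 * volume C := by
    intro KA KB hKA cKA hKB cKB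
    have cA' : IsCompact (KA ∪ {a0}) := cKA.union isCompact_singleton
    have cB' : IsCompact (KB ∪ {b0}) := cKB.union isCompact_singleton
    have sA' : KA ∪ {a0} ⊆ A := Set.union_subset hKA (Set.singleton_subset_iff.mpr ha0)
    have sB' : KB ∪ {b0} ⊆ B := Set.union_subset hKB (Set.singleton_subset_iff.mpr hb0)
    calc volume KA + volume KB ≤ volume (KA ∪ {a0}) + volume (KB ∪ {b0}) :=
          add_le_add (measure_mono Set.subset_union_left) (measure_mono Set.subset_union_left)
      _ ≤ 2 * volume C :=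
          volume_add_le_two_mul_compact cA' cB' ⟨a0, Or.inr rfl⟩ ⟨b0, Or.inr rfl⟩
            (fun x hx y hy => hC x (sA' hx) y (sB' hy))
  -- Step 2: sup over compact subsets of A
  have key2 : ∀ KB : Set ℝ, KB ⊆ B → IsCompact KB → volume A + volume KB ≤ 2 * volume C := by
    intro KB hKB cKB
    have hfin : volume KB ≠ ∞ := cKB.measure_lt_top.ne
    have hle : volume KB ≤ 2 * volume C := by
      have := key ∅ KB (Set.empty_subset _) isCompact_empty hKB cKB
      simpa using this
    have hA' : volume A ≤ 2 * volume C - volume KB := by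
      rw [hA.measure_eq_iSup_isCompact]
      refine iSup_le fun K => iSup_le fun hK => iSup_le fun cK => ?_
      exact ENNReal.le_sub_of_add_le_right hfin (key K KB hK cK hKB cKB)
    calc volume A + volume KB ≤ (2 * volume C - volume KB) + volume KB := by gcongr
      _ = 2 * volume C := tsub_add_cancel_of_le hle
  -- Step 3: sup over compact subsets of B
  by_cases hAtop : volume A = ∞
  · -- then 2 * volume C = ∞
    have := key2 ∅ (Set.empty_subset _) isCompact_empty
    rw [hAtop] at this ⊢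
    simp only [measure_empty, add_zero, top_le_iff] at this
    rw [this]
    exact le_top
  have hle : volume A ≤ 2 * volume C := by
    have := key2 ∅ (Set.empty_subset _) isCompact_empty
    simpa using this
  have hB' : volume B ≤ 2 * volume C - volume A := by
    rw [hB.measure_eq_iSup_isCompact]
    refine iSup_le fun K => iSup_le fun hK => iSup_le fun cK => ?_
    refine ENNReal.le_sub_of_add_le_right hAtop ?_
    rw [add_comm]
    exact key2 K hK cK
  calc volume A + volume B ≤ volume A + (2 * volume C - volume A) := by gcongr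
    _ = 2 * volume C := add_tsub_cancel_of_le hle

/-! ### One-dimensional Prékopa–Leindler -/

/-- Normalized one-dimensional Prékopa–Leindler: if `f, g ≤ S` pointwise, both exceed every level
`t < S` somewhere, and `f x * g y ≤ h ((x+y)/2)^2`, then `∫ f + ∫ g ≤ 2 ∫ h`. -/
theorem pl_real_normalized (f g h : ℝ → ℝ≥0∞) (hf : Measurable f) (hg : Measurable g)
    (hh : Measurable h) (S : ℝ)
    (hfS : ∀ x, f x ≤ ENNReal.ofReal S) (hgS : ∀ x, g x ≤ ENNReal.ofReal S)
    (hfsup : ∀ t : ℝ, 0 < t → t < S → ∃ x, ENNReal.ofReal t < f x)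
    (hgsup : ∀ t : ℝ, 0 < t → t < S → ∃ x, ENNReal.ofReal t < g x)
    (H : ∀ x y, f x * g y ≤ h ((x + y) / 2) ^ 2) :
    (∫⁻ x, f x) + ∫⁻ x, g x ≤ 2 * ∫⁻ x, h x := by
  have fne : ∀ x, f x ≠ ∞ := fun x => ne_top_of_le_ne_top ENNReal.ofReal_ne_top (hfS x)
  have gne : ∀ x, g x ≠ ∞ := fun x => ne_top_of_le_ne_top ENNReal.ofReal_ne_top (hgS x)
  set h' : ℝ → ℝ≥0∞ := fun x => min (h x) (ENNReal.ofReal S) with h'def
  have h'S : ∀ x, h' x ≤ ENNReal.ofReal S := fun x => min_le_right _ _
  have h'ne : ∀ x, h' x ≠ ∞ := fun x => ne_top_of_le_ne_top ENNReal.ofReal_ne_top (h'S x)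
  have hh' : Measurable h' := hh.min measurable_const
  have layer : ∀ u : ℝ → ℝ≥0∞, Measurable u → (∀ x, u x ≠ ∞) →
      ∫⁻ x, u x = ∫⁻ t in Ioi (0 : ℝ), volume {x | t < (u x).toReal} := by
    intro u hu une
    rw [← lintegral_eq_lintegral_meas_lt volume
      (Filter.Eventually.of_forall fun x => ENNReal.toReal_nonneg) hu.ennreal_toReal.aemeasurable]
    exact lintegral_congr fun x => (ENNReal.ofReal_toReal (une x)).symm
  have pt : ∀ t : ℝ, t ∈ Ioi (0 : ℝ) →
      volume {x | t < (f x).toReal} + volume {x | t < (g x).toReal}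
        ≤ 2 * volume {x | t < (h' x).toReal} := by
    intro t ht
    have ht0 : (0 : ℝ) < t := ht
    by_cases htS : t < S
    · refine volume_add_le_two_mul (measurableSet_lt measurable_const hf.ennreal_toReal)
        (measurableSet_lt measurable_const hg.ennreal_toReal) ?_ ?_ ?_
      · obtain ⟨x, hx⟩ := hfsup t ht0 htS
        exact ⟨x, (ENNReal.ofReal_lt_iff_lt_toReal ht0.le (fne x)).mp hx⟩
      · obtain ⟨x, hx⟩ := hgsup t ht0 htS
        exact ⟨x, (ENNReal.ofReal_lt_iff_lt_toReal ht0.le (gne x)).mp hx⟩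
      · intro x hx y hy
        have hx' : ENNReal.ofReal t < f x := (ENNReal.ofReal_lt_iff_lt_toReal ht0.le (fne x)).mpr hx
        have hy' : ENNReal.ofReal t < g y := (ENNReal.ofReal_lt_iff_lt_toReal ht0.le (gne y)).mpr hy
        have hprod : ENNReal.ofReal t * ENNReal.ofReal t < h ((x + y) / 2) ^ 2 :=
          lt_of_lt_of_le (ENNReal.mul_lt_mul hx' hy') (H x y)
        have hlt : ENNReal.ofReal t < h ((x + y) / 2) := by
          by_contra hcon
          have hle : h ((x + y) / 2) ≤ ENNReal.ofReal t := not_lt.mp hcon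
          have : h ((x + y) / 2) ^ 2 ≤ ENNReal.ofReal t * ENNReal.ofReal t := by
            rw [sq]; exact mul_le_mul' hle hle
          exact absurd hprod (not_lt.mpr this)
        have hlt' : ENNReal.ofReal t < h' ((x + y) / 2) :=
          lt_min hlt (ENNReal.ofReal_lt_ofReal_iff (lt_trans ht0 htS) |>.mpr htS)
        exact (ENNReal.ofReal_lt_iff_lt_toReal ht0.le (h'ne _)).mp hlt'
    · have hSt : S ≤ t := not_lt.mp htS
      have e1 : {x | t < (f x).toReal} = ∅ := by
        ext x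
        simp only [Set.mem_ofPred_eq, Set.mem_empty_iff_false, iff_false, not_lt]
        calc (f x).toReal ≤ (ENNReal.ofReal S).toReal :=
              ENNReal.toReal_mono ENNReal.ofReal_ne_top (hfS x)
          _ ≤ t := by
              rcases le_or_gt 0 S with h0 | h0
              · rw [ENNReal.toReal_ofReal h0]; exact hSt
              · rw [ENNReal.ofReal_of_nonpos h0.le]; simpa using ht0.le
      have e2 : {x | t < (g x).toReal} = ∅ := by
        ext x
        simp only [Set.mem_ofPred_eq, Set.mem_empty_iff_false, iff_false, not_lt]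
        calc (g x).toReal ≤ (ENNReal.ofReal S).toReal :=
              ENNReal.toReal_mono ENNReal.ofReal_ne_top (hgS x)
          _ ≤ t := by
              rcases le_or_gt 0 S with h0 | h0
              · rw [ENNReal.toReal_ofReal h0]; exact hSt
              · rw [ENNReal.ofReal_of_nonpos h0.le]; simpa using ht0.le
      rw [e1, e2]
      simp
  calc (∫⁻ x, f x) + ∫⁻ x, g x
      = (∫⁻ t in Ioi (0 : ℝ), volume {x | t < (f x).toReal})
          + ∫⁻ t in Ioi (0 : ℝ), volume {x | t < (g x).toReal} := by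
        rw [layer f hf fne, layer g hg gne]
    _ ≤ ∫⁻ t in Ioi (0 : ℝ), (volume {x | t < (f x).toReal} + volume {x | t < (g x).toReal}) :=
        le_lintegral_add _ _
    _ ≤ ∫⁻ t in Ioi (0 : ℝ), 2 * volume {x | t < (h' x).toReal} :=
        setLIntegral_mono' measurableSet_Ioi pt
    _ = 2 * ∫⁻ t in Ioi (0 : ℝ), volume {x | t < (h' x).toReal} :=
        lintegral_const_mul' _ _ (by norm_num)
    _ = 2 * ∫⁻ x, h' x := by rw [layer h' hh' h'ne]
    _ ≤ 2 * ∫⁻ x, h x := by
        gcongr with x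
        exact min_le_left _ _

/-- AM–GM in `ℝ≥0∞`: if `X + Y ≤ 2 Z` then `X * Y ≤ Z ^ 2`. -/
theorem mul_le_sq_of_add_le_two_mul {X Y Z : ℝ≥0∞} (h : X + Y ≤ 2 * Z) : X * Y ≤ Z ^ 2 := by
  by_cases hZ : Z = ∞
  · rw [hZ]; simp
  have h2Z : 2 * Z ≠ ∞ := ENNReal.mul_ne_top (by norm_num) hZ
  have hX : X ≠ ∞ := ne_top_of_le_ne_top h2Z (le_trans le_self_add h)
  have hY : Y ≠ ∞ := ne_top_of_le_ne_top h2Z (le_trans le_add_self h)
  lift X to NNReal using hX
  lift Y to NNReal using hY
  lift Z to NNReal using hZ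
  have h' : (X : ℝ) + Y ≤ 2 * Z := by exact_mod_cast h
  have : (X : ℝ) * Y ≤ (Z : ℝ) ^ 2 := by nlinarith [sq_nonneg ((X : ℝ) - Y), X.coe_nonneg, Y.coe_nonneg, Z.coe_nonneg]
  exact_mod_cast this

/-- One-dimensional Prékopa–Leindler for bounded `f`, `g`. -/
theorem pl_real_bounded (f g h : ℝ → ℝ≥0∞) (hf : Measurable f) (hg : Measurable g)
    (hh : Measurable h) (N : ℝ≥0∞) (hN : N ≠ ∞) (hfN : ∀ x, f x ≤ N) (hgN : ∀ x, g x ≤ N)
    (H : ∀ x y, f x * g y ≤ h ((x + y) / 2) ^ 2) :
    (∫⁻ x, f x) * (∫⁻ x, g x) ≤ (∫⁻ x, h x) ^ 2 := by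
  by_cases hf0 : ∫⁻ x, f x = 0
  · rw [hf0]; simp
  by_cases hg0 : ∫⁻ x, g x = 0
  · rw [hg0]; simp
  have hFN : (⨆ x, f x) ≤ N := iSup_le hfN
  have hGN : (⨆ x, g x) ≤ N := iSup_le hgN
  have hFtop : (⨆ x, f x) ≠ ∞ := ne_top_of_le_ne_top hN hFN
  have hGtop : (⨆ x, g x) ≠ ∞ := ne_top_of_le_ne_top hN hGN
  have hF0 : (⨆ x, f x) ≠ 0 := by
    intro h0
    apply hf0
    have : ∀ x, f x = 0 := fun x => le_antisymm (h0 ▸ le_iSup f x) zero_le
    simp [this]
  have hG0 : (⨆ x, g x) ≠ 0 := by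
    intro h0
    apply hg0
    have : ∀ x, g x = 0 := fun x => le_antisymm (h0 ▸ le_iSup g x) zero_le
    simp [this]
  obtain ⟨a, haF⟩ : ∃ a : ℝ, a = (⨆ x, f x).toReal := ⟨_, rfl⟩
  obtain ⟨b, hbG⟩ : ∃ b : ℝ, b = (⨆ x, g x).toReal := ⟨_, rfl⟩
  have ha : 0 < a := haF ▸ ENNReal.toReal_pos hF0 hFtop
  have hb : 0 < b := hbG ▸ ENNReal.toReal_pos hG0 hGtop
  have hFa : (⨆ x, f x) = ENNReal.ofReal a := by rw [haF, ENNReal.ofReal_toReal hFtop]
  have hGb : (⨆ x, g x) = ENNReal.ofReal b := by rw [hbG, ENNReal.ofReal_toReal hGtop]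
  obtain ⟨lam, hlamdef⟩ : ∃ lam : ℝ, lam = Real.sqrt (b / a) := ⟨_, rfl⟩
  have hlam : 0 < lam := hlamdef ▸ Real.sqrt_pos.mpr (div_pos hb ha)
  have hlam2 : lam * lam = b / a := hlamdef ▸ Real.mul_self_sqrt (div_pos hb ha).le
  have hlam2' : lam * lam * a = b := by rw [hlam2]; field_simp
  have hS : lam⁻¹ * b = lam * a := by
    rw [← hlam2']; field_simp
  have hone : ENNReal.ofReal lam * ENNReal.ofReal lam⁻¹ = 1 := by
    rw [← ENNReal.ofReal_mul hlam.le, mul_inv_cancel₀ hlam.ne']; simp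
  have hl0 : ENNReal.ofReal lam ≠ 0 := by simpa using hlam
  have hli0 : ENNReal.ofReal lam⁻¹ ≠ 0 := by simpa using hlam
  have key := pl_real_normalized (fun x => ENNReal.ofReal lam * f x)
      (fun x => ENNReal.ofReal lam⁻¹ * g x) h
      (hf.const_mul _) (hg.const_mul _) hh (lam * a) ?_ ?_ ?_ ?_ ?_
  · rw [lintegral_const_mul _ hf, lintegral_const_mul _ hg] at key
    have h3 := mul_le_sq_of_add_le_two_mul key
    calc (∫⁻ x, f x) * (∫⁻ x, g x)
        = (ENNReal.ofReal lam * ENNReal.ofReal lam⁻¹) * ((∫⁻ x, f x) * (∫⁻ x, g x)) := by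
          rw [hone, one_mul]
      _ = (ENNReal.ofReal lam * ∫⁻ x, f x) * (ENNReal.ofReal lam⁻¹ * ∫⁻ x, g x) := by ring
      _ ≤ _ := h3
  · intro x
    rw [ENNReal.ofReal_mul hlam.le]
    gcongr
    exact (le_iSup f x).trans hFa.le
  · intro x
    rw [← hS, ENNReal.ofReal_mul (inv_nonneg.mpr hlam.le)]
    gcongr
    exact (le_iSup g x).trans hGb.le
  · intro t ht htS
    have h1 : t / lam < a := by rw [div_lt_iff₀ hlam]; linarith
    have h2 : ENNReal.ofReal (t / lam) < ⨆ x, f x := by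
      rw [hFa]; exact (ENNReal.ofReal_lt_ofReal_iff ha).mpr h1
    obtain ⟨x, hx⟩ := lt_iSup_iff.mp h2
    refine ⟨x, ?_⟩
    calc ENNReal.ofReal t = ENNReal.ofReal lam * ENNReal.ofReal (t / lam) := by
          rw [← ENNReal.ofReal_mul hlam.le]; congr 1; field_simp
      _ < ENNReal.ofReal lam * f x := ENNReal.mul_lt_mul_right hl0 ENNReal.ofReal_ne_top hx
  · intro t ht htS
    have h1 : t * lam < b := by
      have : t * lam < lam * a * lam := by nlinarith
      calc t * lam < lam * a * lam := this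
        _ = b := by rw [← hlam2']; ring
    have h2 : ENNReal.ofReal (t * lam) < ⨆ x, g x := by
      rw [hGb]; exact (ENNReal.ofReal_lt_ofReal_iff hb).mpr h1
    obtain ⟨x, hx⟩ := lt_iSup_iff.mp h2
    refine ⟨x, ?_⟩
    calc ENNReal.ofReal t = ENNReal.ofReal lam⁻¹ * ENNReal.ofReal (t * lam) := by
          rw [← ENNReal.ofReal_mul (inv_nonneg.mpr hlam.le)]; congr 1; field_simp
      _ < ENNReal.ofReal lam⁻¹ * g x := ENNReal.mul_lt_mul_right hli0 ENNReal.ofReal_ne_top hx
  · intro x y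
    calc ENNReal.ofReal lam * f x * (ENNReal.ofReal lam⁻¹ * g y)
        = (ENNReal.ofReal lam * ENNReal.ofReal lam⁻¹) * (f x * g y) := by ring
      _ = f x * g y := by rw [hone, one_mul]
      _ ≤ _ := H x y

/-- One-dimensional Prékopa–Leindler (θ = 1/2) for measurable functions `ℝ → ℝ≥0∞`. -/
theorem pl_real (f g h : ℝ → ℝ≥0∞) (hf : Measurable f) (hg : Measurable g)
    (hh : Measurable h) (H : ∀ x y, f x * g y ≤ h ((x + y) / 2) ^ 2) :
    (∫⁻ x, f x) * (∫⁻ x, g x) ≤ (∫⁻ x, h x) ^ 2 := by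
  have trunc : ∀ u : ℝ → ℝ≥0∞, Measurable u →
      ∫⁻ x, u x = ⨆ n : ℕ, ∫⁻ x, min (u x) (n : ℝ≥0∞) := by
    intro u hu
    rw [← lintegral_iSup (fun n => hu.min measurable_const)]
    · refine lintegral_congr fun x => ?_
      have h1 : (⨆ n : ℕ, min (u x) (n : ℝ≥0∞)) = min (u x) (⨆ n : ℕ, (n : ℝ≥0∞)) :=
        (inf_iSup_eq (u x) _).symm
      rw [h1, ENNReal.iSup_natCast, min_top_right]
    · intro n m hnm x
      exact min_le_min le_rfl (by exact_mod_cast hnm)
  rw [trunc f hf, trunc g hg, ENNReal.iSup_mul]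
  refine iSup_le fun n => ?_
  rw [ENNReal.mul_iSup]
  refine iSup_le fun m => ?_
  refine pl_real_bounded (fun x => min (f x) (n : ℝ≥0∞)) (fun x => min (g x) (m : ℝ≥0∞)) h
    (hf.min measurable_const) (hg.min measurable_const) hh ((n : ℝ≥0∞) + m) (by simp)
    (fun x => (min_le_right _ _).trans le_self_add) (fun x => (min_le_right _ _).trans le_add_self)
    (fun x y => ?_)
  exact (mul_le_mul' (min_le_left _ _) (min_le_left _ _)).trans (H x y)

/-! ### Induction on the dimension -/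

theorem piFinSuccAbove_symm_midpoint (n : ℕ) (s t : ℝ) (x y : Fin n → ℝ) :
    (MeasurableEquiv.piFinSuccAbove (fun _ : Fin (n + 1) => ℝ) 0).symm
        ((s + t) / 2, (1 / 2 : ℝ) • (x + y)) =
      (1 / 2 : ℝ) • ((MeasurableEquiv.piFinSuccAbove (fun _ : Fin (n + 1) => ℝ) 0).symm (s, x) +
        (MeasurableEquiv.piFinSuccAbove (fun _ : Fin (n + 1) => ℝ) 0).symm (t, y)) := by
  funext j
  simp only [MeasurableEquiv.piFinSuccAbove_symm_apply, Fin.insertNthEquiv, Equiv.coe_fn_mk,
    Pi.smul_apply, Pi.add_apply, smul_eq_mul]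
  refine Fin.cases ?_ (fun i => ?_) j
  · simp only [Fin.insertNth_zero, Fin.cons_zero]
    ring
  · simp only [Fin.insertNth_zero, Fin.cons_succ, Pi.smul_apply, Pi.add_apply, smul_eq_mul, cast_eq]

/-- Prékopa–Leindler (θ = 1/2) on `Fin n → ℝ`. -/
theorem pl_pi : ∀ (n : ℕ) (f g h : (Fin n → ℝ) → ℝ≥0∞), Measurable f → Measurable g →
    Measurable h → (∀ x y, f x * g y ≤ h ((1 / 2 : ℝ) • (x + y)) ^ 2) →
    (∫⁻ x, f x) * (∫⁻ x, g x) ≤ (∫⁻ x, h x) ^ 2 := by
  intro n
  induction n with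
  | zero =>
    intro f g h hf hg hh H
    have hvol : (volume : Measure (Fin 0 → ℝ)) = Measure.dirac default := by
      rw [volume_pi]
      exact Measure.pi_of_empty _ _
    rw [hvol, lintegral_dirac' _ hf, lintegral_dirac' _ hg, lintegral_dirac' _ hh]
    have h1 := H default default
    have h2 : ((1 / 2 : ℝ) • ((default : Fin 0 → ℝ) + default)) = default :=
      Subsingleton.elim _ _
    rwa [h2] at h1
  | succ n ih =>
    intro f g h hf hg hh H
    have mp : MeasurePreserving (MeasurableEquiv.piFinSuccAbove (fun _ : Fin (n + 1) => ℝ) 0)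
        volume volume := volume_preserving_piFinSuccAbove (fun _ => ℝ) 0
    have key : ∀ u : (Fin (n + 1) → ℝ) → ℝ≥0∞, Measurable u →
        ∫⁻ x, u x = ∫⁻ t : ℝ, ∫⁻ z : Fin n → ℝ,
          u ((MeasurableEquiv.piFinSuccAbove (fun _ : Fin (n + 1) => ℝ) 0).symm (t, z)) := by
      intro u hu
      have h1 : ∫⁻ x, u x = ∫⁻ p : ℝ × (Fin n → ℝ),
          u ((MeasurableEquiv.piFinSuccAbove (fun _ : Fin (n + 1) => ℝ) 0).symm p) :=
        ((mp.symm _).lintegral_comp hu).symm
      rw [h1, Measure.volume_eq_prod]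
      exact lintegral_prod _ (hu.comp (MeasurableEquiv.measurable _)).aemeasurable
    have slice : ∀ u : (Fin (n + 1) → ℝ) → ℝ≥0∞, Measurable u → ∀ t : ℝ,
        Measurable (fun z : Fin n → ℝ =>
          u ((MeasurableEquiv.piFinSuccAbove (fun _ : Fin (n + 1) => ℝ) 0).symm (t, z))) := by
      intro u hu t
      exact hu.comp ((MeasurableEquiv.measurable _).comp (measurable_const.prodMk measurable_id))
    have meas : ∀ u : (Fin (n + 1) → ℝ) → ℝ≥0∞, Measurable u →
        Measurable (fun t : ℝ => ∫⁻ z : Fin n → ℝ,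
          u ((MeasurableEquiv.piFinSuccAbove (fun _ : Fin (n + 1) => ℝ) 0).symm (t, z))) := by
      intro u hu
      exact (hu.comp (MeasurableEquiv.measurable _)).lintegral_prod_right'
    rw [key f hf, key g hg, key h hh]
    refine pl_real _ _ _ (meas f hf) (meas g hg) (meas h hh) (fun s t => ?_)
    refine ih _ _ _ (slice f hf s) (slice g hg t) (slice h hh ((s + t) / 2)) (fun x y => ?_)
    rw [piFinSuccAbove_symm_midpoint]
    exact H _ _

/-- Prékopa–Leindler (θ = 1/2) on `EuclideanSpace ℝ (Fin n)`. -/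
theorem pl_euclidean (n : ℕ) (f g h : EuclideanSpace ℝ (Fin n) → ℝ≥0∞) (hf : Measurable f)
    (hg : Measurable g) (hh : Measurable h)
    (H : ∀ x y, f x * g y ≤ h ((1 / 2 : ℝ) • (x + y)) ^ 2) :
    (∫⁻ x, f x) * (∫⁻ x, g x) ≤ (∫⁻ x, h x) ^ 2 := by
  have mp : MeasurePreserving (@WithLp.toLp 2 (Fin n → ℝ)) volume volume :=
    PiLp.volume_preserving_toLp (Fin n)
  have hm : Measurable (@WithLp.toLp 2 (Fin n → ℝ)) := mp.measurable
  rw [← mp.lintegral_comp hf, ← mp.lintegral_comp hg, ← mp.lintegral_comp hh]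
  refine pl_pi n _ _ _ (hf.comp hm) (hg.comp hm) (hh.comp hm) (fun x y => ?_)
  have h1 : WithLp.toLp 2 ((1 / 2 : ℝ) • (x + y)) =
      (1 / 2 : ℝ) • (WithLp.toLp 2 x + WithLp.toLp 2 y : EuclideanSpace ℝ (Fin n)) := by
    rw [WithLp.toLp_smul, WithLp.toLp_add]
  rw [h1]
  exact H _ _

end Crest.Agent.LibS0109PL15

namespace Crest.Agent.LibS0109

/-- Package **PL**: Prékopa–Leindler with `θ = 1/2`. -/
theorem pkg_PL : St_PL := fun d f g h hf hg hh H =>
  Crest.Agent.LibS0109PL15.pl_euclidean d f g h hf hg hh H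

end Crest.Agent.LibS0109
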