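import Mathlib
import Crest.Agent.Lib_S0109_Defs
import Crest.Agent.Lib_S0109_UBDefs_h25

/-!
# Row 82, package UB, first half: `pkg_BT : St_PL → St_BT` (helper11).

Prékopa–Leindler with a Gaussian weight and a Lipschitz tilt (SBM), summed over the cells (BT).
-/

set_option autoImplicit false
open MeasureTheory
open scoped ENNReal NNReal InnerProductSpace

namespace Crest.Agent.LibS0109
namespace UBBT11

variable {d : ℕ}

theorem gw_eq (lam : ℝ) (x0 x : E d) :
    gw lam x0 x = Real.exp (-(lam / 2 * ‖x - x0‖ ^ 2)) := rfl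

theorem Gm_eq (lam : ℝ) (x0 : E d) (S : Set (E d)) :
    Gm lam x0 S = ∫ x in S, gw lam x0 x := rfl

theorem Emean_eq (lam : ℝ) (x0 : E d) (S : Set (E d)) (ζ : E d → ℝ) :
    Emean lam x0 S ζ = (Gm lam x0 S)⁻¹ * ∫ x in S, ζ x * gw lam x0 x := rfl

theorem gw_pos (lam : ℝ) (x0 x : E d) : 0 < gw lam x0 x := Real.exp_pos _

theorem continuous_gw (lam : ℝ) (x0 : E d) : Continuous (gw lam x0) := by
  have : gw lam x0 = fun x => Real.exp (-(lam / 2 * ‖x - x0‖ ^ 2)) := rfl
  rw [this]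
  fun_prop

/-- Continuous functions are integrable on subsets of a closed ball. -/
theorem integrableOn_of_continuous {φ : E d → ℝ} (hφ : Continuous φ) {S : Set (E d)} {x0 : E d}
    {R : ℝ} (hS : S ⊆ Metric.closedBall x0 R) : IntegrableOn φ S volume :=
  (hφ.continuousOn.integrableOn_compact (isCompact_closedBall x0 R)).mono_set hS

theorem Gm_nonneg (lam : ℝ) (x0 : E d) (S : Set (E d)) : 0 ≤ Gm lam x0 S := by
  rw [Gm_eq]
  exact integral_nonneg fun x => (gw_pos lam x0 x).le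

theorem Gm_pos (lam : ℝ) (x0 : E d) {R : ℝ} {S : Set (E d)} (hS : S ⊆ Metric.closedBall x0 R)
    (h0 : 0 < volume.real S) : 0 < Gm lam x0 S := by
  rw [Gm_eq, setIntegral_pos_iff_support_of_nonneg_ae]
  · have : Function.support (gw lam x0) = Set.univ := by
      ext x; simp [(gw_pos lam x0 x).ne']
    rw [this, Set.univ_inter]
    by_contra hne
    have : volume S = 0 := by simpa using hne
    simp [measureReal_def, this] at h0
  · exact Filter.Eventually.of_forall fun x => (gw_pos lam x0 x).le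
  · exact integrableOn_of_continuous (continuous_gw lam x0) hS

/-- Integral over an a.e. partition. -/
theorem sum_setIntegral_eq {N : ℕ} {φ : E d → ℝ} {K : Set (E d)} {A : Fin N → Set (E d)}
    (hφ : IntegrableOn φ K volume) (hA : ∀ i, MeasurableSet (A i) ∧ A i ⊆ K)
    (hAd : ∀ i j, i ≠ j → volume (A i ∩ A j) = 0) (hAc : volume (K \ ⋃ i, A i) = 0) :
    ∑ i, ∫ x in A i, φ x = ∫ x in K, φ x := by
  have hsub : (⋃ i, A i) ⊆ K := Set.iUnion_subset fun i => (hA i).2
  have hae : (K : Set (E d)) =ᵐ[volume] ⋃ i, A i := by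
    rw [ae_eq_set]
    refine ⟨hAc, ?_⟩
    rw [Set.sdiff_eq_empty.mpr hsub]; simp
  rw [setIntegral_congr_set hae, integral_iUnion_ae (fun i => (hA i).1.nullMeasurableSet)
    (fun i j hij => hAd i j hij) (hφ.mono_set hsub), tsum_fintype]

/-- Integral over an a.e. disjoint family inside `K`. -/
theorem sum_setIntegral_le {N : ℕ} {φ : E d → ℝ} {K : Set (E d)} {A : Fin N → Set (E d)}
    (hφ : IntegrableOn φ K volume) (hφ0 : ∀ x, 0 ≤ φ x) (hA : ∀ i, MeasurableSet (A i) ∧ A i ⊆ K)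
    (hAd : ∀ i j, i ≠ j → volume (A i ∩ A j) = 0) :
    ∑ i, ∫ x in A i, φ x ≤ ∫ x in K, φ x := by
  have hsub : (⋃ i, A i) ⊆ K := Set.iUnion_subset fun i => (hA i).2
  have h1 : ∑ i, ∫ x in A i, φ x = ∫ x in ⋃ i, A i, φ x := by
    rw [integral_iUnion_ae (fun i => (hA i).1.nullMeasurableSet)
      (fun i j hij => hAd i j hij) (hφ.mono_set hsub), tsum_fintype]
  rw [h1]
  exact setIntegral_mono_set hφ (Filter.Eventually.of_forall hφ0)
    (Filter.Eventually.of_forall hsub)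

/-- Tangent-line Jensen for the exponential tilt. -/
theorem jensen_tilt (lam : ℝ) (x0 : E d) {R : ℝ} {S : Set (E d)} (hS : S ⊆ Metric.closedBall x0 R)
    (hG : 0 < Gm lam x0 S) {ζ : E d → ℝ} (hζ : Continuous ζ) (c : ℝ) :
    Real.exp (c * Emean lam x0 S ζ) * Gm lam x0 S ≤
      ∫ x in S, Real.exp (c * ζ x) * gw lam x0 x := by
  set m := Emean lam x0 S ζ with hm
  have hint1 : IntegrableOn (gw lam x0) S volume :=
    integrableOn_of_continuous (continuous_gw lam x0) hS
  have hint2 : IntegrableOn (fun x => ζ x * gw lam x0 x) S volume :=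
    integrableOn_of_continuous (hζ.mul (continuous_gw lam x0)) hS
  have hint3 : IntegrableOn (fun x => Real.exp (c * ζ x) * gw lam x0 x) S volume :=
    integrableOn_of_continuous
      ((Real.continuous_exp.comp (continuous_const.mul hζ)).mul (continuous_gw lam x0)) hS
  have hmean : ∫ x in S, ζ x * gw lam x0 x = m * Gm lam x0 S := by
    rw [hm, Emean_eq]; field_simp
  have hlin : ∫ x in S, (Real.exp (c * m) * (1 - c * m)) * gw lam x0 x
        + (Real.exp (c * m) * c) * (ζ x * gw lam x0 x) = Real.exp (c * m) * Gm lam x0 S := by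
    rw [integral_add (hint1.const_mul _) (hint2.const_mul _), integral_const_mul,
      integral_const_mul, hmean, ← Gm_eq]
    ring
  rw [← hlin]
  refine integral_mono ((hint1.const_mul _).add (hint2.const_mul _)) hint3 fun x => ?_
  have h1 : c * ζ x - c * m + 1 ≤ Real.exp (c * ζ x - c * m) := Real.add_one_le_exp _
  have h2 : Real.exp (c * ζ x) = Real.exp (c * m) * Real.exp (c * ζ x - c * m) := by
    rw [← Real.exp_add]; ring_nf
  have h3 : 0 < gw lam x0 x := gw_pos lam x0 x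
  have h4 : 0 < Real.exp (c * m) := Real.exp_pos _
  show Real.exp (c * m) * (1 - c * m) * gw lam x0 x + Real.exp (c * m) * c * (ζ x * gw lam x0 x)
    ≤ Real.exp (c * ζ x) * gw lam x0 x
  rw [h2]
  have : Real.exp (c * m) * (1 - c * m) * gw lam x0 x + Real.exp (c * m) * c * (ζ x * gw lam x0 x)
      = Real.exp (c * m) * (c * ζ x - c * m + 1) * gw lam x0 x := by ring
  rw [this]
  exact mul_le_mul_of_nonneg_right (mul_le_mul_of_nonneg_left h1 h4.le) h3.le

/-- The midpoint identity for the quadratic weight. -/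
theorem midpoint_sq (x0 x y : E d) :
    ‖(1 / 2 : ℝ) • (x + y) - x0‖ ^ 2
      = (‖x - x0‖ ^ 2 + ‖y - x0‖ ^ 2) / 2 - ‖x - y‖ ^ 2 / 4 := by
  have h1 : (1 / 2 : ℝ) • (x + y) - x0 = (1 / 2 : ℝ) • ((x - x0) + (y - x0)) := by
    rw [smul_add, smul_add, smul_sub, smul_sub]
    have : x0 = (1 / 2 : ℝ) • x0 + (1 / 2 : ℝ) • x0 := by
      rw [← add_smul]; norm_num
    nth_rewrite 1 [this]
    abel
  have h2 : x - y = (x - x0) - (y - x0) := by abel
  have h3 := parallelogram_law_with_norm ℝ (x - x0) (y - x0)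
  rw [h1, h2, norm_smul]
  have h4 : ‖(1 / 2 : ℝ)‖ = 1 / 2 := by norm_num
  rw [h4]
  nlinarith [h3]

/-- (SBM): the Gaussian Brunn–Minkowski inequality with a Lipschitz tilt. -/
theorem sbm (hPL : St_PL) (x0 : E d) {R lam L : ℝ} (hlam : 0 < lam) (hL : 0 < L)
    {K A B C : Set (E d)} (hK : K ⊆ Metric.closedBall x0 R)
    (hA : MeasurableSet A) (hAK : A ⊆ K) (hB : MeasurableSet B) (hBK : B ⊆ K)
    (hC : MeasurableSet C) (hCK : C ⊆ K)
    (hmid : ∀ x ∈ A, ∀ x' ∈ B, (1 / 2 : ℝ) • (x + x') ∈ C)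
    (hGA : 0 < Gm lam x0 A) (hGB : 0 < Gm lam x0 B)
    {ζ : E d → ℝ} (hζc : Continuous ζ)
    (hζ : ∀ x ∈ K, ∀ x' ∈ K, |ζ x - ζ x'| ≤ L * ‖x - x'‖) :
    Gm lam x0 A * Gm lam x0 B *
        Real.exp (lam / (4 * L ^ 2) * (Emean lam x0 A ζ - Emean lam x0 B ζ) ^ 2)
      ≤ (Gm lam x0 C) ^ 2 := by
  set Δ := Emean lam x0 A ζ - Emean lam x0 B ζ with hΔ
  set c : ℝ := lam * Δ / (2 * L ^ 2) with hc
  set κ : ℝ := Real.exp (c ^ 2 * L ^ 2 / (2 * lam)) with hκ
  have hκ0 : 0 < κ := Real.exp_pos _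
  -- the three functions
  set FA : E d → ℝ := fun x => Real.exp (c * ζ x) * gw lam x0 x with hFA
  set FB : E d → ℝ := fun x => Real.exp ((-c) * ζ x) * gw lam x0 x with hFB
  set FC : E d → ℝ := fun x => κ * gw lam x0 x with hFC
  have hFAc : Continuous FA :=
    (Real.continuous_exp.comp (continuous_const.mul hζc)).mul (continuous_gw lam x0)
  have hFBc : Continuous FB :=
    (Real.continuous_exp.comp (continuous_const.mul hζc)).mul (continuous_gw lam x0)
  have hFCc : Continuous FC := continuous_const.mul (continuous_gw lam x0)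
  have hFA0 : ∀ x, 0 ≤ FA x := fun x => (mul_pos (Real.exp_pos _) (gw_pos lam x0 x)).le
  have hFB0 : ∀ x, 0 ≤ FB x := fun x => (mul_pos (Real.exp_pos _) (gw_pos lam x0 x)).le
  have hFC0 : ∀ x, 0 ≤ FC x := fun x => (mul_pos hκ0 (gw_pos lam x0 x)).le
  -- pointwise inequality
  have hpt : ∀ x ∈ A, ∀ y ∈ B, FA x * FB y ≤ FC ((1 / 2 : ℝ) • (x + y)) ^ 2 := by
    intro x hx y hy
    have hl := hζ x (hAK hx) y (hBK hy)
    set r := ‖x - y‖ with hr
    have hr0 : 0 ≤ r := norm_nonneg _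
    have h1 : c * (ζ x - ζ y) ≤ |c| * (L * r) := by
      calc c * (ζ x - ζ y) ≤ |c * (ζ x - ζ y)| := le_abs_self _
        _ = |c| * |ζ x - ζ y| := abs_mul _ _
        _ ≤ |c| * (L * r) := mul_le_mul_of_nonneg_left hl (abs_nonneg _)
    have h2 : |c| * (L * r) ≤ lam * r ^ 2 / 4 + c ^ 2 * L ^ 2 / lam := by
      have h3 : 0 ≤ (lam * r / 2 - |c| * L) ^ 2 := sq_nonneg _
      have h4 : |c| ^ 2 = c ^ 2 := sq_abs c
      have h5 : c ^ 2 * L ^ 2 / lam = (|c| * L) ^ 2 / lam := by rw [mul_pow, h4]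
      rw [h5, ← sub_nonneg]
      have h6 : lam * r ^ 2 / 4 + (|c| * L) ^ 2 / lam - |c| * (L * r)
          = (lam * r / 2 - |c| * L) ^ 2 / lam := by
        field_simp; ring
      rw [h6]
      exact div_nonneg h3 hlam.le
    have hmidsq := midpoint_sq x0 x y
    have hkey : c * ζ x + -(lam / 2 * ‖x - x0‖ ^ 2) + ((-c) * ζ y + -(lam / 2 * ‖y - x0‖ ^ 2))
        ≤ 2 * (c ^ 2 * L ^ 2 / (2 * lam) + -(lam / 2 * ‖(1 / 2 : ℝ) • (x + y) - x0‖ ^ 2)) := by
      rw [hmidsq]
      have h7 : c ^ 2 * L ^ 2 / (2 * lam) = (c ^ 2 * L ^ 2 / lam) / 2 := by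
        field_simp
      rw [h7]
      nlinarith [h1, h2]
    have e1 : FA x * FB y = Real.exp (c * ζ x + -(lam / 2 * ‖x - x0‖ ^ 2)
        + ((-c) * ζ y + -(lam / 2 * ‖y - x0‖ ^ 2))) := by
      rw [Real.exp_add, Real.exp_add, Real.exp_add]; rfl
    have e2 : FC ((1 / 2 : ℝ) • (x + y)) ^ 2 = Real.exp (2 * (c ^ 2 * L ^ 2 / (2 * lam)
        + -(lam / 2 * ‖(1 / 2 : ℝ) • (x + y) - x0‖ ^ 2))) := by
      rw [two_mul, Real.exp_add, Real.exp_add, sq]; rfl
    rw [e1, e2]
    exact Real.exp_le_exp.mpr hkey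
  -- the ENNReal functions
  set f : E d → ℝ≥0∞ := A.indicator (fun x => ENNReal.ofReal (FA x)) with hf
  set g : E d → ℝ≥0∞ := B.indicator (fun x => ENNReal.ofReal (FB x)) with hg
  set h : E d → ℝ≥0∞ := C.indicator (fun x => ENNReal.ofReal (FC x)) with hh
  have hfm : Measurable f := (hFAc.measurable.ennreal_ofReal).indicator hA
  have hgm : Measurable g := (hFBc.measurable.ennreal_ofReal).indicator hB
  have hhm : Measurable h := (hFCc.measurable.ennreal_ofReal).indicator hC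
  have H : ∀ x y, f x * g y ≤ h ((1 / 2 : ℝ) • (x + y)) ^ 2 := by
    intro x y
    by_cases hx : x ∈ A
    · by_cases hy : y ∈ B
      · have hm := hmid x hx y hy
        rw [hf, hg, hh, Set.indicator_of_mem hx, Set.indicator_of_mem hy, Set.indicator_of_mem hm,
          ← ENNReal.ofReal_mul (hFA0 x), ← ENNReal.ofReal_pow (hFC0 _)]
        exact ENNReal.ofReal_le_ofReal (hpt x hx y hy)
      · rw [hg, Set.indicator_of_notMem hy, mul_zero]; exact zero_le
    · rw [hf, Set.indicator_of_notMem hx, zero_mul]; exact zero_le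
  have hPL' := hPL d f g h hfm hgm hhm H
  -- integrals
  have hAb : A ⊆ Metric.closedBall x0 R := hAK.trans hK
  have hBb : B ⊆ Metric.closedBall x0 R := hBK.trans hK
  have hCb : C ⊆ Metric.closedBall x0 R := hCK.trans hK
  have hIA : ∫⁻ x, f x = ENNReal.ofReal (∫ x in A, FA x) := by
    rw [hf, lintegral_indicator hA, ofReal_integral_eq_lintegral_ofReal
      (integrableOn_of_continuous hFAc hAb) (Filter.Eventually.of_forall hFA0)]
  have hIB : ∫⁻ x, g x = ENNReal.ofReal (∫ x in B, FB x) := by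
    rw [hg, lintegral_indicator hB, ofReal_integral_eq_lintegral_ofReal
      (integrableOn_of_continuous hFBc hBb) (Filter.Eventually.of_forall hFB0)]
  have hIC : ∫⁻ x, h x = ENNReal.ofReal (∫ x in C, FC x) := by
    rw [hh, lintegral_indicator hC, ofReal_integral_eq_lintegral_ofReal
      (integrableOn_of_continuous hFCc hCb) (Filter.Eventually.of_forall hFC0)]
  have hIA0 : 0 ≤ ∫ x in A, FA x := integral_nonneg hFA0
  have hIB0 : 0 ≤ ∫ x in B, FB x := integral_nonneg hFB0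
  have hIC0 : 0 ≤ ∫ x in C, FC x := integral_nonneg hFC0
  have hreal : (∫ x in A, FA x) * (∫ x in B, FB x) ≤ (∫ x in C, FC x) ^ 2 := by
    rw [hIA, hIB, hIC, ← ENNReal.ofReal_mul hIA0, ← ENNReal.ofReal_pow hIC0] at hPL'
    exact (ENNReal.ofReal_le_ofReal_iff (sq_nonneg _)).mp hPL'
  have hICeq : ∫ x in C, FC x = κ * Gm lam x0 C := by
    rw [hFC, integral_const_mul, ← Gm_eq]
  have hJA := jensen_tilt lam x0 hAb hGA hζc c
  have hJB := jensen_tilt lam x0 hBb hGB hζc (-c)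
  have hJA0 : 0 ≤ Real.exp (c * Emean lam x0 A ζ) * Gm lam x0 A :=
    (mul_pos (Real.exp_pos _) hGA).le
  have hJB0 : 0 ≤ Real.exp (-c * Emean lam x0 B ζ) * Gm lam x0 B :=
    (mul_pos (Real.exp_pos _) hGB).le
  have hchain : Real.exp (c * Emean lam x0 A ζ) * Gm lam x0 A
      * (Real.exp (-c * Emean lam x0 B ζ) * Gm lam x0 B) ≤ (κ * Gm lam x0 C) ^ 2 := by
    rw [← hICeq]
    exact le_trans (mul_le_mul hJA hJB hJB0 hIA0) hreal
  -- algebra
  have hexp1 : Real.exp (c * Emean lam x0 A ζ) * Real.exp (-c * Emean lam x0 B ζ)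
      = Real.exp (c * Δ) := by
    rw [← Real.exp_add, hΔ]; ring_nf
  have hexp2 : κ ^ 2 = Real.exp (c ^ 2 * L ^ 2 / lam) := by
    rw [hκ, sq, ← Real.exp_add]; ring_nf
  have hexp3 : lam / (4 * L ^ 2) * Δ ^ 2 = c * Δ - c ^ 2 * L ^ 2 / lam := by
    rw [hc]; field_simp; ring
  rw [hexp3, Real.exp_sub]
  have hchain' : Gm lam x0 A * Gm lam x0 B * Real.exp (c * Δ)
      ≤ Real.exp (c ^ 2 * L ^ 2 / lam) * Gm lam x0 C ^ 2 := by
    have : Real.exp (c * Emean lam x0 A ζ) * Gm lam x0 A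
      * (Real.exp (-c * Emean lam x0 B ζ) * Gm lam x0 B)
      = Gm lam x0 A * Gm lam x0 B * Real.exp (c * Δ) := by
      rw [← hexp1]; ring
    rw [← this, ← hexp2, ← mul_pow]
    exact hchain
  rw [← mul_div_assoc, div_le_iff₀ (Real.exp_pos _)]
  linarith [hchain']

end UBBT11

open UBBT11 in
/-- **BT**, the first half of package UB (steps (SBM) + (BT)). -/
theorem pkg_BT (hPL : St_PL) : St_BT := by
  intro d N x0 R lam L K A B Cm ζ hlam hL hK hKb hA hB hC hmid hAd hAc hBd hBc hCd hA0 hB0 hζc hζ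
  have hAb : ∀ i, A i ⊆ Metric.closedBall x0 R := fun i => (hA i).2.trans hKb
  have hBb : ∀ i, B i ⊆ Metric.closedBall x0 R := fun i => (hB i).2.trans hKb
  have hGA : ∀ i, 0 < Gm lam x0 (A i) := fun i => Gm_pos lam x0 (hAb i) (hA0 i)
  have hGB : ∀ i, 0 < Gm lam x0 (B i) := fun i => Gm_pos lam x0 (hBb i) (hB0 i)
  have hint : IntegrableOn (gw lam x0) K volume :=
    integrableOn_of_continuous (continuous_gw lam x0) hKb
  have hsumA : ∑ i, Gm lam x0 (A i) = Gm lam x0 K := sum_setIntegral_eq hint hA hAd hAc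
  have hsumB : ∑ i, Gm lam x0 (B i) = Gm lam x0 K := sum_setIntegral_eq hint hB hBd hBc
  have hsumC : ∑ i, Gm lam x0 (Cm i) ≤ Gm lam x0 K :=
    sum_setIntegral_le hint (fun x => (gw_pos lam x0 x).le) hC hCd
  refine ⟨by rw [hsumA, hsumB], ?_⟩
  -- per-cell inequality
  have hcell : ∀ i, Gm lam x0 (A i) * (lam / (4 * L ^ 2) *
        (Emean lam x0 (A i) (ζ i) - Emean lam x0 (B i) (ζ i)) ^ 2)
      ≤ 2 * (Gm lam x0 (Cm i) - Gm lam x0 (A i))
        + Gm lam x0 (A i) * Real.log (Gm lam x0 (A i) / Gm lam x0 (B i)) := by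
    intro i
    have hs := sbm hPL x0 hlam hL hKb (hA i).1 (hA i).2 (hB i).1 (hB i).2 (hC i).1 (hC i).2
      (hmid i) (hGA i) (hGB i) (hζc i) (hζ i)
    set a := Gm lam x0 (A i) with ha
    set b := Gm lam x0 (B i) with hb
    set cc := Gm lam x0 (Cm i) with hcc
    set t := lam / (4 * L ^ 2) * (Emean lam x0 (A i) (ζ i) - Emean lam x0 (B i) (ζ i)) ^ 2
      with ht
    have ha0 : 0 < a := hGA i
    have hb0 : 0 < b := hGB i
    have hc0 : 0 ≤ cc := Gm_nonneg lam x0 (Cm i)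
    have hpos : 0 < a * b * Real.exp t := mul_pos (mul_pos ha0 hb0) (Real.exp_pos _)
    have hcpos : 0 < cc := by
      rcases hc0.eq_or_lt with h | h
      · rw [← h] at hs; norm_num at hs; linarith
      · exact h
    have hlog : Real.log a + Real.log b + t ≤ 2 * Real.log cc := by
      have := Real.log_le_log hpos hs
      rw [Real.log_mul (mul_pos ha0 hb0).ne' (Real.exp_pos _).ne', Real.log_mul ha0.ne' hb0.ne',
        Real.log_exp, Real.log_pow] at this
      push_cast at this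
      exact this
    have hlog2 : Real.log (cc / a) ≤ cc / a - 1 := Real.log_le_sub_one_of_pos (div_pos hcpos ha0)
    rw [Real.log_div hcpos.ne' ha0.ne'] at hlog2
    rw [Real.log_div ha0.ne' hb0.ne']
    have h1 : a * t ≤ a * (2 * (Real.log cc - Real.log a) + (Real.log a - Real.log b)) :=
      mul_le_mul_of_nonneg_left (by linarith) ha0.le
    have h2 : a * (Real.log cc - Real.log a) ≤ cc - a := by
      have := mul_le_mul_of_nonneg_left hlog2 ha0.le
      have h3 : a * (cc / a - 1) = cc - a := by field_simp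
      rw [h3] at this
      exact this
    nlinarith [h1, h2]
  calc lam / (4 * L ^ 2) *
        ∑ i, Gm lam x0 (A i) * (Emean lam x0 (A i) (ζ i) - Emean lam x0 (B i) (ζ i)) ^ 2
      = ∑ i, Gm lam x0 (A i) * (lam / (4 * L ^ 2) *
        (Emean lam x0 (A i) (ζ i) - Emean lam x0 (B i) (ζ i)) ^ 2) := by
        rw [Finset.mul_sum]
        exact Finset.sum_congr rfl fun i _ => by ring
    _ ≤ ∑ i, (2 * (Gm lam x0 (Cm i) - Gm lam x0 (A i))
        + Gm lam x0 (A i) * Real.log (Gm lam x0 (A i) / Gm lam x0 (B i))) :=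
        Finset.sum_le_sum fun i _ => hcell i
    _ = 2 * (∑ i, Gm lam x0 (Cm i) - ∑ i, Gm lam x0 (A i))
        + ∑ i, Gm lam x0 (A i) * Real.log (Gm lam x0 (A i) / Gm lam x0 (B i)) := by
        rw [Finset.sum_add_distrib, ← Finset.mul_sum, Finset.sum_sub_distrib]
    _ ≤ ∑ i, Gm lam x0 (A i) * Real.log (Gm lam x0 (A i) / Gm lam x0 (B i)) := by
        rw [hsumA]; linarith [hsumC]

end Crest.Agent.LibS0109
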