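import Mathlib
import Crest.Agent.Lib_S0109_Defs

/-!
# Row 82, package UB: interface between the two halves (helper11).

`St_UB1` is the "transport-entropy" inequality obtained from Prékopa–Leindler with a Gaussian
weight and a Lipschitz tilt (steps (SBM) + (BT) of helper13's plan); `St_UB` follows from it by
the absorption step (ABS).

* `gW lam x0 x = exp (-(lam / 2 * ‖x - x0‖ ^ 2))` : Gaussian weight,
* `gMass lam x0 S = ∫ x in S, gW lam x0 x` : Gaussian mass of `S`,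
* `gMean lam x0 S ζ = (∫ x in S, ζ x * gW lam x0 x) / gMass lam x0 S` : Gaussian mean of `ζ` on `S`.

Downstream files: use the `rfl`-lemmas `gW_def`, `gMass_def`, `gMean_def`, `St_UB1_def`
(do not `unfold`/`simp [..]` the definitions themselves).
-/

set_option autoImplicit false
open MeasureTheory
open scoped ENNReal NNReal InnerProductSpace

namespace Crest.Agent.LibS0109

/-- Gaussian weight `exp (-(lam / 2) ‖x - x0‖²)`. -/
noncomputable def gW {d : ℕ} (lam : ℝ) (x0 : E d) (x : E d) : ℝ :=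
  Real.exp (-(lam / 2 * ‖x - x0‖ ^ 2))

/-- Gaussian mass of a set. -/
noncomputable def gMass {d : ℕ} (lam : ℝ) (x0 : E d) (S : Set (E d)) : ℝ :=
  ∫ x in S, gW lam x0 x

/-- Gaussian mean of a real function on a set. -/
noncomputable def gMean {d : ℕ} (lam : ℝ) (x0 : E d) (S : Set (E d)) (ζ : E d → ℝ) : ℝ :=
  (∫ x in S, ζ x * gW lam x0 x) / gMass lam x0 S

theorem gW_def {d : ℕ} (lam : ℝ) (x0 x : E d) :
    gW lam x0 x = Real.exp (-(lam / 2 * ‖x - x0‖ ^ 2)) := rfl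

theorem gMass_def {d : ℕ} (lam : ℝ) (x0 : E d) (S : Set (E d)) :
    gMass lam x0 S = ∫ x in S, gW lam x0 x := rfl

theorem gMean_def {d : ℕ} (lam : ℝ) (x0 : E d) (S : Set (E d)) (ζ : E d → ℝ) :
    gMean lam x0 S ζ = (∫ x in S, ζ x * gW lam x0 x) / gMass lam x0 S := rfl

/-- **UB1** (SBM + BT): transport-entropy inequality for three families of sets in
`K ⊆ closedBall x0 R` (`A`, `B` a.e. partitions of `K`, `Cm i` contains the midpoints of
`A i × B i`, the `Cm i` a.e. disjoint) and per-cell test functions `ζ i` which are continuous and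
`L`-Lipschitz on the ball. -/
def St_UB1 : Prop :=
  ∀ (d N : ℕ) (x0 : E d) (R lam L : ℝ) (K : Set (E d)) (A B Cm : Fin N → Set (E d))
    (ζ : Fin N → E d → ℝ),
    0 < R → 0 < lam → 0 < L → MeasurableSet K → K ⊆ Metric.closedBall x0 R →
    (∀ i, MeasurableSet (A i) ∧ A i ⊆ K) → (∀ i, MeasurableSet (B i) ∧ B i ⊆ K) →
    (∀ i, MeasurableSet (Cm i) ∧ Cm i ⊆ K) →
    (∀ i, ∀ x ∈ A i, ∀ x' ∈ B i, (1 / 2 : ℝ) • (x + x') ∈ Cm i) →
    (∀ i j, i ≠ j → volume (A i ∩ A j) = 0) → volume (K \ ⋃ i, A i) = 0 →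
    (∀ i j, i ≠ j → volume (B i ∩ B j) = 0) → volume (K \ ⋃ i, B i) = 0 →
    (∀ i j, i ≠ j → volume (Cm i ∩ Cm j) = 0) →
    (∀ i, 0 < volume.real (A i)) → (∀ i, 0 < volume.real (B i)) →
    (∀ i, Continuous (ζ i)) →
    (∀ i, ∀ x ∈ Metric.closedBall x0 R, ∀ x' ∈ Metric.closedBall x0 R,
      |ζ i x - ζ i x'| ≤ L * ‖x - x'‖) →
    lam / (4 * L ^ 2) * ∑ i, gMass lam x0 (A i) / gMass lam x0 K *
        (gMean lam x0 (A i) (ζ i) - gMean lam x0 (B i) (ζ i)) ^ 2 ≤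
      ∑ i, gMass lam x0 (A i) / gMass lam x0 K *
        Real.log (gMass lam x0 (A i) / gMass lam x0 (B i))

theorem St_UB1_def : St_UB1 ↔
  ∀ (d N : ℕ) (x0 : E d) (R lam L : ℝ) (K : Set (E d)) (A B Cm : Fin N → Set (E d))
    (ζ : Fin N → E d → ℝ),
    0 < R → 0 < lam → 0 < L → MeasurableSet K → K ⊆ Metric.closedBall x0 R →
    (∀ i, MeasurableSet (A i) ∧ A i ⊆ K) → (∀ i, MeasurableSet (B i) ∧ B i ⊆ K) →
    (∀ i, MeasurableSet (Cm i) ∧ Cm i ⊆ K) →
    (∀ i, ∀ x ∈ A i, ∀ x' ∈ B i, (1 / 2 : ℝ) • (x + x') ∈ Cm i) →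
    (∀ i j, i ≠ j → volume (A i ∩ A j) = 0) → volume (K \ ⋃ i, A i) = 0 →
    (∀ i j, i ≠ j → volume (B i ∩ B j) = 0) → volume (K \ ⋃ i, B i) = 0 →
    (∀ i j, i ≠ j → volume (Cm i ∩ Cm j) = 0) →
    (∀ i, 0 < volume.real (A i)) → (∀ i, 0 < volume.real (B i)) →
    (∀ i, Continuous (ζ i)) →
    (∀ i, ∀ x ∈ Metric.closedBall x0 R, ∀ x' ∈ Metric.closedBall x0 R,
      |ζ i x - ζ i x'| ≤ L * ‖x - x'‖) →
    lam / (4 * L ^ 2) * ∑ i, gMass lam x0 (A i) / gMass lam x0 K *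
        (gMean lam x0 (A i) (ζ i) - gMean lam x0 (B i) (ζ i)) ^ 2 ≤
      ∑ i, gMass lam x0 (A i) / gMass lam x0 K *
        Real.log (gMass lam x0 (A i) / gMass lam x0 (B i)) := Iff.rfl

end Crest.Agent.LibS0109
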