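import Mathlib
import Crest.Prelude.Def_QuadraticTransport

/-!
# Row 82 (S0110): measures of coordinate boxes in the cube `[-1,1]^d` (helper24).

`Q d = {x | ∀ i, |x i| ≤ 1}` in `EuclideanSpace ℝ (Fin d)`; `ρ = uniformProbOn (Q d)`.
Everything lives in the namespace `Crest.Agent.LibS0110Box24`.
-/

set_option autoImplicit false
open MeasureTheory
open scoped ENNReal NNReal
open Crest.AnalysisR.OT

namespace Crest.Agent.LibS0110Box24

/-- The cube `[-1,1]^d`. -/
def Q (d : ℕ) : Set (EuclideanSpace ℝ (Fin d)) := {x | ∀ i, |x i| ≤ 1}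

/-- A coordinate box. -/
def box {d : ℕ} (lo hi : Fin d → ℝ) : Set (EuclideanSpace ℝ (Fin d)) :=
  {x | ∀ i, lo i ≤ x i ∧ x i ≤ hi i}

variable {d : ℕ}

lemma isClosed_box (lo hi : Fin d → ℝ) : IsClosed (box lo hi) := by
  have : box lo hi = ⋂ i, ({x | lo i ≤ x i} ∩ {x | x i ≤ hi i}) := by
    ext x; simp [box]
  rw [this]
  refine isClosed_iInter fun i => IsClosed.inter ?_ ?_
  · exact isClosed_le continuous_const (by fun_prop)
  · exact isClosed_le (by fun_prop) continuous_const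

lemma measurableSet_box (lo hi : Fin d → ℝ) : MeasurableSet (box lo hi) :=
  (isClosed_box lo hi).measurableSet

lemma volume_box (lo hi : Fin d → ℝ) :
    volume (box lo hi) = ∏ i, ENNReal.ofReal (hi i - lo i) := by
  rw [← (PiLp.volume_preserving_toLp (Fin d)).measure_preimage
    (measurableSet_box lo hi).nullMeasurableSet]
  have : (@WithLp.toLp 2 (Fin d → ℝ)) ⁻¹' (box lo hi) = Set.Icc lo hi := by
    ext f
    simp only [box, Set.mem_preimage, Set.mem_ofPred_eq, Set.mem_Icc, Pi.le_def]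
    exact forall_and
  rw [this, Real.volume_Icc_pi]

lemma Q_eq_box : Q d = box (fun _ => -1) (fun _ => 1) := by
  ext x; simp [Q, box, abs_le]

lemma isClosed_Q : IsClosed (Q d) := by rw [Q_eq_box]; exact isClosed_box _ _

lemma measurableSet_Q : MeasurableSet (Q d) := isClosed_Q.measurableSet

lemma volume_Q : volume (Q d) = 2 ^ d := by
  rw [Q_eq_box, volume_box]
  simp only [sub_neg_eq_add]
  norm_num

lemma volume_Q_ne_zero : volume (Q d) ≠ 0 := by
  rw [volume_Q]; positivity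

lemma volume_Q_ne_top : volume (Q d) ≠ ⊤ := by
  rw [volume_Q]; exact ENNReal.pow_ne_top ENNReal.ofNat_ne_top

lemma convex_Q : Convex ℝ (Q d) := by
  intro x hx y hy a b ha hb hab i
  have hxi := abs_le.mp (hx i)
  have hyi := abs_le.mp (hy i)
  have : (a • x + b • y) i = a * x i + b * y i := by simp
  rw [this, abs_le]
  constructor <;> nlinarith

lemma norm_le_of_mem_Q {x : EuclideanSpace ℝ (Fin d)} (hx : x ∈ Q d) : ‖x‖ ≤ Real.sqrt d := by
  rw [EuclideanSpace.norm_eq]
  apply Real.sqrt_le_sqrt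
  calc ∑ i, ‖x i‖ ^ 2 ≤ ∑ _i : Fin d, (1 : ℝ) := Finset.sum_le_sum fun i _ => by
        have := hx i
        rw [Real.norm_eq_abs]
        exact pow_le_one₀ (abs_nonneg _) this
    _ = d := by simp

lemma isCompact_Q : IsCompact (Q d) := by
  refine Metric.isCompact_of_isClosed_isBounded isClosed_Q ?_
  exact (Metric.isBounded_iff_subset_closedBall 0).mpr ⟨Real.sqrt d, fun x hx => by
    simpa using norm_le_of_mem_Q hx⟩

lemma zero_mem_interior_Q : (0 : EuclideanSpace ℝ (Fin d)) ∈ interior (Q d) := by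
  rw [mem_interior_iff_mem_nhds, Metric.mem_nhds_iff]
  refine ⟨1, one_pos, fun x hx i => ?_⟩
  have h1 : ‖x‖ < 1 := by simpa using hx
  have h2 : ‖x i‖ ≤ ‖x‖ := PiLp.norm_apply_le x i
  rw [Real.norm_eq_abs] at h2
  linarith

lemma interior_Q_nonempty : (interior (Q d)).Nonempty := ⟨0, zero_mem_interior_Q⟩

lemma isProb_Q : IsProbabilityMeasure (uniformProbOn (Q d)) := ⟨by
  show ((volume (Q d))⁻¹ • volume.restrict (Q d)) Set.univ = 1
  rw [Measure.smul_apply, Measure.restrict_apply_univ, smul_eq_mul,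
    ENNReal.inv_mul_cancel volume_Q_ne_zero volume_Q_ne_top]⟩

lemma rho_apply {s : Set (EuclideanSpace ℝ (Fin d))} (hs : MeasurableSet s) :
    uniformProbOn (Q d) s = (volume (Q d))⁻¹ * volume (s ∩ Q d) := by
  show ((volume (Q d))⁻¹ • volume.restrict (Q d)) s = _
  rw [Measure.smul_apply, Measure.restrict_apply hs, smul_eq_mul]

lemma box_subset_Q {lo hi : Fin d → ℝ} (h : ∀ i, -1 ≤ lo i) (h' : ∀ i, hi i ≤ 1) :
    box lo hi ⊆ Q d := by
  intro x hx i
  rw [abs_le]
  exact ⟨(h i).trans (hx i).1, (hx i).2.trans (h' i)⟩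

/-- `ρ`-measure of a sub-box of the cube. -/
lemma rho_real_box {lo hi : Fin d → ℝ} (h : ∀ i, -1 ≤ lo i) (h' : ∀ i, hi i ≤ 1)
    (hle : ∀ i, lo i ≤ hi i) :
    (uniformProbOn (Q d)).real (box lo hi) = ∏ i, (hi i - lo i) / 2 := by
  rw [Measure.real, rho_apply (measurableSet_box lo hi),
    Set.inter_eq_left.mpr (box_subset_Q h h'), volume_Q, volume_box, ENNReal.toReal_mul,
    ENNReal.toReal_inv, ENNReal.toReal_pow, ENNReal.toReal_prod]
  simp only [ENNReal.toReal_ofNat]
  rw [Finset.prod_div_distrib, Finset.prod_const, Finset.card_univ, Fintype.card_fin,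
    inv_mul_eq_div]
  congr 1
  exact Finset.prod_congr rfl fun i _ => ENNReal.toReal_ofReal (sub_nonneg.mpr (hle i))

/-- The slab `{a ≤ x i0 ≤ b}` has `ρ`-measure `(b - a) / 2`. -/
lemma rho_real_slab (i0 : Fin d) {a b : ℝ} (ha : -1 ≤ a) (hab : a ≤ b) (hb : b ≤ 1) :
    (uniformProbOn (Q d)).real {x | a ≤ x i0 ∧ x i0 ≤ b} = (b - a) / 2 := by
  classical
  have hset : {x : EuclideanSpace ℝ (Fin d) | a ≤ x i0 ∧ x i0 ≤ b} ∩ Q d =
      box (Function.update (fun _ => (-1 : ℝ)) i0 a) (Function.update (fun _ => (1 : ℝ)) i0 b) := by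
    ext x
    simp only [Set.mem_inter_iff, Set.mem_ofPred_eq, Q, box]
    constructor
    · rintro ⟨⟨h1, h2⟩, hq⟩ i
      by_cases hi : i = i0
      · subst hi; simp [h1, h2]
      · simp only [Function.update_of_ne hi]
        exact abs_le.mp (hq i)
    · intro hx
      have h0 := hx i0
      simp only [Function.update_self] at h0
      refine ⟨h0, fun i => ?_⟩
      by_cases hi : i = i0
      · subst hi; rw [abs_le]; exact ⟨ha.trans h0.1, h0.2.trans hb⟩
      · have := hx i
        simp only [Function.update_of_ne hi] at this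
        exact abs_le.mpr this
  have hmeas : MeasurableSet {x : EuclideanSpace ℝ (Fin d) | a ≤ x i0 ∧ x i0 ≤ b} := by
    have : {x : EuclideanSpace ℝ (Fin d) | a ≤ x i0 ∧ x i0 ≤ b} =
        {x | a ≤ x i0} ∩ {x | x i0 ≤ b} := by ext x; simp
    rw [this]
    exact ((isClosed_le continuous_const (by fun_prop)).inter
      (isClosed_le (by fun_prop) continuous_const)).measurableSet
  have e1 : (uniformProbOn (Q d)).real {x | a ≤ x i0 ∧ x i0 ≤ b} =
      (uniformProbOn (Q d)).real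
        (box (Function.update (fun _ => (-1 : ℝ)) i0 a) (Function.update (fun _ => (1 : ℝ)) i0 b)) := by
    rw [Measure.real, Measure.real, rho_apply hmeas, rho_apply (measurableSet_box _ _), hset,
      Set.inter_eq_left.mpr]
    rw [← hset]; exact Set.inter_subset_right
  rw [e1, rho_real_box]
  · rw [Finset.prod_eq_single i0]
    · simp
    · intro i _ hi
      simp only [Function.update_of_ne hi]; norm_num
    · intro h; exact absurd (Finset.mem_univ i0) h
  · intro i
    by_cases hi : i = i0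
    · subst hi; simp [ha]
    · simp [Function.update_of_ne hi]
  · intro i
    by_cases hi : i = i0
    · subst hi; simp [hb]
    · simp [Function.update_of_ne hi]
  · intro i
    by_cases hi : i = i0
    · subst hi; simp [hab]
    · simp [Function.update_of_ne hi]

/-- The two-coordinate box `{a ≤ x i0 ≤ b, a' ≤ x i1 ≤ b'}` has `ρ`-measure
`(b - a) * (b' - a') / 4`. -/
lemma rho_real_box2 {i0 i1 : Fin d} (hne : i0 ≠ i1) {a b a' b' : ℝ} (ha : -1 ≤ a) (hab : a ≤ b)
    (hb : b ≤ 1) (ha' : -1 ≤ a') (hab' : a' ≤ b') (hb' : b' ≤ 1) :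
    (uniformProbOn (Q d)).real {x | a ≤ x i0 ∧ x i0 ≤ b ∧ a' ≤ x i1 ∧ x i1 ≤ b'} =
      (b - a) * (b' - a') / 4 := by
  classical
  set lo : Fin d → ℝ := Function.update (Function.update (fun _ => (-1 : ℝ)) i0 a) i1 a' with hlo
  set hi : Fin d → ℝ := Function.update (Function.update (fun _ => (1 : ℝ)) i0 b) i1 b' with hhi
  have lo0 : lo i0 = a := by simp [hlo, Function.update_of_ne hne]
  have lo1 : lo i1 = a' := by simp [hlo]
  have hi0 : hi i0 = b := by simp [hhi, Function.update_of_ne hne]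
  have hi1 : hi i1 = b' := by simp [hhi]
  have lo_other : ∀ i, i ≠ i0 → i ≠ i1 → lo i = -1 := fun i h0 h1 => by
    simp [hlo, Function.update_of_ne h1, Function.update_of_ne h0]
  have hi_other : ∀ i, i ≠ i0 → i ≠ i1 → hi i = 1 := fun i h0 h1 => by
    simp [hhi, Function.update_of_ne h1, Function.update_of_ne h0]
  have hset : {x : EuclideanSpace ℝ (Fin d) | a ≤ x i0 ∧ x i0 ≤ b ∧ a' ≤ x i1 ∧ x i1 ≤ b'} ∩ Q d =
      box lo hi := by
    ext x
    simp only [Set.mem_inter_iff, Set.mem_ofPred_eq, Q, box]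
    constructor
    · rintro ⟨⟨h1, h2, h3, h4⟩, hq⟩ i
      by_cases h0 : i = i0
      · subst h0; rw [lo0, hi0]; exact ⟨h1, h2⟩
      · by_cases h1' : i = i1
        · subst h1'; rw [lo1, hi1]; exact ⟨h3, h4⟩
        · rw [lo_other i h0 h1', hi_other i h0 h1']; exact abs_le.mp (hq i)
    · intro hx
      have hx0 := hx i0
      have hx1 := hx i1
      rw [lo0, hi0] at hx0
      rw [lo1, hi1] at hx1
      refine ⟨⟨hx0.1, hx0.2, hx1.1, hx1.2⟩, fun i => ?_⟩
      by_cases h0 : i = i0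
      · subst h0; rw [abs_le]; exact ⟨ha.trans hx0.1, hx0.2.trans hb⟩
      · by_cases h1' : i = i1
        · subst h1'; rw [abs_le]; exact ⟨ha'.trans hx1.1, hx1.2.trans hb'⟩
        · have := hx i
          rw [lo_other i h0 h1', hi_other i h0 h1'] at this
          exact abs_le.mpr this
  have hmeas : MeasurableSet
      {x : EuclideanSpace ℝ (Fin d) | a ≤ x i0 ∧ x i0 ≤ b ∧ a' ≤ x i1 ∧ x i1 ≤ b'} := by
    have : {x : EuclideanSpace ℝ (Fin d) | a ≤ x i0 ∧ x i0 ≤ b ∧ a' ≤ x i1 ∧ x i1 ≤ b'} =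
        ({x | a ≤ x i0} ∩ {x | x i0 ≤ b}) ∩ ({x | a' ≤ x i1} ∩ {x | x i1 ≤ b'}) := by
      ext x; simp [and_assoc]
    rw [this]
    exact (((isClosed_le continuous_const (by fun_prop)).inter
      (isClosed_le (by fun_prop) continuous_const)).inter
      ((isClosed_le continuous_const (by fun_prop)).inter
      (isClosed_le (by fun_prop) continuous_const))).measurableSet
  have e1 : (uniformProbOn (Q d)).real
      {x | a ≤ x i0 ∧ x i0 ≤ b ∧ a' ≤ x i1 ∧ x i1 ≤ b'} =
      (uniformProbOn (Q d)).real (box lo hi) := by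
    rw [Measure.real, Measure.real, rho_apply hmeas, rho_apply (measurableSet_box _ _), hset,
      Set.inter_eq_left.mpr]
    rw [← hset]; exact Set.inter_subset_right
  have hlo_ge : ∀ i, -1 ≤ lo i := fun i => by
    by_cases h0 : i = i0
    · subst h0; rw [lo0]; exact ha
    · by_cases h1' : i = i1
      · subst h1'; rw [lo1]; exact ha'
      · rw [lo_other i h0 h1']
  have hhi_le : ∀ i, hi i ≤ 1 := fun i => by
    by_cases h0 : i = i0
    · subst h0; rw [hi0]; exact hb
    · by_cases h1' : i = i1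
      · subst h1'; rw [hi1]; exact hb'
      · rw [hi_other i h0 h1']
  have hlohi : ∀ i, lo i ≤ hi i := fun i => by
    by_cases h0 : i = i0
    · subst h0; rw [lo0, hi0]; exact hab
    · by_cases h1' : i = i1
      · subst h1'; rw [lo1, hi1]; exact hab'
      · rw [lo_other i h0 h1', hi_other i h0 h1']; norm_num
  rw [e1, rho_real_box hlo_ge hhi_le hlohi,
    Finset.prod_eq_mul i0 i1 hne (fun i _ hi' => by
      rw [lo_other i hi'.1 hi'.2, hi_other i hi'.1 hi'.2]; norm_num)
      (fun h => absurd (Finset.mem_univ _) h) (fun h => absurd (Finset.mem_univ _) h),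
    lo0, hi0, lo1, hi1]
  ring

/-- Lower bound for any measurable set containing (the part in `Q` of) a two-coordinate box. -/
lemma le_rho_real_of_box2_subset {i0 i1 : Fin d} (hne : i0 ≠ i1) {a b a' b' : ℝ} (ha : -1 ≤ a)
    (hab : a ≤ b) (hb : b ≤ 1) (ha' : -1 ≤ a') (hab' : a' ≤ b') (hb' : b' ≤ 1)
    {S : Set (EuclideanSpace ℝ (Fin d))}
    (hS : {x | a ≤ x i0 ∧ x i0 ≤ b ∧ a' ≤ x i1 ∧ x i1 ≤ b'} ∩ Q d ⊆ S) :
    (b - a) * (b' - a') / 4 ≤ (uniformProbOn (Q d)).real S := by
  have := isProb_Q (d := d)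
  rw [← rho_real_box2 hne ha hab hb ha' hab' hb']
  have hQ : uniformProbOn (Q d) (Q d)ᶜ = 0 := by
    rw [rho_apply measurableSet_Q.compl]
    simp
  have h1 : uniformProbOn (Q d) {x | a ≤ x i0 ∧ x i0 ≤ b ∧ a' ≤ x i1 ∧ x i1 ≤ b'} ≤
      uniformProbOn (Q d) S := by
    calc uniformProbOn (Q d) {x | a ≤ x i0 ∧ x i0 ≤ b ∧ a' ≤ x i1 ∧ x i1 ≤ b'}
        ≤ uniformProbOn (Q d)
          (({x | a ≤ x i0 ∧ x i0 ≤ b ∧ a' ≤ x i1 ∧ x i1 ≤ b'} ∩ Q d) ∪ (Q d)ᶜ) := by
          apply measure_mono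
          intro x hx
          by_cases hq : x ∈ Q d
          · exact Or.inl ⟨hx, hq⟩
          · exact Or.inr hq
      _ ≤ uniformProbOn (Q d) ({x | a ≤ x i0 ∧ x i0 ≤ b ∧ a' ≤ x i1 ∧ x i1 ≤ b'} ∩ Q d) +
          uniformProbOn (Q d) (Q d)ᶜ := measure_union_le _ _
      _ = uniformProbOn (Q d) ({x | a ≤ x i0 ∧ x i0 ≤ b ∧ a' ≤ x i1 ∧ x i1 ≤ b'} ∩ Q d) := by
          rw [hQ, add_zero]
      _ ≤ uniformProbOn (Q d) S := measure_mono hS
  exact ENNReal.toReal_mono (measure_ne_top _ _) h1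

end Crest.Agent.LibS0110Box24
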