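import Crest.Agent.Lib_S0109_Defs

/-!
# Row 82 (S0110 support, helper3): the atom-to-atom coupling and the final scalar inequality

* `isPairCoupling_discrete`, `quadCost_discrete`: for atoms `y z : Fin N → E d` and masses `m`,
  `π = ∑ i, ofReal (m i) • dirac (y i, z i)` couples the two discrete measures and has quadratic
  cost `∑ i, ofReal (m i) * ‖y i - z i‖ₑ ^ 2`.
* `exists_delta`: for `α > 1/3`, `C ≥ 0`, `a b δ0 > 0` there is `0 < δ ≤ δ0` with
  `C * ofReal (a * δ ^ 3) ^ α < ofReal (b * δ)`.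
-/

set_option autoImplicit false
open MeasureTheory
open scoped ENNReal NNReal InnerProductSpace
open Crest.AnalysisR.OT

namespace Crest.Agent.LibS0110h3c
open Crest.Agent.LibS0109

variable {d N : ℕ}

/-- the atom-to-atom coupling -/
noncomputable def atomCoupling (y z : Fin N → E d) (m : Fin N → ℝ) : Measure (E d × E d) :=
  ∑ i, ENNReal.ofReal (m i) • Measure.dirac (y i, z i)

theorem isPairCoupling_discrete (y z : Fin N → E d) (m : Fin N → ℝ) :
    IsPairCoupling (∑ i, ENNReal.ofReal (m i) • Measure.dirac (y i))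
      (∑ i, ENNReal.ofReal (m i) • Measure.dirac (z i)) (atomCoupling y z m) := by
  unfold atomCoupling
  constructor
  · ext s hs
    rw [Measure.map_apply measurable_fst hs]
    simp only [Measure.finsetSum_apply, Measure.smul_apply, smul_eq_mul]
    apply Finset.sum_congr rfl
    intro i _
    rw [Measure.dirac_apply' _ hs, Measure.dirac_apply' _ (measurable_fst hs)]
    rfl
  · ext s hs
    rw [Measure.map_apply measurable_snd hs]
    simp only [Measure.finsetSum_apply, Measure.smul_apply, smul_eq_mul]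
    apply Finset.sum_congr rfl
    intro i _
    rw [Measure.dirac_apply' _ hs, Measure.dirac_apply' _ (measurable_snd hs)]
    rfl

theorem quadCost_discrete (y z : Fin N → E d) (m : Fin N → ℝ) :
    quadCost (atomCoupling y z m) = ∑ i, ENNReal.ofReal (m i) * ‖y i - z i‖ₑ ^ 2 := by
  unfold quadCost atomCoupling
  rw [lintegral_finsetSum_measure]
  apply Finset.sum_congr rfl
  intro i _
  rw [lintegral_smul_measure, lintegral_dirac' _ (by fun_prop), smul_eq_mul]

/-- real form of the cost of the atom-to-atom coupling (`m ≥ 0`) -/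
theorem quadCost_discrete_ofReal (y z : Fin N → E d) (m : Fin N → ℝ) (hm : ∀ i, 0 ≤ m i) :
    quadCost (atomCoupling y z m) = ENNReal.ofReal (∑ i, m i * ‖y i - z i‖ ^ 2) := by
  rw [quadCost_discrete, ENNReal.ofReal_sum_of_nonneg (fun i _ => mul_nonneg (hm i) (sq_nonneg _))]
  apply Finset.sum_congr rfl
  intro i _
  rw [ENNReal.ofReal_mul (hm i), ENNReal.ofReal_pow (norm_nonneg _), ofReal_norm]

/-- the final scalar choice of `δ`, real form -/
theorem exists_delta_real (α : ℝ) (hα : 1 / 3 < α) (C a b δ0 : ℝ) (hC : 0 ≤ C) (ha : 0 < a)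
    (hb : 0 < b) (hδ0 : 0 < δ0) :
    ∃ δ : ℝ, 0 < δ ∧ δ ≤ δ0 ∧ C * (a * δ ^ 3) ^ α < b * δ := by
  set κ : ℝ := 3 * α - 1 with hκ
  have hκpos : 0 < κ := by rw [hκ]; linarith
  set A : ℝ := C * a ^ α + 1 with hA
  have haα : 0 < a ^ α := Real.rpow_pos_of_pos ha α
  have hApos : 0 < A := by rw [hA]; positivity
  set δ1 : ℝ := (b / (2 * A)) ^ κ⁻¹ with hδ1
  have hq : 0 < b / (2 * A) := by positivity
  have hδ1pos : 0 < δ1 := Real.rpow_pos_of_pos hq _
  refine ⟨min δ0 δ1, lt_min hδ0 hδ1pos, min_le_left _ _, ?_⟩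
  set δ : ℝ := min δ0 δ1 with hδ
  have hδpos : 0 < δ := lt_min hδ0 hδ1pos
  have h1 : δ ^ κ ≤ b / (2 * A) := by
    calc δ ^ κ ≤ δ1 ^ κ := Real.rpow_le_rpow hδpos.le (min_le_right _ _) hκpos.le
      _ = b / (2 * A) := by rw [hδ1]; exact Real.rpow_inv_rpow hq.le hκpos.ne'
  have h2 : (a * δ ^ 3) ^ α = a ^ α * (δ ^ κ * δ) := by
    rw [Real.mul_rpow ha.le (by positivity)]
    congr 1
    have : (δ ^ 3 : ℝ) = δ ^ (3 : ℝ) := by norm_cast
    rw [this, ← Real.rpow_mul hδpos.le]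
    have h3 : (3 : ℝ) * α = κ + 1 := by rw [hκ]; ring
    rw [h3, Real.rpow_add hδpos, Real.rpow_one]
  rw [h2]
  have h4 : C * a ^ α * δ ^ κ ≤ b / 2 := by
    have hδκ : 0 ≤ δ ^ κ := (Real.rpow_pos_of_pos hδpos κ).le
    calc C * a ^ α * δ ^ κ ≤ A * δ ^ κ := by
          apply mul_le_mul_of_nonneg_right _ hδκ
          rw [hA]; linarith
      _ ≤ A * (b / (2 * A)) := mul_le_mul_of_nonneg_left h1 hApos.le
      _ = b / 2 := by field_simp
  have h5 : C * (a ^ α * (δ ^ κ * δ)) = (C * a ^ α * δ ^ κ) * δ := by ring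
  rw [h5]
  have : (C * a ^ α * δ ^ κ) * δ ≤ b / 2 * δ := mul_le_mul_of_nonneg_right h4 hδpos.le
  have : b / 2 * δ < b * δ := by
    apply mul_lt_mul_of_pos_right _ hδpos
    linarith
  linarith

/-- the final scalar choice of `δ`, `ℝ≥0∞` form as needed for S0110 -/
theorem exists_delta (α : ℝ) (hα : 1 / 3 < α) (C : ℝ≥0) (a b δ0 : ℝ) (ha : 0 < a)
    (hb : 0 < b) (hδ0 : 0 < δ0) :
    ∃ δ : ℝ, 0 < δ ∧ δ ≤ δ0 ∧
      (C : ℝ≥0∞) * (ENNReal.ofReal (a * δ ^ 3)) ^ α < ENNReal.ofReal (b * δ) := by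
  obtain ⟨δ, hδ, hδ0', hlt⟩ := exists_delta_real α hα (C : ℝ) a b δ0 C.coe_nonneg ha hb hδ0
  refine ⟨δ, hδ, hδ0', ?_⟩
  have hαpos : 0 ≤ α := by linarith
  have hx : 0 ≤ a * δ ^ 3 := by positivity
  rw [ENNReal.ofReal_rpow_of_nonneg hx hαpos, ← ENNReal.ofReal_coe_nnreal,
    ← ENNReal.ofReal_mul C.coe_nonneg]
  exact (ENNReal.ofReal_lt_ofReal_iff (by positivity)).mpr hlt

end Crest.Agent.LibS0110h3c
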