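import Mathlib
import Crest.Prelude.Def_QuadraticTransport

/-!
# Row 82 (S0110): the uniform measure of coordinate boxes in the cube (helper6)

`Q d = {x | ∀ i, |x i| ≤ 1}` is the cube of the statement S0110 and `rhoQ d = uniformProbOn (Q d)`.
This file computes `rhoQ d` of coordinate boxes:

* `volume_Q : volume (Q d) = 2 ^ d`, `isCompact_Q`, `convex_Q`, `interior_Q_nonempty`,
  `measurableSet_Q`, `isProbabilityMeasure_rhoQ`, `rhoQ_compl_Q`;
* `rhoQ_real_box` : for `-1 ≤ l i ≤ u i ≤ 1`, `(rhoQ d).real (box l u) = ∏ i, (u i - l i) / 2`;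
* `rhoQ_real_box2` : for `i0 ≠ i1`, the set `{x | a ≤ x i0 ≤ b ∧ c ≤ x i1 ≤ e}` has mass
  `(b - a) * (e - c) / 4`;
* `rhoQ_real_slab` : `{x | a ≤ x i0 ≤ b}` has mass `(b - a) / 2`.

Everything lives in the namespace `Crest.Agent.LibS0110h6`.
-/

set_option autoImplicit false
open MeasureTheory
open scoped ENNReal NNReal

namespace Crest.Agent.LibS0110h6

open Crest.AnalysisR.OT

/-- The cube `[-1, 1]^d`. -/
def Q (d : ℕ) : Set (EuclideanSpace ℝ (Fin d)) := {x | ∀ i, |x i| ≤ 1}

/-- The uniform probability measure on the cube. -/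
noncomputable abbrev rhoQ (d : ℕ) : Measure (EuclideanSpace ℝ (Fin d)) := uniformProbOn (Q d)

/-- A coordinate box. -/
def box {d : ℕ} (l u : Fin d → ℝ) : Set (EuclideanSpace ℝ (Fin d)) :=
  {x | ∀ i, l i ≤ x i ∧ x i ≤ u i}

variable {d : ℕ}

theorem box_eq_preimage (l u : Fin d → ℝ) :
    box l u = (WithLp.ofLp : EuclideanSpace ℝ (Fin d) → Fin d → ℝ) ⁻¹' (Set.Icc l u) := by
  ext x
  simp only [box, Set.mem_ofPred_eq, Set.mem_preimage, Set.mem_Icc, Pi.le_def]
  exact forall_and

theorem measurableSet_box (l u : Fin d → ℝ) : MeasurableSet (box l u) := by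
  rw [box_eq_preimage]
  exact measurableSet_Icc.preimage (PiLp.volume_preserving_ofLp (Fin d)).measurable

theorem volume_box (l u : Fin d → ℝ) :
    volume (box l u) = ∏ i, ENNReal.ofReal (u i - l i) := by
  rw [box_eq_preimage, (PiLp.volume_preserving_ofLp (Fin d)).measure_preimage
    measurableSet_Icc.nullMeasurableSet, Real.volume_Icc_pi]

theorem Q_eq_box : Q d = box (fun _ => (-1 : ℝ)) (fun _ => (1 : ℝ)) := by
  ext x
  simp only [Q, box, Set.mem_ofPred_eq, abs_le]

theorem measurableSet_Q : MeasurableSet (Q d) := by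
  rw [Q_eq_box]; exact measurableSet_box _ _

theorem volume_Q : volume (Q d) = 2 ^ d := by
  rw [Q_eq_box, volume_box]
  simp only [sub_neg_eq_add, Finset.prod_const, Finset.card_univ, Fintype.card_fin]
  norm_num

theorem volume_Q_ne_zero : volume (Q d) ≠ 0 := by
  rw [volume_Q]; positivity

theorem volume_Q_ne_top : volume (Q d) ≠ ∞ := by
  rw [volume_Q]; exact ENNReal.pow_ne_top ENNReal.ofNat_ne_top

theorem box_subset_Q (l u : Fin d → ℝ) (hl : ∀ i, -1 ≤ l i) (hu : ∀ i, u i ≤ 1) :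
    box l u ⊆ Q d := by
  intro x hx i
  rw [abs_le]
  exact ⟨(hl i).trans (hx i).1, (hx i).2.trans (hu i)⟩

theorem convex_box (l u : Fin d → ℝ) : Convex ℝ (box l u) := by
  intro x hx y hy a b ha hb hab i
  have h1 := hx i
  have h2 := hy i
  simp only [PiLp.add_apply, PiLp.smul_apply, smul_eq_mul]
  constructor
  · calc l i = a * l i + b * l i := by rw [← add_mul, hab, one_mul]
      _ ≤ a * x i + b * y i := add_le_add (mul_le_mul_of_nonneg_left h1.1 ha)
          (mul_le_mul_of_nonneg_left h2.1 hb)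
  · calc a * x i + b * y i ≤ a * u i + b * u i := add_le_add
          (mul_le_mul_of_nonneg_left h1.2 ha) (mul_le_mul_of_nonneg_left h2.2 hb)
      _ = u i := by rw [← add_mul, hab, one_mul]

theorem convex_Q : Convex ℝ (Q d) := by
  rw [Q_eq_box]; exact convex_box _ _

theorem isCompact_Q : IsCompact (Q d) := by
  have h : Q d = (EuclideanSpace.equiv (Fin d) ℝ).toHomeomorph ⁻¹'
      (Set.Icc (fun _ => (-1 : ℝ)) (fun _ => (1 : ℝ))) := by
    rw [Q_eq_box, box_eq_preimage]; rfl
  rw [h]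
  exact ((EuclideanSpace.equiv (Fin d) ℝ).toHomeomorph.isCompact_preimage).mpr isCompact_Icc

theorem ball_subset_Q : Metric.ball (0 : EuclideanSpace ℝ (Fin d)) 1 ⊆ Q d := by
  intro x hx i
  rw [Metric.mem_ball, dist_zero_right] at hx
  have h1 : ‖x i‖ ≤ ‖x‖ := PiLp.norm_apply_le x i
  rw [Real.norm_eq_abs] at h1
  linarith

theorem interior_Q_nonempty : (interior (Q d)).Nonempty :=
  ⟨0, interior_maximal ball_subset_Q Metric.isOpen_ball (Metric.mem_ball_self one_pos)⟩

theorem isProbabilityMeasure_rhoQ : IsProbabilityMeasure (rhoQ d) := by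
  constructor
  simp only [rhoQ, uniformProbOn, Measure.smul_apply, Measure.restrict_apply_univ, smul_eq_mul]
  exact ENNReal.inv_mul_cancel volume_Q_ne_zero volume_Q_ne_top

theorem rhoQ_apply {s : Set (EuclideanSpace ℝ (Fin d))} (hs : MeasurableSet s) :
    rhoQ d s = (volume (Q d))⁻¹ * volume (s ∩ Q d) := by
  simp only [rhoQ, uniformProbOn, Measure.smul_apply, Measure.restrict_apply hs, smul_eq_mul]

theorem rhoQ_compl_Q : rhoQ d (Q d)ᶜ = 0 := by
  rw [rhoQ_apply measurableSet_Q.compl]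
  simp

/-- `rhoQ` only sees the part of a set inside the cube. -/
theorem rhoQ_inter_Q (s : Set (EuclideanSpace ℝ (Fin d))) : rhoQ d (s ∩ Q d) = rhoQ d s := by
  apply le_antisymm (measure_mono Set.inter_subset_left)
  calc rhoQ d s ≤ rhoQ d ((s ∩ Q d) ∪ (Q d)ᶜ) := measure_mono (fun x hx => by
        by_cases hq : x ∈ Q d
        · exact Or.inl ⟨hx, hq⟩
        · exact Or.inr hq)
    _ ≤ rhoQ d (s ∩ Q d) + rhoQ d (Q d)ᶜ := measure_union_le _ _
    _ = rhoQ d (s ∩ Q d) := by rw [rhoQ_compl_Q, add_zero]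

/-- The mass of a coordinate box inside the cube. -/
theorem rhoQ_box (l u : Fin d → ℝ) (hl : ∀ i, -1 ≤ l i) (hu : ∀ i, u i ≤ 1) :
    rhoQ d (box l u) = (2 ^ d)⁻¹ * ∏ i, ENNReal.ofReal (u i - l i) := by
  rw [rhoQ_apply (measurableSet_box l u), Set.inter_eq_left.mpr (box_subset_Q l u hl hu),
    volume_box, volume_Q]

/-- The mass of a coordinate box inside the cube, real-valued form. -/
theorem rhoQ_real_box (l u : Fin d → ℝ) (hl : ∀ i, -1 ≤ l i) (hlu : ∀ i, l i ≤ u i)
    (hu : ∀ i, u i ≤ 1) : (rhoQ d).real (box l u) = ∏ i, (u i - l i) / 2 := by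
  rw [measureReal_def, rhoQ_box l u hl hu, ENNReal.toReal_mul, ENNReal.toReal_inv,
    ENNReal.toReal_pow, ENNReal.toReal_prod]
  have h1 : ∀ i, (ENNReal.ofReal (u i - l i)).toReal = u i - l i := fun i =>
    ENNReal.toReal_ofReal (sub_nonneg.mpr (hlu i))
  simp only [h1, ENNReal.toReal_ofNat]
  rw [Finset.prod_div_distrib, Finset.prod_const, Finset.card_univ, Fintype.card_fin]
  field_simp

/-- Two-coordinate box: `{a ≤ x i0 ≤ b, c ≤ x i1 ≤ e}` has mass `(b - a) (e - c) / 4`. -/
theorem rhoQ_real_box2 (i0 i1 : Fin d) (h01 : i0 ≠ i1) (a b c e : ℝ)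
    (ha : -1 ≤ a) (hab : a ≤ b) (hb : b ≤ 1) (hc : -1 ≤ c) (hce : c ≤ e) (he : e ≤ 1) :
    (rhoQ d).real {x | a ≤ x i0 ∧ x i0 ≤ b ∧ c ≤ x i1 ∧ x i1 ≤ e} = (b - a) * (e - c) / 4 := by
  set l : Fin d → ℝ := fun i => if i = i0 then a else if i = i1 then c else -1 with hl
  set u : Fin d → ℝ := fun i => if i = i0 then b else if i = i1 then e else 1 with hu
  have hset : {x : EuclideanSpace ℝ (Fin d) | a ≤ x i0 ∧ x i0 ≤ b ∧ c ≤ x i1 ∧ x i1 ≤ e} ∩ Q d
      = box l u := by
    ext x
    simp only [Set.mem_inter_iff, Set.mem_ofPred_eq, Q, box]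
    constructor
    · rintro ⟨⟨h1, h2, h3, h4⟩, hq⟩ i
      have := abs_le.mp (hq i)
      by_cases hi0 : i = i0
      · subst hi0; simp [hl, hu, h1, h2]
      · by_cases hi1 : i = i1
        · subst hi1; simp [hl, hu, hi0, h3, h4]
        · simp [hl, hu, hi0, hi1, this.1, this.2]
    · intro h
      have e0 := h i0
      have e1 := h i1
      simp only [hl, hu, if_true] at e0
      simp only [hl, hu, if_neg (Ne.symm h01), if_true] at e1
      refine ⟨⟨e0.1, e0.2, e1.1, e1.2⟩, fun i => ?_⟩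
      have ei := h i
      rw [abs_le]
      simp only [hl, hu] at ei
      split_ifs at ei with hi0 hi1
      · exact ⟨ha.trans ei.1, ei.2.trans hb⟩
      · exact ⟨hc.trans ei.1, ei.2.trans he⟩
      · exact ei
  have hl1 : ∀ i, -1 ≤ l i := fun i => by simp only [hl]; split_ifs <;> linarith
  have hu1 : ∀ i, u i ≤ 1 := fun i => by simp only [hu]; split_ifs <;> linarith
  have hlu : ∀ i, l i ≤ u i := fun i => by simp only [hl, hu]; split_ifs <;> linarith
  rw [measureReal_def, ← rhoQ_inter_Q, hset, ← measureReal_def, rhoQ_real_box l u hl1 hlu hu1]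
  have hprod : ∀ i, (u i - l i) / 2 =
      (if i = i0 then (b - a) / 2 else 1) * (if i = i1 then (e - c) / 2 else 1) := by
    intro i
    simp only [hl, hu]
    by_cases hi0 : i = i0
    · subst hi0; simp [h01]
    · by_cases hi1 : i = i1
      · subst hi1; simp [hi0]
      · simp [hi0, hi1]
  simp only [hprod, Finset.prod_mul_distrib, Finset.prod_ite_eq', Finset.mem_univ, if_true]
  ring

/-- Slab: `{a ≤ x i0 ≤ b}` has mass `(b - a) / 2`. -/
theorem rhoQ_real_slab (i0 : Fin d) (a b : ℝ) (ha : -1 ≤ a) (hab : a ≤ b) (hb : b ≤ 1) :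
    (rhoQ d).real {x | a ≤ x i0 ∧ x i0 ≤ b} = (b - a) / 2 := by
  set l : Fin d → ℝ := fun i => if i = i0 then a else -1 with hl
  set u : Fin d → ℝ := fun i => if i = i0 then b else 1 with hu
  have hset : {x : EuclideanSpace ℝ (Fin d) | a ≤ x i0 ∧ x i0 ≤ b} ∩ Q d = box l u := by
    ext x
    simp only [Set.mem_inter_iff, Set.mem_ofPred_eq, Q, box]
    constructor
    · rintro ⟨⟨h1, h2⟩, hq⟩ i
      have := abs_le.mp (hq i)
      by_cases hi0 : i = i0
      · subst hi0; simp [hl, hu, h1, h2]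
      · simp [hl, hu, hi0, this.1, this.2]
    · intro h
      have e0 := h i0
      simp only [hl, hu, if_true] at e0
      refine ⟨⟨e0.1, e0.2⟩, fun i => ?_⟩
      have ei := h i
      rw [abs_le]
      simp only [hl, hu] at ei
      split_ifs at ei with hi0
      · exact ⟨ha.trans ei.1, ei.2.trans hb⟩
      · exact ei
  have hl1 : ∀ i, -1 ≤ l i := fun i => by simp only [hl]; split_ifs <;> linarith
  have hu1 : ∀ i, u i ≤ 1 := fun i => by simp only [hu]; split_ifs <;> linarith
  have hlu : ∀ i, l i ≤ u i := fun i => by simp only [hl, hu]; split_ifs <;> linarith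
  rw [measureReal_def, ← rhoQ_inter_Q, hset, ← measureReal_def, rhoQ_real_box l u hl1 hlu hu1]
  have hprod : ∀ i, (u i - l i) / 2 = (if i = i0 then (b - a) / 2 else 1) := by
    intro i
    simp only [hl, hu]
    by_cases hi0 : i = i0
    · subst hi0; simp
    · simp [hi0]
  simp only [hprod, Finset.prod_ite_eq', Finset.mem_univ, if_true]

end Crest.Agent.LibS0110h6
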