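import Crest.Agent.Lib_S0109_Lag

/-!
# Row 82 (S0110 support, helper3): Laguerre maps are THE optimal maps for finitely supported targets

For injective atoms `y : Fin N → E d`, weights `ψ` with `IsOptW K y m ψ` (`K` compact with
nonempty interior) and the discrete target `μ = ∑ i, ENNReal.ofReal (m i) • Measure.dirac (y i)`:

* `lagMap_isOptimalMap` : `IsOptimalMap (ρ K) μ (lagMap y ψ)`;
* `ae_eq_lagMap_of_isOptimalMap` : every `IsOptimalMap (ρ K) μ T` satisfies `T =ᵐ[ρ K] lagMap y ψ`.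

Proof: Kantorovich duality with the pair `(pot y ψ, Ψ)`, `Ψ (y i) = ψ i`.
-/

set_option autoImplicit false
open MeasureTheory
open scoped ENNReal NNReal InnerProductSpace
open Crest.AnalysisR.OT

namespace Crest.Agent.LibS0110h3
open Crest.Agent.LibS0109

variable {d N : ℕ}

/-- The dual potential on the atoms: `Psi y ψ (y i) = ψ i` (for injective `y`), `0` elsewhere. -/
noncomputable def Psi (y : Fin N → E d) (ψ : Fin N → ℝ) (p : E d) : ℝ :=
  ∑ i, Set.indicator {y i} (fun _ => ψ i) p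

theorem Psi_apply {y : Fin N → E d} (hy : Function.Injective y) (ψ : Fin N → ℝ) (j : Fin N) :
    Psi y ψ (y j) = ψ j := by
  unfold Psi
  rw [Finset.sum_eq_single j]
  · simp
  · intro i _ hij
    have : y j ∉ ({y i} : Set (E d)) := by
      simp only [Set.mem_singleton_iff]
      exact fun h => hij (hy h).symm
    simp [Set.indicator_of_notMem this]
  · simp

theorem measurable_Psi (y : Fin N → E d) (ψ : Fin N → ℝ) : Measurable (Psi y ψ) := by
  unfold Psi
  apply Finset.measurable_sum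
  intro i _
  exact measurable_const.indicator (measurableSet_singleton _)

/-- integral of a function of a transport map against the discrete target -/
theorem integral_comp_of_map {K : Set (E d)} {y : Fin N → E d} {m : Fin N → ℝ}
    (hm : ∀ i, 0 ≤ m i) {S : E d → E d} (hS : Measurable S)
    (hmap : (ρ K).map S = ∑ i, ENNReal.ofReal (m i) • Measure.dirac (y i))
    (f : E d → ℝ) (hf : Measurable f) :
    ∫ x, f (S x) ∂(ρ K) = ∑ i, m i * f (y i) := by
  rw [← integral_map hS.aemeasurable hf.aestronglyMeasurable, hmap]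
  rw [integral_finsetSum_measure]
  · apply Finset.sum_congr rfl
    intro i _
    rw [integral_smul_measure, integral_dirac, ENNReal.toReal_ofReal (hm i), smul_eq_mul]
  · intro i _
    exact (integrable_dirac (by simp)).smul_measure ENNReal.ofReal_ne_top

theorem ae_mem_range {K : Set (E d)} {y : Fin N → E d} {m : Fin N → ℝ}
    {S : E d → E d} (hS : Measurable S)
    (hmap : (ρ K).map S = ∑ i, ENNReal.ofReal (m i) • Measure.dirac (y i)) :
    ∀ᵐ x ∂(ρ K), S x ∈ Set.range y := by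
  have hmeas : MeasurableSet (Set.range y)ᶜ := (Set.finite_range y).measurableSet.compl
  rw [ae_iff]
  have : {x | ¬ S x ∈ Set.range y} = S ⁻¹' (Set.range y)ᶜ := rfl
  rw [this, ← Measure.map_apply hS hmeas, hmap]
  simp [Measure.dirac_apply' _ hmeas]

theorem inner_le_pot_add_Psi {y : Fin N → E d} (hy : Function.Injective y) (ψ : Fin N → ℝ)
    (x p : E d) (hp : p ∈ Set.range y) : ⟪x, p⟫_ℝ ≤ pot y ψ x + Psi y ψ p := by
  obtain ⟨j, rfl⟩ := hp
  rw [Psi_apply hy]
  linarith [le_pot y ψ x j]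

/-- a bound for the atoms -/
theorem norm_le_of_mem_range (y : Fin N → E d) {p : E d} (hp : p ∈ Set.range y) :
    ‖p‖ ≤ ∑ i, ‖y i‖ := by
  obtain ⟨j, rfl⟩ := hp
  exact Finset.single_le_sum (f := fun i => ‖y i‖) (fun i _ => norm_nonneg _) (Finset.mem_univ j)

theorem integrable_normsq {K : Set (E d)} (hK : IsCompact K) (hKi : (interior K).Nonempty) :
    Integrable (fun x : E d => ‖x‖ ^ 2) (ρ K) :=
  integrable_rho_of_continuousOn hK (volume_ne_zero_of_interior hKi)
    (by fun_prop : Continuous fun x : E d => ‖x‖ ^ 2).continuousOn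

section
variable {K : Set (E d)} (hK : IsCompact K) (hKi : (interior K).Nonempty)
  {y : Fin N → E d} (hy : Function.Injective y) {m : Fin N → ℝ}
  {S : E d → E d} (hS : Measurable S)
  (hmap : (ρ K).map S = ∑ i, ENNReal.ofReal (m i) • Measure.dirac (y i))
include hK hKi hS hmap

theorem integrable_inner : Integrable (fun x => ⟪x, S x⟫_ℝ) (ρ K) := by
  have := rho_isProbabilityMeasure (volume_ne_zero_of_interior hKi) (volume_ne_top_of_isCompact hK)
  obtain ⟨R, hR⟩ := hK.isBounded.exists_norm_le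
  apply Integrable.of_bound (measurable_id.inner hS).aestronglyMeasurable (R * ∑ i, ‖y i‖)
  filter_upwards [ae_rho_mem K hK.measurableSet, ae_mem_range hS hmap] with x hx hSx
  rw [Real.norm_eq_abs]
  calc |⟪x, S x⟫_ℝ| ≤ ‖x‖ * ‖S x‖ := abs_real_inner_le_norm x (S x)
    _ ≤ R * ∑ i, ‖y i‖ :=
      mul_le_mul (hR x hx) (norm_le_of_mem_range y hSx) (norm_nonneg _)
        ((norm_nonneg x).trans (hR x hx))

theorem integrable_cost : Integrable (fun x => ‖x - S x‖ ^ 2) (ρ K) := by
  have := rho_isProbabilityMeasure (volume_ne_zero_of_interior hKi) (volume_ne_top_of_isCompact hK)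
  obtain ⟨R, hR⟩ := hK.isBounded.exists_norm_le
  apply Integrable.of_bound ((measurable_id.sub hS).norm.pow_const 2).aestronglyMeasurable
    ((R + ∑ i, ‖y i‖) ^ 2)
  filter_upwards [ae_rho_mem K hK.measurableSet, ae_mem_range hS hmap] with x hx hSx
  rw [Real.norm_eq_abs, abs_of_nonneg (sq_nonneg _)]
  have h1 : ‖x - S x‖ ≤ R + ∑ i, ‖y i‖ :=
    (norm_sub_le _ _).trans (add_le_add (hR x hx) (norm_le_of_mem_range y hSx))
  exact pow_le_pow_left₀ (norm_nonneg _) h1 2

theorem integrable_normsq_comp : Integrable (fun x => ‖S x‖ ^ 2) (ρ K) := by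
  have := rho_isProbabilityMeasure (volume_ne_zero_of_interior hKi) (volume_ne_top_of_isCompact hK)
  apply Integrable.of_bound (hS.norm.pow_const 2).aestronglyMeasurable ((∑ i, ‖y i‖) ^ 2)
  filter_upwards [ae_mem_range hS hmap] with x hSx
  rw [Real.norm_eq_abs, abs_of_nonneg (sq_nonneg _)]
  exact pow_le_pow_left₀ (norm_nonneg _) (norm_le_of_mem_range y hSx) 2

/-- the lintegral cost is the `ofReal` of the Bochner cost -/
theorem lintegral_cost_eq :
    ∫⁻ x, ‖x - S x‖ₑ ^ 2 ∂(ρ K) = ENNReal.ofReal (∫ x, ‖x - S x‖ ^ 2 ∂(ρ K)) := by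
  rw [ofReal_integral_eq_lintegral_ofReal (integrable_cost hK hKi hS hmap)
    (Filter.Eventually.of_forall fun x => sq_nonneg _)]
  apply lintegral_congr
  intro x
  rw [ENNReal.ofReal_pow (norm_nonneg _), ofReal_norm]

/-- expansion of the Bochner cost -/
theorem cost_expand (hm : ∀ i, 0 ≤ m i) :
    ∫ x, ‖x - S x‖ ^ 2 ∂(ρ K) =
      ∫ x, ‖x‖ ^ 2 ∂(ρ K) - 2 * ∫ x, ⟪x, S x⟫_ℝ ∂(ρ K) + ∑ i, m i * ‖y i‖ ^ 2 := by
  have h1 : ∀ x, ‖x - S x‖ ^ 2 = ‖x‖ ^ 2 - 2 * ⟪x, S x⟫_ℝ + ‖S x‖ ^ 2 :=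
    fun x => norm_sub_sq_real x (S x)
  simp_rw [h1]
  have hi1 : Integrable (fun x : E d => ‖x‖ ^ 2) (ρ K) := integrable_normsq hK hKi
  have hi2 : Integrable (fun x => 2 * ⟪x, S x⟫_ℝ) (ρ K) :=
    (integrable_inner hK hKi hS hmap).const_mul 2
  have hi3 := integrable_normsq_comp hK hKi hS hmap
  have hi12 : Integrable (fun x => ‖x‖ ^ 2 - 2 * ⟪x, S x⟫_ℝ) (ρ K) := hi1.sub hi2
  rw [integral_add hi12 hi3, integral_sub hi1 hi2, integral_const_mul,
    integral_comp_of_map hm hS hmap (fun p => ‖p‖ ^ 2) (by fun_prop)]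

include hy in
theorem integrable_Psi_comp (ψ : Fin N → ℝ) : Integrable (fun x => Psi y ψ (S x)) (ρ K) := by
  have := rho_isProbabilityMeasure (volume_ne_zero_of_interior hKi)
    (volume_ne_top_of_isCompact hK)
  apply Integrable.of_bound ((measurable_Psi y ψ).comp hS).aestronglyMeasurable
    (∑ i, |ψ i|)
  filter_upwards [ae_mem_range hS hmap] with x hSx
  obtain ⟨j, hj⟩ := hSx
  change ‖Psi y ψ (S x)‖ ≤ _
  rw [← hj, Psi_apply hy, Real.norm_eq_abs]
  exact Finset.single_le_sum (f := fun i => |ψ i|) (fun i _ => abs_nonneg _)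
    (Finset.mem_univ j)

include hy in
/-- Kantorovich duality inequality for an arbitrary transport map -/
theorem integral_inner_le [NeZero N] (hm : ∀ i, 0 ≤ m i) (ψ : Fin N → ℝ) :
    ∫ x, ⟪x, S x⟫_ℝ ∂(ρ K) ≤ ∫ x, pot y ψ x ∂(ρ K) + ∑ i, m i * ψ i := by
  have hpot : Integrable (pot y ψ) (ρ K) :=
    integrable_rho_of_continuousOn hK (volume_ne_zero_of_interior hKi)
      (continuous_pot y ψ).continuousOn
  have hPsi : Integrable (fun x => Psi y ψ (S x)) (ρ K) :=
    integrable_Psi_comp hK hKi hy hS hmap ψ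
  have h1 : ∫ x, ⟪x, S x⟫_ℝ ∂(ρ K) ≤ ∫ x, (pot y ψ x + Psi y ψ (S x)) ∂(ρ K) := by
    apply integral_mono_ae (integrable_inner hK hKi hS hmap) (hpot.add hPsi)
    filter_upwards [ae_mem_range hS hmap] with x hSx
    exact inner_le_pot_add_Psi hy ψ x (S x) hSx
  rw [integral_add hpot hPsi, integral_comp_of_map hm hS hmap (Psi y ψ) (measurable_Psi y ψ)] at h1
  simp_rw [Psi_apply hy] at h1
  exact h1

end

section main
variable [NeZero N] {K : Set (E d)} (hK : IsCompact K) (hKi : (interior K).Nonempty)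
  {y : Fin N → E d} (hy : Function.Injective y) {m ψ : Fin N → ℝ} (h : IsOptW K y m ψ)

omit [NeZero N] in
include h in
theorem m_nonneg (i : Fin N) : 0 ≤ m i := by
  rw [← h i]; exact measureReal_nonneg

include hK hKi hy h

/-- duality equality for the Laguerre map -/
theorem integral_inner_lagMap :
    ∫ x, ⟪x, lagMap y ψ x⟫_ℝ ∂(ρ K) = ∫ x, pot y ψ x ∂(ρ K) + ∑ i, m i * ψ i := by
  have h0 := volume_ne_zero_of_interior hKi
  have hT := volume_ne_top_of_isCompact hK
  have hmapL := map_lagMap h0 hT hy h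
  have hm := m_nonneg h
  have hL := measurable_lagMap y ψ
  have hpot : Integrable (pot y ψ) (ρ K) :=
    integrable_rho_of_continuousOn hK h0 (continuous_pot y ψ).continuousOn
  have hPsi : Integrable (fun x => Psi y ψ (lagMap y ψ x)) (ρ K) :=
    integrable_Psi_comp hK hKi hy hL hmapL ψ
  have h1 : ∀ x, ⟪x, lagMap y ψ x⟫_ℝ = pot y ψ x + Psi y ψ (lagMap y ψ x) := by
    intro x
    have hp := pot_eq_lagIdx y ψ x
    have hP : Psi y ψ (lagMap y ψ x) = ψ (lagIdx y ψ x) := Psi_apply hy ψ _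
    rw [hP, hp]; ring
  simp_rw [h1]
  rw [integral_add hpot hPsi, integral_comp_of_map hm hL hmapL (Psi y ψ) (measurable_Psi y ψ)]
  simp_rw [Psi_apply hy]

/-- **The Laguerre map of optimal weights is a quadratic optimal transport map.** -/
theorem lagMap_isOptimalMap :
    IsOptimalMap (ρ K) (∑ i, ENNReal.ofReal (m i) • Measure.dirac (y i)) (lagMap y ψ) := by
  have h0 := volume_ne_zero_of_interior hKi
  have hT := volume_ne_top_of_isCompact hK
  have hmapL := map_lagMap h0 hT hy h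
  have hm := m_nonneg h
  have hL := measurable_lagMap y ψ
  refine ⟨hL, hmapL, fun S hS hmapS => ?_⟩
  rw [lintegral_cost_eq hK hKi hL hmapL, lintegral_cost_eq hK hKi hS hmapS]
  apply ENNReal.ofReal_le_ofReal
  rw [cost_expand hK hKi hL hmapL hm, cost_expand hK hKi hS hmapS hm]
  have h1 := integral_inner_le hK hKi hy hS hmapS hm ψ
  have h2 := integral_inner_lagMap hK hKi hy h
  linarith

/-- **Uniqueness**: every optimal map to the discrete target is a.e. the Laguerre map. -/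
theorem ae_eq_lagMap_of_isOptimalMap {T : E d → E d}
    (hTopt : IsOptimalMap (ρ K) (∑ i, ENNReal.ofReal (m i) • Measure.dirac (y i)) T) :
    T =ᵐ[ρ K] lagMap y ψ := by
  obtain ⟨hTm, hTmap, hTle⟩ := hTopt
  have h0 := volume_ne_zero_of_interior hKi
  have hT := volume_ne_top_of_isCompact hK
  have hmapL := map_lagMap h0 hT hy h
  have hm := m_nonneg h
  have hL := measurable_lagMap y ψ
  have hle := hTle (lagMap y ψ) hL hmapL
  rw [lintegral_cost_eq hK hKi hTm hTmap, lintegral_cost_eq hK hKi hL hmapL] at hle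
  have hle' : ∫ x, ‖x - T x‖ ^ 2 ∂(ρ K) ≤ ∫ x, ‖x - lagMap y ψ x‖ ^ 2 ∂(ρ K) :=
    (ENNReal.ofReal_le_ofReal_iff (integral_nonneg fun x => sq_nonneg _)).mp hle
  rw [cost_expand hK hKi hTm hTmap hm, cost_expand hK hKi hL hmapL hm] at hle'
  have h1 := integral_inner_le hK hKi hy hTm hTmap hm ψ
  have h2 := integral_inner_lagMap hK hKi hy h
  have hpot : Integrable (pot y ψ) (ρ K) :=
    integrable_rho_of_continuousOn hK h0 (continuous_pot y ψ).continuousOn
  have hPsi : Integrable (fun x => Psi y ψ (T x)) (ρ K) :=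
    integrable_Psi_comp hK hKi hy hTm hTmap ψ
  have hinner := integrable_inner hK hKi hTm hTmap
  have hps : Integrable (fun x => pot y ψ x + Psi y ψ (T x)) (ρ K) := hpot.add hPsi
  have hg_int : Integrable (fun x => pot y ψ x + Psi y ψ (T x) - ⟪x, T x⟫_ℝ) (ρ K) :=
    hps.sub hinner
  have hg_nonneg : 0 ≤ᵐ[ρ K] fun x => pot y ψ x + Psi y ψ (T x) - ⟪x, T x⟫_ℝ := by
    filter_upwards [ae_mem_range hTm hTmap] with x hx
    have := inner_le_pot_add_Psi hy ψ x (T x) hx
    show (0 : ℝ) ≤ pot y ψ x + Psi y ψ (T x) - ⟪x, T x⟫_ℝ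
    linarith
  have hg0 : ∫ x, (pot y ψ x + Psi y ψ (T x) - ⟪x, T x⟫_ℝ) ∂(ρ K) = 0 := by
    rw [integral_sub hps hinner, integral_add hpot hPsi,
      integral_comp_of_map hm hTm hTmap (Psi y ψ) (measurable_Psi y ψ)]
    simp_rw [Psi_apply hy]
    linarith
  have hae := (integral_eq_zero_iff_of_nonneg_ae hg_nonneg hg_int).mp hg0
  have hcells : ∀ᵐ x ∂(ρ K), ∀ j, x ∈ cell y ψ j → lagIdx y ψ x = j := by
    rw [ae_all_iff]
    intro j
    filter_upwards [cell_ae_eq_lagIdx_preimage hy ψ K j] with x hx hxc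
    exact (eq_iff_iff.mp hx).mp hxc
  filter_upwards [hae, ae_mem_range hTm hTmap, hcells] with x hx0 hxr hxc
  obtain ⟨j, hj⟩ := hxr
  have hx0' : pot y ψ x + Psi y ψ (T x) - ⟪x, T x⟫_ℝ = 0 := hx0
  rw [← hj, Psi_apply hy] at hx0'
  have hcell : x ∈ cell y ψ j := by
    intro k
    have := le_pot y ψ x k
    linarith
  show T x = y (lagIdx y ψ x)
  rw [hxc j hcell, hj]

end main

/-- Consequence used for S0110: the `L²(ρ K)` distance of ANY two optimal maps to two discrete
targets is the distance of the two Laguerre maps. -/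
theorem lintegral_sq_dist_optimal_eq {N N' : ℕ} [NeZero N] [NeZero N'] {K : Set (E d)}
    (hK : IsCompact K) (hKi : (interior K).Nonempty)
    {y : Fin N → E d} (hy : Function.Injective y) {m ψ : Fin N → ℝ} (h : IsOptW K y m ψ)
    {y' : Fin N' → E d} (hy' : Function.Injective y') {m' ψ' : Fin N' → ℝ}
    (h' : IsOptW K y' m' ψ') {T T' : E d → E d}
    (hT : IsOptimalMap (ρ K) (∑ i, ENNReal.ofReal (m i) • Measure.dirac (y i)) T)
    (hT' : IsOptimalMap (ρ K) (∑ i, ENNReal.ofReal (m' i) • Measure.dirac (y' i)) T') :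
    ∫⁻ x, ‖T x - T' x‖ₑ ^ 2 ∂(ρ K) = ∫⁻ x, ‖lagMap y ψ x - lagMap y' ψ' x‖ₑ ^ 2 ∂(ρ K) := by
  apply lintegral_congr_ae
  filter_upwards [ae_eq_lagMap_of_isOptimalMap hK hKi hy h hT,
    ae_eq_lagMap_of_isOptimalMap hK hKi hy' h' hT'] with x hx hx'
  rw [hx, hx']

end Crest.Agent.LibS0110h3
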