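import Mathlib
import Crest.Agent.Lib_S0110_Box_h24
import Crest.Agent.Lib_S0110_Uniq_h3
import Crest.Agent.Lib_S0109_EX

/-!
# Row 82 (S0110): the three-atom example on the cube (helper24).

`s0110_main` is the frozen statement S0110.  Construction (`δ ≤ 1/4` small):
`yν = ![-e0, δ • e1, e0]`, `ψν = ![0, -δ, 0]` (middle cell = wedge `|x0| ≤ δ (1 + x1)`),
masses `m i = ρ (cell yν ψν i)`, `yμ = ![-e0, 0, e0]` with weights from `pkg_EX`
(middle cell = a slab in `x0`).  The Laguerre maps differ by at least `1` on an explicit box of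
`ρ`-mass `δ/32`, whereas the atom-to-atom coupling costs at most `2 δ^3`.
-/

set_option autoImplicit false
open MeasureTheory
open scoped ENNReal NNReal InnerProductSpace
open Crest.AnalysisR.OT

namespace Crest.Agent.LibS0110Main24
open Crest.Agent.LibS0109 Crest.Agent.LibS0110Box24

variable {d : ℕ}

/-- Coordinate unit vector. -/
noncomputable def ee (i : Fin d) : E d := EuclideanSpace.single i (1 : ℝ)

lemma inner_ee (x : E d) (i : Fin d) : ⟪x, ee i⟫_ℝ = x i := by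
  simp [ee, EuclideanSpace.inner_single_right]

lemma ee_apply (i j : Fin d) : (ee i) j = if j = i then 1 else 0 := by
  simp [ee]

/-- Atoms of `ν`. -/
noncomputable def yν (i0 i1 : Fin d) (δ : ℝ) : Fin 3 → E d := ![-(ee i0), δ • ee i1, ee i0]
/-- Weights of `ν`. -/
def ψν (δ : ℝ) : Fin 3 → ℝ := ![0, -δ, 0]
/-- Atoms of `μ`. -/
noncomputable def yμ (i0 : Fin d) : Fin 3 → E d := ![-(ee i0), 0, ee i0]

/-! ### The cells -/

lemma mem_cell3 (y : Fin 3 → E d) (ψ : Fin 3 → ℝ) (i : Fin 3) (x : E d) :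
    x ∈ cell y ψ i ↔ (⟪x, y 0⟫_ℝ - ψ 0 ≤ ⟪x, y i⟫_ℝ - ψ i) ∧
      (⟪x, y 1⟫_ℝ - ψ 1 ≤ ⟪x, y i⟫_ℝ - ψ i) ∧ (⟪x, y 2⟫_ℝ - ψ 2 ≤ ⟪x, y i⟫_ℝ - ψ i) := by
  constructor
  · intro h; exact ⟨h 0, h 1, h 2⟩
  · rintro ⟨h0, h1, h2⟩ j
    fin_cases j
    · exact h0
    · exact h1
    · exact h2

lemma inner_yν (i0 i1 : Fin d) (δ : ℝ) (x : E d) :
    ⟪x, yν i0 i1 δ 0⟫_ℝ = -x i0 ∧ ⟪x, yν i0 i1 δ 1⟫_ℝ = δ * x i1 ∧
      ⟪x, yν i0 i1 δ 2⟫_ℝ = x i0 := by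
  refine ⟨?_, ?_, ?_⟩ <;> simp [yν, inner_ee, inner_neg_right, inner_smul_right]

lemma inner_yμ (i0 : Fin d) (x : E d) :
    ⟪x, yμ i0 0⟫_ℝ = -x i0 ∧ ⟪x, yμ i0 1⟫_ℝ = 0 ∧ ⟪x, yμ i0 2⟫_ℝ = x i0 := by
  refine ⟨?_, ?_, ?_⟩ <;> simp [yμ, inner_ee, inner_neg_right]

lemma ψν_vals (δ : ℝ) : ψν δ 0 = 0 ∧ ψν δ 1 = -δ ∧ ψν δ 2 = 0 := ⟨rfl, rfl, rfl⟩

lemma mem_cellν_0 (i0 i1 : Fin d) (δ : ℝ) (x : E d) :
    x ∈ cell (yν i0 i1 δ) (ψν δ) 0 ↔ δ * x i1 + δ ≤ -x i0 ∧ x i0 ≤ -x i0 := by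
  obtain ⟨e0, e1, e2⟩ := inner_yν i0 i1 δ x
  obtain ⟨p0, p1, p2⟩ := ψν_vals δ
  rw [mem_cell3, e0, e1, e2, p0, p1, p2]
  constructor
  · rintro ⟨_, h1, h2⟩; exact ⟨by linarith, by linarith⟩
  · rintro ⟨h1, h2⟩; exact ⟨le_rfl, by linarith, by linarith⟩

lemma mem_cellν_1 (i0 i1 : Fin d) (δ : ℝ) (x : E d) :
    x ∈ cell (yν i0 i1 δ) (ψν δ) 1 ↔ -x i0 ≤ δ * x i1 + δ ∧ x i0 ≤ δ * x i1 + δ := by
  obtain ⟨e0, e1, e2⟩ := inner_yν i0 i1 δ x
  obtain ⟨p0, p1, p2⟩ := ψν_vals δ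
  rw [mem_cell3, e0, e1, e2, p0, p1, p2]
  constructor
  · rintro ⟨h1, _, h2⟩; exact ⟨by linarith, by linarith⟩
  · rintro ⟨h1, h2⟩; exact ⟨by linarith, le_rfl, by linarith⟩

lemma mem_cellν_2 (i0 i1 : Fin d) (δ : ℝ) (x : E d) :
    x ∈ cell (yν i0 i1 δ) (ψν δ) 2 ↔ -x i0 ≤ x i0 ∧ δ * x i1 + δ ≤ x i0 := by
  obtain ⟨e0, e1, e2⟩ := inner_yν i0 i1 δ x
  obtain ⟨p0, p1, p2⟩ := ψν_vals δ
  rw [mem_cell3, e0, e1, e2, p0, p1, p2]
  constructor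
  · rintro ⟨h1, h2, _⟩; exact ⟨by linarith, by linarith⟩
  · rintro ⟨h1, h2⟩; exact ⟨by linarith, by linarith, le_rfl⟩

lemma mem_cellμ_0 (i0 : Fin d) (ψ : Fin 3 → ℝ) (x : E d) :
    x ∈ cell (yμ i0) ψ 0 ↔ x i0 ≤ ψ 1 - ψ 0 ∧ x i0 - ψ 2 ≤ -x i0 - ψ 0 := by
  obtain ⟨e0, e1, e2⟩ := inner_yμ i0 x
  rw [mem_cell3, e0, e1, e2]
  constructor
  · rintro ⟨_, h1, h2⟩; exact ⟨by linarith, by linarith⟩
  · rintro ⟨h1, h2⟩; exact ⟨le_rfl, by linarith, by linarith⟩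

lemma mem_cellμ_1 (i0 : Fin d) (ψ : Fin 3 → ℝ) (x : E d) :
    x ∈ cell (yμ i0) ψ 1 ↔ ψ 1 - ψ 0 ≤ x i0 ∧ x i0 ≤ ψ 2 - ψ 1 := by
  obtain ⟨e0, e1, e2⟩ := inner_yμ i0 x
  rw [mem_cell3, e0, e1, e2]
  constructor
  · rintro ⟨h1, _, h2⟩; exact ⟨by linarith, by linarith⟩
  · rintro ⟨h1, h2⟩; exact ⟨by linarith, le_rfl, by linarith⟩

lemma mem_cellμ_2 (i0 : Fin d) (ψ : Fin 3 → ℝ) (x : E d) :
    x ∈ cell (yμ i0) ψ 2 ↔ -x i0 - ψ 0 ≤ x i0 - ψ 2 ∧ ψ 2 - ψ 1 ≤ x i0 := by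
  obtain ⟨e0, e1, e2⟩ := inner_yμ i0 x
  rw [mem_cell3, e0, e1, e2]
  constructor
  · rintro ⟨h1, h2, _⟩; exact ⟨by linarith, by linarith⟩
  · rintro ⟨h1, h2⟩; exact ⟨by linarith, by linarith, le_rfl⟩

/-! ### Injectivity, atoms in the cube -/

lemma yμ_coord (i0 : Fin d) (j : Fin 3) : (yμ i0 j) i0 = ![(-1 : ℝ), 0, 1] j := by
  fin_cases j <;> simp [yμ, ee_apply]

lemma yν_coord {i0 i1 : Fin d} (hne : i0 ≠ i1) (δ : ℝ) (j : Fin 3) :
    (yν i0 i1 δ j) i0 = ![(-1 : ℝ), 0, 1] j := by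
  fin_cases j <;> simp [yν, ee_apply, hne]

lemma coord_inj : Function.Injective ![(-1 : ℝ), 0, 1] := by
  intro a b h
  fin_cases a <;> fin_cases b <;> simp at h ⊢ <;> norm_num at h

lemma yμ_injective (i0 : Fin d) : Function.Injective (yμ i0) := by
  intro a b h
  apply coord_inj
  rw [← yμ_coord i0 a, ← yμ_coord i0 b, h]

lemma yν_injective {i0 i1 : Fin d} (hne : i0 ≠ i1) (δ : ℝ) :
    Function.Injective (yν i0 i1 δ) := by
  intro a b h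
  apply coord_inj
  rw [← yν_coord hne δ a, ← yν_coord hne δ b, h]

lemma ee_mem_Q (i : Fin d) : ee i ∈ Q d := by
  intro j
  rw [ee_apply]
  split_ifs <;> simp

lemma neg_ee_mem_Q (i : Fin d) : -(ee i) ∈ Q d := by
  intro j
  have : (-(ee i)) j = -((ee i) j) := by simp
  rw [this, ee_apply]
  split_ifs <;> simp

lemma zero_mem_Q : (0 : E d) ∈ Q d := by
  intro j; simp

lemma smul_ee_mem_Q (i : Fin d) {δ : ℝ} (hδ : |δ| ≤ 1) : δ • ee i ∈ Q d := by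
  intro j
  have : (δ • ee i) j = δ * (ee i) j := by simp
  rw [this, ee_apply]
  split_ifs <;> simp [hδ]

lemma yμ_mem_Q (i0 : Fin d) (j : Fin 3) : yμ i0 j ∈ Q d := by
  fin_cases j
  · exact neg_ee_mem_Q i0
  · exact zero_mem_Q
  · exact ee_mem_Q i0

lemma yν_mem_Q (i0 i1 : Fin d) {δ : ℝ} (hδ : |δ| ≤ 1) (j : Fin 3) : yν i0 i1 δ j ∈ Q d := by
  fin_cases j
  · exact neg_ee_mem_Q i0
  · exact smul_ee_mem_Q i1 hδ
  · exact ee_mem_Q i0

/-! ### Monotonicity of `ρ` modulo the cube -/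

lemma rho_Q_compl : ρ (Q d) (Q d)ᶜ = 0 := by
  rw [rho_apply measurableSet_Q.compl]
  simp

lemma rho_real_mono_Q {S S' : Set (E d)} (h : S ∩ Q d ⊆ S') :
    (ρ (Q d)).real S ≤ (ρ (Q d)).real S' := by
  have := isProb_Q (d := d)
  have h1 : ρ (Q d) S ≤ ρ (Q d) S' := by
    calc ρ (Q d) S ≤ ρ (Q d) ((S ∩ Q d) ∪ (Q d)ᶜ) := by
          apply measure_mono
          intro x hx
          by_cases hq : x ∈ Q d
          · exact Or.inl ⟨hx, hq⟩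
          · exact Or.inr hq
      _ ≤ ρ (Q d) (S ∩ Q d) + ρ (Q d) (Q d)ᶜ := measure_union_le _ _
      _ = ρ (Q d) (S ∩ Q d) := by rw [rho_Q_compl, add_zero]
      _ ≤ ρ (Q d) S' := measure_mono h
  exact ENNReal.toReal_mono (measure_ne_top _ _) h1

/-! ### The masses of `ν` -/

/-- The masses: `ρ`-measures of the `ν`-cells. -/
noncomputable def mν (i0 i1 : Fin d) (δ : ℝ) (i : Fin 3) : ℝ :=
  (ρ (Q d)).real (cell (yν i0 i1 δ) (ψν δ) i)

lemma isOptWν (i0 i1 : Fin d) (δ : ℝ) :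
    IsOptW (Q d) (yν i0 i1 δ) (mν i0 i1 δ) (ψν δ) := fun _ => rfl

lemma mν_nonneg (i0 i1 : Fin d) (δ : ℝ) (i : Fin 3) : 0 ≤ mν i0 i1 δ i := measureReal_nonneg

lemma mν_0_pos {i0 i1 : Fin d} (hne : i0 ≠ i1) {δ : ℝ} (hδ0 : 0 < δ) (hδ : δ ≤ 1 / 4) :
    0 < mν i0 i1 δ 0 := by
  have h := le_rho_real_of_box2_subset (d := d) hne (a := -1) (b := -1 / 2) (a' := -1) (b' := 1)
    (by norm_num) (by norm_num) (by norm_num) (by norm_num) (by norm_num) (by norm_num)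
    (S := cell (yν i0 i1 δ) (ψν δ) 0) (by
      rintro x ⟨⟨h1, h2, h3, h4⟩, -⟩
      rw [mem_cellν_0]
      constructor
      · nlinarith
      · linarith)
  have : (0 : ℝ) < (-1 / 2 - -1) * (1 - -1) / 4 := by norm_num
  exact lt_of_lt_of_le this h

lemma mν_2_pos {i0 i1 : Fin d} (hne : i0 ≠ i1) {δ : ℝ} (hδ0 : 0 < δ) (hδ : δ ≤ 1 / 4) :
    0 < mν i0 i1 δ 2 := by
  have h := le_rho_real_of_box2_subset (d := d) hne (a := 1 / 2) (b := 1) (a' := -1) (b' := 1)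
    (by norm_num) (by norm_num) (by norm_num) (by norm_num) (by norm_num) (by norm_num)
    (S := cell (yν i0 i1 δ) (ψν δ) 2) (by
      rintro x ⟨⟨h1, h2, h3, h4⟩, -⟩
      rw [mem_cellν_2]
      constructor
      · linarith
      · nlinarith)
  have : (0 : ℝ) < (1 - 1 / 2) * (1 - -1) / 4 := by norm_num
  exact lt_of_lt_of_le this h

lemma mν_1_pos {i0 i1 : Fin d} (hne : i0 ≠ i1) {δ : ℝ} (hδ0 : 0 < δ) (hδ : δ ≤ 1 / 4) :
    0 < mν i0 i1 δ 1 := by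
  have h := le_rho_real_of_box2_subset (d := d) hne (a := -(δ / 2)) (b := δ / 2) (a' := 0)
    (b' := 1)
    (by linarith) (by linarith) (by linarith) (by norm_num) (by norm_num) (by norm_num)
    (S := cell (yν i0 i1 δ) (ψν δ) 1) (by
      rintro x ⟨⟨h1, h2, h3, h4⟩, -⟩
      rw [mem_cellν_1]
      constructor
      · nlinarith
      · nlinarith)
  have : (0 : ℝ) < (δ / 2 - -(δ / 2)) * (1 - 0) / 4 := by linarith
  exact lt_of_lt_of_le this h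

lemma mν_pos {i0 i1 : Fin d} (hne : i0 ≠ i1) {δ : ℝ} (hδ0 : 0 < δ) (hδ : δ ≤ 1 / 4)
    (i : Fin 3) : 0 < mν i0 i1 δ i := by
  fin_cases i
  · exact mν_0_pos hne hδ0 hδ
  · exact mν_1_pos hne hδ0 hδ
  · exact mν_2_pos hne hδ0 hδ

lemma mν_1_le (i0 i1 : Fin d) {δ : ℝ} (hδ0 : 0 < δ) (hδ : δ ≤ 1 / 4) :
    mν i0 i1 δ 1 ≤ 2 * δ := by
  have h1 : (ρ (Q d)).real (cell (yν i0 i1 δ) (ψν δ) 1) ≤
      (ρ (Q d)).real {x : E d | -(2 * δ) ≤ x i0 ∧ x i0 ≤ 2 * δ} := by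
    apply rho_real_mono_Q
    rintro x ⟨hx, hq⟩
    rw [mem_cellν_1] at hx
    have hq1 := abs_le.mp (hq i1)
    constructor
    · nlinarith
    · nlinarith
  have h2 := rho_real_slab (d := d) i0 (a := -(2 * δ)) (b := 2 * δ) (by linarith) (by linarith)
    (by linarith)
  have h3 : (ρ (Q d)).real {x : E d | -(2 * δ) ≤ x i0 ∧ x i0 ≤ 2 * δ} = 2 * δ := by
    rw [show ρ (Q d) = uniformProbOn (Q d) from rfl, h2]; ring
  unfold mν
  linarith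

lemma mν_sum {i0 i1 : Fin d} (hne : i0 ≠ i1) (δ : ℝ) : ∑ i, mν i0 i1 δ i = 1 := by
  have := isProb_Q (d := d)
  have h := sum_setIntegral_cell (yν_injective hne δ) (ψν δ) (Q d)
    (f := fun _ => (1 : ℝ)) (integrable_const _)
  simp only [integral_const, smul_eq_mul, mul_one, probReal_univ,
    measureReal_restrict_apply_univ] at h
  exact h

/-! ### Discrete measures -/

lemma isProbOn_sum_dirac {Y : Set (E d)} (hY : MeasurableSet Y) (m : Fin 3 → ℝ)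
    (y : Fin 3 → E d) (hm : ∀ i, 0 ≤ m i) (hsum : ∑ i, m i = 1) (hy : ∀ i, y i ∈ Y) :
    IsProbabilityOn Y (∑ i, ENNReal.ofReal (m i) • Measure.dirac (y i)) := by
  constructor
  · constructor
    simp only [Measure.coe_finsetSum, Measure.coe_smul, Finset.sum_apply, Pi.smul_apply,
      measure_univ, smul_eq_mul, mul_one]
    rw [← ENNReal.ofReal_sum_of_nonneg (fun i _ => hm i), hsum, ENNReal.ofReal_one]
  · simp only [Measure.coe_finsetSum, Measure.coe_smul, Finset.sum_apply, Pi.smul_apply,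
      smul_eq_mul]
    apply Finset.sum_eq_zero
    intro i _
    rw [Measure.dirac_apply' _ hY.compl]
    simp [hy i]

lemma map_sum_dirac {α β : Type*} [MeasurableSpace α] [MeasurableSpace β] (c : Fin 3 → ℝ≥0∞)
    (p : Fin 3 → α) (f : α → β) (hf : Measurable f) :
    (∑ i, c i • Measure.dirac (p i)).map f = ∑ i, c i • Measure.dirac (f (p i)) := by
  ext s hs
  rw [Measure.map_apply hf hs]
  simp only [Measure.coe_finsetSum, Measure.coe_smul, Finset.sum_apply, Pi.smul_apply,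
    smul_eq_mul]
  refine Finset.sum_congr rfl fun i _ => ?_
  rw [Measure.dirac_apply' _ (hf hs), Measure.dirac_apply' _ hs]
  rfl

/-- The atom-to-atom coupling. -/
noncomputable def coup (m : Fin 3 → ℝ) (y z : Fin 3 → E d) : Measure (E d × E d) :=
  ∑ i, ENNReal.ofReal (m i) • Measure.dirac (y i, z i)

lemma coup_isPairCoupling (m : Fin 3 → ℝ) (y z : Fin 3 → E d) :
    IsPairCoupling (∑ i, ENNReal.ofReal (m i) • Measure.dirac (y i))
      (∑ i, ENNReal.ofReal (m i) • Measure.dirac (z i)) (coup m y z) := by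
  constructor
  · exact map_sum_dirac _ _ _ measurable_fst
  · exact map_sum_dirac _ _ _ measurable_snd

lemma quadCost_coup (m : Fin 3 → ℝ) (y z : Fin 3 → E d) :
    quadCost (coup m y z) = ∑ i, ENNReal.ofReal (m i) * ‖y i - z i‖ₑ ^ 2 := by
  unfold quadCost coup
  rw [lintegral_finsetSum_measure]
  refine Finset.sum_congr rfl fun i _ => ?_
  have hf : Measurable (fun a : E d × E d => ‖a.1 - a.2‖ₑ ^ 2) :=
    (measurable_fst.sub measurable_snd).enorm.pow_const 2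
  rw [lintegral_smul_measure, lintegral_dirac' _ hf, smul_eq_mul]

/-! ### The lower bound -/

lemma lagIdx_eq_one {y : Fin 3 → E d} {ψ : Fin 3 → ℝ} {x : E d} (h0 : x ∉ cell y ψ 0)
    (h2 : x ∉ cell y ψ 2) : lagIdx y ψ x = 1 := by
  have h := lagIdx_mem y ψ x
  generalize lagIdx y ψ x = j at h ⊢
  fin_cases j
  · exact absurd h h0
  · rfl
  · exact absurd h h2

lemma lagIdx_ne_one {y : Fin 3 → E d} {ψ : Fin 3 → ℝ} {x : E d} (h1 : x ∉ cell y ψ 1) :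
    lagIdx y ψ x ≠ 1 := fun h => h1 (h ▸ lagIdx_mem y ψ x)

lemma one_le_norm_sub {i0 i1 : Fin d} (hne : i0 ≠ i1) (δ : ℝ) (ψ : Fin 3 → ℝ) (x : E d)
    (h : (lagIdx (yμ i0) ψ x = 1 ∧ lagIdx (yν i0 i1 δ) (ψν δ) x ≠ 1) ∨
      (lagIdx (yμ i0) ψ x ≠ 1 ∧ lagIdx (yν i0 i1 δ) (ψν δ) x = 1)) :
    1 ≤ ‖lagMap (yμ i0) ψ x - lagMap (yν i0 i1 δ) (ψν δ) x‖ := by
  have h1 : ‖(lagMap (yμ i0) ψ x - lagMap (yν i0 i1 δ) (ψν δ) x) i0‖ ≤
      ‖lagMap (yμ i0) ψ x - lagMap (yν i0 i1 δ) (ψν δ) x‖ := PiLp.norm_apply_le _ i0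
  have h2 : (lagMap (yμ i0) ψ x - lagMap (yν i0 i1 δ) (ψν δ) x) i0 =
      ![(-1 : ℝ), 0, 1] (lagIdx (yμ i0) ψ x) -
        ![(-1 : ℝ), 0, 1] (lagIdx (yν i0 i1 δ) (ψν δ) x) := by
    have : (lagMap (yμ i0) ψ x - lagMap (yν i0 i1 δ) (ψν δ) x) i0 =
        (lagMap (yμ i0) ψ x) i0 - (lagMap (yν i0 i1 δ) (ψν δ) x) i0 := by simp
    rw [this]
    unfold lagMap
    rw [yμ_coord, yν_coord hne]
  rw [h2] at h1
  refine le_trans ?_ h1
  generalize lagIdx (yμ i0) ψ x = a at h ⊢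
  generalize lagIdx (yν i0 i1 δ) (ψν δ) x = b at h ⊢
  rw [Real.norm_eq_abs]
  fin_cases a <;> fin_cases b <;> simp at h ⊢

/-- The three-case choice of an explicit box on which the two Laguerre maps differ. -/
lemma exists_box {i0 i1 : Fin d} (hne : i0 ≠ i1) {δ : ℝ} (hδ0 : 0 < δ) (hδ : δ ≤ 1 / 4)
    (ψ : Fin 3 → ℝ) :
    ∃ a b a' b' : ℝ, -1 ≤ a ∧ a ≤ b ∧ b ≤ 1 ∧ -1 ≤ a' ∧ a' ≤ b' ∧ b' ≤ 1 ∧
      (b - a) * (b' - a') / 4 = δ / 32 ∧
      ∀ x : E d, a ≤ x i0 → x i0 ≤ b → a' ≤ x i1 → x i1 ≤ b' →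
        1 ≤ ‖lagMap (yμ i0) ψ x - lagMap (yν i0 i1 δ) (ψν δ) x‖ := by
  by_cases hb : ψ 2 - ψ 1 < 9 * δ / 8
  · refine ⟨9 * δ / 8, 11 * δ / 8, 1 / 2, 1, by linarith, by linarith, by linarith, by norm_num,
      by norm_num, by norm_num, by ring, fun x h1 h2 h3 h4 => ?_⟩
    apply one_le_norm_sub hne
    right
    constructor
    · apply lagIdx_ne_one
      rw [mem_cellμ_1]
      rintro ⟨_, h⟩
      linarith
    · apply lagIdx_eq_one
      · rw [mem_cellν_0]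
        rintro ⟨h, _⟩
        nlinarith
      · rw [mem_cellν_2]
        rintro ⟨_, h⟩
        nlinarith
  · push Not at hb
    by_cases ha : ψ 1 - ψ 0 ≤ δ / 2
    · refine ⟨5 * δ / 8, 7 * δ / 8, -1, -1 / 2, by linarith, by linarith, by linarith,
        by norm_num, by norm_num, by norm_num, by ring, fun x h1 h2 h3 h4 => ?_⟩
      apply one_le_norm_sub hne
      left
      constructor
      · apply lagIdx_eq_one
        · rw [mem_cellμ_0]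
          rintro ⟨h, _⟩
          linarith
        · rw [mem_cellμ_2]
          rintro ⟨_, h⟩
          linarith
      · apply lagIdx_ne_one
        rw [mem_cellν_1]
        rintro ⟨_, h⟩
        nlinarith
    · push Not at ha
      refine ⟨-(11 * δ / 8), -(9 * δ / 8), 1 / 2, 1, by linarith, by linarith, by linarith,
        by norm_num, by norm_num, by norm_num, by ring, fun x h1 h2 h3 h4 => ?_⟩
      apply one_le_norm_sub hne
      right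
      constructor
      · apply lagIdx_ne_one
        rw [mem_cellμ_1]
        rintro ⟨h, _⟩
        linarith
      · apply lagIdx_eq_one
        · rw [mem_cellν_0]
          rintro ⟨h, _⟩
          nlinarith
        · rw [mem_cellν_2]
          rintro ⟨h, _⟩
          linarith

lemma lower_bound {i0 i1 : Fin d} (hne : i0 ≠ i1) {δ : ℝ} (hδ0 : 0 < δ) (hδ : δ ≤ 1 / 4)
    (ψ : Fin 3 → ℝ) :
    ENNReal.ofReal (δ / 32) ≤
      ∫⁻ x, ‖lagMap (yμ i0) ψ x - lagMap (yν i0 i1 δ) (ψν δ) x‖ₑ ^ 2 ∂(ρ (Q d)) := by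
  have := isProb_Q (d := d)
  obtain ⟨a, b, a', b', ha, hab, hb, ha', hab', hb', hvol, hpt⟩ := exists_box hne hδ0 hδ ψ
  set D : Set (E d) := {x | a ≤ x i0 ∧ x i0 ≤ b ∧ a' ≤ x i1 ∧ x i1 ≤ b'} with hD
  have hDm : MeasurableSet D := by
    have : D = ({x | a ≤ x i0} ∩ {x | x i0 ≤ b}) ∩ ({x | a' ≤ x i1} ∩ {x | x i1 ≤ b'}) := by
      ext x; simp [hD, and_assoc]
    rw [this]
    exact (((isClosed_le continuous_const (by fun_prop)).inter
      (isClosed_le (by fun_prop) continuous_const)).inter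
      ((isClosed_le continuous_const (by fun_prop)).inter
      (isClosed_le (by fun_prop) continuous_const))).measurableSet
  have hρD : ρ (Q d) D = ENNReal.ofReal (δ / 32) := by
    have h1 := rho_real_box2 (d := d) hne ha hab hb ha' hab' hb'
    rw [hvol] at h1
    rw [← h1, show ρ (Q d) = uniformProbOn (Q d) from rfl, Measure.real,
      ENNReal.ofReal_toReal (measure_ne_top _ _)]
  calc ENNReal.ofReal (δ / 32) = ∫⁻ x, D.indicator (fun _ => (1 : ℝ≥0∞)) x ∂(ρ (Q d)) := by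
        rw [lintegral_indicator hDm, setLIntegral_const, one_mul, hρD]
    _ ≤ _ := by
        apply lintegral_mono
        intro x
        by_cases hx : x ∈ D
        · rw [Set.indicator_of_mem hx]
          have h1 := hpt x hx.1 hx.2.1 hx.2.2.1 hx.2.2.2
          have h2 : (1 : ℝ≥0∞) ≤ ‖lagMap (yμ i0) ψ x - lagMap (yν i0 i1 δ) (ψν δ) x‖ₑ := by
            rw [← ofReal_norm, ← ENNReal.ofReal_one]
            exact ENNReal.ofReal_le_ofReal h1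
          calc (1 : ℝ≥0∞) = 1 ^ 2 := by norm_num
            _ ≤ _ := pow_le_pow_left₀ zero_le h2 2
        · rw [Set.indicator_of_notMem hx]
          exact zero_le

/-! ### The scalar step -/

lemma exists_delta (α : ℝ) (hα : 1 / 3 < α) (C : ℝ) (hC : 0 ≤ C) :
    ∃ δ : ℝ, 0 < δ ∧ δ ≤ 1 / 4 ∧ C * (2 * δ ^ 3) ^ α < δ / 32 := by
  set β : ℝ := 3 * α - 1 with hβ
  have hβ0 : 0 < β := by rw [hβ]; linarith
  have h2α : 0 < (2 : ℝ) ^ α := Real.rpow_pos_of_pos (by norm_num) _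
  set ε : ℝ := 1 / (64 * (C + 1) * 2 ^ α) with hε
  have hε0 : 0 < ε := by rw [hε]; positivity
  set δ : ℝ := min (1 / 4) (ε ^ (1 / β)) with hδ
  have hδ0 : 0 < δ := lt_min (by norm_num) (Real.rpow_pos_of_pos hε0 _)
  have hδβ : δ ^ β ≤ ε := by
    calc δ ^ β ≤ (ε ^ (1 / β)) ^ β :=
          Real.rpow_le_rpow hδ0.le (min_le_right _ _) hβ0.le
      _ = ε := by
          rw [← Real.rpow_mul hε0.le, one_div, inv_mul_cancel₀ hβ0.ne', Real.rpow_one]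
  refine ⟨δ, hδ0, min_le_left _ _, ?_⟩
  have e1 : (2 * δ ^ 3) ^ α = 2 ^ α * (δ ^ β * δ) := by
    rw [Real.mul_rpow (by norm_num) (by positivity), ← Real.rpow_natCast δ 3,
      ← Real.rpow_mul hδ0.le]
    congr 1
    have : ((3 : ℕ) : ℝ) * α = β + 1 := by rw [hβ]; push_cast; ring
    rw [this, Real.rpow_add hδ0, Real.rpow_one]
  rw [e1]
  have h3 : C * (2 ^ α * (δ ^ β * δ)) ≤ C * (2 ^ α * (ε * δ)) := by
    apply mul_le_mul_of_nonneg_left _ hC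
    apply mul_le_mul_of_nonneg_left _ h2α.le
    exact mul_le_mul_of_nonneg_right hδβ hδ0.le
  have h4 : C * (2 ^ α * (ε * δ)) = C / (64 * (C + 1)) * δ := by
    rw [hε]; field_simp
  have h5 : C / (64 * (C + 1)) < 1 / 32 := by
    rw [div_lt_div_iff₀ (by positivity) (by norm_num)]
    nlinarith
  calc C * (2 ^ α * (δ ^ β * δ)) ≤ C / (64 * (C + 1)) * δ := by rw [← h4]; exact h3
    _ < 1 / 32 * δ := mul_lt_mul_of_pos_right h5 hδ0
    _ = δ / 32 := by ring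

/-! ### Main theorem -/

/-- **S0110** (frozen statement). -/
theorem s0110_main (d : ℕ) (hd : 2 ≤ d) (α : ℝ) (hα : 1 / 3 < α) (C : ℝ≥0) :
    ∃ μ ν : Measure (EuclideanSpace ℝ (Fin d)),
      IsProbabilityOn {x : EuclideanSpace ℝ (Fin d) | ∀ i, |x i| ≤ 1} μ ∧
      IsProbabilityOn {x : EuclideanSpace ℝ (Fin d) | ∀ i, |x i| ≤ 1} ν ∧
      IsThreeAtomic μ ∧ IsThreeAtomic ν ∧
      (∃ T, IsOptimalMap (uniformProbOn {x : EuclideanSpace ℝ (Fin d) | ∀ i, |x i| ≤ 1}) μ T) ∧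
      (∃ T, IsOptimalMap (uniformProbOn {x : EuclideanSpace ℝ (Fin d) | ∀ i, |x i| ≤ 1}) ν T) ∧
      ∀ Tμ Tν : EuclideanSpace ℝ (Fin d) → EuclideanSpace ℝ (Fin d),
        IsOptimalMap (uniformProbOn {x : EuclideanSpace ℝ (Fin d) | ∀ i, |x i| ≤ 1}) μ Tμ →
        IsOptimalMap (uniformProbOn {x : EuclideanSpace ℝ (Fin d) | ∀ i, |x i| ≤ 1}) ν Tν →
        ∃ π : Measure (EuclideanSpace ℝ (Fin d) × EuclideanSpace ℝ (Fin d)),
          IsPairCoupling μ ν π ∧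
          (C : ℝ≥0∞) * quadCost π ^ α <
            ∫⁻ x, ‖Tμ x - Tν x‖ₑ ^ 2
              ∂(uniformProbOn {x : EuclideanSpace ℝ (Fin d) | ∀ i, |x i| ≤ 1}) := by
  obtain ⟨δ, hδ0, hδ, hδC⟩ := exists_delta α hα C C.2
  set i0 : Fin d := ⟨0, by omega⟩ with hi0
  set i1 : Fin d := ⟨1, by omega⟩ with hi1
  have hne : i0 ≠ i1 := by
    intro h
    have := congrArg Fin.val h
    simp [hi0, hi1] at this
  have hα0 : 0 < α := by linarith
  have hQc : IsCompact (Q d) := isCompact_Q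
  have hQi : (interior (Q d)).Nonempty := interior_Q_nonempty
  have hmpos := mν_pos hne hδ0 hδ
  have hmsum := mν_sum hne δ
  have hyν := yν_injective hne δ
  have hyμ := yμ_injective i0
  have hoptν := isOptWν i0 i1 δ
  obtain ⟨ψ, hψ⟩ := pkg_EX d 3 (Q d) hQc convex_Q hQi (yμ i0) (mν i0 i1 δ) hyμ hmpos hmsum
  have hδabs : |δ| ≤ 1 := by rw [abs_of_pos hδ0]; linarith
  show ∃ μ ν : Measure (E d), IsProbabilityOn (Q d) μ ∧ IsProbabilityOn (Q d) ν ∧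
      IsThreeAtomic μ ∧ IsThreeAtomic ν ∧
      (∃ T, IsOptimalMap (ρ (Q d)) μ T) ∧ (∃ T, IsOptimalMap (ρ (Q d)) ν T) ∧
      ∀ Tμ Tν : E d → E d, IsOptimalMap (ρ (Q d)) μ Tμ → IsOptimalMap (ρ (Q d)) ν Tν →
        ∃ π : Measure (E d × E d), IsPairCoupling μ ν π ∧
          (C : ℝ≥0∞) * quadCost π ^ α < ∫⁻ x, ‖Tμ x - Tν x‖ₑ ^ 2 ∂(ρ (Q d))
  refine ⟨∑ i, ENNReal.ofReal (mν i0 i1 δ i) • Measure.dirac (yμ i0 i),
    ∑ i, ENNReal.ofReal (mν i0 i1 δ i) • Measure.dirac (yν i0 i1 δ i),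
    isProbOn_sum_dirac measurableSet_Q _ _ (fun i => (hmpos i).le) hmsum (yμ_mem_Q i0),
    isProbOn_sum_dirac measurableSet_Q _ _ (fun i => (hmpos i).le) hmsum (yν_mem_Q i0 i1 hδabs),
    ⟨yμ i0, hyμ, mν i0 i1 δ, hmpos, rfl⟩, ⟨yν i0 i1 δ, hyν, mν i0 i1 δ, hmpos, rfl⟩,
    ⟨_, Crest.Agent.LibS0110h3.lagMap_isOptimalMap hQc hQi hyμ hψ⟩,
    ⟨_, Crest.Agent.LibS0110h3.lagMap_isOptimalMap hQc hQi hyν hoptν⟩, ?_⟩
  intro Tμ Tν hTμ hTν
  refine ⟨coup (mν i0 i1 δ) (yμ i0) (yν i0 i1 δ), coup_isPairCoupling _ _ _, ?_⟩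
  rw [Crest.Agent.LibS0110h3.lintegral_sq_dist_optimal_eq hQc hQi hyμ hψ hyν hoptν hTμ hTν]
  refine lt_of_lt_of_le ?_ (lower_bound hne hδ0 hδ ψ)
  -- the cost of the coupling
  have hcost : quadCost (coup (mν i0 i1 δ) (yμ i0) (yν i0 i1 δ)) ≤ ENNReal.ofReal (2 * δ ^ 3) := by
    rw [quadCost_coup, Fin.sum_univ_three]
    have e0 : yμ i0 0 - yν i0 i1 δ 0 = 0 := by simp [yμ, yν]
    have e2 : yμ i0 2 - yν i0 i1 δ 2 = 0 := by simp [yμ, yν]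
    have e1 : ‖yμ i0 1 - yν i0 i1 δ 1‖ₑ = ENNReal.ofReal δ := by
      have : yμ i0 1 - yν i0 i1 δ 1 = -(δ • ee i1) := by simp [yμ, yν]
      rw [this, enorm_neg, ← ofReal_norm, norm_smul, Real.norm_eq_abs, abs_of_pos hδ0]
      have : ‖ee i1‖ = 1 := by simp [ee]
      rw [this, mul_one]
    rw [e0, e2, e1]
    simp only [enorm_zero, ne_eq, OfNat.ofNat_ne_zero, not_false_eq_true, zero_pow, mul_zero,
      zero_add, add_zero]
    rw [← ENNReal.ofReal_pow hδ0.le, ← ENNReal.ofReal_mul (mν_nonneg _ _ _ _)]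
    apply ENNReal.ofReal_le_ofReal
    have := mν_1_le i0 i1 hδ0 hδ
    nlinarith [sq_nonneg δ, mν_nonneg i0 i1 δ 1]
  calc (C : ℝ≥0∞) * quadCost (coup (mν i0 i1 δ) (yμ i0) (yν i0 i1 δ)) ^ α
      ≤ (C : ℝ≥0∞) * ENNReal.ofReal (2 * δ ^ 3) ^ α := by
        gcongr
    _ = ENNReal.ofReal ((C : ℝ) * (2 * δ ^ 3) ^ α) := by
        rw [ENNReal.ofReal_mul (NNReal.coe_nonneg C), ENNReal.ofReal_coe_nnreal,
          ENNReal.ofReal_rpow_of_nonneg (by positivity) hα0.le]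
    _ < ENNReal.ofReal (δ / 32) :=
        (ENNReal.ofReal_lt_ofReal_iff (by positivity)).mpr hδC

end Crest.Agent.LibS0110Main24
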