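import Mathlib
import Crest.Prelude.Def_QuadraticTransport

/-!
# Row 82, statement S0110 (helper16): the uniform probability measure on the cube `[-1,1]^d`.

Box volumes in two distinguished coordinates, total mass, support, and invariance under the
reflection in one coordinate.
-/

set_option autoImplicit false
open MeasureTheory
open scoped ENNReal NNReal

namespace Crest.Agent.LibS0110h16

/-- The ambient Euclidean space. -/
abbrev E (d : ℕ) := EuclideanSpace ℝ (Fin d)

/-- The cube `[-1,1]^d`. -/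
def Q (d : ℕ) : Set (E d) := {x | ∀ i, |x i| ≤ 1}

/-- The uniform probability measure on the cube. -/
noncomputable abbrev ρQ (d : ℕ) : Measure (E d) := Crest.AnalysisR.OT.uniformProbOn (Q d)

lemma continuous_coord {d : ℕ} (i : Fin d) : Continuous (fun x : E d => x i) := by fun_prop

lemma measurable_coord {d : ℕ} (i : Fin d) : Measurable (fun x : E d => x i) :=
  (continuous_coord i).measurable

lemma pi_box_eq (d : ℕ) (lo hi : Fin d → ℝ) :
    {x : E d | ∀ i, lo i ≤ x i ∧ x i ≤ hi i} =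
      (WithLp.ofLp : E d → Fin d → ℝ) ⁻¹' (Set.Icc lo hi) := by
  ext x
  simp only [Set.mem_ofPred_eq, Set.mem_preimage, Set.mem_Icc, Pi.le_def]
  exact forall_and

lemma volume_pi_box (d : ℕ) (lo hi : Fin d → ℝ) :
    volume {x : E d | ∀ i, lo i ≤ x i ∧ x i ≤ hi i} = ∏ i, ENNReal.ofReal (hi i - lo i) := by
  rw [pi_box_eq, (PiLp.volume_preserving_ofLp (Fin d)).measure_preimage
    measurableSet_Icc.nullMeasurableSet, Real.volume_Icc_pi]

lemma Q_eq_box (d : ℕ) : Q d = {x : E d | ∀ i, (-1 : ℝ) ≤ x i ∧ x i ≤ 1} := by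
  ext x
  simp only [Q, Set.mem_ofPred_eq, abs_le]

lemma isClosed_Q (d : ℕ) : IsClosed (Q d) := by
  have : Q d = ⋂ i, {x : E d | |x i| ≤ 1} := by
    ext x; simp [Q]
  rw [this]
  exact isClosed_iInter fun i => isClosed_le (continuous_abs.comp (continuous_coord i))
    continuous_const

lemma measurableSet_Q (d : ℕ) : MeasurableSet (Q d) := (isClosed_Q d).measurableSet

lemma volume_Q (d : ℕ) : volume (Q d) = ∏ _i : Fin d, ENNReal.ofReal 2 := by
  rw [Q_eq_box, volume_pi_box]
  norm_num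

lemma volume_Q_ne_zero (d : ℕ) : volume (Q d) ≠ 0 := by
  rw [volume_Q]
  exact Finset.prod_ne_zero_iff.mpr fun i _ => by simp

lemma volume_Q_ne_top (d : ℕ) : volume (Q d) ≠ ⊤ := by
  rw [volume_Q]
  exact ENNReal.prod_ne_top fun i _ => ENNReal.ofReal_ne_top

lemma ρQ_apply (d : ℕ) {s : Set (E d)} (hs : MeasurableSet s) :
    ρQ d s = (volume (Q d))⁻¹ * volume (s ∩ Q d) := by
  show ((volume (Q d))⁻¹ • volume.restrict (Q d)) s = _
  rw [Measure.smul_apply, smul_eq_mul, Measure.restrict_apply hs]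

instance instProbρQ (d : ℕ) : IsProbabilityMeasure (ρQ d) := by
  constructor
  rw [ρQ_apply d MeasurableSet.univ, Set.univ_inter]
  exact ENNReal.inv_mul_cancel (volume_Q_ne_zero d) (volume_Q_ne_top d)

lemma ρQ_compl (d : ℕ) : ρQ d (Q d)ᶜ = 0 := by
  rw [ρQ_apply d (measurableSet_Q d).compl]
  simp

/-- ρ-almost every point lies in the cube. -/
lemma ae_mem_Q (d : ℕ) : ∀ᵐ x ∂(ρQ d), x ∈ Q d := by
  rw [ae_iff]
  exact ρQ_compl d

/-- The closed box in two distinguished coordinates. -/
def box2 {d : ℕ} (i0 i1 : Fin d) (a b c e : ℝ) : Set (E d) :=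
  {x | a ≤ x i0 ∧ x i0 ≤ b ∧ c ≤ x i1 ∧ x i1 ≤ e}

lemma measurableSet_box2 {d : ℕ} (i0 i1 : Fin d) (a b c e : ℝ) :
    MeasurableSet (box2 i0 i1 a b c e) := by
  have : box2 i0 i1 a b c e = {x : E d | a ≤ x i0} ∩ ({x : E d | x i0 ≤ b} ∩
      ({x : E d | c ≤ x i1} ∩ {x : E d | x i1 ≤ e})) := by
    ext x; simp [box2]
  rw [this]
  exact (measurableSet_le measurable_const (measurable_coord i0)).inter
    ((measurableSet_le (measurable_coord i0) measurable_const).inter
      ((measurableSet_le measurable_const (measurable_coord i1)).inter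
        (measurableSet_le (measurable_coord i1) measurable_const)))

/-- The mass of a box in two distinguished coordinates. -/
lemma ρQ_box2 {d : ℕ} (i0 i1 : Fin d) (h01 : i0 ≠ i1) (a b c e : ℝ)
    (ha : -1 ≤ a) (hb : b ≤ 1) (hc : -1 ≤ c) (he : e ≤ 1) :
    ρQ d (box2 i0 i1 a b c e) = ENNReal.ofReal ((b - a) / 2) * ENNReal.ofReal ((e - c) / 2) := by
  classical
  set lo : Fin d → ℝ := fun i => if i = i0 then a else if i = i1 then c else -1 with hlo
  set hi : Fin d → ℝ := fun i => if i = i0 then b else if i = i1 then e else 1 with hhi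
  have hset : box2 i0 i1 a b c e ∩ Q d = {x : E d | ∀ i, lo i ≤ x i ∧ x i ≤ hi i} := by
    ext x
    simp only [box2, Q_eq_box, Set.mem_inter_iff, Set.mem_ofPred_eq]
    constructor
    · rintro ⟨⟨h1, h2, h3, h4⟩, hq⟩ i
      by_cases hi0 : i = i0
      · subst hi0; simp [hlo, hhi, h1, h2]
      · by_cases hi1 : i = i1
        · subst hi1; simp [hlo, hhi, hi0, h3, h4]
        · simp [hlo, hhi, hi0, hi1, hq i]
    · intro h
      have h0 := h i0
      have h1 := h i1
      simp only [hlo, hhi, if_true, if_neg h01.symm] at h0 h1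
      refine ⟨⟨h0.1, h0.2, h1.1, h1.2⟩, fun i => ?_⟩
      have hi' := h i
      by_cases hi0 : i = i0
      · subst hi0; exact ⟨ha.trans h0.1, h0.2.trans hb⟩
      · by_cases hi1 : i = i1
        · subst hi1; exact ⟨hc.trans h1.1, h1.2.trans he⟩
        · simpa [hlo, hhi, hi0, hi1] using hi'
  rw [ρQ_apply d (measurableSet_box2 i0 i1 a b c e), hset, volume_pi_box, volume_Q]
  have hfac : ∀ i : Fin d, ENNReal.ofReal (hi i - lo i) =
      ENNReal.ofReal 2 * ENNReal.ofReal ((hi i - lo i) / 2) := by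
    intro i
    rw [← ENNReal.ofReal_mul (by norm_num)]
    congr 1; ring
  rw [Finset.prod_congr rfl (fun i _ => hfac i), Finset.prod_mul_distrib, ← mul_assoc,
    ENNReal.inv_mul_cancel, one_mul]
  · rw [Fintype.prod_eq_mul i0 i1 h01]
    · simp [hlo, hhi, h01.symm]
    · rintro x ⟨hx0, hx1⟩
      simp [hlo, hhi, hx0, hx1]
  · exact Finset.prod_ne_zero_iff.mpr fun i _ => by simp
  · exact ENNReal.prod_ne_top fun i _ => ENNReal.ofReal_ne_top

/-- Reflection in the coordinate `i1`. -/
noncomputable def refl {d : ℕ} (i1 : Fin d) : E d ≃ₗᵢ[ℝ] E d :=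
  (ℝ ∙ (EuclideanSpace.single i1 (1:ℝ)))ᗮ.reflection

lemma refl_apply {d : ℕ} (i1 : Fin d) (x : E d) :
    refl i1 x = x - (2 * x i1) • EuclideanSpace.single i1 (1:ℝ) := by
  unfold refl
  rw [Submodule.reflection_orthogonal_apply, Submodule.reflection_singleton_apply]
  simp [EuclideanSpace.inner_single_left]
  module

lemma refl_coord_same {d : ℕ} (i1 : Fin d) (x : E d) : (refl i1 x) i1 = - x i1 := by
  rw [refl_apply]
  simp
  ring

lemma refl_coord_ne {d : ℕ} (i1 : Fin d) (x : E d) {i : Fin d} (h : i ≠ i1) :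
    (refl i1 x) i = x i := by
  rw [refl_apply]
  simp [h]

lemma refl_refl {d : ℕ} (i1 : Fin d) (x : E d) : refl i1 (refl i1 x) = x := by
  unfold refl
  exact Submodule.reflection_reflection _ x

lemma refl_preimage_Q {d : ℕ} (i1 : Fin d) : (refl i1) ⁻¹' Q d = Q d := by
  ext x
  simp only [Q, Set.mem_preimage, Set.mem_ofPred_eq]
  refine forall_congr' fun i => ?_
  by_cases h : i = i1
  · subst h; rw [refl_coord_same, abs_neg]
  · rw [refl_coord_ne i1 x h]

lemma map_refl_ρQ {d : ℕ} (i1 : Fin d) : (ρQ d).map (refl i1) = ρQ d := by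
  have h := ((refl i1).measurePreserving.restrict_preimage (measurableSet_Q d)).map_eq
  rw [refl_preimage_Q] at h
  show ((volume (Q d))⁻¹ • volume.restrict (Q d)).map (refl i1) =
    (volume (Q d))⁻¹ • volume.restrict (Q d)
  rw [Measure.map_smul, h]


end Crest.Agent.LibS0110h16
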