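import Mathlib
import Crest.Prelude.Def_QuadraticTransport

/-!
# Row 82, statement S0110 (helper16): an elementary Kantorovich-duality lemma.

If `S` attains `⟪x, S x⟫ = φ x + Ψ (S x)` while `⟪x, z⟫ ≤ φ x + Ψ z` for all targets `z ∈ Y`,
then `S` has minimal quadratic cost among all measurable maps with the same image measure, and
every other minimiser `T` satisfies `⟪x, T x⟫ = φ x + Ψ (T x)` almost everywhere.
Everything is done with lower integrals; no integrability is needed beyond boundedness.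
-/

set_option autoImplicit false
open MeasureTheory
open scoped ENNReal NNReal InnerProductSpace

namespace Crest.Agent.LibS0110h16

theorem duality {d : ℕ} (ρ : Measure (EuclideanSpace ℝ (Fin d))) [IsFiniteMeasure ρ]
    (Qs Y : Set (EuclideanSpace ℝ (Fin d))) (hQ : ρ Qsᶜ = 0) (hY : MeasurableSet Y)
    (φ Ψ : EuclideanSpace ℝ (Fin d) → ℝ) (hφm : Measurable φ) (hΨm : Measurable Ψ)
    (S T : EuclideanSpace ℝ (Fin d) → EuclideanSpace ℝ (Fin d))
    (hS : Measurable S) (hT : Measurable T) (hmap : ρ.map T = ρ.map S) (K : ℝ)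
    (hφb : ∀ x ∈ Qs, |‖x‖ ^ 2 - 2 * φ x| ≤ K)
    (hΨb : ∀ z ∈ Y, |‖z‖ ^ 2 - 2 * Ψ z| ≤ K)
    (hSY : ∀ x, S x ∈ Y)
    (h1 : ∀ x, ∀ z ∈ Y, ⟪x, z⟫_ℝ ≤ φ x + Ψ z)
    (h2 : ∀ x, ⟪x, S x⟫_ℝ = φ x + Ψ (S x)) :
    (∫⁻ x, ‖x - S x‖ₑ ^ 2 ∂ρ ≤ ∫⁻ x, ‖x - T x‖ₑ ^ 2 ∂ρ) ∧
    ((∫⁻ x, ‖x - T x‖ₑ ^ 2 ∂ρ ≤ ∫⁻ x, ‖x - S x‖ₑ ^ 2 ∂ρ) →
      ∀ᵐ x ∂ρ, T x ∈ Y ∧ ⟪x, T x⟫_ℝ = φ x + Ψ (T x)) := by
  have hK : 0 ≤ K := (abs_nonneg _).trans (hΨb (S 0) (hSY 0))
  have hQae : ∀ᵐ x ∂ρ, x ∈ Qs := by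
    rw [ae_iff]; exact hQ
  -- `T x` is a.e. in `Y`
  have hTY : ∀ᵐ x ∂ρ, T x ∈ Y := by
    rw [ae_iff]
    have h3 : ρ (T ⁻¹' Yᶜ) = 0 := by
      rw [← Measure.map_apply hT hY.compl, hmap, Measure.map_apply hS hY.compl]
      have : S ⁻¹' Yᶜ = ∅ := by
        ext x; simp [hSY x]
      rw [this, measure_empty]
    exact h3
  set a : EuclideanSpace ℝ (Fin d) → ℝ := fun x => ‖x‖ ^ 2 - 2 * φ x + K with ha
  set b : EuclideanSpace ℝ (Fin d) → ℝ := fun z => ‖z‖ ^ 2 - 2 * Ψ z + K with hb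
  set h : EuclideanSpace ℝ (Fin d) → ℝ := fun x => φ x + Ψ (T x) - ⟪x, T x⟫_ℝ with hh
  have ham : Measurable fun x => ENNReal.ofReal (a x) :=
    (((measurable_norm.pow_const 2).sub (hφm.const_mul 2)).add_const K).ennreal_ofReal
  have hbm : Measurable fun z => ENNReal.ofReal (b z) :=
    (((measurable_norm.pow_const 2).sub (hΨm.const_mul 2)).add_const K).ennreal_ofReal
  have hhm : Measurable fun x => ENNReal.ofReal (2 * h x) :=
    (((hφm.add (hΨm.comp hT)).sub (measurable_id.inner hT)).const_mul 2).ennreal_ofReal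
  have hnorm : ∀ v : EuclideanSpace ℝ (Fin d), ‖v‖ₑ ^ 2 = ENNReal.ofReal (‖v‖ ^ 2) := by
    intro v
    rw [ENNReal.ofReal_pow (norm_nonneg v), ofReal_norm]
  -- pointwise identity for `T`
  have hidT : ∀ᵐ x ∂ρ, ‖x - T x‖ₑ ^ 2 + ENNReal.ofReal (2 * K) =
      ENNReal.ofReal (a x) + ENNReal.ofReal (b (T x)) + ENNReal.ofReal (2 * h x) := by
    filter_upwards [hQae, hTY] with x hxQ hxY
    have e1 := hφb x hxQ
    have e2 := hΨb (T x) hxY
    have e3 := h1 x (T x) hxY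
    rw [abs_le] at e1 e2
    have ha0 : 0 ≤ a x := by simp only [ha]; linarith
    have hb0 : 0 ≤ b (T x) := by simp only [hb]; linarith
    have hh0 : 0 ≤ 2 * h x := by simp only [hh]; linarith
    rw [hnorm, ← ENNReal.ofReal_add (sq_nonneg _) (by linarith), ← ENNReal.ofReal_add ha0 hb0,
      ← ENNReal.ofReal_add (add_nonneg ha0 hb0) hh0]
    congr 1
    rw [norm_sub_sq_real]
    simp only [ha, hb, hh]
    ring
  -- pointwise identity for `S`
  have hidS : ∀ᵐ x ∂ρ, ‖x - S x‖ₑ ^ 2 + ENNReal.ofReal (2 * K) =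
      ENNReal.ofReal (a x) + ENNReal.ofReal (b (S x)) := by
    filter_upwards [hQae] with x hxQ
    have e1 := hφb x hxQ
    have e2 := hΨb (S x) (hSY x)
    have e3 := h2 x
    rw [abs_le] at e1 e2
    have ha0 : 0 ≤ a x := by simp only [ha]; linarith
    have hb0 : 0 ≤ b (S x) := by simp only [hb]; linarith
    rw [hnorm, ← ENNReal.ofReal_add (sq_nonneg _) (by linarith), ← ENNReal.ofReal_add ha0 hb0]
    congr 1
    rw [norm_sub_sq_real, e3]
    simp only [ha, hb]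
    ring
  set κ : ℝ≥0∞ := ENNReal.ofReal (2 * K) * ρ Set.univ with hκ
  have hκtop : κ ≠ ⊤ := ENNReal.mul_ne_top ENNReal.ofReal_ne_top (measure_ne_top ρ _)
  set A : ℝ≥0∞ := ∫⁻ x, ENNReal.ofReal (a x) ∂ρ with hA
  set B : ℝ≥0∞ := ∫⁻ z, ENNReal.ofReal (b z) ∂(ρ.map S) with hB
  set H : ℝ≥0∞ := ∫⁻ x, ENNReal.ofReal (2 * h x) ∂ρ with hH
  have hBS : ∫⁻ x, ENNReal.ofReal (b (S x)) ∂ρ = B := (lintegral_map hbm hS).symm
  have hBT : ∫⁻ x, ENNReal.ofReal (b (T x)) ∂ρ = B := by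
    rw [hB, ← hmap]; exact (lintegral_map hbm hT).symm
  have eqS : ∫⁻ x, ‖x - S x‖ₑ ^ 2 ∂ρ + κ = A + B := by
    have := lintegral_congr_ae hidS
    rw [lintegral_add_right _ measurable_const, lintegral_const,
      lintegral_add_left ham, hBS] at this
    exact this
  have eqT : ∫⁻ x, ‖x - T x‖ₑ ^ 2 ∂ρ + κ = A + B + H := by
    have := lintegral_congr_ae hidT
    rw [lintegral_add_right _ measurable_const, lintegral_const,
      lintegral_add_right _ hhm, lintegral_add_left ham, hBT] at this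
    exact this
  have hAtop : A ≠ ⊤ := by
    have : A ≤ κ := by
      rw [hA, hκ, ← lintegral_const]
      refine lintegral_mono_ae ?_
      filter_upwards [hQae] with x hxQ
      have e1 := hφb x hxQ
      rw [abs_le] at e1
      exact ENNReal.ofReal_le_ofReal (by simp only [ha]; linarith)
    exact ne_top_of_le_ne_top hκtop this
  have hBtop : B ≠ ⊤ := by
    have : B ≤ κ := by
      rw [← hBS, hκ, ← lintegral_const]
      refine lintegral_mono fun x => ?_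
      have e2 := hΨb (S x) (hSY x)
      rw [abs_le] at e2
      exact ENNReal.ofReal_le_ofReal (by simp only [hb]; linarith)
    exact ne_top_of_le_ne_top hκtop this
  refine ⟨?_, fun hle => ?_⟩
  · have : ∫⁻ x, ‖x - S x‖ₑ ^ 2 ∂ρ + κ ≤ ∫⁻ x, ‖x - T x‖ₑ ^ 2 ∂ρ + κ := by
      rw [eqS, eqT]; exact le_self_add
    exact (ENNReal.add_le_add_iff_right hκtop).mp this
  · have h5 : A + B + H ≤ A + B + 0 := by
      calc A + B + H = ∫⁻ x, ‖x - T x‖ₑ ^ 2 ∂ρ + κ := eqT.symm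
        _ ≤ ∫⁻ x, ‖x - S x‖ₑ ^ 2 ∂ρ + κ := by gcongr
        _ = A + B := eqS
        _ = A + B + 0 := (add_zero _).symm
    have hH0 : H = 0 := by
      have := ENNReal.le_of_add_le_add_left (ENNReal.add_ne_top.mpr ⟨hAtop, hBtop⟩) h5
      exact nonpos_iff_eq_zero.mp this
    have hae := (lintegral_eq_zero_iff hhm).mp hH0
    filter_upwards [hae, hTY] with x hx hxY
    refine ⟨hxY, ?_⟩
    have e3 := h1 x (T x) hxY
    have : 2 * h x ≤ 0 := ENNReal.ofReal_eq_zero.mp hx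
    simp only [hh] at this
    linarith

end Crest.Agent.LibS0110h16
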