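import Mathlib
import Crest.Prelude.Def_QuadraticTransport
import Crest.Agent.Lib_S0110_h16_Cube
import Crest.Agent.Lib_S0110_h16_Dual

/-!
# Row 82, statement S0110 (helper16): the three-atom Laguerre maps.

Atoms `-e₀, (ε δ) e₁, e₀`, the explicit Laguerre map `Smap`, its potential `pot` and dual
weights `wgt`; dual feasibility and complementary slackness (the hypotheses of `duality`).
-/

set_option autoImplicit false
open MeasureTheory
open scoped ENNReal NNReal InnerProductSpace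

namespace Crest.Agent.LibS0110h16

/-- Image of a measure under a map with at most three values. -/
lemma map_comp_fin3 {d : ℕ} (ρ : Measure (E d)) (k : E d → Fin 3) (hk : Measurable k)
    (y : Fin 3 → E d) :
    ρ.map (y ∘ k) = ∑ i, ρ (k ⁻¹' {i}) • Measure.dirac (y i) := by
  have hy : Measurable y := measurable_of_countable y
  rw [← Measure.map_map hy hk]
  have h1 : ρ.map k = ∑ i, (ρ.map k) {i} • Measure.dirac i := by
    rw [← Measure.sum_fintype, Measure.sum_smul_dirac]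
  rw [h1]
  ext s hs
  simp only [Measure.map_apply hy hs, Measure.coe_finsetSum, Finset.sum_apply,
    Measure.smul_apply, smul_eq_mul, Measure.map_apply hk (measurableSet_singleton _)]
  refine Finset.sum_congr rfl fun i _ => ?_
  rw [Measure.dirac_apply' _ (hy hs), Measure.dirac_apply' _ hs]
  rfl

section construction

variable {d : ℕ} (i0 i1 : Fin d)

/-- The three atoms `-e₀`, `(ε δ) e₁`, `e₀`. -/
noncomputable def atom (ε δ : ℝ) : Fin 3 → E d :=
  ![-EuclideanSpace.single i0 (1 : ℝ), (ε * δ) • EuclideanSpace.single i1 (1 : ℝ),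
    EuclideanSpace.single i0 (1 : ℝ)]

/-- Index of the Laguerre cell containing `x` (ties go to the middle cell). -/
noncomputable def idx (ε δ : ℝ) (x : E d) : Fin 3 :=
  if |x i0| - δ ≤ ε * δ * x i1 then 1 else if 0 < x i0 then 2 else 0

/-- The Laguerre map. -/
noncomputable def Smap (ε δ : ℝ) (x : E d) : E d := atom i0 i1 ε δ (idx i0 i1 ε δ x)

/-- The max-affine potential. -/
noncomputable def pot (ε δ : ℝ) (x : E d) : ℝ := max (|x i0| - δ) (ε * δ * x i1)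

/-- The dual weights, as a function on the target space. -/
noncomputable def wgt (δ : ℝ) (z : E d) : ℝ := δ * (z i0) ^ 2

lemma measurable_idx (ε δ : ℝ) : Measurable (idx i0 i1 ε δ) := by
  unfold idx
  refine Measurable.ite ?_ measurable_const (Measurable.ite ?_ measurable_const measurable_const)
  · exact measurableSet_le (((continuous_abs.comp (continuous_coord i0)).measurable).sub_const δ)
      ((measurable_coord i1).const_mul (ε * δ))
  · exact measurableSet_lt measurable_const (measurable_coord i0)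

lemma measurable_Smap (ε δ : ℝ) : Measurable (Smap i0 i1 ε δ) :=
  (measurable_of_countable (atom i0 i1 ε δ)).comp (measurable_idx i0 i1 ε δ)

lemma measurable_pot (ε δ : ℝ) : Measurable (pot i0 i1 ε δ) := by
  unfold pot
  exact (((continuous_abs.comp (continuous_coord i0)).measurable).sub_const δ).max
    ((measurable_coord i1).const_mul (ε * δ))

lemma measurable_wgt (δ : ℝ) : Measurable (wgt (d := d) i0 δ) := by
  unfold wgt
  exact ((measurable_coord i0).pow_const 2).const_mul δ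

variable {i0 i1}

lemma atom_zero (ε δ : ℝ) : atom i0 i1 ε δ 0 = -EuclideanSpace.single i0 (1 : ℝ) := rfl
lemma atom_one (ε δ : ℝ) : atom i0 i1 ε δ 1 = (ε * δ) • EuclideanSpace.single i1 (1 : ℝ) := rfl
lemma atom_two (ε δ : ℝ) : atom i0 i1 ε δ 2 = EuclideanSpace.single i0 (1 : ℝ) := rfl

lemma inner_atom_zero (ε δ : ℝ) (x : E d) : ⟪x, atom i0 i1 ε δ 0⟫_ℝ = - x i0 := by
  rw [atom_zero, inner_neg_right, EuclideanSpace.inner_single_right]
  simp

lemma inner_atom_one (ε δ : ℝ) (x : E d) : ⟪x, atom i0 i1 ε δ 1⟫_ℝ = ε * δ * x i1 := by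
  rw [atom_one, real_inner_smul_right, EuclideanSpace.inner_single_right]
  simp

lemma inner_atom_two (ε δ : ℝ) (x : E d) : ⟪x, atom i0 i1 ε δ 2⟫_ℝ = x i0 := by
  rw [atom_two, EuclideanSpace.inner_single_right]
  simp

lemma wgt_atom_zero (ε δ : ℝ) : wgt i0 δ (atom i0 i1 ε δ 0) = δ := by
  simp [wgt, atom_zero]

lemma wgt_atom_one (h01 : i0 ≠ i1) (ε δ : ℝ) : wgt i0 δ (atom i0 i1 ε δ 1) = 0 := by
  simp [wgt, atom_one, h01]

lemma wgt_atom_two (ε δ : ℝ) : wgt i0 δ (atom i0 i1 ε δ 2) = δ := by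
  simp [wgt, atom_two]

lemma atom_injective (ε δ : ℝ) (h01 : i0 ≠ i1) : Function.Injective (atom i0 i1 ε δ) := by
  intro i j h
  have hc := congrArg (fun v : E d => v i0) h
  fin_cases i <;> fin_cases j <;> first | rfl | (exfalso; simp [atom, h01] at hc; try norm_num at hc)


lemma idx_eq_one_iff (ε δ : ℝ) (x : E d) :
    idx i0 i1 ε δ x = 1 ↔ |x i0| - δ ≤ ε * δ * x i1 := by
  unfold idx
  split_ifs with h1 h2
  · simp [h1]
  · simp [h1]
  · simp [h1]

lemma idx_eq_two_iff (ε δ : ℝ) (x : E d) :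
    idx i0 i1 ε δ x = 2 ↔ ¬ (|x i0| - δ ≤ ε * δ * x i1) ∧ 0 < x i0 := by
  unfold idx
  split_ifs with h1 h2
  · simp [h1]
  · simp [h1, h2]
  · simp [h1, h2]

lemma idx_eq_zero_iff (ε δ : ℝ) (x : E d) :
    idx i0 i1 ε δ x = 0 ↔ ¬ (|x i0| - δ ≤ ε * δ * x i1) ∧ ¬ 0 < x i0 := by
  unfold idx
  split_ifs with h1 h2
  · simp [h1]
  · simp [h1, h2]
  · simp [h1, h2]

/-- dual feasibility -/
lemma pot_wgt_ge (h01 : i0 ≠ i1) (ε δ : ℝ) (x : E d) (z : E d)
    (hz : z ∈ Set.range (atom i0 i1 ε δ)) : ⟪x, z⟫_ℝ ≤ pot i0 i1 ε δ x + wgt i0 δ z := by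
  obtain ⟨i, rfl⟩ := hz
  unfold pot
  fin_cases i
  · show ⟪x, atom i0 i1 ε δ 0⟫_ℝ ≤ _ + wgt i0 δ (atom i0 i1 ε δ 0)
    rw [inner_atom_zero, wgt_atom_zero]
    have := neg_le_abs (x i0)
    have := le_max_left (|x i0| - δ) (ε * δ * x i1)
    linarith
  · show ⟪x, atom i0 i1 ε δ 1⟫_ℝ ≤ _ + wgt i0 δ (atom i0 i1 ε δ 1)
    rw [inner_atom_one, wgt_atom_one h01]
    have := le_max_right (|x i0| - δ) (ε * δ * x i1)
    linarith
  · show ⟪x, atom i0 i1 ε δ 2⟫_ℝ ≤ _ + wgt i0 δ (atom i0 i1 ε δ 2)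
    rw [inner_atom_two, wgt_atom_two]
    have := le_abs_self (x i0)
    have := le_max_left (|x i0| - δ) (ε * δ * x i1)
    linarith

/-- complementary slackness for the Laguerre map -/
lemma pot_wgt_eq (h01 : i0 ≠ i1) (ε δ : ℝ) (x : E d) :
    ⟪x, Smap i0 i1 ε δ x⟫_ℝ = pot i0 i1 ε δ x + wgt i0 δ (Smap i0 i1 ε δ x) := by
  unfold Smap idx pot
  split_ifs with h1 h2
  · rw [inner_atom_one, wgt_atom_one h01, max_eq_right h1, add_zero]
  · rw [inner_atom_two, wgt_atom_two, max_eq_left (le_of_not_ge h1), abs_of_pos h2]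
    ring
  · rw [inner_atom_zero, wgt_atom_zero, max_eq_left (le_of_not_ge h1),
      abs_of_nonpos (le_of_not_gt h2)]
    ring

lemma Smap_mem_range (ε δ : ℝ) (x : E d) : Smap i0 i1 ε δ x ∈ Set.range (atom i0 i1 ε δ) :=
  ⟨_, rfl⟩

lemma norm_sq_atom_zero (ε δ : ℝ) : ‖atom i0 i1 ε δ 0‖ ^ 2 = 1 := by
  rw [atom_zero, norm_neg]; simp

lemma norm_sq_atom_two (ε δ : ℝ) : ‖atom i0 i1 ε δ 2‖ ^ 2 = 1 := by
  rw [atom_two]; simp

lemma norm_sq_atom_one (ε δ : ℝ) : ‖atom i0 i1 ε δ 1‖ ^ 2 = (ε * δ) ^ 2 := by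
  rw [atom_one, norm_smul]; simp
  rw [← abs_mul, sq_abs]

lemma wgt_bound (h01 : i0 ≠ i1) (ε δ : ℝ) (hε : |ε| ≤ 1) (hδ0 : 0 ≤ δ) (hδ1 : δ ≤ 1) (z : E d)
    (hz : z ∈ Set.range (atom i0 i1 ε δ)) : |‖z‖ ^ 2 - 2 * wgt i0 δ z| ≤ (d : ℝ) + 2 := by
  have hd0 : (0 : ℝ) ≤ d := Nat.cast_nonneg d
  obtain ⟨i, rfl⟩ := hz
  fin_cases i
  · show |‖atom i0 i1 ε δ 0‖ ^ 2 - 2 * wgt i0 δ (atom i0 i1 ε δ 0)| ≤ _
    rw [norm_sq_atom_zero, wgt_atom_zero, abs_le]
    constructor <;> linarith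
  · show |‖atom i0 i1 ε δ 1‖ ^ 2 - 2 * wgt i0 δ (atom i0 i1 ε δ 1)| ≤ _
    rw [norm_sq_atom_one, wgt_atom_one h01, abs_le]
    have h3 : (ε * δ) ^ 2 ≤ 1 := by
      have : |ε * δ| ≤ 1 := by
        rw [abs_mul, abs_of_nonneg hδ0]
        calc |ε| * δ ≤ 1 * 1 := mul_le_mul hε hδ1 hδ0 zero_le_one
          _ = 1 := one_mul 1
      calc (ε * δ) ^ 2 = |ε * δ| ^ 2 := (sq_abs _).symm
        _ ≤ 1 ^ 2 := pow_le_pow_left₀ (abs_nonneg _) this 2
        _ = 1 := one_pow 2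
    constructor <;> nlinarith [sq_nonneg (ε * δ)]
  · show |‖atom i0 i1 ε δ 2‖ ^ 2 - 2 * wgt i0 δ (atom i0 i1 ε δ 2)| ≤ _
    rw [norm_sq_atom_two, wgt_atom_two, abs_le]
    constructor <;> linarith

lemma norm_sq_le_of_mem_Q (x : E d) (hx : x ∈ Q d) : ‖x‖ ^ 2 ≤ d := by
  rw [EuclideanSpace.norm_sq_eq]
  calc ∑ i, ‖x i‖ ^ 2 ≤ ∑ _i : Fin d, (1 : ℝ) := by
        refine Finset.sum_le_sum fun i _ => ?_
        rw [Real.norm_eq_abs, sq_abs]
        have := hx i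
        rw [abs_le] at this
        nlinarith [this.1, this.2]
    _ = d := by simp

lemma pot_bound (ε δ : ℝ) (hε : |ε| ≤ 1) (hδ0 : 0 ≤ δ) (hδ1 : δ ≤ 1) (x : E d) (hx : x ∈ Q d) :
    |‖x‖ ^ 2 - 2 * pot i0 i1 ε δ x| ≤ (d : ℝ) + 2 := by
  have h1 := norm_sq_le_of_mem_Q x hx
  have h0 : 0 ≤ ‖x‖ ^ 2 := sq_nonneg _
  have hx0 := hx i0
  have hx1 := hx i1
  have hp1 : pot i0 i1 ε δ x ≤ 1 := by
    unfold pot
    refine max_le (by linarith) ?_
    have : |ε * δ * x i1| ≤ 1 := by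
      rw [abs_mul, abs_mul, abs_of_nonneg hδ0]
      calc |ε| * δ * |x i1| ≤ 1 * 1 * 1 :=
            mul_le_mul (mul_le_mul hε hδ1 hδ0 zero_le_one) hx1 (abs_nonneg _) (by norm_num)
        _ = 1 := by norm_num
    exact (le_abs_self _).trans this
  have hp2 : -1 ≤ pot i0 i1 ε δ x := by
    unfold pot
    have := abs_nonneg (x i0)
    exact le_trans (by linarith) (le_max_left _ _)
  rw [abs_le]
  constructor <;> linarith

lemma atom_mem_Q (ε δ : ℝ) (hε : |ε| ≤ 1) (hδ0 : 0 ≤ δ) (hδ1 : δ ≤ 1)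
    (i : Fin 3) : atom i0 i1 ε δ i ∈ Q d := by
  have hεδ : |ε * δ| ≤ 1 := by
    rw [abs_mul, abs_of_nonneg hδ0]
    calc |ε| * δ ≤ 1 * 1 := mul_le_mul hε hδ1 hδ0 zero_le_one
      _ = 1 := one_mul 1
  intro j
  fin_cases i
  · show |(atom i0 i1 ε δ 0) j| ≤ 1
    rw [atom_zero]
    by_cases h : j = i0 <;> simp [h]
  · show |(atom i0 i1 ε δ 1) j| ≤ 1
    rw [atom_one]
    by_cases h : j = i1
    · simp [h]; rw [← abs_mul]; exact hεδ
    · simp [h]
  · show |(atom i0 i1 ε δ 2) j| ≤ 1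
    rw [atom_two]
    by_cases h : j = i0 <;> simp [h]

end construction

end Crest.Agent.LibS0110h16
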