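import Mathlib
import Crest.Prelude.Def_QuadraticTransport
import Crest.Agent.Lib_S0110_h16_Cube
import Crest.Agent.Lib_S0110_h16_Dual
import Crest.Agent.Lib_S0110_h16_Atoms

/-!
# Row 82, statement S0110 (helper16): the sharpness example.

`ν = ρ.map (Smap 1 δ)` (atoms `-e₀, δ e₁, e₀`, middle cell the wedge `|x₀| ≤ δ (1 + x₁)`) and
`μ = ρ.map (Smap (-1) δ)` (its mirror image in the coordinate `i1`).  The atom-to-atom coupling
costs at most `8 δ³`, while any two optimal maps differ by at least `1` on a box of mass `δ/16`.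
-/

set_option autoImplicit false
open MeasureTheory
open scoped ENNReal NNReal InnerProductSpace

namespace Crest.Agent.LibS0110h16

open Crest.AnalysisR.OT

section construction

variable {d : ℕ} {i0 i1 : Fin d}

lemma abs_eps_le (ε δ : ℝ) (hε : |ε| ≤ 1) (hδ0 : 0 ≤ δ) (t r : ℝ) (ht : |t| ≤ r) :
    |ε * δ * t| ≤ δ * r := by
  rw [abs_mul, abs_mul, abs_of_nonneg hδ0]
  calc |ε| * δ * |t| ≤ 1 * δ * r :=
        mul_le_mul (mul_le_mul hε le_rfl hδ0 zero_le_one) ht (abs_nonneg t)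
          (mul_nonneg zero_le_one hδ0)
    _ = δ * r := by ring

/-- Every cell has positive mass. -/
lemma mass_pos (h01 : i0 ≠ i1) (ε δ : ℝ) (hε : |ε| ≤ 1) (hδ0 : 0 < δ) (hδ1 : δ ≤ 1 / 4)
    (i : Fin 3) : 0 < ρQ d (idx i0 i1 ε δ ⁻¹' {i}) := by
  have key : ∀ (a b c e : ℝ), -1 ≤ a → b ≤ 1 → -1 ≤ c → e ≤ 1 → a < b → c < e →
      box2 i0 i1 a b c e ⊆ idx i0 i1 ε δ ⁻¹' {i} → 0 < ρQ d (idx i0 i1 ε δ ⁻¹' {i}) := by
    intro a b c e ha hb hc he hab hce hsub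
    refine lt_of_lt_of_le ?_ (measure_mono hsub)
    rw [ρQ_box2 i0 i1 h01 a b c e ha hb hc he]
    exact ENNReal.mul_pos (ENNReal.ofReal_pos.mpr (by linarith)).ne'
      (ENNReal.ofReal_pos.mpr (by linarith)).ne'
  fin_cases i
  · refine key (-1) (-(3 * δ)) (-1) 1 le_rfl (by linarith) le_rfl le_rfl (by linarith)
      (by norm_num) ?_
    rintro x ⟨h1, h2, h3, h4⟩
    show idx i0 i1 ε δ x = 0
    rw [idx_eq_zero_iff]
    refine ⟨?_, by linarith⟩
    have hx0 : |x i0| = -x i0 := abs_of_nonpos (by linarith)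
    have hb := abs_eps_le ε δ hε hδ0.le (x i1) 1 (abs_le.mpr ⟨h3, h4⟩)
    have := le_abs_self (ε * δ * x i1)
    intro hcon
    linarith
  · refine key (-(δ / 2)) (δ / 2) (-(1 / 2)) (1 / 2) (by linarith) (by linarith) (by norm_num)
      (by norm_num) (by linarith) (by norm_num) ?_
    rintro x ⟨h1, h2, h3, h4⟩
    show idx i0 i1 ε δ x = 1
    rw [idx_eq_one_iff]
    have hx0 : |x i0| ≤ δ / 2 := abs_le.mpr ⟨h1, h2⟩
    have hb := abs_eps_le ε δ hε hδ0.le (x i1) (1 / 2) (abs_le.mpr ⟨h3, h4⟩)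
    have := neg_abs_le (ε * δ * x i1)
    linarith
  · refine key (3 * δ) 1 (-1) 1 (by linarith) le_rfl le_rfl le_rfl (by linarith)
      (by norm_num) ?_
    rintro x ⟨h1, h2, h3, h4⟩
    show idx i0 i1 ε δ x = 2
    rw [idx_eq_two_iff]
    refine ⟨?_, by linarith⟩
    have hx0 : |x i0| = x i0 := abs_of_nonneg (by linarith)
    have hb := abs_eps_le ε δ hε hδ0.le (x i1) 1 (abs_le.mpr ⟨h3, h4⟩)
    have := le_abs_self (ε * δ * x i1)
    intro hcon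
    linarith

lemma threeAtomic_map (h01 : i0 ≠ i1) (ε δ : ℝ) (hε : |ε| ≤ 1) (hδ0 : 0 < δ) (hδ1 : δ ≤ 1 / 4) :
    IsThreeAtomic ((ρQ d).map (Smap i0 i1 ε δ)) := by
  refine ⟨atom i0 i1 ε δ, atom_injective ε δ h01,
    fun i => (ρQ d (idx i0 i1 ε δ ⁻¹' {i})).toReal, fun i => ?_, ?_⟩
  · exact ENNReal.toReal_pos (mass_pos h01 ε δ hε hδ0 hδ1 i).ne' (measure_ne_top _ _)
  · have : Smap i0 i1 ε δ = atom i0 i1 ε δ ∘ idx i0 i1 ε δ := rfl
    rw [this, map_comp_fin3 _ _ (measurable_idx i0 i1 ε δ)]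
    refine Finset.sum_congr rfl fun i _ => ?_
    rw [ENNReal.ofReal_toReal (measure_ne_top _ _)]

lemma probOn_map (ε δ : ℝ) (hε : |ε| ≤ 1) (hδ0 : 0 ≤ δ) (hδ1 : δ ≤ 1) :
    IsProbabilityOn (Q d) ((ρQ d).map (Smap i0 i1 ε δ)) := by
  refine ⟨Measure.isProbabilityMeasure_map (measurable_Smap i0 i1 ε δ).aemeasurable, ?_⟩
  rw [Measure.map_apply (measurable_Smap i0 i1 ε δ) (measurableSet_Q d).compl]
  have : Smap i0 i1 ε δ ⁻¹' (Q d)ᶜ = ∅ := by
    ext x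
    simp only [Set.mem_preimage, Set.mem_compl_iff, Set.mem_empty_iff_false, iff_false, not_not]
    exact atom_mem_Q ε δ hε hδ0 hδ1 _
  rw [this, measure_empty]

lemma duality_Smap (h01 : i0 ≠ i1) (ε δ : ℝ) (hε : |ε| ≤ 1) (hδ0 : 0 ≤ δ) (hδ1 : δ ≤ 1)
    (T : E d → E d) (hT : Measurable T)
    (hmap : (ρQ d).map T = (ρQ d).map (Smap i0 i1 ε δ)) :
    (∫⁻ x, ‖x - Smap i0 i1 ε δ x‖ₑ ^ 2 ∂(ρQ d) ≤ ∫⁻ x, ‖x - T x‖ₑ ^ 2 ∂(ρQ d)) ∧
    ((∫⁻ x, ‖x - T x‖ₑ ^ 2 ∂(ρQ d) ≤ ∫⁻ x, ‖x - Smap i0 i1 ε δ x‖ₑ ^ 2 ∂(ρQ d)) →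
      ∀ᵐ x ∂(ρQ d), T x ∈ Set.range (atom i0 i1 ε δ) ∧
        ⟪x, T x⟫_ℝ = pot i0 i1 ε δ x + wgt i0 δ (T x)) :=
  duality (ρQ d) (Q d) (Set.range (atom i0 i1 ε δ)) (ρQ_compl d)
    (Set.finite_range _).measurableSet (pot i0 i1 ε δ) (wgt i0 δ) (measurable_pot i0 i1 ε δ)
    (measurable_wgt i0 δ) (Smap i0 i1 ε δ) T (measurable_Smap i0 i1 ε δ) hT hmap ((d : ℝ) + 2)
    (fun x hx => pot_bound ε δ hε hδ0 hδ1 x hx)
    (fun z hz => wgt_bound h01 ε δ hε hδ0 hδ1 z hz)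
    (Smap_mem_range ε δ) (fun x z hz => pot_wgt_ge h01 ε δ x z hz) (pot_wgt_eq h01 ε δ)

lemma isOptimal_Smap (h01 : i0 ≠ i1) (ε δ : ℝ) (hε : |ε| ≤ 1) (hδ0 : 0 ≤ δ) (hδ1 : δ ≤ 1) :
    IsOptimalMap (ρQ d) ((ρQ d).map (Smap i0 i1 ε δ)) (Smap i0 i1 ε δ) :=
  ⟨measurable_Smap i0 i1 ε δ, rfl, fun S' hS' hmap' =>
    (duality_Smap h01 ε δ hε hδ0 hδ1 S' hS' hmap').1⟩

lemma ae_of_isOptimal (h01 : i0 ≠ i1) (ε δ : ℝ) (hε : |ε| ≤ 1) (hδ0 : 0 ≤ δ) (hδ1 : δ ≤ 1)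
    (T : E d → E d) (hT : IsOptimalMap (ρQ d) ((ρQ d).map (Smap i0 i1 ε δ)) T) :
    ∀ᵐ x ∂(ρQ d), T x ∈ Set.range (atom i0 i1 ε δ) ∧
      ⟪x, T x⟫_ℝ = pot i0 i1 ε δ x + wgt i0 δ (T x) :=
  (duality_Smap h01 ε δ hε hδ0 hδ1 T hT.1 hT.2.1).2
    (hT.2.2 _ (measurable_Smap i0 i1 ε δ) rfl)

/-! ### The mirror symmetry -/

lemma idx_refl (h01 : i0 ≠ i1) (δ : ℝ) (x : E d) :
    idx i0 i1 (-1) δ x = idx i0 i1 1 δ (refl i1 x) := by
  unfold idx
  rw [refl_coord_same, refl_coord_ne i1 x h01]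
  have : (-1 : ℝ) * δ * x i1 = 1 * δ * -x i1 := by ring
  rw [this]

lemma atom_refl (h01 : i0 ≠ i1) (δ : ℝ) (i : Fin 3) :
    atom i0 i1 (-1) δ i = refl i1 (atom i0 i1 1 δ i) := by
  rw [refl_apply]
  fin_cases i
  · show atom i0 i1 (-1) δ 0 = atom i0 i1 1 δ 0 - (2 * (atom i0 i1 1 δ 0) i1) • _
    simp [atom_zero, h01.symm]
  · show atom i0 i1 (-1) δ 1 = atom i0 i1 1 δ 1 - (2 * (atom i0 i1 1 δ 1) i1) • _
    simp [atom_one]
    module
  · show atom i0 i1 (-1) δ 2 = atom i0 i1 1 δ 2 - (2 * (atom i0 i1 1 δ 2) i1) • _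
    simp [atom_two, h01.symm]

lemma Smap_refl (h01 : i0 ≠ i1) (δ : ℝ) (x : E d) :
    Smap i0 i1 (-1) δ x = refl i1 (Smap i0 i1 1 δ (refl i1 x)) := by
  unfold Smap
  rw [idx_refl h01, atom_refl h01]

lemma measurable_refl_Smap (δ : ℝ) :
    Measurable (fun x : E d => refl i1 (Smap i0 i1 1 δ x)) :=
  (refl i1).continuous.measurable.comp (measurable_Smap i0 i1 1 δ)

lemma map_Smap_neg (h01 : i0 ≠ i1) (δ : ℝ) :
    (ρQ d).map (Smap i0 i1 (-1) δ) = (ρQ d).map (fun x => refl i1 (Smap i0 i1 1 δ x)) := by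
  have h : Smap i0 i1 (-1) δ = (fun x => refl i1 (Smap i0 i1 1 δ x)) ∘ (refl i1) := by
    funext x; exact Smap_refl h01 δ x
  rw [h, ← Measure.map_map (measurable_refl_Smap δ) (refl i1).continuous.measurable,
    map_refl_ρQ]

/-! ### The coupling -/

/-- The atom-to-atom coupling, as an image of `ρ`. -/
noncomputable def coup (i0 i1 : Fin d) (δ : ℝ) : Measure (E d × E d) :=
  (ρQ d).map (fun x => (refl i1 (Smap i0 i1 1 δ x), Smap i0 i1 1 δ x))

lemma measurable_coup_map (δ : ℝ) :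
    Measurable (fun x : E d => (refl i1 (Smap i0 i1 1 δ x), Smap i0 i1 1 δ x)) :=
  (measurable_refl_Smap δ).prodMk (measurable_Smap i0 i1 1 δ)

lemma coup_isCoupling (h01 : i0 ≠ i1) (δ : ℝ) :
    IsPairCoupling ((ρQ d).map (Smap i0 i1 (-1) δ)) ((ρQ d).map (Smap i0 i1 1 δ))
      (coup i0 i1 δ) := by
  constructor
  · rw [coup, Measure.map_map measurable_fst (measurable_coup_map δ), map_Smap_neg h01]
    rfl
  · rw [coup, Measure.map_map measurable_snd (measurable_coup_map δ)]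
    rfl

lemma enorm_refl_sub_sq (v : E d) :
    ‖refl i1 v - v‖ₑ ^ 2 = ENNReal.ofReal ((2 * v i1) ^ 2) := by
  rw [refl_apply, sub_sub_cancel_left, enorm_neg, ← ofReal_norm,
    ← ENNReal.ofReal_pow (norm_nonneg _), norm_smul]
  congr 1
  simp
  rw [mul_pow, sq_abs, mul_pow]

lemma quadCost_coup_le (h01 : i0 ≠ i1) (δ : ℝ) (hδ0 : 0 ≤ δ) (hδ1 : δ ≤ 1 / 4) :
    quadCost (coup i0 i1 δ) ≤ ENNReal.ofReal (8 * δ ^ 3) := by
  unfold quadCost coup
  have hint : Measurable (fun p : E d × E d => ‖p.1 - p.2‖ₑ ^ 2) :=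
    (measurable_fst.sub measurable_snd).enorm.pow_const 2
  rw [lintegral_map hint (measurable_coup_map δ)]
  calc ∫⁻ x, ‖refl i1 (Smap i0 i1 1 δ x) - Smap i0 i1 1 δ x‖ₑ ^ 2 ∂(ρQ d)
      ≤ ∫⁻ x, (box2 i0 i1 (-(2 * δ)) (2 * δ) (-1) 1).indicator
          (fun _ => ENNReal.ofReal (4 * δ ^ 2)) x ∂(ρQ d) := by
        refine lintegral_mono_ae ?_
        filter_upwards [ae_mem_Q d] with x hx
        rw [enorm_refl_sub_sq]
        by_cases h : idx i0 i1 1 δ x = 1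
        · have hc := (idx_eq_one_iff 1 δ x).mp h
          have hx1 := abs_le.mp (hx i1)
          have hx0 : |x i0| ≤ 2 * δ := by nlinarith [hx1.2]
          have hmem : x ∈ box2 i0 i1 (-(2 * δ)) (2 * δ) (-1) 1 :=
            ⟨(abs_le.mp hx0).1, (abs_le.mp hx0).2, hx1.1, hx1.2⟩
          rw [Set.indicator_of_mem hmem]
          unfold Smap
          rw [h, atom_one]
          refine ENNReal.ofReal_le_ofReal ?_
          simp
          nlinarith
        · have h0 : (Smap i0 i1 1 δ x) i1 = 0 := by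
            unfold Smap
            generalize idx i0 i1 1 δ x = k at h
            fin_cases k
            · show (atom i0 i1 1 δ 0) i1 = 0
              simp [atom_zero, h01.symm]
            · exact absurd rfl h
            · show (atom i0 i1 1 δ 2) i1 = 0
              simp [atom_two, h01.symm]
          rw [h0]
          simp
    _ = ENNReal.ofReal (4 * δ ^ 2) * ρQ d (box2 i0 i1 (-(2 * δ)) (2 * δ) (-1) 1) :=
        lintegral_indicator_const (measurableSet_box2 _ _ _ _ _ _) _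
    _ = ENNReal.ofReal (8 * δ ^ 3) := by
        rw [ρQ_box2 i0 i1 h01 _ _ _ _ (by linarith) (by linarith) le_rfl le_rfl,
          ← ENNReal.ofReal_mul (by linarith), ← ENNReal.ofReal_mul (by positivity)]
        congr 1
        ring

/-! ### The lower bound -/

lemma one_le_enorm_sq (h01 : i0 ≠ i1) (δ : ℝ) :
    (1 : ℝ≥0∞) ≤ ‖atom i0 i1 (-1) δ 2 - atom i0 i1 1 δ 1‖ₑ ^ 2 := by
  have h1 : (1 : ℝ) ≤ ‖atom i0 i1 (-1) δ 2 - atom i0 i1 1 δ 1‖ := by
    have h2 := PiLp.norm_apply_le (atom i0 i1 (-1) δ 2 - atom i0 i1 1 δ 1) i0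
    have h3 : (atom i0 i1 (-1) δ 2 - atom i0 i1 1 δ 1) i0 = 1 := by
      simp [atom_two, atom_one, h01]
    have h3' : (atom i0 i1 (-1) δ 2 - atom i0 i1 1 δ 1).ofLp i0 = 1 := h3
    rw [h3'] at h2
    simpa using h2
  rw [← ofReal_norm, ← ENNReal.ofReal_pow (norm_nonneg _)]
  rw [← ENNReal.ofReal_one]
  exact ENNReal.ofReal_le_ofReal (by nlinarith)

lemma lower_bound (h01 : i0 ≠ i1) (δ : ℝ) (hδ0 : 0 < δ) (hδ1 : δ ≤ 1 / 4)
    (Tμ Tν : E d → E d)
    (hμ : ∀ᵐ x ∂(ρQ d), Tμ x ∈ Set.range (atom i0 i1 (-1) δ) ∧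
      ⟪x, Tμ x⟫_ℝ = pot i0 i1 (-1) δ x + wgt i0 δ (Tμ x))
    (hν : ∀ᵐ x ∂(ρQ d), Tν x ∈ Set.range (atom i0 i1 1 δ) ∧
      ⟪x, Tν x⟫_ℝ = pot i0 i1 1 δ x + wgt i0 δ (Tν x)) :
    ENNReal.ofReal (δ / 16) ≤ ∫⁻ x, ‖Tμ x - Tν x‖ₑ ^ 2 ∂(ρQ d) := by
  set B : Set (E d) := box2 i0 i1 (3 * δ / 4) (5 * δ / 4) (1 / 2) 1 with hBdef
  have hB : ρQ d B = ENNReal.ofReal (δ / 16) := by
    rw [hBdef, ρQ_box2 i0 i1 h01 _ _ _ _ (by linarith) (by linarith) (by norm_num) le_rfl,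
      ← ENNReal.ofReal_mul (by linarith)]
    congr 1
    ring
  calc ENNReal.ofReal (δ / 16) = ρQ d B := hB.symm
    _ = ∫⁻ x, B.indicator 1 x ∂(ρQ d) :=
        (lintegral_indicator_one (measurableSet_box2 _ _ _ _ _ _)).symm
    _ ≤ ∫⁻ x, ‖Tμ x - Tν x‖ₑ ^ 2 ∂(ρQ d) := by
        refine lintegral_mono_ae ?_
        filter_upwards [hμ, hν] with x hxμ hxν
        by_cases hxB : x ∈ B
        · rw [Set.indicator_of_mem hxB, Pi.one_apply]
          obtain ⟨h1, h2, h3, h4⟩ := hxB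
          -- identify `Tν x`
          have eν : Tν x = atom i0 i1 1 δ 1 := by
            obtain ⟨⟨i, hi⟩, heq⟩ := hxν
            rw [← hi] at heq ⊢
            have hp := le_max_right (|x i0| - δ) (1 * δ * x i1)
            fin_cases i
            · exfalso
              change ⟪x, atom i0 i1 1 δ 0⟫_ℝ = pot i0 i1 1 δ x + wgt i0 δ (atom i0 i1 1 δ 0)
                at heq
              rw [inner_atom_zero, wgt_atom_zero] at heq
              unfold pot at heq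
              nlinarith
            · rfl
            · exfalso
              change ⟪x, atom i0 i1 1 δ 2⟫_ℝ = pot i0 i1 1 δ x + wgt i0 δ (atom i0 i1 1 δ 2)
                at heq
              rw [inner_atom_two, wgt_atom_two] at heq
              unfold pot at heq
              nlinarith
          -- identify `Tμ x`
          have eμ : Tμ x = atom i0 i1 (-1) δ 2 := by
            obtain ⟨⟨i, hi⟩, heq⟩ := hxμ
            rw [← hi] at heq ⊢
            have hp := le_max_left (|x i0| - δ) (-1 * δ * x i1)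
            have hab := le_abs_self (x i0)
            fin_cases i
            · exfalso
              change ⟪x, atom i0 i1 (-1) δ 0⟫_ℝ =
                pot i0 i1 (-1) δ x + wgt i0 δ (atom i0 i1 (-1) δ 0) at heq
              rw [inner_atom_zero, wgt_atom_zero] at heq
              unfold pot at heq
              nlinarith
            · exfalso
              change ⟪x, atom i0 i1 (-1) δ 1⟫_ℝ =
                pot i0 i1 (-1) δ x + wgt i0 δ (atom i0 i1 (-1) δ 1) at heq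
              rw [inner_atom_one, wgt_atom_one h01] at heq
              unfold pot at heq
              nlinarith
            · rfl
          rw [eν, eμ]
          exact one_le_enorm_sq h01 δ
        · rw [Set.indicator_of_notMem hxB]
          exact zero_le

end construction

/-- Choice of the small parameter. -/
lemma exists_delta (α : ℝ) (hα : 1 / 3 < α) (C : ℝ) (hC : 0 ≤ C) :
    ∃ δ : ℝ, 0 < δ ∧ δ ≤ 1 / 4 ∧ C * (8 * δ ^ 3) ^ α < δ / 16 := by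
  set β : ℝ := 3 * α - 1 with hβdef
  have hβ : 0 < β := by rw [hβdef]; linarith
  have h8 : (0 : ℝ) < (8 : ℝ) ^ α := Real.rpow_pos_of_pos (by norm_num) α
  set M : ℝ := 16 * C * (8 : ℝ) ^ α + 1 with hMdef
  have hM : 0 < M := by rw [hMdef]; positivity
  set δ : ℝ := min (1 / 4) (M⁻¹ ^ (1 / β)) with hδdef
  have hδ0 : 0 < δ := lt_min (by norm_num) (Real.rpow_pos_of_pos (inv_pos.mpr hM) _)
  have hδ1 : δ ≤ 1 / 4 := min_le_left _ _
  refine ⟨δ, hδ0, hδ1, ?_⟩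
  have hδβ : δ ^ β ≤ M⁻¹ := by
    calc δ ^ β ≤ (M⁻¹ ^ (1 / β)) ^ β :=
          Real.rpow_le_rpow hδ0.le (min_le_right _ _) hβ.le
      _ = M⁻¹ := by
          rw [← Real.rpow_mul (inv_nonneg.mpr hM.le), one_div_mul_cancel hβ.ne', Real.rpow_one]
  have hpow : (8 * δ ^ 3) ^ α = (8 : ℝ) ^ α * (δ ^ β * δ) := by
    rw [Real.mul_rpow (by norm_num) (by positivity)]
    congr 1
    have h3 : δ ^ 3 = δ ^ (3 : ℝ) := by
      rw [← Real.rpow_natCast]; norm_num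
    rw [h3, ← Real.rpow_mul hδ0.le]
    have : (3 : ℝ) * α = β + 1 := by rw [hβdef]; ring
    rw [this, Real.rpow_add hδ0, Real.rpow_one]
  rw [hpow]
  have hpos : 0 < δ ^ β := Real.rpow_pos_of_pos hδ0 β
  have hkey : 16 * C * (8 : ℝ) ^ α * δ ^ β < 1 := by
    have h1 : 16 * C * (8 : ℝ) ^ α * δ ^ β ≤ 16 * C * (8 : ℝ) ^ α * M⁻¹ :=
      mul_le_mul_of_nonneg_left hδβ (by positivity)
    have h2 : 16 * C * (8 : ℝ) ^ α * M⁻¹ < 1 := by
      rw [← div_eq_mul_inv, div_lt_one hM, hMdef]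
      linarith
    linarith
  nlinarith

end Crest.Agent.LibS0110h16
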