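import Mathlib
import Crest.Prelude.Def_ModularData

set_option autoImplicit false

open Crest Crest.OpAlg Filter MeasureTheory
open scoped Topology ComplexConjugate InnerProductSpace

namespace Crest.Agent.LibS0112

variable {H : Type*} [NormedAddCommGroup H] [InnerProductSpace ℂ H] [CompleteSpace H]

open LineCalculus

theorem norm_apply_le (D : LineCalculus H) (f : BoundedContinuousFunction ℝ ℂ) :
    ‖D.apply f‖ ≤ ‖f‖ :=
  NonUnitalStarAlgHom.norm_apply_le D.apply f

theorem norm_apply_apply_le (D : LineCalculus H) (f : BoundedContinuousFunction ℝ ℂ) (x : H) :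
    ‖D.apply f x‖ ≤ ‖f‖ * ‖x‖ :=
  (D.apply f).le_of_opNorm_le (norm_apply_le D f) x

theorem character_mul (s t : ℝ) : character s * character t = character (s + t) := by
  ext u
  simp [character, ← Complex.exp_add]
  ring_nf

theorem character_zero : character 0 = 1 := by
  ext u
  simp [character]

theorem star_character (t : ℝ) : star (character t) = character (-t) := by
  ext u
  simp [character, ← Complex.exp_conj]

theorem wave_add (D : LineCalculus H) (s t : ℝ) : D.wave (s + t) = D.wave s * D.wave t := by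
  simp only [wave, ← map_mul, character_mul]

theorem wave_zero (D : LineCalculus H) : D.wave 0 = 1 := by
  simp only [wave, character_zero, map_one]

theorem star_wave (D : LineCalculus H) (t : ℝ) : star (D.wave t) = D.wave (-t) := by
  simp only [wave, ← map_star, star_character]

theorem wave_neg_mul_wave (D : LineCalculus H) (t : ℝ) : D.wave (-t) * D.wave t = 1 := by
  rw [← wave_add, neg_add_cancel, wave_zero]

theorem wave_mul_wave_neg (D : LineCalculus H) (t : ℝ) : D.wave t * D.wave (-t) = 1 := by
  rw [← wave_add, add_neg_cancel, wave_zero]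

theorem wave_wave (D : LineCalculus H) (s t : ℝ) (x : H) :
    D.wave s (D.wave t x) = D.wave (s + t) x := by
  rw [wave_add]; rfl

theorem wave_neg_wave (D : LineCalculus H) (t : ℝ) (x : H) : D.wave (-t) (D.wave t x) = x := by
  rw [wave_wave, neg_add_cancel, wave_zero]; rfl

theorem wave_wave_neg (D : LineCalculus H) (t : ℝ) (x : H) : D.wave t (D.wave (-t) x) = x := by
  rw [wave_wave, add_neg_cancel, wave_zero]; rfl

theorem adjoint_wave (D : LineCalculus H) (t : ℝ) :
    ContinuousLinearMap.adjoint (D.wave t) = D.wave (-t) := by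
  rw [← ContinuousLinearMap.star_eq_adjoint, star_wave]

theorem inner_wave_left (D : LineCalculus H) (t : ℝ) (x y : H) :
    ⟪D.wave t x, y⟫_ℂ = ⟪x, D.wave (-t) y⟫_ℂ := by
  rw [← adjoint_wave, ContinuousLinearMap.adjoint_inner_right]

theorem inner_wave_wave (D : LineCalculus H) (t : ℝ) (x y : H) :
    ⟪D.wave t x, D.wave t y⟫_ℂ = ⟪x, y⟫_ℂ := by
  rw [inner_wave_left, wave_neg_wave]

theorem norm_wave_apply (D : LineCalculus H) (t : ℝ) (x : H) : ‖D.wave t x‖ = ‖x‖ := by
  have h := inner_wave_wave D t x x
  have h1 : ‖D.wave t x‖ ^ 2 = ‖x‖ ^ 2 := by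
    have := congrArg Complex.re h
    rw [inner_self_eq_norm_sq_to_K, inner_self_eq_norm_sq_to_K] at this
    simpa [← Complex.ofReal_pow] using this
  exact (sq_eq_sq₀ (norm_nonneg _) (norm_nonneg _)).mp h1

theorem norm_wave_le (D : LineCalculus H) (t : ℝ) : ‖D.wave t‖ ≤ 1 :=
  ContinuousLinearMap.opNorm_le_bound _ zero_le_one fun x => by
    rw [norm_wave_apply, one_mul]

theorem wave_apply_comm (D : LineCalculus H) (t : ℝ) (f : BoundedContinuousFunction ℝ ℂ) (x : H) :
    D.wave t (D.apply f x) = D.apply f (D.wave t x) := by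
  have : D.wave t * D.apply f = D.apply f * D.wave t := by
    simp only [wave, ← map_mul, mul_comm]
  exact congrArg (fun A : H →L[ℂ] H => A x) this

theorem apply_apply (D : LineCalculus H) (f g : BoundedContinuousFunction ℝ ℂ) (x : H) :
    D.apply f (D.apply g x) = D.apply (f * g) x := by
  rw [map_mul]; rfl

theorem exists_bound_of_hasCompactSupport {f : ℝ → ℂ} (hf : HasCompactSupport f) :
    ∃ R : ℝ, 0 ≤ R ∧ ∀ u : ℝ, R < |u| → f u = 0 := by
  obtain ⟨R, hR⟩ := hf.isCompact.isBounded.subset_closedBall (0 : ℝ)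
  refine ⟨max R 0, le_max_right _ _, fun u hu => ?_⟩
  by_contra hne
  have hmem : u ∈ tsupport f := subset_tsupport f (Function.mem_support.mpr hne)
  have := hR hmem
  rw [Metric.mem_closedBall, Real.dist_eq, sub_zero] at this
  exact absurd (lt_of_le_of_lt (le_max_left R 0) hu) (not_lt.mpr this)

theorem norm_character_sub_mul_le (t t₀ R : ℝ) (hR : 0 ≤ R) (f : BoundedContinuousFunction ℝ ℂ)
    (hf : ∀ u : ℝ, R < |u| → f u = 0) :
    ‖(character t - character t₀) * f‖ ≤ |t - t₀| * R * ‖f‖ := by
  rw [BoundedContinuousFunction.norm_le (by positivity)]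
  intro u
  rw [BoundedContinuousFunction.mul_apply, norm_mul]
  by_cases hu : R < |u|
  · rw [hf u hu, norm_zero, mul_zero]; positivity
  · push Not at hu
    have h1 : ‖(character t - character t₀) u‖ ≤ |t - t₀| * R := by
      have e : (character t - character t₀) u =
          Complex.exp (Complex.I * ((t₀ * u : ℝ) : ℂ)) *
            (Complex.exp (Complex.I * (((t - t₀) * u : ℝ) : ℂ)) - 1) := by
        simp only [BoundedContinuousFunction.sub_apply, character,
          BoundedContinuousFunction.coe_ofNormedAddCommGroup]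
        rw [mul_sub, mul_one, ← Complex.exp_add]
        congr 2
        push_cast; ring
      rw [e, norm_mul, Complex.norm_exp]
      have : (Complex.I * ((t₀ * u : ℝ) : ℂ)).re = 0 := by simp
      rw [this, Real.exp_zero, one_mul]
      refine (Real.norm_exp_I_mul_ofReal_sub_one_le).trans ?_
      rw [Real.norm_eq_abs, abs_mul]
      exact mul_le_mul_of_nonneg_left hu (abs_nonneg _)
    exact mul_le_mul h1 (f.norm_coe_le_norm u) (norm_nonneg _) (by positivity)

theorem continuous_wave (D : LineCalculus H) (x : H) : Continuous fun t : ℝ => D.wave t x := by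
  rw [Metric.continuous_iff]
  intro t₀ ε hε
  obtain ⟨f, hfc, hfx⟩ := D.window x (ε / 3) (by positivity)
  obtain ⟨R, hR, hRf⟩ := exists_bound_of_hasCompactSupport hfc
  refine ⟨ε / (3 * (R * ‖f‖ * ‖x‖ + 1)), by positivity, fun t ht => ?_⟩
  rw [Real.dist_eq] at ht
  rw [dist_eq_norm]
  have key : D.wave t x - D.wave t₀ x =
      D.wave t (x - D.apply f x) - D.wave t₀ (x - D.apply f x) +
        D.apply ((character t - character t₀) * f) x := by
    have : D.apply ((character t - character t₀) * f) x =
        D.wave t (D.apply f x) - D.wave t₀ (D.apply f x) := by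
      rw [sub_mul, map_sub, map_mul, map_mul]; rfl
    rw [this, map_sub, map_sub]; abel
  rw [key]
  have h1 : ‖D.wave t (x - D.apply f x)‖ < ε / 3 := by
    rw [norm_wave_apply, ← norm_neg, neg_sub]; exact hfx
  have h2 : ‖D.wave t₀ (x - D.apply f x)‖ < ε / 3 := by
    rw [norm_wave_apply, ← norm_neg, neg_sub]; exact hfx
  have h3 : ‖D.apply ((character t - character t₀) * f) x‖ < ε / 3 := by
    refine lt_of_le_of_lt (norm_apply_apply_le D _ x) ?_
    have hb := norm_character_sub_mul_le t t₀ R hR f hRf
    have hpos : 0 < R * ‖f‖ * ‖x‖ + 1 := by positivity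
    calc ‖(character t - character t₀) * f‖ * ‖x‖
        ≤ |t - t₀| * R * ‖f‖ * ‖x‖ := mul_le_mul_of_nonneg_right hb (norm_nonneg _)
      _ = |t - t₀| * (R * ‖f‖ * ‖x‖) := by ring
      _ ≤ |t - t₀| * (R * ‖f‖ * ‖x‖ + 1) :=
          mul_le_mul_of_nonneg_left (by linarith) (abs_nonneg _)
      _ < ε / (3 * (R * ‖f‖ * ‖x‖ + 1)) * (R * ‖f‖ * ‖x‖ + 1) :=
          mul_lt_mul_of_pos_right ht hpos
      _ = ε / 3 := by field_simp
  calc ‖D.wave t (x - D.apply f x) - D.wave t₀ (x - D.apply f x) +
        D.apply ((character t - character t₀) * f) x‖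
      ≤ ‖D.wave t (x - D.apply f x)‖ + ‖D.wave t₀ (x - D.apply f x)‖ +
        ‖D.apply ((character t - character t₀) * f) x‖ :=
        (norm_add_le _ _).trans (add_le_add_left (norm_sub_le _ _) _)
    _ < ε := by linarith

/-! ### Spectral supports -/

theorem supportedIn_wave (D : LineCalculus H) {K : Set ℝ} {x : H} (hx : D.SupportedIn K x)
    (t : ℝ) : D.SupportedIn K (D.wave t x) := by
  intro f hf
  rw [← wave_apply_comm, hx f hf, map_zero]

theorem supportedIn_add (D : LineCalculus H) {K : Set ℝ} {x y : H} (hx : D.SupportedIn K x)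
    (hy : D.SupportedIn K y) : D.SupportedIn K (x + y) := by
  intro f hf
  rw [map_add, hx f hf, hy f hf, add_zero]

theorem supportedIn_smul (D : LineCalculus H) {K : Set ℝ} {x : H} (hx : D.SupportedIn K x)
    (c : ℂ) : D.SupportedIn K (c • x) := by
  intro f hf
  rw [map_smul, hx f hf, smul_zero]

theorem supportedIn_zero (D : LineCalculus H) (K : Set ℝ) : D.SupportedIn K (0 : H) := by
  intro f _
  rw [map_zero]

theorem supportedIn_sum (D : LineCalculus H) {K : Set ℝ} {ι : Type*} (s : Finset ι) (x : ι → H)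
    (hx : ∀ i ∈ s, D.SupportedIn K (x i)) : D.SupportedIn K (∑ i ∈ s, x i) := by
  intro f hf
  rw [map_sum]
  exact Finset.sum_eq_zero fun i hi => hx i hi f hf

theorem supportedIn_mono (D : LineCalculus H) {K K' : Set ℝ} (hK : K ⊆ K') {x : H}
    (hx : D.SupportedIn K x) : D.SupportedIn K' x :=
  fun f hf => hx f fun u hu => hf u (hK hu)

/-- On a vector supported in `K`, `f(D)` only depends on `f` on `K`. -/
theorem apply_eq_of_eqOn (D : LineCalculus H) {K : Set ℝ} {x : H} (hx : D.SupportedIn K x)
    (f g : BoundedContinuousFunction ℝ ℂ) (hfg : ∀ u ∈ K, f u = g u) :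
    D.apply f x = D.apply g x := by
  have := hx (f - g) fun u hu => by
    rw [BoundedContinuousFunction.sub_apply, hfg u hu, sub_self]
  rw [map_sub] at this
  exact sub_eq_zero.mp this

/-- `g(D) x` is supported in any set outside of which `g` vanishes. -/
theorem supportedIn_apply (D : LineCalculus H) {K : Set ℝ} (g : BoundedContinuousFunction ℝ ℂ)
    (hg : ∀ u, u ∉ K → g u = 0) (x : H) : D.SupportedIn K (D.apply g x) := by
  intro f hf
  rw [apply_apply]
  have : f * g = 0 := by
    ext u
    rw [BoundedContinuousFunction.mul_apply]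
    by_cases hu : u ∈ K
    · rw [hf u hu, zero_mul]; rfl
    · rw [hg u hu, mul_zero]; rfl
  rw [this, map_zero]; rfl

/-- `g(D) x = x` if `x` is supported where `g = 1`. -/
theorem apply_eq_self (D : LineCalculus H) {K : Set ℝ} {x : H} (hx : D.SupportedIn K x)
    (g : BoundedContinuousFunction ℝ ℂ) (hg : ∀ u ∈ K, g u = 1) : D.apply g x = x := by
  rw [apply_eq_of_eqOn D hx g 1 (fun u hu => by rw [hg u hu]; rfl), map_one]; rfl

end Crest.Agent.LibS0112
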