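import Mathlib
import Crest.Prelude.Def_ModularData
import Crest.Agent.Lib_S0112_Calc_h24

/-!
# S0112, package CUT (helper7): resolvent truncation inside a von Neumann algebra

`resolvent_cut`: for `v ∈ M`, `R > 0` and a vector `ξ` there is `w ∈ M` with `‖w‖ ≤ R` and
`‖v ξ - w ξ‖ ≤ ‖v⋆ v ξ‖ / R`  (`w = v (1 + R⁻² v⋆ v)⁻¹`).
-/

set_option autoImplicit false

open Crest Crest.OpAlg Filter MeasureTheory
open scoped Topology ComplexConjugate InnerProductSpace

universe u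

namespace Crest.Agent.LibS0112

variable {H : Type u} [NormedAddCommGroup H] [InnerProductSpace ℂ H] [CompleteSpace H]

namespace CUT

/-- `Re ⟪(1 + c v⋆v) x, x⟫ = ‖x‖² + c ‖v x‖²`. -/
theorem re_inner_one_add (v : H →L[ℂ] H) (c : ℝ) (x : H) :
    (⟪((1 : H →L[ℂ] H) + (c : ℂ) • (star v * v)) x, x⟫_ℂ).re = ‖x‖ ^ 2 + c * ‖v x‖ ^ 2 := by
  have h1 : ((1 : H →L[ℂ] H) + (c : ℂ) • (star v * v)) x = x + (c : ℂ) • (star v) (v x) := rfl
  rw [h1, inner_add_left, inner_smul_left, ContinuousLinearMap.star_eq_adjoint,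
    ContinuousLinearMap.adjoint_inner_left, inner_self_eq_norm_sq_to_K,
    inner_self_eq_norm_sq_to_K]
  simp [← Complex.ofReal_pow]

/-- `‖x‖² ≤ ‖⟪(1 + c v⋆v) x, x⟫‖` for `c ≥ 0`. -/
theorem le_norm_inner (v : H →L[ℂ] H) (c : ℝ) (hc : 0 ≤ c) (x : H) :
    ‖x‖ ^ 2 ≤ ‖⟪((1 : H →L[ℂ] H) + (c : ℂ) • (star v * v)) x, x⟫_ℂ‖ := by
  have h := re_inner_one_add v c x
  have h2 := Complex.re_le_norm (⟪((1 : H →L[ℂ] H) + (c : ℂ) • (star v * v)) x, x⟫_ℂ)
  have h3 : 0 ≤ c * ‖v x‖ ^ 2 := by positivity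
  linarith

end CUT

/-- Resolvent truncation. -/
theorem resolvent_cut (M : VonNeumannAlgebra H) (v : H →L[ℂ] H) (hv : v ∈ M) (R : ℝ)
    (hR : 0 < R) (ξ : H) :
    ∃ w : H →L[ℂ] H, w ∈ M ∧ ‖w‖ ≤ R ∧ ‖v ξ - w ξ‖ ≤ ‖(star v) (v ξ)‖ / R := by
  set c : ℝ := (R ^ 2)⁻¹ with hc_def
  have hc : 0 < c := by positivity
  set A : H →L[ℂ] H := (1 : H →L[ℂ] H) + (c : ℂ) • (star v * v) with hA_def
  have hAM : A ∈ M :=
    add_mem (one_mem M) (M.toStarSubalgebra.smul_mem (mul_mem (star_mem hv) hv) (c : ℂ))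
  have hAunit : IsUnit A := by
    refine ContinuousLinearMap.isUnit_of_forall_le_norm_inner_map A (c := 1) one_pos fun x => ?_
    rw [NNReal.coe_one, mul_one]
    exact CUT.le_norm_inner v c hc.le x
  obtain ⟨U, hU⟩ := hAunit
  set r : H →L[ℂ] H := ((U⁻¹ : (H →L[ℂ] H)ˣ) : H →L[ℂ] H) with hr_def
  have hAr : A * r = 1 := by rw [← hU]; exact U.mul_inv
  have hrA : r * A = 1 := by rw [← hU]; exact U.inv_mul
  have hArx : ∀ x : H, A (r x) = x := fun x => by
    have := congrArg (fun B : H →L[ℂ] H => B x) hAr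
    simpa using this
  have hrAx : ∀ x : H, r (A x) = x := fun x => by
    have := congrArg (fun B : H →L[ℂ] H => B x) hrA
    simpa using this
  -- r ∈ M by the double commutant theorem
  have hrM : r ∈ M := by
    rw [← VonNeumannAlgebra.commutant_commutant M, VonNeumannAlgebra.mem_commutant_iff]
    intro g hg
    rw [VonNeumannAlgebra.mem_commutant_iff] at hg
    have hgA : A * g = g * A := hg A hAM
    calc g * r = (r * A) * g * r := by rw [hrA, one_mul]
      _ = r * (A * g) * r := by rw [mul_assoc r A g]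
      _ = r * (g * A) * r := by rw [hgA]
      _ = r * g * (A * r) := by simp only [mul_assoc]
      _ = r * g := by rw [hAr, mul_one]
  have hnw : ‖v * r‖ ≤ R := by
    refine ContinuousLinearMap.opNorm_le_bound _ hR.le fun x => ?_
    have hz := CUT.re_inner_one_add v c (r x)
    rw [← hA_def, hArx x] at hz
    have hcs : (⟪x, r x⟫_ℂ).re ≤ ‖x‖ * ‖r x‖ :=
      (Complex.re_le_norm _).trans (norm_inner_le_norm _ _)
    have h1 : c * ‖v (r x)‖ ^ 2 ≤ ‖x‖ ^ 2 := by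
      nlinarith [sq_nonneg (‖x‖ - 2 * ‖r x‖), sq_nonneg ‖x‖]
    have h2 : ‖v (r x)‖ ^ 2 ≤ (R * ‖x‖) ^ 2 := by
      have : ‖v (r x)‖ ^ 2 = R ^ 2 * (c * ‖v (r x)‖ ^ 2) := by
        rw [hc_def]; field_simp
      rw [this, mul_pow]
      exact mul_le_mul_of_nonneg_left h1 (by positivity)
    exact (pow_le_pow_iff_left₀ (norm_nonneg _) (by positivity) two_ne_zero).mp h2
  refine ⟨v * r, mul_mem hv hrM, hnw, ?_⟩
  · -- the defect
    have hAξ : A ξ = ξ + (c : ℂ) • (star v) (v ξ) := rfl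
    have hkey : v ξ - (v * r) ξ = (v * r) ((c : ℂ) • (star v) (v ξ)) := by
      have e1 : r ((c : ℂ) • (star v) (v ξ)) = ξ - r ξ := by
        have := hrAx ξ
        rw [hAξ, map_add] at this
        rw [eq_sub_iff_add_eq, add_comm]; exact this
      show v ξ - v (r ξ) = v (r ((c : ℂ) • (star v) (v ξ)))
      rw [e1, map_sub]
    rw [hkey]
    calc ‖(v * r) ((c : ℂ) • (star v) (v ξ))‖ ≤ ‖v * r‖ * ‖(c : ℂ) • (star v) (v ξ)‖ :=
          ContinuousLinearMap.le_opNorm _ _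
      _ ≤ R * (c * ‖(star v) (v ξ)‖) := by
          rw [norm_smul, Complex.norm_real, Real.norm_of_nonneg hc.le]
          exact mul_le_mul_of_nonneg_right hnw (by positivity)
      _ = ‖(star v) (v ξ)‖ / R := by
          rw [hc_def]; field_simp

end Crest.Agent.LibS0112
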