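import Mathlib
import Crest.Agent.Lib_S0112_Calc_h24

/-!
# S0112, package ERG (helper22)

* `dense_commutant_vac`: `M'ξ` is dense (ξ separating for `M`);
* `flow_mem_commutant`: the modular flow preserves the commutant;
* `erg_avg`: for an ergodic state, finite time averages of `U_t y ξ` (`y ∈ M`) approximate
  `⟪ξ, y ξ⟫ ξ` (two elements at once).
-/

set_option autoImplicit false

open Crest Crest.OpAlg Filter MeasureTheory
open scoped Topology ComplexConjugate InnerProductSpace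

universe u

namespace Crest.Agent.LibS0112

variable {H : Type u} [NormedAddCommGroup H] [InnerProductSpace ℂ H] [CompleteSpace H]

open LineCalculus

namespace ERG

/-- The subspace `M'ξ`. -/
def cvSub (S : ModularDatum H) : Submodule ℂ H where
  carrier := Set.range fun x' : S.M.commutant => (x' : H →L[ℂ] H) S.vac
  add_mem' := by
    rintro _ _ ⟨a, rfl⟩ ⟨b, rfl⟩
    exact ⟨⟨(a : H →L[ℂ] H) + b, add_mem a.2 b.2⟩, rfl⟩
  zero_mem' := ⟨⟨0, zero_mem _⟩, by simp⟩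
  smul_mem' := by
    rintro c _ ⟨a, rfl⟩
    exact ⟨⟨c • (a : H →L[ℂ] H), S.M.commutant.toStarSubalgebra.smul_mem a.2 c⟩, rfl⟩

theorem vac_mem_cvSub (S : ModularDatum H) : S.vac ∈ cvSub S :=
  ⟨⟨1, one_mem _⟩, rfl⟩

theorem map_mem_cvSub (S : ModularDatum H) (y : H →L[ℂ] H) (hy : y ∈ S.M.commutant) (x : H)
    (hx : x ∈ cvSub S) : y x ∈ cvSub S := by
  obtain ⟨a, rfl⟩ := hx
  exact ⟨⟨y * (a : H →L[ℂ] H), mul_mem hy a.2⟩, rfl⟩

theorem map_mem_closure (S : ModularDatum H) (y : H →L[ℂ] H) (hy : y ∈ S.M.commutant) (x : H)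
    (hx : x ∈ (cvSub S).topologicalClosure) : y x ∈ (cvSub S).topologicalClosure := by
  have h : Set.MapsTo y (cvSub S : Set H) (cvSub S : Set H) := fun x hx => map_mem_cvSub S y hy x hx
  exact h.closure y.continuous hx

end ERG

theorem dense_commutant_vac (S : ModularDatum H) :
    Dense (Set.range fun x' : S.M.commutant => (x' : H →L[ℂ] H) S.vac) := by
  obtain ⟨K, hK⟩ : ∃ K : Submodule ℂ H, K = (ERG.cvSub S).topologicalClosure := ⟨_, rfl⟩
  have hcomp : CompleteSpace K := by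
    rw [hK]; exact (Submodule.isClosed_topologicalClosure _).completeSpace_coe
  have hP : IsStarProjection K.starProjection := isStarProjection_starProjection
  have hrange : ∀ x : H, x ∈ (K.starProjection).range ↔ x ∈ K := by
    intro x
    rw [Submodule.range_starProjection K]
  have hPM : K.starProjection ∈ S.M := by
    rw [VonNeumannAlgebra.IsStarProjection.mem_iff hP]
    intro y hy
    rw [Module.End.mem_invtSubmodule]
    intro x hx
    rw [Submodule.mem_comap]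
    have hx' : x ∈ K := (hrange x).mp hx
    have hyx : y x ∈ K := by
      rw [hK] at hx' ⊢
      exact ERG.map_mem_closure S y hy x hx'
    exact (hrange (y x)).mpr hyx
  have hvK : S.vac ∈ K := by
    rw [hK]; exact (ERG.cvSub S).le_topologicalClosure (ERG.vac_mem_cvSub S)
  have h1 : (1 - K.starProjection) S.vac = 0 := by
    have := Submodule.starProjection_eq_self_iff.mpr hvK
    simp [this]
  have h2 : (1 - K.starProjection : H →L[ℂ] H) = 0 :=
    S.separating _ (sub_mem (one_mem _) hPM) h1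
  have h3 : ∀ x : H, x ∈ K := by
    intro x
    have : K.starProjection x = x := by
      have := congrArg (fun A : H →L[ℂ] H => A x) h2
      simp at this
      exact (sub_eq_zero.mp this).symm
    exact Submodule.starProjection_eq_self_iff.mp this
  intro x
  have := h3 x
  rw [hK, ← SetLike.mem_coe, Submodule.topologicalClosure_coe] at this
  exact this

theorem flow_mem_commutant (S : ModularDatum H) (t : ℝ) (x' : H →L[ℂ] H)
    (hx' : x' ∈ S.M.commutant) : S.D.wave t * x' * S.D.wave (-t) ∈ S.M.commutant := by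
  rw [VonNeumannAlgebra.mem_commutant_iff] at hx' ⊢
  intro g hg
  have h1 : S.D.wave (-t) * g * S.D.wave t ∈ S.M := by
    have := S.flow_mem (-t) g hg
    rwa [neg_neg] at this
  have h2 := hx' _ h1
  have hUU : S.D.wave t * S.D.wave (-t) = 1 := wave_mul_wave_neg S.D t
  calc g * (S.D.wave t * x' * S.D.wave (-t))
      = (S.D.wave t * S.D.wave (-t)) * g * (S.D.wave t * x' * S.D.wave (-t)) := by
        rw [hUU, one_mul]
    _ = S.D.wave t * ((S.D.wave (-t) * g * S.D.wave t) * x') * S.D.wave (-t) := by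
        simp only [mul_assoc]
    _ = S.D.wave t * (x' * (S.D.wave (-t) * g * S.D.wave t)) * S.D.wave (-t) := by rw [h2]
    _ = S.D.wave t * x' * S.D.wave (-t) * g * (S.D.wave t * S.D.wave (-t)) := by
        simp only [mul_assoc]
    _ = S.D.wave t * x' * S.D.wave (-t) * g := by rw [hUU, mul_one]

namespace ERG

/-- The time average `(1/N) ∑_{n<N} U_{nτ}`. -/
noncomputable def avg (D : LineCalculus H) (τ : ℝ) (N : ℕ) : H →L[ℂ] H :=
  (N : ℂ)⁻¹ • ∑ n ∈ Finset.range N, D.wave (n * τ)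

theorem avg_apply (D : LineCalculus H) (τ : ℝ) (N : ℕ) (x : H) :
    avg D τ N x = (N : ℂ)⁻¹ • ∑ n ∈ Finset.range N, D.wave (n * τ) x := by
  simp [avg]

theorem iterate_wave (D : LineCalculus H) (τ : ℝ) (n : ℕ) (x : H) :
    (D.wave τ)^[n] x = D.wave (n * τ) x := by
  induction n with
  | zero => simp [wave_zero]
  | succ n ih =>
    rw [Function.iterate_succ_apply', ih, wave_wave]
    congr 2
    push_cast; ring

theorem avg_eq_birkhoff (D : LineCalculus H) (τ : ℝ) (N : ℕ) (x : H) :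
    avg D τ N x = birkhoffAverage ℂ (D.wave τ) _root_.id N x := by
  rw [avg_apply, birkhoffAverage, birkhoffSum]
  congr 1
  refine Finset.sum_congr rfl fun n _ => ?_
  rw [iterate_wave]; rfl

theorem norm_avg_apply_le (D : LineCalculus H) (τ : ℝ) (N : ℕ) (x : H) :
    ‖avg D τ N x‖ ≤ ‖x‖ := by
  rw [avg_apply, norm_smul]
  rcases Nat.eq_zero_or_pos N with h0 | hpos
  · subst h0; simp
  · have h1 : ‖∑ n ∈ Finset.range N, D.wave (n * τ) x‖ ≤ N * ‖x‖ := by
      refine (norm_sum_le _ _).trans ?_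
      simp [norm_wave_apply]
    have hN : (0 : ℝ) < N := by exact_mod_cast hpos
    calc ‖(N : ℂ)⁻¹‖ * ‖∑ n ∈ Finset.range N, D.wave (n * τ) x‖
        ≤ ‖(N : ℂ)⁻¹‖ * (N * ‖x‖) := mul_le_mul_of_nonneg_left h1 (norm_nonneg _)
      _ = ‖x‖ := by
        rw [norm_inv, Complex.norm_natCast]
        field_simp

theorem wave_avg_comm (D : LineCalculus H) (τ : ℝ) (N : ℕ) (t : ℝ) (x : H) :
    D.wave t (avg D τ N x) = avg D τ N (D.wave t x) := by
  rw [avg_apply, avg_apply, map_smul, map_sum]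
  congr 1
  refine Finset.sum_congr rfl fun n _ => ?_
  rw [wave_wave, wave_wave, add_comm]

theorem inner_vac_avg (S : ModularDatum H) (hvac : ∀ t, S.D.wave t S.vac = S.vac) (τ : ℝ)
    (N : ℕ) (hN : 0 < N) (x : H) : ⟪S.vac, avg S.D τ N x⟫_ℂ = ⟪S.vac, x⟫_ℂ := by
  rw [avg_apply, inner_smul_right, inner_sum]
  have h1 : ∀ n ∈ Finset.range N, ⟪S.vac, S.D.wave (n * τ) x⟫_ℂ = ⟪S.vac, x⟫_ℂ := by
    intro n _
    have := inner_wave_left S.D (-(n * τ)) S.vac x
    rw [neg_neg, hvac] at this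
    exact this.symm
  rw [Finset.sum_congr rfl h1, Finset.sum_const, Finset.card_range, nsmul_eq_mul]
  have hN' : (N : ℂ) ≠ 0 := by exact_mod_cast hN.ne'
  field_simp

theorem tendsto_avg (D : LineCalculus H) (τ : ℝ) (x : H) :
    ∃ z : H, Tendsto (fun N : ℕ => avg D τ N x) atTop (𝓝 z) ∧ D.wave τ z = z := by
  have h := ContinuousLinearMap.tendsto_birkhoffAverage_orthogonalProjection (D.wave τ)
    (norm_wave_le D τ) x
  have h' := Tendsto.congr (fun N => (avg_eq_birkhoff D τ N x).symm) h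
  have hfix := LinearMap.mem_eqLocus.mp
    (((D.wave τ).eqLocus (1 : H →L[ℂ] H)).orthogonalProjectionOnto x).2
  exact ⟨_, h', hfix⟩

/-- The averages of the flow applied to `y`. -/
noncomputable def bavg (D : LineCalculus H) (τ : ℝ) (y : H →L[ℂ] H) (N : ℕ) : H →L[ℂ] H :=
  (N : ℂ)⁻¹ • ∑ n ∈ Finset.range N, D.wave (n * τ) * y * D.wave (-(n * τ))

theorem bavg_apply (D : LineCalculus H) (τ : ℝ) (y : H →L[ℂ] H) (N : ℕ) (x : H) :
    bavg D τ y N x =
      (N : ℂ)⁻¹ • ∑ n ∈ Finset.range N, D.wave (n * τ) (y (D.wave (-(n * τ)) x)) := by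
  simp [bavg]

theorem bavg_mem (S : ModularDatum H) (τ : ℝ) (y : H →L[ℂ] H) (hy : y ∈ S.M) (N : ℕ) :
    bavg S.D τ y N ∈ S.M := by
  have h : ∑ n ∈ Finset.range N, S.D.wave (n * τ) * y * S.D.wave (-(n * τ)) ∈ S.M :=
    sum_mem fun n _ => S.flow_mem _ y hy
  exact S.M.toStarSubalgebra.smul_mem h _

theorem norm_bavg_le (D : LineCalculus H) (τ : ℝ) (y : H →L[ℂ] H) (N : ℕ) :
    ‖bavg D τ y N‖ ≤ ‖y‖ := by
  refine ContinuousLinearMap.opNorm_le_bound _ (norm_nonneg _) fun x => ?_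
  rw [bavg_apply, norm_smul]
  rcases Nat.eq_zero_or_pos N with h0 | hpos
  · subst h0; simp; positivity
  · have h1 : ‖∑ n ∈ Finset.range N, D.wave (n * τ) (y (D.wave (-(n * τ)) x))‖ ≤
        N * (‖y‖ * ‖x‖) := by
      refine (norm_sum_le _ _).trans ?_
      have : ∀ n ∈ Finset.range N, ‖D.wave (n * τ) (y (D.wave (-(n * τ)) x))‖ ≤ ‖y‖ * ‖x‖ := by
        intro n _
        rw [norm_wave_apply]
        refine (y.le_opNorm _).trans ?_
        rw [norm_wave_apply]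
      refine (Finset.sum_le_sum this).trans ?_
      simp
    have hN : (0 : ℝ) < N := by exact_mod_cast hpos
    calc ‖(N : ℂ)⁻¹‖ * ‖∑ n ∈ Finset.range N, D.wave (n * τ) (y (D.wave (-(n * τ)) x))‖
        ≤ ‖(N : ℂ)⁻¹‖ * (N * (‖y‖ * ‖x‖)) := mul_le_mul_of_nonneg_left h1 (norm_nonneg _)
      _ = ‖y‖ * ‖x‖ := by
        rw [norm_inv, Complex.norm_natCast]
        field_simp

theorem bavg_vac (S : ModularDatum H) (hvac : ∀ t, S.D.wave t S.vac = S.vac) (τ : ℝ)
    (y : H →L[ℂ] H) (N : ℕ) : bavg S.D τ y N S.vac = avg S.D τ N (y S.vac) := by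
  rw [bavg_apply, avg_apply]
  congr 1
  refine Finset.sum_congr rfl fun n _ => ?_
  rw [hvac]

theorem bavg_comm (S : ModularDatum H) (τ : ℝ) (y : H →L[ℂ] H) (hy : y ∈ S.M) (N : ℕ)
    (x' : H →L[ℂ] H) (hx' : x' ∈ S.M.commutant) (x : H) :
    bavg S.D τ y N (x' x) = x' (bavg S.D τ y N x) := by
  have h := (VonNeumannAlgebra.mem_commutant_iff.mp hx') _ (bavg_mem S τ y hy N)
  exact congrArg (fun A : H →L[ℂ] H => A x) h

/-- Uniformly bounded operators converging pointwise on a dense set converge pointwise. -/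
theorem exists_tendsto_of_dense {B : ℕ → H →L[ℂ] H} {C : ℝ} (hB : ∀ N, ‖B N‖ ≤ C) {s : Set H}
    (hs : Dense s) (hconv : ∀ x ∈ s, ∃ l, Tendsto (fun N => B N x) atTop (𝓝 l)) (x : H) :
    ∃ l, Tendsto (fun N => B N x) atTop (𝓝 l) := by
  apply cauchySeq_tendsto_of_complete
  rw [Metric.cauchySeq_iff]
  intro ε hε
  have hC' : 0 < max C 0 + 1 := by positivity
  obtain ⟨x0, hx0s, hx0⟩ := hs.exists_dist_lt x (ε := ε / (3 * (max C 0 + 1))) (by positivity)
  obtain ⟨l, hl⟩ := hconv x0 hx0s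
  obtain ⟨N0, hN0⟩ := Metric.cauchySeq_iff.mp hl.cauchySeq (ε / 3) (by positivity)
  refine ⟨N0, fun m hm n hn => ?_⟩
  have hb : ∀ k, dist (B k x) (B k x0) < ε / 3 := by
    intro k
    rw [dist_eq_norm, ← map_sub]
    have h1 : ‖B k (x - x0)‖ ≤ (max C 0 + 1) * ‖x - x0‖ := by
      refine (B k).le_of_opNorm_le ?_ _
      exact (hB k).trans ((le_max_left _ _).trans (by linarith))
    rw [dist_eq_norm] at hx0
    calc ‖B k (x - x0)‖ ≤ (max C 0 + 1) * ‖x - x0‖ := h1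
      _ < (max C 0 + 1) * (ε / (3 * (max C 0 + 1))) := mul_lt_mul_of_pos_left hx0 hC'
      _ = ε / 3 := by field_simp
  have h2 := hN0 m hm n hn
  calc dist (B m x) (B n x) ≤ dist (B m x) (B m x0) + dist (B m x0) (B n x0) +
        dist (B n x0) (B n x) := dist_triangle4 _ _ _ _
    _ < ε / 3 + ε / 3 + ε / 3 := by
        have h3 := hb m
        have h4 := hb n
        rw [dist_comm] at h4
        linarith
    _ = ε := by ring

/-- The single averaging step: the averages of `U_{nτ} y ξ` converge to `ȳ ξ` for some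
`ȳ ∈ M`, and the limit is fixed by `U_τ`. -/
theorem single_step (S : ModularDatum H) (hvac : ∀ t, S.D.wave t S.vac = S.vac) (τ : ℝ)
    (y : H →L[ℂ] H) (hy : y ∈ S.M) :
    ∃ ybar : H →L[ℂ] H, ybar ∈ S.M ∧
      Tendsto (fun N : ℕ => avg S.D τ N (y S.vac)) atTop (𝓝 (ybar S.vac)) ∧
      S.D.wave τ (ybar S.vac) = ybar S.vac := by
  obtain ⟨z, hz, hzfix⟩ := tendsto_avg S.D τ (y S.vac)
  have hconv : ∀ x ∈ Set.range (fun x' : S.M.commutant => (x' : H →L[ℂ] H) S.vac),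
      ∃ l, Tendsto (fun N => bavg S.D τ y N x) atTop (𝓝 l) := by
    rintro _ ⟨x', rfl⟩
    refine ⟨(x' : H →L[ℂ] H) z, ?_⟩
    have e : (fun N => bavg S.D τ y N ((x' : H →L[ℂ] H) S.vac)) =
        fun N => (x' : H →L[ℂ] H) (avg S.D τ N (y S.vac)) :=
      funext fun N => by rw [bavg_comm S τ y hy N _ x'.2, bavg_vac S hvac]
    rw [e]
    exact ((x' : H →L[ℂ] H).continuous.tendsto z).comp hz
  have hall := fun x =>
    exists_tendsto_of_dense (norm_bavg_le S.D τ y) (dense_commutant_vac S) hconv x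
  choose f hf using hall
  let fl : H →ₗ[ℂ] H :=
    linearMapOfTendsto f (fun N => (bavg S.D τ y N : H →ₗ[ℂ] H)) (tendsto_pi_nhds.mpr hf)
  have hfl : ∀ x, fl x = f x := fun x => rfl
  have hbound : ∀ x, ‖fl x‖ ≤ ‖y‖ * ‖x‖ := fun x =>
    le_of_tendsto' ((hf x).norm) fun N =>
      (bavg S.D τ y N).le_of_opNorm_le (norm_bavg_le S.D τ y N) x
  refine ⟨fl.mkContinuous ‖y‖ hbound, ?_, ?_, ?_⟩
  · rw [← VonNeumannAlgebra.commutant_commutant S.M, VonNeumannAlgebra.mem_commutant_iff]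
    intro g hg
    ext x
    show g (f x) = f (g x)
    refine tendsto_nhds_unique ((g.continuous.tendsto _).comp (hf x)) ?_
    have e : (fun N => bavg S.D τ y N (g x)) = (⇑g ∘ fun N => bavg S.D τ y N x) :=
      funext fun N => bavg_comm S τ y hy N g hg x
    rw [← e]
    exact hf (g x)
  · have e : f S.vac = z := by
      refine tendsto_nhds_unique (hf S.vac) ?_
      have e' : (fun N => bavg S.D τ y N S.vac) = fun N => avg S.D τ N (y S.vac) :=
        funext fun N => bavg_vac S hvac τ y N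
      rw [e']; exact hz
    show Tendsto _ _ (𝓝 (f S.vac))
    rw [e]; exact hz
  · have e : f S.vac = z := by
      refine tendsto_nhds_unique (hf S.vac) ?_
      have e' : (fun N => bavg S.D τ y N S.vac) = fun N => avg S.D τ N (y S.vac) :=
        funext fun N => bavg_vac S hvac τ y N
      rw [e']; exact hz
    show S.D.wave τ (f S.vac) = f S.vac
    rw [e]; exact hzfix

/-- A vector fixed by `U_1` and `U_{√2}` is fixed by every `U_t`. -/
theorem fixed_all (D : LineCalculus H) (z : H) (h1 : D.wave 1 z = z)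
    (h2 : D.wave (Real.sqrt 2) z = z) (t : ℝ) : D.wave t z = z := by
  let G : AddSubgroup ℝ :=
    { carrier := {t | D.wave t z = z}
      add_mem' := by
        intro a b ha hb
        show D.wave (a + b) z = z
        rw [← wave_wave, hb, ha]
      zero_mem' := by
        show D.wave 0 z = z
        rw [wave_zero]; rfl
      neg_mem' := by
        intro a ha
        show D.wave (-a) z = z
        have := wave_neg_wave D a z
        rw [ha] at this
        exact this }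
  have hle : AddSubgroup.closure {Real.sqrt 2, (1 : ℝ)} ≤ G := by
    rw [AddSubgroup.closure_le]
    intro a ha
    rcases ha with rfl | rfl
    · exact h2
    · exact h1
  have hdense : Dense (AddSubgroup.closure {Real.sqrt 2, (1 : ℝ)} : Set ℝ) := by
    rw [dense_addSubgroupClosure_pair_iff, div_one]
    exact irrational_sqrt_two
  have hG : Dense (G : Set ℝ) := hdense.mono hle
  have hclosed : IsClosed (G : Set ℝ) := isClosed_eq (continuous_wave D z) continuous_const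
  have : t ∈ (G : Set ℝ) := by
    rw [← hclosed.closure_eq, hG.closure_eq]
    trivial
  exact this

theorem erg_limit (S : ModularDatum H) (herg : S.Ergodic)
    (hvac : ∀ t, S.D.wave t S.vac = S.vac) (y : H →L[ℂ] H) (hy : y ∈ S.M) :
    ∃ y1 : H →L[ℂ] H, y1 ∈ S.M ∧
      Tendsto (fun N : ℕ => avg S.D 1 N (y S.vac)) atTop (𝓝 (y1 S.vac)) ∧
      Tendsto (fun N : ℕ => avg S.D (Real.sqrt 2) N (y1 S.vac)) atTop
        (𝓝 (⟪S.vac, y S.vac⟫_ℂ • S.vac)) := by
  obtain ⟨y1, hy1M, hy1lim, hy1fix⟩ := single_step S hvac 1 y hy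
  obtain ⟨y2, hy2M, hy2lim, hy2fix⟩ := single_step S hvac (Real.sqrt 2) y1 hy1M
  refine ⟨y1, hy1M, hy1lim, ?_⟩
  -- `z₂ = y2 ξ` is fixed by `U_1`
  have h1fix : S.D.wave 1 (y2 S.vac) = y2 S.vac := by
    refine tendsto_nhds_unique (((S.D.wave 1).continuous.tendsto _).comp hy2lim) ?_
    have e : (⇑(S.D.wave 1) ∘ fun N : ℕ => avg S.D (Real.sqrt 2) N (y1 S.vac)) =
        fun N : ℕ => avg S.D (Real.sqrt 2) N (y1 S.vac) :=
      funext fun N => by
        show S.D.wave 1 (avg S.D (Real.sqrt 2) N (y1 S.vac)) = _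
        rw [wave_avg_comm, hy1fix]
    rw [e]; exact hy2lim
  have hall : ∀ t, S.D.wave t (y2 S.vac) = y2 S.vac := fixed_all S.D _ h1fix hy2fix
  have hflow : ∀ t : ℝ, S.flow t y2 = y2 := by
    intro t
    have hmem : S.flow t y2 - y2 ∈ S.M := sub_mem (S.flow_mem t y2 hy2M) hy2M
    have hz : (S.flow t y2 - y2) S.vac = 0 := by
      have : S.flow t y2 S.vac = S.D.wave t (y2 (S.D.wave (-t) S.vac)) := rfl
      rw [sub_apply, this, hvac, hall, sub_self]
    exact sub_eq_zero.mp (S.separating _ hmem hz)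
  obtain ⟨c, hc⟩ := herg y2 hy2M hflow
  have hz2 : y2 S.vac = c • S.vac := by rw [hc]; simp
  have hvv : ⟪S.vac, S.vac⟫_ℂ = 1 := by
    rw [inner_self_eq_norm_sq_to_K, S.norm_vac]; simp
  -- inner products with ξ are preserved by the averages
  have hin2 : ⟪S.vac, y2 S.vac⟫_ℂ = ⟪S.vac, y1 S.vac⟫_ℂ := by
    have hcont : Tendsto (fun N : ℕ => ⟪S.vac, avg S.D (Real.sqrt 2) N (y1 S.vac)⟫_ℂ) atTop
        (𝓝 ⟪S.vac, y2 S.vac⟫_ℂ) :=
      (continuous_const.inner continuous_id).continuousAt.tendsto.comp hy2lim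
    refine tendsto_nhds_unique hcont ?_
    refine tendsto_const_nhds.congr' ?_
    filter_upwards [eventually_gt_atTop 0] with N hN
    exact (inner_vac_avg S hvac _ N hN _).symm
  have hin1 : ⟪S.vac, y1 S.vac⟫_ℂ = ⟪S.vac, y S.vac⟫_ℂ := by
    have hcont : Tendsto (fun N : ℕ => ⟪S.vac, avg S.D 1 N (y S.vac)⟫_ℂ) atTop
        (𝓝 ⟪S.vac, y1 S.vac⟫_ℂ) :=
      (continuous_const.inner continuous_id).continuousAt.tendsto.comp hy1lim
    refine tendsto_nhds_unique hcont ?_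
    refine tendsto_const_nhds.congr' ?_
    filter_upwards [eventually_gt_atTop 0] with N hN
    exact (inner_vac_avg S hvac _ N hN _).symm
  have hcval : c = ⟪S.vac, y S.vac⟫_ℂ := by
    rw [← hin1, ← hin2, hz2, inner_smul_right, hvv, mul_one]
  rw [← hcval, ← hz2]
  exact hy2lim

/-- The double average as a single average over `Fin (N₁ * N₂)`. -/
theorem avg_avg (D : LineCalculus H) (N₁ N₂ : ℕ) (x : H) :
    avg D (Real.sqrt 2) N₂ (avg D 1 N₁ x) =
      ((N₁ * N₂ : ℕ) : ℂ)⁻¹ • ∑ k : Fin (N₁ * N₂),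
        D.wave (((finProdFinEquiv.symm k).1 : ℕ) * 1 +
          ((finProdFinEquiv.symm k).2 : ℕ) * Real.sqrt 2) x := by
  rw [← Equiv.sum_comp finProdFinEquiv]
  simp only [Equiv.symm_apply_apply]
  rw [Fintype.sum_prod_type, avg_apply]
  have h1 : ∀ n ∈ Finset.range N₂, D.wave (n * Real.sqrt 2) (avg D 1 N₁ x) =
      (N₁ : ℂ)⁻¹ • ∑ m ∈ Finset.range N₁, D.wave (m * 1 + n * Real.sqrt 2) x := by
    intro n _
    rw [avg_apply, map_smul, map_sum]
    congr 1
    refine Finset.sum_congr rfl fun m _ => ?_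
    rw [wave_wave, add_comm]
  rw [Finset.sum_congr rfl h1, ← Finset.smul_sum, smul_smul]
  congr 1
  · push_cast
    rw [mul_inv, mul_comm]
  · rw [Finset.sum_comm]
    rw [← Fin.sum_univ_eq_sum_range (fun m => ∑ n ∈ Finset.range N₂,
      D.wave ((m : ℝ) * 1 + n * Real.sqrt 2) x) N₁]
    refine Finset.sum_congr rfl fun a _ => ?_
    rw [← Fin.sum_univ_eq_sum_range (fun n => D.wave (((a : ℕ) : ℝ) * 1 + n * Real.sqrt 2) x) N₂]

end ERG

theorem erg_avg (S : ModularDatum H) (herg : S.Ergodic)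
    (hvac : ∀ t, S.D.wave t S.vac = S.vac) (y₁ y₂ : H →L[ℂ] H) (hy₁ : y₁ ∈ S.M)
    (hy₂ : y₂ ∈ S.M) (ε : ℝ) (hε : 0 < ε) :
    ∃ (N : ℕ) (t : Fin N → ℝ), 0 < N ∧
      ‖(N : ℂ)⁻¹ • ∑ k, S.D.wave (t k) (y₁ S.vac) - ⟪S.vac, y₁ S.vac⟫_ℂ • S.vac‖ ≤ ε ∧
      ‖(N : ℂ)⁻¹ • ∑ k, S.D.wave (t k) (y₂ S.vac) - ⟪S.vac, y₂ S.vac⟫_ℂ • S.vac‖ ≤ ε := by
  obtain ⟨a₁, -, ha₁, ha₁'⟩ := ERG.erg_limit S herg hvac y₁ hy₁
  obtain ⟨a₂, -, ha₂, ha₂'⟩ := ERG.erg_limit S herg hvac y₂ hy₂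
  have hε2 : 0 < ε / 2 := by positivity
  -- first averaging step
  have e1 : ∀ᶠ N : ℕ in atTop, dist (ERG.avg S.D 1 N (y₁ S.vac)) (a₁ S.vac) < ε / 2 :=
    (Metric.tendsto_nhds.mp ha₁) _ hε2
  have e2 : ∀ᶠ N : ℕ in atTop, dist (ERG.avg S.D 1 N (y₂ S.vac)) (a₂ S.vac) < ε / 2 :=
    (Metric.tendsto_nhds.mp ha₂) _ hε2
  obtain ⟨N₁, hN₁a, hN₁b, hN₁pos⟩ := (e1.and (e2.and (eventually_gt_atTop 0))).exists
  have f1 : ∀ᶠ N : ℕ in atTop, dist (ERG.avg S.D (Real.sqrt 2) N (a₁ S.vac))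
      (⟪S.vac, y₁ S.vac⟫_ℂ • S.vac) < ε / 2 := (Metric.tendsto_nhds.mp ha₁') _ hε2
  have f2 : ∀ᶠ N : ℕ in atTop, dist (ERG.avg S.D (Real.sqrt 2) N (a₂ S.vac))
      (⟪S.vac, y₂ S.vac⟫_ℂ • S.vac) < ε / 2 := (Metric.tendsto_nhds.mp ha₂') _ hε2
  obtain ⟨N₂, hN₂a, hN₂b, hN₂pos⟩ := (f1.and (f2.and (eventually_gt_atTop 0))).exists
  have key : ∀ (y a : H →L[ℂ] H),
      dist (ERG.avg S.D 1 N₁ (y S.vac)) (a S.vac) < ε / 2 →
      dist (ERG.avg S.D (Real.sqrt 2) N₂ (a S.vac)) (⟪S.vac, y S.vac⟫_ℂ • S.vac) < ε / 2 →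
      ‖((N₁ * N₂ : ℕ) : ℂ)⁻¹ • ∑ k : Fin (N₁ * N₂),
        S.D.wave (((finProdFinEquiv.symm k).1 : ℕ) * 1 +
          ((finProdFinEquiv.symm k).2 : ℕ) * Real.sqrt 2) (y S.vac) -
        ⟪S.vac, y S.vac⟫_ℂ • S.vac‖ ≤ ε := by
    intro y a h1 h2
    rw [← ERG.avg_avg]
    rw [dist_eq_norm] at h1 h2
    have h3 : ‖ERG.avg S.D (Real.sqrt 2) N₂ (ERG.avg S.D 1 N₁ (y S.vac) - a S.vac)‖ < ε / 2 :=
      lt_of_le_of_lt (ERG.norm_avg_apply_le _ _ _ _) h1
    have e : ERG.avg S.D (Real.sqrt 2) N₂ (ERG.avg S.D 1 N₁ (y S.vac)) -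
          ⟪S.vac, y S.vac⟫_ℂ • S.vac =
        ERG.avg S.D (Real.sqrt 2) N₂ (ERG.avg S.D 1 N₁ (y S.vac) - a S.vac) +
          (ERG.avg S.D (Real.sqrt 2) N₂ (a S.vac) - ⟪S.vac, y S.vac⟫_ℂ • S.vac) := by
      rw [map_sub]; abel
    rw [e]
    refine (norm_add_le _ _).trans ?_
    linarith
  exact ⟨N₁ * N₂, _, Nat.mul_pos hN₁pos hN₂pos, key y₁ a₁ hN₁a hN₂a, key y₂ a₂ hN₁b hN₂b⟩

end Crest.Agent.LibS0112
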