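import Mathlib
import Crest.Prelude.Def_ModularData
import Crest.Agent.Lib_S0112_Calc_h24

/-!
# S0112, package MEAN (helper1)

The ω-mean `ultraMean ω F = limUnder ω (windowMean F)` on bounded continuous real functions
(a positive, additive, homogeneous, shift-invariant functional) and the quadratic form
`qform ω T D x = ultraMean ω (t ↦ ‖T (exp(itD) x)‖²)`.
-/

set_option autoImplicit false

open Crest Crest.OpAlg Filter MeasureTheory
open scoped Topology ComplexConjugate InnerProductSpace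

universe u

namespace Crest.Agent.LibS0112

variable {H : Type u} [NormedAddCommGroup H] [InnerProductSpace ℂ H] [CompleteSpace H]

namespace MEAN

/-- Bounded continuous real functions (the only ones the mean is used on). -/
def Good (F : ℝ → ℝ) : Prop := Continuous F ∧ ∃ B : ℝ, ∀ t, |F t| ≤ B

theorem Good.add {F G : ℝ → ℝ} (hF : Good F) (hG : Good G) : Good (fun t => F t + G t) := by
  obtain ⟨hFc, B, hB⟩ := hF
  obtain ⟨hGc, C, hC⟩ := hG
  exact ⟨hFc.add hGc, B + C, fun t => (abs_add_le _ _).trans (add_le_add (hB t) (hC t))⟩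

theorem Good.const_mul {F : ℝ → ℝ} (hF : Good F) (c : ℝ) : Good (fun t => c * F t) := by
  obtain ⟨hFc, B, hB⟩ := hF
  refine ⟨continuous_const.mul hFc, |c| * B, fun t => ?_⟩
  rw [abs_mul]
  exact mul_le_mul_of_nonneg_left (hB t) (abs_nonneg c)

theorem Good.zero : Good (fun _ => (0 : ℝ)) := ⟨continuous_const, 0, fun _ => by simp⟩

theorem Good.sum {ι : Type*} (s : Finset ι) {F : ι → ℝ → ℝ} (hF : ∀ i ∈ s, Good (F i)) :
    Good (fun t => ∑ i ∈ s, F i t) := by
  classical
  induction s using Finset.induction_on with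
  | empty => simpa using Good.zero
  | insert a s ha ih =>
    have h1 : Good (F a) := hF a (Finset.mem_insert_self a s)
    have h2 : Good (fun t => ∑ i ∈ s, F i t) :=
      ih fun i hi => hF i (Finset.mem_insert_of_mem hi)
    have := h1.add h2
    refine (by simpa [Finset.sum_insert ha] using this)

theorem Good.comp_add_right {F : ℝ → ℝ} (hF : Good F) (r : ℝ) : Good (fun t => F (t + r)) := by
  obtain ⟨hFc, B, hB⟩ := hF
  exact ⟨hFc.comp (continuous_id.add continuous_const), B, fun t => hB (t + r)⟩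

theorem windowMean_eq (F : ℝ → ℝ) (k : ℕ) :
    windowMean F k = (2 * (k : ℝ))⁻¹ * ∫ t in (-(k : ℝ))..(k : ℝ), F t := by
  have hk : -(k : ℝ) ≤ (k : ℝ) := by linarith [Nat.cast_nonneg (α := ℝ) k]
  unfold windowMean
  rw [setAverage_eq, intervalIntegral.integral_of_le hk, integral_Icc_eq_integral_Ioc,
    smul_eq_mul, Real.volume_real_Icc_of_le hk]
  congr 2
  ring

theorem windowMean_zero (F : ℝ → ℝ) : windowMean F 0 = 0 := by
  rw [windowMean_eq]; simp

theorem abs_windowMean_le {F : ℝ → ℝ} {B : ℝ} (hB : ∀ t, |F t| ≤ B) (k : ℕ) :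
    |windowMean F k| ≤ B := by
  have hB0 : 0 ≤ B := (abs_nonneg _).trans (hB 0)
  rcases Nat.eq_zero_or_pos k with rfl | hk
  · rw [windowMean_zero]; simpa using hB0
  have hk' : (0 : ℝ) < k := Nat.cast_pos.mpr hk
  rw [windowMean_eq, abs_mul, abs_inv, abs_of_pos (by positivity : (0 : ℝ) < 2 * k)]
  have h1 : |∫ t in (-(k : ℝ))..(k : ℝ), F t| ≤ B * |(k : ℝ) - (-(k : ℝ))| := by
    have := intervalIntegral.norm_integral_le_of_norm_le_const (a := -(k : ℝ)) (b := (k : ℝ))
      (f := F) (C := B) (fun x _ => by simpa using hB x)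
    simpa using this
  have h2 : |(k : ℝ) - (-(k : ℝ))| = 2 * k := by
    rw [abs_of_nonneg (by linarith)]; ring
  rw [h2] at h1
  rw [inv_mul_le_iff₀ (by positivity)]
  linarith

theorem windowMean_add {F G : ℝ → ℝ} (hF : Continuous F) (hG : Continuous G) (k : ℕ) :
    windowMean (fun t => F t + G t) k = windowMean F k + windowMean G k := by
  rw [windowMean_eq, windowMean_eq, windowMean_eq,
    intervalIntegral.integral_add (hF.intervalIntegrable _ _) (hG.intervalIntegrable _ _)]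
  ring

theorem windowMean_const_mul (F : ℝ → ℝ) (c : ℝ) (k : ℕ) :
    windowMean (fun t => c * F t) k = c * windowMean F k := by
  rw [windowMean_eq, windowMean_eq, intervalIntegral.integral_const_mul]
  ring

theorem windowMean_mono {F G : ℝ → ℝ} (hF : Continuous F) (hG : Continuous G)
    (h : ∀ t, F t ≤ G t) (k : ℕ) : windowMean F k ≤ windowMean G k := by
  have hk : -(k : ℝ) ≤ (k : ℝ) := by linarith [Nat.cast_nonneg (α := ℝ) k]
  rw [windowMean_eq, windowMean_eq]
  refine mul_le_mul_of_nonneg_left ?_ (by positivity)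
  exact intervalIntegral.integral_mono_on hk (hF.intervalIntegrable _ _)
    (hG.intervalIntegrable _ _) fun x _ => h x

theorem windowMean_nonneg {F : ℝ → ℝ} (h : ∀ t, 0 ≤ F t) (k : ℕ) : 0 ≤ windowMean F k := by
  have hk : -(k : ℝ) ≤ (k : ℝ) := by linarith [Nat.cast_nonneg (α := ℝ) k]
  rw [windowMean_eq]
  exact mul_nonneg (by positivity) (intervalIntegral.integral_nonneg hk fun x _ => h x)

theorem windowMean_le_const {F : ℝ → ℝ} (hF : Continuous F) {a : ℝ} (ha : 0 ≤ a)
    (h : ∀ t, F t ≤ a) (k : ℕ) : windowMean F k ≤ a := by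
  rcases Nat.eq_zero_or_pos k with rfl | hk
  · rw [windowMean_zero]; exact ha
  have hk' : (0 : ℝ) < k := Nat.cast_pos.mpr hk
  have hle : -(k : ℝ) ≤ (k : ℝ) := by linarith
  rw [windowMean_eq]
  have h1 : ∫ t in (-(k : ℝ))..(k : ℝ), F t ≤ ∫ _t in (-(k : ℝ))..(k : ℝ), a :=
    intervalIntegral.integral_mono_on hle (hF.intervalIntegrable _ _)
      (continuous_const.intervalIntegrable _ _) fun x _ => h x
  rw [intervalIntegral.integral_const, smul_eq_mul] at h1
  rw [inv_mul_le_iff₀ (by positivity)]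
  linarith

/-- A bounded real sequence converges along an ultrafilter. -/
theorem exists_tendsto_of_bounded (ω : Ultrafilter ℕ) (u : ℕ → ℝ) (B : ℝ)
    (h : ∀ k, |u k| ≤ B) : ∃ L : ℝ, Tendsto u (ω : Filter ℕ) (𝓝 L) := by
  have hle : ((ω.map u : Ultrafilter ℝ) : Filter ℝ) ≤ 𝓟 (Set.Icc (-B) B) := by
    rw [Ultrafilter.coe_map, le_principal_iff, mem_map]
    exact Filter.Eventually.of_forall fun k => abs_le.mp (h k)
  obtain ⟨L, -, hL⟩ := isCompact_Icc.ultrafilter_le_nhds (ω.map u) hle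
  exact ⟨L, hL⟩

/-- For a bounded continuous function the ω-mean is the genuine ω-limit of the window means. -/
theorem tendsto_windowMean (ω : Ultrafilter ℕ) {F : ℝ → ℝ} (hF : Good F) :
    Tendsto (windowMean F) (ω : Filter ℕ) (𝓝 (ultraMean ω F)) := by
  obtain ⟨-, B, hB⟩ := hF
  obtain ⟨L, hL⟩ := exists_tendsto_of_bounded ω (windowMean F) B (abs_windowMean_le hB)
  have : ultraMean ω F = L := hL.limUnder_eq
  rw [this]; exact hL

theorem ultraMean_eq_of_tendsto (ω : Ultrafilter ℕ) {F : ℝ → ℝ} {L : ℝ}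
    (h : Tendsto (windowMean F) (ω : Filter ℕ) (𝓝 L)) : ultraMean ω F = L :=
  h.limUnder_eq

theorem ultraMean_add (ω : Ultrafilter ℕ) {F G : ℝ → ℝ} (hF : Good F) (hG : Good G) :
    ultraMean ω (fun t => F t + G t) = ultraMean ω F + ultraMean ω G := by
  apply ultraMean_eq_of_tendsto
  have h := (tendsto_windowMean ω hF).add (tendsto_windowMean ω hG)
  refine h.congr fun k => ?_
  rw [windowMean_add hF.1 hG.1]

theorem ultraMean_const_mul (ω : Ultrafilter ℕ) {F : ℝ → ℝ} (hF : Good F) (c : ℝ) :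
    ultraMean ω (fun t => c * F t) = c * ultraMean ω F := by
  apply ultraMean_eq_of_tendsto
  have h := (tendsto_windowMean ω hF).const_mul c
  refine h.congr fun k => ?_
  rw [windowMean_const_mul]

theorem ultraMean_zero (ω : Ultrafilter ℕ) : ultraMean ω (fun _ => (0 : ℝ)) = 0 := by
  apply ultraMean_eq_of_tendsto
  have : windowMean (fun _ => (0 : ℝ)) = fun _ => 0 := by
    funext k
    rw [windowMean_eq]; simp
  rw [this]; exact tendsto_const_nhds

theorem ultraMean_sum (ω : Ultrafilter ℕ) {ι : Type*} (s : Finset ι) {F : ι → ℝ → ℝ}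
    (hF : ∀ i ∈ s, Good (F i)) :
    ultraMean ω (fun t => ∑ i ∈ s, F i t) = ∑ i ∈ s, ultraMean ω (F i) := by
  classical
  induction s using Finset.induction_on with
  | empty => simpa using ultraMean_zero ω
  | insert a s ha ih =>
    have h1 : Good (F a) := hF a (Finset.mem_insert_self a s)
    have h2 : Good (fun t => ∑ i ∈ s, F i t) :=
      Good.sum s fun i hi => hF i (Finset.mem_insert_of_mem hi)
    have h3 := ultraMean_add ω h1 h2
    rw [Finset.sum_insert ha, ← ih fun i hi => hF i (Finset.mem_insert_of_mem hi), ← h3]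
    congr 1
    funext t
    rw [Finset.sum_insert ha]

theorem ultraMean_mono (ω : Ultrafilter ℕ) {F G : ℝ → ℝ} (hF : Good F) (hG : Good G)
    (h : ∀ t, F t ≤ G t) : ultraMean ω F ≤ ultraMean ω G :=
  le_of_tendsto_of_tendsto' (tendsto_windowMean ω hF) (tendsto_windowMean ω hG)
    (windowMean_mono hF.1 hG.1 h)

theorem ultraMean_nonneg (ω : Ultrafilter ℕ) {F : ℝ → ℝ} (hF : Good F) (h : ∀ t, 0 ≤ F t) :
    0 ≤ ultraMean ω F :=
  ge_of_tendsto' (tendsto_windowMean ω hF) (windowMean_nonneg h)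

theorem ultraMean_le_const (ω : Ultrafilter ℕ) {F : ℝ → ℝ} (hF : Good F) {a : ℝ} (ha : 0 ≤ a)
    (h : ∀ t, F t ≤ a) : ultraMean ω F ≤ a :=
  le_of_tendsto' (tendsto_windowMean ω hF) (windowMean_le_const hF.1 ha h)

/-- The window means of a bounded continuous function and of its translate differ by
at most `|r| B / k`. -/
theorem abs_windowMean_shift_sub_le {F : ℝ → ℝ} (hF : Continuous F) {B : ℝ}
    (hB : ∀ t, |F t| ≤ B) (r : ℝ) (k : ℕ) (hk : 0 < k) :
    |windowMean (fun t => F (t + r)) k - windowMean F k| ≤ |r| * B / k := by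
  have hk' : (0 : ℝ) < k := Nat.cast_pos.mpr hk
  rw [windowMean_eq, windowMean_eq, ← mul_sub, intervalIntegral.integral_comp_add_right,
    intervalIntegral.integral_interval_sub_interval_comm (hF.intervalIntegrable _ _)
      (hF.intervalIntegrable _ _) (hF.intervalIntegrable _ _)]
  have h1 : |∫ t in (-(k : ℝ) + r)..(-(k : ℝ)), F t| ≤ B * |r| := by
    have := intervalIntegral.norm_integral_le_of_norm_le_const (a := -(k : ℝ) + r)
      (b := -(k : ℝ)) (f := F) (C := B) (fun x _ => by simpa using hB x)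
    have e : |(-(k : ℝ)) - (-(k : ℝ) + r)| = |r| := by
      rw [show (-(k : ℝ)) - (-(k : ℝ) + r) = -r by ring, abs_neg]
    rw [e] at this
    simpa using this
  have h2 : |∫ t in ((k : ℝ) + r)..(k : ℝ), F t| ≤ B * |r| := by
    have := intervalIntegral.norm_integral_le_of_norm_le_const (a := (k : ℝ) + r)
      (b := (k : ℝ)) (f := F) (C := B) (fun x _ => by simpa using hB x)
    have e : |(k : ℝ) - ((k : ℝ) + r)| = |r| := by
      rw [show (k : ℝ) - ((k : ℝ) + r) = -r by ring, abs_neg]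
    rw [e] at this
    simpa using this
  rw [abs_mul, abs_inv, abs_of_pos (by positivity : (0 : ℝ) < 2 * k)]
  have h3 := abs_sub (∫ t in (-(k : ℝ) + r)..(-(k : ℝ)), F t) (∫ t in ((k : ℝ) + r)..(k : ℝ), F t)
  rw [inv_mul_le_iff₀ (by positivity)]
  have e : 2 * (k : ℝ) * (|r| * B / k) = 2 * (B * |r|) := by
    field_simp
  rw [e]
  linarith

theorem ultraMean_shift (ω : Ultrafilter ℕ) (hω : (ω : Filter ℕ) ≤ Filter.atTop) {F : ℝ → ℝ}
    (hF : Good F) (r : ℝ) : ultraMean ω (fun t => F (t + r)) = ultraMean ω F := by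
  obtain ⟨hFc, B, hB⟩ := hF
  apply ultraMean_eq_of_tendsto
  have hdiff : Tendsto (fun k : ℕ => windowMean (fun t => F (t + r)) k - windowMean F k)
      Filter.atTop (𝓝 0) := by
    have hlim : Tendsto (fun k : ℕ => |r| * B / (k : ℝ)) Filter.atTop (𝓝 0) :=
      tendsto_const_div_atTop_nhds_zero_nat (|r| * B)
    refine squeeze_zero_norm' ?_ hlim
    filter_upwards [Filter.eventually_gt_atTop 0] with k hk
    rw [Real.norm_eq_abs]
    exact abs_windowMean_shift_sub_le hFc hB r k hk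
  have h := (hdiff.mono_left hω).add (tendsto_windowMean ω (F := F) ⟨hFc, B, hB⟩)
  rw [zero_add] at h
  refine h.congr fun k => ?_
  ring

/-- The functions the quadratic form averages. -/
theorem good_sq (T : H →L[ℂ] H) (D : LineCalculus H) (x : H) :
    Good (fun t : ℝ => ‖T (D.wave t x)‖ ^ 2) := by
  refine ⟨((T.continuous.comp (continuous_wave D x)).norm).pow 2, ‖T‖ ^ 2 * ‖x‖ ^ 2, fun t => ?_⟩
  rw [abs_of_nonneg (by positivity), ← mul_pow]
  have h : ‖T (D.wave t x)‖ ≤ ‖T‖ * ‖x‖ := by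
    have := T.le_opNorm (D.wave t x)
    rwa [norm_wave_apply] at this
  exact pow_le_pow_left₀ (norm_nonneg _) h 2

theorem sq_le (T : H →L[ℂ] H) (D : LineCalculus H) (x : H) (t : ℝ) :
    ‖T (D.wave t x)‖ ^ 2 ≤ ‖T‖ ^ 2 * ‖x‖ ^ 2 := by
  rw [← mul_pow]
  have h : ‖T (D.wave t x)‖ ≤ ‖T‖ * ‖x‖ := by
    have := T.le_opNorm (D.wave t x)
    rwa [norm_wave_apply] at this
  exact pow_le_pow_left₀ (norm_nonneg _) h 2

omit [CompleteSpace H] in
theorem inner_self_ofReal (v : H) : ⟪v, v⟫_ℂ = ((‖v‖ ^ 2 : ℝ) : ℂ) := by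
  rw [inner_self_eq_norm_sq_to_K]; simp

omit [CompleteSpace H] in
/-- Orthogonality relations turn the sum of squared norms of phased combinations into a
multiple of the sum of squared norms. -/
theorem sum_norm_sq_phase {Ω : Type} [Fintype Ω] {N : ℕ} (c : Ω → Fin N → ℂ)
    (hc : ∀ k l, ∑ w, c w k * conj (c w l) = if k = l then (Fintype.card Ω : ℂ) else 0)
    (y : Fin N → H) :
    ∑ w, ‖∑ k, c w k • y k‖ ^ 2 = (Fintype.card Ω : ℝ) * ∑ k, ‖y k‖ ^ 2 := by
  have hc' : ∀ k l, ∑ w, conj (c w k) * c w l = if k = l then (Fintype.card Ω : ℂ) else 0 := by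
    intro k l
    have h := congrArg (starRingEnd ℂ) (hc k l)
    rw [map_sum] at h
    simp only [map_mul, Complex.conj_conj] at h
    rw [h]
    split_ifs <;> simp
  have key : ∀ w, ((‖∑ k, c w k • y k‖ ^ 2 : ℝ) : ℂ) =
      ∑ k, ∑ l, conj (c w k) * c w l * ⟪y k, y l⟫_ℂ := by
    intro w
    rw [← inner_self_ofReal, sum_inner]
    refine Finset.sum_congr rfl fun k _ => ?_
    rw [inner_sum]
    refine Finset.sum_congr rfl fun l _ => ?_
    rw [inner_smul_left, inner_smul_right]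
    ring
  have hC : ((∑ w, ‖∑ k, c w k • y k‖ ^ 2 : ℝ) : ℂ) =
      (((Fintype.card Ω : ℝ) * ∑ k, ‖y k‖ ^ 2 : ℝ) : ℂ) := by
    rw [Complex.ofReal_sum]
    simp_rw [key]
    rw [Finset.sum_comm]
    have : ∀ k, ∑ w, ∑ l, conj (c w k) * c w l * ⟪y k, y l⟫_ℂ =
        (Fintype.card Ω : ℂ) * ((‖y k‖ ^ 2 : ℝ) : ℂ) := by
      intro k
      rw [Finset.sum_comm]
      have h2 : ∀ l, ∑ w, conj (c w k) * c w l * ⟪y k, y l⟫_ℂ =
          (if k = l then (Fintype.card Ω : ℂ) else 0) * ⟪y k, y l⟫_ℂ := by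
        intro l
        rw [← Finset.sum_mul, hc']
      simp_rw [h2]
      rw [Finset.sum_eq_single k]
      · rw [if_pos rfl, inner_self_ofReal]
      · intro l _ hl
        rw [if_neg (Ne.symm hl), zero_mul]
      · intro h; exact absurd (Finset.mem_univ k) h
    simp_rw [this]
    rw [← Finset.mul_sum]
    push_cast
    rfl
  exact_mod_cast hC

end MEAN

open MEAN

/-- The ω-mean of `t ↦ ‖T (exp(itD) x)‖²`. -/
noncomputable def qform (ω : Ultrafilter ℕ) (T : H →L[ℂ] H) (D : LineCalculus H) (x : H) : ℝ :=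
  ultraMean ω (fun t : ℝ => ‖T (D.wave t x)‖ ^ 2)

theorem qform_nonneg (ω : Ultrafilter ℕ) (T : H →L[ℂ] H) (D : LineCalculus H) (x : H) :
    0 ≤ qform ω T D x :=
  ultraMean_nonneg ω (good_sq T D x) fun _ => by positivity

theorem qform_le (ω : Ultrafilter ℕ) (T : H →L[ℂ] H) (D : LineCalculus H) (x : H) :
    qform ω T D x ≤ ‖T‖ ^ 2 * ‖x‖ ^ 2 :=
  ultraMean_le_const ω (good_sq T D x) (by positivity) (sq_le T D x)

theorem qform_le_two (ω : Ultrafilter ℕ) (T : H →L[ℂ] H) (D : LineCalculus H) (x y : H) :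
    qform ω T D x ≤ 2 * qform ω T D y + 2 * ‖T‖ ^ 2 * ‖x - y‖ ^ 2 := by
  have hG : Good (fun t : ℝ => 2 * ‖T (D.wave t y)‖ ^ 2 + 2 * ‖T (D.wave t (x - y))‖ ^ 2) :=
    ((good_sq T D y).const_mul 2).add ((good_sq T D (x - y)).const_mul 2)
  have h1 : qform ω T D x ≤
      ultraMean ω (fun t : ℝ => 2 * ‖T (D.wave t y)‖ ^ 2 + 2 * ‖T (D.wave t (x - y))‖ ^ 2) := by
    refine ultraMean_mono ω (good_sq T D x) hG fun t => ?_
    have e : T (D.wave t x) = T (D.wave t y) + T (D.wave t (x - y)) := by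
      rw [← map_add, ← map_add]; congr 2; abel
    rw [e]
    have h := norm_add_le (T (D.wave t y)) (T (D.wave t (x - y)))
    have h0 := norm_nonneg (T (D.wave t y) + T (D.wave t (x - y)))
    nlinarith [sq_nonneg (‖T (D.wave t y)‖ - ‖T (D.wave t (x - y))‖)]
  have h2 : ultraMean ω
      (fun t : ℝ => 2 * ‖T (D.wave t y)‖ ^ 2 + 2 * ‖T (D.wave t (x - y))‖ ^ 2) =
      2 * qform ω T D y + 2 * qform ω T D (x - y) := by
    rw [ultraMean_add ω ((good_sq T D y).const_mul 2) ((good_sq T D (x - y)).const_mul 2),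
      ultraMean_const_mul ω (good_sq T D y), ultraMean_const_mul ω (good_sq T D (x - y))]
    rfl
  have h3 := qform_le ω T D (x - y)
  linarith

theorem qform_smul (ω : Ultrafilter ℕ) (T : H →L[ℂ] H) (D : LineCalculus H) (c : ℂ) (x : H) :
    qform ω T D (c • x) = ‖c‖ ^ 2 * qform ω T D x := by
  have e : (fun t : ℝ => ‖T (D.wave t (c • x))‖ ^ 2) =
      fun t : ℝ => ‖c‖ ^ 2 * ‖T (D.wave t x)‖ ^ 2 := by
    funext t
    rw [map_smul, map_smul, norm_smul, mul_pow]
  unfold qform
  rw [e, ultraMean_const_mul ω (good_sq T D x)]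

theorem qform_wave (ω : Ultrafilter ℕ) (hω : (ω : Filter ℕ) ≤ Filter.atTop) (T : H →L[ℂ] H)
    (D : LineCalculus H) (r : ℝ) (x : H) : qform ω T D (D.wave r x) = qform ω T D x := by
  have e : (fun t : ℝ => ‖T (D.wave t (D.wave r x))‖ ^ 2) =
      fun t : ℝ => (fun s : ℝ => ‖T (D.wave s x)‖ ^ 2) (t + r) := by
    funext t
    simp only [wave_wave]
  unfold qform
  rw [e]
  exact ultraMean_shift ω hω (good_sq T D x) r

theorem exists_lt_of_lt_qform (ω : Ultrafilter ℕ) (T : H →L[ℂ] H) (D : LineCalculus H) (x : H)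
    (a : ℝ) (ha : a < qform ω T D x) : ∃ t : ℝ, a < ‖T (D.wave t x)‖ ^ 2 := by
  by_contra hcon
  push Not at hcon
  have ha0 : 0 ≤ a := le_trans (by positivity) (hcon 0)
  have := ultraMean_le_const ω (good_sq T D x) ha0 hcon
  exact absurd ha (not_lt.mpr this)

theorem qform_avg (ω : Ultrafilter ℕ) (T : H →L[ℂ] H) (D : LineCalculus H) {Ω : Type}
    [Fintype Ω] {N : ℕ} (c : Ω → Fin N → ℂ)
    (hc : ∀ k l, ∑ w, c w k * conj (c w l) = if k = l then (Fintype.card Ω : ℂ) else 0)
    (x : Fin N → H) :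
    ∑ w, qform ω T D (∑ k, c w k • x k) = (Fintype.card Ω : ℝ) * ∑ k, qform ω T D (x k) := by
  have hpt : ∀ t : ℝ, ∑ w, ‖T (D.wave t (∑ k, c w k • x k))‖ ^ 2 =
      (Fintype.card Ω : ℝ) * ∑ k, ‖T (D.wave t (x k))‖ ^ 2 := by
    intro t
    have := sum_norm_sq_phase c hc (fun k => T (D.wave t (x k)))
    rw [← this]
    refine Finset.sum_congr rfl fun w _ => ?_
    congr 2
    simp only [map_sum, map_smul]
  unfold qform
  rw [← ultraMean_sum ω Finset.univ (F := fun w t => ‖T (D.wave t (∑ k, c w k • x k))‖ ^ 2)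
    fun w _ => good_sq T D _,
    ← ultraMean_sum ω Finset.univ (F := fun k t => ‖T (D.wave t (x k))‖ ^ 2)
    fun k _ => good_sq T D _,
    ← ultraMean_const_mul ω (Good.sum Finset.univ fun k _ => good_sq T D (x k))]
  congr 1
  funext t
  exact hpt t

end Crest.Agent.LibS0112
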