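import Crest.Agent.Lib_S0112_Calc_h24

set_option autoImplicit false

open Crest Crest.OpAlg Filter MeasureTheory
open scoped Topology ComplexConjugate InnerProductSpace

universe u

namespace Crest.Agent.LibS0112

variable {H : Type u} [NormedAddCommGroup H] [InnerProductSpace ℂ H] [CompleteSpace H]

/-- Random cube-root-of-unity phases: the `k`-th phase of the sign pattern `w`. -/
noncomputable def phase {N : ℕ} (w : Fin N → ZMod 3) (k : Fin N) : ℂ :=
  Complex.exp (2 * Real.pi * Complex.I / 3) ^ (w k).val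

namespace PHASE

theorem zeta_prim : IsPrimitiveRoot (Complex.exp (2 * Real.pi * Complex.I / 3)) 3 := by
  simpa using Complex.isPrimitiveRoot_exp 3 (by norm_num)

theorem zeta_pow_three : Complex.exp (2 * Real.pi * Complex.I / 3) ^ 3 = 1 :=
  zeta_prim.pow_eq_one

theorem zeta_ne_one : Complex.exp (2 * Real.pi * Complex.I / 3) ≠ 1 :=
  zeta_prim.ne_one (by norm_num)

theorem zeta_sq_ne_one : Complex.exp (2 * Real.pi * Complex.I / 3) ^ 2 ≠ 1 :=
  zeta_prim.pow_ne_one_of_pos_of_lt (by norm_num) (by norm_num)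

theorem conj_zeta_ne_one : conj (Complex.exp (2 * Real.pi * Complex.I / 3)) ≠ 1 := by
  intro h
  apply zeta_ne_one
  have := congrArg conj h
  simpa using this

theorem conj_zeta_sq_ne_one : conj (Complex.exp (2 * Real.pi * Complex.I / 3)) ^ 2 ≠ 1 := by
  intro h
  apply zeta_sq_ne_one
  have := congrArg conj h
  simpa using this

theorem norm_zeta : ‖Complex.exp (2 * Real.pi * Complex.I / 3)‖ = 1 :=
  Complex.norm_eq_one_of_pow_eq_one zeta_pow_three (by norm_num)

theorem val_add_one (a : ZMod 3) : (a + 1).val = (a.val + 1) % 3 := by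
  revert a; decide

theorem zeta_pow_val_succ (a : ZMod 3) :
    Complex.exp (2 * Real.pi * Complex.I / 3) ^ (a + 1).val =
      Complex.exp (2 * Real.pi * Complex.I / 3) *
        Complex.exp (2 * Real.pi * Complex.I / 3) ^ a.val := by
  rw [val_add_one, ← pow_eq_pow_mod _ zeta_pow_three, pow_succ, mul_comm]

theorem phase_add_single {N : ℕ} (w : Fin N → ZMod 3) (i j : Fin N) :
    phase (w + Pi.single i 1) j =
      (if j = i then Complex.exp (2 * Real.pi * Complex.I / 3) else 1) * phase w j := by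
  unfold phase
  by_cases h : j = i
  · subst h
    rw [if_pos rfl, Pi.add_apply, Pi.single_eq_same, zeta_pow_val_succ]
  · rw [if_neg h, Pi.add_apply, Pi.single_eq_of_ne h, add_zero, one_mul]

theorem sum_eq_zero_of_shift {N : ℕ} (F : (Fin N → ZMod 3) → ℂ) (i : Fin N) (c : ℂ)
    (hc : c ≠ 1) (hF : ∀ w, F (w + Pi.single i 1) = c * F w) : ∑ w, F w = 0 := by
  have h1 : ∑ w, F (w + Pi.single i 1) = ∑ w, F w :=
    Fintype.sum_equiv (Equiv.addRight (Pi.single i (1 : ZMod 3))) _ _ (fun w => rfl)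
  simp_rw [hF, ← Finset.mul_sum] at h1
  have h2 : (c - 1) * ∑ w, F w = 0 := by rw [sub_mul, h1, one_mul, sub_self]
  exact (mul_eq_zero.mp h2).resolve_left (sub_ne_zero.mpr hc)

end PHASE

theorem norm_phase {N : ℕ} (w : Fin N → ZMod 3) (k : Fin N) : ‖phase w k‖ = 1 := by
  unfold phase
  rw [norm_pow, PHASE.norm_zeta, one_pow]

namespace PHASE

theorem phase_mul_conj {N : ℕ} (w : Fin N → ZMod 3) (k : Fin N) :
    phase w k * conj (phase w k) = 1 := by
  rw [Complex.mul_conj, Complex.normSq_eq_norm_sq, norm_phase]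
  norm_num

theorem conj_phase_mul {N : ℕ} (w : Fin N → ZMod 3) (k : Fin N) :
    conj (phase w k) * phase w k = 1 := by
  rw [mul_comm, phase_mul_conj]

end PHASE

theorem phase_orth {N : ℕ} (k l : Fin N) :
    ∑ w : Fin N → ZMod 3, phase w k * conj (phase w l) =
      if k = l then (Fintype.card (Fin N → ZMod 3) : ℂ) else 0 := by
  split_ifs with h
  · subst h
    simp only [PHASE.phase_mul_conj]
    simp
  · refine PHASE.sum_eq_zero_of_shift _ k _ PHASE.zeta_ne_one fun w => ?_
    rw [PHASE.phase_add_single, PHASE.phase_add_single, if_pos rfl,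
      if_neg (fun h' => h h'.symm), one_mul]
    ring

namespace PHASE

theorem offdiag_orth {N : ℕ} (k l k' l' : Fin N) (hkl : k ≠ l) (hkl' : k' ≠ l')
    (hne : ¬ (k = k' ∧ l = l')) :
    ∑ w : Fin N → ZMod 3,
      (conj (phase w k) * phase w l) * conj (conj (phase w k') * phase w l') = 0 := by
  by_cases hk : k = k'
  · subst hk
    have hl : ¬ l' = l := fun h => hne ⟨rfl, h.symm⟩
    refine sum_eq_zero_of_shift _ l _ zeta_ne_one fun w => ?_
    simp only [phase_add_single, if_neg hkl, if_neg hl, ↓reduceIte, one_mul]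
    ring
  · have hlk : ¬ l = k := fun h => hkl h.symm
    have hk'k : ¬ k' = k := fun h => hk h.symm
    by_cases hl' : l' = k
    · refine sum_eq_zero_of_shift _ k _ conj_zeta_sq_ne_one fun w => ?_
      simp only [phase_add_single, if_neg hlk, if_neg hk'k, if_pos hl', ↓reduceIte, one_mul,
        map_mul, Complex.conj_conj]
      ring
    · refine sum_eq_zero_of_shift _ k _ conj_zeta_ne_one fun w => ?_
      simp only [phase_add_single, if_neg hlk, if_neg hk'k, if_neg hl', ↓reduceIte, one_mul,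
        map_mul, Complex.conj_conj]
      ring

/-- Parseval for an orthonormal system of coefficient functions on a finite probability space. -/
theorem sum_norm_sq_orth {Ω ι : Type*} [Fintype Ω] [Fintype ι] [DecidableEq ι] (c : Ω → ι → ℂ)
    (hc : ∀ i j, ∑ w, c w i * conj (c w j) = if i = j then (Fintype.card Ω : ℂ) else 0)
    (y : ι → H) :
    ∑ w, ‖∑ i, c w i • y i‖ ^ 2 = (Fintype.card Ω : ℝ) * ∑ i, ‖y i‖ ^ 2 := by
  have hn : ∀ v : H, ((‖v‖ ^ 2 : ℝ) : ℂ) = ⟪v, v⟫_ℂ := by
    intro v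
    rw [inner_self_eq_norm_sq_to_K]
    norm_cast
  have key : ∀ w, ((‖∑ i, c w i • y i‖ ^ 2 : ℝ) : ℂ) =
      ∑ i, ∑ j, conj (c w i) * c w j * ⟪y i, y j⟫_ℂ := by
    intro w
    rw [hn, sum_inner]
    refine Finset.sum_congr rfl fun i _ => ?_
    rw [inner_sum]
    refine Finset.sum_congr rfl fun j _ => ?_
    rw [inner_smul_left, inner_smul_right]
    ring
  apply Complex.ofReal_injective
  rw [Complex.ofReal_sum]
  simp_rw [key]
  rw [Finset.sum_comm]
  have h1 : ∀ i, ∑ w, ∑ j, conj (c w i) * c w j * ⟪y i, y j⟫_ℂ =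
      (Fintype.card Ω : ℂ) * ((‖y i‖ ^ 2 : ℝ) : ℂ) := by
    intro i
    rw [Finset.sum_comm]
    have h2 : ∀ j, ∑ w, conj (c w i) * c w j * ⟪y i, y j⟫_ℂ =
        (if j = i then (Fintype.card Ω : ℂ) else 0) * ⟪y i, y j⟫_ℂ := by
      intro j
      rw [← hc j i, Finset.sum_mul]
      refine Finset.sum_congr rfl fun w _ => ?_
      ring
    simp_rw [h2]
    rw [Finset.sum_eq_single i (fun j _ hj => by rw [if_neg hj, zero_mul])
      (fun h => absurd (Finset.mem_univ i) h), if_pos rfl, hn]
  simp_rw [h1]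
  rw [← Finset.mul_sum, Complex.ofReal_mul, Complex.ofReal_sum, Complex.ofReal_natCast]

theorem sum_sum_eq_diag_add_offdiag {N : ℕ} {M : Type*} [AddCommMonoid M]
    (f : Fin N → Fin N → M) :
    ∑ k, ∑ l, f k l =
      ∑ k, f k k + ∑ p : {p : Fin N × Fin N // p.1 ≠ p.2}, f p.1.1 p.1.2 := by
  classical
  rw [← Fintype.sum_prod_type' f,
    ← Finset.sum_filter_add_sum_filter_not Finset.univ (fun p : Fin N × Fin N => p.1 = p.2)]
  congr 1
  · rw [Finset.sum_filter, Fintype.sum_prod_type]
    refine Finset.sum_congr rfl fun k _ => ?_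
    simp
  · exact Finset.sum_subtype _ (by simp) _

end PHASE

theorem phase_fourth {N : ℕ} (W : Fin N → Fin N → H) :
    ∑ w : Fin N → ZMod 3, ‖∑ k, ∑ l, (conj (phase w k) * phase w l) • W k l‖ ^ 2 ≤
      (Fintype.card (Fin N → ZMod 3) : ℝ) * (‖∑ k, W k k‖ ^ 2 + ∑ k, ∑ l, ‖W k l‖ ^ 2) := by
  classical
  let c : (Fin N → ZMod 3) → Option {p : Fin N × Fin N // p.1 ≠ p.2} → ℂ := fun w o =>
    o.elim 1 (fun p => conj (phase w p.1.1) * phase w p.1.2)
  let y : Option {p : Fin N × Fin N // p.1 ≠ p.2} → H := fun o =>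
    o.elim (∑ k, W k k) (fun p => W p.1.1 p.1.2)
  have hc : ∀ i j, ∑ w, c w i * conj (c w j) =
      if i = j then (Fintype.card (Fin N → ZMod 3) : ℂ) else 0 := by
    rintro (_ | ⟨p, hp⟩) (_ | ⟨p', hp'⟩)
    · simp [c]
    · have h := phase_orth p'.1 p'.2
      rw [if_neg hp'] at h
      simpa [c] using h
    · have h := phase_orth p.2 p.1
      rw [if_neg (fun h' => hp h'.symm)] at h
      simpa [c, mul_comm] using h
    · by_cases h : p = p'
      · subst h
        have h1 : ∀ w : Fin N → ZMod 3, (conj (phase w p.1) * phase w p.2) *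
            conj (conj (phase w p.1) * phase w p.2) = 1 := by
          intro w
          rw [map_mul, Complex.conj_conj]
          calc conj (phase w p.1) * phase w p.2 * (phase w p.1 * conj (phase w p.2))
              = (phase w p.1 * conj (phase w p.1)) * (phase w p.2 * conj (phase w p.2)) := by
                ring
            _ = 1 := by rw [PHASE.phase_mul_conj, PHASE.phase_mul_conj, one_mul]
        simp only [c, Option.elim, h1]
        simp
      · have h2 : (some (⟨p, hp⟩ : {p : Fin N × Fin N // p.1 ≠ p.2}) =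
            some ⟨p', hp'⟩) ↔ False := by
          simp [h]
        rw [if_neg (by rw [h2]; exact not_false)]
        exact PHASE.offdiag_orth p.1 p.2 p'.1 p'.2 hp hp' (fun ⟨h1, h2⟩ => h (Prod.ext h1 h2))
  have h1 := PHASE.sum_norm_sq_orth c hc y
  have h2 : ∀ w, ∑ i, c w i • y i = ∑ k, ∑ l, (conj (phase w k) * phase w l) • W k l := by
    intro w
    rw [Fintype.sum_option, PHASE.sum_sum_eq_diag_add_offdiag]
    simp only [c, y, Option.elim, one_smul, PHASE.conj_phase_mul]
  have h3 : ∑ i, ‖y i‖ ^ 2 ≤ ‖∑ k, W k k‖ ^ 2 + ∑ k, ∑ l, ‖W k l‖ ^ 2 := by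
    rw [Fintype.sum_option, PHASE.sum_sum_eq_diag_add_offdiag]
    simp only [y, Option.elim]
    have : 0 ≤ ∑ k, ‖W k k‖ ^ 2 := Finset.sum_nonneg fun k _ => by positivity
    linarith
  simp_rw [← h2]
  rw [h1]
  exact mul_le_mul_of_nonneg_left h3 (Nat.cast_nonneg _)

end Crest.Agent.LibS0112
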