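import Crest.Agent.Lib_S0112_Calc_h24

set_option autoImplicit false

open Crest Crest.OpAlg Filter MeasureTheory
open scoped Topology ComplexConjugate InnerProductSpace FourierTransform SchwartzMap ContDiff

universe u

namespace Crest.Agent.LibS0112
namespace SMOOTH

/-- A smooth bump `g₀` (equal to `1` on `[-1,1]`, vanishing off `(-2,2)`, bounded by `1`)
together with an integrable continuous `f₀` (its Fourier transform) such that
`g₀ x = ∫ f₀ t · exp(2π i t x) dt`. -/
theorem exists_bump : ∃ (g₀ f₀ : ℝ → ℂ), Continuous g₀ ∧ Continuous f₀ ∧ Integrable f₀ ∧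
    (∀ x, ‖g₀ x‖ ≤ 1) ∧ (∀ x, |x| ≤ 1 → g₀ x = 1) ∧ (∀ x, 2 ≤ |x| → g₀ x = 0) ∧
    ∀ x, g₀ x = ∫ t, f₀ t * Complex.exp (Complex.I * ((2 * Real.pi * t * x : ℝ) : ℂ)) := by
  let b : ContDiffBump (0 : ℝ) := ⟨1, 2, one_pos, one_lt_two⟩
  have hsm : ContDiff ℝ ∞ (fun x : ℝ => ((b x : ℝ) : ℂ)) :=
    Complex.ofRealCLM.contDiff.comp b.contDiff
  have hcs : HasCompactSupport (fun x : ℝ => ((b x : ℝ) : ℂ)) :=
    b.hasCompactSupport.comp_left Complex.ofReal_zero
  let G : 𝓢(ℝ, ℂ) := hcs.toSchwartzMap hsm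
  have hG : ∀ x, G x = ((b x : ℝ) : ℂ) := fun x => rfl
  refine ⟨fun x => ((b x : ℝ) : ℂ), fun t => (𝓕 G) t, ?_, (𝓕 G).continuous, (𝓕 G).integrable,
    ?_, ?_, ?_, ?_⟩
  · exact Complex.continuous_ofReal.comp b.continuous
  · intro x
    rw [Complex.norm_real, Real.norm_eq_abs, abs_of_nonneg b.nonneg]
    exact b.le_one
  · intro x hx
    have : b x = 1 := b.one_of_mem_closedBall (by
      rw [Metric.mem_closedBall, Real.dist_eq, sub_zero]; exact hx)
    show ((b x : ℝ) : ℂ) = 1
    rw [this, Complex.ofReal_one]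
  · intro x hx
    have : b x = 0 := b.zero_of_le_dist (by
      rw [Real.dist_eq, sub_zero]; exact hx)
    show ((b x : ℝ) : ℂ) = 0
    rw [this, Complex.ofReal_zero]
  · intro x
    have h1 : 𝓕⁻ (𝓕 G) = G := FourierTransform.fourierInv_fourier_eq G
    have h2 : (𝓕⁻ (𝓕 G)) x = G x := by rw [h1]
    rw [SchwartzMap.fourierInv_coe, Real.fourierInv_eq'] at h2
    show ((b x : ℝ) : ℂ) = _
    rw [← hG x, ← h2]
    refine integral_congr_ae (Eventually.of_forall fun t => ?_)
    simp only [smul_eq_mul]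
    rw [mul_comm]
    congr 2
    simp [mul_comm, mul_assoc, mul_left_comm]

variable {H : Type u} [NormedAddCommGroup H] [InnerProductSpace ℂ H] [CompleteSpace H]

open LineCalculus

/-- The unitary group is jointly continuous in time and vector. -/
theorem continuous_wave_uncurry (D : LineCalculus H) :
    Continuous fun p : ℝ × H => D.wave p.1 p.2 := by
  rw [continuous_iff_continuousAt]
  rintro ⟨t₀, y₀⟩
  have h1 : Tendsto (fun p : ℝ × H => D.wave p.1 y₀) (𝓝 (t₀, y₀)) (𝓝 (D.wave t₀ y₀)) :=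
    ((continuous_wave D y₀).comp continuous_fst).tendsto (t₀, y₀)
  have h2 : Tendsto (fun p : ℝ × H => D.wave p.1 (p.2 - y₀)) (𝓝 (t₀, y₀)) (𝓝 0) := by
    rw [tendsto_zero_iff_norm_tendsto_zero]
    simp only [norm_wave_apply]
    have h3 : Tendsto (fun p : ℝ × H => p.2 - y₀) (𝓝 (t₀, y₀)) (𝓝 (y₀ - y₀)) :=
      ((continuous_snd.sub continuous_const).tendsto (t₀, y₀))
    rw [sub_self] at h3
    exact tendsto_zero_iff_norm_tendsto_zero.mp h3
  have h4 := h2.add h1
  rw [zero_add] at h4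
  refine h4.congr fun p => ?_
  rw [← map_add, sub_add_cancel]

theorem continuous_smul_wave (D : LineCalculus H) {φ : ℝ → ℂ} (hφc : Continuous φ) (c : ℝ)
    {F : ℝ → H} (hF : Continuous F) : Continuous fun t => φ t • D.wave (c * t) (F t) :=
  hφc.smul ((continuous_wave_uncurry D).comp ((continuous_const.mul continuous_id).prodMk hF))

theorem integrable_smul_wave (D : LineCalculus H) {φ : ℝ → ℂ} (hφ : Integrable φ)
    (hφc : Continuous φ) (c : ℝ) {F : ℝ → H} (hF : Continuous F) (B : ℝ)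
    (hB : ∀ t, ‖F t‖ ≤ B) : Integrable fun t => φ t • D.wave (c * t) (F t) := by
  refine Integrable.mono' (hφ.norm.mul_const B)
    (continuous_smul_wave D hφc c hF).aestronglyMeasurable (Eventually.of_forall fun t => ?_)
  rw [norm_smul, norm_wave_apply]
  exact mul_le_mul_of_nonneg_left (hB t) (norm_nonneg _)

theorem norm_character_le (t : ℝ) : ‖character t‖ ≤ 1 := by
  rw [BoundedContinuousFunction.norm_le zero_le_one]
  intro u
  simp only [character, BoundedContinuousFunction.coe_ofNormedAddCommGroup]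
  rw [Complex.norm_exp]
  simp

/-- Compatibility of the unitary group with the calculus, on a vector `k(D) x₀` with `k` of
compact support. -/
theorem integral_wave_apply_cpt (D : LineCalculus H) {φ : ℝ → ℂ} (hφ : Integrable φ)
    (hφc : Continuous φ) (c : ℝ) (g : BoundedContinuousFunction ℝ ℂ)
    (hg : ∀ u, g u = ∫ t, φ t * Complex.exp (Complex.I * ((c * t * u : ℝ) : ℂ)))
    (k : BoundedContinuousFunction ℝ ℂ) (R : ℝ) (hR : 0 ≤ R) (hk : ∀ u : ℝ, R < |u| → k u = 0)
    (x₀ : H) :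
    ∫ t, φ t • D.wave (c * t) (D.apply k x₀) = D.apply g (D.apply k x₀) := by
  have hlip : LipschitzWith (Real.toNNReal (R * ‖k‖)) fun τ : ℝ => character τ * k := by
    refine LipschitzWith.of_dist_le' fun τ τ₀ => ?_
    rw [dist_eq_norm, ← sub_mul, Real.dist_eq]
    have := norm_character_sub_mul_le τ τ₀ R hR k hk
    linarith
  have hchar : Continuous fun t : ℝ => character (c * t) * k :=
    hlip.continuous.comp (continuous_const.mul continuous_id)
  have hΦc : Continuous fun t : ℝ => φ t • (character (c * t) * k) := hφc.smul hchar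
  have hΦb : ∀ t : ℝ, ‖φ t • (character (c * t) * k)‖ ≤ ‖φ t‖ * ‖k‖ := by
    intro t
    rw [norm_smul]
    refine mul_le_mul_of_nonneg_left ?_ (norm_nonneg _)
    calc ‖character (c * t) * k‖ ≤ ‖character (c * t)‖ * ‖k‖ := norm_mul_le _ _
      _ ≤ 1 * ‖k‖ := mul_le_mul_of_nonneg_right (norm_character_le _) (norm_nonneg _)
      _ = ‖k‖ := one_mul _
  have hΦi : Integrable fun t : ℝ => φ t • (character (c * t) * k) :=
    Integrable.mono' (hφ.norm.mul_const ‖k‖) hΦc.aestronglyMeasurable (Eventually.of_forall hΦb)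
  have hint : ∫ t, φ t • (character (c * t) * k) = g * k := by
    ext u
    have h1 := (BoundedContinuousFunction.evalCLM ℂ u).integral_comp_comm hΦi
    rw [BoundedContinuousFunction.evalCLM_apply] at h1
    rw [← h1, BoundedContinuousFunction.mul_apply, hg u, ← integral_mul_const]
    refine integral_congr_ae (Eventually.of_forall fun t => ?_)
    simp only [BoundedContinuousFunction.evalCLM_apply, BoundedContinuousFunction.coe_smul,
      BoundedContinuousFunction.mul_apply, smul_eq_mul, character,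
      BoundedContinuousFunction.coe_ofNormedAddCommGroup]
    ring
  let L : BoundedContinuousFunction ℝ ℂ →L[ℂ] H :=
    LinearMap.mkContinuous
      { toFun := fun F => D.apply F x₀
        map_add' := fun F G => by rw [map_add]; rfl
        map_smul' := fun a F => by rw [map_smul]; rfl } ‖x₀‖
      (fun F => by
        rw [mul_comm]
        exact norm_apply_apply_le D F x₀)
  have hL : ∀ F, L F = D.apply F x₀ := fun F => rfl
  have h2 := L.integral_comp_comm hΦi
  rw [hint, hL, ← apply_apply] at h2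
  rw [← h2]
  refine integral_congr_ae (Eventually.of_forall fun t => ?_)
  show φ t • D.wave (c * t) (D.apply k x₀) = L (φ t • (character (c * t) * k))
  rw [map_smul, hL, ← apply_apply]
  rfl

/-- Compatibility of the unitary group with the calculus: if `g u = ∫ φ(t) e^{i c t u} dt`
then `g(D) x = ∫ φ(t) e^{i c t D} x dt`. -/
theorem integral_wave_apply (D : LineCalculus H) {φ : ℝ → ℂ} (hφ : Integrable φ)
    (hφc : Continuous φ) (c : ℝ) (g : BoundedContinuousFunction ℝ ℂ)
    (hg : ∀ u, g u = ∫ t, φ t * Complex.exp (Complex.I * ((c * t * u : ℝ) : ℂ))) (x : H) :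
    ∫ t, φ t • D.wave (c * t) x = D.apply g x := by
  have hI : ∀ y : H, Integrable fun t => φ t • D.wave (c * t) y := fun y =>
    integrable_smul_wave D hφ hφc c continuous_const ‖y‖ fun _ => le_rfl
  have hbd : ∀ y : H, ‖∫ t, φ t • D.wave (c * t) y‖ ≤ (∫ t, ‖φ t‖) * ‖y‖ := by
    intro y
    rw [← integral_mul_const]
    refine norm_integral_le_of_norm_le (hφ.norm.mul_const ‖y‖) (Eventually.of_forall fun t => ?_)
    rw [norm_smul, norm_wave_apply]
  have hC : 0 ≤ ∫ t, ‖φ t‖ := integral_nonneg fun t => norm_nonneg _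
  rw [← sub_eq_zero, ← norm_eq_zero]
  refine le_antisymm (le_of_forall_pos_le_add fun ε hε => ?_) (norm_nonneg _)
  rw [zero_add]
  set C : ℝ := (∫ t, ‖φ t‖) + ‖g‖ with hCdef
  have hCpos : 0 < C + 1 := by positivity
  obtain ⟨k, hkc, hkx⟩ := D.window x (ε / (C + 1)) (by positivity)
  obtain ⟨R, hR, hRk⟩ := exists_bound_of_hasCompactSupport hkc
  have h1 := integral_wave_apply_cpt D hφ hφc c g hg k R hR hRk x
  have h3 : (∫ t, φ t • D.wave (c * t) x) - D.apply g x =
      (∫ t, φ t • D.wave (c * t) (x - D.apply k x)) - D.apply g (x - D.apply k x) := by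
    have h4 : (∫ t, φ t • D.wave (c * t) (x - D.apply k x)) =
        (∫ t, φ t • D.wave (c * t) x) - ∫ t, φ t • D.wave (c * t) (D.apply k x) := by
      rw [← integral_sub (hI x) (hI _)]
      refine integral_congr_ae (Eventually.of_forall fun t => ?_)
      simp only [map_sub, smul_sub]
    rw [h4, h1, map_sub]
    abel
  rw [h3]
  have h5 : ‖x - D.apply k x‖ < ε / (C + 1) := by
    rw [← norm_neg, neg_sub]; exact hkx
  calc ‖(∫ t, φ t • D.wave (c * t) (x - D.apply k x)) - D.apply g (x - D.apply k x)‖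
      ≤ ‖∫ t, φ t • D.wave (c * t) (x - D.apply k x)‖ + ‖D.apply g (x - D.apply k x)‖ :=
        norm_sub_le _ _
    _ ≤ (∫ t, ‖φ t‖) * ‖x - D.apply k x‖ + ‖g‖ * ‖x - D.apply k x‖ :=
        add_le_add (hbd _) (norm_apply_apply_le D g _)
    _ = C * ‖x - D.apply k x‖ := by rw [hCdef]; ring
    _ ≤ (C + 1) * ‖x - D.apply k x‖ :=
        mul_le_mul_of_nonneg_right (by linarith) (norm_nonneg _)
    _ ≤ (C + 1) * (ε / (C + 1)) := mul_le_mul_of_nonneg_left h5.le hCpos.le
    _ = ε := by field_simp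

/-- The smeared operator `∫ φ(t) σ_{ct}(w) dt` (defined strongly) of an element `w` of `M`:
it lies in `M`, has norm at most `‖φ‖₁ ‖w‖`, and acts by the strong integral. -/
theorem exists_smear (S : ModularDatum H) {φ : ℝ → ℂ} (hφ : Integrable φ) (hφc : Continuous φ)
    (c : ℝ) (w : H →L[ℂ] H) (hw : w ∈ S.M) :
    ∃ w' : H →L[ℂ] H, w' ∈ S.M ∧ ‖w'‖ ≤ (∫ t, ‖φ t‖) * ‖w‖ ∧
      ∀ x : H, w' x = ∫ t, φ t • S.D.wave (c * t) (w (S.D.wave (-(c * t)) x)) := by
  have hFc : ∀ x : H, Continuous fun t : ℝ => w (S.D.wave (-(c * t)) x) := fun x =>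
    w.continuous.comp ((continuous_wave S.D x).comp (continuous_const.mul continuous_id).neg)
  have hFb : ∀ (x : H) (t : ℝ), ‖w (S.D.wave (-(c * t)) x)‖ ≤ ‖w‖ * ‖x‖ := fun x t => by
    refine (w.le_opNorm _).trans ?_
    rw [norm_wave_apply]
  have hI : ∀ x : H,
      Integrable fun t => φ t • S.D.wave (c * t) (w (S.D.wave (-(c * t)) x)) := fun x =>
    integrable_smul_wave S.D hφ hφc c (hFc x) (‖w‖ * ‖x‖) (hFb x)
  let T : H →ₗ[ℂ] H :=
    { toFun := fun x => ∫ t, φ t • S.D.wave (c * t) (w (S.D.wave (-(c * t)) x))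
      map_add' := fun x y => by
        rw [← integral_add (hI x) (hI y)]
        refine integral_congr_ae (Eventually.of_forall fun t => ?_)
        simp only [map_add, smul_add]
      map_smul' := fun a x => by
        rw [RingHom.id_apply, ← integral_smul]
        refine integral_congr_ae (Eventually.of_forall fun t => ?_)
        simp only [map_smul]
        rw [smul_comm] }
  have hT : ∀ x, T x = ∫ t, φ t • S.D.wave (c * t) (w (S.D.wave (-(c * t)) x)) := fun x => rfl
  have hTb : ∀ x, ‖T x‖ ≤ (∫ t, ‖φ t‖) * ‖w‖ * ‖x‖ := by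
    intro x
    rw [hT, mul_assoc, ← integral_mul_const]
    refine norm_integral_le_of_norm_le (hφ.norm.mul_const _) (Eventually.of_forall fun t => ?_)
    rw [norm_smul, norm_wave_apply]
    exact mul_le_mul_of_nonneg_left (hFb x t) (norm_nonneg _)
  have hC : 0 ≤ (∫ t, ‖φ t‖) * ‖w‖ :=
    mul_nonneg (integral_nonneg fun t => norm_nonneg _) (norm_nonneg _)
  refine ⟨T.mkContinuous _ hTb, ?_, LinearMap.mkContinuous_norm_le _ hC _, fun x => rfl⟩
  rw [← S.M.commutant_commutant, VonNeumannAlgebra.mem_commutant_iff]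
  intro x' hx'
  rw [VonNeumannAlgebra.mem_commutant_iff] at hx'
  ext x
  show x' (T x) = T (x' x)
  rw [hT, hT, ← x'.integral_comp_comm (hI x)]
  refine integral_congr_ae (Eventually.of_forall fun t => ?_)
  have hcomm := hx' _ (S.flow_mem (c * t) w hw)
  have h1 : S.D.wave (c * t) (w (S.D.wave (-(c * t)) (x' x))) =
      x' (S.D.wave (c * t) (w (S.D.wave (-(c * t)) x))) :=
    congrArg (fun A : H →L[ℂ] H => A x) hcomm
  show x' (φ t • S.D.wave (c * t) (w (S.D.wave (-(c * t)) x))) = _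
  rw [map_smul, ← h1]

end SMOOTH

/-- **Exact spectral localisation** (package SMOOTH of S0112).  There is an absolute constant
`C₀` such that, whenever the vacuum is invariant under the unitary group, for every window
`[s - δ, s + δ]` there is a bump `g` (`‖g‖ ≤ 1`, `g = 1` on the window, `g = 0` off
`[s - 4δ, s + 4δ]`) such that `g(D)` maps `M ξ` into itself with control of the operator norm:
for `w ∈ M` there is `w' ∈ M` with `‖w'‖ ≤ C₀ ‖w‖` and `w' ξ = g(D) w ξ`. -/
theorem smooth : ∃ C₀ : ℝ, 0 ≤ C₀ ∧ ∀ (H : Type u) [NormedAddCommGroup H]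
    [InnerProductSpace ℂ H] [CompleteSpace H] (S : ModularDatum H)
    (_hvac : ∀ t, S.D.wave t S.vac = S.vac) (s δ : ℝ) (_hδ : 0 < δ),
    ∃ g : BoundedContinuousFunction ℝ ℂ, ‖g‖ ≤ 1 ∧
      (∀ u ∈ Set.Icc (s - δ) (s + δ), g u = 1) ∧
      (∀ u, u ∉ Set.Icc (s - 4 * δ) (s + 4 * δ) → g u = 0) ∧
      ∀ w : H →L[ℂ] H, w ∈ S.M → ∃ w' : H →L[ℂ] H, w' ∈ S.M ∧ ‖w'‖ ≤ C₀ * ‖w‖ ∧
        w' S.vac = S.D.apply g (w S.vac) := by
  obtain ⟨g₀, f₀, hg₀c, hf₀c, hf₀i, hg₀b, hg₀1, hg₀0, hinv⟩ := SMOOTH.exists_bump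
  refine ⟨∫ t, ‖f₀ t‖, integral_nonneg fun t => norm_nonneg _, ?_⟩
  intro H _ _ _ S hvac s δ hδ
  let g : BoundedContinuousFunction ℝ ℂ :=
    BoundedContinuousFunction.ofNormedAddCommGroup (fun u => g₀ ((u - s) / δ))
      (hg₀c.comp (by fun_prop)) 1 (fun u => hg₀b _)
  have hgu : ∀ u, g u = g₀ ((u - s) / δ) := fun u => rfl
  refine ⟨g, BoundedContinuousFunction.norm_ofNormedAddCommGroup_le _ zero_le_one _, ?_, ?_, ?_⟩
  · intro u hu
    rw [hgu]
    apply hg₀1
    rw [abs_div, abs_of_pos hδ, div_le_one hδ, abs_le]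
    constructor <;> linarith [hu.1, hu.2]
  · intro u hu
    rw [hgu]
    apply hg₀0
    rw [abs_div, abs_of_pos hδ, le_div_iff₀ hδ]
    rw [Set.mem_Icc, not_and_or, not_le, not_le] at hu
    rcases hu with hu | hu
    · rw [abs_of_neg (by linarith)]; linarith
    · rw [abs_of_pos (by linarith)]; linarith
  · intro w hw
    let φ : ℝ → ℂ := fun t =>
      f₀ t * Complex.exp (Complex.I * ((-(2 * Real.pi * t * s / δ) : ℝ) : ℂ))
    have hφc : Continuous φ := hf₀c.mul (by fun_prop)
    have hφn : ∀ t, ‖φ t‖ = ‖f₀ t‖ := fun t => by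
      show ‖f₀ t * _‖ = _
      rw [norm_mul, Complex.norm_exp]
      simp
    have hφi : Integrable φ :=
      Integrable.mono' hf₀i.norm hφc.aestronglyMeasurable
        (Eventually.of_forall fun t => (hφn t).le)
    have hgφ : ∀ u, g u =
        ∫ t, φ t * Complex.exp (Complex.I * (((2 * Real.pi / δ) * t * u : ℝ) : ℂ)) := by
      intro u
      rw [hgu, hinv]
      refine integral_congr_ae (Eventually.of_forall fun t => ?_)
      show f₀ t * _ = f₀ t * _ * _
      rw [mul_assoc (f₀ t), ← Complex.exp_add, ← mul_add, ← Complex.ofReal_add]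
      congr 4
      field_simp
      ring
    obtain ⟨w', hw'M, hw'n, hw'x⟩ := SMOOTH.exists_smear S hφi hφc (2 * Real.pi / δ) w hw
    refine ⟨w', hw'M, ?_, ?_⟩
    · simpa only [hφn] using hw'n
    · rw [hw'x]
      simp only [hvac]
      exact SMOOTH.integral_wave_apply S.D hφi hφc _ g hgφ (w S.vac)

end Crest.Agent.LibS0112
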