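import Crest.Agent.Lib_S0112_Vac_h24
import Crest.Agent.Lib_S0112_CUT_h7
import Crest.Agent.Lib_S0112_SMOOTH_h6
import Crest.Agent.Lib_S0112_MEAN_h1
import Crest.Agent.Lib_S0112_ERG_h22
import Crest.Agent.Lib_S0112_PHASE_h6

/-!
# S0112, final assembly (helper24)

Combines the packages `Calc`/`Vac` (helper24), `CUT` (helper7), `SMOOTH`/`PHASE` (helper6),
`MEAN` (helper1) and `ERG` (helper22) into the ergodic-state commutator estimate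
`s0112_main`, which is the frozen statement `S0112`.
-/

set_option autoImplicit false

open Crest Crest.OpAlg Filter MeasureTheory
open scoped Topology ComplexConjugate InnerProductSpace

namespace Crest.Agent.LibS0112

universe u
variable {H : Type u} [NormedAddCommGroup H] [InnerProductSpace ℂ H] [CompleteSpace H]

namespace Asm

/-- conjugation by the modular unitary: `σ_t(a) = U_t a U_{-t}`. -/
noncomputable def cj (S : ModularDatum H) (t : ℝ) (a : H →L[ℂ] H) : H →L[ℂ] H :=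
  S.D.wave t * a * S.D.wave (-t)

theorem cj_mem (S : ModularDatum H) (t : ℝ) {a : H →L[ℂ] H} (ha : a ∈ S.M) : cj S t a ∈ S.M :=
  S.flow_mem t a ha

theorem cj_apply (S : ModularDatum H) (t : ℝ) (a : H →L[ℂ] H) (x : H) :
    cj S t a x = S.D.wave t (a (S.D.wave (-t) x)) := rfl

theorem cj_vac (S : ModularDatum H) (t : ℝ) (a : H →L[ℂ] H) :
    cj S t a S.vac = S.D.wave t (a S.vac) := by
  rw [cj_apply, wave_vac]

theorem star_cj (S : ModularDatum H) (t : ℝ) (a : H →L[ℂ] H) :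
    star (cj S t a) = cj S t (star a) := by
  unfold cj
  rw [star_mul, star_mul, star_wave, star_wave, neg_neg, mul_assoc]

theorem cj_mul (S : ModularDatum H) (t : ℝ) (a b : H →L[ℂ] H) :
    cj S t a * cj S t b = cj S t (a * b) := by
  unfold cj
  calc S.D.wave t * a * S.D.wave (-t) * (S.D.wave t * b * S.D.wave (-t))
      = S.D.wave t * a * (S.D.wave (-t) * S.D.wave t) * b * S.D.wave (-t) := by
        simp only [mul_assoc]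
    _ = S.D.wave t * (a * b) * S.D.wave (-t) := by
        rw [wave_neg_mul_wave, mul_one, mul_assoc (S.D.wave t)]

theorem norm_cj_le (S : ModularDatum H) (t : ℝ) (a : H →L[ℂ] H) : ‖cj S t a‖ ≤ ‖a‖ := by
  unfold cj
  calc ‖S.D.wave t * a * S.D.wave (-t)‖ ≤ ‖S.D.wave t‖ * ‖a‖ * ‖S.D.wave (-t)‖ :=
        (norm_mul_le _ _).trans (mul_le_mul_of_nonneg_right (norm_mul_le _ _) (norm_nonneg _))
    _ ≤ 1 * ‖a‖ * 1 := by
        gcongr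
        · exact norm_wave_le _ _
        · exact norm_wave_le _ _
    _ = ‖a‖ := by ring

theorem norm_star_apply_sq (A : H →L[ℂ] H) (x : H) :
    ‖star A x‖ ^ 2 = (⟪x, (A * star A) x⟫_ℂ).re := by
  have : ⟪x, (A * star A) x⟫_ℂ = ⟪star A x, star A x⟫_ℂ := by
    show ⟪x, A (star A x)⟫_ℂ = _
    rw [ContinuousLinearMap.star_eq_adjoint, ContinuousLinearMap.adjoint_inner_left]
  rw [this, inner_self_eq_norm_sq_to_K]
  norm_cast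

theorem re_inner_sub_le (B : H →L[ℂ] H) (x y : H) :
    (⟪x, B x⟫_ℂ).re ≤ (⟪y, B y⟫_ℂ).re + ‖B‖ * (‖x‖ + ‖y‖) * ‖x - y‖ := by
  have e : ⟪x, B x⟫_ℂ = ⟪y, B y⟫_ℂ + (⟪x - y, B x⟫_ℂ + ⟪y, B (x - y)⟫_ℂ) := by
    rw [map_sub, inner_sub_left, inner_sub_right]; ring
  rw [e, Complex.add_re]
  have h1 : (⟪x - y, B x⟫_ℂ + ⟪y, B (x - y)⟫_ℂ).re ≤ ‖⟪x - y, B x⟫_ℂ + ⟪y, B (x - y)⟫_ℂ‖ :=
    Complex.re_le_norm _
  have h2 : ‖⟪x - y, B x⟫_ℂ‖ ≤ ‖x - y‖ * (‖B‖ * ‖x‖) :=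
    (norm_inner_le_norm _ _).trans (mul_le_mul_of_nonneg_left (B.le_opNorm x) (norm_nonneg _))
  have h3 : ‖⟪y, B (x - y)⟫_ℂ‖ ≤ ‖y‖ * (‖B‖ * ‖x - y‖) :=
    (norm_inner_le_norm _ _).trans (mul_le_mul_of_nonneg_left (B.le_opNorm _) (norm_nonneg _))
  have h4 := norm_add_le (⟪x - y, B x⟫_ℂ) (⟪y, B (x - y)⟫_ℂ)
  nlinarith

/-- one row of the off-diagonal estimate -/
theorem row_bound (S : ModularDatum H) (a x' : H →L[ℂ] H) (ha : a ∈ S.M)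
    (hx' : x' ∈ S.M.commutant) (ε₂ ε₃ : ℝ) (hε₂ : 0 < ε₂) (hε₂1 : ε₂ ≤ 1)
    (hε₂a : ‖a‖ ^ 2 * (2 * ‖a S.vac‖ + 1) * ε₂ ≤ 1 / 2)
    (hxa : ‖x' S.vac - a S.vac‖ < ε₂) (hε₃x : ‖x'‖ ^ 2 * ε₃ ≤ 1 / 2)
    (N : ℕ) (t : Fin N → ℝ)
    (h₂ : ‖(N : ℂ)⁻¹ • ∑ k, S.D.wave (t k) ((a * star a) S.vac) -
      ⟪S.vac, (a * star a) S.vac⟫_ℂ • S.vac‖ ≤ ε₃) (hN : 0 < N) (r : ℝ) :
    ∑ k, ‖star (cj S (t k) a) (S.D.wave r (a S.vac))‖ ^ 2 ≤
      (N : ℝ) * (‖star a S.vac‖ ^ 2 * (‖a S.vac‖ + 1) ^ 2 + 1) := by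
  set ξ := S.vac with hξ
  have hξ1 : ‖ξ‖ = 1 := S.norm_vac
  set u : H := S.D.wave r (a ξ) with hu
  set x'r : H →L[ℂ] H := cj S r x' with hx'r
  have hx'rmem : x'r ∈ S.M.commutant := flow_mem_commutant S r x' hx'
  set u' : H := x'r ξ with hu'
  have hu'eq : u' = S.D.wave r (x' ξ) := cj_vac S r x'
  have hnu : ‖u‖ = ‖a ξ‖ := norm_wave_apply _ _ _
  have hnuu' : ‖u - u'‖ < ε₂ := by
    rw [hu, hu'eq, ← map_sub, norm_wave_apply, norm_sub_rev]; exact hxa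
  have hnx'ξ : ‖x' ξ‖ ≤ ‖a ξ‖ + 1 := by
    have := norm_add_le (a ξ) (x' ξ - a ξ)
    rw [add_sub_cancel] at this
    linarith
  have hnu' : ‖u'‖ ≤ ‖a ξ‖ + 1 := by
    rw [hu'eq, norm_wave_apply]; exact hnx'ξ
  set z : H := star x'r (x'r ξ) with hz
  have hnz : ‖z‖ ≤ ‖x'‖ ^ 2 := by
    have h1 : ‖x'r‖ ≤ ‖x'‖ := norm_cj_le S r x'
    have h2 : ‖star x'r‖ ≤ ‖x'‖ := by rw [norm_star]; exact h1
    calc ‖z‖ ≤ ‖star x'r‖ * ‖x'r ξ‖ := (star x'r).le_opNorm _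
      _ ≤ ‖star x'r‖ * (‖x'r‖ * ‖ξ‖) :=
          mul_le_mul_of_nonneg_left (x'r.le_opNorm _) (norm_nonneg _)
      _ ≤ ‖x'‖ * (‖x'‖ * 1) := by
          rw [hξ1]; gcongr
      _ = ‖x'‖ ^ 2 := by ring
  have hzξ : ⟪z, ξ⟫_ℂ = ((‖u'‖ ^ 2 : ℝ) : ℂ) := by
    rw [hz, ContinuousLinearMap.star_eq_adjoint, ContinuousLinearMap.adjoint_inner_left,
      inner_self_eq_norm_sq_to_K]
    norm_cast
  -- each term
  have hterm : ∀ k, ‖star (cj S (t k) a) u‖ ^ 2 ≤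
      (⟪z, S.D.wave (t k) ((a * star a) ξ)⟫_ℂ).re + 1 / 2 := by
    intro k
    set B : H →L[ℂ] H := cj S (t k) (a * star a) with hB
    have hBmem : B ∈ S.M := cj_mem S (t k) (mul_mem ha (star_mem ha))
    have hBeq : cj S (t k) a * star (cj S (t k) a) = B := by
      rw [star_cj, cj_mul]
    have hBn : ‖B‖ ≤ ‖a‖ ^ 2 := by
      refine (norm_cj_le S (t k) _).trans ?_
      calc ‖a * star a‖ ≤ ‖a‖ * ‖star a‖ := norm_mul_le _ _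
        _ = ‖a‖ ^ 2 := by rw [norm_star]; ring
    rw [norm_star_apply_sq, hBeq]
    have h1 := re_inner_sub_le B u u'
    have h2 : ‖B‖ * (‖u‖ + ‖u'‖) * ‖u - u'‖ ≤ 1 / 2 := by
      calc ‖B‖ * (‖u‖ + ‖u'‖) * ‖u - u'‖
          ≤ ‖a‖ ^ 2 * (2 * ‖a ξ‖ + 1) * ε₂ := by
            have hs : ‖u‖ + ‖u'‖ ≤ 2 * ‖a ξ‖ + 1 := by linarith
            have : ‖B‖ * (‖u‖ + ‖u'‖) ≤ ‖a‖ ^ 2 * (2 * ‖a ξ‖ + 1) :=
              mul_le_mul hBn hs (by positivity) (by positivity)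
            exact mul_le_mul this hnuu'.le (norm_nonneg _) (by positivity)
        _ ≤ 1 / 2 := hε₂a
    have h3 : ⟪u', B u'⟫_ℂ = ⟪z, S.D.wave (t k) ((a * star a) ξ)⟫_ℂ := by
      have hcomm : B * x'r = x'r * B := (VonNeumannAlgebra.mem_commutant_iff.mp hx'rmem) B hBmem
      have e1 : B u' = x'r (B ξ) := by
        rw [hu']
        exact congrArg (fun A : H →L[ℂ] H => A ξ) hcomm
      rw [e1, hz, ContinuousLinearMap.star_eq_adjoint, ContinuousLinearMap.adjoint_inner_left,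
        hB, cj_vac]
    rw [h3] at h1
    linarith
  -- sum over k
  have hsum : ∑ k, (⟪z, S.D.wave (t k) ((a * star a) ξ)⟫_ℂ).re ≤
      (N : ℝ) * (‖star a ξ‖ ^ 2 * (‖a ξ‖ + 1) ^ 2 + 1 / 2) := by
    set e : H := (N : ℂ)⁻¹ • ∑ k, S.D.wave (t k) ((a * star a) ξ) -
      ⟪ξ, (a * star a) ξ⟫_ℂ • ξ with he
    have hNne : (N : ℂ) ≠ 0 := by exact_mod_cast hN.ne'
    have hsumeq : ∑ k, S.D.wave (t k) ((a * star a) ξ) =
        (N : ℂ) • (⟪ξ, (a * star a) ξ⟫_ℂ • ξ + e) := by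
      rw [he, add_sub_cancel, smul_smul, mul_inv_cancel₀ hNne, one_smul]
    have hφ : ⟪ξ, (a * star a) ξ⟫_ℂ = ((‖star a ξ‖ ^ 2 : ℝ) : ℂ) := by
      show ⟪ξ, a (star a ξ)⟫_ℂ = _
      rw [← ContinuousLinearMap.adjoint_inner_left, ← ContinuousLinearMap.star_eq_adjoint,
        inner_self_eq_norm_sq_to_K]
      norm_cast
    rw [← Complex.re_sum, ← inner_sum, hsumeq, inner_smul_right, inner_add_right,
      inner_smul_right, hφ, hzξ]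
    have hre : (⟪z, e⟫_ℂ).re ≤ 1 / 2 := by
      calc (⟪z, e⟫_ℂ).re ≤ ‖⟪z, e⟫_ℂ‖ := Complex.re_le_norm _
        _ ≤ ‖z‖ * ‖e‖ := norm_inner_le_norm _ _
        _ ≤ ‖x'‖ ^ 2 * ε₃ := mul_le_mul hnz h₂ (norm_nonneg _) (by positivity)
        _ ≤ 1 / 2 := hε₃x
    have hu'2 : ‖u'‖ ^ 2 ≤ (‖a ξ‖ + 1) ^ 2 := pow_le_pow_left₀ (norm_nonneg _) hnu' 2
    have : ((N : ℂ) * (((‖star a ξ‖ ^ 2 : ℝ) : ℂ) * ((‖u'‖ ^ 2 : ℝ) : ℂ) + ⟪z, e⟫_ℂ)).re =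
        (N : ℝ) * (‖star a ξ‖ ^ 2 * ‖u'‖ ^ 2 + (⟪z, e⟫_ℂ).re) := by
      rw [← Complex.ofReal_natCast, Complex.re_ofReal_mul, Complex.add_re, ← Complex.ofReal_mul,
        Complex.ofReal_re]
    rw [this]
    have hA : 0 ≤ ‖star a ξ‖ ^ 2 := by positivity
    have hN0 : (0 : ℝ) ≤ N := Nat.cast_nonneg N
    have h5 : ‖star a ξ‖ ^ 2 * ‖u'‖ ^ 2 ≤ ‖star a ξ‖ ^ 2 * (‖a ξ‖ + 1) ^ 2 :=
      mul_le_mul_of_nonneg_left hu'2 hA
    exact mul_le_mul_of_nonneg_left (by linarith) hN0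
  calc ∑ k, ‖star (cj S (t k) a) u‖ ^ 2
      ≤ ∑ k, ((⟪z, S.D.wave (t k) ((a * star a) ξ)⟫_ℂ).re + 1 / 2) :=
        Finset.sum_le_sum fun k _ => hterm k
    _ = ∑ k, (⟪z, S.D.wave (t k) ((a * star a) ξ)⟫_ℂ).re + (N : ℝ) * (1 / 2) := by
        rw [Finset.sum_add_distrib, Finset.sum_const, Finset.card_univ, Fintype.card_fin,
          nsmul_eq_mul]
    _ ≤ (N : ℝ) * (‖star a ξ‖ ^ 2 * (‖a ξ‖ + 1) ^ 2 + 1 / 2) + (N : ℝ) * (1 / 2) := by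
        linarith
    _ = (N : ℝ) * (‖star a ξ‖ ^ 2 * (‖a ξ‖ + 1) ^ 2 + 1) := by ring

/-- The time family for the fourth-moment estimate. -/
theorem fourth_moment_data (S : ModularDatum H) (herg : S.Ergodic) (a : H →L[ℂ] H)
    (ha : a ∈ S.M) :
    ∃ (N : ℕ) (t : Fin N → ℝ), 0 < N ∧
      ‖∑ k, S.D.wave (t k) ((star a * a) S.vac)‖ ≤ (N : ℝ) * (‖a S.vac‖ ^ 2 + 1) ∧
      ∑ l, ∑ k, ‖star (cj S (t k) a) (S.D.wave (t l) (a S.vac))‖ ^ 2 ≤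
        (N : ℝ) ^ 2 * (‖star a S.vac‖ ^ 2 * (‖a S.vac‖ + 1) ^ 2 + 1) := by
  set ξ := S.vac with hξ
  have hξ1 : ‖ξ‖ = 1 := S.norm_vac
  set K : ℝ := ‖a‖ ^ 2 * (2 * ‖a ξ‖ + 1) with hK
  have hK0 : 0 ≤ K := by positivity
  set ε₂ : ℝ := 1 / (2 * (K + 1)) with hε₂
  have hε₂pos : 0 < ε₂ := by positivity
  have hε₂1 : ε₂ ≤ 1 := by
    rw [hε₂, div_le_one (by positivity)]; linarith
  have hε₂a : K * ε₂ ≤ 1 / 2 := by
    rw [hε₂, mul_one_div, div_le_div_iff₀ (by positivity) (by norm_num)]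
    linarith
  obtain ⟨y, ⟨x', rfl⟩, hx'⟩ := (dense_commutant_vac S).exists_dist_lt (a ξ) hε₂pos
  have hxa : ‖(x' : H →L[ℂ] H) ξ - a ξ‖ < ε₂ := by
    rw [← dist_eq_norm, dist_comm]; exact hx'
  set ε₃ : ℝ := 1 / (2 * (‖(x' : H →L[ℂ] H)‖ ^ 2 + 1)) with hε₃
  have hε₃pos : 0 < ε₃ := by positivity
  have hε₃1 : ε₃ ≤ 1 := by
    rw [hε₃, div_le_one (by positivity)]; nlinarith [sq_nonneg ‖(x' : H →L[ℂ] H)‖]
  have hε₃x : ‖(x' : H →L[ℂ] H)‖ ^ 2 * ε₃ ≤ 1 / 2 := by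
    rw [hε₃, mul_one_div, div_le_div_iff₀ (by positivity) (by norm_num)]
    linarith
  obtain ⟨N, t, hN, h₁, h₂⟩ := erg_avg S herg (wave_vac S) (star a * a) (a * star a)
    (mul_mem (star_mem ha) ha) (mul_mem ha (star_mem ha)) ε₃ hε₃pos
  refine ⟨N, t, hN, ?_, ?_⟩
  · -- diagonal term
    have hNne : (N : ℂ) ≠ 0 := by exact_mod_cast hN.ne'
    set e : H := (N : ℂ)⁻¹ • ∑ k, S.D.wave (t k) ((star a * a) ξ) -
      ⟪ξ, (star a * a) ξ⟫_ℂ • ξ with he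
    have hsumeq : ∑ k, S.D.wave (t k) ((star a * a) ξ) =
        (N : ℂ) • (⟪ξ, (star a * a) ξ⟫_ℂ • ξ + e) := by
      rw [he, add_sub_cancel, smul_smul, mul_inv_cancel₀ hNne, one_smul]
    have hφ : ⟪ξ, (star a * a) ξ⟫_ℂ = ((‖a ξ‖ ^ 2 : ℝ) : ℂ) := by
      show ⟪ξ, star a (a ξ)⟫_ℂ = _
      rw [ContinuousLinearMap.star_eq_adjoint, ContinuousLinearMap.adjoint_inner_right,
        inner_self_eq_norm_sq_to_K]
      norm_cast
    rw [hsumeq, norm_smul, Complex.norm_natCast]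
    refine mul_le_mul_of_nonneg_left ?_ (Nat.cast_nonneg N)
    calc ‖⟪ξ, (star a * a) ξ⟫_ℂ • ξ + e‖ ≤ ‖⟪ξ, (star a * a) ξ⟫_ℂ • ξ‖ + ‖e‖ := norm_add_le _ _
      _ ≤ ‖a ξ‖ ^ 2 + 1 := by
          rw [hφ, norm_smul, hξ1, mul_one, Complex.norm_real, Real.norm_eq_abs,
            abs_of_nonneg (by positivity)]
          linarith
  · calc ∑ l, ∑ k, ‖star (cj S (t k) a) (S.D.wave (t l) (a ξ))‖ ^ 2
        ≤ ∑ _l : Fin N, (N : ℝ) * (‖star a ξ‖ ^ 2 * (‖a ξ‖ + 1) ^ 2 + 1) :=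
          Finset.sum_le_sum fun l _ =>
            row_bound S a x' ha x'.2 ε₂ ε₃ hε₂pos hε₂1 hε₂a hxa hε₃x N t h₂ hN (t l)
      _ = (N : ℝ) ^ 2 * (‖star a ξ‖ ^ 2 * (‖a ξ‖ + 1) ^ 2 + 1) := by
          rw [Finset.sum_const, Finset.card_univ, Fintype.card_fin, nsmul_eq_mul]; ring

/-- Selection of a good sample point. -/
theorem selection {Ω : Type} [Fintype Ω] [Nonempty Ω] (X Y : Ω → ℝ) (c C₄ τ : ℝ) (hc : 0 < c)
    (hC₄ : 0 < C₄) (hτ : 0 < τ) (hY0 : ∀ w, 0 ≤ Y w)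
    (hX : (Fintype.card Ω : ℝ) * (c / 4) ≤ ∑ w, X w)
    (hY : ∑ w, Y w ≤ (Fintype.card Ω : ℝ) * C₄)
    (hXY : ∀ w, X w ≤ τ * Real.sqrt (Y w)) :
    ∃ w, Y w ≤ (8 * τ * C₄ / c) ^ 2 ∧ c / 8 ≤ X w := by
  by_contra hcon
  push Not at hcon
  set ℓ : ℝ := 8 * τ * C₄ / c with hℓ
  have hℓpos : 0 < ℓ := by positivity
  have hkey : ∀ w, X w < c / 8 + τ / ℓ * Y w := by
    intro w
    have hpos : 0 ≤ τ / ℓ * Y w := mul_nonneg (by positivity) (hY0 w)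
    rcases le_or_gt (Y w) (ℓ ^ 2) with h | h
    · have := hcon w h
      linarith
    · have hs : ℓ < Real.sqrt (Y w) := by
        rw [Real.lt_sqrt hℓpos.le]; exact h
      have hsq : Real.sqrt (Y w) * Real.sqrt (Y w) = Y w := Real.mul_self_sqrt (hY0 w)
      have h1 : Real.sqrt (Y w) ≤ Y w / ℓ := by
        rw [le_div_iff₀ hℓpos]
        nlinarith [Real.sqrt_nonneg (Y w)]
      have h2 : τ * Real.sqrt (Y w) ≤ τ * (Y w / ℓ) := mul_le_mul_of_nonneg_left h1 hτ.le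
      have h3 : τ * (Y w / ℓ) = τ / ℓ * Y w := by ring
      have := hXY w
      have hc8 : 0 < c / 8 := by positivity
      linarith
  have hsum : ∑ w, X w < ∑ w, (c / 8 + τ / ℓ * Y w) :=
    Finset.sum_lt_sum_of_nonempty Finset.univ_nonempty fun w _ => hkey w
  rw [Finset.sum_add_distrib, Finset.sum_const, Finset.card_univ, nsmul_eq_mul,
    ← Finset.mul_sum] at hsum
  have hτℓ : τ / ℓ * C₄ = c / 8 := by
    rw [hℓ]; field_simp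
  have h4 : τ / ℓ * ∑ w, Y w ≤ τ / ℓ * ((Fintype.card Ω : ℝ) * C₄) :=
    mul_le_mul_of_nonneg_left hY (by positivity)
  have h5 : τ / ℓ * ((Fintype.card Ω : ℝ) * C₄) = (Fintype.card Ω : ℝ) * (c / 8) := by
    rw [← hτℓ]; ring
  linarith

theorem vn_smul_mem (M : VonNeumannAlgebra H) (c : ℂ) {a : H →L[ℂ] H} (ha : a ∈ M) :
    c • a ∈ M :=
  show c • a ∈ M.toStarSubalgebra from M.toStarSubalgebra.smul_mem ha c

/-- the randomised element `v_w = N^{-1/2} ∑_k ζ_k σ_{t_k}(a)`. -/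
noncomputable def vel (S : ModularDatum H) {N : ℕ} (t : Fin N → ℝ) (a : H →L[ℂ] H)
    (w : Fin N → ZMod 3) : H →L[ℂ] H :=
  ((Real.sqrt N : ℝ) : ℂ)⁻¹ • ∑ k, phase w k • cj S (t k) a

theorem vel_mem (S : ModularDatum H) {N : ℕ} (t : Fin N → ℝ) {a : H →L[ℂ] H} (ha : a ∈ S.M)
    (w : Fin N → ZMod 3) : vel S t a w ∈ S.M :=
  vn_smul_mem _ _ (sum_mem fun k _ => vn_smul_mem _ _ (cj_mem S (t k) ha))

theorem vel_vac (S : ModularDatum H) {N : ℕ} (t : Fin N → ℝ) (a : H →L[ℂ] H)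
    (w : Fin N → ZMod 3) :
    vel S t a w S.vac =
      ((Real.sqrt N : ℝ) : ℂ)⁻¹ • ∑ k, phase w k • S.D.wave (t k) (a S.vac) := by
  simp only [vel, smul_apply, sum_apply, cj_vac]

theorem apply_vel_vac (S : ModularDatum H) {N : ℕ} (t : Fin N → ℝ) (a : H →L[ℂ] H)
    (w : Fin N → ZMod 3) (g : BoundedContinuousFunction ℝ ℂ) :
    S.D.apply g (vel S t a w S.vac) =
      ((Real.sqrt N : ℝ) : ℂ)⁻¹ • ∑ k, phase w k • S.D.wave (t k) (S.D.apply g (a S.vac)) := by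
  rw [vel_vac, map_smul, map_sum]
  congr 1
  refine Finset.sum_congr rfl fun k _ => ?_
  rw [map_smul, wave_apply_comm]

theorem star_vel_vel_vac (S : ModularDatum H) {N : ℕ} (hN : 0 < N) (t : Fin N → ℝ)
    (a : H →L[ℂ] H) (w : Fin N → ZMod 3) :
    star (vel S t a w) (vel S t a w S.vac) =
      (N : ℂ)⁻¹ • ∑ k, ∑ l, (conj (phase w k) * phase w l) •
        star (cj S (t k) a) (S.D.wave (t l) (a S.vac)) := by
  have hstar : star (vel S t a w) =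
      ((Real.sqrt N : ℝ) : ℂ)⁻¹ • ∑ k, conj (phase w k) • star (cj S (t k) a) := by
    simp only [vel, star_smul, star_sum, Complex.star_def, map_inv₀, Complex.conj_ofReal]
  rw [hstar, vel_vac]
  simp only [smul_apply, sum_apply, map_smul, map_sum, Finset.smul_sum,
    smul_smul]
  have hsq : ((Real.sqrt N : ℝ) : ℂ)⁻¹ * ((Real.sqrt N : ℝ) : ℂ)⁻¹ = (N : ℂ)⁻¹ := by
    rw [← mul_inv, ← Complex.ofReal_mul, Real.mul_self_sqrt (Nat.cast_nonneg N)]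
    simp
  rw [Finset.sum_comm]
  refine Finset.sum_congr rfl fun k _ => Finset.sum_congr rfl fun l _ => ?_
  congr 1
  calc ((Real.sqrt N : ℝ) : ℂ)⁻¹ * phase w l * (((Real.sqrt N : ℝ) : ℂ)⁻¹ * conj (phase w k))
      = (((Real.sqrt N : ℝ) : ℂ)⁻¹ * ((Real.sqrt N : ℝ) : ℂ)⁻¹) *
          (conj (phase w k) * phase w l) := by ring
    _ = (N : ℂ)⁻¹ * (conj (phase w k) * phase w l) := by rw [hsq]

theorem sum_X (S : ModularDatum H) (ω : Ultrafilter ℕ) (hω : (ω : Filter ℕ) ≤ Filter.atTop)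
    (T : H →L[ℂ] H) {N : ℕ} (hN : 0 < N) (t : Fin N → ℝ) (a : H →L[ℂ] H)
    (g : BoundedContinuousFunction ℝ ℂ) :
    ∑ w : Fin N → ZMod 3, qform ω T S.D (S.D.apply g (vel S t a w S.vac)) =
      (Fintype.card (Fin N → ZMod 3) : ℝ) * qform ω T S.D (S.D.apply g (a S.vac)) := by
  have hNpos : (0 : ℝ) < N := Nat.cast_pos.mpr hN
  have hnorm : ‖(((Real.sqrt N : ℝ) : ℂ))⁻¹‖ ^ 2 = (N : ℝ)⁻¹ := by
    rw [norm_inv, Complex.norm_real, Real.norm_eq_abs, abs_of_nonneg (Real.sqrt_nonneg _),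
      inv_pow, Real.sq_sqrt hNpos.le]
  have h1 : ∀ w : Fin N → ZMod 3, qform ω T S.D (S.D.apply g (vel S t a w S.vac)) =
      (N : ℝ)⁻¹ * qform ω T S.D
        (∑ k, phase w k • S.D.wave (t k) (S.D.apply g (a S.vac))) := by
    intro w
    rw [apply_vel_vac, qform_smul, hnorm]
  simp only [h1]
  rw [← Finset.mul_sum, qform_avg ω T S.D (fun w k => phase w k) (fun k l => phase_orth k l)]
  simp only [qform_wave ω hω T S.D]
  rw [Finset.sum_const, Finset.card_univ, Fintype.card_fin, nsmul_eq_mul]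
  field_simp

theorem W_diag (S : ModularDatum H) (r : ℝ) (a : H →L[ℂ] H) :
    star (cj S r a) (S.D.wave r (a S.vac)) = S.D.wave r ((star a * a) S.vac) := by
  rw [star_cj, cj_apply, wave_neg_wave]
  rfl

theorem sum_Y (S : ModularDatum H) {N : ℕ} (hN : 0 < N) (t : Fin N → ℝ) (a : H →L[ℂ] H)
    (B₁ B₂ : ℝ) (hB₁ : ‖∑ k, S.D.wave (t k) ((star a * a) S.vac)‖ ≤ (N : ℝ) * B₁)
    (hB₁0 : 0 ≤ B₁)
    (hB₂ : ∑ l, ∑ k, ‖star (cj S (t k) a) (S.D.wave (t l) (a S.vac))‖ ^ 2 ≤ (N : ℝ) ^ 2 * B₂) :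
    ∑ w : Fin N → ZMod 3, ‖star (vel S t a w) (vel S t a w S.vac)‖ ^ 2 ≤
      (Fintype.card (Fin N → ZMod 3) : ℝ) * (B₁ ^ 2 + B₂) := by
  have hNpos : (0 : ℝ) < N := Nat.cast_pos.mpr hN
  set W : Fin N → Fin N → H := fun k l => star (cj S (t k) a) (S.D.wave (t l) (a S.vac))
    with hW
  have h1 : ∀ w : Fin N → ZMod 3, ‖star (vel S t a w) (vel S t a w S.vac)‖ ^ 2 =
      ((N : ℝ)⁻¹) ^ 2 * ‖∑ k, ∑ l, (conj (phase w k) * phase w l) • W k l‖ ^ 2 := by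
    intro w
    rw [star_vel_vel_vac S hN, norm_smul, mul_pow, norm_inv, Complex.norm_natCast]
  simp only [h1]
  rw [← Finset.mul_sum]
  have h2 := phase_fourth W
  have h3 : ‖∑ k, W k k‖ ^ 2 ≤ ((N : ℝ) * B₁) ^ 2 := by
    have : ∑ k, W k k = ∑ k, S.D.wave (t k) ((star a * a) S.vac) :=
      Finset.sum_congr rfl fun k _ => W_diag S (t k) a
    rw [this]
    exact pow_le_pow_left₀ (norm_nonneg _) hB₁ 2
  have h4 : ∑ k, ∑ l, ‖W k l‖ ^ 2 ≤ (N : ℝ) ^ 2 * B₂ := by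
    rw [Finset.sum_comm]; exact hB₂
  have hcard : (0 : ℝ) ≤ (Fintype.card (Fin N → ZMod 3) : ℝ) := Nat.cast_nonneg _
  calc ((N : ℝ)⁻¹) ^ 2 * ∑ w : Fin N → ZMod 3,
        ‖∑ k, ∑ l, (conj (phase w k) * phase w l) • W k l‖ ^ 2
      ≤ ((N : ℝ)⁻¹) ^ 2 * ((Fintype.card (Fin N → ZMod 3) : ℝ) *
          (‖∑ k, W k k‖ ^ 2 + ∑ k, ∑ l, ‖W k l‖ ^ 2)) :=
        mul_le_mul_of_nonneg_left h2 (by positivity)
    _ ≤ ((N : ℝ)⁻¹) ^ 2 * ((Fintype.card (Fin N → ZMod 3) : ℝ) *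
          (((N : ℝ) * B₁) ^ 2 + (N : ℝ) ^ 2 * B₂)) := by
        gcongr
    _ = (Fintype.card (Fin N → ZMod 3) : ℝ) * (B₁ ^ 2 + B₂) := by
        field_simp

theorem X_le_Y (S : ModularDatum H) (ω : Ultrafilter ℕ) (T : H →L[ℂ] H)
    (g : BoundedContinuousFunction ℝ ℂ) (hg : ‖g‖ ≤ 1) (v : H →L[ℂ] H) :
    qform ω T S.D (S.D.apply g (v S.vac)) ≤
      ‖T‖ ^ 2 * Real.sqrt (‖star v (v S.vac)‖ ^ 2) := by
  have h1 := qform_le ω T S.D (S.D.apply g (v S.vac))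
  have h2 : ‖S.D.apply g (v S.vac)‖ ≤ ‖v S.vac‖ := by
    have := norm_apply_apply_le S.D g (v S.vac)
    have h3 : ‖g‖ * ‖v S.vac‖ ≤ 1 * ‖v S.vac‖ :=
      mul_le_mul_of_nonneg_right hg (norm_nonneg _)
    linarith
  have h4 : ‖v S.vac‖ ^ 2 ≤ ‖star v (v S.vac)‖ := by
    have e : ((‖v S.vac‖ ^ 2 : ℝ) : ℂ) = ⟪S.vac, star v (v S.vac)⟫_ℂ := by
      rw [ContinuousLinearMap.star_eq_adjoint, ContinuousLinearMap.adjoint_inner_right,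
        inner_self_eq_norm_sq_to_K]
      norm_cast
    have h5 : ‖((‖v S.vac‖ ^ 2 : ℝ) : ℂ)‖ ≤ ‖S.vac‖ * ‖star v (v S.vac)‖ := by
      rw [e]; exact norm_inner_le_norm _ _
    rw [Complex.norm_real, Real.norm_eq_abs, abs_of_nonneg (by positivity), S.norm_vac,
      one_mul] at h5
    exact h5
  rw [Real.sqrt_sq (norm_nonneg _)]
  have h6 : ‖S.D.apply g (v S.vac)‖ ^ 2 ≤ ‖v S.vac‖ ^ 2 :=
    pow_le_pow_left₀ (norm_nonneg _) h2 2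
  calc qform ω T S.D (S.D.apply g (v S.vac)) ≤ ‖T‖ ^ 2 * ‖S.D.apply g (v S.vac)‖ ^ 2 := h1
    _ ≤ ‖T‖ ^ 2 * ‖star v (v S.vac)‖ :=
        mul_le_mul_of_nonneg_left (h6.trans h4) (by positivity)

/-- the constant `E(s)` bounding `‖a* ξ‖`. -/
noncomputable def Econst (s : ℝ) : ℝ := Real.exp ((s + 1) / 2) + 1

/-- the fourth-moment constant. -/
noncomputable def C4const (s : ℝ) : ℝ := 26 + 9 * Econst s ^ 2

/-- the operator-norm bound before smoothing. -/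
noncomputable def Rconst (s c τ : ℝ) : ℝ := 6 * τ * (8 * τ ^ 2 * C4const s / c) / Real.sqrt c

theorem Econst_pos (s : ℝ) : 0 < Econst s := by unfold Econst; positivity

theorem C4const_pos (s : ℝ) : 0 < C4const s := by unfold C4const; positivity

/-- **Core lemma**: bounded recovery for one band-limited vector, with uniform constants. -/
theorem core (S : ModularDatum H) (herg : S.Ergodic) (ω : Ultrafilter ℕ)
    (hω : (ω : Filter ℕ) ≤ Filter.atTop) (T : H →L[ℂ] H) (s c : ℝ) (hc : 0 < c) (C₀ : ℝ)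
    (hC₀ : 0 ≤ C₀)
    (hsm : ∀ (s δ : ℝ), 0 < δ →
      ∃ g : BoundedContinuousFunction ℝ ℂ, ‖g‖ ≤ 1 ∧
        (∀ u ∈ Set.Icc (s - δ) (s + δ), g u = 1) ∧
        (∀ u, u ∉ Set.Icc (s - 4 * δ) (s + 4 * δ) → g u = 0) ∧
        ∀ w : H →L[ℂ] H, w ∈ S.M → ∃ w' : H →L[ℂ] H, w' ∈ S.M ∧ ‖w'‖ ≤ C₀ * ‖w‖ ∧
          w' S.vac = S.D.apply g (w S.vac))
    (δ : ℝ) (hδ : 0 < δ) (hδ1 : δ ≤ 1) (h : H) (hh : ‖h‖ = 1)
    (hband : S.D.SupportedIn (Set.Icc (s - δ) (s + δ)) h)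
    (hq : c ≤ qform ω T S.D h) :
    ∃ v : H →L[ℂ] H, v ∈ S.M ∧ ‖v‖ ≤ C₀ * Rconst s c ‖T‖ ∧
      Real.sqrt c / 8 ≤ ‖T (v S.vac)‖ ∧
      S.D.SupportedIn (Set.Icc (s - 4 * δ) (s + 4 * δ)) (v S.vac) := by
  set ξ := S.vac with hξ
  -- `T ≠ 0`
  have hT : 0 < ‖T‖ := by
    by_contra hcon
    have hT0 : ‖T‖ = 0 := le_antisymm (not_lt.mp hcon) (norm_nonneg _)
    have := qform_le ω T S.D h
    rw [hT0] at this
    norm_num at this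
    linarith
  obtain ⟨g, hg1, hgK, hg0, hgsm⟩ := hsm s δ hδ
  have hGle : ∀ x : H, ‖S.D.apply g x‖ ≤ ‖x‖ := by
    intro x
    have := norm_apply_apply_le S.D g x
    have h3 : ‖g‖ * ‖x‖ ≤ 1 * ‖x‖ := mul_le_mul_of_nonneg_right hg1 (norm_nonneg _)
    linarith
  have hGh : S.D.apply g h = h := apply_eq_self S.D hband g hgK
  -- the element `a`
  have hsc : 0 < Real.sqrt c := Real.sqrt_pos.mpr hc
  set ε₁ : ℝ := min 1 (Real.sqrt c / (2 * ‖T‖)) with hε₁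
  have hε₁pos : 0 < ε₁ := lt_min one_pos (by positivity)
  have hε₁1 : ε₁ ≤ 1 := min_le_left _ _
  have hε₁T : ‖T‖ ^ 2 * ε₁ ^ 2 ≤ c / 4 := by
    have h1 : ε₁ ≤ Real.sqrt c / (2 * ‖T‖) := min_le_right _ _
    have h2 : ε₁ ^ 2 ≤ (Real.sqrt c / (2 * ‖T‖)) ^ 2 := pow_le_pow_left₀ hε₁pos.le h1 2
    have h3 : ‖T‖ ^ 2 * (Real.sqrt c / (2 * ‖T‖)) ^ 2 = c / 4 := by
      rw [div_pow, Real.sq_sqrt hc.le]; field_simp; ring
    calc ‖T‖ ^ 2 * ε₁ ^ 2 ≤ ‖T‖ ^ 2 * (Real.sqrt c / (2 * ‖T‖)) ^ 2 :=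
          mul_le_mul_of_nonneg_left h2 (by positivity)
      _ = c / 4 := h3
  obtain ⟨a, ha, haξ, hastar⟩ := exists_approx S s δ hδ.le h hband ε₁ hε₁pos
  have hE : ‖star a ξ‖ ≤ Econst s := by
    have h1 : Real.exp ((s + δ) / 2) ≤ Real.exp ((s + 1) / 2) :=
      Real.exp_le_exp.mpr (by linarith)
    rw [hh, mul_one] at hastar
    unfold Econst
    linarith
  have haξ2 : ‖a ξ‖ ≤ 2 := by
    have := norm_add_le h (a ξ - h)
    rw [add_sub_cancel] at this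
    linarith
  have hqa : c / 4 ≤ qform ω T S.D (S.D.apply g (a ξ)) := by
    have h1 := qform_le_two ω T S.D h (S.D.apply g (a ξ))
    have h2 : ‖h - S.D.apply g (a ξ)‖ ≤ ε₁ := by
      have : h - S.D.apply g (a ξ) = S.D.apply g (h - a ξ) := by rw [map_sub, hGh]
      rw [this]
      refine (hGle _).trans ?_
      rw [norm_sub_rev]; exact haξ.le
    have h3 : ‖h - S.D.apply g (a ξ)‖ ^ 2 ≤ ε₁ ^ 2 := pow_le_pow_left₀ (norm_nonneg _) h2 2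
    have h4 : ‖T‖ ^ 2 * ‖h - S.D.apply g (a ξ)‖ ^ 2 ≤ ‖T‖ ^ 2 * ε₁ ^ 2 :=
      mul_le_mul_of_nonneg_left h3 (by positivity)
    nlinarith
  -- the time family
  obtain ⟨N, t, hN, hdiag, hoff⟩ := fourth_moment_data S herg a ha
  have hNpos : (0 : ℝ) < N := Nat.cast_pos.mpr hN
  have hdiag' : ‖∑ k, S.D.wave (t k) ((star a * a) ξ)‖ ≤ (N : ℝ) * 5 := by
    refine hdiag.trans (mul_le_mul_of_nonneg_left ?_ hNpos.le)
    nlinarith [norm_nonneg (a ξ)]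
  have hoff' : ∑ l, ∑ k, ‖star (cj S (t k) a) (S.D.wave (t l) (a ξ))‖ ^ 2 ≤
      (N : ℝ) ^ 2 * (9 * Econst s ^ 2 + 1) := by
    refine hoff.trans (mul_le_mul_of_nonneg_left ?_ (by positivity))
    have h1 : ‖star a ξ‖ ^ 2 ≤ Econst s ^ 2 := pow_le_pow_left₀ (norm_nonneg _) hE 2
    have h2 : (‖a ξ‖ + 1) ^ 2 ≤ 9 := by nlinarith [norm_nonneg (a ξ)]
    have h3 : ‖star a ξ‖ ^ 2 * (‖a ξ‖ + 1) ^ 2 ≤ Econst s ^ 2 * 9 :=
      mul_le_mul h1 h2 (by positivity) (by positivity)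
    linarith
  -- the two families
  set X : (Fin N → ZMod 3) → ℝ := fun w => qform ω T S.D (S.D.apply g (vel S t a w ξ)) with hX
  set Y : (Fin N → ZMod 3) → ℝ := fun w => ‖star (vel S t a w) (vel S t a w ξ)‖ ^ 2 with hY
  have hsumX : (Fintype.card (Fin N → ZMod 3) : ℝ) * (c / 4) ≤ ∑ w, X w := by
    rw [hX, sum_X S ω hω T hN t a g]
    exact mul_le_mul_of_nonneg_left hqa (Nat.cast_nonneg _)
  have hsumY : ∑ w, Y w ≤ (Fintype.card (Fin N → ZMod 3) : ℝ) * C4const s := by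
    have := sum_Y S hN t a 5 (9 * Econst s ^ 2 + 1) hdiag' (by norm_num) hoff'
    have e : (5 : ℝ) ^ 2 + (9 * Econst s ^ 2 + 1) = C4const s := by unfold C4const; ring
    rw [e] at this
    exact this
  have hXY : ∀ w, X w ≤ ‖T‖ ^ 2 * Real.sqrt (Y w) := fun w => X_le_Y S ω T g hg1 _
  obtain ⟨w₀, hw₀Y, hw₀X⟩ := selection X Y c (C4const s) (‖T‖ ^ 2) hc (C4const_pos s)
    (by positivity) (fun w => by positivity) hsumX hsumY hXY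
  set v := vel S t a w₀ with hv
  have hvM : v ∈ S.M := vel_mem S t ha w₀
  set ℓ : ℝ := 8 * ‖T‖ ^ 2 * C4const s / c with hℓ
  have hℓpos : 0 < ℓ := by have := C4const_pos s; positivity
  have hYℓ : ‖star v (v ξ)‖ ≤ ℓ := by
    have : ‖star v (v ξ)‖ ^ 2 ≤ ℓ ^ 2 := hw₀Y
    exact (abs_le_of_sq_le_sq' this hℓpos.le).2
  -- resolvent cut
  set R : ℝ := Rconst s c ‖T‖ with hR
  have hRℓ : R = 6 * ‖T‖ * ℓ / Real.sqrt c := rfl
  have hRpos : 0 < R := by rw [hRℓ]; positivity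
  obtain ⟨w₁, hw₁M, hw₁R, hw₁v⟩ := resolvent_cut S.M v hvM R hRpos ξ
  have hdiff : ‖v ξ - w₁ ξ‖ ≤ ℓ / R := hw₁v.trans (div_le_div_of_nonneg_right hYℓ hRpos.le)
  have hTℓR : ‖T‖ ^ 2 * (ℓ / R) ^ 2 = c / 36 := by
    have h1 : ℓ / R = Real.sqrt c / (6 * ‖T‖) := by
      rw [hRℓ]; field_simp
    rw [h1, div_pow, Real.sq_sqrt hc.le]; field_simp; ring
  have hq1 : c / 16 - c / 36 ≤ qform ω T S.D (S.D.apply g (w₁ ξ)) := by
    have h1 := qform_le_two ω T S.D (S.D.apply g (v ξ)) (S.D.apply g (w₁ ξ))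
    have h2 : ‖S.D.apply g (v ξ) - S.D.apply g (w₁ ξ)‖ ≤ ℓ / R := by
      rw [← map_sub]; exact (hGle _).trans hdiff
    have h3 : ‖S.D.apply g (v ξ) - S.D.apply g (w₁ ξ)‖ ^ 2 ≤ (ℓ / R) ^ 2 :=
      pow_le_pow_left₀ (norm_nonneg _) h2 2
    have h4 : ‖T‖ ^ 2 * ‖S.D.apply g (v ξ) - S.D.apply g (w₁ ξ)‖ ^ 2 ≤ ‖T‖ ^ 2 * (ℓ / R) ^ 2 :=
      mul_le_mul_of_nonneg_left h3 (sq_nonneg ‖T‖)
    have h5 : c / 8 ≤ qform ω T S.D (S.D.apply g (v ξ)) := hw₀X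
    rw [hTℓR] at h4
    linarith
  obtain ⟨w', hw'M, hw'n, hw'ξ⟩ := hgsm w₁ hw₁M
  have hq2 : c / 64 < qform ω T S.D (w' ξ) := by
    rw [hw'ξ]; linarith
  obtain ⟨r, hr⟩ := exists_lt_of_lt_qform ω T S.D (w' ξ) (c / 64) hq2
  refine ⟨cj S r w', cj_mem S r hw'M, ?_, ?_, ?_⟩
  · calc ‖cj S r w'‖ ≤ ‖w'‖ := norm_cj_le S r w'
      _ ≤ C₀ * ‖w₁‖ := hw'n
      _ ≤ C₀ * R := mul_le_mul_of_nonneg_left hw₁R hC₀
  · rw [cj_vac]
    have h1 : (Real.sqrt c / 8) ^ 2 = c / 64 := by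
      rw [div_pow, Real.sq_sqrt hc.le]; norm_num
    have h2 : (Real.sqrt c / 8) ^ 2 < ‖T (S.D.wave r (w' ξ))‖ ^ 2 := by rw [h1]; exact hr
    exact (abs_lt_of_sq_lt_sq' h2 (norm_nonneg _)).2.le
  · rw [cj_vac, hw'ξ]
    exact supportedIn_wave S.D (supportedIn_apply S.D g hg0 _) r

end Asm

/-- **S0112, assembled.** -/
theorem s0112_main (S : Crest.OpAlg.ModularDatum H) (herg : S.Ergodic)
    (ω : Ultrafilter ℕ) (hω : (ω : Filter ℕ) ≤ Filter.atTop)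
    (T : H →L[ℂ] H) (s : ℝ) (δ : ℕ → ℝ) (hδ : ∀ n, 0 < δ n)
    (hδ0 : Filter.Tendsto δ Filter.atTop (nhds 0))
    (h : ℕ → H) (hh : ∀ n, ‖h n‖ = 1)
    (hband : ∀ n, S.D.SupportedIn (Set.Icc (s - δ n) (s + δ n)) (h n))
    (hpos : ∃ c : ℝ, 0 < c ∧ ∃ᶠ n in Filter.atTop,
      c ≤ Crest.OpAlg.ultraMean ω (fun t : ℝ => ‖T (S.D.wave t (h n))‖ ^ 2)) :
    ∃ (n' : ℕ → ℕ) (v : ℕ → (H →L[ℂ] H)) (C η : ℝ), StrictMono n' ∧ 0 < η ∧
      ∀ j : ℕ, v j ∈ S.M ∧ ‖v j‖ ≤ C ∧ η ≤ ‖T (v j S.vac)‖ ∧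
        S.D.SupportedIn (Set.Icc (s - 4 * δ (n' j)) (s + 4 * δ (n' j))) (v j S.vac) := by
  obtain ⟨c, hc, hfreq⟩ := hpos
  obtain ⟨C₀, hC₀, hsmooth⟩ := smooth.{u}
  have hsm := fun (s δ : ℝ) (hδ : 0 < δ) => hsmooth H S (wave_vac S) s δ hδ
  have hev : ∀ᶠ n in Filter.atTop, δ n ≤ 1 :=
    (hδ0.eventually (gt_mem_nhds zero_lt_one)).mono fun n hn => le_of_lt hn
  have hfreq' : ∃ᶠ n in Filter.atTop, δ n ≤ 1 ∧ c ≤ qform ω T S.D (h n) :=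
    (hfreq.and_eventually hev).mono fun n hn => ⟨hn.2, hn.1⟩
  obtain ⟨n', hn', hP⟩ := Filter.extraction_of_frequently_atTop hfreq'
  choose v hv using fun j => Asm.core S herg ω hω T s c hc C₀ hC₀ hsm (δ (n' j)) (hδ _)
    (hP j).1 (h (n' j)) (hh _) (hband _) (hP j).2
  have hsc : 0 < Real.sqrt c := Real.sqrt_pos.mpr hc
  exact ⟨n', v, C₀ * Asm.Rconst s c ‖T‖, Real.sqrt c / 8, hn', by positivity, fun j => hv j⟩

end Crest.Agent.LibS0112
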