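import Crest.Agent.Lib_S0112_Calc_h24

set_option autoImplicit false

open Crest Crest.OpAlg Filter MeasureTheory
open scoped Topology ComplexConjugate InnerProductSpace

namespace Crest.Agent.LibS0112

universe u
variable {H : Type u} [NormedAddCommGroup H] [InnerProductSpace ℂ H] [CompleteSpace H]

namespace Vac

omit [CompleteSpace H] in
/-- A conjugate-linear isometric bijection conjugates inner products. -/
theorem inner_J_J (J : H ≃ₗᵢ⋆[ℂ] H) (x y : H) : ⟪J x, J y⟫_ℂ = ⟪y, x⟫_ℂ := by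
  have hI : J (Complex.I • y) = -(Complex.I • J y) := by
    rw [map_smulₛₗ]; simp
  rw [inner_eq_sum_norm_sq_div_four (J x) (J y), inner_eq_sum_norm_sq_div_four y x]
  have h1 : ‖J x + J y‖ = ‖y + x‖ := by rw [← map_add, J.norm_map, add_comm]
  have h2 : ‖J x - J y‖ = ‖y - x‖ := by rw [← map_sub, J.norm_map, norm_sub_rev]
  have h3 : ‖J x - Complex.I • J y‖ = ‖y - Complex.I • x‖ := by
    have : J x - Complex.I • J y = J (x + Complex.I • y) := by rw [map_add, hI]; abel
    rw [this, J.norm_map]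
    have : y - Complex.I • x = (-Complex.I) • (x + Complex.I • y) := by
      rw [smul_add, smul_smul]; simp [sub_eq_add_neg, add_comm]
    rw [this, norm_smul]; simp
  have h4 : ‖J x + Complex.I • J y‖ = ‖y + Complex.I • x‖ := by
    have : J x + Complex.I • J y = J (x - Complex.I • y) := by rw [map_sub, hI]; abel
    rw [this, J.norm_map]
    have : y + Complex.I • x = Complex.I • (x - Complex.I • y) := by
      rw [smul_sub, smul_smul]; simp [add_comm]
    rw [this, norm_smul]; simp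
  have hRI : (RCLike.I : ℂ) = Complex.I := rfl
  rw [hRI, h1, h2, h3, h4]

theorem halfExp_vac (S : ModularDatum H) : S.D.HalfExp S.vac (S.J S.vac) := by
  have hmem : ((S.vac, S.vac) : H × H) ∈ {p : H × H | S.D.HalfExp p.1 (S.J p.2)} := by
    rw [← S.tomita]
    apply subset_closure
    refine ⟨⟨1, one_mem _⟩, ?_⟩
    simp
  exact hmem

theorem inner_of_mem_graph (S : ModularDatum H) {p : H × H}
    (hp : S.D.HalfExp p.1 (S.J p.2)) : ⟪S.vac, p.2⟫_ℂ = ⟪p.1, S.vac⟫_ℂ := by
  have hmem : p ∈ closure (Set.range fun a : S.M =>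
      ((a : H →L[ℂ] H) S.vac, star (a : H →L[ℂ] H) S.vac)) := by
    rw [S.tomita]; exact hp
  have hclosed : IsClosed {p : H × H | ⟪S.vac, p.2⟫_ℂ = ⟪p.1, S.vac⟫_ℂ} :=
    isClosed_eq (by fun_prop) (by fun_prop)
  refine closure_minimal ?_ hclosed hmem
  rintro _ ⟨a, rfl⟩
  show ⟪S.vac, star (a : H →L[ℂ] H) S.vac⟫_ℂ = ⟪(a : H →L[ℂ] H) S.vac, S.vac⟫_ℂ
  rw [ContinuousLinearMap.star_eq_adjoint, ContinuousLinearMap.adjoint_inner_right]

theorem apply_exp_vac (S : ModularDatum H) (F G F₂ : BoundedContinuousFunction ℝ ℂ)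
    (hG : ∀ u : ℝ, G u = F u * ((Real.exp (u / 2) : ℝ) : ℂ))
    (hF₂ : ∀ u : ℝ, F₂ u = F u * ((Real.exp u : ℝ) : ℂ)) :
    S.D.apply (star F₂) S.vac = S.D.apply (star F) S.vac := by
  have hpair : ∀ x₀ : H, ⟪S.vac, S.J (S.D.apply G x₀)⟫_ℂ = ⟪S.D.apply F x₀, S.vac⟫_ℂ := by
    intro x₀
    refine inner_of_mem_graph S (p := (S.D.apply F x₀, S.J (S.D.apply G x₀))) ?_
    show S.D.HalfExp (S.D.apply F x₀) (S.J (S.J (S.D.apply G x₀)))
    rw [S.J_J]
    intro f g hg
    rw [apply_apply, apply_apply]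
    congr 2
    ext u
    simp only [BoundedContinuousFunction.mul_apply, hg u, hG u]
    ring
  have hC : ∀ x₀ : H, ⟪S.D.apply G x₀, S.J S.vac⟫_ℂ = ⟪S.D.apply F x₀, S.vac⟫_ℂ := by
    intro x₀
    rw [← hpair x₀]
    conv_rhs => rw [← S.J_J S.vac]
    rw [inner_J_J]
  have hD : S.D.apply (star G) (S.J S.vac) = S.D.apply (star F) S.vac := by
    apply ext_inner_left ℂ
    intro x₀
    rw [map_star, map_star, ContinuousLinearMap.star_eq_adjoint,
      ContinuousLinearMap.star_eq_adjoint, ContinuousLinearMap.adjoint_inner_right,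
      ContinuousLinearMap.adjoint_inner_right]
    exact hC x₀
  have hA : S.D.apply (star G) (S.J S.vac) = S.D.apply (star F₂) S.vac :=
    halfExp_vac S (star G) (star F₂) (fun u => by
      simp only [BoundedContinuousFunction.star_apply, hG u, hF₂ u]
      simp only [star_mul', Complex.star_def, Complex.conj_ofReal]
      rw [mul_assoc, ← Complex.ofReal_mul, ← Real.exp_add]
      congr 3; ring)
  rw [← hA, hD]

/-- A bounded continuous complex function from a bounded continuous real one. -/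
noncomputable def ofRealFun (r : ℝ → ℝ) (hr : Continuous r) (B : ℝ) (hB : ∀ u, |r u| ≤ B) :
    BoundedContinuousFunction ℝ ℂ :=
  BoundedContinuousFunction.ofNormedAddCommGroup (fun u : ℝ => ((r u : ℝ) : ℂ))
    (Complex.continuous_ofReal.comp hr) B (fun u => by
      rw [Complex.norm_real, Real.norm_eq_abs]; exact hB u)

@[simp] theorem ofRealFun_apply (r : ℝ → ℝ) (hr : Continuous r) (B : ℝ) (hB : ∀ u, |r u| ≤ B)
    (u : ℝ) : ofRealFun r hr B hB u = ((r u : ℝ) : ℂ) := rfl

theorem star_ofRealFun (r : ℝ → ℝ) (hr : Continuous r) (B : ℝ) (hB : ∀ u, |r u| ≤ B) :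
    star (ofRealFun r hr B hB) = ofRealFun r hr B hB := by
  ext u
  simp

theorem cont_inv_one_add_exp : Continuous fun u : ℝ => (1 + Real.exp u)⁻¹ :=
  (continuous_const.add Real.continuous_exp).inv₀ fun u => (by positivity : (0:ℝ) < 1 + Real.exp u).ne'

/-- `u ↦ 1 / (1 + e^u)`. -/
noncomputable def m0 : BoundedContinuousFunction ℝ ℂ :=
  ofRealFun (fun u => (1 + Real.exp u)⁻¹) cont_inv_one_add_exp 1 (fun u => by
    rw [abs_of_pos (by positivity)]
    exact inv_le_one_of_one_le₀ (by linarith [Real.exp_pos u]))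

/-- `u ↦ e^{u/2} / (1 + e^u)`. -/
noncomputable def m1 : BoundedContinuousFunction ℝ ℂ :=
  ofRealFun (fun u => (1 + Real.exp u)⁻¹ * Real.exp (u / 2))
    (cont_inv_one_add_exp.mul (Real.continuous_exp.comp (continuous_id.div_const 2))) 1
    (fun u => by
      rw [abs_of_pos (by positivity), inv_mul_le_iff₀ (by positivity), mul_one]
      rcases le_total u 0 with h | h
      · have : Real.exp (u / 2) ≤ 1 := Real.exp_le_one_iff.mpr (by linarith)
        linarith [Real.exp_pos u]
      · have : Real.exp (u / 2) ≤ Real.exp u := Real.exp_le_exp.mpr (by linarith)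
        linarith)

/-- `u ↦ e^u / (1 + e^u)`. -/
noncomputable def m2 : BoundedContinuousFunction ℝ ℂ :=
  ofRealFun (fun u => (1 + Real.exp u)⁻¹ * Real.exp u)
    (cont_inv_one_add_exp.mul Real.continuous_exp) 1 (fun u => by
      rw [abs_of_pos (by positivity), inv_mul_le_iff₀ (by positivity), mul_one]
      linarith)

/-- `th u = (e^u - 1)/(e^u + 1)`. -/
noncomputable def th : BoundedContinuousFunction ℝ ℂ := m2 - m0

theorem th_apply (u : ℝ) : th u = (((Real.exp u - 1) / (1 + Real.exp u) : ℝ) : ℂ) := by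
  simp only [th, m2, m0, BoundedContinuousFunction.sub_apply, ofRealFun_apply]
  rw [← Complex.ofReal_sub]
  congr 1
  field_simp

theorem star_th : star th = th := by
  rw [th, star_sub, m2, m0, star_ofRealFun, star_ofRealFun]

theorem apply_mul_th_vac (S : ModularDatum H) (k : BoundedContinuousFunction ℝ ℂ) :
    S.D.apply (k * th) S.vac = 0 := by
  have h := apply_exp_vac S (star k * m0) (star k * m1) (star k * m2)
    (fun u => by
      simp only [BoundedContinuousFunction.mul_apply, m0, m1, ofRealFun_apply]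
      push_cast; ring)
    (fun u => by
      simp only [BoundedContinuousFunction.mul_apply, m0, m2, ofRealFun_apply]
      push_cast; ring)
  have e2 : star (star k * m2) = k * m2 := by
    rw [star_mul', star_star, m2, star_ofRealFun]
  have e0 : star (star k * m0) = k * m0 := by
    rw [star_mul', star_star, m0, star_ofRealFun]
  rw [e2, e0] at h
  rw [th, mul_sub, map_sub, sub_apply, h, sub_self]

theorem norm_sq_apply (S : ModularDatum H) (f : BoundedContinuousFunction ℝ ℂ) (x : H) :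
    ⟪x, S.D.apply (star f * f) x⟫_ℂ = ((‖S.D.apply f x‖ ^ 2 : ℝ) : ℂ) := by
  rw [map_mul, map_star]
  show ⟪x, star (S.D.apply f) (S.D.apply f x)⟫_ℂ = _
  rw [ContinuousLinearMap.star_eq_adjoint,
    ContinuousLinearMap.adjoint_inner_right, inner_self_eq_norm_sq_to_K]
  norm_cast

/-- Domination: if `|θ| ≤ C |th|` pointwise then `θ(D) ξ = 0`. -/
theorem apply_vac_eq_zero_of_le (S : ModularDatum H) (θ : BoundedContinuousFunction ℝ ℂ) (C : ℝ)
    (hθ : ∀ u, ‖θ u‖ ≤ C * ‖th u‖) : S.D.apply θ S.vac = 0 := by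
  have hnn : ∀ u, 0 ≤ C ^ 2 * ‖th u‖ ^ 2 - ‖θ u‖ ^ 2 := by
    intro u
    have h0 : 0 ≤ ‖θ u‖ := norm_nonneg _
    have := hθ u
    nlinarith [mul_self_le_mul_self h0 this]
  have hcont : Continuous fun u : ℝ => Real.sqrt (C ^ 2 * ‖th u‖ ^ 2 - ‖θ u‖ ^ 2) := by
    apply Real.continuous_sqrt.comp
    have h1 : Continuous fun u : ℝ => ‖th u‖ := th.continuous.norm
    have h2 : Continuous fun u : ℝ => ‖θ u‖ := θ.continuous.norm
    fun_prop
  have hbd : ∀ u, |Real.sqrt (C ^ 2 * ‖th u‖ ^ 2 - ‖θ u‖ ^ 2)| ≤ |C| * ‖th‖ := by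
    intro u
    rw [abs_of_nonneg (Real.sqrt_nonneg _)]
    apply Real.sqrt_le_iff.mpr
    refine ⟨by positivity, ?_⟩
    have h1 : ‖th u‖ ≤ ‖th‖ := th.norm_coe_le_norm u
    have h2 : ‖th u‖ ^ 2 ≤ ‖th‖ ^ 2 := by
      apply pow_le_pow_left₀ (norm_nonneg _) h1
    have h3 : 0 ≤ ‖θ u‖ ^ 2 := by positivity
    have h4 : C ^ 2 * ‖th u‖ ^ 2 ≤ C ^ 2 * ‖th‖ ^ 2 :=
      mul_le_mul_of_nonneg_left h2 (sq_nonneg _)
    calc C ^ 2 * ‖th u‖ ^ 2 - ‖θ u‖ ^ 2 ≤ C ^ 2 * ‖th‖ ^ 2 := by linarith
      _ = (|C| * ‖th‖) ^ 2 := by rw [mul_pow, sq_abs]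
  set r : BoundedContinuousFunction ℝ ℂ := ofRealFun _ hcont _ hbd with hr
  have hid : star θ * θ + star r * r = ((C ^ 2 : ℝ) : ℂ) • (star th * th) := by
    ext u
    simp only [BoundedContinuousFunction.add_apply, BoundedContinuousFunction.mul_apply,
      BoundedContinuousFunction.star_apply, BoundedContinuousFunction.smul_apply, hr,
      ofRealFun_apply, Complex.star_def, Complex.conj_ofReal, smul_eq_mul]
    rw [Complex.conj_mul', Complex.conj_mul', ← Complex.ofReal_mul, Real.mul_self_sqrt (hnn u)]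
    push_cast; ring
  have hth : S.D.apply th S.vac = 0 := by
    have := apply_mul_th_vac S 1
    rwa [one_mul] at this
  have key := congrArg (fun F => ⟪S.vac, S.D.apply F S.vac⟫_ℂ) hid
  simp only [map_add, add_apply, inner_add_right, map_smul,
    smul_apply, inner_smul_right] at key
  rw [norm_sq_apply, norm_sq_apply, norm_sq_apply, hth, norm_zero] at key
  have key' : ‖S.D.apply θ S.vac‖ ^ 2 + ‖S.D.apply r S.vac‖ ^ 2 = 0 := by
    have := congrArg Complex.re key
    simpa [← Complex.ofReal_pow] using this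
  have : ‖S.D.apply θ S.vac‖ ^ 2 = 0 := by
    nlinarith [sq_nonneg ‖S.D.apply θ S.vac‖, sq_nonneg ‖S.D.apply r S.vac‖]
  exact norm_eq_zero.mp (pow_eq_zero_iff (two_ne_zero) |>.mp this)

theorem norm_ofRealFun_le (r : ℝ → ℝ) (hr : Continuous r) (B : ℝ) (hB : ∀ u, |r u| ≤ B) :
    ‖ofRealFun r hr B hB‖ ≤ B :=
  BoundedContinuousFunction.norm_ofNormedAddCommGroup_le _
    ((abs_nonneg _).trans (hB 0)) _

theorem th_lower (u : ℝ) : min 1 |u| / 8 ≤ |Real.exp u - 1| / (1 + Real.exp u) := by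
  have hpos : 0 < 1 + Real.exp u := by positivity
  rw [le_div_iff₀ hpos]
  have he1 : Real.exp 1 < 3 := by linarith [Real.exp_one_lt_d9]
  rcases le_or_gt |u| 1 with hu | hu
  · rw [min_eq_right hu]
    have hexp : Real.exp u ≤ 3 := by
      have : Real.exp u ≤ Real.exp 1 := Real.exp_le_exp.mpr (le_of_abs_le hu)
      linarith
    have hlow : |u| / 2 ≤ |Real.exp u - 1| := by
      rcases le_total 0 u with h0 | h0
      · rw [abs_of_nonneg h0, abs_of_nonneg (by linarith [Real.add_one_le_exp u])]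
        linarith [Real.add_one_le_exp u]
      · have h1 : -u + 1 ≤ Real.exp (-u) := Real.add_one_le_exp (-u)
        have h2 : Real.exp u * Real.exp (-u) = 1 := by rw [← Real.exp_add]; simp
        have hu1 : -u ≤ 1 := by rw [abs_of_nonpos h0] at hu; exact hu
        have hexpu : Real.exp u ≤ 1 := Real.exp_le_one_iff.mpr h0
        have h3 : Real.exp u * (1 - u) ≤ 1 := by
          calc Real.exp u * (1 - u) ≤ Real.exp u * Real.exp (-u) :=
                mul_le_mul_of_nonneg_left (by linarith) (Real.exp_pos u).le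
            _ = 1 := h2
        rw [abs_of_nonpos h0, abs_of_nonpos (by linarith)]
        nlinarith [Real.exp_pos u]
    have habs : 0 ≤ |u| := abs_nonneg u
    nlinarith [abs_nonneg (Real.exp u - 1)]
  · rw [min_eq_left hu.le]
    rcases lt_or_ge 0 u with h0 | h0
    · rw [abs_of_pos h0] at hu
      have h1 : u + 1 ≤ Real.exp u := Real.add_one_le_exp u
      rw [abs_of_nonneg (by linarith)]
      linarith
    · rw [abs_of_nonpos h0] at hu
      have h1 : -u + 1 ≤ Real.exp (-u) := Real.add_one_le_exp (-u)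
      have h2 : Real.exp u * Real.exp (-u) = 1 := by rw [← Real.exp_add]; simp
      have h3 : Real.exp u * 2 ≤ 1 := by
        calc Real.exp u * 2 ≤ Real.exp u * Real.exp (-u) :=
              mul_le_mul_of_nonneg_left (by linarith) (Real.exp_pos u).le
          _ = 1 := h2
      rw [abs_of_nonpos (by linarith)]
      linarith

theorem norm_th_apply (u : ℝ) : ‖th u‖ = |Real.exp u - 1| / (1 + Real.exp u) := by
  rw [th_apply, Complex.norm_real, Real.norm_eq_abs, abs_div,
    abs_of_pos (by positivity : (0:ℝ) < 1 + Real.exp u)]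

theorem norm_character_sub_one_le (t u : ℝ) :
    ‖(LineCalculus.character t - 1 : BoundedContinuousFunction ℝ ℂ) u‖ ≤
      8 * max 2 |t| * ‖th u‖ := by
  have e : (LineCalculus.character t - 1 : BoundedContinuousFunction ℝ ℂ) u =
      Complex.exp (Complex.I * ((t * u : ℝ) : ℂ)) - 1 := rfl
  rw [e, norm_th_apply]
  have hA : ‖Complex.exp (Complex.I * ((t * u : ℝ) : ℂ)) - 1‖ ≤ max 2 |t| * min 1 |u| := by
    rcases le_or_gt |u| 1 with hu | hu
    · rw [min_eq_right hu]
      refine (Real.norm_exp_I_mul_ofReal_sub_one_le).trans ?_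
      rw [Real.norm_eq_abs, abs_mul]
      exact mul_le_mul_of_nonneg_right (le_max_right _ _) (abs_nonneg _)
    · rw [min_eq_left hu.le, mul_one]
      refine le_trans ?_ (le_max_left _ _)
      calc ‖Complex.exp (Complex.I * ((t * u : ℝ) : ℂ)) - 1‖
          ≤ ‖Complex.exp (Complex.I * ((t * u : ℝ) : ℂ))‖ + ‖(1 : ℂ)‖ := norm_sub_le _ _
        _ = 2 := by
          rw [Complex.norm_exp]
          have : (Complex.I * ((t * u : ℝ) : ℂ)).re = 0 := by simp
          rw [this, Real.exp_zero, norm_one]; norm_num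
  have hB := th_lower u
  have hm : (0:ℝ) ≤ max 2 |t| := le_trans (by norm_num) (le_max_left _ _)
  calc ‖Complex.exp (Complex.I * ((t * u : ℝ) : ℂ)) - 1‖ ≤ max 2 |t| * min 1 |u| := hA
    _ = 8 * max 2 |t| * (min 1 |u| / 8) := by ring
    _ ≤ 8 * max 2 |t| * (|Real.exp u - 1| / (1 + Real.exp u)) :=
        mul_le_mul_of_nonneg_left hB (by positivity)

end Vac

/-- **VAC 1.** The vacuum vector is invariant under the modular unitaries. -/
theorem wave_vac (S : ModularDatum H) (t : ℝ) : S.D.wave t S.vac = S.vac := by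
  have h := Vac.apply_vac_eq_zero_of_le S (LineCalculus.character t - 1) (8 * max 2 |t|)
    (Vac.norm_character_sub_one_le t)
  rw [map_sub, map_one, sub_apply] at h
  exact sub_eq_zero.mp h

/-- **VAC 2.** A band-limited vector is approximated by `a ξ` with `a ∈ M`, with control of
`‖a* ξ‖`. -/
theorem exists_approx (S : ModularDatum H) (s δ : ℝ) (hδ : 0 ≤ δ) (h : H)
    (hh : S.D.SupportedIn (Set.Icc (s - δ) (s + δ)) h) (ε : ℝ) (hε : 0 < ε) :
    ∃ a : H →L[ℂ] H, a ∈ S.M ∧ ‖a S.vac - h‖ < ε ∧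
      ‖(star a) S.vac‖ ≤ Real.exp ((s + δ) / 2) * ‖h‖ + ε := by
  have hcont : Continuous fun u : ℝ => Real.exp (max (s - δ) (min u (s + δ)) / 2) := by
    fun_prop
  have hbd : ∀ u : ℝ, |Real.exp (max (s - δ) (min u (s + δ)) / 2)| ≤ Real.exp ((s + δ) / 2) := by
    intro u
    rw [abs_of_pos (Real.exp_pos _)]
    apply Real.exp_le_exp.mpr
    have : max (s - δ) (min u (s + δ)) ≤ s + δ := max_le (by linarith) (min_le_right _ _)
    linarith
  set g₂ : BoundedContinuousFunction ℝ ℂ := Vac.ofRealFun _ hcont _ hbd with hg₂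
  have hg₂K : ∀ u ∈ Set.Icc (s - δ) (s + δ), g₂ u = ((Real.exp (u / 2) : ℝ) : ℂ) := by
    intro u hu
    rw [hg₂, Vac.ofRealFun_apply, min_eq_left hu.2, max_eq_right hu.1]
  set y : H := S.D.apply g₂ h with hy
  have hHalf : S.D.HalfExp h y := by
    intro f g hg
    rw [hy, apply_apply]
    refine apply_eq_of_eqOn S.D hh _ _ fun u hu => ?_
    rw [BoundedContinuousFunction.mul_apply, hg₂K u hu, hg u]
  have hmem : ((h, S.J y) : H × H) ∈ closure (Set.range fun a : S.M =>
      ((a : H →L[ℂ] H) S.vac, star (a : H →L[ℂ] H) S.vac)) := by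
    rw [S.tomita]
    show S.D.HalfExp h (S.J (S.J y))
    rw [S.J_J]; exact hHalf
  obtain ⟨b, ⟨a, rfl⟩, hdist⟩ := Metric.mem_closure_iff.mp hmem ε hε
  rw [Prod.dist_eq, max_lt_iff] at hdist
  refine ⟨a, a.2, ?_, ?_⟩
  · rw [← dist_eq_norm, dist_comm]; exact hdist.1
  · have h1 : ‖star (a : H →L[ℂ] H) S.vac‖ ≤ ‖S.J y‖ + ‖star (a : H →L[ℂ] H) S.vac - S.J y‖ := by
      have := norm_add_le (S.J y) (star (a : H →L[ℂ] H) S.vac - S.J y)
      rwa [add_sub_cancel] at this
    have h2 : ‖star (a : H →L[ℂ] H) S.vac - S.J y‖ < ε := by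
      rw [← dist_eq_norm, dist_comm]; exact hdist.2
    have h3 : ‖S.J y‖ ≤ Real.exp ((s + δ) / 2) * ‖h‖ := by
      rw [S.J.norm_map, hy]
      exact (norm_apply_apply_le S.D g₂ h).trans
        (mul_le_mul_of_nonneg_right (Vac.norm_ofRealFun_le _ hcont _ hbd) (norm_nonneg _))
    linarith

end Crest.Agent.LibS0112
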