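import Mathlib

/-!
# S0316: real-algebra core of the fixed-point classification on `S² × S²`

`classify` : the only unit vectors `u, v ∈ ℝ³` satisfying the four fixed-point equations
(E1)–(E4) (with `k = 17/62`) are `(-e₃, e₁)` and the two points
`u = (±2√51/17, -6/17, 7/17)`, `v = (-7/17, 6/17, ±2√51/17)`.
-/

namespace Crest.Agent.LibS0316Alg

/-- Main class, first reduction: `p = q` and `m = n`. -/
theorem main_pq (k p q m n : ℝ) (hk2 : k ^ 2 ≤ 0.0752)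
    (hp : 0 < p) (hq : 0 < q) (hm : 0 < m) (hn : 0 < n)
    (hx : m ^ 2 + p ^ 2 ≤ 1) (hy : n ^ 2 + q ^ 2 ≤ 1)
    (h1 : m * (1 + k ^ 2 * (p ^ 2 + q ^ 2 + 2 * p + n ^ 2)) =
      n * (1 + k ^ 2 * (p ^ 2 + q ^ 2 + 2 * q + m ^ 2)))
    (h2 : m * (1 - k ^ 2 * (p ^ 2 + q ^ 2 + 2 * q + m ^ 2)) * ((1 + p) * q) =
      n * (1 - k ^ 2 * (p ^ 2 + q ^ 2 + 2 * p + n ^ 2)) * ((1 + q) * p)) :
    p = q ∧ m = n := by
  have hk0 : 0 ≤ k ^ 2 := sq_nonneg k
  have hp1 : p ≤ 1 := by nlinarith [sq_nonneg m]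
  have hq1 : q ≤ 1 := by nlinarith [sq_nonneg n]
  have hm1 : m ≤ 1 := by nlinarith [sq_nonneg p]
  have hn1 : n ≤ 1 := by nlinarith [sq_nonneg q]
  set P := p ^ 2 + q ^ 2 + 2 * p + n ^ 2 with hP
  set Q := p ^ 2 + q ^ 2 + 2 * q + m ^ 2 with hQ
  have hP0 : 0 ≤ P := by positivity
  have hQ0 : 0 ≤ Q := by positivity
  have hP4 : P ≤ 4 := by nlinarith [sq_nonneg m, sq_nonneg n]
  have hQ4 : Q ≤ 4 := by nlinarith [sq_nonneg m, sq_nonneg n]
  set G := 1 + k ^ 2 * P - k ^ 2 * (n * (n + m)) with hG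
  set T := (1 + p) * q with hT
  have hT0 : 0 ≤ T := by positivity
  have hT2 : T ≤ 2 := by nlinarith
  have key : n * (p - q) * (2 * k ^ 4 * (P + Q) * T - (1 - k ^ 2 * P) * G) = 0 := by
    linear_combination G * h2 + (n * k ^ 2 * (n + m) - (1 - k ^ 2 * Q)) * T * h1
  have hnn : n * (n + m) ≤ 2 := by nlinarith
  have hnn0 : 0 ≤ n * (n + m) := by positivity
  have hG1 : 0.8496 ≤ G := by nlinarith [mul_nonneg hk0 hP0, mul_le_mul_of_nonneg_left hnn hk0]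
  have hB1 : 0.6992 ≤ 1 - k ^ 2 * P := by nlinarith [mul_le_mul_of_nonneg_left hP4 hk0]
  have hk4 : k ^ 4 ≤ 0.00566 := by nlinarith [sq_nonneg (k ^ 2)]
  have hk40 : 0 ≤ k ^ 4 := by positivity
  have hPQT : (P + Q) * T ≤ 16 := by nlinarith [mul_nonneg (add_nonneg hP0 hQ0) hT0]
  have hPQT0 : 0 ≤ (P + Q) * T := by positivity
  have hneg : 2 * k ^ 4 * (P + Q) * T - (1 - k ^ 2 * P) * G < 0 := by
    have h3 : k ^ 4 * ((P + Q) * T) ≤ 0.00566 * 16 :=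
      mul_le_mul hk4 hPQT hPQT0 (by norm_num)
    have h4 : 0.6992 * 0.8496 ≤ (1 - k ^ 2 * P) * G :=
      mul_le_mul hB1 hG1 (by norm_num) (by linarith)
    nlinarith
  have hpq : p = q := by
    rcases mul_eq_zero.mp key with h | h
    · rcases mul_eq_zero.mp h with h | h
      · exact absurd h hn.ne'
      · linarith
    · exact absurd h hneg.ne
  refine ⟨hpq, ?_⟩
  subst hpq
  have h5 : (m - n) * (1 + k ^ 2 * (2 * p ^ 2 + 2 * p) - k ^ 2 * (m * n)) = 0 := by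
    linear_combination h1
  have hmn : m * n ≤ 1 := by nlinarith
  have h6 : 0 < 1 + k ^ 2 * (2 * p ^ 2 + 2 * p) - k ^ 2 * (m * n) := by
    nlinarith [mul_le_mul_of_nonneg_left hmn hk0, mul_nonneg hk0 (by positivity : (0:ℝ) ≤ 2 * p ^ 2 + 2 * p)]
  rcases mul_eq_zero.mp h5 with h | h
  · linarith
  · exact absurd h h6.ne'

/-- Main class, second step: with `p = q`, `m = n` the two remaining equations force
`p = 7/17`, `m = 6/17`. -/
theorem main_solve (p m : ℝ) (hp : 0 < p) (hm : 0 < m)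
    (i : m * (1 + (17 / 62 : ℝ) ^ 2 * (2 * p ^ 2 + 2 * p + m ^ 2)) =
      2 * (17 / 62) * (1 - m ^ 2 - p ^ 2))
    (ii : m * (1 - (17 / 62 : ℝ) ^ 2 * (2 * p ^ 2 + 2 * p + m ^ 2)) =
      2 * (17 / 62) * ((1 + p) * p)) :
    p = 7 / 17 ∧ m = 6 / 17 := by
  have iii : m = 17 / 62 * (1 + p - m ^ 2) := by linear_combination (1 / 2 : ℝ) * i + (1 / 2 : ℝ) * ii
  have iv : m * (17 / 62) * (2 * p ^ 2 + 2 * p + m ^ 2) = 1 - m ^ 2 - p - 2 * p ^ 2 := by
    linear_combination (31 / 17 : ℝ) * i - (31 / 17 : ℝ) * ii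
  have v0 : (1 + p) * (2 * m ^ 2 - (1 + p) * (1 - 2 * p)) = 0 := by
    linear_combination (1 + p - m ^ 2) * iv + m * (2 * p ^ 2 + 2 * p + m ^ 2) * iii
  have v : 2 * m ^ 2 = (1 + p) * (1 - 2 * p) := by
    rcases mul_eq_zero.mp v0 with h | h
    · linarith
    · linarith
  have vi : m = 17 / 62 * ((1 + p) * (1 + 2 * p)) / 2 := by
    linear_combination iii - (17 / 124 : ℝ) * v
  have vii0 : (1 + p) * ((17 * p - 7) * (68 * p ^ 2 + 164 * p + 1057)) = 0 := by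
    have h : m ^ 2 = (17 / 62 * ((1 + p) * (1 + 2 * p)) / 2) ^ 2 := by rw [← vi]
    linear_combination (7688 : ℝ) * v - (15376 : ℝ) * h
  have hp7 : p = 7 / 17 := by
    rcases mul_eq_zero.mp vii0 with h | h
    · linarith
    · rcases mul_eq_zero.mp h with h | h
      · linarith
      · nlinarith [sq_nonneg p]
  refine ⟨hp7, ?_⟩
  subst hp7
  have hm2 : m ^ 2 = (6 / 17) ^ 2 := by linear_combination (1 / 2 : ℝ) * v
  rcases sq_eq_sq_iff_eq_or_eq_neg.mp hm2 with h | h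
  · exact h
  · linarith

/-- Mirror class, first reduction: `p = q` and `m = n`. -/
theorem mirror_pq (k p q m n : ℝ) (hk2 : k ^ 2 ≤ 0.0752)
    (hp : 0 < p) (hq : 0 < q) (hm : 0 < m) (hn : 0 < n)
    (hx : m ^ 2 + p ^ 2 ≤ 1) (hy : n ^ 2 + q ^ 2 ≤ 1)
    (h1 : m * (1 + k ^ 2 * (p ^ 2 + q ^ 2 - 2 * p + n ^ 2)) =
      n * (1 + k ^ 2 * (p ^ 2 + q ^ 2 - 2 * q + m ^ 2)))
    (h2 : m * (1 - k ^ 2 * (p ^ 2 + q ^ 2 - 2 * q + m ^ 2)) * ((1 - p) * q) =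
      n * (1 - k ^ 2 * (p ^ 2 + q ^ 2 - 2 * p + n ^ 2)) * ((1 - q) * p)) :
    p = q ∧ m = n := by
  have hk0 : 0 ≤ k ^ 2 := sq_nonneg k
  have hp1 : p ≤ 1 := by nlinarith [sq_nonneg m]
  have hq1 : q ≤ 1 := by nlinarith [sq_nonneg n]
  have hm1 : m ≤ 1 := by nlinarith [sq_nonneg p]
  have hn1 : n ≤ 1 := by nlinarith [sq_nonneg q]
  set P := p ^ 2 + q ^ 2 - 2 * p + n ^ 2 with hP
  set Q := p ^ 2 + q ^ 2 - 2 * q + m ^ 2 with hQ
  -- P = (1-p)^2 - (1 - n^2 - q^2) ∈ [-1, 1]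
  have hP0 : -1 ≤ P := by nlinarith [sq_nonneg (1 - p), sq_nonneg n, sq_nonneg q]
  have hQ0 : -1 ≤ Q := by nlinarith [sq_nonneg (1 - q), sq_nonneg m, sq_nonneg p]
  have hP4 : P ≤ 1 := by nlinarith [sq_nonneg m, sq_nonneg n]
  have hQ4 : Q ≤ 1 := by nlinarith [sq_nonneg m, sq_nonneg n]
  set G := 1 + k ^ 2 * P - k ^ 2 * (n * (n + m)) with hG
  set T := (1 - p) * q with hT
  have hT0 : 0 ≤ T := mul_nonneg (by linarith) hq.le
  have hT2 : T ≤ 1 := by nlinarith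
  have key : n * (p - q) * (2 * k ^ 4 * (P + Q) * T + (1 - k ^ 2 * P) * G) = 0 := by
    linear_combination (-G) * h2 - (n * k ^ 2 * (n + m) - (1 - k ^ 2 * Q)) * T * h1
  have hnn : n * (n + m) ≤ 2 := by nlinarith
  have hnn0 : 0 ≤ n * (n + m) := by positivity
  have hkP : -0.0752 ≤ k ^ 2 * P := by nlinarith
  have hkP' : k ^ 2 * P ≤ 0.0752 := by nlinarith
  have hG1 : 0.774 ≤ G := by nlinarith [mul_le_mul_of_nonneg_left hnn hk0]
  have hB1 : 0.924 ≤ 1 - k ^ 2 * P := by linarith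
  have hk4 : k ^ 4 ≤ 0.00566 := by nlinarith [sq_nonneg (k ^ 2)]
  have hk40 : 0 ≤ k ^ 4 := by positivity
  have hPQT : -2 ≤ (P + Q) * T := by nlinarith
  have hpos : 0 < 2 * k ^ 4 * (P + Q) * T + (1 - k ^ 2 * P) * G := by
    have h3 : -(0.00566 * 2) ≤ k ^ 4 * ((P + Q) * T) := by nlinarith
    have h4 : 0.924 * 0.774 ≤ (1 - k ^ 2 * P) * G :=
      mul_le_mul hB1 hG1 (by norm_num) (by linarith)
    nlinarith
  have hpq : p = q := by
    rcases mul_eq_zero.mp key with h | h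
    · rcases mul_eq_zero.mp h with h | h
      · exact absurd h hn.ne'
      · linarith
    · exact absurd h hpos.ne'
  refine ⟨hpq, ?_⟩
  subst hpq
  have h5 : (m - n) * (1 + k ^ 2 * (2 * p ^ 2 - 2 * p) - k ^ 2 * (m * n)) = 0 := by
    linear_combination h1
  have hmn : m * n ≤ 1 := by nlinarith
  have hmn0 : 0 ≤ m * n := by positivity
  have h6 : 0 < 1 + k ^ 2 * (2 * p ^ 2 - 2 * p) - k ^ 2 * (m * n) := by
    have h7 : -1 ≤ 2 * p ^ 2 - 2 * p := by nlinarith [sq_nonneg (2 * p - 1)]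
    nlinarith [mul_le_mul_of_nonneg_left hmn hk0]
  rcases mul_eq_zero.mp h5 with h | h
  · linarith
  · exact absurd h h6.ne'

/-- Mirror class, second step: the two remaining equations are contradictory. -/
theorem mirror_solve (p m : ℝ) (hp : 0 < p) (hp1 : p < 1) (hm : 0 < m)
    (i : m * (1 + (17 / 62 : ℝ) ^ 2 * (2 * p ^ 2 - 2 * p + m ^ 2)) =
      2 * (17 / 62) * (1 - m ^ 2 - p ^ 2))
    (ii : m * (1 - (17 / 62 : ℝ) ^ 2 * (2 * p ^ 2 - 2 * p + m ^ 2)) =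
      2 * (17 / 62) * ((1 - p) * p)) : False := by
  have iii : m = 17 / 62 * (1 + p - 2 * p ^ 2 - m ^ 2) := by
    linear_combination (1 / 2 : ℝ) * i + (1 / 2 : ℝ) * ii
  have iv : m * (17 / 62) * (2 * p ^ 2 - 2 * p + m ^ 2) = 1 - p - m ^ 2 := by
    linear_combination (31 / 17 : ℝ) * i - (31 / 17 : ℝ) * ii
  have v0 : (1 - p) * (2 * m ^ 2 - (1 - p) * (1 + 2 * p)) = 0 := by
    linear_combination (1 + p - 2 * p ^ 2 - m ^ 2) * iv + m * (2 * p ^ 2 - 2 * p + m ^ 2) * iii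
  have v : 2 * m ^ 2 = (1 - p) * (1 + 2 * p) := by
    rcases mul_eq_zero.mp v0 with h | h
    · linarith
    · linarith
  have vi : m = 17 / 62 * ((1 - p) * (1 + 2 * p)) / 2 := by
    linear_combination iii - (17 / 124 : ℝ) * v
  -- m = (17/124) * S with S = 2 m^2, so m * (1 - (17/62) m) = 0, impossible for 0 < m ≤ 1
  have h8 : m = 17 / 62 * m ^ 2 := by linear_combination vi - (17 / 124 : ℝ) * v
  have hm1 : m ^ 2 ≤ 9 / 16 := by nlinarith [sq_nonneg (4 * p - 1)]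
  have hm1' : m ≤ 1 := by nlinarith
  nlinarith

/-- **Classification of the fixed-point equations on `S² × S²`** (`k = 17/62`). -/
theorem classify (u1 u2 u3 v1 v2 v3 : ℝ)
    (hu : u1 ^ 2 + u2 ^ 2 + u3 ^ 2 = 1) (hv : v1 ^ 2 + v2 ^ 2 + v3 ^ 2 = 1)
    (E1 : u2 * (1 + (17 / 62 : ℝ) ^ 2 * ((1 + u3) ^ 2 - v3 ^ 2)) = -2 * (17 / 62) * u1 * v3)
    (E2 : u2 * (1 - (17 / 62 : ℝ) ^ 2 * ((1 - v1) ^ 2 - u1 ^ 2)) = -2 * (17 / 62) * (1 - v1) * u3)
    (E3 : v2 * (1 - (17 / 62 : ℝ) ^ 2 * ((1 + u3) ^ 2 - v3 ^ 2)) = -2 * (17 / 62) * (1 + u3) * v1)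
    (E4 : v2 * (1 + (17 / 62 : ℝ) ^ 2 * ((1 - v1) ^ 2 - u1 ^ 2)) = 2 * (17 / 62) * u1 * v3) :
    (u1 = 0 ∧ u2 = 0 ∧ u3 = -1 ∧ v1 = 1 ∧ v2 = 0 ∧ v3 = 0) ∨
    (u3 = 7 / 17 ∧ u2 = -6 / 17 ∧ u1 ^ 2 = 204 / 289 ∧ v1 = -7 / 17 ∧ v2 = 6 / 17 ∧ v3 = u1) := by
  -- coordinate bounds
  have hu1 : u1 ^ 2 ≤ 1 := by nlinarith [sq_nonneg u2, sq_nonneg u3]
  have hu2' : u2 ^ 2 ≤ 1 := by nlinarith [sq_nonneg u1, sq_nonneg u3]
  have hu3 : u3 ^ 2 ≤ 1 := by nlinarith [sq_nonneg u1, sq_nonneg u2]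
  have hv1 : v1 ^ 2 ≤ 1 := by nlinarith [sq_nonneg v2, sq_nonneg v3]
  have hv2' : v2 ^ 2 ≤ 1 := by nlinarith [sq_nonneg v1, sq_nonneg v3]
  have hv3 : v3 ^ 2 ≤ 1 := by nlinarith [sq_nonneg v1, sq_nonneg v2]
  have hu3l : -1 ≤ u3 := by nlinarith
  have hu3r : u3 ≤ 1 := by nlinarith
  have hv1l : -1 ≤ v1 := by nlinarith
  have hv1r : v1 ≤ 1 := by nlinarith
  -- the denominators are positive
  have hPl : -1 ≤ (1 + u3) ^ 2 - v3 ^ 2 := by nlinarith [sq_nonneg (1 + u3)]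
  have hPr : (1 + u3) ^ 2 - v3 ^ 2 ≤ 4 := by nlinarith [sq_nonneg v3]
  have hQl : -1 ≤ (1 - v1) ^ 2 - u1 ^ 2 := by nlinarith [sq_nonneg (1 - v1)]
  have hQr : (1 - v1) ^ 2 - u1 ^ 2 ≤ 4 := by nlinarith [sq_nonneg u1]
  have hA : 0 < 1 + (17 / 62 : ℝ) ^ 2 * ((1 + u3) ^ 2 - v3 ^ 2) := by nlinarith
  have hB : 0 < 1 - (17 / 62 : ℝ) ^ 2 * ((1 + u3) ^ 2 - v3 ^ 2) := by nlinarith
  have hC : 0 < 1 - (17 / 62 : ℝ) ^ 2 * ((1 - v1) ^ 2 - u1 ^ 2) := by nlinarith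
  have hD : 0 < 1 + (17 / 62 : ℝ) ^ 2 * ((1 - v1) ^ 2 - u1 ^ 2) := by nlinarith
  have hk2 : (17 / 62 : ℝ) ^ 2 ≤ 0.0752 := by norm_num
  rcases lt_trichotomy (u1 * v3) 0 with h | h | h
  · -- mirror class: impossible
    exfalso
    have hu2 : 0 < u2 := by
      by_contra hcon
      rw [not_lt] at hcon
      have h1 := mul_nonpos_of_nonpos_of_nonneg hcon hA.le
      nlinarith
    have hv2 : v2 < 0 := by
      by_contra hcon
      rw [not_lt] at hcon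
      have h1 := mul_nonneg hcon hD.le
      nlinarith
    have h2 : (1 - v1) * u3 < 0 := by
      have h1 := mul_pos hu2 hC
      nlinarith
    have hu3n : u3 < 0 := by
      by_contra hcon
      rw [not_lt] at hcon
      have h1 := mul_nonneg (by linarith : (0:ℝ) ≤ 1 - v1) hcon
      linarith
    have h3 : 0 < (1 + u3) * v1 := by
      have h1 := mul_neg_of_neg_of_pos hv2 hB
      nlinarith
    have hv1p : 0 < v1 := by
      by_contra hcon
      rw [not_lt] at hcon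
      have h1 := mul_nonpos_of_nonneg_of_nonpos (by linarith : (0:ℝ) ≤ 1 + u3) hcon
      linarith
    have hu3gt : -1 < u3 := by
      by_contra hcon
      rw [not_lt] at hcon
      have : u3 = -1 := le_antisymm hcon hu3l
      rw [this] at h3
      simp at h3
    have key1 : u2 * (1 + (17 / 62 : ℝ) ^ 2 * ((-u3) ^ 2 + v1 ^ 2 - 2 * (-u3) + (-v2) ^ 2)) =
        (-v2) * (1 + (17 / 62 : ℝ) ^ 2 * ((-u3) ^ 2 + v1 ^ 2 - 2 * v1 + u2 ^ 2)) := by
      linear_combination E1 + E4 + u2 * (17 / 62 : ℝ) ^ 2 * hv + v2 * (17 / 62 : ℝ) ^ 2 * hu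
    have key2 : u2 * (1 - (17 / 62 : ℝ) ^ 2 * ((-u3) ^ 2 + v1 ^ 2 - 2 * v1 + u2 ^ 2)) *
          ((1 - (-u3)) * v1) =
        (-v2) * (1 - (17 / 62 : ℝ) ^ 2 * ((-u3) ^ 2 + v1 ^ 2 - 2 * (-u3) + (-v2) ^ 2)) *
          ((1 - v1) * (-u3)) := by
      linear_combination ((1 + u3) * v1) * E2 - ((1 + u3) * v1) * u2 * (17 / 62 : ℝ) ^ 2 * hu
        + ((1 - v1) * (-u3)) * E3 - ((1 - v1) * (-u3)) * v2 * (17 / 62 : ℝ) ^ 2 * hv
    obtain ⟨e1, e2⟩ := mirror_pq (17 / 62) (-u3) v1 u2 (-v2) hk2 (by linarith) hv1p hu2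
      (by linarith) (by nlinarith [sq_nonneg u1]) (by nlinarith [sq_nonneg v3]) key1 key2
    have hv1e : v1 = -u3 := e1.symm
    have hv2e : v2 = -u2 := by linarith
    subst hv1e hv2e
    have hsq : v3 ^ 2 = u1 ^ 2 := by nlinarith
    have hv3e : v3 = -u1 := by
      rcases sq_eq_sq_iff_eq_or_eq_neg.mp hsq with h' | h'
      · rw [h'] at h
        nlinarith [sq_nonneg u1]
      · exact h'
    subst hv3e
    refine mirror_solve (-u3) u2 (by linarith) (by linarith) hu2 ?_ ?_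
    · linear_combination E1 + (2 * (17 / 62 : ℝ) + u2 * (17 / 62 : ℝ) ^ 2) * hu
    · linear_combination E2 - u2 * (17 / 62 : ℝ) ^ 2 * hu
  · -- degenerate class
    left
    have e1 : u2 * (1 + (17 / 62 : ℝ) ^ 2 * ((1 + u3) ^ 2 - v3 ^ 2)) = 0 := by
      rw [E1]; linear_combination (-2 * (17 / 62 : ℝ)) * h
    have hu2 : u2 = 0 := by
      rcases mul_eq_zero.mp e1 with h' | h'
      · exact h'
      · exact absurd h' hA.ne'
    have e4 : v2 * (1 + (17 / 62 : ℝ) ^ 2 * ((1 - v1) ^ 2 - u1 ^ 2)) = 0 := by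
      rw [E4]; linear_combination (2 * (17 / 62 : ℝ)) * h
    have hv2 : v2 = 0 := by
      rcases mul_eq_zero.mp e4 with h' | h'
      · exact h'
      · exact absurd h' hD.ne'
    subst hu2 hv2
    have e2 : (1 - v1) * u3 = 0 := by linear_combination (31 / 17 : ℝ) * E2
    have e3 : (1 + u3) * v1 = 0 := by linear_combination (31 / 17 : ℝ) * E3
    rcases mul_eq_zero.mp e2 with h' | h'
    · have hv1e : v1 = 1 := by linarith
      subst hv1e
      have hv3e : v3 = 0 := by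
        have : v3 ^ 2 = 0 := by linarith
        simpa using this
      have hu3e : u3 = -1 := by linarith
      subst hu3e
      have hu1e : u1 = 0 := by
        have : u1 ^ 2 = 0 := by linarith
        simpa using this
      exact ⟨hu1e, rfl, rfl, rfl, rfl, hv3e⟩
    · exfalso
      subst h'
      have hv1e : v1 = 0 := by linarith
      subst hv1e
      have h5 : (u1 * v3) ^ 2 = 1 := by
        have a1 : u1 ^ 2 = 1 := by linarith
        have a2 : v3 ^ 2 = 1 := by linarith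
        rw [mul_pow, a1, a2]; norm_num
      rw [h] at h5
      norm_num at h5
  · -- main class
    right
    have hu2 : u2 < 0 := by
      by_contra hcon
      rw [not_lt] at hcon
      have h1 := mul_nonneg hcon hA.le
      nlinarith
    have hv2 : 0 < v2 := by
      by_contra hcon
      rw [not_lt] at hcon
      have h1 := mul_nonpos_of_nonpos_of_nonneg hcon hD.le
      nlinarith
    have h2 : 0 < (1 - v1) * u3 := by
      have h1 := mul_neg_of_neg_of_pos hu2 hC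
      nlinarith
    have hu3p : 0 < u3 := by
      by_contra hcon
      rw [not_lt] at hcon
      have h1 := mul_nonpos_of_nonneg_of_nonpos (by linarith : (0:ℝ) ≤ 1 - v1) hcon
      linarith
    have h3 : (1 + u3) * v1 < 0 := by
      have h1 := mul_pos hv2 hB
      nlinarith
    have hv1n : v1 < 0 := by
      by_contra hcon
      rw [not_lt] at hcon
      have h1 := mul_nonneg (by linarith : (0:ℝ) ≤ 1 + u3) hcon
      linarith
    have key1 : (-u2) * (1 + (17 / 62 : ℝ) ^ 2 * (u3 ^ 2 + (-v1) ^ 2 + 2 * u3 + v2 ^ 2)) =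
        v2 * (1 + (17 / 62 : ℝ) ^ 2 * (u3 ^ 2 + (-v1) ^ 2 + 2 * (-v1) + (-u2) ^ 2)) := by
      linear_combination (-1 : ℝ) * E1 - E4 - u2 * (17 / 62 : ℝ) ^ 2 * hv
        - v2 * (17 / 62 : ℝ) ^ 2 * hu
    have key2 : (-u2) * (1 - (17 / 62 : ℝ) ^ 2 * (u3 ^ 2 + (-v1) ^ 2 + 2 * (-v1) + (-u2) ^ 2)) *
          ((1 + u3) * (-v1)) =
        v2 * (1 - (17 / 62 : ℝ) ^ 2 * (u3 ^ 2 + (-v1) ^ 2 + 2 * u3 + v2 ^ 2)) *
          ((1 + (-v1)) * u3) := by
      linear_combination (-((1 + u3) * (-v1))) * E2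
        + ((1 + u3) * (-v1)) * u2 * (17 / 62 : ℝ) ^ 2 * hu
        - ((1 + (-v1)) * u3) * E3 + ((1 + (-v1)) * u3) * v2 * (17 / 62 : ℝ) ^ 2 * hv
    obtain ⟨e1, e2⟩ := main_pq (17 / 62) u3 (-v1) (-u2) v2 hk2 hu3p (by linarith) (by linarith)
      hv2 (by nlinarith [sq_nonneg u1]) (by nlinarith [sq_nonneg v3]) key1 key2
    have hv1e : v1 = -u3 := by linarith
    have hv2e : v2 = -u2 := e2.symm
    subst hv1e hv2e
    have hsq : v3 ^ 2 = u1 ^ 2 := by nlinarith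
    have hv3e : v3 = u1 := by
      rcases sq_eq_sq_iff_eq_or_eq_neg.mp hsq with h' | h'
      · exact h'
      · rw [h'] at h
        nlinarith [sq_nonneg u1]
    subst hv3e
    obtain ⟨hp, hm⟩ := main_solve u3 (-u2) hu3p (by linarith)
      (by linear_combination (-1 : ℝ) * E1 + (2 * (17 / 62 : ℝ) - u2 * (17 / 62 : ℝ) ^ 2) * hu)
      (by linear_combination (-1 : ℝ) * E2 + u2 * (17 / 62 : ℝ) ^ 2 * hu)
    have hu2e : u2 = -6 / 17 := by linarith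
    subst hp hu2e
    refine ⟨rfl, rfl, ?_, by norm_num, by norm_num, rfl⟩
    nlinarith

end Crest.Agent.LibS0316Alg
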