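import Mathlib
import Crest.Prelude.Def_QuadricHamiltonian

/-!
S0316, package DEG: the degenerate fixed point.

`zstar = (0, 1, -i, 1, -i)/2` lies on the unit isotropic cone, `wvec = (0, 0, 1, 0, -1)` is a
tangent vector there which is not a real multiple of the circle direction, and along the real
line `zstar + t • wvec` the time-one map is exactly `x ↦ -x`.  Hence the differential of the
time-one map sends `wvec` to `-wvec = c • (wvec + 0)` with `c = -1`.
-/

namespace Crest.Agent.LibS0316Deg

open Crest.GeometryTopology.Quadric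

/-- The degenerate fixed point (a point of the unit isotropic cone). -/
noncomputable def zstar : Fin 5 → ℂ := ![0, 1/2, -Complex.I/2, 1/2, -Complex.I/2]

/-- The fixed tangent direction at `zstar`. -/
noncomputable def wvec : Fin 5 → ℂ := ![0, 0, 1, 0, -1]

theorem zstar_mem : zstar ∈ unitCone := by
  constructor
  · have h2 : (starRingEnd ℂ) (2 : ℂ) = 2 := Complex.conj_ofNat 2
    simp [herm, zstar, Fin.sum_univ_succ]
    ring_nf
    simp [h2]
    norm_num
  · simp [zstar, Fin.sum_univ_succ]
    ring_nf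
    simp

theorem wvec_mem : wvec ∈ coneTangent zstar := by
  constructor
  · simp [herm, zstar, wvec, Fin.sum_univ_succ]
  · simp [zstar, wvec, Fin.sum_univ_succ]

theorem wvec_ne (r : ℝ) : wvec ≠ ((r : ℂ) * Complex.I) • zstar := by
  intro h
  have h1 := congrFun h 1
  have h2 := congrFun h 2
  simp [zstar, wvec] at h1 h2
  simp [h1] at h2

/-- If the time-one map is `x ↦ -x` along the real line `zstar + t • wvec`, then `zstar` is a
degenerate fixed point. -/
theorem hasDegenerateFixedPoint_of_line (L : HamiltonianConeLift)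
    (hline : ∀ t : ℝ, L.Ψ (1, zstar + t • wvec) = -(zstar + t • wvec)) :
    HasDegenerateFixedPoint L := by
  refine ⟨zstar, zstar_mem, -1, ?_, wvec, wvec_mem, wvec_ne, 0, ?_⟩
  · have := hline 0
    simpa using this
  · have hdiff : DifferentiableAt ℝ (fun x : Fin 5 → ℂ => L.Ψ (1, x)) zstar := by
      have h1 : Differentiable ℝ L.Ψ := L.smooth_Ψ.differentiable (by simp)
      have h2 : Differentiable ℝ (fun x : Fin 5 → ℂ => ((1 : ℝ), x)) :=
        (differentiable_const _).prodMk differentiable_id
      exact (h1.comp h2) zstar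
    have hline' : HasDerivAt (fun t : ℝ => L.Ψ (1, zstar + t • wvec)) (-wvec) 0 := by
      have h3 : HasDerivAt (fun t : ℝ => -(zstar + t • wvec)) (-((1 : ℝ) • wvec)) 0 :=
        (((hasDerivAt_id (0 : ℝ)).smul_const wvec).const_add zstar).neg
      have h4 : (fun t : ℝ => L.Ψ (1, zstar + t • wvec)) = fun t : ℝ => -(zstar + t • wvec) :=
        funext hline
      rw [h4]
      simpa using h3
    have hl : lineDeriv ℝ (fun x : Fin 5 → ℂ => L.Ψ (1, x)) zstar wvec = -wvec := by
      simpa [lineDeriv] using hline'.deriv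
    rw [← hdiff.lineDeriv_eq_fderiv, hl]
    simp

/-! ### The explicit composite of four twists -/

/-- Rotation by the real angle `θ` in the coordinate plane `(j, k)`. -/
noncomputable def rot (j k : Fin 5) (θ : ℝ) (z : Fin 5 → ℂ) : Fin 5 → ℂ :=
  fun i => if i = j then (Real.cos θ : ℂ) * z j - (Real.sin θ : ℂ) * z k
    else if i = k then (Real.sin θ : ℂ) * z j + (Real.cos θ : ℂ) * z k else z i

/-- The moment map of the rotation in the coordinate plane `(j, k)`. -/
noncomputable def mu (j k : Fin 5) (z : Fin 5 → ℂ) : ℝ :=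
  2 * (starRingEnd ℂ (z j) * z k).im

/-- The twist: rotate in the plane `(j, k)` by the angle `f (mu j k z)`. -/
noncomputable def twist (j k : Fin 5) (f : ℝ → ℝ) (z : Fin 5 → ℂ) : Fin 5 → ℂ :=
  rot j k (f (mu j k z)) z

/-- The points of the line through `zstar` in the direction `wvec`. -/
theorem line_eq (t : ℝ) :
    zstar + t • wvec = ![0, 1/2, -Complex.I/2 + t, 1/2, -Complex.I/2 - t] := by
  funext i
  fin_cases i <;> simp [zstar, wvec]
  ring

theorem twist_line (f12 f34 f14 f23 : ℝ → ℝ) (h12 : f12 (-1/2) = Real.pi)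
    (h34 : f34 (-1/2) = Real.pi) (h14 : f14 (-1/2) = 0) (h23 : f23 (1/2) = 0) (t : ℝ) :
    twist 2 3 f23 (twist 1 4 f14 (twist 3 4 f34 (twist 1 2 f12 (zstar + t • wvec)))) =
      -(zstar + t • wvec) := by
  rw [line_eq]
  have c2 : (starRingEnd ℂ) (2 : ℂ) = 2 := Complex.conj_ofNat 2
  have e1 : twist 1 2 f12 ![0, 1/2, -Complex.I/2 + t, 1/2, -Complex.I/2 - t] =
      ![0, -1/2, Complex.I/2 - t, 1/2, -Complex.I/2 - t] := by
    have hm : mu 1 2 ![0, 1/2, -Complex.I/2 + t, 1/2, -Complex.I/2 - t] = -1/2 := by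
      simp [mu]
    unfold twist
    rw [hm, h12]
    funext i
    fin_cases i <;> simp [rot] <;> ring
  have e2 : twist 3 4 f34 ![0, -1/2, Complex.I/2 - t, 1/2, -Complex.I/2 - t] =
      ![0, -1/2, Complex.I/2 - t, -1/2, Complex.I/2 + t] := by
    have hm : mu 3 4 ![0, -1/2, Complex.I/2 - t, 1/2, -Complex.I/2 - t] = -1/2 := by
      simp [mu, c2]
    unfold twist
    rw [hm, h34]
    funext i
    fin_cases i <;> simp [rot] <;> ring
  have e3 : twist 1 4 f14 ![0, -1/2, Complex.I/2 - t, -1/2, Complex.I/2 + t] =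
      ![0, -1/2, Complex.I/2 - t, -1/2, Complex.I/2 + t] := by
    have hm : mu 1 4 ![0, -1/2, Complex.I/2 - t, -1/2, Complex.I/2 + t] = -1/2 := by
      simp [mu, c2]
      norm_num
    unfold twist
    rw [hm, h14]
    funext i
    fin_cases i <;> simp [rot]
  have e4 : twist 2 3 f23 ![0, -1/2, Complex.I/2 - t, -1/2, Complex.I/2 + t] =
      ![0, -1/2, Complex.I/2 - t, -1/2, Complex.I/2 + t] := by
    have hm : mu 2 3 ![0, -1/2, Complex.I/2 - t, -1/2, Complex.I/2 + t] = 1/2 := by
      simp [mu, c2]
      norm_num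
    unfold twist
    rw [hm, h23]
    funext i
    fin_cases i <;> simp [rot]
  rw [e1, e2, e3, e4]
  funext i
  fin_cases i <;> simp <;> ring

/-- The degenerate fixed point for any lift whose time-one map is the composite of the four
twists, provided the four angle functions take the values `π, π, 0, 0` at the relevant moment
values. -/
theorem hasDegenerateFixedPoint_of_twists (L : HamiltonianConeLift) (f12 f34 f14 f23 : ℝ → ℝ)
    (h12 : f12 (-1/2) = Real.pi) (h34 : f34 (-1/2) = Real.pi) (h14 : f14 (-1/2) = 0)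
    (h23 : f23 (1/2) = 0)
    (hL : ∀ z : Fin 5 → ℂ, L.Ψ (1, z) =
      twist 2 3 f23 (twist 1 4 f14 (twist 3 4 f34 (twist 1 2 f12 z)))) :
    HasDegenerateFixedPoint L :=
  hasDegenerateFixedPoint_of_line L fun t => by
    rw [hL, twist_line f12 f34 f14 f23 h12 h34 h14 h23]

end Crest.Agent.LibS0316Deg
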