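import Mathlib
import Crest.Prelude.Def_QuadricHamiltonian

/-!
# Generic Hamiltonian cone lift built from four "twists" (helper11, for S0316)

`rot j k θ` rotates the coordinate plane `(j,k)` of `ℂ⁵` by the real angle `θ`;
`mu j k z = 2 Im (conj (z j) * z k)` is its moment map;
`twist j k f z = rot j k (f (mu j k z)) z`.

Main result `exists_lift`: for smooth `F₁₂ F₃₄ F₁₄ F₂₃ : ℝ → ℝ` with derivatives `f₁₂ f₃₄ f₁₄ f₂₃`
there is a `HamiltonianConeLift` whose time-one map is, on all of `ℂ⁵`,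
`twist 2 3 f₂₃ ∘ twist 1 4 f₁₄ ∘ twist 3 4 f₃₄ ∘ twist 1 2 f₁₂`.
-/

set_option autoImplicit false

namespace Crest.Agent.S0316Lift

open Crest.GeometryTopology.Quadric

noncomputable section

/-- Rotation of the coordinate plane `(j,k)` by the angle `θ`. -/
def rot (j k : Fin 5) (θ : ℝ) (z : Fin 5 → ℂ) : Fin 5 → ℂ :=
  fun i => if i = j then (Real.cos θ : ℂ) * z j - (Real.sin θ : ℂ) * z k
    else if i = k then (Real.sin θ : ℂ) * z j + (Real.cos θ : ℂ) * z k else z i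

/-- The moment map of the rotation of the plane `(j,k)`. -/
def mu (j k : Fin 5) (z : Fin 5 → ℂ) : ℝ := 2 * (starRingEnd ℂ (z j) * z k).im

/-- The twist map: rotate the plane `(j,k)` by the angle `f (mu j k z)`. -/
def twist (j k : Fin 5) (f : ℝ → ℝ) (z : Fin 5 → ℂ) : Fin 5 → ℂ := rot j k (f (mu j k z)) z

/-- The infinitesimal generator of `rot j k`. -/
def jrot (j k : Fin 5) (p : Fin 5 → ℂ) : Fin 5 → ℂ :=
  fun i => if i = j then - p k else if i = k then p j else 0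

section basic

variable {j k : Fin 5}

lemma rot_apply_left (j k : Fin 5) (θ : ℝ) (z : Fin 5 → ℂ) :
    rot j k θ z j = (Real.cos θ : ℂ) * z j - (Real.sin θ : ℂ) * z k := by
  simp [rot]

lemma rot_apply_right (h : j ≠ k) (θ : ℝ) (z : Fin 5 → ℂ) :
    rot j k θ z k = (Real.sin θ : ℂ) * z j + (Real.cos θ : ℂ) * z k := by
  simp [rot, h.symm]

lemma rot_apply_ne {i : Fin 5} (hj : i ≠ j) (hk : i ≠ k) (θ : ℝ) (z : Fin 5 → ℂ) :
    rot j k θ z i = z i := by
  simp [rot, hj, hk]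

lemma rot_zero (j k : Fin 5) (z : Fin 5 → ℂ) : rot j k 0 z = z := by
  funext i
  by_cases hj : i = j
  · subst hj; simp [rot]
  · by_cases hk : i = k
    · subst hk; simp [rot, hj]
    · simp [rot, hj, hk]

lemma rot_smul (j k : Fin 5) (θ : ℝ) (c : ℂ) (z : Fin 5 → ℂ) :
    rot j k θ (c • z) = c • rot j k θ z := by
  funext i
  simp only [rot, Pi.smul_apply, smul_eq_mul]
  split_ifs <;> ring

lemma cs_sq (θ : ℝ) : (Real.cos θ : ℂ) ^ 2 + (Real.sin θ : ℂ) ^ 2 = 1 := by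
  have h := Real.cos_sq_add_sin_sq θ
  exact_mod_cast h

lemma herm_rot (h : j ≠ k) (θ : ℝ) (u w : Fin 5 → ℂ) :
    herm (rot j k θ u) (rot j k θ w) = herm u w := by
  unfold herm
  rw [← sub_eq_zero, ← Finset.sum_sub_distrib]
  rw [Fintype.sum_eq_add j k h]
  · rw [rot_apply_left, rot_apply_left, rot_apply_right h, rot_apply_right h]
    simp only [map_sub, map_add, map_mul, Complex.conj_ofReal]
    linear_combination (starRingEnd ℂ (u j) * w j + starRingEnd ℂ (u k) * w k) * cs_sq θ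
  · intro i hi
    rw [rot_apply_ne hi.1 hi.2, rot_apply_ne hi.1 hi.2, sub_self]

lemma sumsq_rot (h : j ≠ k) (θ : ℝ) (z : Fin 5 → ℂ) :
    ∑ i, (rot j k θ z i) ^ 2 = ∑ i, (z i) ^ 2 := by
  rw [← sub_eq_zero, ← Finset.sum_sub_distrib]
  rw [Fintype.sum_eq_add j k h]
  · rw [rot_apply_left, rot_apply_right h]
    linear_combination ((z j) ^ 2 + (z k) ^ 2) * cs_sq θ
  · intro i hi
    rw [rot_apply_ne hi.1 hi.2, sub_self]

lemma rot_mem_cone (h : j ≠ k) (θ : ℝ) {z : Fin 5 → ℂ} (hz : z ∈ unitCone) :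
    rot j k θ z ∈ unitCone := by
  refine ⟨?_, ?_⟩
  · rw [herm_rot h]; exact hz.1
  · rw [sumsq_rot h]; exact hz.2

lemma mu_rot_same (h : j ≠ k) (θ : ℝ) (z : Fin 5 → ℂ) :
    mu j k (rot j k θ z) = mu j k z := by
  unfold mu
  rw [rot_apply_left, rot_apply_right h]
  have h1 := Real.cos_sq_add_sin_sq θ
  simp only [map_sub, map_mul, Complex.conj_ofReal, Complex.mul_im, Complex.sub_im, Complex.add_im,
    Complex.sub_re, Complex.add_re, Complex.mul_re, Complex.ofReal_re, Complex.ofReal_im,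
    Complex.conj_re, Complex.conj_im]
  linear_combination (2 * ((z j).re * (z k).im - (z j).im * (z k).re)) * h1

lemma mu_rot_disj {l m : Fin 5} (hlj : l ≠ j) (hlk : l ≠ k) (hmj : m ≠ j) (hmk : m ≠ k)
    (θ : ℝ) (z : Fin 5 → ℂ) : mu l m (rot j k θ z) = mu l m z := by
  unfold mu
  rw [rot_apply_ne hlj hlk, rot_apply_ne hmj hmk]

lemma mu_smul (j k : Fin 5) {c : ℂ} (hc : ‖c‖ = 1) (z : Fin 5 → ℂ) :
    mu j k (c • z) = mu j k z := by
  unfold mu
  have h1 : starRingEnd ℂ c * c = 1 := by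
    rw [mul_comm, Complex.mul_conj, Complex.normSq_eq_norm_sq, hc]; simp
  have : starRingEnd ℂ ((c • z) j) * (c • z) k = starRingEnd ℂ (z j) * z k := by
    simp only [Pi.smul_apply, smul_eq_mul, map_mul]
    linear_combination (starRingEnd ℂ (z j) * z k) * h1
  rw [this]

end basic

section phase

variable {j k l m : Fin 5}

/-- Two rotations in disjoint coordinate planes, written as a sum. -/
lemma rot_rot_disj (hlm : l ≠ m) (hlj : l ≠ j) (hlk : l ≠ k) (hmj : m ≠ j) (hmk : m ≠ k)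
    (θ₁ θ₂ : ℝ) (z : Fin 5 → ℂ) :
    rot l m θ₂ (rot j k θ₁ z) = rot j k θ₁ z + rot l m θ₂ z - z := by
  funext i
  simp only [Pi.add_apply, Pi.sub_apply]
  by_cases hil : i = l
  · subst hil
    rw [rot_apply_left, rot_apply_ne hlj hlk, rot_apply_ne hmj hmk, rot_apply_left]
    ring
  · by_cases him : i = m
    · subst him
      rw [rot_apply_right hlm, rot_apply_ne hlj hlk, rot_apply_ne hmj hmk, rot_apply_right hlm]
      ring
    · rw [rot_apply_ne hil him, rot_apply_ne hil him]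
      ring

/-- The flow of a pair of commuting twists (planes `(j,k)` and `(l,m)`) at time `p.1`. -/
def phase (j k l m : Fin 5) (f g : ℝ → ℝ) (p : ℝ × (Fin 5 → ℂ)) : Fin 5 → ℂ :=
  rot j k (p.1 * f (mu j k p.2)) p.2 + rot l m (p.1 * g (mu l m p.2)) p.2 - p.2

lemma phase_eq_comp (hlm : l ≠ m) (hlj : l ≠ j) (hlk : l ≠ k) (hmj : m ≠ j) (hmk : m ≠ k)
    (f g : ℝ → ℝ) (s : ℝ) (z : Fin 5 → ℂ) :
    phase j k l m f g (s, z) =
      rot l m (s * g (mu l m z)) (rot j k (s * f (mu j k z)) z) := by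
  rw [rot_rot_disj hlm hlj hlk hmj hmk]
  rfl

lemma phase_zero (f g : ℝ → ℝ) (z : Fin 5 → ℂ) : phase j k l m f g (0, z) = z := by
  simp [phase, rot_zero]

lemma phase_one (hlm : l ≠ m) (hlj : l ≠ j) (hlk : l ≠ k) (hmj : m ≠ j) (hmk : m ≠ k)
    (f g : ℝ → ℝ) (z : Fin 5 → ℂ) :
    phase j k l m f g (1, z) = twist l m g (twist j k f z) := by
  rw [phase_eq_comp hlm hlj hlk hmj hmk]
  unfold twist
  rw [mu_rot_disj hlj hlk hmj hmk, one_mul, one_mul]

lemma phase_mem_cone (hjk : j ≠ k) (hlm : l ≠ m) (hlj : l ≠ j) (hlk : l ≠ k) (hmj : m ≠ j)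
    (hmk : m ≠ k) (f g : ℝ → ℝ) (s : ℝ) {z : Fin 5 → ℂ} (hz : z ∈ unitCone) :
    phase j k l m f g (s, z) ∈ unitCone := by
  rw [phase_eq_comp hlm hlj hlk hmj hmk]
  exact rot_mem_cone hlm _ (rot_mem_cone hjk _ hz)

lemma phase_smul (f g : ℝ → ℝ) (s : ℝ) {c : ℂ} (hc : ‖c‖ = 1) (z : Fin 5 → ℂ) :
    phase j k l m f g (s, c • z) = c • phase j k l m f g (s, z) := by
  simp only [phase, mu_smul _ _ hc, rot_smul, smul_sub, smul_add]

lemma mu_phase_left (hjk : j ≠ k) (hlm : l ≠ m) (hlj : l ≠ j) (hlk : l ≠ k) (hmj : m ≠ j)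
    (hmk : m ≠ k) (f g : ℝ → ℝ) (s : ℝ) (z : Fin 5 → ℂ) :
    mu j k (phase j k l m f g (s, z)) = mu j k z := by
  rw [phase_eq_comp hlm hlj hlk hmj hmk, mu_rot_disj hlj.symm hmj.symm hlk.symm hmk.symm,
    mu_rot_same hjk]

lemma mu_phase_right (hlm : l ≠ m) (hlj : l ≠ j) (hlk : l ≠ k) (hmj : m ≠ j)
    (hmk : m ≠ k) (f g : ℝ → ℝ) (s : ℝ) (z : Fin 5 → ℂ) :
    mu l m (phase j k l m f g (s, z)) = mu l m z := by
  rw [phase_eq_comp hlm hlj hlk hmj hmk, mu_rot_same hlm, mu_rot_disj hlj hlk hmj hmk]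

lemma phase_apply_left (hlj : l ≠ j) (hmj : m ≠ j)
    (f g : ℝ → ℝ) (s : ℝ) (z : Fin 5 → ℂ) :
    phase j k l m f g (s, z) j = rot j k (s * f (mu j k z)) z j := by
  simp only [phase, Pi.add_apply, Pi.sub_apply]
  rw [rot_apply_ne hlj.symm hmj.symm]
  ring

lemma phase_apply_right (hlk : l ≠ k) (hmk : m ≠ k)
    (f g : ℝ → ℝ) (s : ℝ) (z : Fin 5 → ℂ) :
    phase j k l m f g (s, z) k = rot j k (s * f (mu j k z)) z k := by
  simp only [phase, Pi.add_apply, Pi.sub_apply]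
  rw [rot_apply_ne hlk.symm hmk.symm]
  ring

lemma phase_apply_left' (hlj : l ≠ j) (hlk : l ≠ k)
    (f g : ℝ → ℝ) (s : ℝ) (z : Fin 5 → ℂ) :
    phase j k l m f g (s, z) l = rot l m (s * g (mu l m z)) z l := by
  simp only [phase, Pi.add_apply, Pi.sub_apply]
  rw [rot_apply_ne hlj hlk]
  ring

lemma phase_apply_right' (hmj : m ≠ j) (hmk : m ≠ k)
    (f g : ℝ → ℝ) (s : ℝ) (z : Fin 5 → ℂ) :
    phase j k l m f g (s, z) m = rot l m (s * g (mu l m z)) z m := by
  simp only [phase, Pi.add_apply, Pi.sub_apply]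
  rw [rot_apply_ne hmj hmk]
  ring

lemma jrot_congr (j k : Fin 5) {p p' : Fin 5 → ℂ} (hj : p j = p' j) (hk : p k = p' k) :
    jrot j k p = jrot j k p' := by
  funext i
  simp only [jrot, hj, hk]

end phase

section smooth

lemma contDiff_mu (j k : Fin 5) : ContDiff ℝ (⊤ : ℕ∞) (mu j k) := by
  have h1 : ContDiff ℝ (⊤ : ℕ∞) (fun z : Fin 5 → ℂ => z j) := contDiff_apply ℝ ℂ j
  have h2 : ContDiff ℝ (⊤ : ℕ∞) (fun z : Fin 5 → ℂ => z k) := contDiff_apply ℝ ℂ k
  have h3 : ContDiff ℝ (⊤ : ℕ∞) (fun z : Fin 5 → ℂ => starRingEnd ℂ (z j)) :=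
    Complex.conjCLE.contDiff.comp h1
  have h4 : ContDiff ℝ (⊤ : ℕ∞) (fun z : Fin 5 → ℂ => (starRingEnd ℂ (z j) * z k).im) :=
    Complex.imCLM.contDiff.comp (h3.mul h2)
  exact contDiff_const.mul h4

lemma contDiff_rot {E : Type*} [NormedAddCommGroup E] [NormedSpace ℝ E] (j k : Fin 5)
    {a : E → ℝ} {b : E → Fin 5 → ℂ} (ha : ContDiff ℝ (⊤ : ℕ∞) a) (hb : ContDiff ℝ (⊤ : ℕ∞) b) :
    ContDiff ℝ (⊤ : ℕ∞) (fun x => rot j k (a x) (b x)) := by
  have hc : ContDiff ℝ (⊤ : ℕ∞) (fun x => ((Real.cos (a x) : ℝ) : ℂ)) :=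
    Complex.ofRealCLM.contDiff.comp (Real.contDiff_cos.comp ha)
  have hs : ContDiff ℝ (⊤ : ℕ∞) (fun x => ((Real.sin (a x) : ℝ) : ℂ)) :=
    Complex.ofRealCLM.contDiff.comp (Real.contDiff_sin.comp ha)
  have hb' : ∀ i : Fin 5, ContDiff ℝ (⊤ : ℕ∞) (fun x => b x i) :=
    fun i => (contDiff_apply ℝ ℂ i).comp hb
  refine contDiff_pi.2 (fun i => ?_)
  simp only [rot]
  split_ifs
  · exact (hc.mul (hb' j)).sub (hs.mul (hb' k))
  · exact (hs.mul (hb' j)).add (hc.mul (hb' k))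
  · exact hb' i

lemma contDiff_phase (j k l m : Fin 5) {f g : ℝ → ℝ} (hf : ContDiff ℝ (⊤ : ℕ∞) f)
    (hg : ContDiff ℝ (⊤ : ℕ∞) g) : ContDiff ℝ (⊤ : ℕ∞) (phase j k l m f g) := by
  have h1 : ContDiff ℝ (⊤ : ℕ∞) (fun p : ℝ × (Fin 5 → ℂ) => p.1) := contDiff_fst
  have h2 : ContDiff ℝ (⊤ : ℕ∞) (fun p : ℝ × (Fin 5 → ℂ) => p.2) := contDiff_snd
  have ha : ContDiff ℝ (⊤ : ℕ∞) (fun p : ℝ × (Fin 5 → ℂ) => p.1 * f (mu j k p.2)) :=
    h1.mul (hf.comp ((contDiff_mu j k).comp h2))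
  have hb : ContDiff ℝ (⊤ : ℕ∞) (fun p : ℝ × (Fin 5 → ℂ) => p.1 * g (mu l m p.2)) :=
    h1.mul (hg.comp ((contDiff_mu l m).comp h2))
  exact ((contDiff_rot j k ha h2).add (contDiff_rot l m hb h2)).sub h2

end smooth

section deriv

variable {j k l m : Fin 5}

lemma hasDerivAt_rot (hjk : j ≠ k) {θ : ℝ → ℝ} {θ' t : ℝ} (hθ : HasDerivAt θ θ' t)
    (z : Fin 5 → ℂ) :
    HasDerivAt (fun s => rot j k (θ s) z) (θ' • jrot j k (rot j k (θ t) z)) t := by
  have hc : HasDerivAt (fun s => ((Real.cos (θ s) : ℝ) : ℂ))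
      (((-Real.sin (θ t) * θ' : ℝ)) : ℂ) t := hθ.cos.ofReal_comp
  have hs : HasDerivAt (fun s => ((Real.sin (θ s) : ℝ) : ℂ))
      (((Real.cos (θ t) * θ' : ℝ)) : ℂ) t := hθ.sin.ofReal_comp
  refine hasDerivAt_pi.2 (fun i => ?_)
  by_cases hij : i = j
  · subst hij
    have h := (hc.mul_const (z i)).sub (hs.mul_const (z k))
    have e : (fun s => rot i k (θ s) z i) =
        fun s => ((Real.cos (θ s) : ℝ) : ℂ) * z i - ((Real.sin (θ s) : ℝ) : ℂ) * z k := by
      funext s; rw [rot_apply_left]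
    rw [e]
    refine HasDerivAt.congr_deriv h ?_
    simp only [Pi.smul_apply, jrot, if_true, rot_apply_right hjk, Complex.real_smul]
    push_cast
    ring
  · by_cases hik : i = k
    · subst hik
      have h := (hs.mul_const (z j)).add (hc.mul_const (z i))
      have e : (fun s => rot j i (θ s) z i) =
          fun s => ((Real.sin (θ s) : ℝ) : ℂ) * z j + ((Real.cos (θ s) : ℝ) : ℂ) * z i := by
        funext s; rw [rot_apply_right hjk]
      rw [e]
      refine HasDerivAt.congr_deriv h ?_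
      simp only [Pi.smul_apply, jrot, if_neg hij, if_true, rot_apply_left, Complex.real_smul]
      push_cast
      ring
    · have e : (fun s => rot j k (θ s) z i) = fun _ => z i := by
        funext s; rw [rot_apply_ne hij hik]
      rw [e]
      have : (θ' • jrot j k (rot j k (θ t) z)) i = 0 := by
        simp [jrot, hij, hik]
      rw [this]
      exact hasDerivAt_const t (z i)

/-- The velocity field of a phase. -/
def phaseVel (j k l m : Fin 5) (f g : ℝ → ℝ) (p : Fin 5 → ℂ) : Fin 5 → ℂ :=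
  f (mu j k p) • jrot j k p + g (mu l m p) • jrot l m p

lemma hasDerivAt_phase (hjk : j ≠ k) (hlm : l ≠ m) (hlj : l ≠ j) (hlk : l ≠ k) (hmj : m ≠ j)
    (hmk : m ≠ k) (f g : ℝ → ℝ) {β : ℝ → ℝ} {β' t : ℝ} (hβ : HasDerivAt β β' t)
    (z : Fin 5 → ℂ) :
    HasDerivAt (fun s => phase j k l m f g (β s, z))
      (β' • phaseVel j k l m f g (phase j k l m f g (β t, z))) t := by
  have h1 := hasDerivAt_rot hjk (hβ.mul_const (f (mu j k z))) z
  have h2 := hasDerivAt_rot hlm (hβ.mul_const (g (mu l m z))) z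
  have h := (h1.add h2).sub_const z
  have e : (fun s => phase j k l m f g (β s, z)) =
      fun s => rot j k (β s * f (mu j k z)) z + rot l m (β s * g (mu l m z)) z - z := rfl
  rw [e]
  refine HasDerivAt.congr_deriv h ?_
  unfold phaseVel
  rw [mu_phase_left hjk hlm hlj hlk hmj hmk, mu_phase_right hlm hlj hlk hmj hmk]
  rw [jrot_congr j k (phase_apply_left hlj hmj f g (β t) z)
      (phase_apply_right hlk hmk f g (β t) z),
    jrot_congr l m (phase_apply_left' hlj hlk f g (β t) z)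
      (phase_apply_right' hmj hmk f g (β t) z)]
  simp only [smul_add, mul_smul]

lemma herm_jrot (hjk : j ≠ k) (p w : Fin 5 → ℂ) :
    herm (jrot j k p) w = - starRingEnd ℂ (p k) * w j + starRingEnd ℂ (p j) * w k := by
  unfold herm
  rw [Fintype.sum_eq_add j k hjk]
  · simp [jrot, hjk.symm]
  · intro i hi
    simp [jrot, hi.1, hi.2]

lemma herm_add_left (u v w : Fin 5 → ℂ) : herm (u + v) w = herm u w + herm v w := by
  unfold herm
  rw [← Finset.sum_add_distrib]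
  refine Finset.sum_congr rfl (fun i _ => ?_)
  simp only [Pi.add_apply, map_add]
  ring

lemma herm_real_smul_left (r : ℝ) (u w : Fin 5 → ℂ) : herm (r • u) w = (r : ℂ) * herm u w := by
  unfold herm
  rw [Finset.mul_sum]
  refine Finset.sum_congr rfl (fun i _ => ?_)
  simp only [Pi.smul_apply, Complex.real_smul, map_mul, Complex.conj_ofReal]
  ring

/-- The differential of the moment map is the symplectic pairing with the generator. -/
lemma hasFDerivAt_mu (hjk : j ≠ k) (p : Fin 5 → ℂ) :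
    ∃ D : (Fin 5 → ℂ) →L[ℝ] ℝ, HasFDerivAt (mu j k) D p ∧
      ∀ w, D w = 2 * (herm (jrot j k p) w).im := by
  have h1 : HasFDerivAt (fun z : Fin 5 → ℂ => z j)
      (ContinuousLinearMap.proj (R := ℝ) (φ := fun _ : Fin 5 => ℂ) j) p :=
    (ContinuousLinearMap.proj (R := ℝ) (φ := fun _ : Fin 5 => ℂ) j).hasFDerivAt
  have h2 : HasFDerivAt (fun z : Fin 5 → ℂ => z k)
      (ContinuousLinearMap.proj (R := ℝ) (φ := fun _ : Fin 5 => ℂ) k) p :=
    (ContinuousLinearMap.proj (R := ℝ) (φ := fun _ : Fin 5 => ℂ) k).hasFDerivAt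
  have h3 : HasFDerivAt (fun z : Fin 5 → ℂ => starRingEnd ℂ (z j)) _ p :=
    Complex.conjCLE.hasFDerivAt.comp p h1
  have h4 := h3.mul h2
  have h5 := Complex.imCLM.hasFDerivAt.comp p h4
  have h6 := h5.const_mul (2 : ℝ)
  refine ⟨_, h6, fun w => ?_⟩
  rw [herm_jrot hjk]
  simp
  ring

/-- The Hamiltonian of a phase. -/
def phaseHam (j k l m : Fin 5) (F G : ℝ → ℝ) (x : Fin 5 → ℂ) : ℝ := F (mu j k x) + G (mu l m x)

lemma hasFDerivAt_phaseHam (hjk : j ≠ k) (hlm : l ≠ m) {F G f g : ℝ → ℝ}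
    (hF : ∀ x, HasDerivAt F (f x) x) (hG : ∀ x, HasDerivAt G (g x) x) (p : Fin 5 → ℂ) :
    ∃ D : (Fin 5 → ℂ) →L[ℝ] ℝ, HasFDerivAt (phaseHam j k l m F G) D p ∧
      ∀ w, D w = 2 * (herm (phaseVel j k l m f g p) w).im := by
  obtain ⟨D1, hD1, e1⟩ := hasFDerivAt_mu hjk p
  obtain ⟨D2, hD2, e2⟩ := hasFDerivAt_mu hlm p
  have h1 := (hF (mu j k p)).comp_hasFDerivAt p hD1
  have h2 := (hG (mu l m p)).comp_hasFDerivAt p hD2
  refine ⟨_, h1.add h2, fun w => ?_⟩
  unfold phaseVel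
  rw [herm_add_left, herm_real_smul_left, herm_real_smul_left]
  simp [e1, e2]
  ring

lemma contDiff_phaseHam (j k l m : Fin 5) {F G : ℝ → ℝ} (hF : ContDiff ℝ (⊤ : ℕ∞) F)
    (hG : ContDiff ℝ (⊤ : ℕ∞) G) : ContDiff ℝ (⊤ : ℕ∞) (phaseHam j k l m F G) :=
  (hF.comp (contDiff_mu j k)).add (hG.comp (contDiff_mu l m))

lemma phaseHam_smul (j k l m : Fin 5) (F G : ℝ → ℝ) {c : ℂ} (hc : ‖c‖ = 1) (z : Fin 5 → ℂ) :
    phaseHam j k l m F G (c • z) = phaseHam j k l m F G z := by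
  simp only [phaseHam, mu_smul _ _ hc]

/-- Hamilton's equation along a phase reparametrised in time by `β`. -/
lemma hamilton_phase (hjk : j ≠ k) (hlm : l ≠ m) (hlj : l ≠ j) (hlk : l ≠ k) (hmj : m ≠ j)
    (hmk : m ≠ k) {F G f g : ℝ → ℝ}
    (hF : ∀ x, HasDerivAt F (f x) x) (hG : ∀ x, HasDerivAt G (g x) x)
    {β : ℝ → ℝ} {β' t : ℝ} (hβ : HasDerivAt β β' t) (z w : Fin 5 → ℂ) :
    2 * (herm (deriv (fun s => phase j k l m f g (β s, z)) t) w).im =
      fderiv ℝ (fun x => β' * phaseHam j k l m F G x) (phase j k l m f g (β t, z)) w := by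
  rw [(hasDerivAt_phase hjk hlm hlj hlk hmj hmk f g hβ z).deriv]
  obtain ⟨D, hD, eD⟩ := hasFDerivAt_phaseHam (l := l) (m := m) hjk hlm hF hG
    (phase j k l m f g (β t, z))
  rw [(hD.const_mul β').fderiv, herm_real_smul_left]
  simp [eD]
  ring

end deriv

section time

open Filter Topology

/-- The time ramp of the first phase. -/
def b1 (t : ℝ) : ℝ := Real.smoothTransition (3 * t)

/-- The time ramp of the second phase. -/
def b2 (t : ℝ) : ℝ := Real.smoothTransition (3 * t - 2)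

lemma contDiff_b1 : ContDiff ℝ (⊤ : ℕ∞) b1 :=
  Real.smoothTransition.contDiff.comp (contDiff_const.mul contDiff_id)

lemma contDiff_b2 : ContDiff ℝ (⊤ : ℕ∞) b2 :=
  Real.smoothTransition.contDiff.comp ((contDiff_const.mul contDiff_id).sub contDiff_const)

lemma contDiff_deriv_b1 : ContDiff ℝ (⊤ : ℕ∞) (deriv b1) :=
  (contDiff_infty_iff_deriv.1 contDiff_b1).2

lemma contDiff_deriv_b2 : ContDiff ℝ (⊤ : ℕ∞) (deriv b2) :=
  (contDiff_infty_iff_deriv.1 contDiff_b2).2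

lemma hasDerivAt_b1 (t : ℝ) : HasDerivAt b1 (deriv b1 t) t :=
  ((contDiff_infty_iff_deriv.1 contDiff_b1).1 t).hasDerivAt

lemma hasDerivAt_b2 (t : ℝ) : HasDerivAt b2 (deriv b2 t) t :=
  ((contDiff_infty_iff_deriv.1 contDiff_b2).1 t).hasDerivAt

lemma b1_zero : b1 0 = 0 := Real.smoothTransition.zero_of_nonpos (by norm_num)

lemma b2_zero : b2 0 = 0 := Real.smoothTransition.zero_of_nonpos (by norm_num)

lemma b1_one : b1 1 = 1 := Real.smoothTransition.one_of_one_le (by norm_num)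

lemma b2_one : b2 1 = 1 := Real.smoothTransition.one_of_one_le (by norm_num)

lemma b2_eventually {t : ℝ} (ht : t < 2 / 3) : ∀ᶠ s in 𝓝 t, b2 s = 0 := by
  filter_upwards [Iio_mem_nhds ht] with s hs
  have hs' : s < 2 / 3 := hs
  exact Real.smoothTransition.zero_of_nonpos (by linarith)

lemma b1_eventually {t : ℝ} (ht : 1 / 3 < t) : ∀ᶠ s in 𝓝 t, b1 s = 1 := by
  filter_upwards [Ioi_mem_nhds ht] with s hs
  have hs' : 1 / 3 < s := hs
  exact Real.smoothTransition.one_of_one_le (by linarith)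

lemma deriv_b2_eq_zero {t : ℝ} (ht : t < 2 / 3) : deriv b2 t = 0 := by
  have h : b2 =ᶠ[𝓝 t] fun _ => (0 : ℝ) := b2_eventually ht
  rw [h.deriv_eq]
  simp

lemma deriv_b1_eq_zero {t : ℝ} (ht : 1 / 3 < t) : deriv b1 t = 0 := by
  have h : b1 =ᶠ[𝓝 t] fun _ => (1 : ℝ) := b1_eventually ht
  rw [h.deriv_eq]
  simp

end time

section main

open Filter Topology

variable (F12 F34 F14 F23 f12 f34 f14 f23 : ℝ → ℝ)

/-- The lifted isotopy: first the phase with planes `(1,2)`, `(3,4)`, then the one with planes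
`(1,4)`, `(2,3)`. -/
def liftΨ (p : ℝ × (Fin 5 → ℂ)) : Fin 5 → ℂ :=
  phase 1 4 2 3 f14 f23 (b2 p.1, phase 1 2 3 4 f12 f34 (b1 p.1, p.2))

/-- The time-dependent Hamiltonian. -/
def liftH (p : ℝ × (Fin 5 → ℂ)) : ℝ :=
  deriv b1 p.1 * phaseHam 1 2 3 4 F12 F34 p.2 + deriv b2 p.1 * phaseHam 1 4 2 3 F14 F23 p.2

lemma contDiff_of_hasDerivAt {F f : ℝ → ℝ} (hF : ContDiff ℝ (⊤ : ℕ∞) F)
    (hf : ∀ x, HasDerivAt F (f x) x) : ContDiff ℝ (⊤ : ℕ∞) f := by
  have : f = deriv F := by funext x; exact (hf x).deriv.symm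
  rw [this]
  exact (contDiff_infty_iff_deriv.1 hF).2

lemma liftΨ_one (z : Fin 5 → ℂ) :
    liftΨ f12 f34 f14 f23 (1, z) =
      twist 2 3 f23 (twist 1 4 f14 (twist 3 4 f34 (twist 1 2 f12 z))) := by
  simp only [liftΨ, b1_one, b2_one]
  rw [phase_one (by decide) (by decide) (by decide) (by decide) (by decide),
    phase_one (by decide) (by decide) (by decide) (by decide) (by decide)]

/-- **Main construction.** Four twists give a Hamiltonian cone lift whose time-one map is their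
composite (on all of `ℂ⁵`). -/
theorem exists_lift
    (hF12 : ContDiff ℝ (⊤ : ℕ∞) F12) (hF34 : ContDiff ℝ (⊤ : ℕ∞) F34)
    (hF14 : ContDiff ℝ (⊤ : ℕ∞) F14) (hF23 : ContDiff ℝ (⊤ : ℕ∞) F23)
    (hf12 : ∀ x, HasDerivAt F12 (f12 x) x) (hf34 : ∀ x, HasDerivAt F34 (f34 x) x)
    (hf14 : ∀ x, HasDerivAt F14 (f14 x) x) (hf23 : ∀ x, HasDerivAt F23 (f23 x) x) :
    ∃ L : HamiltonianConeLift, ∀ z : Fin 5 → ℂ,
      L.Ψ (1, z) = twist 2 3 f23 (twist 1 4 f14 (twist 3 4 f34 (twist 1 2 f12 z))) := by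
  have c12 := contDiff_of_hasDerivAt hF12 hf12
  have c34 := contDiff_of_hasDerivAt hF34 hf34
  have c14 := contDiff_of_hasDerivAt hF14 hf14
  have c23 := contDiff_of_hasDerivAt hF23 hf23
  refine ⟨{ Ψ := liftΨ f12 f34 f14 f23
            H := liftH F12 F34 F14 F23
            smooth_Ψ := ?_
            smooth_H := ?_
            mapsTo_cone := ?_
            compatible := ?_
            start := ?_
            invariant := ?_
            hamilton := ?_ }, fun z => liftΨ_one f12 f34 f14 f23 z⟩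
  · -- smooth_Ψ
    exact (contDiff_phase 1 4 2 3 c14 c23).comp
      ((contDiff_b2.comp contDiff_fst).prodMk
        ((contDiff_phase 1 2 3 4 c12 c34).comp
          ((contDiff_b1.comp contDiff_fst).prodMk contDiff_snd)))
  · -- smooth_H
    exact ((contDiff_deriv_b1.comp contDiff_fst).mul
        ((contDiff_phaseHam 1 2 3 4 hF12 hF34).comp contDiff_snd)).add
      ((contDiff_deriv_b2.comp contDiff_fst).mul
        ((contDiff_phaseHam 1 4 2 3 hF14 hF23).comp contDiff_snd))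
  · -- mapsTo_cone
    intro t z hz
    exact phase_mem_cone (by decide) (by decide) (by decide) (by decide) (by decide) (by decide)
      _ _ _ (phase_mem_cone (by decide) (by decide) (by decide) (by decide) (by decide)
        (by decide) _ _ _ hz)
  · -- compatible
    intro t z _ c hc
    refine ⟨c, ?_⟩
    simp only [liftΨ]
    rw [phase_smul _ _ _ hc, phase_smul _ _ _ hc]
  · -- start
    intro z _
    refine ⟨1, ?_⟩
    simp only [liftΨ, b1_zero, b2_zero, phase_zero, one_smul]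
  · -- invariant
    intro t z _ c hc
    simp only [liftH, phaseHam_smul _ _ _ _ _ _ hc]
  · -- hamilton
    intro t _ z _ w _
    rcases lt_or_ge t (1 / 2) with ht | ht
    · have ht' : t < 2 / 3 := by linarith
      have e1 : (fun s => liftΨ f12 f34 f14 f23 (s, z)) =ᶠ[𝓝 t]
          fun s => phase 1 2 3 4 f12 f34 (b1 s, z) := by
        filter_upwards [b2_eventually ht'] with s hs
        simp only [liftΨ, hs, phase_zero]
      have e2 : liftΨ f12 f34 f14 f23 (t, z) = phase 1 2 3 4 f12 f34 (b1 t, z) := e1.eq_of_nhds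
      have e3 : (fun x => liftH F12 F34 F14 F23 (t, x)) =
          fun x => deriv b1 t * phaseHam 1 2 3 4 F12 F34 x := by
        funext x
        simp only [liftH, deriv_b2_eq_zero ht', zero_mul, add_zero]
      rw [e1.deriv_eq, e2, e3]
      exact hamilton_phase (by decide) (by decide) (by decide) (by decide) (by decide)
        (by decide) hf12 hf34 (hasDerivAt_b1 t) z w
    · have ht' : 1 / 3 < t := by linarith
      have e1 : (fun s => liftΨ f12 f34 f14 f23 (s, z)) =ᶠ[𝓝 t]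
          fun s => phase 1 4 2 3 f14 f23 (b2 s, phase 1 2 3 4 f12 f34 (1, z)) := by
        filter_upwards [b1_eventually ht'] with s hs
        simp only [liftΨ, hs]
      have e2 : liftΨ f12 f34 f14 f23 (t, z) =
          phase 1 4 2 3 f14 f23 (b2 t, phase 1 2 3 4 f12 f34 (1, z)) := e1.eq_of_nhds
      have e3 : (fun x => liftH F12 F34 F14 F23 (t, x)) =
          fun x => deriv b2 t * phaseHam 1 4 2 3 F14 F23 x := by
        funext x
        simp only [liftH, deriv_b1_eq_zero ht', zero_mul, zero_add]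
      rw [e1.deriv_eq, e2, e3]
      exact hamilton_phase (by decide) (by decide) (by decide) (by decide) (by decide)
        (by decide) hf14 hf23 (hasDerivAt_b2 t) _ w

end main

end

end Crest.Agent.S0316Lift
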