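import Mathlib
import Crest.Prelude.Def_QuadricHamiltonian
import Crest.Agent.Lib_S0316_Lift

/-!
S0316, package OFF (= F1): a fixed line of the composite of the four twists lies in `z 0 = 0`.

If the first two twists rotate by angles with negative cosine and the last two by angles with
positive cosine (on the range `[-1, 1]` of the moment maps on the unit cone), then any point
`z` of the unit cone whose image is proportional to `z` has `z 0 = 0`.
-/

set_option autoImplicit false

namespace Crest.Agent.S0316Off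

open Crest.GeometryTopology.Quadric Crest.Agent.S0316Lift

/-- The Hermitian square as a sum of squared norms. -/
lemma herm_self (v : Fin 5 → ℂ) :
    herm v v = ((∑ i, Complex.normSq (v i) : ℝ) : ℂ) := by
  unfold herm
  push_cast
  refine Finset.sum_congr rfl fun i _ => ?_
  rw [mul_comm, Complex.mul_conj]

lemma sum_normSq_of_mem {v : Fin 5 → ℂ} (hv : v ∈ unitCone) :
    ∑ i, Complex.normSq (v i) = 1 := by
  have h := hv.1
  rw [herm_self] at h
  exact_mod_cast h

/-- On the unit cone the moment maps take values in `[-1, 1]`. -/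
lemma abs_mu_le {v : Fin 5 → ℂ} (hv : v ∈ unitCone) {j k : Fin 5} (hjk : j ≠ k) :
    |mu j k v| ≤ 1 := by
  have h1 := sum_normSq_of_mem hv
  have h2 : Complex.normSq (v j) + Complex.normSq (v k) ≤ ∑ i, Complex.normSq (v i) := by
    rw [Fintype.sum_eq_add_sum_compl j, ← Finset.add_sum_erase _ _ (show k ∈ ({j}ᶜ : Finset (Fin 5)) by simpa using hjk.symm)]
    have : 0 ≤ ∑ x ∈ ({j}ᶜ : Finset (Fin 5)).erase k, Complex.normSq (v x) :=
      Finset.sum_nonneg fun i _ => Complex.normSq_nonneg _
    linarith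
  have h3 : |mu j k v| ≤ Complex.normSq (v j) + Complex.normSq (v k) := by
    unfold mu
    simp only [Complex.mul_im, Complex.conj_re, Complex.conj_im, Complex.normSq_apply]
    rw [abs_le]
    constructor <;> nlinarith [sq_nonneg ((v j).re - (v k).im), sq_nonneg ((v j).im + (v k).re),
      sq_nonneg ((v j).re + (v k).im), sq_nonneg ((v j).im - (v k).re)]
  linarith

lemma re_herm_rot_12_34 (α β : ℝ) (v : Fin 5 → ℂ) :
    (herm v (rot 3 4 β (rot 1 2 α v))).re =
      Complex.normSq (v 0) + Real.cos α * (Complex.normSq (v 1) + Complex.normSq (v 2)) +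
        Real.cos β * (Complex.normSq (v 3) + Complex.normSq (v 4)) := by
  unfold herm
  rw [Fin.sum_univ_five]
  simp [rot, Complex.normSq_apply, Complex.cos_ofReal_re, Complex.sin_ofReal_re,
    Complex.cos_ofReal_im, Complex.sin_ofReal_im]
  ring

lemma re_herm_rot_14_23 (α β : ℝ) (v : Fin 5 → ℂ) :
    (herm v (rot 2 3 β (rot 1 4 α v))).re =
      Complex.normSq (v 0) + Real.cos α * (Complex.normSq (v 1) + Complex.normSq (v 4)) +
        Real.cos β * (Complex.normSq (v 2) + Complex.normSq (v 3)) := by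
  unfold herm
  rw [Fin.sum_univ_five]
  simp [rot, Complex.normSq_apply, Complex.cos_ofReal_re, Complex.sin_ofReal_re,
    Complex.cos_ofReal_im, Complex.sin_ofReal_im]
  ring

lemma re_herm_comm (u w : Fin 5 → ℂ) : (herm u w).re = (herm w u).re := by
  unfold herm
  simp only [Complex.re_sum]
  refine Finset.sum_congr rfl fun i _ => ?_
  simp [Complex.mul_re]
  ring

/-- **F1.** If the first two twists rotate by angles with negative cosine and the last two by
angles with positive cosine, a point of the unit cone whose image under the composite of the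
four twists is proportional to it has vanishing zeroth coordinate. -/
theorem z0_eq_zero_of_fixed (f12 f34 f14 f23 : ℝ → ℝ)
    (h12 : ∀ x : ℝ, |x| ≤ 1 → Real.cos (f12 x) < 0)
    (h34 : ∀ x : ℝ, |x| ≤ 1 → Real.cos (f34 x) < 0)
    (h14 : ∀ x : ℝ, |x| ≤ 1 → 0 < Real.cos (f14 x))
    (h23 : ∀ x : ℝ, |x| ≤ 1 → 0 < Real.cos (f23 x))
    {z : Fin 5 → ℂ} (hz : z ∈ unitCone) {c : ℂ}
    (hfix : twist 2 3 f23 (twist 1 4 f14 (twist 3 4 f34 (twist 1 2 f12 z))) = c • z) :
    z 0 = 0 := by
  by_contra hz0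
  -- the intermediate points
  set θ₁ : ℝ := f12 (mu 1 2 z) with hθ₁
  set z1 : Fin 5 → ℂ := rot 1 2 θ₁ z with hz1
  set θ₂ : ℝ := f34 (mu 3 4 z1) with hθ₂
  set y : Fin 5 → ℂ := rot 3 4 θ₂ z1 with hy
  set θ₃ : ℝ := f14 (mu 1 4 y) with hθ₃
  set z3 : Fin 5 → ℂ := rot 1 4 θ₃ y with hz3
  set θ₄ : ℝ := f23 (mu 2 3 z3) with hθ₄
  have hfix' : rot 2 3 θ₄ z3 = c • z := hfix
  have m1 : z1 ∈ unitCone := rot_mem_cone (by decide) _ hz
  have my : y ∈ unitCone := rot_mem_cone (by decide) _ m1
  have m3 : z3 ∈ unitCone := rot_mem_cone (by decide) _ my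
  have c1 : Real.cos θ₁ < 0 := h12 _ (abs_mu_le hz (by decide))
  have c2 : Real.cos θ₂ < 0 := h34 _ (abs_mu_le m1 (by decide))
  have c3 : 0 < Real.cos θ₃ := h14 _ (abs_mu_le my (by decide))
  have c4 : 0 < Real.cos θ₄ := h23 _ (abs_mu_le m3 (by decide))
  -- the zeroth coordinate is not moved, hence `c = 1`
  have e0 : (rot 2 3 θ₄ z3) 0 = z 0 := by
    rw [rot_apply_ne (by decide) (by decide), hz3, rot_apply_ne (by decide) (by decide), hy,
      rot_apply_ne (by decide) (by decide), hz1, rot_apply_ne (by decide) (by decide)]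
  have hc : c = 1 := by
    have h := congrFun hfix' 0
    rw [e0] at h
    simp only [Pi.smul_apply, smul_eq_mul] at h
    have h' : (c - 1) * z 0 = 0 := by linear_combination -h
    rcases mul_eq_zero.mp h' with h'' | h''
    · linear_combination h''
    · exact absurd h'' hz0
  have hfix'' : rot 2 3 θ₄ (rot 1 4 θ₃ y) = z := by
    rw [← hz3, hfix', hc, one_smul]
  have y0 : y 0 = z 0 := by
    rw [hy, rot_apply_ne (by decide) (by decide), hz1, rot_apply_ne (by decide) (by decide)]
  have eA := re_herm_rot_12_34 θ₁ θ₂ z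
  have eB := re_herm_rot_14_23 θ₃ θ₄ y
  rw [hfix''] at eB
  rw [← hz1, ← hy, re_herm_comm] at eA
  rw [eA, y0] at eB
  have n1 := Complex.normSq_nonneg (z 1)
  have n2 := Complex.normSq_nonneg (z 2)
  have n3 := Complex.normSq_nonneg (z 3)
  have n4 := Complex.normSq_nonneg (z 4)
  have k1 := Complex.normSq_nonneg (y 1)
  have k2 := Complex.normSq_nonneg (y 2)
  have k3 := Complex.normSq_nonneg (y 3)
  have k4 := Complex.normSq_nonneg (y 4)
  have hR : 0 ≤ Real.cos θ₃ * (Complex.normSq (y 1) + Complex.normSq (y 4)) +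
      Real.cos θ₄ * (Complex.normSq (y 2) + Complex.normSq (y 3)) := by positivity
  have hA1 : Real.cos θ₁ * (Complex.normSq (z 1) + Complex.normSq (z 2)) ≤ 0 :=
    mul_nonpos_of_nonpos_of_nonneg c1.le (by positivity)
  have hA2 : Real.cos θ₂ * (Complex.normSq (z 3) + Complex.normSq (z 4)) ≤ 0 :=
    mul_nonpos_of_nonpos_of_nonneg c2.le (by positivity)
  have hA1' : Real.cos θ₁ * (Complex.normSq (z 1) + Complex.normSq (z 2)) = 0 := by linarith
  have hA2' : Real.cos θ₂ * (Complex.normSq (z 3) + Complex.normSq (z 4)) = 0 := by linarith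
  have s12 : Complex.normSq (z 1) + Complex.normSq (z 2) = 0 := by
    rcases mul_eq_zero.mp hA1' with h | h
    · exact absurd h c1.ne
    · exact h
  have s34 : Complex.normSq (z 3) + Complex.normSq (z 4) = 0 := by
    rcases mul_eq_zero.mp hA2' with h | h
    · exact absurd h c2.ne
    · exact h
  have z1' : z 1 = 0 := Complex.normSq_eq_zero.mp (by linarith)
  have z2' : z 2 = 0 := Complex.normSq_eq_zero.mp (by linarith)
  have z3' : z 3 = 0 := Complex.normSq_eq_zero.mp (by linarith)
  have z4' : z 4 = 0 := Complex.normSq_eq_zero.mp (by linarith)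
  have hs := hz.2
  rw [Fin.sum_univ_five, z1', z2', z3', z4'] at hs
  simp at hs
  exact hz0 hs

/-! ### The concrete angle functions -/

lemma cos_two_arctan_pos {g : ℝ} (hg : |g| < 1) : 0 < Real.cos (2 * Real.arctan g) := by
  rw [abs_lt] at hg
  have h1 : Real.arctan g < Real.pi / 4 := by
    rw [← Real.arctan_one]
    exact Real.arctan_strictMono hg.2
  have h2 : -(Real.pi / 4) < Real.arctan g := by
    rw [← Real.arctan_one, ← Real.arctan_neg]
    exact Real.arctan_strictMono hg.1
  apply Real.cos_pos_of_mem_Ioo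
  constructor <;> linarith

lemma cos_pi_add_two_arctan_neg {g : ℝ} (hg : |g| < 1) :
    Real.cos (Real.pi + 2 * Real.arctan g) < 0 := by
  rw [add_comm, Real.cos_add_pi]
  linarith [cos_two_arctan_pos hg]

lemma cos_pi_sub_two_arctan_neg {g : ℝ} (hg : |g| < 1) :
    Real.cos (Real.pi - 2 * Real.arctan g) < 0 := by
  rw [Real.cos_pi_sub]
  linarith [cos_two_arctan_pos hg]

lemma abs_affine_lt {k x : ℝ} (hk0 : 0 ≤ k) (hk : 3 * k < 1) (hx : |x| ≤ 1) :
    |k * (1 + 2 * x)| < 1 ∧ |k * (1 - 2 * x)| < 1 := by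
  rw [abs_le] at hx
  constructor <;> rw [abs_lt] <;> constructor <;> nlinarith

/-- **F1** for the concrete angle functions `π + 2 arctan (k (1 + 2x))`, `π - 2 arctan (k (1 + 2x))`,
`2 arctan (k (1 + 2x))`, `2 arctan (k (1 - 2x))` with `0 ≤ k < 1/3`. -/
theorem z0_eq_zero_of_fixed_arctan {k : ℝ} (hk0 : 0 ≤ k) (hk : 3 * k < 1)
    {z : Fin 5 → ℂ} (hz : z ∈ unitCone) {c : ℂ}
    (hfix : twist 2 3 (fun x => 2 * Real.arctan (k * (1 - 2 * x)))
      (twist 1 4 (fun x => 2 * Real.arctan (k * (1 + 2 * x)))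
        (twist 3 4 (fun x => Real.pi - 2 * Real.arctan (k * (1 + 2 * x)))
          (twist 1 2 (fun x => Real.pi + 2 * Real.arctan (k * (1 + 2 * x))) z))) = c • z) :
    z 0 = 0 :=
  z0_eq_zero_of_fixed _ _ _ _
    (fun _ hx => cos_pi_add_two_arctan_neg (abs_affine_lt hk0 hk hx).1)
    (fun _ hx => cos_pi_sub_two_arctan_neg (abs_affine_lt hk0 hk hx).1)
    (fun _ hx => cos_two_arctan_pos (abs_affine_lt hk0 hk hx).1)
    (fun _ hx => cos_two_arctan_pos (abs_affine_lt hk0 hk hx).2) hz hfix

end Crest.Agent.S0316Off
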