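import Mathlib
import Crest.Prelude.Def_QuadricHamiltonian
import Crest.Agent.Lib_S0316_Lift

/-!
S0316 (a Hamiltonian diffeomorphism of the quadric threefold with exactly three fixed points):
the specific data.  Coordinates of `ℂ⁵` are `z 0, …, z 4`; `rot`, `mu`, `twist` are those of
`Lib_S0316_Lift` (namespace `Crest.Agent.S0316Lift`).

* `kap = 17/62`; the four twist profiles `f12`, `f34`, `f14`, `f23` and their primitives
  `F12`, `F34`, `F14`, `F23`;
* `Phi`: the time-one map, a composition of four twists (planes `(1,2)`, `(3,4)`, then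
  `(1,4)`, `(2,3)`);
* `U1 … V3`: coordinates on `Q² = {z 0 = 0} = S² × S²`;
* `uvMap`: the (rational) map induced by `Phi` on the `(u, v)` coordinates;
* `zStar`, `zPM 1`, `zPM (-1)`: cone points over the three fixed points; `wStar`: the degenerate
  tangent direction at `zStar`.
-/

set_option autoImplicit false

namespace Crest.Agent.LibS0316

open Crest.GeometryTopology.Quadric
open Crest.Agent.S0316Lift

noncomputable section

/-- The constant `κ = 17/62`. -/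
def kap : ℝ := 17 / 62

/-- Twist profile in the plane `(1,2)`. -/
def f12 (x : ℝ) : ℝ := Real.pi + 2 * Real.arctan (kap * (1 + 2 * x))
/-- Twist profile in the plane `(3,4)`. -/
def f34 (x : ℝ) : ℝ := Real.pi - 2 * Real.arctan (kap * (1 + 2 * x))
/-- Twist profile in the plane `(1,4)`. -/
def f14 (x : ℝ) : ℝ := 2 * Real.arctan (kap * (1 + 2 * x))
/-- Twist profile in the plane `(2,3)`. -/
def f23 (x : ℝ) : ℝ := 2 * Real.arctan (kap * (1 - 2 * x))

/-- A primitive of `y ↦ 2 arctan (κ y)`. -/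
def Ang (y : ℝ) : ℝ := 2 * y * Real.arctan (kap * y) - Real.log (1 + kap ^ 2 * y ^ 2) / kap

/-- Primitive of `f12`. -/
def F12 (x : ℝ) : ℝ := Real.pi * x + Ang (1 + 2 * x) / 2
/-- Primitive of `f34`. -/
def F34 (x : ℝ) : ℝ := Real.pi * x - Ang (1 + 2 * x) / 2
/-- Primitive of `f14`. -/
def F14 (x : ℝ) : ℝ := Ang (1 + 2 * x) / 2
/-- Primitive of `f23`. -/
def F23 (x : ℝ) : ℝ := - Ang (1 - 2 * x) / 2

/-- The time-one map: twists in the planes `(1,2)`, `(3,4)`, then `(1,4)`, `(2,3)`. -/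
def Phi (z : Fin 5 → ℂ) : Fin 5 → ℂ :=
  twist 2 3 f23 (twist 1 4 f14 (twist 3 4 f34 (twist 1 2 f12 z)))

/-! ### Coordinates on `Q² = S² × S²` -/

/-- First coordinate of `u`. -/
def U1 (z : Fin 5 → ℂ) : ℝ := mu 2 3 z + mu 1 4 z
/-- Second coordinate of `u`. -/
def U2 (z : Fin 5 → ℂ) : ℝ := mu 2 4 z - mu 1 3 z
/-- Third coordinate of `u`. -/
def U3 (z : Fin 5 → ℂ) : ℝ := mu 1 2 z + mu 3 4 z
/-- First coordinate of `v`. -/
def V1 (z : Fin 5 → ℂ) : ℝ := mu 2 3 z - mu 1 4 z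
/-- Second coordinate of `v`. -/
def V2 (z : Fin 5 → ℂ) : ℝ := - mu 1 3 z - mu 2 4 z
/-- Third coordinate of `v`. -/
def V3 (z : Fin 5 → ℂ) : ℝ := mu 1 2 z - mu 3 4 z

/-- Cayley cosine: `cos (2 arctan g)`. -/
def cayC (g : ℝ) : ℝ := (1 - g ^ 2) / (1 + g ^ 2)
/-- Cayley sine: `sin (2 arctan g)`. -/
def cayS (g : ℝ) : ℝ := 2 * g / (1 + g ^ 2)

/-- The map induced by `Phi` on `(u, v) ∈ ℝ³ × ℝ³`. Stage A rotates `u` about `e₃` by
`α - β` and `v` about `e₃` by `α + β`, where `α = 2 arctan (κ (1 + u₃ + v₃))`,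
`β = 2 arctan (κ (1 + u₃ - v₃))`; stage B rotates `u` about `e₁` by `β' + α'` and `v` about `e₁`
by `β' - α'`, where `α' = 2 arctan (κ (1 + u₁' - v₁'))`, `β' = 2 arctan (κ (1 - u₁' - v₁'))`
(at the intermediate point). -/
def uvMap (u1 u2 u3 v1 v2 v3 : ℝ) : ℝ × ℝ × ℝ × ℝ × ℝ × ℝ :=
  let cA := cayC (kap * (1 + u3 + v3))
  let sA := cayS (kap * (1 + u3 + v3))
  let cB := cayC (kap * (1 + u3 - v3))
  let sB := cayS (kap * (1 + u3 - v3))
  let u1' := (cA * cB + sA * sB) * u1 - (sA * cB - cA * sB) * u2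
  let u2' := (sA * cB - cA * sB) * u1 + (cA * cB + sA * sB) * u2
  let v1' := (cA * cB - sA * sB) * v1 - (sA * cB + cA * sB) * v2
  let v2' := (sA * cB + cA * sB) * v1 + (cA * cB - sA * sB) * v2
  let cA' := cayC (kap * (1 + u1' - v1'))
  let sA' := cayS (kap * (1 + u1' - v1'))
  let cB' := cayC (kap * (1 - u1' - v1'))
  let sB' := cayS (kap * (1 - u1' - v1'))
  (u1', (cB' * cA' - sB' * sA') * u2' - (sB' * cA' + cB' * sA') * u3,
        (sB' * cA' + cB' * sA') * u2' + (cB' * cA' - sB' * sA') * u3,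
   v1', (cB' * cA' + sB' * sA') * v2' - (sB' * cA' - cB' * sA') * v3,
        (sB' * cA' - cB' * sA') * v2' + (cB' * cA' + sB' * sA') * v3)

/-! ### The three fixed points -/

/-- `√51`. -/
def r51 : ℝ := Real.sqrt 51

/-- The degenerate fixed point `z* = (0, 1, -i, 1, -i)/2`, with `(u, v) = (-e₃, e₁)`. -/
def zStar : Fin 5 → ℂ := ![0, 1 / 2, -Complex.I / 2, 1 / 2, -Complex.I / 2]

/-- The tangent vector at `zStar` fixed (up to the sign `-1`) by the differential. -/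
def wStar : Fin 5 → ℂ := ![0, 0, 1, 0, -1]

/-- The two non-degenerate fixed points, `σ = ±1`:
`(u, v) = ((2σ√51/17, -6/17, 7/17), (-7/17, 6/17, 2σ√51/17))`. -/
def zPM (σ : ℝ) : Fin 5 → ℂ :=
  ![0, -Complex.I * ((7 + 2 * σ * r51 : ℝ) : ℂ) / 34, (17 + 6 * Complex.I) / 34,
    -Complex.I * ((7 - 2 * σ * r51 : ℝ) : ℂ) / 34, (17 - 6 * Complex.I) / 34]

end

end Crest.Agent.LibS0316
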