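import Mathlib
import Crest.Prelude.Def_QuadricHamiltonian
import Crest.Agent.Lib_S0316_Phi
import Crest.Agent.Lib_S0316_Deg
import Crest.Agent.Lib_S0316_Off

/-!
S0316: the packages DEG (`Lib_S0316_Deg`) and OFF (`Lib_S0316_Off`) restated with the constants
of `Lib_S0316_Phi` (`Phi`, `zStar`, `wStar`, `f12`, …), ready for the final assembly.
-/

set_option autoImplicit false

namespace Crest.Agent.LibS0316

open Crest.GeometryTopology.Quadric
open Crest.Agent.S0316Lift

lemma deg_rot_eq : @Crest.Agent.LibS0316Deg.rot = @Crest.Agent.S0316Lift.rot := rfl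

lemma deg_mu_eq : @Crest.Agent.LibS0316Deg.mu = @Crest.Agent.S0316Lift.mu := rfl

lemma deg_twist_eq : @Crest.Agent.LibS0316Deg.twist = @Crest.Agent.S0316Lift.twist := by
  funext j k f z
  simp only [Crest.Agent.LibS0316Deg.twist, Crest.Agent.S0316Lift.twist, deg_rot_eq, deg_mu_eq]

lemma f12_val : f12 (-1 / 2) = Real.pi := by
  have e : (1 : ℝ) + 2 * (-1 / 2) = 0 := by norm_num
  simp [f12, e]

lemma f34_val : f34 (-1 / 2) = Real.pi := by
  have e : (1 : ℝ) + 2 * (-1 / 2) = 0 := by norm_num
  simp [f34, e]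

lemma f14_val : f14 (-1 / 2) = 0 := by
  have e : (1 : ℝ) + 2 * (-1 / 2) = 0 := by norm_num
  simp [f14, e]

lemma f23_val : f23 (1 / 2) = 0 := by
  simp [f23]

/-- `Phi` is `x ↦ -x` on the real line through `zStar` in the direction `wStar`. -/
theorem Phi_line (t : ℝ) : Phi (zStar + t • wStar) = -(zStar + t • wStar) := by
  have h := Crest.Agent.LibS0316Deg.twist_line f12 f34 f14 f23 f12_val f34_val f14_val f23_val t
  rw [deg_twist_eq] at h
  exact h

/-- `Phi zStar = -zStar`. -/
theorem Phi_zStar : Phi zStar = -zStar := by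
  have h := Phi_line 0
  simpa using h

/-- `Phi zStar = (-1) • zStar`, the shape used for fixed lines. -/
theorem Phi_zStar_smul : Phi zStar = (-1 : ℂ) • zStar := by
  rw [Phi_zStar, neg_one_smul]

/-- DEG: any lift whose time-one map is `Phi` has a degenerate fixed point (at `zStar`). -/
theorem deg_of_lift (L : HamiltonianConeLift) (hL : ∀ z : Fin 5 → ℂ, L.Ψ (1, z) = Phi z) :
    HasDegenerateFixedPoint L :=
  Crest.Agent.LibS0316Deg.hasDegenerateFixedPoint_of_line L fun t => by
    rw [hL]
    exact Phi_line t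

/-- OFF: a point of the unit cone whose `Phi`-image is proportional to it has `z 0 = 0`. -/
theorem off (z : Fin 5 → ℂ) (hz : z ∈ unitCone) (c : ℂ) (h : Phi z = c • z) : z 0 = 0 :=
  Crest.Agent.S0316Off.z0_eq_zero_of_fixed (f12 := f12) (f34 := f34) (f14 := f14) (f23 := f23)
    (fun _ hx => Crest.Agent.S0316Off.cos_pi_add_two_arctan_neg
      (Crest.Agent.S0316Off.abs_affine_lt (by norm_num [kap]) (by norm_num [kap]) hx).1)
    (fun _ hx => Crest.Agent.S0316Off.cos_pi_sub_two_arctan_neg
      (Crest.Agent.S0316Off.abs_affine_lt (by norm_num [kap]) (by norm_num [kap]) hx).1)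
    (fun _ hx => Crest.Agent.S0316Off.cos_two_arctan_pos
      (Crest.Agent.S0316Off.abs_affine_lt (by norm_num [kap]) (by norm_num [kap]) hx).1)
    (fun _ hx => Crest.Agent.S0316Off.cos_two_arctan_pos
      (Crest.Agent.S0316Off.abs_affine_lt (by norm_num [kap]) (by norm_num [kap]) hx).2) hz h

end Crest.Agent.LibS0316
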