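import Crest.Agent.Lib_S0316_Mid
import Crest.Agent.Lib_S0316_Alg

/-!
# S0316: MID + ALG combined

`cls` : a fixed point of `uvMap` on `S² × S²` is one of the three expected points
(the shape of the hypothesis `cls` of the final glue).
-/

set_option autoImplicit false

namespace Crest.Agent.LibS0316

/-- Fixed points of `uvMap` on `S² × S²`: either `(-e₃, e₁)` or one of the two points
`u = (±2√51/17, -6/17, 7/17)`, `v = (-7/17, 6/17, ±2√51/17)`. -/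
theorem cls (u1 u2 u3 v1 v2 v3 : ℝ) (hu : u1 ^ 2 + u2 ^ 2 + u3 ^ 2 = 1)
    (hv : v1 ^ 2 + v2 ^ 2 + v3 ^ 2 = 1)
    (h : uvMap u1 u2 u3 v1 v2 v3 = (u1, u2, u3, v1, v2, v3)) :
    (u1, u2, u3, v1, v2, v3) = (0, 0, -1, 1, 0, 0) ∨
      (u3 = 7 / 17 ∧ u2 = -6 / 17 ∧ u1 ^ 2 = 204 / 289 ∧ v1 = -7 / 17 ∧ v2 = 6 / 17 ∧ v3 = u1) := by
  obtain ⟨E1, E2, E3, E4⟩ := mid u1 u2 u3 v1 v2 v3 hu hv h
  simp only [kap] at E1 E2 E3 E4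
  rcases Crest.Agent.LibS0316Alg.classify u1 u2 u3 v1 v2 v3 hu hv E1 E2 E3 E4 with
    ⟨a, b, c, d, e, f⟩ | h'
  · left
    rw [a, b, c, d, e, f]
  · right
    exact h'

/-- The same statement with the six coordinates of the first alternative spelled out. -/
theorem cls' (u1 u2 u3 v1 v2 v3 : ℝ) (hu : u1 ^ 2 + u2 ^ 2 + u3 ^ 2 = 1)
    (hv : v1 ^ 2 + v2 ^ 2 + v3 ^ 2 = 1)
    (h : uvMap u1 u2 u3 v1 v2 v3 = (u1, u2, u3, v1, v2, v3)) :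
    (u1 = 0 ∧ u2 = 0 ∧ u3 = -1 ∧ v1 = 1 ∧ v2 = 0 ∧ v3 = 0) ∨
      (u3 = 7 / 17 ∧ u2 = -6 / 17 ∧ u1 ^ 2 = 204 / 289 ∧ v1 = -7 / 17 ∧ v2 = 6 / 17 ∧ v3 = u1) := by
  obtain ⟨E1, E2, E3, E4⟩ := mid u1 u2 u3 v1 v2 v3 hu hv h
  simp only [kap] at E1 E2 E3 E4
  exact Crest.Agent.LibS0316Alg.classify u1 u2 u3 v1 v2 v3 hu hv E1 E2 E3 E4

end Crest.Agent.LibS0316
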