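import Mathlib
import Crest.Prelude.Def_QuadricHamiltonian
import Crest.Agent.Lib_S0316_Lift

/-!
S0316: shared constants.  `rot`, `mu`, `twist` are the constants of `Lib_S0316_Lift`
(helper11), made available under the project namespace `Crest.Agent.LibS0316`, so that every
lemma of `Lib_S0316_Lift` applies to them verbatim.

* `rot j k θ z`: rotation of the coordinate plane `(j, k)` of `ℂ⁵` by the real angle `θ`;
* `mu j k z = 2 * Im (conj (z j) * z k)`: its moment map;
* `twist j k f z = rot j k (f (mu j k z)) z`.
-/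

namespace Crest.Agent.LibS0316

export Crest.Agent.S0316Lift (rot mu twist)

theorem rot_def (j k : Fin 5) (θ : ℝ) (z : Fin 5 → ℂ) :
    rot j k θ z = fun i => if i = j then (Real.cos θ : ℂ) * z j - (Real.sin θ : ℂ) * z k
      else if i = k then (Real.sin θ : ℂ) * z j + (Real.cos θ : ℂ) * z k else z i := rfl

theorem mu_def (j k : Fin 5) (z : Fin 5 → ℂ) :
    mu j k z = 2 * (starRingEnd ℂ (z j) * z k).im := rfl

theorem twist_def (j k : Fin 5) (f : ℝ → ℝ) (z : Fin 5 → ℂ) :
    twist j k f z = rot j k (f (mu j k z)) z := rfl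

end Crest.Agent.LibS0316
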