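import Mathlib
import Crest.Prelude.Def_QuadricHamiltonian
import Crest.Agent.Lib_S0316_Lift
import Crest.Agent.Lib_S0316_Phi

/-!
S0316, package DICT: the action of the four twists on the coordinates `(u, v)`.

Main statements: `UV_Phi` (the map induced by `Phi` on `(u, v)` is `uvMap`, for all `z`),
`Phi_zero`, `U_norm`, `V_norm`, `UV_smul`.
-/

set_option autoImplicit false
set_option linter.unusedSimpArgs false
set_option linter.unnecessarySeqFocus false
set_option linter.unreachableTactic false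
set_option linter.unusedTactic false

namespace Crest.Agent.LibS0316

open Crest.GeometryTopology.Quadric
open Crest.Agent.S0316Lift

/-! ### Coordinates of a rotated point -/

theorem rot_apply_fst (j k : Fin 5) (θ : ℝ) (z : Fin 5 → ℂ) :
    rot j k θ z j = (Real.cos θ : ℂ) * z j - (Real.sin θ : ℂ) * z k := by
  simp [rot]

theorem rot_apply_snd {j k : Fin 5} (h : k ≠ j) (θ : ℝ) (z : Fin 5 → ℂ) :
    rot j k θ z k = (Real.sin θ : ℂ) * z j + (Real.cos θ : ℂ) * z k := by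
  simp [rot, h]

theorem rot_apply_of_ne {j k i : Fin 5} (hj : i ≠ j) (hk : i ≠ k) (θ : ℝ) (z : Fin 5 → ℂ) :
    rot j k θ z i = z i := by
  simp [rot, hj, hk]

/-! ### The moment functions of a rotated point -/

theorem mu_rot_off {j k a b : Fin 5} (haj : a ≠ j) (hak : a ≠ k) (hbj : b ≠ j) (hbk : b ≠ k)
    (θ : ℝ) (z : Fin 5 → ℂ) : mu a b (rot j k θ z) = mu a b z := by
  simp [mu, rot_apply_of_ne haj hak, rot_apply_of_ne hbj hbk]

theorem mu_rot_fst_left {j k b : Fin 5} (hbj : b ≠ j) (hbk : b ≠ k)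
    (θ : ℝ) (z : Fin 5 → ℂ) :
    mu j b (rot j k θ z) = Real.cos θ * mu j b z - Real.sin θ * mu k b z := by
  simp only [mu, rot_apply_fst, rot_apply_of_ne hbj hbk]
  simp only [map_sub, map_mul, Complex.conj_ofReal, Complex.mul_im, Complex.sub_im,
    Complex.sub_re, Complex.mul_re, Complex.ofReal_re, Complex.ofReal_im, Complex.conj_re,
    Complex.conj_im]
  ring

theorem mu_rot_snd_left {j k b : Fin 5} (hkj : k ≠ j) (hbj : b ≠ j) (hbk : b ≠ k)
    (θ : ℝ) (z : Fin 5 → ℂ) :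
    mu k b (rot j k θ z) = Real.sin θ * mu j b z + Real.cos θ * mu k b z := by
  simp only [mu, rot_apply_snd hkj, rot_apply_of_ne hbj hbk]
  simp only [map_add, map_mul, Complex.conj_ofReal, Complex.mul_im, Complex.add_im,
    Complex.add_re, Complex.mul_re, Complex.ofReal_re, Complex.ofReal_im, Complex.conj_re,
    Complex.conj_im]
  ring

theorem mu_rot_fst_right {j k a : Fin 5} (haj : a ≠ j) (hak : a ≠ k)
    (θ : ℝ) (z : Fin 5 → ℂ) :
    mu a j (rot j k θ z) = Real.cos θ * mu a j z - Real.sin θ * mu a k z := by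
  simp only [mu, rot_apply_fst, rot_apply_of_ne haj hak]
  simp only [Complex.mul_im, Complex.sub_im,
    Complex.sub_re, Complex.mul_re, Complex.ofReal_re, Complex.ofReal_im, Complex.conj_re,
    Complex.conj_im]
  ring

theorem mu_rot_snd_right {j k a : Fin 5} (hkj : k ≠ j) (haj : a ≠ j) (hak : a ≠ k)
    (θ : ℝ) (z : Fin 5 → ℂ) :
    mu a k (rot j k θ z) = Real.sin θ * mu a j z + Real.cos θ * mu a k z := by
  simp only [mu, rot_apply_snd hkj, rot_apply_of_ne haj hak]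
  simp only [Complex.mul_im, Complex.add_im,
    Complex.add_re, Complex.mul_re, Complex.ofReal_re, Complex.ofReal_im, Complex.conj_re,
    Complex.conj_im]
  ring

theorem mu_rot_self {j k : Fin 5} (hkj : k ≠ j) (θ : ℝ) (z : Fin 5 → ℂ) :
    mu j k (rot j k θ z) = mu j k z := by
  simp only [mu, rot_apply_snd hkj, rot_apply_fst]
  simp only [map_sub, map_mul, Complex.conj_ofReal, Complex.mul_im, Complex.add_im,
    Complex.add_re, Complex.sub_im, Complex.sub_re, Complex.mul_re, Complex.ofReal_re,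
    Complex.ofReal_im, Complex.conj_re, Complex.conj_im]
  have h := Real.sin_sq_add_cos_sq θ
  linear_combination (2 * ((z j).re * (z k).im - (z j).im * (z k).re)) * h

theorem mu_antisymm (j k : Fin 5) (z : Fin 5 → ℂ) : mu k j z = - mu j k z := by
  simp only [mu, Complex.mul_im, Complex.conj_re, Complex.conj_im]
  ring

theorem mu21 (z : Fin 5 → ℂ) : mu 2 1 z = - mu 1 2 z := mu_antisymm 1 2 z
theorem mu31 (z : Fin 5 → ℂ) : mu 3 1 z = - mu 1 3 z := mu_antisymm 1 3 z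
theorem mu41 (z : Fin 5 → ℂ) : mu 4 1 z = - mu 1 4 z := mu_antisymm 1 4 z
theorem mu32 (z : Fin 5 → ℂ) : mu 3 2 z = - mu 2 3 z := mu_antisymm 2 3 z
theorem mu42 (z : Fin 5 → ℂ) : mu 4 2 z = - mu 2 4 z := mu_antisymm 2 4 z
theorem mu43 (z : Fin 5 → ℂ) : mu 4 3 z = - mu 3 4 z := mu_antisymm 3 4 z

/-! ### The action of the four rotations on `(u, v)` -/

theorem U1_rot12 (θ : ℝ) (z : Fin 5 → ℂ) :
    U1 (rot 1 2 θ z) = Real.cos θ * U1 z - Real.sin θ * U2 z := by
  simp (discharger := decide) only [U1, U2, U3, V1, V2, V3, mu_rot_off, mu_rot_fst_left,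
    mu_rot_snd_left, mu_rot_fst_right, mu_rot_snd_right, mu_rot_self, mu21, mu31, mu41, mu32,
    mu42, mu43] <;> ring

theorem U2_rot12 (θ : ℝ) (z : Fin 5 → ℂ) :
    U2 (rot 1 2 θ z) = Real.sin θ * U1 z + Real.cos θ * U2 z := by
  simp (discharger := decide) only [U1, U2, U3, V1, V2, V3, mu_rot_off, mu_rot_fst_left,
    mu_rot_snd_left, mu_rot_fst_right, mu_rot_snd_right, mu_rot_self, mu21, mu31, mu41, mu32,
    mu42, mu43] <;> ring

theorem U3_rot12 (θ : ℝ) (z : Fin 5 → ℂ) :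
    U3 (rot 1 2 θ z) = U3 z := by
  simp (discharger := decide) only [U1, U2, U3, V1, V2, V3, mu_rot_off, mu_rot_fst_left,
    mu_rot_snd_left, mu_rot_fst_right, mu_rot_snd_right, mu_rot_self, mu21, mu31, mu41, mu32,
    mu42, mu43] <;> ring

theorem V1_rot12 (θ : ℝ) (z : Fin 5 → ℂ) :
    V1 (rot 1 2 θ z) = Real.cos θ * V1 z - Real.sin θ * V2 z := by
  simp (discharger := decide) only [U1, U2, U3, V1, V2, V3, mu_rot_off, mu_rot_fst_left,
    mu_rot_snd_left, mu_rot_fst_right, mu_rot_snd_right, mu_rot_self, mu21, mu31, mu41, mu32,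
    mu42, mu43] <;> ring

theorem V2_rot12 (θ : ℝ) (z : Fin 5 → ℂ) :
    V2 (rot 1 2 θ z) = Real.sin θ * V1 z + Real.cos θ * V2 z := by
  simp (discharger := decide) only [U1, U2, U3, V1, V2, V3, mu_rot_off, mu_rot_fst_left,
    mu_rot_snd_left, mu_rot_fst_right, mu_rot_snd_right, mu_rot_self, mu21, mu31, mu41, mu32,
    mu42, mu43] <;> ring

theorem V3_rot12 (θ : ℝ) (z : Fin 5 → ℂ) :
    V3 (rot 1 2 θ z) = V3 z := by
  simp (discharger := decide) only [U1, U2, U3, V1, V2, V3, mu_rot_off, mu_rot_fst_left,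
    mu_rot_snd_left, mu_rot_fst_right, mu_rot_snd_right, mu_rot_self, mu21, mu31, mu41, mu32,
    mu42, mu43] <;> ring

theorem U1_rot34 (θ : ℝ) (z : Fin 5 → ℂ) :
    U1 (rot 3 4 θ z) = Real.cos θ * U1 z - Real.sin θ * U2 z := by
  simp (discharger := decide) only [U1, U2, U3, V1, V2, V3, mu_rot_off, mu_rot_fst_left,
    mu_rot_snd_left, mu_rot_fst_right, mu_rot_snd_right, mu_rot_self, mu21, mu31, mu41, mu32,
    mu42, mu43] <;> ring

theorem U2_rot34 (θ : ℝ) (z : Fin 5 → ℂ) :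
    U2 (rot 3 4 θ z) = Real.sin θ * U1 z + Real.cos θ * U2 z := by
  simp (discharger := decide) only [U1, U2, U3, V1, V2, V3, mu_rot_off, mu_rot_fst_left,
    mu_rot_snd_left, mu_rot_fst_right, mu_rot_snd_right, mu_rot_self, mu21, mu31, mu41, mu32,
    mu42, mu43] <;> ring

theorem U3_rot34 (θ : ℝ) (z : Fin 5 → ℂ) :
    U3 (rot 3 4 θ z) = U3 z := by
  simp (discharger := decide) only [U1, U2, U3, V1, V2, V3, mu_rot_off, mu_rot_fst_left,
    mu_rot_snd_left, mu_rot_fst_right, mu_rot_snd_right, mu_rot_self, mu21, mu31, mu41, mu32,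
    mu42, mu43] <;> ring

theorem V1_rot34 (θ : ℝ) (z : Fin 5 → ℂ) :
    V1 (rot 3 4 θ z) = Real.cos θ * V1 z + Real.sin θ * V2 z := by
  simp (discharger := decide) only [U1, U2, U3, V1, V2, V3, mu_rot_off, mu_rot_fst_left,
    mu_rot_snd_left, mu_rot_fst_right, mu_rot_snd_right, mu_rot_self, mu21, mu31, mu41, mu32,
    mu42, mu43] <;> ring

theorem V2_rot34 (θ : ℝ) (z : Fin 5 → ℂ) :
    V2 (rot 3 4 θ z) = - Real.sin θ * V1 z + Real.cos θ * V2 z := by
  simp (discharger := decide) only [U1, U2, U3, V1, V2, V3, mu_rot_off, mu_rot_fst_left,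
    mu_rot_snd_left, mu_rot_fst_right, mu_rot_snd_right, mu_rot_self, mu21, mu31, mu41, mu32,
    mu42, mu43] <;> ring

theorem V3_rot34 (θ : ℝ) (z : Fin 5 → ℂ) :
    V3 (rot 3 4 θ z) = V3 z := by
  simp (discharger := decide) only [U1, U2, U3, V1, V2, V3, mu_rot_off, mu_rot_fst_left,
    mu_rot_snd_left, mu_rot_fst_right, mu_rot_snd_right, mu_rot_self, mu21, mu31, mu41, mu32,
    mu42, mu43] <;> ring

theorem U1_rot23 (θ : ℝ) (z : Fin 5 → ℂ) :
    U1 (rot 2 3 θ z) = U1 z := by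
  simp (discharger := decide) only [U1, U2, U3, V1, V2, V3, mu_rot_off, mu_rot_fst_left,
    mu_rot_snd_left, mu_rot_fst_right, mu_rot_snd_right, mu_rot_self, mu21, mu31, mu41, mu32,
    mu42, mu43] <;> ring

theorem U2_rot23 (θ : ℝ) (z : Fin 5 → ℂ) :
    U2 (rot 2 3 θ z) = Real.cos θ * U2 z - Real.sin θ * U3 z := by
  simp (discharger := decide) only [U1, U2, U3, V1, V2, V3, mu_rot_off, mu_rot_fst_left,
    mu_rot_snd_left, mu_rot_fst_right, mu_rot_snd_right, mu_rot_self, mu21, mu31, mu41, mu32,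
    mu42, mu43] <;> ring

theorem U3_rot23 (θ : ℝ) (z : Fin 5 → ℂ) :
    U3 (rot 2 3 θ z) = Real.sin θ * U2 z + Real.cos θ * U3 z := by
  simp (discharger := decide) only [U1, U2, U3, V1, V2, V3, mu_rot_off, mu_rot_fst_left,
    mu_rot_snd_left, mu_rot_fst_right, mu_rot_snd_right, mu_rot_self, mu21, mu31, mu41, mu32,
    mu42, mu43] <;> ring

theorem V1_rot23 (θ : ℝ) (z : Fin 5 → ℂ) :
    V1 (rot 2 3 θ z) = V1 z := by
  simp (discharger := decide) only [U1, U2, U3, V1, V2, V3, mu_rot_off, mu_rot_fst_left,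
    mu_rot_snd_left, mu_rot_fst_right, mu_rot_snd_right, mu_rot_self, mu21, mu31, mu41, mu32,
    mu42, mu43] <;> ring

theorem V2_rot23 (θ : ℝ) (z : Fin 5 → ℂ) :
    V2 (rot 2 3 θ z) = Real.cos θ * V2 z - Real.sin θ * V3 z := by
  simp (discharger := decide) only [U1, U2, U3, V1, V2, V3, mu_rot_off, mu_rot_fst_left,
    mu_rot_snd_left, mu_rot_fst_right, mu_rot_snd_right, mu_rot_self, mu21, mu31, mu41, mu32,
    mu42, mu43] <;> ring

theorem V3_rot23 (θ : ℝ) (z : Fin 5 → ℂ) :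
    V3 (rot 2 3 θ z) = Real.sin θ * V2 z + Real.cos θ * V3 z := by
  simp (discharger := decide) only [U1, U2, U3, V1, V2, V3, mu_rot_off, mu_rot_fst_left,
    mu_rot_snd_left, mu_rot_fst_right, mu_rot_snd_right, mu_rot_self, mu21, mu31, mu41, mu32,
    mu42, mu43] <;> ring

theorem U1_rot14 (θ : ℝ) (z : Fin 5 → ℂ) :
    U1 (rot 1 4 θ z) = U1 z := by
  simp (discharger := decide) only [U1, U2, U3, V1, V2, V3, mu_rot_off, mu_rot_fst_left,
    mu_rot_snd_left, mu_rot_fst_right, mu_rot_snd_right, mu_rot_self, mu21, mu31, mu41, mu32,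
    mu42, mu43] <;> ring

theorem U2_rot14 (θ : ℝ) (z : Fin 5 → ℂ) :
    U2 (rot 1 4 θ z) = Real.cos θ * U2 z - Real.sin θ * U3 z := by
  simp (discharger := decide) only [U1, U2, U3, V1, V2, V3, mu_rot_off, mu_rot_fst_left,
    mu_rot_snd_left, mu_rot_fst_right, mu_rot_snd_right, mu_rot_self, mu21, mu31, mu41, mu32,
    mu42, mu43] <;> ring

theorem U3_rot14 (θ : ℝ) (z : Fin 5 → ℂ) :
    U3 (rot 1 4 θ z) = Real.sin θ * U2 z + Real.cos θ * U3 z := by
  simp (discharger := decide) only [U1, U2, U3, V1, V2, V3, mu_rot_off, mu_rot_fst_left,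
    mu_rot_snd_left, mu_rot_fst_right, mu_rot_snd_right, mu_rot_self, mu21, mu31, mu41, mu32,
    mu42, mu43] <;> ring

theorem V1_rot14 (θ : ℝ) (z : Fin 5 → ℂ) :
    V1 (rot 1 4 θ z) = V1 z := by
  simp (discharger := decide) only [U1, U2, U3, V1, V2, V3, mu_rot_off, mu_rot_fst_left,
    mu_rot_snd_left, mu_rot_fst_right, mu_rot_snd_right, mu_rot_self, mu21, mu31, mu41, mu32,
    mu42, mu43] <;> ring

theorem V2_rot14 (θ : ℝ) (z : Fin 5 → ℂ) :
    V2 (rot 1 4 θ z) = Real.cos θ * V2 z + Real.sin θ * V3 z := by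
  simp (discharger := decide) only [U1, U2, U3, V1, V2, V3, mu_rot_off, mu_rot_fst_left,
    mu_rot_snd_left, mu_rot_fst_right, mu_rot_snd_right, mu_rot_self, mu21, mu31, mu41, mu32,
    mu42, mu43] <;> ring

theorem V3_rot14 (θ : ℝ) (z : Fin 5 → ℂ) :
    V3 (rot 1 4 θ z) = - Real.sin θ * V2 z + Real.cos θ * V3 z := by
  simp (discharger := decide) only [U1, U2, U3, V1, V2, V3, mu_rot_off, mu_rot_fst_left,
    mu_rot_snd_left, mu_rot_fst_right, mu_rot_snd_right, mu_rot_self, mu21, mu31, mu41, mu32,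
    mu42, mu43] <;> ring

/-! ### Cayley parametrisation of `cos`, `sin` of `2 arctan g` -/

theorem cos_two_arctan (g : ℝ) : Real.cos (2 * Real.arctan g) = cayC g := by
  have h : (0 : ℝ) < 1 + g ^ 2 := by positivity
  rw [Real.cos_two_mul, Real.cos_sq_arctan, cayC]
  field_simp
  ring

theorem sin_two_arctan (g : ℝ) : Real.sin (2 * Real.arctan g) = cayS g := by
  have h : (0 : ℝ) < 1 + g ^ 2 := by positivity
  have hs : Real.sqrt (1 + g ^ 2) * Real.sqrt (1 + g ^ 2) = 1 + g ^ 2 :=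
    Real.mul_self_sqrt h.le
  have hs0 : Real.sqrt (1 + g ^ 2) ≠ 0 := (Real.sqrt_pos.mpr h).ne'
  rw [Real.sin_two_mul, Real.sin_arctan, Real.cos_arctan, cayS]
  rw [mul_assoc, div_mul_div_comm, mul_one, hs]
  ring

theorem cos_f12 (x : ℝ) : Real.cos (f12 x) = - cayC (kap * (1 + 2 * x)) := by
  rw [f12, add_comm, Real.cos_add_pi, cos_two_arctan]

theorem sin_f12 (x : ℝ) : Real.sin (f12 x) = - cayS (kap * (1 + 2 * x)) := by
  rw [f12, add_comm, Real.sin_add_pi, sin_two_arctan]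

theorem cos_f34 (x : ℝ) : Real.cos (f34 x) = - cayC (kap * (1 + 2 * x)) := by
  rw [f34, Real.cos_pi_sub, cos_two_arctan]

theorem sin_f34 (x : ℝ) : Real.sin (f34 x) = cayS (kap * (1 + 2 * x)) := by
  rw [f34, Real.sin_pi_sub, sin_two_arctan]

theorem cos_f14 (x : ℝ) : Real.cos (f14 x) = cayC (kap * (1 + 2 * x)) := by
  rw [f14, cos_two_arctan]

theorem sin_f14 (x : ℝ) : Real.sin (f14 x) = cayS (kap * (1 + 2 * x)) := by
  rw [f14, sin_two_arctan]

theorem cos_f23 (x : ℝ) : Real.cos (f23 x) = cayC (kap * (1 - 2 * x)) := by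
  rw [f23, cos_two_arctan]

theorem sin_f23 (x : ℝ) : Real.sin (f23 x) = cayS (kap * (1 - 2 * x)) := by
  rw [f23, sin_two_arctan]

/-! ### The moment functions in terms of `(u, v)` -/

theorem two_mu12 (z : Fin 5 → ℂ) : 1 + 2 * mu 1 2 z = 1 + U3 z + V3 z := by
  simp only [U3, V3]; ring

theorem two_mu34 (z : Fin 5 → ℂ) : 1 + 2 * mu 3 4 z = 1 + U3 z - V3 z := by
  simp only [U3, V3]; ring

theorem two_mu14 (z : Fin 5 → ℂ) : 1 + 2 * mu 1 4 z = 1 + U1 z - V1 z := by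
  simp only [U1, V1]; ring

theorem two_mu23 (z : Fin 5 → ℂ) : 1 - 2 * mu 2 3 z = 1 - U1 z - V1 z := by
  simp only [U1, V1]; ring

/-! ### Stage A: the twists in the planes `(1,2)` and `(3,4)` -/

theorem mu34_twist12 (f : ℝ → ℝ) (z : Fin 5 → ℂ) : mu 3 4 (twist 1 2 f z) = mu 3 4 z := by
  simp only [twist]
  exact mu_rot_off (by decide) (by decide) (by decide) (by decide) _ z

theorem mu23_twist14 (f : ℝ → ℝ) (z : Fin 5 → ℂ) : mu 2 3 (twist 1 4 f z) = mu 2 3 z := by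
  simp only [twist]
  exact mu_rot_off (by decide) (by decide) (by decide) (by decide) _ z

/-- Stage A as a composition of two rotations with explicit Cayley cosines and sines. -/
theorem stageA_eq (z : Fin 5 → ℂ) :
    twist 3 4 f34 (twist 1 2 f12 z) =
      rot 3 4 (f34 (mu 3 4 z)) (rot 1 2 (f12 (mu 1 2 z)) z) := by
  have h := mu34_twist12 f12 z
  simp only [twist] at h ⊢
  rw [h]

/-- Stage B as a composition of two rotations. -/
theorem stageB_eq (y : Fin 5 → ℂ) :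
    twist 2 3 f23 (twist 1 4 f14 y) =
      rot 2 3 (f23 (mu 2 3 y)) (rot 1 4 (f14 (mu 1 4 y)) y) := by
  have h := mu23_twist14 f14 y
  simp only [twist] at h ⊢
  rw [h]

section stageA

variable (z : Fin 5 → ℂ)

theorem U1_stageA :
    U1 (twist 3 4 f34 (twist 1 2 f12 z)) =
      (cayC (kap * (1 + U3 z + V3 z)) * cayC (kap * (1 + U3 z - V3 z)) +
        cayS (kap * (1 + U3 z + V3 z)) * cayS (kap * (1 + U3 z - V3 z))) * U1 z -
      (cayS (kap * (1 + U3 z + V3 z)) * cayC (kap * (1 + U3 z - V3 z)) -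
        cayC (kap * (1 + U3 z + V3 z)) * cayS (kap * (1 + U3 z - V3 z))) * U2 z := by
  rw [stageA_eq, U1_rot34, U1_rot12, U2_rot12, cos_f12, sin_f12, cos_f34, sin_f34,
    two_mu12, two_mu34]
  ring

theorem U2_stageA :
    U2 (twist 3 4 f34 (twist 1 2 f12 z)) =
      (cayS (kap * (1 + U3 z + V3 z)) * cayC (kap * (1 + U3 z - V3 z)) -
        cayC (kap * (1 + U3 z + V3 z)) * cayS (kap * (1 + U3 z - V3 z))) * U1 z +
      (cayC (kap * (1 + U3 z + V3 z)) * cayC (kap * (1 + U3 z - V3 z)) +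
        cayS (kap * (1 + U3 z + V3 z)) * cayS (kap * (1 + U3 z - V3 z))) * U2 z := by
  rw [stageA_eq, U2_rot34, U1_rot12, U2_rot12, cos_f12, sin_f12, cos_f34, sin_f34,
    two_mu12, two_mu34]
  ring

theorem U3_stageA : U3 (twist 3 4 f34 (twist 1 2 f12 z)) = U3 z := by
  rw [stageA_eq, U3_rot34, U3_rot12]

theorem V1_stageA :
    V1 (twist 3 4 f34 (twist 1 2 f12 z)) =
      (cayC (kap * (1 + U3 z + V3 z)) * cayC (kap * (1 + U3 z - V3 z)) -
        cayS (kap * (1 + U3 z + V3 z)) * cayS (kap * (1 + U3 z - V3 z))) * V1 z -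
      (cayS (kap * (1 + U3 z + V3 z)) * cayC (kap * (1 + U3 z - V3 z)) +
        cayC (kap * (1 + U3 z + V3 z)) * cayS (kap * (1 + U3 z - V3 z))) * V2 z := by
  rw [stageA_eq, V1_rot34, V1_rot12, V2_rot12, cos_f12, sin_f12, cos_f34, sin_f34,
    two_mu12, two_mu34]
  ring

theorem V2_stageA :
    V2 (twist 3 4 f34 (twist 1 2 f12 z)) =
      (cayS (kap * (1 + U3 z + V3 z)) * cayC (kap * (1 + U3 z - V3 z)) +
        cayC (kap * (1 + U3 z + V3 z)) * cayS (kap * (1 + U3 z - V3 z))) * V1 z +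
      (cayC (kap * (1 + U3 z + V3 z)) * cayC (kap * (1 + U3 z - V3 z)) -
        cayS (kap * (1 + U3 z + V3 z)) * cayS (kap * (1 + U3 z - V3 z))) * V2 z := by
  rw [stageA_eq, V2_rot34, V1_rot12, V2_rot12, cos_f12, sin_f12, cos_f34, sin_f34,
    two_mu12, two_mu34]
  ring

theorem V3_stageA : V3 (twist 3 4 f34 (twist 1 2 f12 z)) = V3 z := by
  rw [stageA_eq, V3_rot34, V3_rot12]

end stageA

/-! ### Stage B: the twists in the planes `(1,4)` and `(2,3)` -/

section stageB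

variable (y : Fin 5 → ℂ)

theorem U1_stageB : U1 (twist 2 3 f23 (twist 1 4 f14 y)) = U1 y := by
  rw [stageB_eq, U1_rot23, U1_rot14]

theorem U2_stageB :
    U2 (twist 2 3 f23 (twist 1 4 f14 y)) =
      (cayC (kap * (1 - U1 y - V1 y)) * cayC (kap * (1 + U1 y - V1 y)) -
        cayS (kap * (1 - U1 y - V1 y)) * cayS (kap * (1 + U1 y - V1 y))) * U2 y -
      (cayS (kap * (1 - U1 y - V1 y)) * cayC (kap * (1 + U1 y - V1 y)) +
        cayC (kap * (1 - U1 y - V1 y)) * cayS (kap * (1 + U1 y - V1 y))) * U3 y := by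
  rw [stageB_eq, U2_rot23, U2_rot14, U3_rot14, cos_f14, sin_f14, cos_f23, sin_f23,
    two_mu14, two_mu23]
  ring

theorem U3_stageB :
    U3 (twist 2 3 f23 (twist 1 4 f14 y)) =
      (cayS (kap * (1 - U1 y - V1 y)) * cayC (kap * (1 + U1 y - V1 y)) +
        cayC (kap * (1 - U1 y - V1 y)) * cayS (kap * (1 + U1 y - V1 y))) * U2 y +
      (cayC (kap * (1 - U1 y - V1 y)) * cayC (kap * (1 + U1 y - V1 y)) -
        cayS (kap * (1 - U1 y - V1 y)) * cayS (kap * (1 + U1 y - V1 y))) * U3 y := by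
  rw [stageB_eq, U3_rot23, U2_rot14, U3_rot14, cos_f14, sin_f14, cos_f23, sin_f23,
    two_mu14, two_mu23]
  ring

theorem V1_stageB : V1 (twist 2 3 f23 (twist 1 4 f14 y)) = V1 y := by
  rw [stageB_eq, V1_rot23, V1_rot14]

theorem V2_stageB :
    V2 (twist 2 3 f23 (twist 1 4 f14 y)) =
      (cayC (kap * (1 - U1 y - V1 y)) * cayC (kap * (1 + U1 y - V1 y)) +
        cayS (kap * (1 - U1 y - V1 y)) * cayS (kap * (1 + U1 y - V1 y))) * V2 y -
      (cayS (kap * (1 - U1 y - V1 y)) * cayC (kap * (1 + U1 y - V1 y)) -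
        cayC (kap * (1 - U1 y - V1 y)) * cayS (kap * (1 + U1 y - V1 y))) * V3 y := by
  rw [stageB_eq, V2_rot23, V2_rot14, V3_rot14, cos_f14, sin_f14, cos_f23, sin_f23,
    two_mu14, two_mu23]
  ring

theorem V3_stageB :
    V3 (twist 2 3 f23 (twist 1 4 f14 y)) =
      (cayS (kap * (1 - U1 y - V1 y)) * cayC (kap * (1 + U1 y - V1 y)) -
        cayC (kap * (1 - U1 y - V1 y)) * cayS (kap * (1 + U1 y - V1 y))) * V2 y +
      (cayC (kap * (1 - U1 y - V1 y)) * cayC (kap * (1 + U1 y - V1 y)) +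
        cayS (kap * (1 - U1 y - V1 y)) * cayS (kap * (1 + U1 y - V1 y))) * V3 y := by
  rw [stageB_eq, V3_rot23, V2_rot14, V3_rot14, cos_f14, sin_f14, cos_f23, sin_f23,
    two_mu14, two_mu23]
  ring

end stageB

/-! ### The main dictionary statement -/

/-- **DICT.** The map induced by `Phi` on the coordinates `(u, v)` is `uvMap` (for all `z`). -/
theorem UV_Phi (z : Fin 5 → ℂ) :
    (U1 (Phi z), U2 (Phi z), U3 (Phi z), V1 (Phi z), V2 (Phi z), V3 (Phi z)) =
      uvMap (U1 z) (U2 z) (U3 z) (V1 z) (V2 z) (V3 z) := by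
  simp only [Phi, uvMap, U1_stageB, U2_stageB, U3_stageB, V1_stageB, V2_stageB, V3_stageB,
    U1_stageA, U2_stageA, U3_stageA, V1_stageA, V2_stageA, V3_stageA]

/-- `Phi` does not move the coordinate `z 0`. -/
theorem Phi_zero (z : Fin 5 → ℂ) : Phi z 0 = z 0 := by
  simp only [Phi, twist]
  rw [rot_apply_of_ne (by decide) (by decide), rot_apply_of_ne (by decide) (by decide),
    rot_apply_of_ne (by decide) (by decide), rot_apply_of_ne (by decide) (by decide)]

/-! ### The cone in real coordinates; `u` and `v` are unit vectors -/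

theorem cone_real_eqs {z : Fin 5 → ℂ} (hz : z ∈ unitCone) (h0 : z 0 = 0) :
    (z 1).re ^ 2 + (z 2).re ^ 2 + (z 3).re ^ 2 + (z 4).re ^ 2 = 1 / 2 ∧
    (z 1).im ^ 2 + (z 2).im ^ 2 + (z 3).im ^ 2 + (z 4).im ^ 2 = 1 / 2 ∧
    (z 1).re * (z 1).im + (z 2).re * (z 2).im + (z 3).re * (z 3).im + (z 4).re * (z 4).im = 0 := by
  obtain ⟨h1, h2⟩ := hz
  have e1 := congrArg Complex.re h1
  have e2 := congrArg Complex.re h2
  have e3 := congrArg Complex.im h2
  simp only [herm, Fin.sum_univ_five, h0, Complex.add_re, Complex.mul_re, Complex.conj_re,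
    Complex.conj_im, Complex.one_re, Complex.zero_re, Complex.zero_im, Complex.add_im,
    Complex.mul_im, pow_two, map_zero, mul_zero, zero_add, neg_mul, sub_neg_eq_add] at e1 e2 e3
  refine ⟨?_, ?_, ?_⟩
  · linarith
  · linarith
  · linarith

theorem mu_re_im (j k : Fin 5) (z : Fin 5 → ℂ) :
    mu j k z = 2 * ((z j).re * (z k).im - (z j).im * (z k).re) := by
  simp only [mu, Complex.mul_im, Complex.conj_re, Complex.conj_im]
  ring

/-- On the cone, at points with `z 0 = 0`, the vector `u` is a unit vector. -/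
theorem U_norm {z : Fin 5 → ℂ} (hz : z ∈ unitCone) (h0 : z 0 = 0) :
    U1 z ^ 2 + U2 z ^ 2 + U3 z ^ 2 = 1 := by
  obtain ⟨hx, hy, hxy⟩ := cone_real_eqs hz h0
  simp only [U1, U2, U3, mu_re_im]
  linear_combination
    (4 * ((z 1).im ^ 2 + (z 2).im ^ 2 + (z 3).im ^ 2 + (z 4).im ^ 2) ) * hx + 2 * hy
    - 4 * ((z 1).re * (z 1).im + (z 2).re * (z 2).im + (z 3).re * (z 3).im +
        (z 4).re * (z 4).im) * hxy

/-- On the cone, at points with `z 0 = 0`, the vector `v` is a unit vector. -/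
theorem V_norm {z : Fin 5 → ℂ} (hz : z ∈ unitCone) (h0 : z 0 = 0) :
    V1 z ^ 2 + V2 z ^ 2 + V3 z ^ 2 = 1 := by
  obtain ⟨hx, hy, hxy⟩ := cone_real_eqs hz h0
  simp only [V1, V2, V3, mu_re_im]
  linear_combination
    (4 * ((z 1).im ^ 2 + (z 2).im ^ 2 + (z 3).im ^ 2 + (z 4).im ^ 2) ) * hx + 2 * hy
    - 4 * ((z 1).re * (z 1).im + (z 2).re * (z 2).im + (z 3).re * (z 3).im +
        (z 4).re * (z 4).im) * hxy

/-! ### Invariance of `(u, v)` under unit scalars -/

theorem UV_smul {c : ℂ} (hc : ‖c‖ = 1) (z : Fin 5 → ℂ) :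
    U1 (c • z) = U1 z ∧ U2 (c • z) = U2 z ∧ U3 (c • z) = U3 z ∧
    V1 (c • z) = V1 z ∧ V2 (c • z) = V2 z ∧ V3 (c • z) = V3 z := by
  simp only [U1, U2, U3, V1, V2, V3, mu_smul _ _ hc, and_self]

end Crest.Agent.LibS0316
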