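import Mathlib
import Crest.Prelude.Def_QuadricHamiltonian
import Crest.Agent.Lib_S0316_Deg

/-!
S0316, package F1: the composite of the four twists has no fixed line through a cone point
with nonzero zeroth coordinate.

The zeroth coordinate is untouched by the four rotations, so a fixed line through `z` with
`z 0 ≠ 0` gives `Φ z = z`.  Writing `y` for the point after the first two twists, the real part
of the Hermitian pairing of `z` and `y` over the coordinates `1..4` is
`cos θ₁₂ (|z₁|² + |z₂|²) + cos θ₃₄ (|z₃|² + |z₄|²) < 0`, while that of `y` and `Φ z = z` is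
`cos θ₁₄ (|y₁|² + |y₄|²) + cos θ₂₃ (|y₂|² + |y₃|²) ≥ 0`; the two pairings agree.
-/

namespace Crest.Agent.LibS0316F1

open Crest.GeometryTopology.Quadric Crest.Agent.LibS0316Deg

/-- Squared length of a vector of complex 5-space. -/
noncomputable def nsq (z : Fin 5 → ℂ) : ℝ := ∑ j, Complex.normSq (z j)

theorem herm_self (z : Fin 5 → ℂ) : herm z z = ((nsq z : ℝ) : ℂ) := by
  unfold herm nsq
  push_cast
  refine Finset.sum_congr rfl fun j _ => ?_
  rw [mul_comm, Complex.mul_conj]

theorem nsq_eq_one_of_mem {z : Fin 5 → ℂ} (hz : z ∈ unitCone) : nsq z = 1 := by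
  have h := hz.1
  rw [herm_self] at h
  exact_mod_cast h

theorem nsq_expand (z : Fin 5 → ℂ) :
    nsq z = Complex.normSq (z 0) + Complex.normSq (z 1) + Complex.normSq (z 2) +
      Complex.normSq (z 3) + Complex.normSq (z 4) := by
  simp [nsq, Fin.sum_univ_succ]
  ring

/-! ### Elementary facts on `rot`, `mu`, `twist` -/

theorem rot_apply_fst (j k : Fin 5) (θ : ℝ) (z : Fin 5 → ℂ) :
    rot j k θ z j = (Real.cos θ : ℂ) * z j - (Real.sin θ : ℂ) * z k := by
  simp [rot]

theorem rot_apply_snd (j k : Fin 5) (hjk : k ≠ j) (θ : ℝ) (z : Fin 5 → ℂ) :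
    rot j k θ z k = (Real.sin θ : ℂ) * z j + (Real.cos θ : ℂ) * z k := by
  simp [rot, hjk]

theorem rot_apply_other (j k i : Fin 5) (hij : i ≠ j) (hik : i ≠ k) (θ : ℝ) (z : Fin 5 → ℂ) :
    rot j k θ z i = z i := by
  simp [rot, hij, hik]

theorem twist_apply_fst (j k : Fin 5) (f : ℝ → ℝ) (z : Fin 5 → ℂ) :
    twist j k f z j = (Real.cos (f (mu j k z)) : ℂ) * z j - (Real.sin (f (mu j k z)) : ℂ) * z k :=
  rot_apply_fst j k _ z

theorem twist_apply_snd (j k : Fin 5) (hjk : k ≠ j) (f : ℝ → ℝ) (z : Fin 5 → ℂ) :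
    twist j k f z k = (Real.sin (f (mu j k z)) : ℂ) * z j + (Real.cos (f (mu j k z)) : ℂ) * z k :=
  rot_apply_snd j k hjk _ z

theorem twist_apply_other (j k i : Fin 5) (hij : i ≠ j) (hik : i ≠ k) (f : ℝ → ℝ)
    (z : Fin 5 → ℂ) : twist j k f z i = z i :=
  rot_apply_other j k i hij hik _ z

/-- The pairing identity in a rotated plane (general real coefficients). -/
theorem pair_rot_aux (a b : ℂ) (c s : ℝ) :
    (starRingEnd ℂ a * ((c : ℂ) * a - (s : ℂ) * b) +
      starRingEnd ℂ b * ((s : ℂ) * a + (c : ℂ) * b)).re =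
      c * (Complex.normSq a + Complex.normSq b) := by
  simp [Complex.normSq_apply]
  ring

/-- The pairing identity in a rotated plane. -/
theorem pair_rot (a b : ℂ) (θ : ℝ) :
    (starRingEnd ℂ a * ((Real.cos θ : ℂ) * a - (Real.sin θ : ℂ) * b) +
      starRingEnd ℂ b * ((Real.sin θ : ℂ) * a + (Real.cos θ : ℂ) * b)).re =
      Real.cos θ * (Complex.normSq a + Complex.normSq b) :=
  pair_rot_aux a b _ _

theorem normSq_rot_aux (a b : ℂ) (c s : ℝ) (h : s ^ 2 + c ^ 2 = 1) :
    Complex.normSq ((c : ℂ) * a - (s : ℂ) * b) +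
      Complex.normSq ((s : ℂ) * a + (c : ℂ) * b) =
      Complex.normSq a + Complex.normSq b := by
  simp [Complex.normSq_apply]
  have e : (c * a.re - s * b.re) * (c * a.re - s * b.re) +
      (c * a.im - s * b.im) * (c * a.im - s * b.im) +
      ((s * a.re + c * b.re) * (s * a.re + c * b.re) +
        (s * a.im + c * b.im) * (s * a.im + c * b.im)) =
      (s ^ 2 + c ^ 2) * (a.re * a.re + a.im * a.im + (b.re * b.re + b.im * b.im)) := by ring
  rw [e, h, one_mul]

/-- Rotations preserve the squared length of the rotated pair. -/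
theorem normSq_rot (a b : ℂ) (θ : ℝ) :
    Complex.normSq ((Real.cos θ : ℂ) * a - (Real.sin θ : ℂ) * b) +
      Complex.normSq ((Real.sin θ : ℂ) * a + (Real.cos θ : ℂ) * b) =
      Complex.normSq a + Complex.normSq b :=
  normSq_rot_aux a b _ _ (Real.sin_sq_add_cos_sq θ)

/-- The moment value is bounded by the squared length of the pair. -/
theorem abs_mu_le (j k : Fin 5) (z : Fin 5 → ℂ) :
    |mu j k z| ≤ Complex.normSq (z j) + Complex.normSq (z k) := by
  unfold mu
  rw [abs_le]
  simp [Complex.normSq_apply]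
  constructor <;> nlinarith [sq_nonneg ((z j).re - (z k).im), sq_nonneg ((z j).re + (z k).im),
    sq_nonneg ((z j).im - (z k).re), sq_nonneg ((z j).im + (z k).re)]

/-- The real pairing is symmetric. -/
theorem re_conj_mul_comm (a b : ℂ) : (starRingEnd ℂ a * b).re = (starRingEnd ℂ b * a).re := by
  simp
  ring

/-! ### The main statement -/

/-- **Package F1.**  If the first two angle functions have negative cosine and the last two
have positive cosine on `[-1, 1]`, then the composite of the four twists maps no point `z` of the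
unit cone with `z 0 ≠ 0` to a multiple of itself. -/
theorem no_fixed_of_z0_ne (f12 f34 f14 f23 : ℝ → ℝ)
    (h12 : ∀ x : ℝ, |x| ≤ 1 → Real.cos (f12 x) < 0)
    (h34 : ∀ x : ℝ, |x| ≤ 1 → Real.cos (f34 x) < 0)
    (h14 : ∀ x : ℝ, |x| ≤ 1 → 0 < Real.cos (f14 x))
    (h23 : ∀ x : ℝ, |x| ≤ 1 → 0 < Real.cos (f23 x))
    (z : Fin 5 → ℂ) (hz : z ∈ unitCone) (h0 : z 0 ≠ 0) (c : ℂ) :
    twist 2 3 f23 (twist 1 4 f14 (twist 3 4 f34 (twist 1 2 f12 z))) ≠ c • z := by
  intro hfix
  set y1 := twist 1 2 f12 z with hy1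
  set y := twist 3 4 f34 y1 with hy
  set y3 := twist 1 4 f14 y with hy3
  -- the first stage in coordinates
  have a1 : y 1 = (Real.cos (f12 (mu 1 2 z)) : ℂ) * z 1 - (Real.sin (f12 (mu 1 2 z)) : ℂ) * z 2 := by
    rw [hy, twist_apply_other 3 4 1 (by decide) (by decide), hy1, twist_apply_fst]
  have a2 : y 2 = (Real.sin (f12 (mu 1 2 z)) : ℂ) * z 1 + (Real.cos (f12 (mu 1 2 z)) : ℂ) * z 2 := by
    rw [hy, twist_apply_other 3 4 2 (by decide) (by decide), hy1,
      twist_apply_snd 1 2 (by decide)]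
  have b3 : y1 3 = z 3 := twist_apply_other 1 2 3 (by decide) (by decide) f12 z
  have b4 : y1 4 = z 4 := twist_apply_other 1 2 4 (by decide) (by decide) f12 z
  have a3 : y 3 = (Real.cos (f34 (mu 3 4 y1)) : ℂ) * z 3 - (Real.sin (f34 (mu 3 4 y1)) : ℂ) * z 4 := by
    rw [hy, twist_apply_fst, b3, b4]
  have a4 : y 4 = (Real.sin (f34 (mu 3 4 y1)) : ℂ) * z 3 + (Real.cos (f34 (mu 3 4 y1)) : ℂ) * z 4 := by
    rw [hy, twist_apply_snd 3 4 (by decide), b3, b4]
  have a0 : y 0 = z 0 := by
    rw [hy, twist_apply_other 3 4 0 (by decide) (by decide), hy1,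
      twist_apply_other 1 2 0 (by decide) (by decide)]
  -- the second stage in coordinates
  set w := twist 2 3 f23 y3 with hw
  have c2 : y3 2 = y 2 := twist_apply_other 1 4 2 (by decide) (by decide) f14 y
  have c3 : y3 3 = y 3 := twist_apply_other 1 4 3 (by decide) (by decide) f14 y
  have d1 : w 1 = (Real.cos (f14 (mu 1 4 y)) : ℂ) * y 1 - (Real.sin (f14 (mu 1 4 y)) : ℂ) * y 4 := by
    rw [hw, twist_apply_other 2 3 1 (by decide) (by decide), hy3, twist_apply_fst]
  have d4 : w 4 = (Real.sin (f14 (mu 1 4 y)) : ℂ) * y 1 + (Real.cos (f14 (mu 1 4 y)) : ℂ) * y 4 := by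
    rw [hw, twist_apply_other 2 3 4 (by decide) (by decide), hy3,
      twist_apply_snd 1 4 (by decide)]
  have d2 : w 2 = (Real.cos (f23 (mu 2 3 y3)) : ℂ) * y 2 - (Real.sin (f23 (mu 2 3 y3)) : ℂ) * y 3 := by
    rw [hw, twist_apply_fst, c2, c3]
  have d3 : w 3 = (Real.sin (f23 (mu 2 3 y3)) : ℂ) * y 2 + (Real.cos (f23 (mu 2 3 y3)) : ℂ) * y 3 := by
    rw [hw, twist_apply_snd 2 3 (by decide), c2, c3]
  have d0 : w 0 = z 0 := by
    rw [hw, twist_apply_other 2 3 0 (by decide) (by decide), hy3,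
      twist_apply_other 1 4 0 (by decide) (by decide), a0]
  -- the multiplier is 1
  have hc : c = 1 := by
    have h := congrFun hfix 0
    rw [d0] at h
    simp only [Pi.smul_apply, smul_eq_mul] at h
    have h' : (c - 1) * z 0 = 0 := by rw [sub_mul, one_mul, ← h, sub_self]
    rcases mul_eq_zero.1 h' with h'' | h''
    · exact sub_eq_zero.1 h''
    · exact absurd h'' h0
  rw [hc, one_smul] at hfix
  -- squared lengths
  have hn : nsq z = 1 := nsq_eq_one_of_mem hz
  rw [nsq_expand] at hn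
  have p0 := Complex.normSq_nonneg (z 0)
  have p1 := Complex.normSq_nonneg (z 1)
  have p2 := Complex.normSq_nonneg (z 2)
  have p3 := Complex.normSq_nonneg (z 3)
  have p4 := Complex.normSq_nonneg (z 4)
  have m12 : Complex.normSq (y 1) + Complex.normSq (y 2) =
      Complex.normSq (z 1) + Complex.normSq (z 2) := by
    rw [a1, a2, normSq_rot]
  have m34 : Complex.normSq (y 3) + Complex.normSq (y 4) =
      Complex.normSq (z 3) + Complex.normSq (z 4) := by
    rw [a3, a4, normSq_rot]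
  have q1 := Complex.normSq_nonneg (y 1)
  have q2 := Complex.normSq_nonneg (y 2)
  have q3 := Complex.normSq_nonneg (y 3)
  have q4 := Complex.normSq_nonneg (y 4)
  -- the four moment values lie in [-1, 1]
  have u12 : |mu 1 2 z| ≤ 1 := (abs_mu_le 1 2 z).trans (by linarith)
  have u34 : |mu 3 4 y1| ≤ 1 := by
    have := abs_mu_le 3 4 y1
    rw [b3, b4] at this
    exact this.trans (by linarith)
  have u14 : |mu 1 4 y| ≤ 1 := (abs_mu_le 1 4 y).trans (by linarith)
  have u23 : |mu 2 3 y3| ≤ 1 := by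
    have := abs_mu_le 2 3 y3
    rw [c2, c3] at this
    exact this.trans (by linarith)
  have k12 := h12 _ u12
  have k34 := h34 _ u34
  have k14 := h14 _ u14
  have k23 := h23 _ u23
  -- the pairings
  have A : (starRingEnd ℂ (z 1) * y 1 + starRingEnd ℂ (z 2) * y 2).re =
      Real.cos (f12 (mu 1 2 z)) * (Complex.normSq (z 1) + Complex.normSq (z 2)) := by
    rw [a1, a2, pair_rot]
  have B : (starRingEnd ℂ (z 3) * y 3 + starRingEnd ℂ (z 4) * y 4).re =
      Real.cos (f34 (mu 3 4 y1)) * (Complex.normSq (z 3) + Complex.normSq (z 4)) := by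
    rw [a3, a4, pair_rot]
  have C : (starRingEnd ℂ (y 1) * w 1 + starRingEnd ℂ (y 4) * w 4).re =
      Real.cos (f14 (mu 1 4 y)) * (Complex.normSq (y 1) + Complex.normSq (y 4)) := by
    rw [d1, d4, pair_rot]
  have D : (starRingEnd ℂ (y 2) * w 2 + starRingEnd ℂ (y 3) * w 3).re =
      Real.cos (f23 (mu 2 3 y3)) * (Complex.normSq (y 2) + Complex.normSq (y 3)) := by
    rw [d2, d3, pair_rot]
  -- w = z
  have w1 : w 1 = z 1 := congrFun hfix 1
  have w2 : w 2 = z 2 := congrFun hfix 2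
  have w3 : w 3 = z 3 := congrFun hfix 3
  have w4 : w 4 = z 4 := congrFun hfix 4
  rw [w1, w4] at C
  rw [w2, w3] at D
  simp only [Complex.add_re] at A B C D
  rw [re_conj_mul_comm (y 1) (z 1), re_conj_mul_comm (y 4) (z 4)] at C
  rw [re_conj_mul_comm (y 2) (z 2), re_conj_mul_comm (y 3) (z 3)] at D
  -- the part of z in the coordinates 1..4 is nonzero
  have hpos : 0 < Complex.normSq (z 1) + Complex.normSq (z 2) + Complex.normSq (z 3) +
      Complex.normSq (z 4) := by
    by_contra hcon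
    have hz0 : Complex.normSq (z 1) + Complex.normSq (z 2) + Complex.normSq (z 3) +
        Complex.normSq (z 4) = 0 := by linarith
    have z1 : z 1 = 0 := Complex.normSq_eq_zero.1 (by linarith)
    have z2 : z 2 = 0 := Complex.normSq_eq_zero.1 (by linarith)
    have z3 : z 3 = 0 := Complex.normSq_eq_zero.1 (by linarith)
    have z4 : z 4 = 0 := Complex.normSq_eq_zero.1 (by linarith)
    have hq := hz.2
    simp [Fin.sum_univ_succ, z1, z2, z3, z4] at hq
    exact h0 hq
  -- sign contradiction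
  have hneg : Real.cos (f12 (mu 1 2 z)) * (Complex.normSq (z 1) + Complex.normSq (z 2)) +
      Real.cos (f34 (mu 3 4 y1)) * (Complex.normSq (z 3) + Complex.normSq (z 4)) < 0 := by
    rcases lt_or_eq_of_le (add_nonneg p1 p2) with h | h
    · have t1 := mul_neg_of_neg_of_pos k12 h
      have t2 := mul_nonpos_of_nonpos_of_nonneg k34.le (add_nonneg p3 p4)
      linarith
    · have h' : 0 < Complex.normSq (z 3) + Complex.normSq (z 4) := by linarith
      have t2 := mul_neg_of_neg_of_pos k34 h'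
      rw [← h, mul_zero]
      linarith
  have hnn : 0 ≤ Real.cos (f14 (mu 1 4 y)) * (Complex.normSq (y 1) + Complex.normSq (y 4)) +
      Real.cos (f23 (mu 2 3 y3)) * (Complex.normSq (y 2) + Complex.normSq (y 3)) :=
    add_nonneg (mul_nonneg k14.le (add_nonneg q1 q4)) (mul_nonneg k23.le (add_nonneg q2 q3))
  linarith

/-! ### The explicit angle functions -/

theorem abs_two_arctan_lt (t : ℝ) (ht : |t| < 1) :
    -(Real.pi / 2) < 2 * Real.arctan t ∧ 2 * Real.arctan t < Real.pi / 2 := by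
  have h1 : Real.arctan t < Real.pi / 4 := by
    rw [← Real.arctan_one]
    exact Real.arctan_strictMono (abs_lt.1 ht).2
  have h2 : -(Real.pi / 4) < Real.arctan t := by
    rw [← Real.arctan_one, ← Real.arctan_neg]
    exact Real.arctan_strictMono (abs_lt.1 ht).1
  constructor <;> linarith

theorem cos_two_arctan_pos (t : ℝ) (ht : |t| < 1) : 0 < Real.cos (2 * Real.arctan t) :=
  Real.cos_pos_of_mem_Ioo ⟨(abs_two_arctan_lt t ht).1, (abs_two_arctan_lt t ht).2⟩

theorem cos_pi_add_two_arctan_neg (t : ℝ) (ht : |t| < 1) :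
    Real.cos (Real.pi + 2 * Real.arctan t) < 0 := by
  rw [add_comm, Real.cos_add_pi]
  linarith [cos_two_arctan_pos t ht]

theorem cos_pi_sub_two_arctan_neg (t : ℝ) (ht : |t| < 1) :
    Real.cos (Real.pi - 2 * Real.arctan t) < 0 := by
  rw [Real.cos_pi_sub]
  linarith [cos_two_arctan_pos t ht]

theorem abs_k_mul_add_lt (x : ℝ) (hx : |x| ≤ 1) : |(17 / 62 : ℝ) * (1 + 2 * x)| < 1 := by
  rw [abs_le] at hx
  rw [abs_lt]
  constructor <;> linarith [hx.1, hx.2]

theorem abs_k_mul_sub_lt (x : ℝ) (hx : |x| ≤ 1) : |(17 / 62 : ℝ) * (1 - 2 * x)| < 1 := by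
  rw [abs_le] at hx
  rw [abs_lt]
  constructor <;> linarith [hx.1, hx.2]

/-- **Package F1, explicit form** (`k = 17/62`): no point `z` of the unit cone with `z 0 ≠ 0`
is mapped to a multiple of itself by the composite of the four twists with the angle functions
`π + 2 arctan (k (1 + 2x))`, `π - 2 arctan (k (1 + 2x))`, `2 arctan (k (1 + 2x))`,
`2 arctan (k (1 - 2x))` in the planes `(1,2)`, `(3,4)`, `(1,4)`, `(2,3)`. -/
theorem no_fixed_of_z0_ne_explicit (z : Fin 5 → ℂ) (hz : z ∈ unitCone) (h0 : z 0 ≠ 0) (c : ℂ) :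
    twist 2 3 (fun x : ℝ => 2 * Real.arctan (17 / 62 * (1 - 2 * x)))
      (twist 1 4 (fun x : ℝ => 2 * Real.arctan (17 / 62 * (1 + 2 * x)))
        (twist 3 4 (fun x : ℝ => Real.pi - 2 * Real.arctan (17 / 62 * (1 + 2 * x)))
          (twist 1 2 (fun x : ℝ => Real.pi + 2 * Real.arctan (17 / 62 * (1 + 2 * x))) z))) ≠
      c • z :=
  no_fixed_of_z0_ne _ _ _ _
    (fun x hx => cos_pi_add_two_arctan_neg _ (abs_k_mul_add_lt x hx))
    (fun x hx => cos_pi_sub_two_arctan_neg _ (abs_k_mul_add_lt x hx))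
    (fun x hx => cos_two_arctan_pos _ (abs_k_mul_add_lt x hx))
    (fun x hx => cos_two_arctan_pos _ (abs_k_mul_sub_lt x hx))
    z hz h0 c

/-- Consequence for fixed lines: a cone point `z` whose line is fixed by the composite of the
four twists has `z 0 = 0`. -/
theorem z0_eq_zero_of_fixed (f12 f34 f14 f23 : ℝ → ℝ)
    (h12 : ∀ x : ℝ, |x| ≤ 1 → Real.cos (f12 x) < 0)
    (h34 : ∀ x : ℝ, |x| ≤ 1 → Real.cos (f34 x) < 0)
    (h14 : ∀ x : ℝ, |x| ≤ 1 → 0 < Real.cos (f14 x))
    (h23 : ∀ x : ℝ, |x| ≤ 1 → 0 < Real.cos (f23 x))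
    (z : Fin 5 → ℂ) (hz : z ∈ unitCone)
    (hfix : twist 2 3 f23 (twist 1 4 f14 (twist 3 4 f34 (twist 1 2 f12 z))) ∈
      Submodule.span ℂ {z}) : z 0 = 0 := by
  by_contra h0
  obtain ⟨c, hc⟩ := Submodule.mem_span_singleton.1 hfix
  exact no_fixed_of_z0_ne f12 f34 f14 f23 h12 h34 h14 h23 z hz h0 c hc.symm

end Crest.Agent.LibS0316F1
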