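import Mathlib
import Crest.Prelude.Def_QuadricHamiltonian

/-!
# S0316, package LINE (helper11): equal moment values ⇒ same complex line

For two points `z z'` of the unit isotropic cone whose moment values
`2 * Im (conj (z j) * z k)` agree for all `j k`, one has `z' = herm z z' • z`.
The statements are definition-free: the hypotheses are written with
`2 * (starRingEnd ℂ (z j) * z k).im`, which is what `mu j k z` unfolds to.
-/

set_option autoImplicit false

namespace Crest.Agent.LibS0316Line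

open Crest.GeometryTopology.Quadric

/-- Core: all moment values agree ⇒ `z' = herm z z' • z`. -/
theorem line_core (z z' : Fin 5 → ℂ) (hz : z ∈ unitCone) (hz' : z' ∈ unitCone)
    (H : ∀ j k : Fin 5,
      (starRingEnd ℂ (z' j) * z' k).im = (starRingEnd ℂ (z j) * z k).im) :
    z' = herm z z' • z := by
  have key : ∀ a : ℂ, a - starRingEnd ℂ a = 2 * (a.im : ℂ) * Complex.I := by
    intro a
    apply Complex.ext <;> simp
    ring
  have Hm : ∀ j k : Fin 5, starRingEnd ℂ (z' j) * z' k - z' j * starRingEnd ℂ (z' k) =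
      starRingEnd ℂ (z j) * z k - z j * starRingEnd ℂ (z k) := by
    intro j k
    have e1 := key (starRingEnd ℂ (z' j) * z' k)
    have e2 := key (starRingEnd ℂ (z j) * z k)
    simp only [map_mul, Complex.conj_conj] at e1 e2
    rw [e1, e2, H j k]
  have hn : ∑ j, starRingEnd ℂ (z j) * z j = 1 := hz.1
  have hq : ∑ j, z j ^ 2 = 0 := hz.2
  have hn' : ∑ j, starRingEnd ℂ (z' j) * z' j = 1 := hz'.1
  have hq' : ∑ j, z' j ^ 2 = 0 := hz'.2
  set b : ℂ := ∑ j, z j * z' j with hb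
  have hc : herm z z' = ∑ j, starRingEnd ℂ (z j) * z' j := rfl
  -- Step A
  have A : ∀ k : Fin 5, z' k = z k * herm z z' - starRingEnd ℂ (z k) * b := by
    intro k
    calc z' k = z' k * (∑ j, starRingEnd ℂ (z' j) * z' j)
          - starRingEnd ℂ (z' k) * ∑ j, z' j ^ 2 := by rw [hn', hq']; ring
      _ = ∑ j, z' j * (starRingEnd ℂ (z' j) * z' k - z' j * starRingEnd ℂ (z' k)) := by
          rw [Finset.mul_sum, Finset.mul_sum, ← Finset.sum_sub_distrib]
          refine Finset.sum_congr rfl (fun j _ => ?_)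
          ring
      _ = ∑ j, z' j * (starRingEnd ℂ (z j) * z k - z j * starRingEnd ℂ (z k)) := by
          refine Finset.sum_congr rfl (fun j _ => ?_)
          rw [Hm j k]
      _ = z k * herm z z' - starRingEnd ℂ (z k) * b := by
          rw [hc, hb, Finset.mul_sum, Finset.mul_sum, ← Finset.sum_sub_distrib]
          refine Finset.sum_congr rfl (fun j _ => ?_)
          ring
  -- Step B
  have B : b = 0 := by
    have h1 : b = herm z z' * ∑ k, z k ^ 2 - b * ∑ k, starRingEnd ℂ (z k) * z k := by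
      rw [Finset.mul_sum, Finset.mul_sum, ← Finset.sum_sub_distrib]
      conv_lhs => rw [hb]
      refine Finset.sum_congr rfl (fun k _ => ?_)
      rw [A k]
      ring
    rw [hq, hn] at h1
    have h2 : 2 * b = 0 := by linear_combination h1
    simpa using h2
  funext k
  rw [A k, B]
  simp [mul_comm]

/-- LINE with the six moment equalities `mu j k z' = mu j k z`, `1 ≤ j < k ≤ 4`, for points
with vanishing zeroth coordinate. -/
theorem line_of_mu (z z' : Fin 5 → ℂ) (hz : z ∈ unitCone) (hz' : z' ∈ unitCone)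
    (h0 : z 0 = 0) (h0' : z' 0 = 0)
    (h12 : 2 * (starRingEnd ℂ (z' 1) * z' 2).im = 2 * (starRingEnd ℂ (z 1) * z 2).im)
    (h13 : 2 * (starRingEnd ℂ (z' 1) * z' 3).im = 2 * (starRingEnd ℂ (z 1) * z 3).im)
    (h14 : 2 * (starRingEnd ℂ (z' 1) * z' 4).im = 2 * (starRingEnd ℂ (z 1) * z 4).im)
    (h23 : 2 * (starRingEnd ℂ (z' 2) * z' 3).im = 2 * (starRingEnd ℂ (z 2) * z 3).im)
    (h24 : 2 * (starRingEnd ℂ (z' 2) * z' 4).im = 2 * (starRingEnd ℂ (z 2) * z 4).im)
    (h34 : 2 * (starRingEnd ℂ (z' 3) * z' 4).im = 2 * (starRingEnd ℂ (z 3) * z 4).im) :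
    z' = herm z z' • z := by
  have anti : ∀ (w : Fin 5 → ℂ) (j k : Fin 5),
      (starRingEnd ℂ (w k) * w j).im = - (starRingEnd ℂ (w j) * w k).im := by
    intro w j k
    simp only [Complex.mul_im, Complex.conj_re, Complex.conj_im]
    ring
  have diag : ∀ (w : Fin 5 → ℂ) (j : Fin 5), (starRingEnd ℂ (w j) * w j).im = 0 := by
    intro w j
    simp only [Complex.mul_im, Complex.conj_re, Complex.conj_im]
    ring
  have z0l : ∀ (w : Fin 5 → ℂ), w 0 = 0 → ∀ k : Fin 5, (starRingEnd ℂ (w 0) * w k).im = 0 := by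
    intro w hw k; rw [hw]; simp
  have z0r : ∀ (w : Fin 5 → ℂ), w 0 = 0 → ∀ k : Fin 5, (starRingEnd ℂ (w k) * w 0).im = 0 := by
    intro w hw k; rw [hw]; simp
  have e12 : (starRingEnd ℂ (z' 1) * z' 2).im = (starRingEnd ℂ (z 1) * z 2).im := by linarith
  have e13 : (starRingEnd ℂ (z' 1) * z' 3).im = (starRingEnd ℂ (z 1) * z 3).im := by linarith
  have e14 : (starRingEnd ℂ (z' 1) * z' 4).im = (starRingEnd ℂ (z 1) * z 4).im := by linarith
  have e23 : (starRingEnd ℂ (z' 2) * z' 3).im = (starRingEnd ℂ (z 2) * z 3).im := by linarith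
  have e24 : (starRingEnd ℂ (z' 2) * z' 4).im = (starRingEnd ℂ (z 2) * z 4).im := by linarith
  have e34 : (starRingEnd ℂ (z' 3) * z' 4).im = (starRingEnd ℂ (z 3) * z 4).im := by linarith
  refine line_core z z' hz hz' ?_
  intro j k
  fin_cases j <;> fin_cases k <;>
    first
    | exact (z0l z' h0' _).trans (z0l z h0 _).symm
    | exact (z0r z' h0' _).trans (z0r z h0 _).symm
    | exact (diag z' _).trans (diag z _).symm
    | exact e12 | exact e13 | exact e14 | exact e23 | exact e24 | exact e34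
    | exact (anti z' 1 2).trans ((congrArg Neg.neg e12).trans (anti z 1 2).symm)
    | exact (anti z' 1 3).trans ((congrArg Neg.neg e13).trans (anti z 1 3).symm)
    | exact (anti z' 1 4).trans ((congrArg Neg.neg e14).trans (anti z 1 4).symm)
    | exact (anti z' 2 3).trans ((congrArg Neg.neg e23).trans (anti z 2 3).symm)
    | exact (anti z' 2 4).trans ((congrArg Neg.neg e24).trans (anti z 2 4).symm)
    | exact (anti z' 3 4).trans ((congrArg Neg.neg e34).trans (anti z 3 4).symm)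

/-- LINE in the shape of the `(U, V)` coordinates
`U1 = mu 2 3 + mu 1 4`, `U2 = mu 2 4 - mu 1 3`, `U3 = mu 1 2 + mu 3 4`,
`V1 = mu 2 3 - mu 1 4`, `V2 = - mu 1 3 - mu 2 4`, `V3 = mu 1 2 - mu 3 4`. -/
theorem line_of_uv (z z' : Fin 5 → ℂ) (hz : z ∈ unitCone) (hz' : z' ∈ unitCone)
    (h0 : z 0 = 0) (h0' : z' 0 = 0)
    (hU1 : 2 * (starRingEnd ℂ (z' 2) * z' 3).im + 2 * (starRingEnd ℂ (z' 1) * z' 4).im =
      2 * (starRingEnd ℂ (z 2) * z 3).im + 2 * (starRingEnd ℂ (z 1) * z 4).im)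
    (hU2 : 2 * (starRingEnd ℂ (z' 2) * z' 4).im - 2 * (starRingEnd ℂ (z' 1) * z' 3).im =
      2 * (starRingEnd ℂ (z 2) * z 4).im - 2 * (starRingEnd ℂ (z 1) * z 3).im)
    (hU3 : 2 * (starRingEnd ℂ (z' 1) * z' 2).im + 2 * (starRingEnd ℂ (z' 3) * z' 4).im =
      2 * (starRingEnd ℂ (z 1) * z 2).im + 2 * (starRingEnd ℂ (z 3) * z 4).im)
    (hV1 : 2 * (starRingEnd ℂ (z' 2) * z' 3).im - 2 * (starRingEnd ℂ (z' 1) * z' 4).im =
      2 * (starRingEnd ℂ (z 2) * z 3).im - 2 * (starRingEnd ℂ (z 1) * z 4).im)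
    (hV2 : -(2 * (starRingEnd ℂ (z' 1) * z' 3).im) - 2 * (starRingEnd ℂ (z' 2) * z' 4).im =
      -(2 * (starRingEnd ℂ (z 1) * z 3).im) - 2 * (starRingEnd ℂ (z 2) * z 4).im)
    (hV3 : 2 * (starRingEnd ℂ (z' 1) * z' 2).im - 2 * (starRingEnd ℂ (z' 3) * z' 4).im =
      2 * (starRingEnd ℂ (z 1) * z 2).im - 2 * (starRingEnd ℂ (z 3) * z 4).im) :
    z' = herm z z' • z :=
  line_of_mu z z' hz hz' h0 h0' (by linarith) (by linarith) (by linarith) (by linarith)
    (by linarith) (by linarith)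

/-- Existential form of `line_of_uv`. -/
theorem line (z z' : Fin 5 → ℂ) (hz : z ∈ unitCone) (hz' : z' ∈ unitCone)
    (h0 : z 0 = 0) (h0' : z' 0 = 0)
    (hU1 : 2 * (starRingEnd ℂ (z' 2) * z' 3).im + 2 * (starRingEnd ℂ (z' 1) * z' 4).im =
      2 * (starRingEnd ℂ (z 2) * z 3).im + 2 * (starRingEnd ℂ (z 1) * z 4).im)
    (hU2 : 2 * (starRingEnd ℂ (z' 2) * z' 4).im - 2 * (starRingEnd ℂ (z' 1) * z' 3).im =
      2 * (starRingEnd ℂ (z 2) * z 4).im - 2 * (starRingEnd ℂ (z 1) * z 3).im)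
    (hU3 : 2 * (starRingEnd ℂ (z' 1) * z' 2).im + 2 * (starRingEnd ℂ (z' 3) * z' 4).im =
      2 * (starRingEnd ℂ (z 1) * z 2).im + 2 * (starRingEnd ℂ (z 3) * z 4).im)
    (hV1 : 2 * (starRingEnd ℂ (z' 2) * z' 3).im - 2 * (starRingEnd ℂ (z' 1) * z' 4).im =
      2 * (starRingEnd ℂ (z 2) * z 3).im - 2 * (starRingEnd ℂ (z 1) * z 4).im)
    (hV2 : -(2 * (starRingEnd ℂ (z' 1) * z' 3).im) - 2 * (starRingEnd ℂ (z' 2) * z' 4).im =
      -(2 * (starRingEnd ℂ (z 1) * z 3).im) - 2 * (starRingEnd ℂ (z 2) * z 4).im)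
    (hV3 : 2 * (starRingEnd ℂ (z' 1) * z' 2).im - 2 * (starRingEnd ℂ (z' 3) * z' 4).im =
      2 * (starRingEnd ℂ (z 1) * z 2).im - 2 * (starRingEnd ℂ (z 3) * z 4).im) :
    ∃ c : ℂ, z' = c • z :=
  ⟨herm z z', line_of_uv z z' hz hz' h0 h0' hU1 hU2 hU3 hV1 hV2 hV3⟩

/-- For cone points, `z' = c • z` puts `z'` on the line spanned by `z` and the two spans agree. -/
theorem span_eq_of_smul (z z' : Fin 5 → ℂ) (hz' : z' ∈ unitCone) (c : ℂ) (h : z' = c • z) :
    Submodule.span ℂ {z'} = Submodule.span ℂ {z} := by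
  have hc : c ≠ 0 := by
    rintro rfl
    have h1 : herm z' z' = 1 := hz'.1
    rw [h] at h1
    simp [herm] at h1
  rw [h]
  exact Submodule.span_singleton_smul_eq (IsUnit.mk0 c hc) z

end Crest.Agent.LibS0316Line
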