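import Mathlib
import Crest.Agent.Lib_S0316_Phi

/-!
S0316, package MID: a fixed point of `uvMap` on `S² × S²` satisfies the four polynomial
equations `E1 … E4` (the hypotheses of the classification `classify` of package ALG).

With Cayley parameters `a, b` the rotation coefficients of a stage are
`((p² - r²)/(p² + r²), 2pr/(p² + r²))` with `(p, r) = (1 + ab, a - b)` resp. `(1 - ab, a + b)`,
and `p² + r² = (1 + a²)(1 + b²) > 0`.  A rotation with `C x - S y = x` has `r (r x + p y) = 0`,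
and then the second coordinate is `± y`; the degenerate branches are excluded by a finite case
analysis (they all lead to `u = -e₃`, `v = e₁`).
-/

set_option autoImplicit false

namespace Crest.Agent.LibS0316

theorem cay_cc_add (a b : ℝ) : cayC a * cayC b + cayS a * cayS b =
    ((1 + a * b) ^ 2 - (a - b) ^ 2) / ((1 + a * b) ^ 2 + (a - b) ^ 2) := by
  have h1 : (1 : ℝ) + a ^ 2 ≠ 0 := by positivity
  have h2 : (1 : ℝ) + b ^ 2 ≠ 0 := by positivity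
  have hd : (1 + a * b) ^ 2 + (a - b) ^ 2 = (1 + a ^ 2) * (1 + b ^ 2) := by ring
  rw [hd]; unfold cayC cayS; field_simp; ring

theorem cay_sc_sub (a b : ℝ) : cayS a * cayC b - cayC a * cayS b =
    2 * (1 + a * b) * (a - b) / ((1 + a * b) ^ 2 + (a - b) ^ 2) := by
  have h1 : (1 : ℝ) + a ^ 2 ≠ 0 := by positivity
  have h2 : (1 : ℝ) + b ^ 2 ≠ 0 := by positivity
  have hd : (1 + a * b) ^ 2 + (a - b) ^ 2 = (1 + a ^ 2) * (1 + b ^ 2) := by ring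
  rw [hd]; unfold cayC cayS; field_simp; ring

theorem cay_cc_sub (a b : ℝ) : cayC a * cayC b - cayS a * cayS b =
    ((1 - a * b) ^ 2 - (a + b) ^ 2) / ((1 - a * b) ^ 2 + (a + b) ^ 2) := by
  have h1 : (1 : ℝ) + a ^ 2 ≠ 0 := by positivity
  have h2 : (1 : ℝ) + b ^ 2 ≠ 0 := by positivity
  have hd : (1 - a * b) ^ 2 + (a + b) ^ 2 = (1 + a ^ 2) * (1 + b ^ 2) := by ring
  rw [hd]; unfold cayC cayS; field_simp; ring

theorem cay_sc_add (a b : ℝ) : cayS a * cayC b + cayC a * cayS b =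
    2 * (1 - a * b) * (a + b) / ((1 - a * b) ^ 2 + (a + b) ^ 2) := by
  have h1 : (1 : ℝ) + a ^ 2 ≠ 0 := by positivity
  have h2 : (1 : ℝ) + b ^ 2 ≠ 0 := by positivity
  have hd : (1 - a * b) ^ 2 + (a + b) ^ 2 = (1 + a ^ 2) * (1 + b ^ 2) := by ring
  rw [hd]; unfold cayC cayS; field_simp; ring

theorem cay_den_pos (a b : ℝ) : 0 < (1 + a * b) ^ 2 + (a - b) ^ 2 := by
  have hd : (1 + a * b) ^ 2 + (a - b) ^ 2 = (1 + a ^ 2) * (1 + b ^ 2) := by ring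
  rw [hd]; positivity

theorem cay_den_pos' (a b : ℝ) : 0 < (1 - a * b) ^ 2 + (a + b) ^ 2 := by
  have hd : (1 - a * b) ^ 2 + (a + b) ^ 2 = (1 + a ^ 2) * (1 + b ^ 2) := by ring
  rw [hd]; positivity

/-- Stage A: a rotation with Cayley data `(p, r)` fixing the first coordinate. -/
theorem rotA {p r x y y' : ℝ} (hN : 0 < p ^ 2 + r ^ 2)
    (hx : (p ^ 2 - r ^ 2) / (p ^ 2 + r ^ 2) * x - 2 * p * r / (p ^ 2 + r ^ 2) * y = x)
    (hy : y' = 2 * p * r / (p ^ 2 + r ^ 2) * x + (p ^ 2 - r ^ 2) / (p ^ 2 + r ^ 2) * y) :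
    (r = 0 ∧ y' = y) ∨ (r * x + p * y = 0 ∧ y' = -y) := by
  have hN' : p ^ 2 + r ^ 2 ≠ 0 := ne_of_gt hN
  have hx' : (p ^ 2 - r ^ 2) * x - 2 * p * r * y = x * (p ^ 2 + r ^ 2) := by
    have := hx
    field_simp at this
    linarith
  have hy' : y' * (p ^ 2 + r ^ 2) = 2 * p * r * x + (p ^ 2 - r ^ 2) * y := by
    rw [hy]; field_simp
  have key : r * (r * x + p * y) = 0 := by linear_combination (-1 / 2 : ℝ) * hx'
  rcases mul_eq_zero.mp key with h0 | h0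
  · left
    refine ⟨h0, ?_⟩
    have : y' * (p ^ 2 + r ^ 2) = y * (p ^ 2 + r ^ 2) := by rw [hy', h0]; ring
    exact mul_right_cancel₀ hN' this
  · right
    refine ⟨h0, ?_⟩
    have : y' * (p ^ 2 + r ^ 2) = (-y) * (p ^ 2 + r ^ 2) := by
      rw [hy']; linear_combination (2 * p) * h0
    exact mul_right_cancel₀ hN' this

/-- Stage B: a rotation with Cayley data `(P, R)` mapping `(x, y)` to `(x₀, y)`. -/
theorem rotB {P R x x₀ y : ℝ} (hN : 0 < P ^ 2 + R ^ 2)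
    (h1 : (P ^ 2 - R ^ 2) / (P ^ 2 + R ^ 2) * x - 2 * P * R / (P ^ 2 + R ^ 2) * y = x₀)
    (h2 : 2 * P * R / (P ^ 2 + R ^ 2) * x + (P ^ 2 - R ^ 2) / (P ^ 2 + R ^ 2) * y = y) :
    R * (P * x - R * y) = 0 ∧ (P ^ 2 + R ^ 2) * x₀ = (P ^ 2 - R ^ 2) * x - 2 * P * R * y := by
  have hN' : P ^ 2 + R ^ 2 ≠ 0 := ne_of_gt hN
  have h1' : (P ^ 2 - R ^ 2) * x - 2 * P * R * y = x₀ * (P ^ 2 + R ^ 2) := by
    have := h1
    field_simp at this
    linarith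
  have h2' : 2 * P * R * x + (P ^ 2 - R ^ 2) * y = y * (P ^ 2 + R ^ 2) := by
    have := h2
    field_simp at this
    linarith
  constructor
  · linear_combination (1 / 2 : ℝ) * h2'
  · linarith

/-- The case analysis behind MID, for rotation data already in `(p, r)` form. -/
theorem mid_core {k u1 u2 u3 v1 v2 v3 u2' v2' p r q s Pu Ru Pv Rv : ℝ} (hk : k ≠ 0)
    (hu : u1 ^ 2 + u2 ^ 2 + u3 ^ 2 = 1) (hv : v1 ^ 2 + v2 ^ 2 + v3 ^ 2 = 1)
    (hs : s = 2 * k * (1 + u3)) (hRu : Ru = 2 * k * (1 - v1))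
    (hNpr : 0 < p ^ 2 + r ^ 2) (hNqs : 0 < q ^ 2 + s ^ 2)
    (hNu : 0 < Pu ^ 2 + Ru ^ 2) (hNv : 0 < Pv ^ 2 + Rv ^ 2)
    (hA1 : (p ^ 2 - r ^ 2) / (p ^ 2 + r ^ 2) * u1 - 2 * p * r / (p ^ 2 + r ^ 2) * u2 = u1)
    (hA2 : u2' = 2 * p * r / (p ^ 2 + r ^ 2) * u1 + (p ^ 2 - r ^ 2) / (p ^ 2 + r ^ 2) * u2)
    (hB1 : (Pu ^ 2 - Ru ^ 2) / (Pu ^ 2 + Ru ^ 2) * u2' - 2 * Pu * Ru / (Pu ^ 2 + Ru ^ 2) * u3 = u2)
    (hB2 : 2 * Pu * Ru / (Pu ^ 2 + Ru ^ 2) * u2' + (Pu ^ 2 - Ru ^ 2) / (Pu ^ 2 + Ru ^ 2) * u3 = u3)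
    (hA3 : (q ^ 2 - s ^ 2) / (q ^ 2 + s ^ 2) * v1 - 2 * q * s / (q ^ 2 + s ^ 2) * v2 = v1)
    (hA4 : v2' = 2 * q * s / (q ^ 2 + s ^ 2) * v1 + (q ^ 2 - s ^ 2) / (q ^ 2 + s ^ 2) * v2)
    (hB3 : (Pv ^ 2 - Rv ^ 2) / (Pv ^ 2 + Rv ^ 2) * v2' - 2 * Pv * Rv / (Pv ^ 2 + Rv ^ 2) * v3 = v2)
    (hB4 : 2 * Pv * Rv / (Pv ^ 2 + Rv ^ 2) * v2' + (Pv ^ 2 - Rv ^ 2) / (Pv ^ 2 + Rv ^ 2) * v3 = v3) :
    p * u2 = -r * u1 ∧ Pu * u2 = -Ru * u3 ∧ q * v2 = -s * v1 ∧ Pv * v2 = -Rv * v3 := by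
  have hAu := rotA hNpr hA1 hA2
  have hAv := rotA hNqs hA3 hA4
  obtain ⟨hBu1, hBu2⟩ := rotB hNu hB1 hB2
  obtain ⟨hBv1, hBv2⟩ := rotB hNv hB3 hB4
  -- `s = 0` forces `u = -e₃`
  have X1 : s = 0 → u1 = 0 ∧ u2 = 0 ∧ u3 = -1 := by
    intro h0
    have h3 : u3 = -1 := by
      have : 2 * k * (1 + u3) = 0 := by rw [← hs]; exact h0
      have h' : 1 + u3 = 0 := by
        rcases mul_eq_zero.mp this with h | h
        · exact absurd h (mul_ne_zero two_ne_zero hk)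
        · exact h
      linarith
    have h12 : u1 ^ 2 + u2 ^ 2 = 0 := by rw [h3] at hu; linarith
    have h00 := (add_eq_zero_iff_of_nonneg (sq_nonneg u1) (sq_nonneg u2)).mp h12
    have h1 : u1 = 0 := (pow_eq_zero_iff two_ne_zero).mp h00.1
    have h2 : u2 = 0 := (pow_eq_zero_iff two_ne_zero).mp h00.2
    exact ⟨h1, h2, h3⟩
  -- `Ru = 0` forces `v = e₁`
  have X2 : Ru = 0 → v1 = 1 ∧ v2 = 0 ∧ v3 = 0 := by
    intro h0
    have h1 : v1 = 1 := by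
      have : 2 * k * (1 - v1) = 0 := by rw [← hRu]; exact h0
      have h' : 1 - v1 = 0 := by
        rcases mul_eq_zero.mp this with h | h
        · exact absurd h (mul_ne_zero two_ne_zero hk)
        · exact h
      linarith
    have h23 : v2 ^ 2 + v3 ^ 2 = 0 := by rw [h1] at hv; linarith
    have h00 := (add_eq_zero_iff_of_nonneg (sq_nonneg v2) (sq_nonneg v3)).mp h23
    have h2 : v2 = 0 := (pow_eq_zero_iff two_ne_zero).mp h00.1
    have h3 : v3 = 0 := (pow_eq_zero_iff two_ne_zero).mp h00.2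
    exact ⟨h1, h2, h3⟩
  -- the `u` side
  have Uside : p * u2 = -r * u1 ∧ Pu * u2 = -Ru * u3 := by
    rcases hAu with ⟨hr0, hu2'⟩ | ⟨hE1, hu2'⟩
    · rw [hu2'] at hBu1 hBu2
      by_cases hRu0 : Ru = 0
      · obtain ⟨hv1, hv2, hv3⟩ := X2 hRu0
        have hs0 : s = 0 := by
          rcases hAv with ⟨h, _⟩ | ⟨h, _⟩
          · exact h
          · rw [hv1, hv2] at h; linarith
        obtain ⟨hu1, hu2, hu3⟩ := X1 hs0
        rw [hu2, hRu0, hr0]; constructor <;> ring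
      · have e1 : Pu * u2 - Ru * u3 = 0 := (mul_eq_zero.mp hBu1).resolve_left hRu0
        have e2 : Ru * (Ru * u2 + Pu * u3) = 0 := by linear_combination (1 / 2 : ℝ) * hBu2
        have e3 : Ru * u2 + Pu * u3 = 0 := (mul_eq_zero.mp e2).resolve_left hRu0
        have e4 : (Pu ^ 2 + Ru ^ 2) * u2 = 0 := by linear_combination Pu * e1 + Ru * e3
        have hu20 : u2 = 0 := (mul_eq_zero.mp e4).resolve_left (ne_of_gt hNu)
        rw [hu20] at e1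
        rw [hu20, hr0]
        constructor
        · ring
        · linarith
    · refine ⟨by linarith, ?_⟩
      rw [hu2'] at hBu1 hBu2
      by_cases hRu0 : Ru = 0
      · rw [hRu0] at hBu2 hNu
        have e4 : (Pu ^ 2 + 0 ^ 2) * u2 = 0 := by linear_combination (1 / 2 : ℝ) * hBu2
        have hu20 : u2 = 0 := (mul_eq_zero.mp e4).resolve_left (ne_of_gt hNu)
        rw [hu20, hRu0]; ring
      · have e1 : Pu * -u2 - Ru * u3 = 0 := (mul_eq_zero.mp hBu1).resolve_left hRu0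
        linarith
  -- the `v` side
  have Vside : q * v2 = -s * v1 ∧ Pv * v2 = -Rv * v3 := by
    rcases hAv with ⟨hs0, hv2'⟩ | ⟨hE3, hv2'⟩
    · obtain ⟨hu1, hu2, hu3⟩ := X1 hs0
      have hu2'0 : u2' = 0 := by rw [hA2, hu1, hu2]; ring
      have hRu0 : Ru = 0 := by
        rw [hu2'0, hu3] at hBu1
        have : Ru ^ 2 = 0 := by linear_combination hBu1
        exact (pow_eq_zero_iff two_ne_zero).mp this
      obtain ⟨hv1, hv2, hv3⟩ := X2 hRu0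
      rw [hv2, hv3, hs0]; constructor <;> ring
    · refine ⟨by linarith, ?_⟩
      rw [hv2'] at hBv1 hBv2
      by_cases hRv0 : Rv = 0
      · rw [hRv0] at hBv2 hNv
        have e4 : (Pv ^ 2 + 0 ^ 2) * v2 = 0 := by linear_combination (1 / 2 : ℝ) * hBv2
        have hv20 : v2 = 0 := (mul_eq_zero.mp e4).resolve_left (ne_of_gt hNv)
        rw [hv20, hRv0]; ring
      · have e1 : Pv * -v2 - Rv * v3 = 0 := (mul_eq_zero.mp hBv1).resolve_left hRv0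
        linarith
  exact ⟨Uside.1, Uside.2, Vside.1, Vside.2⟩

/-- **MID.** A fixed point of `uvMap` on `S² × S²` satisfies `E1 … E4`. -/
theorem mid (u1 u2 u3 v1 v2 v3 : ℝ) (hu : u1 ^ 2 + u2 ^ 2 + u3 ^ 2 = 1)
    (hv : v1 ^ 2 + v2 ^ 2 + v3 ^ 2 = 1)
    (h : uvMap u1 u2 u3 v1 v2 v3 = (u1, u2, u3, v1, v2, v3)) :
    u2 * (1 + kap ^ 2 * ((1 + u3) ^ 2 - v3 ^ 2)) = -2 * kap * u1 * v3 ∧
    u2 * (1 - kap ^ 2 * ((1 - v1) ^ 2 - u1 ^ 2)) = -2 * kap * (1 - v1) * u3 ∧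
    v2 * (1 - kap ^ 2 * ((1 + u3) ^ 2 - v3 ^ 2)) = -2 * kap * (1 + u3) * v1 ∧
    v2 * (1 + kap ^ 2 * ((1 - v1) ^ 2 - u1 ^ 2)) = 2 * kap * u1 * v3 := by
  have hk : kap ≠ 0 := by unfold kap; norm_num
  simp only [uvMap, Prod.mk.injEq] at h
  obtain ⟨h1, h2, h3, h4, h5, h6⟩ := h
  rw [h1, h4] at h2 h3 h5 h6
  generalize ha : kap * (1 + u3 + v3) = a at h1 h2 h3 h4 h5 h6
  generalize hb : kap * (1 + u3 - v3) = b at h1 h2 h3 h4 h5 h6
  generalize ha' : kap * (1 + u1 - v1) = a' at h2 h3 h5 h6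
  generalize hb' : kap * (1 - u1 - v1) = b' at h2 h3 h5 h6
  simp only [cay_cc_add a b, cay_sc_sub a b, cay_cc_sub a b, cay_sc_add a b,
    cay_cc_sub b' a', cay_sc_add b' a', cay_cc_add b' a', cay_sc_sub b' a'] at h1 h2 h3 h4 h5 h6
  have hs : a + b = 2 * kap * (1 + u3) := by rw [← ha, ← hb]; ring
  have hRu : b' + a' = 2 * kap * (1 - v1) := by rw [← ha', ← hb']; ring
  obtain ⟨c1, c2, c3, c4⟩ := mid_core (p := 1 + a * b) (r := a - b) (q := 1 - a * b) (s := a + b)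
    (Pu := 1 - b' * a') (Ru := b' + a') (Pv := 1 + b' * a') (Rv := b' - a')
    hk hu hv hs hRu (cay_den_pos a b) (cay_den_pos' a b) (cay_den_pos' b' a') (cay_den_pos b' a')
    h1 rfl h2 h3 h4 rfl h5 h6
  rw [← ha, ← hb] at c1 c3
  rw [← ha', ← hb'] at c2 c4
  refine ⟨?_, ?_, ?_, ?_⟩
  · linear_combination c1
  · linear_combination c2
  · linear_combination c3
  · linear_combination c4

end Crest.Agent.LibS0316
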