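import Mathlib
import Crest.Prelude.Def_QuadricHamiltonian
import Crest.Agent.Lib_S0316_Lift
import Crest.Agent.Lib_S0316_Phi
import Crest.Agent.Lib_S0316_Line
import Crest.Agent.Lib_S0316_Off
import Crest.Agent.Lib_S0316_Deg
import Crest.Agent.Lib_S0316_Dict
import Crest.Agent.Lib_S0316_Mid

/-!
S0316: the abstract final glue.

Given a lift `L` whose time-one map is `Phi`, and the package results DICT (`Phi` acts on the
`(u, v)` coordinates by `uvMap`; `(u, v)` lies on `S² × S²` over `z 0 = 0`), MID + ALG (the fixed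
points of `uvMap` on `S² × S²`) and PTS (the three explicit cone points), the set of fixed lines
of `L` is `{span zStar, span (zPM 1), span (zPM (-1))}` and has exactly three elements.
The packages OFF and LINE (already available) are used directly.
-/

set_option autoImplicit false

namespace Crest.Agent.LibS0316.Glue

open Crest.GeometryTopology.Quadric
open Crest.Agent.S0316Lift
open Crest.Agent.LibS0316

/-- OFF, for `Phi`: a cone point mapped to a multiple of itself has `z 0 = 0`. -/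
theorem off_Phi {z : Fin 5 → ℂ} (hz : z ∈ unitCone) {c : ℂ} (h : Phi z = c • z) : z 0 = 0 :=
  Crest.Agent.S0316Off.z0_eq_zero_of_fixed_arctan (k := kap) (by norm_num [kap])
    (by norm_num [kap]) hz h

/-- `Phi` does not change the zeroth coordinate. -/
theorem Phi_apply_zero (z : Fin 5 → ℂ) : Phi z 0 = z 0 := by
  unfold Phi twist
  rw [rot_apply_ne (by decide) (by decide), rot_apply_ne (by decide) (by decide),
    rot_apply_ne (by decide) (by decide), rot_apply_ne (by decide) (by decide)]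

/-- The `(u, v)` coordinates are invariant under unit scalars. -/
theorem uv_smul (z : Fin 5 → ℂ) {c : ℂ} (hc : ‖c‖ = 1) :
    U1 (c • z) = U1 z ∧ U2 (c • z) = U2 z ∧ U3 (c • z) = U3 z ∧
      V1 (c • z) = V1 z ∧ V2 (c • z) = V2 z ∧ V3 (c • z) = V3 z := by
  unfold U1 U2 U3 V1 V2 V3
  simp [mu_smul _ _ hc]

/-- LINE, in terms of the `(u, v)` coordinates. -/
theorem line_uv (z z' : Fin 5 → ℂ) (hz : z ∈ unitCone) (hz' : z' ∈ unitCone)
    (h0 : z 0 = 0) (h0' : z' 0 = 0) (hU1 : U1 z' = U1 z) (hU2 : U2 z' = U2 z)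
    (hU3 : U3 z' = U3 z) (hV1 : V1 z' = V1 z) (hV2 : V2 z' = V2 z) (hV3 : V3 z' = V3 z) :
    ∃ c : ℂ, z' = c • z :=
  Crest.Agent.LibS0316Line.line z z' hz hz' h0 h0' hU1 hU2 hU3 hV1 hV2 hV3

theorem herm_smul_smul (c : ℂ) (z : Fin 5 → ℂ) :
    herm (c • z) (c • z) = (Complex.normSq c : ℂ) * herm z z := by
  unfold herm
  rw [Finset.mul_sum]
  refine Finset.sum_congr rfl fun j _ => ?_
  simp only [Pi.smul_apply, smul_eq_mul, map_mul]
  rw [Complex.normSq_eq_conj_mul_self]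
  ring

/-- A scalar relating two cone points has norm one. -/
theorem norm_eq_one_of_smul {z z' : Fin 5 → ℂ} (hz : z ∈ unitCone) (hz' : z' ∈ unitCone)
    {c : ℂ} (h : z' = c • z) : ‖c‖ = 1 := by
  have h1 : herm z' z' = 1 := hz'.1
  rw [h, herm_smul_smul, hz.1, mul_one] at h1
  have h2 : Complex.normSq c = 1 := by exact_mod_cast h1
  rw [Complex.normSq_eq_norm_sq] at h2
  have h3 : 0 ≤ ‖c‖ := norm_nonneg c
  nlinarith

/-- `r51 = √51` is positive and squares to `51`. -/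
theorem r51_pos : 0 < r51 := Real.sqrt_pos.2 (by norm_num)

theorem r51_sq : r51 ^ 2 = 51 := Real.sq_sqrt (by norm_num)

/-- The hypotheses on the three explicit points (package PTS). -/
structure PtsData : Prop where
  star_mem : zStar ∈ unitCone
  star_uv : U1 zStar = 0 ∧ U2 zStar = 0 ∧ U3 zStar = -1 ∧ V1 zStar = 1 ∧ V2 zStar = 0 ∧
    V3 zStar = 0
  pm_mem : ∀ σ : ℝ, σ = 1 ∨ σ = -1 → zPM σ ∈ unitCone
  pm_uv : ∀ σ : ℝ, σ = 1 ∨ σ = -1 → U1 (zPM σ) = 2 * σ * r51 / 17 ∧ U2 (zPM σ) = -6 / 17 ∧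
    U3 (zPM σ) = 7 / 17 ∧ V1 (zPM σ) = -7 / 17 ∧ V2 (zPM σ) = 6 / 17 ∧
    V3 (zPM σ) = 2 * σ * r51 / 17
  star_fix : uvMap 0 0 (-1) 1 0 0 = (0, 0, -1, 1, 0, 0)
  pm_fix : ∀ σ : ℝ, σ = 1 ∨ σ = -1 →
    uvMap (2 * σ * r51 / 17) (-6 / 17) (7 / 17) (-7 / 17) (6 / 17) (2 * σ * r51 / 17) =
      (2 * σ * r51 / 17, -6 / 17, 7 / 17, -7 / 17, 6 / 17, 2 * σ * r51 / 17)

/-- The hypothesis of package DICT: `Phi` acts on the `(u, v)` coordinates through `uvMap`. -/
def DictMap : Prop :=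
  ∀ z : Fin 5 → ℂ, (U1 (Phi z), U2 (Phi z), U3 (Phi z), V1 (Phi z), V2 (Phi z), V3 (Phi z)) =
    uvMap (U1 z) (U2 z) (U3 z) (V1 z) (V2 z) (V3 z)

/-- The hypothesis of package DICT: over `z 0 = 0`, `(u, v)` lies on `S² × S²`. -/
def DictSphere : Prop :=
  ∀ z ∈ unitCone, z 0 = 0 →
    U1 z ^ 2 + U2 z ^ 2 + U3 z ^ 2 = 1 ∧ V1 z ^ 2 + V2 z ^ 2 + V3 z ^ 2 = 1

/-- The hypothesis of packages MID + ALG: the fixed points of `uvMap` on `S² × S²`. -/
def Classify : Prop :=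
  ∀ u1 u2 u3 v1 v2 v3 : ℝ, u1 ^ 2 + u2 ^ 2 + u3 ^ 2 = 1 → v1 ^ 2 + v2 ^ 2 + v3 ^ 2 = 1 →
    uvMap u1 u2 u3 v1 v2 v3 = (u1, u2, u3, v1, v2, v3) →
    (u1 = 0 ∧ u2 = 0 ∧ u3 = -1 ∧ v1 = 1 ∧ v2 = 0 ∧ v3 = 0) ∨
    (u3 = 7 / 17 ∧ u2 = -6 / 17 ∧ u1 ^ 2 = 204 / 289 ∧ v1 = -7 / 17 ∧ v2 = 6 / 17 ∧ v3 = u1)

section glue

variable (L : HamiltonianConeLift) (hL : ∀ z : Fin 5 → ℂ, L.Ψ (1, z) = Phi z)
include hL

/-- `Phi` maps the cone into itself. -/
theorem Phi_mem_cone {z : Fin 5 → ℂ} (hz : z ∈ unitCone) : Phi z ∈ unitCone := by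
  have h := L.mapsTo_cone 1 z hz
  rwa [hL] at h

/-- A cone point over `z 0 = 0` whose `(u, v)` coordinates are fixed by `uvMap` spans a fixed
line. -/
theorem span_mem_fixedLines (dict : DictMap) {p : Fin 5 → ℂ} (hp : p ∈ unitCone)
    (hp0 : p 0 = 0)
    (hfix : uvMap (U1 p) (U2 p) (U3 p) (V1 p) (V2 p) (V3 p) =
      (U1 p, U2 p, U3 p, V1 p, V2 p, V3 p)) :
    Submodule.span ℂ {p} ∈ fixedLines L := by
  refine ⟨p, hp, rfl, ?_⟩
  rw [hL]
  have hΦ : Phi p ∈ unitCone := Phi_mem_cone L hL hp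
  have h0 : Phi p 0 = 0 := by rw [Phi_apply_zero, hp0]
  have hd := dict p
  rw [hfix] at hd
  simp only [Prod.mk.injEq] at hd
  obtain ⟨e1, e2, e3, e4, e5, e6⟩ := hd
  obtain ⟨c, hc⟩ := line_uv p (Phi p) hp hΦ hp0 h0 e1 e2 e3 e4 e5 e6
  rw [hc]
  exact Submodule.smul_mem _ c (Submodule.subset_span rfl)

omit hL in
/-- Two cone points over `z 0 = 0` with the same `(u, v)` coordinates span the same line. -/
theorem span_eq_of_uv {z p : Fin 5 → ℂ} (hz : z ∈ unitCone) (hp : p ∈ unitCone)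
    (hz0 : z 0 = 0) (hp0 : p 0 = 0) (hU1 : U1 z = U1 p) (hU2 : U2 z = U2 p)
    (hU3 : U3 z = U3 p) (hV1 : V1 z = V1 p) (hV2 : V2 z = V2 p) (hV3 : V3 z = V3 p) :
    Submodule.span ℂ {z} = Submodule.span ℂ {p} := by
  obtain ⟨c, hc⟩ := line_uv p z hp hz hp0 hz0 hU1 hU2 hU3 hV1 hV2 hV3
  exact Crest.Agent.LibS0316Line.span_eq_of_smul p z hz c hc

omit hL in
/-- Cone points spanning the same line have the same `(u, v)` coordinates. -/
theorem uv_eq_of_span_eq {z p : Fin 5 → ℂ} (hz : z ∈ unitCone) (hp : p ∈ unitCone)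
    (h : Submodule.span ℂ {z} = Submodule.span ℂ {p}) :
    U1 z = U1 p ∧ U2 z = U2 p ∧ U3 z = U3 p ∧ V1 z = V1 p ∧ V2 z = V2 p ∧ V3 z = V3 p := by
  have hmem : z ∈ Submodule.span ℂ {p} := by
    rw [← h]
    exact Submodule.subset_span rfl
  obtain ⟨c, hc⟩ := Submodule.mem_span_singleton.1 hmem
  have hc1 : ‖c‖ = 1 := norm_eq_one_of_smul hp hz hc.symm
  rw [← hc]
  exact uv_smul p hc1

/-- **Final glue.**  The fixed lines of `L` are exactly the three lines through `zStar`,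
`zPM 1`, `zPM (-1)`. -/
theorem fixedLines_eq (dict : DictMap) (sph : DictSphere) (cls : Classify) (pts : PtsData) :
    fixedLines L = {Submodule.span ℂ {zStar}, Submodule.span ℂ {zPM 1},
      Submodule.span ℂ {zPM (-1)}} := by
  have hS0 : zStar 0 = 0 := by simp [zStar]
  have hP0 : ∀ σ : ℝ, zPM σ 0 = 0 := fun σ => by simp [zPM]
  obtain ⟨s1, s2, s3, s4, s5, s6⟩ := pts.star_uv
  apply Set.Subset.antisymm
  · rintro ℓ ⟨z, hz, rfl, hmem⟩
    rw [hL] at hmem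
    obtain ⟨c, hc⟩ := Submodule.mem_span_singleton.1 hmem
    have hz0 : z 0 = 0 := off_Phi hz hc.symm
    have hΦ : Phi z ∈ unitCone := Phi_mem_cone L hL hz
    have hc1 : ‖c‖ = 1 := norm_eq_one_of_smul hz hΦ hc.symm
    obtain ⟨i1, i2, i3, i4, i5, i6⟩ := uv_smul z hc1
    have hd := dict z
    rw [← hc, i1, i2, i3, i4, i5, i6] at hd
    obtain ⟨hu, hv⟩ := sph z hz hz0
    rcases cls _ _ _ _ _ _ hu hv hd.symm with ⟨c1, c2, c3, c4, c5, c6⟩ | ⟨c3, c2, c1, c4, c5, c6⟩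
    · left
      exact span_eq_of_uv hz pts.star_mem hz0 hS0 (by rw [c1, s1]) (by rw [c2, s2])
        (by rw [c3, s3]) (by rw [c4, s4]) (by rw [c5, s5]) (by rw [c6, s6])
    · have hsq : (U1 z - 2 * r51 / 17) * (U1 z + 2 * r51 / 17) = 0 := by
        have := r51_sq
        nlinarith
      rcases mul_eq_zero.1 hsq with h | h
      · right; left
        obtain ⟨t1, t2, t3, t4, t5, t6⟩ := pts.pm_uv 1 (Or.inl rfl)
        have e1 : U1 z = 2 * r51 / 17 := by linarith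
        exact span_eq_of_uv hz (pts.pm_mem 1 (Or.inl rfl)) hz0 (hP0 1)
          (by rw [e1, t1]; ring) (by rw [c2, t2]) (by rw [c3, t3]) (by rw [c4, t4])
          (by rw [c5, t5]) (by rw [c6, e1, t6]; ring)
      · right; right
        obtain ⟨t1, t2, t3, t4, t5, t6⟩ := pts.pm_uv (-1) (Or.inr rfl)
        have e1 : U1 z = -(2 * r51 / 17) := by linarith
        exact span_eq_of_uv hz (pts.pm_mem (-1) (Or.inr rfl)) hz0 (hP0 (-1))
          (by rw [e1, t1]; ring) (by rw [c2, t2]) (by rw [c3, t3]) (by rw [c4, t4])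
          (by rw [c5, t5]) (by rw [c6, e1, t6]; ring)
  · rintro ℓ (rfl | rfl | rfl)
    · refine span_mem_fixedLines L hL dict pts.star_mem hS0 ?_
      rw [s1, s2, s3, s4, s5, s6]
      exact pts.star_fix
    · obtain ⟨t1, t2, t3, t4, t5, t6⟩ := pts.pm_uv 1 (Or.inl rfl)
      refine span_mem_fixedLines L hL dict (pts.pm_mem 1 (Or.inl rfl)) (hP0 1) ?_
      rw [t1, t2, t3, t4, t5, t6]
      exact pts.pm_fix 1 (Or.inl rfl)
    · obtain ⟨t1, t2, t3, t4, t5, t6⟩ := pts.pm_uv (-1) (Or.inr rfl)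
      refine span_mem_fixedLines L hL dict (pts.pm_mem (-1) (Or.inr rfl)) (hP0 (-1)) ?_
      rw [t1, t2, t3, t4, t5, t6]
      exact pts.pm_fix (-1) (Or.inr rfl)

omit hL in
/-- The three lines are pairwise distinct. -/
theorem three_lines_distinct (pts : PtsData) :
    Submodule.span ℂ {zStar} ≠ Submodule.span ℂ {zPM 1} ∧
    Submodule.span ℂ {zStar} ≠ Submodule.span ℂ {zPM (-1)} ∧
    Submodule.span ℂ {zPM 1} ≠ Submodule.span ℂ {zPM (-1)} := by
  obtain ⟨s1, s2, s3, s4, s5, s6⟩ := pts.star_uv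
  obtain ⟨t1, t2, t3, t4, t5, t6⟩ := pts.pm_uv 1 (Or.inl rfl)
  obtain ⟨m1, m2, m3, m4, m5, m6⟩ := pts.pm_uv (-1) (Or.inr rfl)
  refine ⟨fun h => ?_, fun h => ?_, fun h => ?_⟩
  · have := (uv_eq_of_span_eq pts.star_mem (pts.pm_mem 1 (Or.inl rfl)) h).2.2.1
    rw [s3, t3] at this
    norm_num at this
  · have := (uv_eq_of_span_eq pts.star_mem (pts.pm_mem (-1) (Or.inr rfl)) h).2.2.1
    rw [s3, m3] at this
    norm_num at this
  · have := (uv_eq_of_span_eq (pts.pm_mem 1 (Or.inl rfl)) (pts.pm_mem (-1) (Or.inr rfl)) h).1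
    rw [t1, m1] at this
    have hr := r51_pos
    linarith

/-- **Final glue, count.**  `L` has exactly three fixed lines. -/
theorem ncard_fixedLines (dict : DictMap) (sph : DictSphere) (cls : Classify) (pts : PtsData) :
    (fixedLines L).ncard = 3 := by
  rw [fixedLines_eq L hL dict sph cls pts]
  obtain ⟨h1, h2, h3⟩ := three_lines_distinct pts
  exact Set.ncard_eq_three.2 ⟨_, _, _, h1, h2, h3, rfl⟩

end glue

/-- The private copy of `twist` in `Lib_S0316_Deg` is the same function. -/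
theorem deg_twist_eq : @Crest.Agent.LibS0316Deg.twist = @Crest.Agent.S0316Lift.twist := rfl

/-- DEG, for `Phi` (bridge to `Lib_S0316_Deg`, whose private copies of `rot`, `mu`, `twist`
unfold to the same terms). -/
theorem glue_deg (L : HamiltonianConeLift) (hL : ∀ z : Fin 5 → ℂ, L.Ψ (1, z) = Phi z) :
    HasDegenerateFixedPoint L := by
  refine Crest.Agent.LibS0316Deg.hasDegenerateFixedPoint_of_twists L f12 f34 f14 f23
    (by unfold f12; norm_num) (by unfold f34; norm_num) (by unfold f14; norm_num)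
    (by unfold f23; norm_num) ?_
  intro z
  rw [hL z, deg_twist_eq, Phi]

/-- **The statement of S0316 from the remaining packages**: PRIM (a lift with time-one map
`Phi`), DICT, MID + ALG, PTS. -/
theorem result_of_packages
    (prim : ∃ L : HamiltonianConeLift, ∀ z : Fin 5 → ℂ, L.Ψ (1, z) = Phi z)
    (dict : DictMap) (sph : DictSphere) (cls : Classify) (pts : PtsData) :
    ∃ L : HamiltonianConeLift, (fixedLines L).ncard = 3 ∧ HasDegenerateFixedPoint L := by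
  obtain ⟨L, hL⟩ := prim
  exact ⟨L, ncard_fixedLines L hL dict sph cls pts, glue_deg L hL⟩

/-- DICT (landed in `Lib_S0316_Dict`) gives the two DICT hypotheses. -/
theorem dictMap : DictMap := fun z => UV_Phi z

theorem dictSphere : DictSphere := fun _ hz h0 => ⟨U_norm hz h0, V_norm hz h0⟩

/-- MID (landed in `Lib_S0316_Mid`) reduces the classification to ALG, stated for the equations
`E1 … E4`. -/
theorem classify_of_alg
    (alg : ∀ u1 u2 u3 v1 v2 v3 : ℝ, u1 ^ 2 + u2 ^ 2 + u3 ^ 2 = 1 → v1 ^ 2 + v2 ^ 2 + v3 ^ 2 = 1 →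
      u2 * (1 + kap ^ 2 * ((1 + u3) ^ 2 - v3 ^ 2)) = -2 * kap * u1 * v3 →
      u2 * (1 - kap ^ 2 * ((1 - v1) ^ 2 - u1 ^ 2)) = -2 * kap * (1 - v1) * u3 →
      v2 * (1 - kap ^ 2 * ((1 + u3) ^ 2 - v3 ^ 2)) = -2 * kap * (1 + u3) * v1 →
      v2 * (1 + kap ^ 2 * ((1 - v1) ^ 2 - u1 ^ 2)) = 2 * kap * u1 * v3 →
      (u1 = 0 ∧ u2 = 0 ∧ u3 = -1 ∧ v1 = 1 ∧ v2 = 0 ∧ v3 = 0) ∨
      (u3 = 7 / 17 ∧ u2 = -6 / 17 ∧ u1 ^ 2 = 204 / 289 ∧ v1 = -7 / 17 ∧ v2 = 6 / 17 ∧ v3 = u1)) :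
    Classify := by
  intro u1 u2 u3 v1 v2 v3 hu hv h
  obtain ⟨e1, e2, e3, e4⟩ := mid u1 u2 u3 v1 v2 v3 hu hv h
  exact alg u1 u2 u3 v1 v2 v3 hu hv e1 e2 e3 e4

/-- **The statement of S0316 from PRIM, MID + ALG and PTS** (everything else is discharged
here). -/
theorem result_of
    (prim : ∃ L : HamiltonianConeLift, ∀ z : Fin 5 → ℂ, L.Ψ (1, z) = Phi z)
    (cls : Classify) (pts : PtsData) :
    ∃ L : HamiltonianConeLift, (fixedLines L).ncard = 3 ∧ HasDegenerateFixedPoint L :=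
  result_of_packages prim dictMap dictSphere cls pts

end Crest.Agent.LibS0316.Glue
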