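import Mathlib
import Crest.Agent.Lib_S0316_Phi

/-!
S0316, package MID: a fixed point of `uvMap` on `S² × S²` satisfies the four polynomial
equations `E1 … E4` (input of the algebraic classification, package ALG).
-/

set_option autoImplicit false

namespace Crest.Agent.LibS0316Mid

open Crest.Agent.LibS0316

theorem sq_add_sq_zero (a b : ℝ) (h : a ^ 2 + b ^ 2 = 0) : a = 0 ∧ b = 0 := by
  constructor <;> nlinarith [sq_nonneg a, sq_nonneg b]

/-- Abstract core: two planar rotations given by half-angle (Cayley) parameters, composed as in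
`uvMap`, at a fixed point. -/
theorem mid_abs (k u1 u2 u3 v1 v2 v3 u2' v2' m m' n n' D D' δ σ τ ε : ℝ)
    (hk : 0 < k) (hm : 0 < m) (hn : 0 < n) (hn' : 0 < n')
    (hu : u1 ^ 2 + u2 ^ 2 + u3 ^ 2 = 1) (hv : v1 ^ 2 + v2 ^ 2 + v3 ^ 2 = 1)
    (hσ : σ = 2 * k * (1 + u3)) (hτ : τ = 2 * k * (1 - v1))
    (hD : D = m ^ 2 + δ ^ 2) (hD2 : D = m' ^ 2 + σ ^ 2)
    (hD' : D' = n ^ 2 + τ ^ 2) (hD'2 : D' = n' ^ 2 + ε ^ 2)
    (A1 : u1 * D = (m ^ 2 - δ ^ 2) * u1 - 2 * δ * m * u2)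
    (A2 : u2' * D = 2 * δ * m * u1 + (m ^ 2 - δ ^ 2) * u2)
    (A3 : v1 * D = (m' ^ 2 - σ ^ 2) * v1 - 2 * σ * m' * v2)
    (A4 : v2' * D = 2 * σ * m' * v1 + (m' ^ 2 - σ ^ 2) * v2)
    (B1 : u2 * D' = (n ^ 2 - τ ^ 2) * u2' - 2 * τ * n * u3)
    (B2 : u3 * D' = 2 * τ * n * u2' + (n ^ 2 - τ ^ 2) * u3)
    (B3 : v2 * D' = (n' ^ 2 - ε ^ 2) * v2' - 2 * ε * n' * v3) :
    u2 * m = -(δ * u1) ∧ u2 * n = -(τ * u3) ∧ v2 * m' = -(σ * v1) ∧ v2 * n' = -(ε * v3) := by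
  have hDpos : 0 < D := by rw [hD]; positivity
  have hD'pos : 0 < D' := by rw [hD']; positivity
  have s1 : δ * (δ * u1 + m * u2) = 0 := by
    linear_combination (1 / 2 : ℝ) * A1 - (1 / 2 : ℝ) * u1 * hD
  have s2 : σ * (σ * v1 + m' * v2) = 0 := by
    linear_combination (1 / 2 : ℝ) * A3 - (1 / 2 : ℝ) * v1 * hD2
  -- consequences of `τ = 0` and of `σ = 0`
  have hτ_v : τ = 0 → v1 = 1 ∧ v2 = 0 ∧ v3 = 0 := by
    intro hτ0
    have h1 : k * (1 - v1) = 0 := by rw [hτ] at hτ0; linarith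
    have hv1 : v1 = 1 := by
      rcases mul_eq_zero.mp h1 with h | h
      · exact absurd h hk.ne'
      · linarith
    have hv23 : v2 ^ 2 + v3 ^ 2 = 0 := by rw [hv1] at hv; linarith
    exact ⟨hv1, (sq_add_sq_zero v2 v3 hv23).1, (sq_add_sq_zero v2 v3 hv23).2⟩
  have hσ_u : σ = 0 → u3 = -1 ∧ u1 = 0 ∧ u2 = 0 := by
    intro hσ0
    have h1 : k * (1 + u3) = 0 := by rw [hσ] at hσ0; linarith
    have hu3 : u3 = -1 := by
      rcases mul_eq_zero.mp h1 with h | h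
      · exact absurd h hk.ne'
      · linarith
    have hu12 : u1 ^ 2 + u2 ^ 2 = 0 := by rw [hu3] at hu; linarith
    exact ⟨hu3, (sq_add_sq_zero u1 u2 hu12).1, (sq_add_sq_zero u1 u2 hu12).2⟩
  have hU : u2 * m = -(δ * u1) ∧ u2 * n = -(τ * u3) := by
    rcases mul_eq_zero.mp s1 with hδ0 | hE1
    · -- δ = 0
      have hu2' : u2' = u2 := by
        have h1 : (u2' - u2) * m ^ 2 = 0 := by
          linear_combination A2 - u2' * hD + (2 * m * u1 - δ * u2 - u2' * δ) * hδ0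
        rcases mul_eq_zero.mp h1 with h | h
        · linarith
        · exact absurd h (by positivity)
      have t1 : τ * (τ * u2 + n * u3) = 0 := by
        rw [hu2'] at B1
        linear_combination (1 / 2 : ℝ) * B1 - (1 / 2 : ℝ) * u2 * hD'
      have t2 : τ * (τ * u3 - n * u2) = 0 := by
        rw [hu2'] at B2
        linear_combination (1 / 2 : ℝ) * B2 - (1 / 2 : ℝ) * u3 * hD'
      by_cases hτ0 : τ = 0
      · obtain ⟨hv1, hv2, hv3⟩ := hτ_v hτ0
        have hσ0 : σ = 0 := by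
          have h1 : σ ^ 2 = 0 := by
            rw [hv1, hv2] at A3
            linear_combination (1 / 2 : ℝ) * A3 - (1 / 2 : ℝ) * hD2
          exact pow_eq_zero_iff (two_ne_zero) |>.mp h1
        obtain ⟨hu3, hu1, hu2⟩ := hσ_u hσ0
        rw [hu2, hδ0, hτ0]
        constructor <;> ring
      · have a1 : τ * u2 + n * u3 = 0 := (mul_eq_zero.mp t1).resolve_left hτ0
        have a2 : τ * u3 - n * u2 = 0 := (mul_eq_zero.mp t2).resolve_left hτ0
        have hu2 : u2 = 0 := by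
          have h1 : (τ ^ 2 + n ^ 2) * u2 = 0 := by linear_combination τ * a1 - n * a2
          rcases mul_eq_zero.mp h1 with h | h
          · exact absurd h (by positivity)
          · exact h
        have hu3 : u3 = 0 := by
          have h1 : n * u3 = 0 := by rw [hu2] at a1; linarith
          exact (mul_eq_zero.mp h1).resolve_left hn.ne'
        rw [hu2, hu3, hδ0]
        constructor <;> ring
    · -- δ u1 + m u2 = 0
      refine ⟨by linarith, ?_⟩
      have hu2' : u2' = -u2 := by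
        have h1 : (u2' + u2) * D = 0 := by
          linear_combination A2 + 2 * m * hE1 + u2 * hD
        have := (mul_eq_zero.mp h1).resolve_right hDpos.ne'
        linarith
      have t : n * (n * u2 + τ * u3) = 0 := by
        rw [hu2'] at B1
        linear_combination (1 / 2 : ℝ) * B1 - (1 / 2 : ℝ) * u2 * hD'
      have := (mul_eq_zero.mp t).resolve_left hn.ne'
      linarith
  have hV : v2 * m' = -(σ * v1) ∧ v2 * n' = -(ε * v3) := by
    rcases mul_eq_zero.mp s2 with hσ0 | hE3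
    · -- σ = 0
      obtain ⟨hu3, hu1, hu2⟩ := hσ_u hσ0
      have hu2' : u2' = 0 := by
        have h1 : u2' * D = 0 := by rw [A2, hu1, hu2]; ring
        exact (mul_eq_zero.mp h1).resolve_right hDpos.ne'
      have hτ0 : τ = 0 := by
        have h1 : τ * n = 0 := by
          rw [hu2', hu2, hu3] at B1
          linear_combination (-1 / 2 : ℝ) * B1
        exact (mul_eq_zero.mp h1).resolve_right hn.ne'
      obtain ⟨hv1, hv2, hv3⟩ := hτ_v hτ0
      rw [hv2, hv3, hσ0]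
      constructor <;> ring
    · -- σ v1 + m' v2 = 0
      refine ⟨by linarith, ?_⟩
      have hv2' : v2' = -v2 := by
        have h1 : (v2' + v2) * D = 0 := by
          linear_combination A4 + 2 * m' * hE3 + v2 * hD2
        have := (mul_eq_zero.mp h1).resolve_right hDpos.ne'
        linarith
      have t : n' * (n' * v2 + ε * v3) = 0 := by
        rw [hv2'] at B3
        linear_combination (1 / 2 : ℝ) * B3 - (1 / 2 : ℝ) * v2 * hD'2
      have := (mul_eq_zero.mp t).resolve_left hn'.ne'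
      linarith
  exact ⟨hU.1, hU.2, hV.1, hV.2⟩


/-! ### Cayley addition formulas -/

theorem cay_cos_sub (a b : ℝ) :
    cayC a * cayC b + cayS a * cayS b =
      ((1 + a * b) ^ 2 - (a - b) ^ 2) / ((1 + a ^ 2) * (1 + b ^ 2)) := by
  unfold cayC cayS
  have ha : (1 + a ^ 2) ≠ 0 := by positivity
  have hb : (1 + b ^ 2) ≠ 0 := by positivity
  field_simp
  ring

theorem cay_sin_sub (a b : ℝ) :
    cayS a * cayC b - cayC a * cayS b =
      2 * (a - b) * (1 + a * b) / ((1 + a ^ 2) * (1 + b ^ 2)) := by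
  unfold cayC cayS
  have ha : (1 + a ^ 2) ≠ 0 := by positivity
  have hb : (1 + b ^ 2) ≠ 0 := by positivity
  field_simp
  ring

theorem cay_cos_add (a b : ℝ) :
    cayC a * cayC b - cayS a * cayS b =
      ((1 - a * b) ^ 2 - (a + b) ^ 2) / ((1 + a ^ 2) * (1 + b ^ 2)) := by
  unfold cayC cayS
  have ha : (1 + a ^ 2) ≠ 0 := by positivity
  have hb : (1 + b ^ 2) ≠ 0 := by positivity
  field_simp
  ring

theorem cay_sin_add (a b : ℝ) :
    cayS a * cayC b + cayC a * cayS b =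
      2 * (a + b) * (1 - a * b) / ((1 + a ^ 2) * (1 + b ^ 2)) := by
  unfold cayC cayS
  have ha : (1 + a ^ 2) ≠ 0 := by positivity
  have hb : (1 + b ^ 2) ≠ 0 := by positivity
  field_simp
  ring

theorem rot_eq1 (X Y D x y w : ℝ) (hD : D ≠ 0) (h : X / D * x - Y / D * y = w) :
    w * D = X * x - Y * y := by
  rw [← h]
  field_simp

theorem rot_eq2 (X Y D x y w : ℝ) (hD : D ≠ 0) (h : Y / D * x + X / D * y = w) :
    w * D = Y * x + X * y := by
  rw [← h]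
  field_simp

/-- Package MID: a fixed point of `uvMap` on `S² × S²` satisfies `E1 ∧ E2 ∧ E3 ∧ E4`. -/
theorem mid (u1 u2 u3 v1 v2 v3 : ℝ) (hu : u1 ^ 2 + u2 ^ 2 + u3 ^ 2 = 1)
    (hv : v1 ^ 2 + v2 ^ 2 + v3 ^ 2 = 1)
    (h : uvMap u1 u2 u3 v1 v2 v3 = (u1, u2, u3, v1, v2, v3)) :
    u2 * (1 + kap ^ 2 * ((1 + u3) ^ 2 - v3 ^ 2)) = -2 * kap * u1 * v3 ∧
    u2 * (1 - kap ^ 2 * ((1 - v1) ^ 2 - u1 ^ 2)) = -2 * kap * (1 - v1) * u3 ∧
    v2 * (1 - kap ^ 2 * ((1 + u3) ^ 2 - v3 ^ 2)) = -2 * kap * (1 + u3) * v1 ∧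
    v2 * (1 + kap ^ 2 * ((1 - v1) ^ 2 - u1 ^ 2)) = 2 * kap * u1 * v3 := by
  have hkap : (0 : ℝ) < kap := by unfold kap; norm_num
  have hkap2 : kap ^ 2 < 1 / 10 := by unfold kap; norm_num
  have hu1sq : u1 ^ 2 ≤ 1 := by nlinarith [sq_nonneg u2, sq_nonneg u3]
  have hv1sq : v1 ^ 2 ≤ 1 := by nlinarith [sq_nonneg v2, sq_nonneg v3]
  have hv3sq : v3 ^ 2 ≤ 1 := by nlinarith [sq_nonneg v1, sq_nonneg v2]
  have hv1b : (1 - v1) ^ 2 ≤ 4 := by nlinarith [sq_nonneg (1 + v1)]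
  have hm : 0 < 1 + kap * (1 + u3 + v3) * (kap * (1 + u3 - v3)) := by
    have e : 1 + kap * (1 + u3 + v3) * (kap * (1 + u3 - v3)) =
        1 + kap ^ 2 * (1 + u3) ^ 2 - kap ^ 2 * v3 ^ 2 := by ring
    rw [e]
    nlinarith [sq_nonneg (kap * (1 + u3)), mul_le_mul_of_nonneg_left hv3sq (sq_nonneg kap),
      mul_pow kap (1 + u3) 2]
  have hn : 0 < 1 - kap * (1 - u1 - v1) * (kap * (1 + u1 - v1)) := by
    have e : 1 - kap * (1 - u1 - v1) * (kap * (1 + u1 - v1)) =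
        1 - kap ^ 2 * (1 - v1) ^ 2 + kap ^ 2 * u1 ^ 2 := by ring
    rw [e]
    nlinarith [sq_nonneg (kap * u1), mul_le_mul_of_nonneg_left hv1b (sq_nonneg kap),
      mul_pow kap u1 2]
  have hn' : 0 < 1 + kap * (1 - u1 - v1) * (kap * (1 + u1 - v1)) := by
    have e : 1 + kap * (1 - u1 - v1) * (kap * (1 + u1 - v1)) =
        1 + kap ^ 2 * (1 - v1) ^ 2 - kap ^ 2 * u1 ^ 2 := by ring
    rw [e]
    nlinarith [sq_nonneg (kap * (1 - v1)), mul_le_mul_of_nonneg_left hu1sq (sq_nonneg kap),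
      mul_pow kap (1 - v1) 2]
  unfold uvMap at h
  simp only [Prod.mk.injEq] at h
  obtain ⟨h1, h2, h3, h4, h5, h6⟩ := h
  rw [h1, h4] at h2 h3 h5 h6
  rw [cay_cos_sub, cay_sin_sub] at h1
  rw [cay_cos_add, cay_sin_add] at h4
  rw [cay_cos_add, cay_sin_add, cay_cos_sub, cay_sin_sub] at h2 h3 h5 h6
  have hD : ((1 + (kap * (1 + u3 + v3)) ^ 2) * (1 + (kap * (1 + u3 - v3)) ^ 2)) ≠ 0 := by
    positivity
  have hD' : ((1 + (kap * (1 - u1 - v1)) ^ 2) * (1 + (kap * (1 + u1 - v1)) ^ 2)) ≠ 0 := by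
    positivity
  obtain ⟨c1, c2, c3, c4⟩ := mid_abs kap u1 u2 u3 v1 v2 v3
    (2 * (kap * (1 + u3 + v3) - kap * (1 + u3 - v3)) * (1 + kap * (1 + u3 + v3) * (kap * (1 + u3 - v3))) /
              ((1 + (kap * (1 + u3 + v3)) ^ 2) * (1 + (kap * (1 + u3 - v3)) ^ 2)) *
            u1 +
          ((1 + kap * (1 + u3 + v3) * (kap * (1 + u3 - v3))) ^ 2 - (kap * (1 + u3 + v3) - kap * (1 + u3 - v3)) ^ 2) /
              ((1 + (kap * (1 + u3 + v3)) ^ 2) * (1 + (kap * (1 + u3 - v3)) ^ 2)) *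
            u2)
    (2 * (kap * (1 + u3 + v3) + kap * (1 + u3 - v3)) * (1 - kap * (1 + u3 + v3) * (kap * (1 + u3 - v3))) /
              ((1 + (kap * (1 + u3 + v3)) ^ 2) * (1 + (kap * (1 + u3 - v3)) ^ 2)) *
            v1 +
          ((1 - kap * (1 + u3 + v3) * (kap * (1 + u3 - v3))) ^ 2 - (kap * (1 + u3 + v3) + kap * (1 + u3 - v3)) ^ 2) /
              ((1 + (kap * (1 + u3 + v3)) ^ 2) * (1 + (kap * (1 + u3 - v3)) ^ 2)) *
            v2)
    (1 + kap * (1 + u3 + v3) * (kap * (1 + u3 - v3)))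
    (1 - kap * (1 + u3 + v3) * (kap * (1 + u3 - v3)))
    (1 - kap * (1 - u1 - v1) * (kap * (1 + u1 - v1)))
    (1 + kap * (1 - u1 - v1) * (kap * (1 + u1 - v1)))
    ((1 + (kap * (1 + u3 + v3)) ^ 2) * (1 + (kap * (1 + u3 - v3)) ^ 2))
    ((1 + (kap * (1 - u1 - v1)) ^ 2) * (1 + (kap * (1 + u1 - v1)) ^ 2))
    (kap * (1 + u3 + v3) - kap * (1 + u3 - v3))
    (kap * (1 + u3 + v3) + kap * (1 + u3 - v3))
    (kap * (1 - u1 - v1) + kap * (1 + u1 - v1))
    (kap * (1 - u1 - v1) - kap * (1 + u1 - v1))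
    hkap hm hn hn' hu hv (by ring) (by ring) (by ring) (by ring) (by ring) (by ring)
    (rot_eq1 _ _ _ _ _ _ hD h1) (rot_eq2 _ _ _ _ _ _ hD rfl)
    (rot_eq1 _ _ _ _ _ _ hD h4) (rot_eq2 _ _ _ _ _ _ hD rfl)
    (rot_eq1 _ _ _ _ _ _ hD' h2) (rot_eq2 _ _ _ _ _ _ hD' h3)
    (rot_eq1 _ _ _ _ _ _ hD' h5)
  refine ⟨?_, ?_, ?_, ?_⟩
  · linear_combination c1
  · linear_combination c2
  · linear_combination c3
  · linear_combination c4

end Crest.Agent.LibS0316Mid
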