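import Mathlib
import Crest.Prelude.Def_QuadricHamiltonian
import Crest.Agent.Lib_S0316_Lift
import Crest.Agent.Lib_S0316_Phi

/-!
S0316, package PRIM: the four twist profiles have smooth primitives, hence (by the generic
construction `S0316Lift.exists_lift`) there is a Hamiltonian cone lift whose time-one map is
`Phi` on all of `ℂ⁵`.
-/

set_option autoImplicit false

namespace Crest.Agent.LibS0316

open Crest.GeometryTopology.Quadric
open Crest.Agent.S0316Lift

theorem kap_pos : 0 < kap := by norm_num [kap]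

theorem one_add_kap_sq_pos (y : ℝ) : 0 < 1 + kap ^ 2 * y ^ 2 := by positivity

theorem hasDerivAt_Ang (y : ℝ) : HasDerivAt Ang (2 * Real.arctan (kap * y)) y := by
  have hk : kap ≠ 0 := kap_pos.ne'
  have hpos := one_add_kap_sq_pos y
  have h1 : HasDerivAt (fun y : ℝ => kap * y) kap y := by
    simpa using (hasDerivAt_id y).const_mul kap
  have h2 : HasDerivAt (fun y : ℝ => Real.arctan (kap * y)) (1 / (1 + (kap * y) ^ 2) * kap) y :=
    h1.arctan
  have h3 : HasDerivAt (fun y : ℝ => 2 * y) 2 y := by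
    simpa using (hasDerivAt_id y).const_mul (2 : ℝ)
  have h4 := h3.mul h2
  have h5 : HasDerivAt (fun y : ℝ => 1 + kap ^ 2 * y ^ 2) (kap ^ 2 * (2 * y)) y := by
    have := ((hasDerivAt_pow 2 y).const_mul (kap ^ 2)).const_add 1
    simpa using this
  have h6 := h5.log hpos.ne'
  have h7 := h6.div_const kap
  have h8 := h4.sub h7
  have hpos' : (0 : ℝ) < 1 + (kap * y) ^ 2 := by positivity
  have e : 2 * Real.arctan (kap * y) =
      2 * Real.arctan (kap * y) + 2 * y * (1 / (1 + (kap * y) ^ 2) * kap) -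
        kap ^ 2 * (2 * y) / (1 + kap ^ 2 * y ^ 2) / kap := by
    field_simp
    ring
  rw [e]
  exact h8

theorem contDiff_Ang : ContDiff ℝ (⊤ : ℕ∞) Ang := by
  have h1 : ContDiff ℝ (⊤ : ℕ∞) (fun y : ℝ => kap * y) := contDiff_const.mul contDiff_id
  have h2 : ContDiff ℝ (⊤ : ℕ∞) (fun y : ℝ => Real.arctan (kap * y)) :=
    Real.contDiff_arctan.comp h1
  have h3 : ContDiff ℝ (⊤ : ℕ∞) (fun y : ℝ => 2 * y * Real.arctan (kap * y)) :=
    (contDiff_const.mul contDiff_id).mul h2
  have h5 : ContDiff ℝ (⊤ : ℕ∞) (fun y : ℝ => 1 + kap ^ 2 * y ^ 2) :=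
    contDiff_const.add (contDiff_const.mul (contDiff_id.pow 2))
  have h6 : ContDiff ℝ (⊤ : ℕ∞) (fun y : ℝ => Real.log (1 + kap ^ 2 * y ^ 2)) :=
    h5.log (fun y => (one_add_kap_sq_pos y).ne')
  exact h3.sub (h6.div_const kap)

theorem contDiff_affine (a b : ℝ) : ContDiff ℝ (⊤ : ℕ∞) (fun x : ℝ => a + b * x) :=
  contDiff_const.add (contDiff_const.mul contDiff_id)

theorem hasDerivAt_affine (a b x : ℝ) : HasDerivAt (fun x : ℝ => a + b * x) b x := by
  simpa using ((hasDerivAt_id x).const_mul b).const_add a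

theorem contDiff_F12 : ContDiff ℝ (⊤ : ℕ∞) F12 :=
  (contDiff_const.mul contDiff_id).add ((contDiff_Ang.comp (contDiff_affine 1 2)).div_const 2)

theorem contDiff_F34 : ContDiff ℝ (⊤ : ℕ∞) F34 :=
  (contDiff_const.mul contDiff_id).sub ((contDiff_Ang.comp (contDiff_affine 1 2)).div_const 2)

theorem contDiff_F14 : ContDiff ℝ (⊤ : ℕ∞) F14 :=
  (contDiff_Ang.comp (contDiff_affine 1 2)).div_const 2

theorem contDiff_F23 : ContDiff ℝ (⊤ : ℕ∞) F23 := by
  have h : ContDiff ℝ (⊤ : ℕ∞) (fun x : ℝ => 1 - 2 * x) :=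
    contDiff_const.sub (contDiff_const.mul contDiff_id)
  exact ((contDiff_Ang.comp h).neg).div_const 2

theorem hasDerivAt_AngAffine (x : ℝ) :
    HasDerivAt (fun x : ℝ => Ang (1 + 2 * x)) (2 * Real.arctan (kap * (1 + 2 * x)) * 2) x :=
  HasDerivAt.comp (h₂ := Ang) x (hasDerivAt_Ang (1 + 2 * x)) (hasDerivAt_affine 1 2 x)

theorem hasDerivAt_F12 (x : ℝ) : HasDerivAt F12 (f12 x) x := by
  have h1 : HasDerivAt (fun x : ℝ => Real.pi * x) Real.pi x := by
    simpa using (hasDerivAt_id x).const_mul Real.pi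
  have h := h1.add ((hasDerivAt_AngAffine x).div_const 2)
  have e : f12 x = Real.pi + 2 * Real.arctan (kap * (1 + 2 * x)) * 2 / 2 := by
    rw [f12]; ring
  rw [e]
  exact h

theorem hasDerivAt_F34 (x : ℝ) : HasDerivAt F34 (f34 x) x := by
  have h1 : HasDerivAt (fun x : ℝ => Real.pi * x) Real.pi x := by
    simpa using (hasDerivAt_id x).const_mul Real.pi
  have h := h1.sub ((hasDerivAt_AngAffine x).div_const 2)
  have e : f34 x = Real.pi - 2 * Real.arctan (kap * (1 + 2 * x)) * 2 / 2 := by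
    rw [f34]; ring
  rw [e]
  exact h

theorem hasDerivAt_F14 (x : ℝ) : HasDerivAt F14 (f14 x) x := by
  have h := (hasDerivAt_AngAffine x).div_const 2
  have e : f14 x = 2 * Real.arctan (kap * (1 + 2 * x)) * 2 / 2 := by
    rw [f14]; ring
  rw [e]
  exact h

theorem hasDerivAt_F23 (x : ℝ) : HasDerivAt F23 (f23 x) x := by
  have h0 : HasDerivAt (fun x : ℝ => 1 - 2 * x) (-2) x := by
    have := ((hasDerivAt_id x).const_mul (2 : ℝ)).const_sub 1
    simpa using this
  have h1 : HasDerivAt (fun x : ℝ => Ang (1 - 2 * x))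
      (2 * Real.arctan (kap * (1 - 2 * x)) * (-2)) x :=
    HasDerivAt.comp (h₂ := Ang) x (hasDerivAt_Ang (1 - 2 * x)) h0
  have h := (h1.neg).div_const 2
  have e : f23 x = -(2 * Real.arctan (kap * (1 - 2 * x)) * (-2)) / 2 := by
    rw [f23]; ring
  rw [e]
  exact h

/-- **PRIM.** There is a Hamiltonian cone lift whose time-one map is `Phi` on all of `ℂ⁵`. -/
theorem exists_lift_Phi : ∃ L : HamiltonianConeLift, ∀ z : Fin 5 → ℂ, L.Ψ (1, z) = Phi z :=
  exists_lift F12 F34 F14 F23 f12 f34 f14 f23 contDiff_F12 contDiff_F34 contDiff_F14 contDiff_F23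
    hasDerivAt_F12 hasDerivAt_F34 hasDerivAt_F14 hasDerivAt_F23

end Crest.Agent.LibS0316
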