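import Mathlib
import Crest.Prelude.Def_QuadricHamiltonian
import Crest.Agent.Lib_S0316_Lift
import Crest.Agent.Lib_S0316_Phi

/-!
# S0316, package PTS (helper11): the three explicit points

* `zStar`, `zPM σ` (`σ² = 1`) lie on the unit cone and have zeroth coordinate `0`;
* their `(U, V)` coordinates;
* `uvMap` fixes the three `(u, v)` points;
* the three complex lines are pairwise distinct.
-/

set_option autoImplicit false

namespace Crest.Agent.LibS0316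

open Crest.GeometryTopology.Quadric
open Crest.Agent.S0316Lift

lemma r51_sq : r51 ^ 2 = 51 := by
  unfold r51
  exact Real.sq_sqrt (by norm_num)

lemma r51_pos : 0 < r51 := by
  unfold r51
  exact Real.sqrt_pos.2 (by norm_num)

lemma sigma_r51_sq {σ : ℝ} (hσ : σ ^ 2 = 1) : (σ * r51) ^ 2 = 51 := by
  rw [mul_pow, hσ, r51_sq, one_mul]

/-! ### Two stages of `uvMap` -/

/-- Stage A of `uvMap` (the four changed coordinates). -/
noncomputable def stA (u1 u2 u3 v1 v2 v3 : ℝ) : ℝ × ℝ × ℝ × ℝ :=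
  let cA := cayC (kap * (1 + u3 + v3))
  let sA := cayS (kap * (1 + u3 + v3))
  let cB := cayC (kap * (1 + u3 - v3))
  let sB := cayS (kap * (1 + u3 - v3))
  ((cA * cB + sA * sB) * u1 - (sA * cB - cA * sB) * u2,
   (sA * cB - cA * sB) * u1 + (cA * cB + sA * sB) * u2,
   (cA * cB - sA * sB) * v1 - (sA * cB + cA * sB) * v2,
   (sA * cB + cA * sB) * v1 + (cA * cB - sA * sB) * v2)

/-- Stage B of `uvMap`. -/
noncomputable def stB (u1' u2' u3 v1' v2' v3 : ℝ) : ℝ × ℝ × ℝ × ℝ × ℝ × ℝ :=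
  let cA' := cayC (kap * (1 + u1' - v1'))
  let sA' := cayS (kap * (1 + u1' - v1'))
  let cB' := cayC (kap * (1 - u1' - v1'))
  let sB' := cayS (kap * (1 - u1' - v1'))
  (u1', (cB' * cA' - sB' * sA') * u2' - (sB' * cA' + cB' * sA') * u3,
        (sB' * cA' + cB' * sA') * u2' + (cB' * cA' - sB' * sA') * u3,
   v1', (cB' * cA' + sB' * sA') * v2' - (sB' * cA' - cB' * sA') * v3,
        (sB' * cA' - cB' * sA') * v2' + (cB' * cA' + sB' * sA') * v3)

lemma uvMap_eq_st (u1 u2 u3 v1 v2 v3 : ℝ) :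
    uvMap u1 u2 u3 v1 v2 v3 =
      stB (stA u1 u2 u3 v1 v2 v3).1 (stA u1 u2 u3 v1 v2 v3).2.1 u3
        (stA u1 u2 u3 v1 v2 v3).2.2.1 (stA u1 u2 u3 v1 v2 v3).2.2.2 v3 := rfl

/-! ### `uvMap` fixes the three points -/

theorem uvMap_star : uvMap 0 0 (-1) 1 0 0 = (0, 0, -1, 1, 0, 0) := by
  simp [uvMap, cayC, cayS]

/-- The two non-degenerate fixed points, with `t = ±√51`. -/
theorem uvMap_pm_t (t : ℝ) (ht : t ^ 2 = 51) :
    uvMap (2 * t / 17) (-6 / 17) (7 / 17) (-7 / 17) (6 / 17) (2 * t / 17) =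
      (2 * t / 17, -6 / 17, 7 / 17, -7 / 17, 6 / 17, 2 * t / 17) := by
  have hcA : cayC (kap * (1 + 7 / 17 + 2 * t / 17)) = 7 / 10 - 3 / 85 * t := by
    unfold cayC kap
    rw [div_eq_iff (by positivity)]
    linear_combination (-29 / 32674 + 3 / 81685 * t) * ht
  have hsA : cayS (kap * (1 + 7 / 17 + 2 * t / 17)) = 3 / 5 + 7 / 170 * t := by
    unfold cayS kap
    rw [div_eq_iff (by positivity)]
    linear_combination (-27 / 16337 - 7 / 163370 * t) * ht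
  have hcB : cayC (kap * (1 + 7 / 17 - 2 * t / 17)) = 7 / 10 + 3 / 85 * t := by
    unfold cayC kap
    rw [div_eq_iff (by positivity)]
    linear_combination (-29 / 32674 - 3 / 81685 * t) * ht
  have hsB : cayS (kap * (1 + 7 / 17 - 2 * t / 17)) = 3 / 5 - 7 / 170 * t := by
    unfold cayS kap
    rw [div_eq_iff (by positivity)]
    linear_combination (-27 / 16337 + 7 / 163370 * t) * ht
  have hA : stA (2 * t / 17) (-6 / 17) (7 / 17) (-7 / 17) (6 / 17) (2 * t / 17) =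
      (2 * t / 17, 6 / 17, -7 / 17, -6 / 17) := by
    unfold stA
    simp only [hcA, hsA, hcB, hsB]
    refine Prod.ext ?_ (Prod.ext ?_ (Prod.ext ?_ ?_))
    · show _ = 2 * t / 17
      linear_combination (-1 / 2890 * t) * ht
    · show _ = (6 / 17 : ℝ)
      linear_combination (37 / 2890 : ℝ) * ht
    · show _ = (-7 / 17 : ℝ)
      linear_combination (-7 / 5780 : ℝ) * ht
    · show _ = (-6 / 17 : ℝ)
      linear_combination (-3 / 2890 : ℝ) * ht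
  have hcA' : cayC (kap * (1 + 2 * t / 17 - -7 / 17)) = 7 / 10 - 3 / 85 * t := by
    rw [← hcA]; congr 2; ring
  have hsA' : cayS (kap * (1 + 2 * t / 17 - -7 / 17)) = 3 / 5 + 7 / 170 * t := by
    rw [← hsA]; congr 2; ring
  have hcB' : cayC (kap * (1 - 2 * t / 17 - -7 / 17)) = 7 / 10 + 3 / 85 * t := by
    rw [← hcB]; congr 2; ring
  have hsB' : cayS (kap * (1 - 2 * t / 17 - -7 / 17)) = 3 / 5 - 7 / 170 * t := by
    rw [← hsB]; congr 2; ring
  rw [uvMap_eq_st, hA]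
  show stB (2 * t / 17) (6 / 17) (7 / 17) (-7 / 17) (-6 / 17) (2 * t / 17) = _
  unfold stB
  simp only [hcA', hsA', hcB', hsB']
  refine Prod.ext rfl (Prod.ext ?_ (Prod.ext ?_ (Prod.ext rfl (Prod.ext ?_ ?_))))
  · show _ = (-6 / 17 : ℝ)
    linear_combination (-3 / 2890 : ℝ) * ht
  · show _ = (7 / 17 : ℝ)
    linear_combination (7 / 5780 : ℝ) * ht
  · show _ = (6 / 17 : ℝ)
    linear_combination (37 / 2890 : ℝ) * ht
  · show _ = 2 * t / 17
    linear_combination (-1 / 2890 * t) * ht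

/-- `uvMap` fixes the `(u, v)` point of `zPM σ`. -/
theorem uvMap_pm (σ : ℝ) (hσ : σ ^ 2 = 1) :
    uvMap (2 * σ * r51 / 17) (-6 / 17) (7 / 17) (-7 / 17) (6 / 17) (2 * σ * r51 / 17) =
      (2 * σ * r51 / 17, -6 / 17, 7 / 17, -7 / 17, 6 / 17, 2 * σ * r51 / 17) := by
  have e : 2 * σ * r51 / 17 = 2 * (σ * r51) / 17 := by ring
  rw [e]
  exact uvMap_pm_t (σ * r51) (sigma_r51_sq hσ)

/-! ### Real and imaginary parts, general formulas -/

lemma mu_eq (j k : Fin 5) (z : Fin 5 → ℂ) :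
    mu j k z = 2 * ((z j).re * (z k).im - (z j).im * (z k).re) := by
  simp only [mu, Complex.mul_im, Complex.conj_re, Complex.conj_im]
  ring

lemma herm_self_eq (z : Fin 5 → ℂ) :
    herm z z = ((∑ j, ((z j).re ^ 2 + (z j).im ^ 2) : ℝ) : ℂ) := by
  unfold herm
  rw [Complex.ofReal_sum]
  refine Finset.sum_congr rfl (fun j _ => ?_)
  have h : starRingEnd ℂ (z j) * z j = ((Complex.normSq (z j) : ℝ) : ℂ) :=
    (Complex.normSq_eq_conj_mul_self).symm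
  rw [h, Complex.normSq_apply]
  push_cast
  ring

lemma mem_unitCone_iff (z : Fin 5 → ℂ) :
    z ∈ unitCone ↔ (∑ j, ((z j).re ^ 2 + (z j).im ^ 2) = 1 ∧
      ∑ j, ((z j).re ^ 2 - (z j).im ^ 2) = 0 ∧ ∑ j, (z j).re * (z j).im = 0) := by
  have h2 : (∑ j, z j ^ 2 = 0) ↔ (∑ j, ((z j).re ^ 2 - (z j).im ^ 2) = 0 ∧
      ∑ j, (z j).re * (z j).im = 0) := by
    rw [Complex.ext_iff]
    simp only [Complex.re_sum, Complex.im_sum, Complex.zero_re, Complex.zero_im]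
    have e1 : ∀ j : Fin 5, (z j ^ 2).re = (z j).re ^ 2 - (z j).im ^ 2 := by
      intro j; rw [sq, Complex.mul_re]; ring
    have e2 : ∀ j : Fin 5, (z j ^ 2).im = 2 * ((z j).re * (z j).im) := by
      intro j; rw [sq, Complex.mul_im]; ring
    simp only [e1, e2, ← Finset.mul_sum]
    constructor
    · rintro ⟨a, b⟩; exact ⟨a, by linarith⟩
    · rintro ⟨a, b⟩; exact ⟨a, by linarith⟩
  show (herm z z = 1 ∧ ∑ j, z j ^ 2 = 0) ↔ _
  rw [h2, herm_self_eq]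
  constructor
  · rintro ⟨a, b⟩; exact ⟨by exact_mod_cast a, b⟩
  · rintro ⟨a, b⟩; exact ⟨by exact_mod_cast a, b⟩

/-! ### The point `zStar` -/

lemma zStar_0 : zStar 0 = 0 := rfl
lemma zStar_1 : zStar 1 = 1 / 2 := rfl
lemma zStar_2 : zStar 2 = -Complex.I / 2 := rfl
lemma zStar_3 : zStar 3 = 1 / 2 := rfl
lemma zStar_4 : zStar 4 = -Complex.I / 2 := rfl

lemma zStar_re : (zStar 0).re = 0 ∧ (zStar 1).re = 1 / 2 ∧ (zStar 2).re = 0 ∧
    (zStar 3).re = 1 / 2 ∧ (zStar 4).re = 0 := by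
  rw [zStar_0, zStar_1, zStar_2, zStar_3, zStar_4]
  norm_num

lemma zStar_im : (zStar 0).im = 0 ∧ (zStar 1).im = 0 ∧ (zStar 2).im = -1 / 2 ∧
    (zStar 3).im = 0 ∧ (zStar 4).im = -1 / 2 := by
  rw [zStar_0, zStar_1, zStar_2, zStar_3, zStar_4]
  norm_num

theorem zStar_mem : zStar ∈ unitCone := by
  obtain ⟨r0, r1, r2, r3, r4⟩ := zStar_re
  obtain ⟨i0, i1, i2, i3, i4⟩ := zStar_im
  rw [mem_unitCone_iff]
  simp only [Fin.sum_univ_five, r0, r1, r2, r3, r4, i0, i1, i2, i3, i4]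
  norm_num

theorem zStar_uv : U1 zStar = 0 ∧ U2 zStar = 0 ∧ U3 zStar = -1 ∧
    V1 zStar = 1 ∧ V2 zStar = 0 ∧ V3 zStar = 0 := by
  obtain ⟨r0, r1, r2, r3, r4⟩ := zStar_re
  obtain ⟨i0, i1, i2, i3, i4⟩ := zStar_im
  simp only [U1, U2, U3, V1, V2, V3, mu_eq, r1, r2, r3, r4, i1, i2, i3, i4]
  norm_num

/-! ### The points `zPM σ` -/

lemma zPM_0 (σ : ℝ) : zPM σ 0 = 0 := rfl
lemma zPM_1 (σ : ℝ) : zPM σ 1 = -Complex.I * ((7 + 2 * σ * r51 : ℝ) : ℂ) / 34 := rfl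
lemma zPM_2 (σ : ℝ) : zPM σ 2 = (17 + 6 * Complex.I) / 34 := rfl
lemma zPM_3 (σ : ℝ) : zPM σ 3 = -Complex.I * ((7 - 2 * σ * r51 : ℝ) : ℂ) / 34 := rfl
lemma zPM_4 (σ : ℝ) : zPM σ 4 = (17 - 6 * Complex.I) / 34 := rfl

lemma zPM_re (σ : ℝ) : (zPM σ 0).re = 0 ∧ (zPM σ 1).re = 0 ∧ (zPM σ 2).re = 1 / 2 ∧
    (zPM σ 3).re = 0 ∧ (zPM σ 4).re = 1 / 2 := by
  rw [zPM_0, zPM_1, zPM_2, zPM_3, zPM_4]
  refine ⟨by simp, ?_, ?_, ?_, ?_⟩
  · simp
  · simp; norm_num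
  · simp
  · simp; norm_num

lemma zPM_im (σ : ℝ) : (zPM σ 0).im = 0 ∧ (zPM σ 1).im = -(7 + 2 * σ * r51) / 34 ∧
    (zPM σ 2).im = 3 / 17 ∧ (zPM σ 3).im = -(7 - 2 * σ * r51) / 34 ∧
    (zPM σ 4).im = -3 / 17 := by
  rw [zPM_0, zPM_1, zPM_2, zPM_3, zPM_4]
  refine ⟨by simp, ?_, ?_, ?_, ?_⟩
  · simp
  · simp; norm_num
  · simp
  · simp; norm_num

theorem zPM_mem (σ : ℝ) (hσ : σ ^ 2 = 1) : zPM σ ∈ unitCone := by
  obtain ⟨r0, r1, r2, r3, r4⟩ := zPM_re σ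
  obtain ⟨i0, i1, i2, i3, i4⟩ := zPM_im σ
  have ht := sigma_r51_sq hσ
  rw [mem_unitCone_iff]
  simp only [Fin.sum_univ_five, r0, r1, r2, r3, r4, i0, i1, i2, i3, i4]
  refine ⟨?_, ?_, ?_⟩
  · linear_combination (2 / 289 : ℝ) * ht
  · linear_combination (-2 / 289 : ℝ) * ht
  · ring

theorem zPM_uv (σ : ℝ) : U1 (zPM σ) = 2 * σ * r51 / 17 ∧ U2 (zPM σ) = -6 / 17 ∧
    U3 (zPM σ) = 7 / 17 ∧ V1 (zPM σ) = -7 / 17 ∧ V2 (zPM σ) = 6 / 17 ∧
    V3 (zPM σ) = 2 * σ * r51 / 17 := by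
  obtain ⟨r0, r1, r2, r3, r4⟩ := zPM_re σ
  obtain ⟨i0, i1, i2, i3, i4⟩ := zPM_im σ
  simp only [U1, U2, U3, V1, V2, V3, mu_eq, r1, r2, r3, r4, i1, i2, i3, i4]
  refine ⟨?_, ?_, ?_, ?_, ?_, ?_⟩ <;> ring

/-! ### The three lines are distinct -/

theorem zPM_ne_smul_zStar (σ : ℝ) (c : ℂ) : zPM σ ≠ c • zStar := by
  intro h
  have h1 := congrFun h 1
  have h2 := congrFun h 2
  simp only [Pi.smul_apply, smul_eq_mul, zStar_1, zStar_2] at h1 h2
  have h3 : zPM σ 2 = -Complex.I * zPM σ 1 := by rw [h2, h1]; ring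
  have h4 := congrArg Complex.im h3
  obtain ⟨r0, r1, r2, r3, r4⟩ := zPM_re σ
  obtain ⟨i0, i1, i2, i3, i4⟩ := zPM_im σ
  simp only [Complex.mul_im, Complex.neg_re, Complex.neg_im, Complex.I_re, Complex.I_im,
    r1, i1, i2] at h4
  norm_num at h4

theorem zPM_neg_ne_smul (c : ℂ) : zPM (-1) ≠ c • zPM 1 := by
  intro h
  have h1 := congrFun h 1
  have h2 := congrFun h 2
  simp only [Pi.smul_apply, smul_eq_mul] at h1 h2
  have hne : zPM 1 2 ≠ 0 := by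
    intro h0
    have := congrArg Complex.re h0
    rw [(zPM_re 1).2.2.1] at this
    norm_num at this
  have hc : c = 1 := by
    have e : zPM (-1) 2 = zPM 1 2 := by rw [zPM_2, zPM_2]
    rw [e] at h2
    have : (c - 1) * zPM 1 2 = 0 := by linear_combination -h2
    rcases mul_eq_zero.1 this with h' | h'
    · linear_combination h'
    · exact absurd h' hne
  rw [hc, one_mul] at h1
  have h4 := congrArg Complex.im h1
  rw [(zPM_im (-1)).2.1, (zPM_im 1).2.1] at h4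
  have := r51_pos
  linarith

theorem span_zStar_ne_zPM (σ : ℝ) :
    Submodule.span ℂ {zStar} ≠ Submodule.span ℂ {zPM σ} := by
  intro h
  have hm : zPM σ ∈ Submodule.span ℂ {zStar} := by
    rw [h]; exact Submodule.mem_span_singleton_self _
  obtain ⟨c, hc⟩ := Submodule.mem_span_singleton.1 hm
  exact zPM_ne_smul_zStar σ c hc.symm

theorem span_zPM_ne : Submodule.span ℂ {zPM 1} ≠ Submodule.span ℂ {zPM (-1)} := by
  intro h
  have hm : zPM (-1) ∈ Submodule.span ℂ {zPM 1} := by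
    rw [h]; exact Submodule.mem_span_singleton_self _
  obtain ⟨c, hc⟩ := Submodule.mem_span_singleton.1 hm
  exact zPM_neg_ne_smul c hc.symm

end Crest.Agent.LibS0316
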