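import Mathlib
import Crest.Prelude.Def_TruncExpWeight

/-!
Shared definitions for the proof of S0423 (sup of `E g(4/3 + ∑ a_i X_i)` over sum-zero `a`).
Only definitions here; the lemmas live in `Lib_S0423_*.lean`.
-/

set_option autoImplicit false

namespace Crest.Agent.Lib_S0423_Defs

open MeasureTheory Set

/-- The positive orthant of `Fin N → ℝ` (definitionally the set used in the statement). -/
def orth (N : ℕ) : Set (Fin N → ℝ) := Set.pi Set.univ (fun _ : Fin N => Set.Ioi (0 : ℝ))

/-- Survival function `w ↦ P(∑ a_i X_i > w)` for i.i.d. mean-one exponential `X_i`,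
written as an orthant integral against the density `exp (-(x_1 + ⋯ + x_N))`. -/
noncomputable def surv {N : ℕ} (a : Fin N → ℝ) (w : ℝ) : ℝ :=
  ∫ x in orth N, (if w < ∑ i, a i * x i then (1 : ℝ) else 0) * Real.exp (-∑ i, x i)

/-- `Phi R = ∫_0^∞ R (s - 4/3) · s e^{-s} ds`  (for a survival function `R` of `W` this is
`P(W > S - 4/3)` with `S` an independent Gamma(2) variable). -/
noncomputable def Phi (R : ℝ → ℝ) : ℝ :=
  ∫ s in Set.Ioi (0 : ℝ), R (s - 4 / 3) * (s * Real.exp (-s))

end Crest.Agent.Lib_S0423_Defs
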