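import Mathlib
import Crest.Prelude.Def_TruncExpWeight
import Crest.Agent.Lib_S0423_Defs

/-!
Part [A1] of the S0423 plan: the layer-cake identity
`∫_orth g(4/3 + ∑ a_i x_i) e^{-∑ x_i} dx = 1 - Phi (surv a)`
(only `≤` is needed by the assembly).
-/

set_option autoImplicit false

namespace Crest.Agent.Lib_S0423_A1

open MeasureTheory Set Crest.Agent.Lib_S0423_Defs

/-- The restriction of Lebesgue measure to the orthant is a product measure. -/
theorem volume_restrict_orth (N : ℕ) :
    (volume : Measure (Fin N → ℝ)).restrict (orth N)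
      = Measure.pi (fun _ : Fin N => (volume : Measure ℝ).restrict (Ioi 0)) := by
  rw [volume_pi, orth]
  exact Measure.restrict_pi_pi (μ := fun _ : Fin N => (volume : Measure ℝ)) (fun _ => Ioi (0 : ℝ))

theorem exp_neg_sum {N : ℕ} (x : Fin N → ℝ) :
    Real.exp (-∑ i, x i) = ∏ i, Real.exp (-x i) := by
  rw [← Finset.sum_neg_distrib, Real.exp_sum]

/-- `exp (-∑ x_i)` is integrable on the orthant. -/
theorem integrable_orth_exp (N : ℕ) :
    Integrable (fun x : Fin N → ℝ => Real.exp (-∑ i, x i)) (volume.restrict (orth N)) := by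
  rw [volume_restrict_orth]
  simp_rw [exp_neg_sum]
  exact Integrable.fintype_prod (f := fun (_ : Fin N) (t : ℝ) => Real.exp (-t))
    (fun _ => integrableOn_exp_neg_Ioi 0)

/-- `∫_orth exp (-∑ x_i) = 1`. -/
theorem integral_orth_exp (N : ℕ) :
    ∫ x in orth N, Real.exp (-∑ i, x i) = 1 := by
  rw [volume_restrict_orth]
  simp_rw [exp_neg_sum]
  rw [integral_fintype_prod_eq_prod (fun (_ : Fin N) (t : ℝ) => Real.exp (-t))]
  simp only [integral_exp_neg_Ioi_zero, Finset.prod_const_one]

/-- `s e^{-s}` is integrable on `(0, ∞)`. -/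
theorem integrableOn_gamma2 :
    IntegrableOn (fun s : ℝ => s * Real.exp (-s)) (Ioi 0) := by
  have h := Real.GammaIntegral_convergent (s := 2) (by norm_num)
  refine (integrableOn_congr_fun ?_ measurableSet_Ioi).1 h
  intro s hs
  have : (2 : ℝ) - 1 = 1 := by norm_num
  simp [this, mul_comm]

/-- The one-dimensional layer-cake formula for `truncExpWeight`. -/
theorem integral_gamma2 (y : ℝ) :
    ∫ s in Ioi (0 : ℝ), (if s < y then (1 : ℝ) else 0) * (s * Real.exp (-s))
      = 1 - Crest.AlgGeometry.truncExpWeight y := by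
  unfold Crest.AlgGeometry.truncExpWeight
  by_cases hy : y ≤ 0
  · rw [if_pos hy, sub_self]
    apply setIntegral_eq_zero_of_forall_eq_zero
    intro s hs
    have : ¬ s < y := not_lt.2 (hy.trans (le_of_lt hs))
    simp [this]
  · rw [if_neg hy]
    have hy : 0 < y := not_le.1 hy
    have h1 : ∀ s : ℝ, (if s < y then (1 : ℝ) else 0) * (s * Real.exp (-s))
        = (Iio y).indicator (fun s : ℝ => s * Real.exp (-s)) s := by
      intro s
      by_cases h : s < y <;> simp [h]
    simp_rw [h1]
    rw [setIntegral_indicator measurableSet_Iio]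
    have h2 : Ioi (0 : ℝ) ∩ Iio y = Ioo 0 y := by
      ext s; simp [and_comm]
    rw [h2, ← integral_Ioc_eq_integral_Ioo, ← intervalIntegral.integral_of_le hy.le]
    have hderiv : ∀ s ∈ Set.uIcc (0 : ℝ) y,
        HasDerivAt (fun s : ℝ => -((1 + s) * Real.exp (-s))) (s * Real.exp (-s)) s := by
      intro s _
      have e1 : HasDerivAt (fun s : ℝ => 1 + s) 1 s := (hasDerivAt_id' s).const_add 1
      have e2 : HasDerivAt (fun s : ℝ => Real.exp (-s)) (Real.exp (-s) * (-1)) s :=
        (hasDerivAt_neg' s).exp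
      have e3 := (e1.fun_mul e2).fun_neg
      exact e3.congr_deriv (by ring)
    rw [intervalIntegral.integral_eq_sub_of_hasDerivAt hderiv]
    · rw [neg_zero, Real.exp_zero]
      ring
    · apply Continuous.intervalIntegrable
      fun_prop

/-- Measurability of the linear form. -/
theorem measurable_lin {N : ℕ} (a : Fin N → ℝ) :
    Measurable (fun x : Fin N → ℝ => ∑ i, a i * x i) :=
  Finset.measurable_sum _ (fun i _ => (measurable_pi_apply i).const_mul _)

/-- The integrand of the double integral is integrable on the product. -/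
theorem integrable_layer {N : ℕ} (a : Fin N → ℝ) :
    Integrable (Function.uncurry (fun (x : Fin N → ℝ) (s : ℝ) =>
        (if s - 4 / 3 < ∑ i, a i * x i then (1 : ℝ) else 0) * Real.exp (-∑ i, x i)
          * (s * Real.exp (-s))))
      ((volume.restrict (orth N)).prod (volume.restrict (Ioi (0 : ℝ)))) := by
  have hprod : Integrable (fun z : (Fin N → ℝ) × ℝ =>
      Real.exp (-∑ i, z.1 i) * (z.2 * Real.exp (-z.2)))
      ((volume.restrict (orth N)).prod (volume.restrict (Ioi (0 : ℝ)))) :=
    (integrable_orth_exp N).mul_prod integrableOn_gamma2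
  have hset : MeasurableSet {z : (Fin N → ℝ) × ℝ | z.2 - 4 / 3 < ∑ i, a i * z.1 i} :=
    measurableSet_lt (measurable_snd.sub_const _) ((measurable_lin a).comp measurable_fst)
  have heq : Function.uncurry (fun (x : Fin N → ℝ) (s : ℝ) =>
        (if s - 4 / 3 < ∑ i, a i * x i then (1 : ℝ) else 0) * Real.exp (-∑ i, x i)
          * (s * Real.exp (-s)))
      = {z : (Fin N → ℝ) × ℝ | z.2 - 4 / 3 < ∑ i, a i * z.1 i}.indicator
          (fun z : (Fin N → ℝ) × ℝ => Real.exp (-∑ i, z.1 i) * (z.2 * Real.exp (-z.2))) := by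
    funext z
    obtain ⟨x, s⟩ := z
    by_cases h : s - 4 / 3 < ∑ i, a i * x i
    · simp [Function.uncurry, h]
    · simp [Function.uncurry, h]
  rw [heq]
  exact hprod.indicator hset

/-- [A1], equality version: the layer-cake identity. -/
theorem expect_eq {N : ℕ} (a : Fin N → ℝ) :
    ∫ x in orth N, Crest.AlgGeometry.truncExpWeight (4 / 3 + ∑ i, a i * x i) * Real.exp (-∑ i, x i)
      = 1 - Phi (surv a) := by
  have hg : ∀ x : Fin N → ℝ,
      Crest.AlgGeometry.truncExpWeight (4 / 3 + ∑ i, a i * x i) * Real.exp (-∑ i, x i)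
        = Real.exp (-∑ i, x i) - ∫ s in Ioi (0 : ℝ),
            (if s - 4 / 3 < ∑ i, a i * x i then (1 : ℝ) else 0) * Real.exp (-∑ i, x i)
              * (s * Real.exp (-s)) := by
    intro x
    have h := integral_gamma2 (4 / 3 + ∑ i, a i * x i)
    have h' : ∀ s : ℝ, (if s - 4 / 3 < ∑ i, a i * x i then (1 : ℝ) else 0) * Real.exp (-∑ i, x i)
          * (s * Real.exp (-s))
        = Real.exp (-∑ i, x i) * ((if s < 4 / 3 + ∑ i, a i * x i then (1 : ℝ) else 0)
          * (s * Real.exp (-s))) := by
      intro s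
      have hiff : (s - 4 / 3 < ∑ i, a i * x i) ↔ (s < 4 / 3 + ∑ i, a i * x i) := by
        constructor <;> intro h <;> linarith
      simp only [hiff]
      ring
    simp_rw [h']
    rw [integral_const_mul, h]
    ring
  simp_rw [hg]
  have hF := integrable_layer a
  have hI : Integrable (fun x : Fin N → ℝ => ∫ s in Ioi (0 : ℝ),
      (if s - 4 / 3 < ∑ i, a i * x i then (1 : ℝ) else 0) * Real.exp (-∑ i, x i)
        * (s * Real.exp (-s))) (volume.restrict (orth N)) := hF.integral_prod_left
  rw [integral_sub (integrable_orth_exp N) hI, integral_orth_exp]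
  rw [integral_integral_swap hF]
  unfold Phi surv
  congr 1
  apply integral_congr_ae
  filter_upwards with s
  rw [integral_mul_const]

/-- [A1]  layer cake (only `≤` is needed). -/
theorem expect_le {N : ℕ} (a : Fin N → ℝ) :
    ∫ x in orth N, Crest.AlgGeometry.truncExpWeight (4 / 3 + ∑ i, a i * x i) * Real.exp (-∑ i, x i)
      ≤ 1 - Phi (surv a) :=
  (expect_eq a).le

end Crest.Agent.Lib_S0423_A1
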