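import Mathlib
import Crest.Agent.Lib_S0423_Defs

/-!
[A2] of the S0423 plan: the mean-zero identity for the survival function `surv a`
(plus reusable facts about the exponential product measure on the orthant).
-/

set_option autoImplicit false

namespace Crest.Agent.Lib_S0423_A2

open MeasureTheory Set Crest.Agent.Lib_S0423_Defs

/-- The orthant is measurable. -/
theorem measurableSet_orth (N : ℕ) : MeasurableSet (orth N) :=
  MeasurableSet.univ_pi (fun _ => measurableSet_Ioi)

/-- Lebesgue measure restricted to the orthant is a product measure. -/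
theorem volume_restrict_orth (N : ℕ) :
    (volume : Measure (Fin N → ℝ)).restrict (orth N)
      = Measure.pi (fun _ : Fin N => (volume : Measure ℝ).restrict (Ioi 0)) := by
  unfold orth
  rw [volume_pi]
  exact Measure.restrict_pi_pi (fun _ : Fin N => (volume : Measure ℝ)) (fun _ => Ioi (0:ℝ))

/-- `exp (-∑ x_i) = ∏ exp (-x_i)`. -/
theorem exp_neg_sum {N : ℕ} (x : Fin N → ℝ) :
    Real.exp (-∑ i, x i) = ∏ i, Real.exp (-x i) := by
  rw [← Finset.sum_neg_distrib, Real.exp_sum]

/-- Fubini on the orthant for product functions. -/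
theorem integral_orth_prod {N : ℕ} (f : Fin N → ℝ → ℝ) :
    ∫ x in orth N, ∏ i, f i (x i) = ∏ i, ∫ t in Ioi (0:ℝ), f i t := by
  rw [volume_restrict_orth]
  exact integral_fintype_prod_eq_prod (ι := Fin N) (E := fun _ => ℝ) f

/-- Integrability on the orthant for product functions. -/
theorem integrableOn_orth_prod {N : ℕ} {f : Fin N → ℝ → ℝ}
    (hf : ∀ i, IntegrableOn (f i) (Ioi (0:ℝ))) :
    IntegrableOn (fun x : Fin N → ℝ => ∏ i, f i (x i)) (orth N) := by
  unfold IntegrableOn
  rw [volume_restrict_orth]
  exact Integrable.fintype_prod hf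

/-- (i) the exponential density is integrable on the orthant. -/
theorem integrableOn_orth_exp (N : ℕ) :
    IntegrableOn (fun x : Fin N → ℝ => Real.exp (-∑ i, x i)) (orth N) := by
  simp_rw [exp_neg_sum]
  exact integrableOn_orth_prod (f := fun _ t => Real.exp (-t)) (fun _ => integrableOn_exp_neg_Ioi 0)

/-- (ii) the exponential density has total mass one. -/
theorem integral_orth_exp (N : ℕ) :
    ∫ x in orth N, Real.exp (-∑ i, x i) = 1 := by
  simp_rw [exp_neg_sum]
  rw [integral_orth_prod (fun _ t => Real.exp (-t))]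
  simp only [integral_exp_neg_Ioi_zero, Finset.prod_const_one]

theorem integrableOn_id_mul_exp_neg :
    IntegrableOn (fun t : ℝ => t * Real.exp (-t)) (Ioi 0) := by
  have h := Real.GammaIntegral_convergent (s := 2) (by norm_num)
  refine h.congr_fun (fun t ht => ?_) measurableSet_Ioi
  have : (2:ℝ) - 1 = 1 := by norm_num
  simp only [this, Real.rpow_one]
  ring

theorem integral_id_mul_exp_neg :
    ∫ t in Ioi (0:ℝ), t * Real.exp (-t) = 1 := by
  have h := Real.Gamma_eq_integral (s := 2) (by norm_num)
  rw [Real.Gamma_two] at h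
  rw [h]
  refine setIntegral_congr_fun measurableSet_Ioi (fun t ht => ?_)
  have : (2:ℝ) - 1 = 1 := by norm_num
  simp only [this, Real.rpow_one]
  ring

theorem coord_mul_exp_eq_prod {N : ℕ} (j : Fin N) (x : Fin N → ℝ) :
    x j * Real.exp (-∑ i, x i)
      = ∏ i, (fun (i : Fin N) (t : ℝ) => (if i = j then t else 1) * Real.exp (-t)) i (x i) := by
  simp only [Finset.prod_mul_distrib, exp_neg_sum]
  congr 1
  simp

/-- coordinate times density is integrable on the orthant. -/
theorem integrableOn_orth_coord {N : ℕ} (j : Fin N) :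
    IntegrableOn (fun x : Fin N → ℝ => x j * Real.exp (-∑ i, x i)) (orth N) := by
  simp_rw [coord_mul_exp_eq_prod j]
  refine integrableOn_orth_prod
    (f := fun (i : Fin N) (t : ℝ) => (if i = j then t else 1) * Real.exp (-t)) (fun i => ?_)
  by_cases h : i = j
  · simp only [h, if_true]
    exact integrableOn_id_mul_exp_neg
  · simp only [h, if_false, one_mul]
    exact integrableOn_exp_neg_Ioi 0

/-- (iii) each coordinate has mean one. -/
theorem integral_orth_coord {N : ℕ} (j : Fin N) :
    ∫ x in orth N, x j * Real.exp (-∑ i, x i) = 1 := by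
  simp_rw [coord_mul_exp_eq_prod j]
  rw [integral_orth_prod (fun (i : Fin N) (t : ℝ) => (if i = j then t else 1) * Real.exp (-t))]
  refine Finset.prod_eq_one (fun i _ => ?_)
  by_cases h : i = j
  · simp only [h, if_true]
    exact integral_id_mul_exp_neg
  · simp only [h, if_false, one_mul]
    exact integral_exp_neg_Ioi_zero

/-- The exponential product measure on the orthant. -/
noncomputable def nu (N : ℕ) : Measure (Fin N → ℝ) :=
  ((volume : Measure (Fin N → ℝ)).restrict (orth N)).withDensity
    (fun x => ENNReal.ofReal (Real.exp (-∑ i, x i)))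

theorem measurable_dens (N : ℕ) :
    Measurable (fun x : Fin N → ℝ => ENNReal.ofReal (Real.exp (-∑ i, x i))) := by
  fun_prop

/-- Integrals against `nu` are the weighted orthant integrals. -/
theorem integral_nu {N : ℕ} (f : (Fin N → ℝ) → ℝ) :
    ∫ x, f x ∂(nu N) = ∫ x in orth N, f x * Real.exp (-∑ i, x i) := by
  unfold nu
  rw [integral_withDensity_eq_integral_toReal_smul (measurable_dens N)
    (Filter.Eventually.of_forall fun _ => ENNReal.ofReal_lt_top)]
  refine integral_congr_ae (Filter.Eventually.of_forall fun x => ?_)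
  simp only [smul_eq_mul]
  rw [ENNReal.toReal_ofReal (Real.exp_pos _).le, mul_comm]

/-- Integrability against `nu`. -/
theorem integrable_nu_iff {N : ℕ} (f : (Fin N → ℝ) → ℝ) :
    Integrable f (nu N) ↔ IntegrableOn (fun x => f x * Real.exp (-∑ i, x i)) (orth N) := by
  unfold nu IntegrableOn
  rw [integrable_withDensity_iff (measurable_dens N)
    (Filter.Eventually.of_forall fun _ => ENNReal.ofReal_lt_top)]
  refine integrable_congr (Filter.Eventually.of_forall fun x => ?_)
  simp only
  rw [ENNReal.toReal_ofReal (Real.exp_pos _).le]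

instance nu_prob (N : ℕ) : IsProbabilityMeasure (nu N) := by
  constructor
  unfold nu
  rw [withDensity_apply _ MeasurableSet.univ, Measure.restrict_univ,
    ← ofReal_integral_eq_lintegral_ofReal (integrableOn_orth_exp N)
      (Filter.Eventually.of_forall fun _ => (Real.exp_pos _).le),
    integral_orth_exp, ENNReal.ofReal_one]

/-- The linear form `x ↦ ∑ a_i x_i` is measurable. -/
theorem measurable_lin {N : ℕ} (a : Fin N → ℝ) :
    Measurable (fun x : Fin N → ℝ => ∑ i, a i * x i) := by
  fun_prop

theorem integrable_coord {N : ℕ} (j : Fin N) : Integrable (fun x : Fin N → ℝ => x j) (nu N) :=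
  (integrable_nu_iff _).2 (integrableOn_orth_coord j)

theorem integral_coord {N : ℕ} (j : Fin N) : ∫ x, x j ∂(nu N) = 1 := by
  rw [integral_nu]; exact integral_orth_coord j

theorem integrable_lin {N : ℕ} (a : Fin N → ℝ) :
    Integrable (fun x : Fin N → ℝ => ∑ i, a i * x i) (nu N) :=
  integrable_finsetSum _ (fun i _ => (integrable_coord i).const_mul (a i))

theorem integral_lin {N : ℕ} (a : Fin N → ℝ) :
    ∫ x, ∑ i, a i * x i ∂(nu N) = ∑ i, a i := by
  rw [integral_finsetSum _ (fun i _ => (integrable_coord i).const_mul (a i))]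
  refine Finset.sum_congr rfl (fun i _ => ?_)
  rw [integral_const_mul, integral_coord, mul_one]

/-- The survival function is the `nu`-measure of a half space. -/
theorem surv_eq_measureReal {N : ℕ} (a : Fin N → ℝ) (w : ℝ) :
    surv a w = (nu N).real {x | w < ∑ i, a i * x i} := by
  unfold surv
  rw [← integral_nu (fun x => if w < ∑ i, a i * x i then (1:ℝ) else 0),
    ← integral_indicator_one (measurableSet_lt measurable_const (measurable_lin a))]
  refine integral_congr_ae (Filter.Eventually.of_forall fun x => ?_)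
  by_cases h : w < ∑ i, a i * x i <;> simp [h]

theorem surv_nonneg {N : ℕ} (a : Fin N → ℝ) (w : ℝ) : 0 ≤ surv a w := by
  rw [surv_eq_measureReal]; exact measureReal_nonneg

theorem surv_le_one {N : ℕ} (a : Fin N → ℝ) (w : ℝ) : surv a w ≤ 1 := by
  rw [surv_eq_measureReal]; exact measureReal_le_one

theorem surv_antitone {N : ℕ} (a : Fin N → ℝ) : Antitone (surv a) := by
  intro u v huv
  rw [surv_eq_measureReal, surv_eq_measureReal]
  exact measureReal_mono (fun x hx => lt_of_le_of_lt huv hx)

theorem surv_measurable {N : ℕ} (a : Fin N → ℝ) : Measurable (surv a) :=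
  (surv_antitone a).measurable

/-- `1 - surv a w` is the measure of the complementary half space. -/
theorem one_sub_surv_eq_measureReal {N : ℕ} (a : Fin N → ℝ) (w : ℝ) :
    1 - surv a w = (nu N).real {x | ∑ i, a i * x i ≤ w} := by
  rw [surv_eq_measureReal]
  have hc : {x : Fin N → ℝ | ∑ i, a i * x i ≤ w} = {x | w < ∑ i, a i * x i}ᶜ := by
    ext x; simp
  rw [hc, measureReal_compl (measurableSet_lt measurable_const (measurable_lin a))]
  simp

theorem lt_max_zero_iff {w s : ℝ} (hw : 0 < w) : w < max s 0 ↔ w < s := by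
  rw [lt_max_iff]
  constructor
  · rintro (h | h)
    · exact h
    · exact absurd h (not_lt.2 hw.le)
  · intro h; exact Or.inl h

theorem le_max_neg_zero_iff {t s : ℝ} (ht : 0 < t) : t ≤ max (-s) 0 ↔ s ≤ -t := by
  rw [le_max_iff]
  constructor
  · rintro (h | h)
    · linarith
    · exact absurd h (not_le.2 ht)
  · intro h; left; linarith

/-- Layer cake for the positive part: `∫_0^∞ P(S > w) dw = E S⁺`. -/
theorem integral_surv_Ioi {N : ℕ} (a : Fin N → ℝ) :
    ∫ w in Ioi (0:ℝ), surv a w = ∫ x, max (∑ i, a i * x i) 0 ∂(nu N) := by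
  have hint : Integrable (fun x : Fin N → ℝ => max (∑ i, a i * x i) 0) (nu N) :=
    (integrable_lin a).pos_part
  rw [hint.integral_eq_integral_meas_lt (Filter.Eventually.of_forall fun x => le_max_right _ _)]
  refine setIntegral_congr_fun measurableSet_Ioi (fun w hw => ?_)
  simp only [surv_eq_measureReal]
  congr 1
  ext x
  simp only [mem_ofPred_eq]
  exact (lt_max_zero_iff hw).symm

/-- Layer cake for the negative part: `∫_{-∞}^0 P(S ≤ w) dw = E S⁻`. -/
theorem integral_one_sub_surv_Iic {N : ℕ} (a : Fin N → ℝ) :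
    ∫ w in Iic (0:ℝ), (1 - surv a w) = ∫ x, max (-∑ i, a i * x i) 0 ∂(nu N) := by
  have hint : Integrable (fun x : Fin N → ℝ => max (-∑ i, a i * x i) 0) (nu N) :=
    (integrable_lin a).neg_part
  rw [hint.integral_eq_integral_meas_le (Filter.Eventually.of_forall fun x => le_max_right _ _)]
  have h0 : ∫ w in Iic (0:ℝ), (1 - surv a w) = ∫ t in Ioi (0:ℝ), (1 - surv a (-t)) := by
    have := integral_comp_neg_Ioi (0:ℝ) (fun w => 1 - surv a w)
    rw [neg_zero] at this
    exact this.symm
  rw [h0]
  refine setIntegral_congr_fun measurableSet_Ioi (fun t ht => ?_)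
  simp only [one_sub_surv_eq_measureReal]
  congr 1
  ext x
  simp only [mem_ofPred_eq]
  exact (le_max_neg_zero_iff ht).symm

theorem integrableOn_surv_Ioi {N : ℕ} (a : Fin N → ℝ) : IntegrableOn (surv a) (Ioi 0) := by
  have hint : Integrable (fun x : Fin N → ℝ => max (∑ i, a i * x i) 0) (nu N) :=
    (integrable_lin a).pos_part
  have key := lintegral_eq_lintegral_meas_lt (nu N)
    (Filter.Eventually.of_forall fun x => le_max_right (∑ i, a i * x i) 0) hint.aemeasurable
  have lhs_finite := hint.lintegral_lt_top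
  refine ⟨(surv_measurable a).aestronglyMeasurable, ?_⟩
  rw [hasFiniteIntegral_iff_ofReal (Filter.Eventually.of_forall fun w => surv_nonneg a w)]
  have : ∫⁻ w in Ioi (0:ℝ), ENNReal.ofReal (surv a w)
      = ∫⁻ w in Ioi (0:ℝ), (nu N) {x | w < max (∑ i, a i * x i) 0} := by
    refine setLIntegral_congr_fun measurableSet_Ioi (fun w hw => ?_)
    simp only [surv_eq_measureReal]
    rw [ofReal_measureReal]
    congr 1
    ext x
    simp only [mem_ofPred_eq]
    exact (lt_max_zero_iff hw).symm
  rw [this, ← key]
  exact lhs_finite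

theorem integrableOn_one_sub_surv_Iic {N : ℕ} (a : Fin N → ℝ) :
    IntegrableOn (fun w => 1 - surv a w) (Iic 0) := by
  have hint : Integrable (fun x : Fin N → ℝ => max (-∑ i, a i * x i) 0) (nu N) :=
    (integrable_lin a).neg_part
  have key := lintegral_eq_lintegral_meas_le (nu N)
    (Filter.Eventually.of_forall fun x => le_max_right (-∑ i, a i * x i) 0) hint.aemeasurable
  have lhs_finite := hint.lintegral_lt_top
  have hmeas : Measurable (fun t : ℝ => 1 - surv a (-t)) :=
    measurable_const.sub ((surv_measurable a).comp measurable_neg)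
  have h1 : IntegrableOn (fun t : ℝ => 1 - surv a (-t)) (Ioi 0) := by
    refine ⟨hmeas.aestronglyMeasurable, ?_⟩
    rw [hasFiniteIntegral_iff_ofReal
      (Filter.Eventually.of_forall fun t => sub_nonneg.2 (surv_le_one a (-t)))]
    have : ∫⁻ t in Ioi (0:ℝ), ENNReal.ofReal (1 - surv a (-t))
        = ∫⁻ t in Ioi (0:ℝ), (nu N) {x | t ≤ max (-∑ i, a i * x i) 0} := by
      refine setLIntegral_congr_fun measurableSet_Ioi (fun t ht => ?_)
      simp only [one_sub_surv_eq_measureReal]
      rw [ofReal_measureReal]
      congr 1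
      ext x
      simp only [mem_ofPred_eq]
      exact (le_max_neg_zero_iff ht).symm
    rw [this, ← key]
    exact lhs_finite
  have h2 : IntegrableOn (fun t : ℝ => 1 - surv a (-t)) (Ici (-0)) := by
    rw [neg_zero]
    exact (integrableOn_Ici_iff_integrableOn_Ioi).2 h1
  have h3 := h2.comp_neg_Iic
  simpa only [neg_neg] using h3

/-- `E S⁺ - E S⁻ = E S = ∑ a_i`. -/
theorem integral_surv_sub {N : ℕ} (a : Fin N → ℝ) :
    (∫ w in Ioi (0:ℝ), surv a w) - ∫ w in Iic (0:ℝ), (1 - surv a w) = ∑ i, a i := by
  rw [integral_surv_Ioi, integral_one_sub_surv_Iic,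
    ← integral_sub (integrable_lin a).pos_part (integrable_lin a).neg_part, ← integral_lin a]
  refine integral_congr_ae (Filter.Eventually.of_forall fun x => ?_)
  simp only
  rcases le_total 0 (∑ i, a i * x i) with h | h
  · rw [max_eq_left h, max_eq_right (by linarith)]; ring
  · rw [max_eq_right h, max_eq_left (by linarith)]; ring

/-- [A2] mean zero, in survival-function form. -/
theorem surv_mean {N : ℕ} (a : Fin N → ℝ) (ha : ∑ i, a i = 0) :
    IntegrableOn (surv a) (Ioi 0) ∧ IntegrableOn (fun w => 1 - surv a w) (Iic 0) ∧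
      ∫ w in Ioi (0 : ℝ), surv a w = ∫ w in Iic (0 : ℝ), (1 - surv a w) := by
  refine ⟨integrableOn_surv_Ioi a, integrableOn_one_sub_surv_Iic a, ?_⟩
  have h := integral_surv_sub a
  rw [ha] at h
  linarith

end Crest.Agent.Lib_S0423_A2
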