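import Mathlib
import Crest.Prelude.Def_TruncExpWeight
import Crest.Agent.Lib_S0423_Defs
import Crest.Agent.Lib_S0423_A2

/-!
[A3], [A4], [A5] of the S0423 plan: integrating out one coordinate of the survival function,
the case of no coordinates, and the case `a = 0` of the expectation.
-/

set_option autoImplicit false

namespace Crest.Agent.Lib_S0423_A3

open MeasureTheory Set Crest.Agent.Lib_S0423_Defs Crest.Agent.Lib_S0423_A2

/-- The half-line measure used for each coordinate. -/
noncomputable abbrev halfLine : Measure ℝ := (volume : Measure ℝ).restrict (Ioi 0)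

/-- Generic Fubini on the orthant: integrate out coordinate `j`. -/
theorem integral_orth_succAbove {N : ℕ} (j : Fin (N + 1)) (F : (Fin (N + 1) → ℝ) → ℝ)
    (hF : IntegrableOn F (orth (N + 1))) :
    ∫ x in orth (N + 1), F x
      = ∫ t in Ioi (0 : ℝ), ∫ y in orth N, F (j.insertNth t y) := by
  have mp := measurePreserving_piFinSuccAbove (α := fun _ : Fin (N + 1) => ℝ)
    (fun _ : Fin (N + 1) => halfLine) j
  rw [volume_restrict_orth (N + 1), volume_restrict_orth N]
  have hF' : Integrable F (Measure.pi fun _ : Fin (N + 1) => halfLine) := by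
    have := hF
    unfold IntegrableOn at this
    rwa [volume_restrict_orth (N + 1)] at this
  rw [← mp.symm.integral_comp']
  rw [integral_prod]
  · rfl
  · exact (mp.symm.integrable_comp_emb (MeasurableEquiv.measurableEmbedding _)).2 hF'

/-- The integrand of `surv` is integrable on the orthant. -/
theorem integrableOn_surv_integrand {N : ℕ} (a : Fin N → ℝ) (w : ℝ) :
    IntegrableOn (fun x : Fin N → ℝ =>
      (if w < ∑ i, a i * x i then (1 : ℝ) else 0) * Real.exp (-∑ i, x i)) (orth N) := by
  have hmeas : Measurable (fun x : Fin N → ℝ => (if w < ∑ i, a i * x i then (1 : ℝ) else 0)) := by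
    refine Measurable.ite ?_ measurable_const measurable_const
    exact measurableSet_lt measurable_const (measurable_lin a)
  refine Integrable.bdd_mul (c := 1) (integrableOn_orth_exp N) hmeas.aestronglyMeasurable ?_
  refine Filter.Eventually.of_forall fun x => ?_
  by_cases h : w < ∑ i, a i * x i <;> simp [h]

/-- [A3] integrate out coordinate `j`. -/
theorem surv_succAbove {N : ℕ} (a : Fin (N + 1) → ℝ) (j : Fin (N + 1)) (w : ℝ) :
    surv a w = ∫ x in Ioi (0 : ℝ), surv (fun i => a (j.succAbove i)) (w - a j * x) * Real.exp (-x) := by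
  unfold surv
  rw [integral_orth_succAbove j _ (integrableOn_surv_integrand a w)]
  refine setIntegral_congr_fun measurableSet_Ioi (fun t _ => ?_)
  rw [← integral_mul_const]
  refine setIntegral_congr_fun (measurableSet_orth N) (fun y _ => ?_)
  beta_reduce
  have h1 : ∑ i, a i * (j.insertNth t y : Fin (N + 1) → ℝ) i
      = a j * t + ∑ i, a (j.succAbove i) * y i := by
    rw [Fin.sum_univ_succAbove _ j]
    simp
  have h2 : ∑ i, (j.insertNth t y : Fin (N + 1) → ℝ) i = t + ∑ i, y i := by
    rw [Fin.sum_univ_succAbove _ j]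
    simp
  rw [h1, h2]
  have h3 : (w < a j * t + ∑ i, a (j.succAbove i) * y i)
      ↔ (w - a j * t < ∑ i, a (j.succAbove i) * y i) := by
    constructor <;> intro h <;> linarith
  simp only [h3]
  rw [show -(t + ∑ i, y i) = -∑ i, y i + -t by ring, Real.exp_add]
  ring

/-- [A4] no coordinates. -/
theorem surv_zero (a : Fin 0 → ℝ) (w : ℝ) : surv a w = if w < 0 then 1 else 0 := by
  unfold surv
  have h := integral_orth_exp 0
  simp only [Finset.univ_eq_empty, Finset.sum_empty] at h ⊢
  rw [integral_const_mul, h, mul_one]

/-- [A5] the case `a = 0`. -/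
theorem expect_zero {N : ℕ} :
    ∫ x in orth N, Crest.AlgGeometry.truncExpWeight (4 / 3 + ∑ i, (0 : ℝ) * x i) * Real.exp (-∑ i, x i)
      = 7 / 3 * Real.exp (-(4 / 3)) := by
  have h0 : Crest.AlgGeometry.truncExpWeight (4 / 3) = 7 / 3 * Real.exp (-(4 / 3)) := by
    unfold Crest.AlgGeometry.truncExpWeight
    rw [if_neg (by norm_num)]
    norm_num
  simp only [zero_mul, Finset.sum_const_zero, add_zero]
  rw [integral_const_mul, integral_orth_exp, mul_one, h0]

end Crest.Agent.Lib_S0423_A3
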