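import Mathlib

/-!
Four-point (PF2) log-concavity inequality on the real line and its stability under
smoothing by an exponential variable.  Generic one-dimensional lemmas used for S0423.
-/

set_option autoImplicit false

namespace Crest.Agent.Lib_helper1_FP

open MeasureTheory Set

/-- Four-point inequality: `φ z * φ (z' + d) ≤ φ (z + d) * φ z'` whenever `z ≤ z'`, `0 ≤ d`. -/
def FP (φ : ℝ → ℝ) : Prop :=
  ∀ z z' d : ℝ, z ≤ z' → 0 ≤ d → φ z * φ (z' + d) ≤ φ (z + d) * φ z'

theorem FP.four {φ : ℝ → ℝ} (h : FP φ) {p q r s : ℝ} (hpq : p ≤ q) (hqr : q ≤ r)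
    (hsum : p + s = q + r) : φ p * φ s ≤ φ q * φ r := by
  have h1 := h p r (q - p) (hpq.trans hqr) (by linarith)
  have e1 : r + (q - p) = s := by linarith
  have e2 : p + (q - p) = q := by ring
  rwa [e1, e2] at h1

theorem FP.four' {φ : ℝ → ℝ} (h : FP φ) {p q r s : ℝ} (hpq : p ≤ q) (hpr : p ≤ r)
    (hsum : p + s = q + r) : φ p * φ s ≤ φ q * φ r := by
  rcases le_total q r with hqr | hrq
  · exact h.four hpq hqr hsum
  · have := h.four hpr hrq (by linarith : p + s = r + q)
    linarith [mul_comm (φ q) (φ r)]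

theorem fp_of_four {φ : ℝ → ℝ}
    (h : ∀ p q r s : ℝ, p ≤ q → q ≤ r → r ≤ s → p + s = q + r → φ p * φ s ≤ φ q * φ r) :
    FP φ := by
  intro z z' d hzz hd
  rcases le_total (z + d) z' with h1 | h1
  · exact h z (z + d) z' (z' + d) (by linarith) h1 (by linarith) (by ring)
  · have := h z z' (z + d) (z' + d) hzz h1 (by linarith) (by ring)
    linarith [mul_comm (φ z') (φ (z + d))]

theorem fp_indicator_Iio : FP (fun s : ℝ => if s < 0 then (1 : ℝ) else 0) := by
  intro z z' d hzz hd
  by_cases h1 : z' + d < 0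
  · have hz' : z' < 0 := by linarith
    have hz : z < 0 := by linarith
    have hzd : z + d < 0 := by linarith
    simp [h1, hz', hz, hzd]
  · simp only [h1, if_false, mul_zero]
    split_ifs <;> norm_num

theorem fp_indicator_Ici : FP (fun s : ℝ => if 0 ≤ s then (1 : ℝ) else 0) := by
  intro z z' d hzz hd
  by_cases h1 : 0 ≤ z
  · have hz' : 0 ≤ z' := by linarith
    have hz : 0 ≤ z' + d := by linarith
    have hzd : 0 ≤ z + d := by linarith
    simp [h1, hz', hz, hzd]
  · simp only [h1, if_false, zero_mul]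
    split_ifs <;> norm_num

theorem FP.reflect {φ : ℝ → ℝ} (h : FP φ) : FP (fun t => φ (-t)) := by
  intro z z' d hzz hd
  have h1 := h (-z' - d) (-z - d) d (by linarith) hd
  have e1 : -z - d + d = -z := by ring
  have e2 : -z' - d + d = -z' := by ring
  rw [e1, e2] at h1
  have e3 : -(z' + d) = -z' - d := by ring
  have e4 : -(z + d) = -z - d := by ring
  show φ (-z) * φ (-(z' + d)) ≤ φ (-(z + d)) * φ (-z')
  rw [e3, e4]
  linarith [mul_comm (φ (-z' - d)) (φ (-z)), mul_comm (φ (-z')) (φ (-z - d))]

/-- Smoothing by an independent exponential variable: `s ↦ E φ (s - a X)`. -/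
noncomputable def smooth (a : ℝ) (φ : ℝ → ℝ) (s : ℝ) : ℝ :=
  ∫ x in Ioi (0 : ℝ), φ (s - a * x) * Real.exp (-x)

theorem integrableOn_smooth {φ : ℝ → ℝ} (hm : Measurable φ) (h0 : ∀ x, 0 ≤ φ x)
    (h1 : ∀ x, φ x ≤ 1) (a s : ℝ) (t : Set ℝ) (ht : t ⊆ Ioi (0 : ℝ)) :
    IntegrableOn (fun x => φ (s - a * x) * Real.exp (-x)) t := by
  have hint : IntegrableOn (fun x : ℝ => Real.exp (-x)) (Ioi (0 : ℝ)) := integrableOn_exp_neg_Ioi 0
  have hbig : IntegrableOn (fun x => φ (s - a * x) * Real.exp (-x)) (Ioi (0 : ℝ)) := by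
    refine Integrable.mono' hint ?_ ?_
    · exact ((hm.comp (by fun_prop)).mul (by fun_prop)).aestronglyMeasurable
    · refine Filter.Eventually.of_forall (fun x => ?_)
      rw [Real.norm_eq_abs, abs_mul, abs_of_nonneg (h0 _), abs_of_pos (Real.exp_pos _)]
      exact mul_le_of_le_one_left (Real.exp_pos _).le (h1 _)
  exact hbig.mono_set ht

theorem integral_Ioi_shift (f : ℝ → ℝ) (δ : ℝ) :
    ∫ x in Ioi δ, f x = ∫ x in Ioi (0 : ℝ), f (x + δ) := by
  have h := (measurePreserving_add_right volume δ).setIntegral_preimage_emb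
    (measurableEmbedding_addRight δ) f (Ioi δ)
  simp only [preimage_add_const_Ioi, sub_self] at h
  exact h.symm

theorem smooth_zero (φ : ℝ → ℝ) (s : ℝ) : smooth 0 φ s = φ s := by
  unfold smooth
  simp only [zero_mul, sub_zero]
  rw [integral_const_mul, integral_exp_neg_Ioi_zero, mul_one]

theorem smooth_nonneg {φ : ℝ → ℝ} (h0 : ∀ x, 0 ≤ φ x) (a s : ℝ) : 0 ≤ smooth a φ s := by
  unfold smooth
  exact setIntegral_nonneg measurableSet_Ioi (fun x _ => mul_nonneg (h0 _) (Real.exp_pos _).le)

/-- Splitting off the first `δ = d / a` of the exponential variable (`a > 0`). -/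
theorem smooth_split {φ : ℝ → ℝ} (hm : Measurable φ) (h0 : ∀ x, 0 ≤ φ x)
    (h1 : ∀ x, φ x ≤ 1) {a : ℝ} (ha : 0 < a) (z d : ℝ) (hd : 0 ≤ d) :
    smooth a φ (z + d) =
      (∫ x in Ioc (0 : ℝ) (d / a), φ (z + d - a * x) * Real.exp (-x)) +
        Real.exp (-(d / a)) * smooth a φ z := by
  have hδ : 0 ≤ d / a := div_nonneg hd ha.le
  unfold smooth
  rw [← intervalIntegral.integral_interval_add_Ioi (b := d / a)
    (integrableOn_smooth hm h0 h1 a (z + d) _ subset_rfl)
    (integrableOn_smooth hm h0 h1 a (z + d) _ (Ioi_subset_Ioi hδ)),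
    intervalIntegral.integral_of_le hδ]
  congr 1
  rw [integral_Ioi_shift, ← integral_const_mul]
  refine setIntegral_congr_fun measurableSet_Ioi (fun x _ => ?_)
  have e : z + d - a * (x + d / a) = z - a * x := by field_simp; ring
  simp only [e]
  rw [neg_add, Real.exp_add]
  ring

/-- Main lemma, case `a > 0`. -/
theorem fp_smooth_pos {φ : ℝ → ℝ} (hm : Measurable φ) (h0 : ∀ x, 0 ≤ φ x)
    (h1 : ∀ x, φ x ≤ 1) (hFP : FP φ) {a : ℝ} (ha : 0 < a) : FP (smooth a φ) := by
  intro z z' d hzz hd
  have hδ : 0 ≤ d / a := div_nonneg hd ha.le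
  rw [smooth_split hm h0 h1 ha z d hd, smooth_split hm h0 h1 ha z' d hd]
  -- Step 1: pointwise in x
  have step1 : ∀ x ∈ Ioc (0 : ℝ) (d / a),
      φ (z' + d - a * x) * smooth a φ z ≤ φ (z + d - a * x) * smooth a φ z' := by
    intro x hx
    unfold smooth
    rw [← integral_const_mul, ← integral_const_mul]
    refine setIntegral_mono_on ?_ ?_ measurableSet_Ioi ?_
    · exact (integrableOn_smooth hm h0 h1 a z _ subset_rfl).const_mul _
    · exact (integrableOn_smooth hm h0 h1 a z' _ subset_rfl).const_mul _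
    · intro y hy
      have hy0 : 0 < y := hy
      have hax : a * x ≤ d := by
        have := mul_le_mul_of_nonneg_left hx.2 ha.le
        rwa [mul_div_cancel₀ _ ha.ne'] at this
      have hfp := hFP (z - a * y) (z' - a * y) (d - a * x + a * y) (by linarith)
        (by nlinarith [mul_pos ha hy0])
      have e1 : z' - a * y + (d - a * x + a * y) = z' + d - a * x := by ring
      have e2 : z - a * y + (d - a * x + a * y) = z + d - a * x := by ring
      rw [e1, e2] at hfp
      have hexp : 0 ≤ Real.exp (-y) := (Real.exp_pos _).le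
      nlinarith [mul_le_mul_of_nonneg_right hfp hexp]
  -- Step 2: integrate in x
  have step2 : smooth a φ z * (∫ x in Ioc (0 : ℝ) (d / a), φ (z' + d - a * x) * Real.exp (-x)) ≤
      smooth a φ z' * (∫ x in Ioc (0 : ℝ) (d / a), φ (z + d - a * x) * Real.exp (-x)) := by
    rw [← integral_const_mul, ← integral_const_mul]
    refine setIntegral_mono_on ?_ ?_ measurableSet_Ioc ?_
    · exact (integrableOn_smooth hm h0 h1 a (z' + d) _ Ioc_subset_Ioi_self).const_mul _
    · exact (integrableOn_smooth hm h0 h1 a (z + d) _ Ioc_subset_Ioi_self).const_mul _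
    · intro x hx
      have hexp : 0 ≤ Real.exp (-x) := (Real.exp_pos _).le
      nlinarith [mul_le_mul_of_nonneg_right (step1 x hx) hexp]
  nlinarith [step2]

/-- FP is preserved by smoothing with an exponential variable, for every real coefficient. -/
theorem fp_smooth {φ : ℝ → ℝ} (hm : Measurable φ) (h0 : ∀ x, 0 ≤ φ x)
    (h1 : ∀ x, φ x ≤ 1) (hFP : FP φ) (a : ℝ) : FP (smooth a φ) := by
  rcases lt_trichotomy a 0 with ha | ha | ha
  · -- reflection
    have hψm : Measurable (fun t => φ (-t)) := hm.comp measurable_neg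
    have hψ := fp_smooth_pos hψm (fun x => h0 _) (fun x => h1 _) hFP.reflect (neg_pos.mpr ha)
    have hrefl := hψ.reflect
    have heq : (fun t => smooth (-a) (fun t => φ (-t)) (-t)) = smooth a φ := by
      funext t
      unfold smooth
      refine setIntegral_congr_fun measurableSet_Ioi (fun x _ => ?_)
      have e : -(-t - -a * x) = t - a * x := by ring
      simp only [e]
    rwa [heq] at hrefl
  · subst ha
    have : smooth 0 φ = φ := funext (smooth_zero φ)
    rwa [this]
  · exact fp_smooth_pos hm h0 h1 hFP ha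

/-- A continuous midpoint-convex function on the real line is convex. -/
theorem convexOn_of_midpoint {f : ℝ → ℝ} (hc : Continuous f)
    (hmid : ∀ x y : ℝ, f ((x + y) / 2) ≤ (f x + f y) / 2) : ConvexOn ℝ univ f := by
  refine ⟨convex_univ, ?_⟩
  intro x _ y _ a b ha hb hab
  have hcont : Continuous (fun t : ℝ => f (x + t * (y - x)) - (f x + t * (f y - f x))) := by
    have h1 : Continuous fun t : ℝ => f (x + t * (y - x)) := hc.comp (by fun_prop)
    exact h1.sub (by fun_prop)
  have hmidh : ∀ s t : ℝ,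
      f (x + (s + t) / 2 * (y - x)) - (f x + (s + t) / 2 * (f y - f x)) ≤
        ((f (x + s * (y - x)) - (f x + s * (f y - f x))) +
          (f (x + t * (y - x)) - (f x + t * (f y - f x)))) / 2 := by
    intro s t
    have h2 := hmid (x + s * (y - x)) (x + t * (y - x))
    have e : (x + s * (y - x) + (x + t * (y - x))) / 2 = x + (s + t) / 2 * (y - x) := by ring
    rw [e] at h2
    linarith
  obtain ⟨t, ht, hmax⟩ := isCompact_Icc.exists_isMaxOn (s := Icc (0 : ℝ) 1)
    ⟨0, by simp⟩ hcont.continuousOn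
  have hmax' : ∀ v ∈ Icc (0 : ℝ) 1,
      f (x + v * (y - x)) - (f x + v * (f y - f x)) ≤
        f (x + t * (y - x)) - (f x + t * (f y - f x)) := fun v hv => hmax hv
  have hM : f (x + t * (y - x)) - (f x + t * (f y - f x)) ≤ 0 := by
    by_contra hpos
    rw [not_le] at hpos
    rcases le_total t (1 / 2) with hle | hge
    · have hv : 2 * t ∈ Icc (0 : ℝ) 1 := ⟨by linarith [ht.1], by linarith⟩
      have h2 := hmidh 0 (2 * t)
      have e : (0 + 2 * t) / 2 = t := by ring
      rw [e] at h2
      have h3 := hmax' _ hv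
      simp only [zero_mul, add_zero] at h2
      linarith
    · have hv : 2 * t - 1 ∈ Icc (0 : ℝ) 1 := ⟨by linarith, by linarith [ht.2]⟩
      have h2 := hmidh (2 * t - 1) 1
      have e : (2 * t - 1 + 1) / 2 = t := by ring
      rw [e] at h2
      have h3 := hmax' _ hv
      have e1 : x + 1 * (y - x) = y := by ring
      rw [e1] at h2
      linarith
  have hb1 : b ∈ Icc (0 : ℝ) 1 := ⟨hb, by linarith⟩
  have hfin := (hmax' b hb1).trans hM
  have ea : a = 1 - b := by linarith
  subst ea
  have e : (1 - b) • x + b • y = x + b * (y - x) := by simp only [smul_eq_mul]; ring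
  rw [e]
  simp only [smul_eq_mul]
  linarith

/-- A continuous, positive function satisfying the four-point inequality is log-concave:
`-log R` is convex. -/
theorem convexOn_neg_log_of_fp {R : ℝ → ℝ} (hc : Continuous R) (hpos : ∀ w, 0 < R w)
    (hFP : FP R) : ConvexOn ℝ univ (fun w => -Real.log (R w)) := by
  refine convexOn_of_midpoint ?_ ?_
  · exact (hc.log (fun w => (hpos w).ne')).neg
  · intro x y
    have key : R x * R y ≤ R ((x + y) / 2) * R ((x + y) / 2) := by
      rcases le_total x y with hxy | hyx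
      · exact hFP.four (by linarith) le_rfl (by ring)
      · have := hFP.four (p := y) (q := (x + y) / 2) (r := (x + y) / 2) (s := x)
          (by linarith) le_rfl (by ring)
        linarith [mul_comm (R x) (R y)]
    have hlog := Real.log_le_log (mul_pos (hpos x) (hpos y)) key
    rw [Real.log_mul (hpos x).ne' (hpos y).ne',
      Real.log_mul (hpos _).ne' (hpos _).ne'] at hlog
    linarith

end Crest.Agent.Lib_helper1_FP
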