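import Mathlib
import Crest.Agent.Lib_S0423_Defs
import Crest.Agent.Lib_helper1_FP
import Crest.Agent.Lib_S0423_A3

/-!
Part [B] of the proof of S0423: regularity and log-concavity of the survival function
`surv a` of `∑ a_i X_i` (`X_i` i.i.d. standard exponential).

Everything is obtained from the recursion [A3] (integrating out one coordinate) and the base
case [A4] through a one-dimensional smoothing operator `E a f w = ∫_0^∞ f (w - a x) e^{-x} dx`.
-/

set_option autoImplicit false

namespace Crest.Agent.Lib_S0423_B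

open MeasureTheory Set Filter Topology Crest.Agent.Lib_S0423_Defs

/-- The one-dimensional smoothing operator: `E a f w = ∫_0^∞ f (w - a x) e^{-x} dx`. -/
noncomputable def E (a : ℝ) (f : ℝ → ℝ) (w : ℝ) : ℝ :=
  ∫ x in Ioi (0 : ℝ), f (w - a * x) * Real.exp (-x)

/-- Antitone functions with values in `[0, 1]`. -/
structure Good (f : ℝ → ℝ) : Prop where
  anti : Antitone f
  nonneg : ∀ w, 0 ≤ f w
  le_one : ∀ w, f w ≤ 1

theorem Good.measurable {f : ℝ → ℝ} (hf : Good f) : Measurable f := hf.anti.measurable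

/-- Integrability of `x ↦ h x * e^{-x}` on `(0, ∞)` for measurable `h` with values in `[0, 1]`. -/
theorem integrableOn_mul_exp (h : ℝ → ℝ) (hm : Measurable h) (h0 : ∀ x, 0 ≤ h x)
    (h1 : ∀ x, h x ≤ 1) :
    IntegrableOn (fun x => h x * Real.exp (-x)) (Ioi (0 : ℝ)) := by
  refine Integrable.mono' (integrableOn_exp_neg_Ioi 0) ?_ ?_
  · exact (hm.mul (by fun_prop)).aestronglyMeasurable
  · filter_upwards with x
    rw [Real.norm_eq_abs, abs_of_nonneg (mul_nonneg (h0 _) (Real.exp_pos _).le)]
    exact mul_le_of_le_one_left (Real.exp_pos _).le (h1 _)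

theorem Good.integrableOn {f : ℝ → ℝ} (hf : Good f) (a w : ℝ) :
    IntegrableOn (fun x => f (w - a * x) * Real.exp (-x)) (Ioi (0 : ℝ)) :=
  integrableOn_mul_exp (fun x => f (w - a * x)) (hf.measurable.comp (by fun_prop))
    (fun _ => hf.nonneg _) (fun _ => hf.le_one _)

theorem norm_mul_exp_le {f : ℝ → ℝ} (hf : Good f) (v x : ℝ) :
    ‖f v * Real.exp (-x)‖ ≤ Real.exp (-x) := by
  rw [Real.norm_eq_abs, abs_of_nonneg (mul_nonneg (hf.nonneg _) (Real.exp_pos _).le)]
  exact mul_le_of_le_one_left (Real.exp_pos _).le (hf.le_one _)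

/-- `E a` preserves the class `Good`. -/
theorem E_good {f : ℝ → ℝ} (hf : Good f) (a : ℝ) : Good (E a f) where
  anti := by
    intro w w' hww'
    unfold E
    apply setIntegral_mono (hf.integrableOn a w') (hf.integrableOn a w)
    intro x
    exact mul_le_mul_of_nonneg_right (hf.anti (by linarith)) (Real.exp_pos _).le
  nonneg := fun w =>
    setIntegral_nonneg measurableSet_Ioi
      (fun x _ => mul_nonneg (hf.nonneg _) (Real.exp_pos _).le)
  le_one := by
    intro w
    calc E a f w ≤ ∫ x in Ioi (0 : ℝ), Real.exp (-x) := by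
          apply setIntegral_mono (hf.integrableOn a w) (integrableOn_exp_neg_Ioi 0)
          intro x
          exact mul_le_of_le_one_left (Real.exp_pos _).le (hf.le_one _)
      _ = 1 := integral_exp_neg_Ioi_zero

/-- Positivity of `∫_0^∞ h x e^{-x} dx` when `h ≥ 0` is positive on some interval `(p, q)`. -/
theorem integral_mul_exp_pos (h : ℝ → ℝ) (hm : Measurable h) (h0 : ∀ x, 0 ≤ h x)
    (h1 : ∀ x, h x ≤ 1) (p q : ℝ) (hp : 0 ≤ p) (hpq : p < q)
    (hpos : ∀ x, p < x → x < q → 0 < h x) :
    0 < ∫ x in Ioi (0 : ℝ), h x * Real.exp (-x) := by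
  rw [setIntegral_pos_iff_support_of_nonneg_ae]
  · have hsub : Ioo p q ⊆ Function.support (fun x => h x * Real.exp (-x)) ∩ Ioi 0 := by
      intro x hx
      refine ⟨?_, lt_of_le_of_lt hp hx.1⟩
      simp only [Function.mem_support]
      exact (mul_pos (hpos x hx.1 hx.2) (Real.exp_pos _)).ne'
    refine lt_of_lt_of_le ?_ (measure_mono hsub)
    simp [hpq]
  · filter_upwards with x
    exact mul_nonneg (h0 x) (Real.exp_pos _).le
  · exact integrableOn_mul_exp h hm h0 h1

/-- `1 - E a f w` as an integral. -/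
theorem one_sub_E {f : ℝ → ℝ} (hf : Good f) (a w : ℝ) :
    1 - E a f w = ∫ x in Ioi (0 : ℝ), (1 - f (w - a * x)) * Real.exp (-x) := by
  have h : ∫ x in Ioi (0 : ℝ), (1 - f (w - a * x)) * Real.exp (-x)
      = (∫ x in Ioi (0 : ℝ), Real.exp (-x))
        - ∫ x in Ioi (0 : ℝ), f (w - a * x) * Real.exp (-x) := by
    rw [← integral_sub (integrableOn_exp_neg_Ioi 0) (hf.integrableOn a w)]
    congr 1
    ext x
    ring
  rw [h, integral_exp_neg_Ioi_zero]
  rfl

/-! ### Positivity -/

theorem E_pos_of_pos {f : ℝ → ℝ} (hf : Good f) (hpos : ∀ w, 0 < f w) (a w : ℝ) :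
    0 < E a f w :=
  integral_mul_exp_pos (fun x => f (w - a * x)) (hf.measurable.comp (by fun_prop))
    (fun _ => hf.nonneg _) (fun _ => hf.le_one _) 0 1 le_rfl one_pos (fun _ _ _ => hpos _)

theorem E_exists_pos {f : ℝ → ℝ} (hf : Good f) (hpos : ∃ w₀, 0 < f w₀) (a : ℝ) :
    ∃ w₀, 0 < E a f w₀ := by
  obtain ⟨w₀, hw₀⟩ := hpos
  refine ⟨w₀ - |a|, integral_mul_exp_pos (fun x => f (w₀ - |a| - a * x))
    (hf.measurable.comp (by fun_prop)) (fun _ => hf.nonneg _) (fun _ => hf.le_one _) 0 1 le_rfl
    one_pos (fun x hx0 hx1 => lt_of_lt_of_le hw₀ (hf.anti ?_))⟩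
  nlinarith [mul_nonneg (show 0 ≤ |a| + a by linarith [neg_abs_le a]) hx0.le,
    mul_nonneg (abs_nonneg a) (show 0 ≤ 1 - x by linarith)]

theorem E_pos_of_exists {f : ℝ → ℝ} (hf : Good f) (hpos : ∃ w₀, 0 < f w₀) {a : ℝ} (ha : 0 < a)
    (w : ℝ) : 0 < E a f w := by
  obtain ⟨w₀, hw₀⟩ := hpos
  refine integral_mul_exp_pos (fun x => f (w - a * x)) (hf.measurable.comp (by fun_prop))
    (fun _ => hf.nonneg _) (fun _ => hf.le_one _) (max 0 ((w - w₀) / a))
    (max 0 ((w - w₀) / a) + 1) (le_max_left _ _) (by linarith)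
    (fun x hx _ => lt_of_lt_of_le hw₀ (hf.anti ?_))
  have h1 : (w - w₀) / a < x := lt_of_le_of_lt (le_max_right _ _) hx
  rw [div_lt_iff₀ ha] at h1
  linarith

/-! ### Strictly below one -/

theorem E_lt_one_of_lt_one {f : ℝ → ℝ} (hf : Good f) (hlt : ∀ w, f w < 1) (a w : ℝ) :
    E a f w < 1 := by
  have h := integral_mul_exp_pos (fun x => 1 - f (w - a * x))
    (measurable_const.sub (hf.measurable.comp (by fun_prop)))
    (fun _ => sub_nonneg.mpr (hf.le_one _)) (fun x => by linarith [hf.nonneg (w - a * x)]) 0 1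
    le_rfl one_pos (fun _ _ _ => sub_pos.mpr (hlt _))
  rw [← one_sub_E hf] at h
  linarith

theorem E_exists_lt_one {f : ℝ → ℝ} (hf : Good f) (hlt : ∃ w₁, f w₁ < 1) (a : ℝ) :
    ∃ w₁, E a f w₁ < 1 := by
  obtain ⟨w₁, hw₁⟩ := hlt
  refine ⟨w₁ + |a|, ?_⟩
  have h := integral_mul_exp_pos (fun x => 1 - f (w₁ + |a| - a * x))
    (measurable_const.sub (hf.measurable.comp (by fun_prop)))
    (fun _ => sub_nonneg.mpr (hf.le_one _)) (fun x => by linarith [hf.nonneg (w₁ + |a| - a * x)])
    0 1 le_rfl one_pos (fun x hx0 hx1 => sub_pos.mpr (lt_of_le_of_lt (hf.anti ?_) hw₁))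
  · rw [← one_sub_E hf] at h
    linarith
  · nlinarith [mul_nonneg (show 0 ≤ |a| - a by linarith [le_abs_self a]) hx0.le,
      mul_nonneg (abs_nonneg a) (show 0 ≤ 1 - x by linarith)]

theorem E_lt_one_of_exists {f : ℝ → ℝ} (hf : Good f) (hlt : ∃ w₁, f w₁ < 1) {a : ℝ} (ha : a < 0)
    (w : ℝ) : E a f w < 1 := by
  obtain ⟨w₁, hw₁⟩ := hlt
  have h := integral_mul_exp_pos (fun x => 1 - f (w - a * x))
    (measurable_const.sub (hf.measurable.comp (by fun_prop)))
    (fun _ => sub_nonneg.mpr (hf.le_one _)) (fun x => by linarith [hf.nonneg (w - a * x)])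
    (max 0 ((w₁ - w) / (-a))) (max 0 ((w₁ - w) / (-a)) + 1) (le_max_left _ _) (by linarith)
    (fun x hx _ => sub_pos.mpr (lt_of_le_of_lt (hf.anti ?_) hw₁))
  · rw [← one_sub_E hf] at h
    linarith
  · have h1 : (w₁ - w) / (-a) < x := lt_of_le_of_lt (le_max_right _ _) hx
    rw [div_lt_iff₀ (by linarith)] at h1
    linarith

/-! ### Continuity -/

theorem E_continuous_of_ne {f : ℝ → ℝ} (hf : Good f) {a : ℝ} (ha : a ≠ 0) :
    Continuous (E a f) := by
  rw [continuous_iff_continuousAt]
  intro w₀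
  unfold E
  apply continuousAt_of_dominated (bound := fun x => Real.exp (-x))
  · filter_upwards with w
    exact (hf.integrableOn a w).aestronglyMeasurable
  · filter_upwards with w
    filter_upwards with x
    exact norm_mul_exp_le hf _ _
  · exact integrableOn_exp_neg_Ioi 0
  · have hcount : Set.Countable {v | ¬ ContinuousAt f v} := hf.anti.countable_not_continuousAt
    have hinj : Function.Injective (fun x : ℝ => w₀ - a * x) := by
      intro x y hxy
      have : a * x = a * y := by simpa using hxy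
      exact mul_left_cancel₀ ha this
    have hnull : volume ((fun x : ℝ => w₀ - a * x) ⁻¹' {v | ¬ ContinuousAt f v}) = 0 :=
      (hcount.preimage hinj).measure_zero volume
    apply ae_restrict_of_ae
    rw [ae_iff]
    refine measure_mono_null ?_ hnull
    intro x hx
    simp only [Set.mem_ofPred_eq, mem_preimage] at hx ⊢
    intro hcont
    apply hx
    have h2 : ContinuousAt (fun w : ℝ => f (w - a * x)) w₀ :=
      ContinuousAt.comp (f := fun w : ℝ => w - a * x) (g := f) hcont (by fun_prop)
    exact h2.mul continuousAt_const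

theorem E_continuous_of_continuous {f : ℝ → ℝ} (hf : Good f) (hc : Continuous f) (a : ℝ) :
    Continuous (E a f) := by
  unfold E
  apply continuous_of_dominated (bound := fun x => Real.exp (-x))
  · intro w
    exact (hf.integrableOn a w).aestronglyMeasurable
  · intro w
    filter_upwards with x
    exact norm_mul_exp_le hf _ _
  · exact integrableOn_exp_neg_Ioi 0
  · filter_upwards with x
    fun_prop

/-! ### The survival function

The two facts about `surv` that are used: the recursion [A3] (only for the coordinate `0`) and the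
base case [A4].  They are proved in `Lib_S0423_A3.lean`; here they are hypotheses, so that this
file does not depend on that one. -/

/-- Statement of [A3] for the coordinate `0`. -/
def RecStmt : Prop :=
  ∀ {N : ℕ} (a : Fin (N + 1) → ℝ) (w : ℝ),
    surv a w = ∫ x in Ioi (0 : ℝ), surv (fun i => a i.succ) (w - a 0 * x) * Real.exp (-x)

/-- Statement of [A4]. -/
def BaseStmt : Prop :=
  ∀ (a : Fin 0 → ℝ) (w : ℝ), surv a w = if w < 0 then 1 else 0

theorem good_base : Good (fun w : ℝ => if w < 0 then (1 : ℝ) else 0) where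
  anti := by
    intro w w' hww'
    dsimp only
    split_ifs with h1 h2 <;> linarith
  nonneg := by
    intro w
    split_ifs <;> norm_num
  le_one := by
    intro w
    split_ifs <;> norm_num

section Surv

variable (h3 : RecStmt) (h4 : BaseStmt)

include h3 in
theorem surv_eq_E {N : ℕ} (a : Fin (N + 1) → ℝ) :
    surv a = E (a 0) (surv (fun i => a i.succ)) := by
  funext w
  exact h3 a w

include h4 in
theorem surv_zero_eq (a : Fin 0 → ℝ) : surv a = fun w => if w < 0 then (1 : ℝ) else 0 :=
  funext (h4 a)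

include h3 h4 in
theorem surv_good : ∀ {N : ℕ} (a : Fin N → ℝ), Good (surv a)
  | 0, a => by
      rw [surv_zero_eq h4]
      exact good_base
  | N + 1, a => by
      rw [surv_eq_E h3]
      exact E_good (surv_good _) _

include h3 h4 in
theorem surv_exists_pos : ∀ {N : ℕ} (a : Fin N → ℝ), ∃ w₀, 0 < surv a w₀
  | 0, a => by
      rw [surv_zero_eq h4]
      exact ⟨-1, by norm_num⟩
  | N + 1, a => by
      rw [surv_eq_E h3]
      exact E_exists_pos (surv_good h3 h4 _) (surv_exists_pos _) _

include h3 h4 in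
theorem surv_exists_lt_one : ∀ {N : ℕ} (a : Fin N → ℝ), ∃ w₁, surv a w₁ < 1
  | 0, a => by
      rw [surv_zero_eq h4]
      exact ⟨0, by norm_num⟩
  | N + 1, a => by
      rw [surv_eq_E h3]
      exact E_exists_lt_one (surv_good h3 h4 _) (surv_exists_lt_one _) _

include h3 h4 in
theorem surv_pos : ∀ {N : ℕ} (a : Fin N → ℝ), (∃ i, 0 < a i) → ∀ w, 0 < surv a w
  | 0, a => fun h => absurd h (by simp)
  | N + 1, a => by
      intro h w
      rw [surv_eq_E h3]
      rcases Fin.exists_fin_succ.mp h with h0 | hs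
      · exact E_pos_of_exists (surv_good h3 h4 _) (surv_exists_pos h3 h4 _) h0 w
      · exact E_pos_of_pos (surv_good h3 h4 _) (surv_pos (fun i => a i.succ) hs) _ w

include h3 h4 in
theorem surv_lt_one : ∀ {N : ℕ} (a : Fin N → ℝ), (∃ i, a i < 0) → ∀ w, surv a w < 1
  | 0, a => fun h => absurd h (by simp)
  | N + 1, a => by
      intro h w
      rw [surv_eq_E h3]
      rcases Fin.exists_fin_succ.mp h with h0 | hs
      · exact E_lt_one_of_exists (surv_good h3 h4 _) (surv_exists_lt_one h3 h4 _) h0 w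
      · exact E_lt_one_of_lt_one (surv_good h3 h4 _) (surv_lt_one (fun i => a i.succ) hs) _ w

include h3 h4 in
theorem surv_continuous : ∀ {N : ℕ} (a : Fin N → ℝ), (∃ i, a i ≠ 0) → Continuous (surv a)
  | 0, a => fun h => absurd h (by simp)
  | N + 1, a => by
      intro h
      rw [surv_eq_E h3]
      by_cases h0 : a 0 = 0
      · rcases Fin.exists_fin_succ.mp h with h0' | hs
        · exact absurd h0 h0'
        · exact E_continuous_of_continuous (surv_good h3 h4 _)
            (surv_continuous (fun i => a i.succ) hs) _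
      · exact E_continuous_of_ne (surv_good h3 h4 _) h0

open Crest.Agent.Lib_helper1_FP in
include h3 h4 in
theorem surv_fp : ∀ {N : ℕ} (a : Fin N → ℝ), FP (surv a)
  | 0, a => by
      rw [surv_zero_eq h4]
      exact fp_indicator_Iio
  | N + 1, a => by
      rw [surv_eq_E h3]
      have hg := surv_good h3 h4 (fun i => a i.succ)
      exact fp_smooth hg.measurable hg.nonneg hg.le_one (surv_fp _) (a 0)

include h3 h4 in
/-- [B], given the recursion [A3] and the base case [A4]. -/
theorem surv_props_of {N : ℕ} (a : Fin N → ℝ) (hpos : ∃ i, 0 < a i) (hneg : ∃ i, a i < 0) :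
    Continuous (surv a) ∧ (∀ w, 0 < surv a w ∧ surv a w < 1) ∧ Antitone (surv a) ∧
      ConvexOn ℝ univ (fun w => -Real.log (surv a w)) := by
  have hc : Continuous (surv a) := surv_continuous h3 h4 a (hpos.imp fun i hi => hi.ne')
  have hp := surv_pos h3 h4 a hpos
  exact ⟨hc, fun w => ⟨hp w, surv_lt_one h3 h4 a hneg w⟩, (surv_good h3 h4 a).anti,
    Crest.Agent.Lib_helper1_FP.convexOn_neg_log_of_fp hc hp (surv_fp h3 h4 a)⟩

end Surv

theorem recStmt : RecStmt := fun a w => Crest.Agent.Lib_S0423_A3.surv_succAbove a 0 w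

theorem baseStmt : BaseStmt := fun a w => Crest.Agent.Lib_S0423_A3.surv_zero a w

/-- [B]: regularity and log-concavity of the survival function (Plan statement, verbatim). -/
theorem surv_props {N : ℕ} (a : Fin N → ℝ) (hpos : ∃ i, 0 < a i) (hneg : ∃ i, a i < 0) :
    Continuous (surv a) ∧ (∀ w, 0 < surv a w ∧ surv a w < 1) ∧ Antitone (surv a) ∧
      ConvexOn ℝ univ (fun w => -Real.log (surv a w)) :=
  surv_props_of recStmt baseStmt a hpos hneg

end Crest.Agent.Lib_S0423_B
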