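import Mathlib
import Crest.Agent.Lib_S0423_Defs

/-!
Part C of S0423: the one-dimensional theorem.  If `R` is a continuous, positive, antitone,
log-concave survival function (`0 < R < 1`) of a mean-zero law, then
`Phi R = ∫_0^∞ R(s - 4/3) s e^{-s} ds ≥ (4/9) e^{-1/3}`.
-/

set_option autoImplicit false

namespace Crest.Agent.Lib_S0423_C1

open MeasureTheory Set Filter Topology Crest.Agent.Lib_S0423_Defs

/-! ### The weight `s e^{-s}` -/

lemma mul_exp_neg_le (y : ℝ) : y * Real.exp (-y) ≤ Real.exp (-1) := by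
  have h := Real.add_one_le_exp (y - 1)
  have h2 : y * Real.exp (-y) ≤ Real.exp (y - 1) * Real.exp (-y) :=
    mul_le_mul_of_nonneg_right (by linarith) (Real.exp_pos _).le
  calc y * Real.exp (-y) ≤ Real.exp (y - 1) * Real.exp (-y) := h2
    _ = Real.exp (-1) := by rw [← Real.exp_add]; ring_nf

/-- `y e^{-y}` is nondecreasing on `[0,1]`. -/
lemma ye_mono {y₁ y₂ : ℝ} (h12 : y₁ ≤ y₂) (h2 : y₂ ≤ 1) (h0 : 0 ≤ y₂) :
    y₁ * Real.exp (-y₁) ≤ y₂ * Real.exp (-y₂) := by
  have hd : 0 ≤ y₂ - y₁ := by linarith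
  have h1 : Real.exp (-y₂) = Real.exp (-(y₂ - y₁)) * Real.exp (-y₁) := by
    rw [← Real.exp_add]; ring_nf
  have h3 : 1 - (y₂ - y₁) ≤ Real.exp (-(y₂ - y₁)) := by
    have := Real.add_one_le_exp (-(y₂ - y₁)); linarith
  have h4 : y₁ ≤ y₂ * Real.exp (-(y₂ - y₁)) := by
    have : y₂ * (1 - (y₂ - y₁)) ≤ y₂ * Real.exp (-(y₂ - y₁)) := mul_le_mul_of_nonneg_left h3 h0
    nlinarith
  rw [h1, ← mul_assoc]
  exact mul_le_mul_of_nonneg_right h4 (Real.exp_pos _).le

/-- `y e^{-y}` is nonincreasing on `[1,∞)`. -/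
lemma ye_anti {y₁ y₂ : ℝ} (h1 : 1 ≤ y₁) (h12 : y₁ ≤ y₂) :
    y₂ * Real.exp (-y₂) ≤ y₁ * Real.exp (-y₁) := by
  have hd : 0 ≤ y₂ - y₁ := by linarith
  have he : Real.exp (-y₂) = Real.exp (-(y₂ - y₁)) * Real.exp (-y₁) := by
    rw [← Real.exp_add]; ring_nf
  have h3 : (1 + (y₂ - y₁)) * Real.exp (-(y₂ - y₁)) ≤ 1 := by
    have h := Real.add_one_le_exp (y₂ - y₁)
    have hpos := Real.exp_pos (-(y₂ - y₁))
    calc (1 + (y₂ - y₁)) * Real.exp (-(y₂ - y₁))
        ≤ Real.exp (y₂ - y₁) * Real.exp (-(y₂ - y₁)) :=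
          mul_le_mul_of_nonneg_right (by linarith) hpos.le
      _ = 1 := by rw [← Real.exp_add]; simp
  have h4 : y₂ * Real.exp (-(y₂ - y₁)) ≤ y₁ := by
    have hpos := Real.exp_pos (-(y₂ - y₁))
    have : y₂ ≤ y₁ * (1 + (y₂ - y₁)) := by nlinarith
    calc y₂ * Real.exp (-(y₂ - y₁)) ≤ y₁ * (1 + (y₂ - y₁)) * Real.exp (-(y₂ - y₁)) :=
          mul_le_mul_of_nonneg_right this hpos.le
      _ = y₁ * ((1 + (y₂ - y₁)) * Real.exp (-(y₂ - y₁))) := by ring
      _ ≤ y₁ * 1 := mul_le_mul_of_nonneg_left h3 (by linarith)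
      _ = y₁ := by ring
  rw [he, ← mul_assoc]
  exact mul_le_mul_of_nonneg_right h4 (Real.exp_pos _).le

/-- The weight `s e^{-s}` on `s > 0`, extended by `0`. -/
noncomputable def om (s : ℝ) : ℝ := if 0 < s then s * Real.exp (-s) else 0

lemma om_nonneg (s : ℝ) : 0 ≤ om s := by
  unfold om; split_ifs with h
  · exact mul_nonneg h.le (Real.exp_pos _).le
  · exact le_rfl

lemma om_le (s : ℝ) : om s ≤ Real.exp (-1) := by
  unfold om; split_ifs with h
  · exact mul_exp_neg_le s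
  · exact (Real.exp_pos _).le

lemma measurable_om : Measurable om := by
  unfold om
  exact Measurable.ite measurableSet_Ioi (by fun_prop) measurable_const

/-! ### The level pairs `yp σ < 1 < yr σ` with `yp e^{-yp} = yr e^{-yr}` -/

noncomputable def yp (σ : ℝ) : ℝ := σ / (Real.exp σ - 1)
noncomputable def yr (σ : ℝ) : ℝ := yp σ + σ
noncomputable def lev (σ : ℝ) : ℝ := yp σ * Real.exp (-yp σ)

lemma exp_sub_one_pos {σ : ℝ} (hσ : 0 < σ) : 0 < Real.exp σ - 1 := by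
  have := Real.add_one_lt_exp hσ.ne'; linarith

lemma yp_pos {σ : ℝ} (hσ : 0 < σ) : 0 < yp σ := div_pos hσ (exp_sub_one_pos hσ)

lemma yp_lt_one {σ : ℝ} (hσ : 0 < σ) : yp σ < 1 := by
  unfold yp
  rw [div_lt_one (exp_sub_one_pos hσ)]
  have := Real.add_one_lt_exp hσ.ne'; linarith

lemma yr_eq {σ : ℝ} (hσ : 0 < σ) : yr σ = yp σ * Real.exp σ := by
  unfold yr yp
  have := (exp_sub_one_pos hσ).ne'
  field_simp
  ring

lemma one_lt_yr {σ : ℝ} (hσ : 0 < σ) : 1 < yr σ := by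
  rw [yr_eq hσ]
  unfold yp
  rw [div_mul_eq_mul_div, lt_div_iff₀ (exp_sub_one_pos hσ)]
  have h := Real.add_one_lt_exp (show -σ ≠ 0 by linarith)
  have hpos := Real.exp_pos σ
  have h2 : Real.exp σ * Real.exp (-σ) = 1 := by rw [← Real.exp_add]; simp
  nlinarith

lemma lev_eq_yr {σ : ℝ} (hσ : 0 < σ) : yr σ * Real.exp (-yr σ) = lev σ := by
  have h1 : Real.exp (-yr σ) = Real.exp (-yp σ) * Real.exp (-σ) := by
    rw [← Real.exp_add]; unfold yr; ring_nf
  have h2 : Real.exp σ * Real.exp (-σ) = 1 := by rw [← Real.exp_add]; simp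
  rw [h1, yr_eq hσ]
  unfold lev
  calc yp σ * Real.exp σ * (Real.exp (-yp σ) * Real.exp (-σ))
      = yp σ * Real.exp (-yp σ) * (Real.exp σ * Real.exp (-σ)) := by ring
    _ = yp σ * Real.exp (-yp σ) := by rw [h2]; ring

lemma lev_pos {σ : ℝ} (hσ : 0 < σ) : 0 < lev σ := mul_pos (yp_pos hσ) (Real.exp_pos _)

lemma lev_le_om {σ s : ℝ} (hσ : 0 < σ) (h1 : yp σ ≤ s) (h2 : s ≤ yr σ) : lev σ ≤ om s := by
  have hs : 0 < s := lt_of_lt_of_le (yp_pos hσ) h1
  unfold om; rw [if_pos hs]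
  rcases le_total s 1 with h | h
  · exact ye_mono h1 h hs.le
  · rw [← lev_eq_yr hσ]; exact ye_anti h h2

lemma om_le_lev {σ s : ℝ} (hσ : 0 < σ) (h : s ≤ yp σ ∨ yr σ ≤ s) : om s ≤ lev σ := by
  unfold om
  split_ifs with hs
  · rcases h with h | h
    · exact ye_mono h (yp_lt_one hσ).le (yp_pos hσ).le
    · rw [← lev_eq_yr hσ]; exact ye_anti (one_lt_yr hσ).le h
  · exact (lev_pos hσ).le

/-! ### Integrals of `s e^{-λ s}` -/

lemma hasDerivAt_aux (lam : ℝ) (hlam : 0 < lam) (s : ℝ) :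
    HasDerivAt (fun s => -(Real.exp (-(lam * s)) * (s / lam + 1 / lam ^ 2)))
      (s * Real.exp (-(lam * s))) s := by
  have hne : lam ≠ 0 := hlam.ne'
  have h0 : HasDerivAt (fun s : ℝ => -(lam * s)) (-lam) s := by
    have h := (hasDerivAt_id s).const_mul (-lam)
    simp only [mul_one, id, neg_mul] at h
    exact h
  have h1 : HasDerivAt (fun s : ℝ => Real.exp (-(lam * s))) (Real.exp (-(lam * s)) * (-lam)) s :=
    h0.exp
  have h2 : HasDerivAt (fun s : ℝ => s / lam + 1 / lam ^ 2) (1 / lam) s := by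
    simpa using ((hasDerivAt_id s).div_const lam).add_const (1 / lam ^ 2)
  have h3 : HasDerivAt (fun s => -(Real.exp (-(lam * s)) * (s / lam + 1 / lam ^ 2)))
      (-(Real.exp (-(lam * s)) * -lam * (s / lam + 1 / lam ^ 2)
        + Real.exp (-(lam * s)) * (1 / lam))) s := (h1.mul h2).neg
  refine h3.congr_deriv ?_
  field_simp
  ring

lemma integral_mul_exp (lam : ℝ) (hlam : 0 < lam) (s₀ : ℝ) (hs : 0 ≤ s₀) :
    IntegrableOn (fun s => s * Real.exp (-(lam * s))) (Ioi s₀) ∧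
      ∫ s in Ioi s₀, s * Real.exp (-(lam * s)) =
        Real.exp (-(lam * s₀)) * (s₀ / lam + 1 / lam ^ 2) := by
  have hderiv : ∀ x ∈ Ici s₀, HasDerivAt
      (fun s => -(Real.exp (-(lam * s)) * (s / lam + 1 / lam ^ 2)))
      (x * Real.exp (-(lam * x))) x := fun x _ => hasDerivAt_aux lam hlam x
  have hpos : ∀ x ∈ Ioi s₀, 0 ≤ x * Real.exp (-(lam * x)) := fun x hx =>
    mul_nonneg (le_trans hs (le_of_lt hx)) (Real.exp_pos _).le
  have htend : Tendsto (fun s => -(Real.exp (-(lam * s)) * (s / lam + 1 / lam ^ 2)))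
      atTop (𝓝 0) := by
    have h1 := tendsto_rpow_mul_exp_neg_mul_atTop_nhds_zero 1 lam hlam
    have h0 := tendsto_rpow_mul_exp_neg_mul_atTop_nhds_zero 0 lam hlam
    simp only [Real.rpow_one, Real.rpow_zero, one_mul, neg_mul] at h1 h0
    have := ((h1.div_const lam).add (h0.div_const (lam ^ 2))).neg
    simp only [zero_div, add_zero, neg_zero] at this
    refine this.congr (fun s => ?_)
    ring
  refine ⟨integrableOn_Ioi_deriv_of_nonneg' hderiv hpos htend, ?_⟩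
  rw [integral_Ioi_of_hasDerivAt_of_nonneg' hderiv hpos htend]
  ring

lemma om_eq_indicator : om = indicator (Ioi 0) (fun s => s * Real.exp (-s)) := by
  funext s
  by_cases h : 0 < s <;> simp [om, indicator, h]

lemma integrable_om : Integrable om := by
  rw [om_eq_indicator, integrable_indicator_iff measurableSet_Ioi]
  have := (integral_mul_exp 1 one_pos 0 le_rfl).1
  simpa using this

lemma Phi_eq (R : ℝ → ℝ) : Phi R = ∫ s, R (s - 4 / 3) * om s := by
  unfold Phi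
  rw [← integral_indicator measurableSet_Ioi]
  congr 1
  funext s
  by_cases h : 0 < s <;> simp [om, indicator, h]

lemma integrable_mul_om (R : ℝ → ℝ) (hR : Measurable R) (hb : ∀ w, |R w| ≤ 1) :
    Integrable (fun s => R (s - 4 / 3) * om s) := by
  refine integrable_om.bdd_mul (c := 1) ?_ ?_
  · exact (hR.comp (measurable_id.sub_const _)).aestronglyMeasurable
  · exact Filter.Eventually.of_forall (fun s => by simpa [Real.norm_eq_abs] using hb (s - 4 / 3))

/-! ### Exponential survival functions -/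

/-- Survival function of `m + X/β`, `X` a mean-one exponential: `min 1 (e^{-β (w - m)})`. -/
noncomputable def Rh (m β w : ℝ) : ℝ := Real.exp (-(β * max (w - m) 0))

lemma Rh_pos (m β w : ℝ) : 0 < Rh m β w := Real.exp_pos _

lemma Rh_le_one {β : ℝ} (hβ : 0 ≤ β) (m w : ℝ) : Rh m β w ≤ 1 := by
  unfold Rh
  rw [Real.exp_le_one_iff]
  have : 0 ≤ β * max (w - m) 0 := mul_nonneg hβ (le_max_right _ _)
  linarith

lemma Rh_abs_le {β : ℝ} (hβ : 0 ≤ β) (m w : ℝ) : |Rh m β w| ≤ 1 := by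
  rw [abs_of_pos (Rh_pos m β w)]; exact Rh_le_one hβ m w

lemma continuous_Rh (m β : ℝ) : Continuous (Rh m β) := by
  unfold Rh; fun_prop

lemma Rh_of_le {m β w : ℝ} (h : w ≤ m) : Rh m β w = 1 := by
  unfold Rh
  rw [max_eq_right (by linarith)]; simp

lemma Rh_of_ge {m β w : ℝ} (h : m ≤ w) : Rh m β w = Real.exp (-(β * (w - m))) := by
  unfold Rh
  rw [max_eq_left (by linarith)]

lemma Rh_mono {β : ℝ} (hβ : 0 ≤ β) {m m' : ℝ} (h : m' ≤ m) (w : ℝ) : Rh m' β w ≤ Rh m β w := by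
  unfold Rh
  rw [Real.exp_le_exp]
  have : max (w - m) 0 ≤ max (w - m') 0 := max_le_max (by linarith) le_rfl
  have := mul_le_mul_of_nonneg_left this hβ
  linarith

/-- Mean of the exponential law (in survival form), for location `m ≤ 0`. -/
lemma Rh_mean {m β : ℝ} (hβ : 0 < β) (hm : m ≤ 0) :
    IntegrableOn (Rh m β) (Ioi 0) ∧ IntegrableOn (fun w => 1 - Rh m β w) (Iic 0) ∧
      (∫ w in Ioi (0 : ℝ), Rh m β w) - (∫ w in Iic (0 : ℝ), (1 - Rh m β w)) = m + 1 / β := by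
  have hβne : β ≠ 0 := hβ.ne'
  -- on `Ioi 0`
  have hEq1 : EqOn (Rh m β) (fun w => Real.exp (β * m) * Real.exp (-β * w)) (Ioi 0) := by
    intro w hw
    have hw' : m ≤ w := le_trans hm (le_of_lt hw)
    simp only [Rh_of_ge hw']
    rw [← Real.exp_add]; ring_nf
  have hI1 : IntegrableOn (fun w => Real.exp (β * m) * Real.exp (-β * w)) (Ioi 0) :=
    (integrableOn_exp_mul_Ioi (neg_lt_zero.mpr hβ) 0).const_mul _
  have hint1 : IntegrableOn (Rh m β) (Ioi 0) := hI1.congr_fun hEq1.symm measurableSet_Ioi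
  have hval1 : ∫ w in Ioi (0 : ℝ), Rh m β w = Real.exp (β * m) / β := by
    rw [setIntegral_congr_fun measurableSet_Ioi hEq1, integral_const_mul,
      integral_exp_mul_Ioi (neg_lt_zero.mpr hβ) 0]
    simp only [mul_zero, Real.exp_zero]
    field_simp
  -- on `Iic 0`
  have hcont : Continuous (fun w => 1 - Rh m β w) := continuous_const.sub (continuous_Rh m β)
  have hzero : EqOn (fun w => 1 - Rh m β w) (fun _ => (0 : ℝ)) (Iic m) := by
    intro w hw
    simp only [Rh_of_le (mem_Iic.mp hw), sub_self]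
  have hintA : IntegrableOn (fun w => 1 - Rh m β w) (Iic m) :=
    (integrableOn_zero : IntegrableOn (fun _ : ℝ => (0 : ℝ)) (Iic m) volume).congr_fun
      hzero.symm measurableSet_Iic
  have hintB : IntegrableOn (fun w => 1 - Rh m β w) (Ioc m 0) :=
    (hcont.continuousOn.integrableOn_Icc).mono_set Ioc_subset_Icc_self
  have hint2 : IntegrableOn (fun w => 1 - Rh m β w) (Iic 0) := by
    rw [← Iic_union_Ioc_eq_Iic hm]
    exact hintA.union hintB
  have hval2 : ∫ w in Iic (0 : ℝ), (1 - Rh m β w) = Real.exp (β * m) / β - m - 1 / β := by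
    rw [← Iic_union_Ioc_eq_Iic hm,
      setIntegral_union (Iic_disjoint_Ioc le_rfl) measurableSet_Ioc hintA hintB,
      setIntegral_congr_fun measurableSet_Iic hzero]
    simp only [integral_zero, zero_add]
    rw [← intervalIntegral.integral_of_le hm]
    have hderiv : ∀ x ∈ uIcc m 0, HasDerivAt (fun w => w + Real.exp (-(β * (w - m))) / β)
        (1 - Real.exp (-(β * (x - m)))) x := by
      intro x _
      have h0 : HasDerivAt (fun w : ℝ => -(β * (w - m))) (-β) x := by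
        have h := ((hasDerivAt_id x).sub_const m).const_mul (-β)
        simp only [mul_one, id, neg_mul] at h
        exact h
      have h1 : HasDerivAt (fun w : ℝ => Real.exp (-(β * (w - m))))
          (Real.exp (-(β * (x - m))) * (-β)) x := h0.exp
      have h2 : HasDerivAt (fun w => w + Real.exp (-(β * (w - m))) / β)
          (1 + Real.exp (-(β * (x - m))) * (-β) / β) x := (hasDerivAt_id x).add (h1.div_const β)
      refine h2.congr_deriv ?_
      field_simp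
      ring
    have hEq : ∀ x ∈ uIcc m 0, (1 - Rh m β x) = 1 - Real.exp (-(β * (x - m))) := by
      intro x hx
      rw [uIcc_of_le hm] at hx
      rw [Rh_of_ge hx.1]
    rw [intervalIntegral.integral_congr hEq,
      intervalIntegral.integral_eq_sub_of_hasDerivAt hderiv
        ((by fun_prop : Continuous (fun x : ℝ => 1 - Real.exp (-(β * (x - m))))).intervalIntegrable _ _)]
    simp only [sub_self, mul_zero, neg_zero, Real.exp_zero, zero_add, zero_sub]
    have : -(β * -m) = β * m := by ring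
    rw [this]
    ring
  refine ⟨hint1, hint2, ?_⟩
  rw [hval1, hval2]
  ring

/-! ### Differences of survival functions -/

lemma integral_sub_eq (S₁ S₂ : ℝ → ℝ) (h1 : IntegrableOn S₁ (Ioi 0))
    (h1' : IntegrableOn (fun w => 1 - S₁ w) (Iic 0)) (h2 : IntegrableOn S₂ (Ioi 0))
    (h2' : IntegrableOn (fun w => 1 - S₂ w) (Iic 0)) :
    Integrable (fun w => S₁ w - S₂ w) ∧
      ∫ w, (S₁ w - S₂ w) =
        ((∫ w in Ioi (0 : ℝ), S₁ w) - ∫ w in Iic (0 : ℝ), (1 - S₁ w)) -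
          ((∫ w in Ioi (0 : ℝ), S₂ w) - ∫ w in Iic (0 : ℝ), (1 - S₂ w)) := by
  have hA : IntegrableOn (fun w => S₁ w - S₂ w) (Ioi 0) := h1.sub h2
  have hB : IntegrableOn (fun w => S₁ w - S₂ w) (Iic 0) := by
    have : (fun w => S₁ w - S₂ w) = fun w => (1 - S₂ w) - (1 - S₁ w) := by funext w; ring
    rw [this]; exact h2'.sub h1'
  have hint : Integrable (fun w => S₁ w - S₂ w) := by
    rw [← integrableOn_univ, ← Iic_union_Ioi (a := (0 : ℝ))]
    exact hB.union hA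
  refine ⟨hint, ?_⟩
  rw [← intervalIntegral.integral_Iic_add_Ioi hB hA]
  have e1 : ∫ w in Ioi (0 : ℝ), (S₁ w - S₂ w) = (∫ w in Ioi (0 : ℝ), S₁ w) - ∫ w in Ioi (0 : ℝ), S₂ w :=
    integral_sub h1 h2
  have e2 : ∫ w in Iic (0 : ℝ), (S₁ w - S₂ w) =
      (∫ w in Iic (0 : ℝ), (1 - S₂ w)) - ∫ w in Iic (0 : ℝ), (1 - S₁ w) := by
    rw [← integral_sub h2' h1']
    congr 1; funext w; ring
  rw [e1, e2]; ring

/-- The weighted comparison: if `(R - S)(om - ℓ) ≥ 0` pointwise then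
`Phi R - Phi S ≥ ℓ ∫ (R - S)`. -/
lemma Phi_sub_ge (R S : ℝ → ℝ) (ℓ : ℝ) (hRm : Measurable R) (hSm : Measurable S)
    (hRb : ∀ w, |R w| ≤ 1) (hSb : ∀ w, |S w| ≤ 1)
    (hint : Integrable (fun w => R w - S w))
    (hpt : ∀ s, 0 ≤ (R (s - 4 / 3) - S (s - 4 / 3)) * (om s - ℓ)) :
    ℓ * ∫ w, (R w - S w) ≤ Phi R - Phi S := by
  have hiR := integrable_mul_om R hRm hRb
  have hiS := integrable_mul_om S hSm hSb
  have hD : Integrable (fun s => R (s - 4 / 3) - S (s - 4 / 3)) := hint.comp_sub_right (4 / 3)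
  have hDeq : ∫ s, (R (s - 4 / 3) - S (s - 4 / 3)) = ∫ w, (R w - S w) :=
    integral_sub_right_eq_self (fun w => R w - S w) (4 / 3)
  have h0 : 0 ≤ ∫ s, (R (s - 4 / 3) - S (s - 4 / 3)) * (om s - ℓ) :=
    integral_nonneg hpt
  have hsplit : ∫ s, (R (s - 4 / 3) - S (s - 4 / 3)) * (om s - ℓ)
      = (Phi R - Phi S) - ℓ * ∫ w, (R w - S w) := by
    have e : (fun s => (R (s - 4 / 3) - S (s - 4 / 3)) * (om s - ℓ))
        = fun s => (R (s - 4 / 3) * om s - S (s - 4 / 3) * om s)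
            - ℓ * (R (s - 4 / 3) - S (s - 4 / 3)) := by
      funext s; ring
    have i1 : Integrable (fun s => R (s - 4 / 3) * om s - S (s - 4 / 3) * om s) := hiR.sub hiS
    have i2 : Integrable (fun s => ℓ * (R (s - 4 / 3) - S (s - 4 / 3))) := hD.const_mul ℓ
    rw [e, integral_sub i1 i2, integral_sub hiR hiS, integral_const_mul, hDeq, Phi_eq R, Phi_eq S]
  linarith

/-! ### `Phi` of exponential survival functions -/

lemma Phi_Rh_mono {β : ℝ} (hβ : 0 < β) {m m' : ℝ} (h : m' ≤ m) :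
    Phi (Rh m' β) ≤ Phi (Rh m β) := by
  rw [Phi_eq, Phi_eq]
  refine integral_mono (integrable_mul_om _ (continuous_Rh m' β).measurable (Rh_abs_le hβ.le m'))
    (integrable_mul_om _ (continuous_Rh m β).measurable (Rh_abs_le hβ.le m)) ?_
  intro s
  exact mul_le_mul_of_nonneg_right (Rh_mono hβ.le h _) (om_nonneg s)

lemma Phi_Rh_lip {β : ℝ} (hβ : 0 < β) {m m' : ℝ} (h : m' ≤ m) (hm : m ≤ 0) :
    Phi (Rh m β) - (m - m') * Real.exp (-1) ≤ Phi (Rh m' β) := by
  obtain ⟨a1, a2, a3⟩ := Rh_mean hβ hm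
  obtain ⟨b1, b2, b3⟩ := Rh_mean hβ (le_trans h hm)
  obtain ⟨hint, hval⟩ := integral_sub_eq (Rh m' β) (Rh m β) b1 b2 a1 a2
  have hpt : ∀ s, 0 ≤ (Rh m' β (s - 4 / 3) - Rh m β (s - 4 / 3)) * (om s - Real.exp (-1)) := by
    intro s
    exact mul_nonneg_of_nonpos_of_nonpos (by linarith [Rh_mono hβ.le h (s - 4 / 3)])
      (by linarith [om_le s])
  have := Phi_sub_ge (Rh m' β) (Rh m β) (Real.exp (-1)) (continuous_Rh m' β).measurable
    (continuous_Rh m β).measurable (Rh_abs_le hβ.le m') (Rh_abs_le hβ.le m) hint hpt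
  rw [hval, b3, a3] at this
  nlinarith [this]

/-- The centred exponential laws: `Phi ≥ (4/9) e^{-1/3}`. -/
lemma Phi_Rh_centered {β : ℝ} (hβ : 0 < β) :
    4 / 9 * Real.exp (-(1 / 3)) ≤ Phi (Rh (-(1 / β)) β) := by
  have hβne : β ≠ 0 := hβ.ne'
  have h1β : 0 < 1 + β := by linarith
  rcases le_total β (3 / 4) with hle | hge
  · -- regime `1/β ≥ 4/3`
    have hinv : 4 / 3 ≤ 1 / β := by
      rw [le_div_iff₀ hβ]; linarith
    have hEq : EqOn (fun s => Rh (-(1 / β)) β (s - 4 / 3) * (s * Real.exp (-s)))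
        (fun s => Real.exp (4 / 3 * β - 1) * (s * Real.exp (-((1 + β) * s)))) (Ioi 0) := by
      intro s hs
      have hs' : (0 : ℝ) < s := hs
      have hge : -(1 / β) ≤ s - 4 / 3 := by linarith
      simp only [Rh_of_ge hge]
      have e1 : -(β * (s - 4 / 3 - -(1 / β))) = (4 / 3 * β - 1) + -(β * s) := by
        field_simp; ring
      have e2 : -((1 + β) * s) = -(β * s) + -s := by ring
      rw [e1, e2, Real.exp_add, Real.exp_add]; ring
    have hval : Phi (Rh (-(1 / β)) β) = Real.exp (4 / 3 * β - 1) * (1 / (1 + β) ^ 2) := by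
      unfold Phi
      rw [setIntegral_congr_fun measurableSet_Ioi hEq, integral_const_mul,
        (integral_mul_exp (1 + β) h1β 0 le_rfl).2]
      simp
    rw [hval]
    -- `e^{2u} ≥ (1+u)^2` with `u = (2β - 1)/3`
    have hu : (2 * β - 1) / 3 + 1 ≤ Real.exp ((2 * β - 1) / 3) := Real.add_one_le_exp _
    have hupos : 0 < (2 * β - 1) / 3 + 1 := by linarith
    have hsq : ((2 * β - 1) / 3 + 1) ^ 2 ≤ Real.exp ((2 * β - 1) / 3) ^ 2 :=
      pow_le_pow_left₀ hupos.le hu 2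
    have hexp : Real.exp (4 / 3 * β - 1) = Real.exp (-(1 / 3)) * Real.exp ((2 * β - 1) / 3) ^ 2 := by
      rw [← Real.exp_nat_mul, ← Real.exp_add]; congr 1; push_cast; ring
    rw [hexp]
    have hpos := Real.exp_pos (-(1 / 3))
    have h3 : (4 : ℝ) / 9 * (1 + β) ^ 2 ≤ Real.exp ((2 * β - 1) / 3) ^ 2 := by
      have : ((2 * β - 1) / 3 + 1) ^ 2 = 4 / 9 * (1 + β) ^ 2 := by ring
      linarith
    have h4 : (4 : ℝ) / 9 ≤ Real.exp ((2 * β - 1) / 3) ^ 2 * (1 / (1 + β) ^ 2) := by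
      rw [mul_one_div, le_div_iff₀ (by positivity)]; exact h3
    calc 4 / 9 * Real.exp (-(1 / 3)) = Real.exp (-(1 / 3)) * (4 / 9) := by ring
      _ ≤ Real.exp (-(1 / 3)) * (Real.exp ((2 * β - 1) / 3) ^ 2 * (1 / (1 + β) ^ 2)) :=
          mul_le_mul_of_nonneg_left h4 hpos.le
      _ = Real.exp (-(1 / 3)) * Real.exp ((2 * β - 1) / 3) ^ 2 * (1 / (1 + β) ^ 2) := by ring
  · -- regime `1/β ≤ 4/3`
    have hinv : 1 / β ≤ 4 / 3 := by
      rw [div_le_iff₀ hβ]; linarith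
    set s₀ : ℝ := 4 / 3 - 1 / β with hs₀
    have hs₀nn : 0 ≤ s₀ := by rw [hs₀]; linarith
    have hEqA : EqOn (fun s => Rh (-(1 / β)) β (s - 4 / 3) * (s * Real.exp (-s)))
        (fun s => s * Real.exp (-(1 * s))) (Ioc 0 s₀) := by
      intro s hs
      have hle : s - 4 / 3 ≤ -(1 / β) := by have := hs.2; rw [hs₀] at this; linarith
      simp only [Rh_of_le hle, one_mul]
    have hEqB : EqOn (fun s => Rh (-(1 / β)) β (s - 4 / 3) * (s * Real.exp (-s)))
        (fun s => Real.exp (β * s₀) * (s * Real.exp (-((1 + β) * s)))) (Ioi s₀) := by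
      intro s hs
      have hs' : s₀ < s := hs
      have hge : -(1 / β) ≤ s - 4 / 3 := by rw [hs₀] at hs'; linarith
      simp only [Rh_of_ge hge]
      have e1 : -(β * (s - 4 / 3 - -(1 / β))) = β * s₀ + -(β * s) := by
        rw [hs₀]; field_simp; ring
      have e2 : -((1 + β) * s) = -(β * s) + -s := by ring
      rw [e1, e2, Real.exp_add, Real.exp_add]; ring
    obtain ⟨i0, v0⟩ := integral_mul_exp 1 one_pos 0 le_rfl
    obtain ⟨i1, v1⟩ := integral_mul_exp 1 one_pos s₀ hs₀nn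
    obtain ⟨i2, v2⟩ := integral_mul_exp (1 + β) h1β s₀ hs₀nn
    have iA : IntegrableOn (fun s => s * Real.exp (-(1 * s))) (Ioc 0 s₀) :=
      i0.mono_set Ioc_subset_Ioi_self
    have vA : ∫ s in Ioc 0 s₀, s * Real.exp (-(1 * s)) = 1 - Real.exp (-s₀) * (s₀ + 1) := by
      have hu := setIntegral_union (μ := volume) (f := fun s : ℝ => s * Real.exp (-(1 * s)))
        (Ioc_disjoint_Ioi le_rfl) measurableSet_Ioi iA i1
      rw [Ioc_union_Ioi_eq_Ioi hs₀nn, v0, v1] at hu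
      have e0 : Real.exp (-((1 : ℝ) * 0)) * (0 / 1 + 1 / 1 ^ 2) = 1 := by norm_num
      have e1 : Real.exp (-((1 : ℝ) * s₀)) * (s₀ / 1 + 1 / 1 ^ 2) = Real.exp (-s₀) * (s₀ + 1) := by
        norm_num
      rw [e0, e1] at hu
      linarith
    have jA : IntegrableOn (fun s => Rh (-(1 / β)) β (s - 4 / 3) * (s * Real.exp (-s))) (Ioc 0 s₀) :=
      iA.congr_fun hEqA.symm measurableSet_Ioc
    have jB0 : IntegrableOn (fun s => Real.exp (β * s₀) * (s * Real.exp (-((1 + β) * s))))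
        (Ioi s₀) := Integrable.const_mul i2 _
    have jB : IntegrableOn (fun s => Rh (-(1 / β)) β (s - 4 / 3) * (s * Real.exp (-s))) (Ioi s₀) :=
      jB0.congr_fun hEqB.symm measurableSet_Ioi
    have hval : Phi (Rh (-(1 / β)) β) =
        1 - Real.exp (-s₀) * (1 + s₀ - s₀ / (1 + β) - 1 / (1 + β) ^ 2) := by
      unfold Phi
      rw [← Ioc_union_Ioi_eq_Ioi hs₀nn,
        setIntegral_union (Ioc_disjoint_Ioi le_rfl) measurableSet_Ioi jA jB,
        setIntegral_congr_fun measurableSet_Ioc hEqA, setIntegral_congr_fun measurableSet_Ioi hEqB,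
        integral_const_mul, vA, v2]
      have e3 : Real.exp (β * s₀) * Real.exp (-((1 + β) * s₀)) = Real.exp (-s₀) := by
        rw [← Real.exp_add]; congr 1; ring
      calc 1 - Real.exp (-s₀) * (s₀ + 1) +
            Real.exp (β * s₀) * (Real.exp (-((1 + β) * s₀)) * (s₀ / (1 + β) + 1 / (1 + β) ^ 2))
          = 1 - Real.exp (-s₀) * (s₀ + 1) +
            (Real.exp (β * s₀) * Real.exp (-((1 + β) * s₀))) * (s₀ / (1 + β) + 1 / (1 + β) ^ 2) := by
            ring
        _ = 1 - Real.exp (-s₀) * (1 + s₀ - s₀ / (1 + β) - 1 / (1 + β) ^ 2) := by rw [e3]; ring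
    rw [hval]
    -- polynomial inequality
    have key : 33 / 49 * (1 + s₀ + s₀ ^ 2 / 2 + s₀ ^ 3 / 6)
          - (1 + s₀ - s₀ / (1 + β) - 1 / (1 + β) ^ 2)
        = ((15309 / 8) * (β - 3 / 4) + (66825 / 4) * (β - 3 / 4) ^ 2 + 37305 * (β - 3 / 4) ^ 3
            + 17964 * (β - 3 / 4) ^ 4 + 2448 * (β - 3 / 4) ^ 5)
          / (49 * 3 * (1 + β) ^ 2 * 6 * 27 * β ^ 3) := by
      rw [hs₀]; field_simp; ring
    have hz : 0 ≤ β - 3 / 4 := by linarith
    have hpoly : (1 + s₀ - s₀ / (1 + β) - 1 / (1 + β) ^ 2)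
        ≤ 33 / 49 * (1 + s₀ + s₀ ^ 2 / 2 + s₀ ^ 3 / 6) := by
      rw [← sub_nonneg, key]; positivity
    have htaylor : 1 + s₀ + s₀ ^ 2 / 2 + s₀ ^ 3 / 6 ≤ Real.exp s₀ := by
      have := Real.sum_le_exp_of_nonneg hs₀nn 4
      simp only [Finset.sum_range_succ, Finset.sum_range_zero, Nat.factorial] at this
      norm_num at this
      linarith
    have hQ : Real.exp (-s₀) * (1 + s₀ - s₀ / (1 + β) - 1 / (1 + β) ^ 2) ≤ 33 / 49 := by
      have hpos := Real.exp_pos (-s₀)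
      have h1 : Real.exp (-s₀) * Real.exp s₀ = 1 := by rw [← Real.exp_add]; simp
      calc Real.exp (-s₀) * (1 + s₀ - s₀ / (1 + β) - 1 / (1 + β) ^ 2)
          ≤ Real.exp (-s₀) * (33 / 49 * Real.exp s₀) :=
            mul_le_mul_of_nonneg_left (by linarith) hpos.le
        _ = 33 / 49 * (Real.exp (-s₀) * Real.exp s₀) := by ring
        _ = 33 / 49 := by rw [h1]; ring
    have hnum : Real.exp (-(1 / 3)) ≤ 18 / 25 := by
      rw [Real.exp_neg, inv_le_comm₀ (Real.exp_pos _) (by norm_num)]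
      have := Real.quadratic_le_exp_of_nonneg (show (0:ℝ) ≤ 1 / 3 by norm_num)
      norm_num at this ⊢
      linarith
    linarith

end Crest.Agent.Lib_S0423_C1
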