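import Mathlib
import Crest.Agent.Lib_S0423_C1

/-!
Part C2 of S0423: asymptotics of the level pairs of `Lib_S0423_C1`
(`yp σ = σ / (e^σ - 1)`, `lev σ = yp σ * e^{-yp σ}`):
continuity of `yp` on `(0, ∞)`, `lev σ ≤ 2 / σ` and `e^{-1} - lev σ ≤ σ`.
-/

set_option autoImplicit false

namespace Crest.Agent.Lib_S0423_C2

open MeasureTheory Set Filter Topology Crest.Agent.Lib_S0423_Defs Crest.Agent.Lib_S0423_C1

theorem continuousOn_yp : ContinuousOn yp (Ioi 0) := by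
  unfold yp
  apply ContinuousOn.div continuousOn_id
  · exact (Real.continuous_exp.sub continuous_const).continuousOn
  · intro t ht
    exact (exp_sub_one_pos ht).ne'

/-- `yp σ ≤ 2 / σ`. -/
theorem yp_le_two_div {σ : ℝ} (hσ : 0 < σ) : yp σ ≤ 2 / σ := by
  unfold yp
  rw [div_le_div_iff₀ (exp_sub_one_pos hσ) hσ]
  have := Real.quadratic_le_exp_of_nonneg hσ.le
  nlinarith

/-- `1 - σ ≤ yp σ`. -/
theorem one_sub_le_yp {σ : ℝ} (hσ : 0 < σ) : 1 - σ ≤ yp σ := by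
  unfold yp
  rw [le_div_iff₀ (exp_sub_one_pos hσ)]
  have h1 : 1 - σ ≤ Real.exp (-σ) := by
    have := Real.add_one_le_exp (-σ)
    linarith
  have h2 : Real.exp (-σ) * Real.exp σ = 1 := by
    rw [← Real.exp_add]; simp
  have h3 : (1 - σ) * Real.exp σ ≤ 1 :=
    calc (1 - σ) * Real.exp σ ≤ Real.exp (-σ) * Real.exp σ :=
          mul_le_mul_of_nonneg_right h1 (Real.exp_pos _).le
      _ = 1 := h2
  nlinarith

/-- `lev σ ≤ yp σ`. -/
theorem lev_le_yp {σ : ℝ} (hσ : 0 < σ) : lev σ ≤ yp σ := by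
  unfold lev
  have h1 : Real.exp (-yp σ) ≤ 1 := by
    rw [Real.exp_le_one_iff]
    have := yp_pos hσ
    linarith
  calc yp σ * Real.exp (-yp σ) ≤ yp σ * 1 :=
        mul_le_mul_of_nonneg_left h1 (yp_pos hσ).le
    _ = yp σ := mul_one _

theorem lev_le_two_div {σ : ℝ} (hσ : 0 < σ) : lev σ ≤ 2 / σ :=
  (lev_le_yp hσ).trans (yp_le_two_div hσ)

theorem exp_neg_one_sub_lev_le {σ : ℝ} (hσ : 0 < σ) : Real.exp (-1) - lev σ ≤ σ := by
  have hy0 := yp_pos hσ
  have hy1 := yp_lt_one hσ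
  have hy2 := one_sub_le_yp hσ
  have he1 : Real.exp (-1) ≤ Real.exp (-yp σ) := by
    apply Real.exp_le_exp.mpr
    linarith
  have he2 : Real.exp (-1) ≤ 1 := by
    rw [Real.exp_le_one_iff]; norm_num
  have he3 : 0 < Real.exp (-1) := Real.exp_pos _
  have h1 : yp σ * Real.exp (-1) ≤ yp σ * Real.exp (-yp σ) :=
    mul_le_mul_of_nonneg_left he1 hy0.le
  unfold lev
  nlinarith

end Crest.Agent.Lib_S0423_C2
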