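import Mathlib
import Crest.Agent.Lib_S0423_C1

/-! S0423 part C3: slope positivity and the chord lemma for `L = -log R`. -/

set_option autoImplicit false

namespace Crest.Agent.Lib_S0423_C3

open MeasureTheory Set Crest.Agent.Lib_S0423_C1

/-- `L = -log R` increases strictly somewhere to the left of `-4/3`. -/
theorem slope_pos (R : ℝ → ℝ) (h01 : ∀ w, 0 < R w ∧ R w < 1) (hanti : Antitone R)
    (hconv : ConvexOn ℝ univ (fun w => -Real.log (R w)))
    (hi2 : IntegrableOn (fun w => 1 - R w) (Iic 0)) :
    -Real.log (R (-(7 / 3))) < -Real.log (R (-(4 / 3))) := by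
  set L : ℝ → ℝ := fun w => -Real.log (R w) with hLdef
  have hLmono : Monotone L := by
    intro x y hxy
    have h1 := hanti hxy
    have h2 := Real.log_le_log (h01 y).1 h1
    simp only [hLdef]; linarith
  by_contra hcon
  have hcon' : L (-(4 / 3)) ≤ L (-(7 / 3)) := not_lt.mp hcon
  have heq : L (-(4 / 3)) = L (-(7 / 3)) := le_antisymm hcon' (hLmono (by norm_num))
  have hge : ∀ x, x < -(7 / 3) → L (-(7 / 3)) ≤ L x := by
    intro x hx
    have h1 := hconv.slope_mono_adjacent (x := x) (y := -(7 / 3)) (z := -(4 / 3))
      (mem_univ _) (mem_univ _) hx (by norm_num)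
    have h1' : (L (-(7 / 3)) - L x) / (-(7 / 3) - x) ≤ (L (-(4 / 3)) - L (-(7 / 3))) / (-(4 / 3) - -(7 / 3)) := h1
    rw [heq, sub_self, zero_div] at h1'
    have hpos : 0 < -(7 / 3) - x := by linarith
    by_contra hc'
    have hc'' : L x < L (-(7 / 3)) := not_le.mp hc'
    have : 0 < (L (-(7 / 3)) - L x) / (-(7 / 3) - x) := div_pos (by linarith) hpos
    linarith
  have hconst : ∀ x, x ≤ -(7 / 3) → R x = R (-(7 / 3)) := by
    intro x hx
    rcases eq_or_lt_of_le hx with h | h
    · rw [h]
    · have h1 := hge x h
      have h2 := hLmono h.le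
      have h3 : L x = L (-(7 / 3)) := le_antisymm h2 h1
      have h4 : Real.log (R x) = Real.log (R (-(7 / 3))) := by
        simp only [hLdef] at h3; linarith
      exact Real.log_injOn_pos (h01 x).1 (h01 _).1 h4
  have hsub : IntegrableOn (fun w => 1 - R w) (Iic (-(7 / 3))) :=
    hi2.mono_set (Iic_subset_Iic.mpr (by norm_num))
  have hconstI : IntegrableOn (fun _ : ℝ => 1 - R (-(7 / 3))) (Iic (-(7 / 3))) := by
    refine hsub.congr_fun (fun x hx => ?_) measurableSet_Iic
    simp only [hconst x hx]
  rw [integrableOn_const_iff] at hconstI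
  rcases hconstI with h | h
  · have h' : 1 - R (-(7 / 3)) = 0 := by simpa using h
    linarith [(h01 (-(7 / 3))).2]
  · rw [Real.volume_Iic] at h
    exact lt_irrefl _ h

/-- Chord lemma: the exponential survival function interpolating `R` at `p < r`
lies below `R` on `[p, r]` and above `R` outside. -/
theorem chord (R : ℝ → ℝ) (h01 : ∀ w, 0 < R w ∧ R w < 1)
    (hconv : ConvexOn ℝ univ (fun w => -Real.log (R w))) {p r β m : ℝ} (hpr : p < r) (hβ : 0 < β)
    (hβdef : β * (r - p) = -Real.log (R r) - -Real.log (R p))
    (hm : β * (p - m) = -Real.log (R p)) :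
    (∀ w, p ≤ w → w ≤ r → Rh m β w ≤ R w) ∧ (∀ w, (w ≤ p ∨ r ≤ w) → R w ≤ Rh m β w) := by
  set L : ℝ → ℝ := fun w => -Real.log (R w) with hLdef
  have hLpos : ∀ w, 0 < L w := fun w => by
    have := Real.log_neg (h01 w).1 (h01 w).2
    simp only [hLdef]; linarith
  have hR : ∀ w, R w = Real.exp (-L w) := by
    intro w
    simp only [hLdef, neg_neg]
    exact (Real.exp_log (h01 w).1).symm
  have hm' : β * (p - m) = L p := hm
  have hβdef' : β * (r - p) = L r - L p := hβdef
  have hmp : m < p := by
    by_contra hcon
    have := mul_nonpos_of_nonneg_of_nonpos hβ.le (sub_nonpos.mpr (not_lt.mp hcon))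
    linarith [hLpos p]
  have hline : ∀ w, L p + β * (w - p) = β * (w - m) := by
    intro w
    have : β * (w - m) = β * (w - p) + β * (p - m) := by ring
    rw [this, hm']; ring
  have hβeq : (L r - L p) / (r - p) = β := by
    rw [div_eq_iff (sub_pos.mpr hpr).ne']; linarith
  constructor
  · intro w hpw hwr
    have hLw : L w ≤ β * (w - m) := by
      rcases eq_or_lt_of_le hpw with h | h
      · rw [← h, hm']
      · have hs := hconv.secant_mono (a := p) (x := w) (y := r) (mem_univ _) (mem_univ _)
          (mem_univ _) h.ne' hpr.ne' hwr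
        have hs' : (L w - L p) / (w - p) ≤ (L r - L p) / (r - p) := hs
        rw [hβeq, div_le_iff₀ (sub_pos.mpr h)] at hs'
        linarith [hline w]
    rw [hR w, Rh_of_ge (by linarith : m ≤ w)]
    exact Real.exp_le_exp.mpr (by linarith)
  · intro w hw
    have hLw : β * max (w - m) 0 ≤ L w := by
      rcases hw with hwp | hrw
      · rcases eq_or_lt_of_le hwp with h | h
        · rw [h, max_eq_left (by linarith), hm']
        · have hs := hconv.slope_mono_adjacent (x := w) (y := p) (z := r) (mem_univ _)
            (mem_univ _) h hpr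
          have hs' : (L p - L w) / (p - w) ≤ (L r - L p) / (r - p) := hs
          rw [hβeq, div_le_iff₀ (sub_pos.mpr h)] at hs'
          rcases le_total (w - m) 0 with h0 | h0
          · rw [max_eq_right h0, mul_zero]; exact (hLpos w).le
          · rw [max_eq_left h0]; linarith [hline w]
      · rcases eq_or_lt_of_le hrw with h | h
        · rw [← h, max_eq_left (by linarith)]; linarith [hline r]
        · have hs := hconv.secant_mono (a := p) (x := r) (y := w) (mem_univ _) (mem_univ _)
            (mem_univ _) hpr.ne' (by linarith : p < w).ne' h.le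
          have hs' : (L r - L p) / (r - p) ≤ (L w - L p) / (w - p) := hs
          rw [hβeq, le_div_iff₀ (by linarith)] at hs'
          rw [max_eq_left (by linarith)]; linarith [hline w]
    rw [hR w]
    unfold Rh
    exact Real.exp_le_exp.mpr (by linarith)

end Crest.Agent.Lib_S0423_C3
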