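import Mathlib
import Crest.Agent.Lib_S0423_Defs
import Crest.Agent.Lib_S0423_C1
import Crest.Agent.Lib_S0423_C2
import Crest.Agent.Lib_S0423_C3

/-!
Part C of S0423: the one-dimensional theorem.  If `R` is a continuous, positive, antitone,
log-concave survival function (`0 < R < 1`) of a mean-zero law, then
`Phi R = ∫_0^∞ R(s - 4/3) s e^{-s} ds ≥ (4/9) e^{-1/3}`.
-/

set_option autoImplicit false

namespace Crest.Agent.Lib_S0423_C

open MeasureTheory Set Filter Topology Crest.Agent.Lib_S0423_Defs Crest.Agent.Lib_S0423_C1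
  Crest.Agent.Lib_S0423_C2 Crest.Agent.Lib_S0423_C3

/-- Exponential comparators: `Phi ≥ κ` if the mean `m + 1/β` is
nonnegative, and `≥ κ - |mean|/e` otherwise. -/
lemma Phi_Rh_ge {β m : ℝ} (hβ : 0 < β) :
    4 / 9 * Real.exp (-(1 / 3)) - max 0 (-(m + 1 / β)) * Real.exp (-1) ≤ Phi (Rh m β) := by
  have h2 := Phi_Rh_centered hβ
  rcases le_total 0 (m + 1 / β) with h | h
  · have h1 : -(1 / β) ≤ m := by linarith
    have h3 := Phi_Rh_mono hβ h1
    rw [max_eq_left (by linarith)]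
    linarith
  · have h1 : m ≤ -(1 / β) := by linarith
    have hneg : -(1 / β) ≤ 0 := by
      have := one_div_pos.mpr hβ
      linarith
    have h3 := Phi_Rh_lip hβ h1 hneg
    rw [max_eq_right (by linarith)]
    linarith

/-- The key inequality at one level pair. -/
lemma key (R : ℝ → ℝ) (hc : Continuous R) (h01 : ∀ w, 0 < R w ∧ R w < 1)
    (hconv : ConvexOn ℝ univ (fun w => -Real.log (R w)))
    (hi1 : IntegrableOn R (Ioi 0)) (hi2 : IntegrableOn (fun w => 1 - R w) (Iic 0))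
    (hmean : ∫ w in Ioi (0 : ℝ), R w = ∫ w in Iic (0 : ℝ), (1 - R w))
    {σ β m : ℝ} (hσ : 0 < σ) (hβ : 0 < β)
    (hβdef : β * σ = -Real.log (R (yr σ - 4 / 3)) - -Real.log (R (yp σ - 4 / 3)))
    (hm : β * (yp σ - 4 / 3 - m) = -Real.log (R (yp σ - 4 / 3))) :
    4 / 9 * Real.exp (-(1 / 3)) - max 0 (-(m + 1 / β)) * Real.exp (-1) - lev σ * (m + 1 / β)
      ≤ Phi R := by
  have hpr : yp σ - 4 / 3 < yr σ - 4 / 3 := by unfold yr; linarith
  have hβdef' : β * ((yr σ - 4 / 3) - (yp σ - 4 / 3))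
      = -Real.log (R (yr σ - 4 / 3)) - -Real.log (R (yp σ - 4 / 3)) := by
    rw [← hβdef]; unfold yr; ring
  obtain ⟨hin, hout⟩ := chord R h01 hconv hpr hβ hβdef' hm
  have hLp : 0 < -Real.log (R (yp σ - 4 / 3)) := by
    have := Real.log_neg (h01 (yp σ - 4 / 3)).1 (h01 _).2
    linarith
  have hm0 : m ≤ 0 := by
    have h1 : 0 < β * (yp σ - 4 / 3 - m) := by rw [hm]; exact hLp
    have h2 : 0 < yp σ - 4 / 3 - m := by
      by_contra hcon
      push Not at hcon
      have := mul_nonpos_of_nonneg_of_nonpos hβ.le hcon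
      linarith
    have := yp_lt_one hσ
    linarith
  obtain ⟨a1, a2, a3⟩ := Rh_mean hβ hm0
  obtain ⟨hint, hval⟩ := integral_sub_eq R (Rh m β) hi1 hi2 a1 a2
  have hRb : ∀ w, |R w| ≤ 1 := fun w => by
    rw [abs_of_pos (h01 w).1]; exact (h01 w).2.le
  have hpt : ∀ s, 0 ≤ (R (s - 4 / 3) - Rh m β (s - 4 / 3)) * (om s - lev σ) := by
    intro s
    by_cases hs : yp σ ≤ s ∧ s ≤ yr σ
    · exact mul_nonneg
        (by linarith [hin (s - 4 / 3) (by linarith [hs.1]) (by linarith [hs.2])])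
        (by linarith [lev_le_om hσ hs.1 hs.2])
    · have hs' : s ≤ yp σ ∨ yr σ ≤ s := by
        by_contra hcon
        push Not at hcon
        exact hs ⟨hcon.1.le, hcon.2.le⟩
      have hw : s - 4 / 3 ≤ yp σ - 4 / 3 ∨ yr σ - 4 / 3 ≤ s - 4 / 3 := by
        rcases hs' with h | h
        · left; linarith
        · right; linarith
      exact mul_nonneg_of_nonpos_of_nonpos (by linarith [hout (s - 4 / 3) hw])
        (by linarith [om_le_lev hσ hs'])
  have hmain := Phi_sub_ge R (Rh m β) (lev σ) hc.measurable (continuous_Rh m β).measurable hRb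
    (Rh_abs_le hβ.le m) hint hpt
  rw [hval, a3, hmean, sub_self, zero_sub] at hmain
  have hexp := Phi_Rh_ge (m := m) hβ
  linarith

/-- [C] The one-dimensional theorem (chord lemma + IVT). -/
theorem Phi_ge (R : ℝ → ℝ) (hc : Continuous R) (h01 : ∀ w, 0 < R w ∧ R w < 1) (hanti : Antitone R)
    (hconv : ConvexOn ℝ univ (fun w => -Real.log (R w)))
    (hi1 : IntegrableOn R (Ioi 0)) (hi2 : IntegrableOn (fun w => 1 - R w) (Iic 0))
    (hmean : ∫ w in Ioi (0 : ℝ), R w = ∫ w in Iic (0 : ℝ), (1 - R w)) :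
    4 / 9 * Real.exp (-(1 / 3)) ≤ Phi R := by
  set L : ℝ → ℝ := fun w => -Real.log (R w) with hLdef
  have hLc : Continuous L := (hc.log (fun w => (h01 w).1.ne')).neg
  have hLpos : ∀ w, 0 < L w := fun w => by
    have := Real.log_neg (h01 w).1 (h01 w).2
    simp only [hLdef]; linarith
  have hLmono : Monotone L := by
    intro x y hxy
    have h1 := hanti hxy
    have h2 := Real.log_le_log (h01 y).1 h1
    simp only [hLdef]; linarith
  have hβ₀ : 0 < L (-(4 / 3)) - L (-(7 / 3)) := by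
    have := slope_pos R h01 hanti hconv hi2
    simp only [hLdef]; linarith
  set β₀ : ℝ := L (-(4 / 3)) - L (-(7 / 3)) with hβ₀def
  set β : ℝ → ℝ := fun σ => (L (yr σ - 4 / 3) - L (yp σ - 4 / 3)) / σ with hβdef
  set μ : ℝ → ℝ := fun σ => yp σ - 4 / 3 - L (yp σ - 4 / 3) / β σ + 1 / β σ with hμdef
  -- slope lower bound
  have hβge : ∀ σ, 0 < σ → β₀ ≤ β σ := by
    intro σ hσ
    have hp := yp_pos hσ
    have h1 := hconv.slope_mono_adjacent (x := -(7 / 3)) (y := -(4 / 3)) (z := yp σ - 4 / 3)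
      (mem_univ _) (mem_univ _) (by norm_num) (by linarith)
    have h2 := hconv.slope_mono_adjacent (x := -(4 / 3)) (y := yp σ - 4 / 3) (z := yr σ - 4 / 3)
      (mem_univ _) (mem_univ _) (by linarith) (by unfold yr; linarith)
    have e1 : (-(4 / 3) : ℝ) - -(7 / 3) = 1 := by norm_num
    have e2 : yr σ - 4 / 3 - (yp σ - 4 / 3) = σ := by unfold yr; ring
    rw [e1, div_one] at h1
    rw [e2] at h2
    exact le_trans h1 h2
  have hβpos : ∀ σ, 0 < σ → 0 < β σ := fun σ hσ => lt_of_lt_of_le hβ₀ (hβge σ hσ)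
  -- the key inequality in terms of `μ`
  have hkey : ∀ σ, 0 < σ →
      4 / 9 * Real.exp (-(1 / 3)) - max 0 (-(μ σ)) * Real.exp (-1) - lev σ * μ σ ≤ Phi R := by
    intro σ hσ
    have hb := hβpos σ hσ
    have e1 : β σ * σ = -Real.log (R (yr σ - 4 / 3)) - -Real.log (R (yp σ - 4 / 3)) := by
      simp only [hβdef, hLdef]
      field_simp
    have e2 : β σ * (yp σ - 4 / 3 - (yp σ - 4 / 3 - L (yp σ - 4 / 3) / β σ))
        = -Real.log (R (yp σ - 4 / 3)) := by
      have : β σ * (yp σ - 4 / 3 - (yp σ - 4 / 3 - L (yp σ - 4 / 3) / β σ)) = L (yp σ - 4 / 3) := by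
        field_simp
        ring
      rw [this]
    exact key R hc h01 hconv hi1 hi2 hmean hσ hb e1 e2
  -- bounds for `μ`
  set B : ℝ := 1 / β₀ + 4 / 3 + L (-(1 / 3)) / β₀ with hBdef
  have hBpos : 0 < B := by
    have := hLpos (-(1 / 3))
    positivity
  have hμle : ∀ σ, 0 < σ → μ σ ≤ B := by
    intro σ hσ
    have hb := hβpos σ hσ
    have h1 : 1 / β σ ≤ 1 / β₀ := one_div_le_one_div_of_le hβ₀ (hβge σ hσ)
    have h2 : 0 ≤ L (yp σ - 4 / 3) / β σ := div_nonneg (hLpos _).le hb.le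
    have h3 := yp_lt_one hσ
    have h4 : 0 ≤ L (-(1 / 3)) / β₀ := div_nonneg (hLpos _).le hβ₀.le
    simp only [hμdef, hBdef]
    linarith
  have hμge : ∀ σ, 0 < σ → -B ≤ μ σ := by
    intro σ hσ
    have hb := hβpos σ hσ
    have h1 : 0 < 1 / β σ := one_div_pos.mpr hb
    have h3 := yp_pos hσ
    have h3' := yp_lt_one hσ
    have h5 : L (yp σ - 4 / 3) ≤ L (-(1 / 3)) := hLmono (by linarith)
    have h2 : L (yp σ - 4 / 3) / β σ ≤ L (-(1 / 3)) / β₀ := by
      calc L (yp σ - 4 / 3) / β σ ≤ L (-(1 / 3)) / β σ := div_le_div_of_nonneg_right h5 hb.le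
        _ ≤ L (-(1 / 3)) / β₀ := div_le_div_of_nonneg_left (hLpos _).le hβ₀ (hβge σ hσ)
    have h4 : 0 < 1 / β₀ := one_div_pos.mpr hβ₀
    simp only [hμdef, hBdef]
    linarith
  -- continuity of `μ`
  have hμc : ContinuousOn μ (Ioi 0) := by
    have hyp : ContinuousOn (fun σ => yp σ - 4 / 3) (Ioi 0) := continuousOn_yp.sub continuousOn_const
    have hyr : ContinuousOn (fun σ => yr σ - 4 / 3) (Ioi 0) := by
      have : ContinuousOn yr (Ioi 0) := continuousOn_yp.add continuousOn_id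
      exact this.sub continuousOn_const
    have hLp : ContinuousOn (fun σ => L (yp σ - 4 / 3)) (Ioi 0) := hLc.comp_continuousOn hyp
    have hLr : ContinuousOn (fun σ => L (yr σ - 4 / 3)) (Ioi 0) := hLc.comp_continuousOn hyr
    have hβc : ContinuousOn β (Ioi 0) :=
      (hLr.sub hLp).div continuousOn_id (fun σ hσ => (ne_of_gt hσ))
    have hne : ∀ σ ∈ Ioi (0 : ℝ), β σ ≠ 0 := fun σ hσ => (hβpos σ hσ).ne'
    exact (hyp.sub (hLp.div hβc hne)).add (continuousOn_const.div hβc hne)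
  -- reduce to `κ - ε`
  refine le_of_forall_sub_le (fun ε hε => ?_)
  by_cases h0 : ∃ σ, 0 < σ ∧ μ σ = 0
  · obtain ⟨σ, hσ, hμ0⟩ := h0
    have := hkey σ hσ
    rw [hμ0] at this
    simp only [neg_zero, max_self, zero_mul, mul_zero, sub_zero] at this
    linarith
  · push Not at h0
    have hsign : (∀ σ, 0 < σ → 0 < μ σ) ∨ (∀ σ, 0 < σ → μ σ < 0) := by
      by_contra hcon
      push Not at hcon
      obtain ⟨⟨σ₁, hσ₁, h1⟩, ⟨σ₂, hσ₂, h2⟩⟩ := hcon
      have hsub : uIcc σ₁ σ₂ ⊆ Ioi (0 : ℝ) := by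
        intro x hx
        have := hx.1
        exact lt_of_lt_of_le (lt_min hσ₁ hσ₂) this
      have hIVT := intermediate_value_uIcc (hμc.mono hsub)
      have h0mem : (0 : ℝ) ∈ uIcc (μ σ₁) (μ σ₂) := by
        rw [mem_uIcc]; left; exact ⟨h1, h2⟩
      obtain ⟨x, hx, hx0⟩ := hIVT h0mem
      exact h0 x (hsub hx) hx0
    rcases hsign with hpos | hneg
    · -- all means positive: let `σ → ∞`
      set σ : ℝ := 2 * B / ε + 1 with hσdef
      have hσ : 0 < σ := by positivity
      have hk := hkey σ hσ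
      have hμp := hpos σ hσ
      rw [max_eq_left (by linarith)] at hk
      have h1 : lev σ ≤ 2 / σ := lev_le_two_div hσ
      have h2 : lev σ * μ σ ≤ 2 / σ * B :=
        mul_le_mul h1 (hμle σ hσ) hμp.le (by positivity)
      have h3 : 2 / σ * B ≤ ε := by
        rw [div_mul_eq_mul_div, div_le_iff₀ hσ, hσdef]
        have : ε * (2 * B / ε + 1) = 2 * B + ε := by field_simp
        rw [this]; linarith
      linarith
    · -- all means negative: let `σ → 0`
      set σ : ℝ := ε / B with hσdef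
      have hσ : 0 < σ := by positivity
      have hk := hkey σ hσ
      have hμn := hneg σ hσ
      rw [max_eq_right (by linarith)] at hk
      have h1 : Real.exp (-1) - lev σ ≤ σ := exp_neg_one_sub_lev_le hσ
      have h1' : 0 ≤ Real.exp (-1) - lev σ := by
        have := mul_exp_neg_le (yp σ)
        unfold lev; linarith
      have h2 : (Real.exp (-1) - lev σ) * (-(μ σ)) ≤ σ * B :=
        mul_le_mul h1 (by linarith [hμge σ hσ]) (by linarith) hσ.le
      have h3 : σ * B = ε := by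
        rw [hσdef]; field_simp
      nlinarith [h2, h3, hk]

end Crest.Agent.Lib_S0423_C
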