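import Mathlib
import Crest.Agent.Lib_S0423_Defs
import Crest.Agent.Lib_S0423_C1

/-!
Sub-lemmas for part [C] of S0423 in the `expSurv` parametrisation: the exponential comparator
`expSurv m b` (survival function of `m + b * X`, `X` exponential of mean one), its `Phi` value,
and the level pairs of `s * exp (-s)`.

The analytic content about `Phi` of exponential comparators is taken from `Lib_S0423_C1`
(helper20) through the bridge `expSurv m b = Rh m (1 / b)`.
-/

set_option autoImplicit false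

namespace Crest.Agent.Lib_S0423_CExp

open MeasureTheory Set Crest.Agent.Lib_S0423_Defs

/-- Survival function of `m + b * X`: equal to `1` for `w ≤ m` and to `exp (-(w - m) / b)` after. -/
noncomputable def expSurv (m b w : ℝ) : ℝ := min 1 (Real.exp (-(w - m) / b))

/-- First level point. -/
noncomputable def lv1 (t : ℝ) : ℝ := t / (Real.exp t - 1)

/-- Second level point. -/
noncomputable def lv2 (t : ℝ) : ℝ := lv1 t + t

theorem mul_exp_neg_le (s : ℝ) : s * Real.exp (-s) ≤ Real.exp (-1) := by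
  have h1 : s ≤ Real.exp (s - 1) := by
    have := Real.add_one_le_exp (s - 1)
    linarith
  have h2 : Real.exp (s - 1) * Real.exp (-s) = Real.exp (-1) := by
    rw [← Real.exp_add]; ring_nf
  calc s * Real.exp (-s) ≤ Real.exp (s - 1) * Real.exp (-s) :=
        mul_le_mul_of_nonneg_right h1 (Real.exp_pos _).le
    _ = Real.exp (-1) := h2

/-- `(1 - d) * exp d ≤ 1`. -/
theorem one_sub_mul_exp_le (d : ℝ) : (1 - d) * Real.exp d ≤ 1 := by
  have h1 : 1 - d ≤ Real.exp (-d) := by
    have := Real.add_one_le_exp (-d)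
    linarith
  have h2 : Real.exp (-d) * Real.exp d = 1 := by
    rw [← Real.exp_add]; simp
  calc (1 - d) * Real.exp d ≤ Real.exp (-d) * Real.exp d :=
        mul_le_mul_of_nonneg_right h1 (Real.exp_pos _).le
    _ = 1 := h2

/-- `s * exp (-s)` is nondecreasing on `(-∞, 1]`. -/
theorem mexp_mono {s s' : ℝ} (h : s ≤ s') (h1 : s' ≤ 1) :
    s * Real.exp (-s) ≤ s' * Real.exp (-s') := by
  set d := s' - s with hd
  have hd0 : 0 ≤ d := by linarith
  have hs' : s' = s + d := by linarith
  have hexp : Real.exp (-s') = Real.exp (-s) * Real.exp (-d) := by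
    rw [← Real.exp_add]; congr 1; linarith
  have key : s ≤ (s + d) * Real.exp (-d) := by
    -- equivalent to s * exp d ≤ s + d
    have hE : Real.exp (-d) * Real.exp d = 1 := by rw [← Real.exp_add]; simp
    have hed : 0 < Real.exp d := Real.exp_pos d
    have hed1 : 1 ≤ Real.exp d := Real.one_le_exp hd0
    have h3 : s * Real.exp d ≤ s + d := by
      by_cases hs : s ≤ 0
      · nlinarith
      · push Not at hs
        have h4 := one_sub_mul_exp_le d
        have h5 : s ≤ 1 - d := by linarith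
        nlinarith
    have h6 : s = s * Real.exp d * Real.exp (-d) := by
      rw [mul_assoc, mul_comm (Real.exp d), hE, mul_one]
    calc s = s * Real.exp d * Real.exp (-d) := h6
      _ ≤ (s + d) * Real.exp (-d) := mul_le_mul_of_nonneg_right h3 (Real.exp_pos _).le
  rw [hexp, hs']
  have := mul_le_mul_of_nonneg_left key (Real.exp_pos (-s)).le
  nlinarith [this]

/-- `s * exp (-s)` is nonincreasing on `[1, ∞)`. -/
theorem mexp_anti {s s' : ℝ} (h1 : 1 ≤ s) (h : s ≤ s') :
    s' * Real.exp (-s') ≤ s * Real.exp (-s) := by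
  set d := s' - s with hd
  have hd0 : 0 ≤ d := by linarith
  have hs' : s' = s + d := by linarith
  have hexp : Real.exp (-s') = Real.exp (-s) * Real.exp (-d) := by
    rw [← Real.exp_add]; congr 1; linarith
  have key : (s + d) * Real.exp (-d) ≤ s := by
    have hE : Real.exp (-d) * Real.exp d = 1 := by rw [← Real.exp_add]; simp
    have hed : 0 < Real.exp d := Real.exp_pos d
    have h3 : s + d ≤ s * Real.exp d := by
      have := Real.add_one_le_exp d
      nlinarith
    have h6 : s = s * Real.exp d * Real.exp (-d) := by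
      rw [mul_assoc, mul_comm (Real.exp d), hE, mul_one]
    calc (s + d) * Real.exp (-d) ≤ s * Real.exp d * Real.exp (-d) :=
          mul_le_mul_of_nonneg_right h3 (Real.exp_pos _).le
      _ = s := h6.symm
  rw [hexp, hs']
  have := mul_le_mul_of_nonneg_left key (Real.exp_pos (-s)).le
  nlinarith [this]

theorem exp_sub_one_pos {t : ℝ} (ht : 0 < t) : 0 < Real.exp t - 1 := by
  have := Real.add_one_lt_exp ht.ne'
  linarith

theorem lv1_pos {t : ℝ} (ht : 0 < t) : 0 < lv1 t := by
  unfold lv1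
  exact div_pos ht (exp_sub_one_pos ht)

theorem lv1_lt_one {t : ℝ} (ht : 0 < t) : lv1 t < 1 := by
  unfold lv1
  rw [div_lt_one (exp_sub_one_pos ht)]
  have := Real.add_one_lt_exp ht.ne'
  linarith

theorem lv1_mul {t : ℝ} (ht : 0 < t) : lv1 t * (Real.exp t - 1) = t := by
  unfold lv1
  exact div_mul_cancel₀ t (exp_sub_one_pos ht).ne'

theorem one_lt_lv2 {t : ℝ} (ht : 0 < t) : 1 < lv2 t := by
  unfold lv2
  have h1 := lv1_mul ht
  have h2 := exp_sub_one_pos ht
  -- lv1 t + t = lv1 t * exp t, and want > 1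
  have h3 : lv1 t + t = lv1 t * Real.exp t := by linarith
  rw [h3]
  -- lv1 t * exp t > 1 iff t * exp t > exp t - 1
  have h4 : (1 - t) * Real.exp t < 1 := by
    have h5 : 1 - t < Real.exp (-t) := by
      have := Real.add_one_lt_exp (show -t ≠ 0 by linarith)
      linarith
    have h6 : Real.exp (-t) * Real.exp t = 1 := by rw [← Real.exp_add]; simp
    calc (1 - t) * Real.exp t < Real.exp (-t) * Real.exp t :=
          mul_lt_mul_of_pos_right h5 (Real.exp_pos _)
      _ = 1 := h6
  -- lv1 t * exp t * (exp t - 1) = t * exp t > exp t - 1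
  by_contra hcon
  push Not at hcon
  have h7 : lv1 t * Real.exp t * (Real.exp t - 1) ≤ 1 * (Real.exp t - 1) :=
    mul_le_mul_of_nonneg_right hcon h2.le
  have h8 : lv1 t * Real.exp t * (Real.exp t - 1) = t * Real.exp t := by
    calc lv1 t * Real.exp t * (Real.exp t - 1) = (lv1 t * (Real.exp t - 1)) * Real.exp t := by ring
      _ = t * Real.exp t := by rw [h1]
  nlinarith

theorem lv_level {t : ℝ} (ht : 0 < t) :
    lv1 t * Real.exp (-lv1 t) = lv2 t * Real.exp (-lv2 t) := by
  have h1 := lv1_mul ht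
  have h3 : lv2 t = lv1 t * Real.exp t := by unfold lv2; linarith
  have h4 : Real.exp (-lv2 t) = Real.exp (-lv1 t) * Real.exp (-t) := by
    rw [← Real.exp_add]; congr 1; unfold lv2; ring
  have h5 : Real.exp t * Real.exp (-t) = 1 := by rw [← Real.exp_add]; simp
  rw [h4, h3]
  calc lv1 t * Real.exp (-lv1 t) = lv1 t * Real.exp (-lv1 t) * (Real.exp t * Real.exp (-t)) := by
        rw [h5, mul_one]
    _ = lv1 t * Real.exp t * (Real.exp (-lv1 t) * Real.exp (-t)) := by ring

theorem level_le_of_mem {t s : ℝ} (ht : 0 < t) (h1 : lv1 t ≤ s) (h2 : s ≤ lv2 t) :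
    lv1 t * Real.exp (-lv1 t) ≤ s * Real.exp (-s) := by
  by_cases hs : s ≤ 1
  · exact mexp_mono h1 hs
  · push Not at hs
    rw [lv_level ht]
    exact mexp_anti hs.le h2

theorem le_level_of_le {t s : ℝ} (ht : 0 < t) (h1 : s ≤ lv1 t) :
    s * Real.exp (-s) ≤ lv1 t * Real.exp (-lv1 t) :=
  mexp_mono h1 (lv1_lt_one ht).le

theorem le_level_of_ge {t s : ℝ} (ht : 0 < t) (h2 : lv2 t ≤ s) :
    s * Real.exp (-s) ≤ lv1 t * Real.exp (-lv1 t) := by
  rw [lv_level ht]
  exact mexp_anti (one_lt_lv2 ht).le h2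

theorem continuousOn_lv1 : ContinuousOn lv1 (Ioi 0) := by
  unfold lv1
  apply ContinuousOn.div continuousOn_id
  · exact (Real.continuous_exp.sub continuous_const).continuousOn
  · intro t ht
    exact (exp_sub_one_pos ht).ne'

theorem lv1_le_two_div {t : ℝ} (ht : 0 < t) : lv1 t ≤ 2 / t := by
  unfold lv1
  rw [div_le_div_iff₀ (exp_sub_one_pos ht) ht]
  have := Real.quadratic_le_exp_of_nonneg ht.le
  nlinarith

theorem one_sub_le_lv1 {t : ℝ} (ht : 0 < t) : 1 - t ≤ lv1 t := by
  unfold lv1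
  rw [le_div_iff₀ (exp_sub_one_pos ht)]
  have := one_sub_mul_exp_le t
  nlinarith

theorem expSurv_nonneg (m b w : ℝ) : 0 ≤ expSurv m b w :=
  le_min zero_le_one (Real.exp_pos _).le

theorem expSurv_le_one (m b w : ℝ) : expSurv m b w ≤ 1 := min_le_left _ _

theorem continuous_expSurv (m b : ℝ) : Continuous (expSurv m b) := by
  unfold expSurv
  exact continuous_const.min (Real.continuous_exp.comp (by fun_prop))


/-- Bridge to the comparator `Rh` of `Lib_S0423_C1`. -/
theorem expSurv_eq_Rh {b : ℝ} (hb : 0 < b) (m : ℝ) :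
    expSurv m b = Crest.Agent.Lib_S0423_C1.Rh m (1 / b) := by
  funext w
  unfold expSurv Crest.Agent.Lib_S0423_C1.Rh
  rcases le_total w m with h | h
  · have h1 : max (w - m) 0 = 0 := max_eq_right (by linarith)
    have h2 : 0 ≤ -(w - m) / b := div_nonneg (by linarith) hb.le
    have h3 : (1 : ℝ) ≤ Real.exp (-(w - m) / b) := Real.one_le_exp h2
    rw [h1, min_eq_left h3]
    simp
  · have h1 : max (w - m) 0 = w - m := max_eq_left (by linarith)
    have h2 : -(w - m) / b ≤ 0 := div_nonpos_of_nonpos_of_nonneg (by linarith) hb.le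
    have h3 : Real.exp (-(w - m) / b) ≤ 1 := Real.exp_le_one_iff.2 h2
    rw [h1, min_eq_right h3]
    congr 1
    field_simp

theorem integrable_Phi {R : ℝ → ℝ} (hR : Measurable R) (h01 : ∀ w, 0 ≤ R w ∧ R w ≤ 1) :
    IntegrableOn (fun s => R (s - 4 / 3) * (s * Real.exp (-s))) (Ioi 0) := by
  have hb : ∀ w, |R w| ≤ 1 := fun w => abs_le.2 ⟨by linarith [(h01 w).1], (h01 w).2⟩
  have h : IntegrableOn (fun s => R (s - 4 / 3) * Crest.Agent.Lib_S0423_C1.om s) (Ioi 0) :=
    (Crest.Agent.Lib_S0423_C1.integrable_mul_om R hR hb).integrableOn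
  refine h.congr_fun ?_ measurableSet_Ioi
  intro s hs
  have hs' : (0 : ℝ) < s := hs
  simp [Crest.Agent.Lib_S0423_C1.om, hs']

theorem expSurv_mean {m b : ℝ} (hb : 0 < b) (hm : m ≤ 0) :
    IntegrableOn (expSurv m b) (Ioi 0) ∧ IntegrableOn (fun w => 1 - expSurv m b w) (Iic 0) ∧
      (∫ w in Ioi (0 : ℝ), expSurv m b w) - ∫ w in Iic (0 : ℝ), (1 - expSurv m b w) = m + b := by
  have h := Crest.Agent.Lib_S0423_C1.Rh_mean (m := m) (β := 1 / b) (one_div_pos.2 hb) hm
  rw [one_div_one_div] at h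
  rw [expSurv_eq_Rh hb m]
  exact h

theorem Phi_expSurv_zero_mean {b : ℝ} (hb : 0 < b) :
    4 / 9 * Real.exp (-(1 / 3)) ≤ Phi (expSurv (-b) b) := by
  have h := Crest.Agent.Lib_S0423_C1.Phi_Rh_centered (β := 1 / b) (one_div_pos.2 hb)
  rw [one_div_one_div] at h
  rw [expSurv_eq_Rh hb (-b)]
  exact h

theorem Phi_expSurv_mono {b m m' : ℝ} (hb : 0 < b) (h : m ≤ m') :
    Phi (expSurv m b) ≤ Phi (expSurv m' b) := by
  rw [expSurv_eq_Rh hb m, expSurv_eq_Rh hb m']
  exact Crest.Agent.Lib_S0423_C1.Phi_Rh_mono (one_div_pos.2 hb) h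

/-- `Phi (expSurv m b)` is `e⁻¹`-Lipschitz in the location `m` (for locations `≤ 0`). -/
theorem Phi_expSurv_lip {b m m' : ℝ} (hb : 0 < b) (h : m ≤ m') (hm' : m' ≤ 0) :
    Phi (expSurv m' b) ≤ Phi (expSurv m b) + (m' - m) * Real.exp (-1) := by
  rw [expSurv_eq_Rh hb m, expSurv_eq_Rh hb m']
  have := Crest.Agent.Lib_S0423_C1.Phi_Rh_lip (one_div_pos.2 hb) h hm'
  linarith

theorem Phi_expSurv_ge {m b : ℝ} (hb : 0 < b) :
    4 / 9 * Real.exp (-(1 / 3)) - max 0 (-(m + b)) * Real.exp (-1) ≤ Phi (expSurv m b) := by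
  have h0 := Phi_expSurv_zero_mean hb
  rcases le_total 0 (m + b) with h | h
  · have h1 : max 0 (-(m + b)) = 0 := max_eq_left (by linarith)
    have h2 := Phi_expSurv_mono (b := b) (m := -b) (m' := m) hb (by linarith)
    rw [h1]
    linarith
  · have h1 : max 0 (-(m + b)) = -(m + b) := max_eq_right (by linarith)
    have h2 := Phi_expSurv_lip (b := b) (m := m) (m' := -b) hb (by linarith) (by linarith)
    rw [h1]
    have h3 : (-b - m) * Real.exp (-1) = -(m + b) * Real.exp (-1) := by ring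
    linarith

end Crest.Agent.Lib_S0423_CExp
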