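import Mathlib
import Crest.Agent.Lib_S0423_Defs
import Crest.Agent.Lib_S0423_C1

/-!
Part [C] of S0423 by exact matching: compare a log-concave mean-zero survival function `R`
with the survival function `expSurv (-p) p` of `p * (X - 1)`, where `p` is chosen so that the
two have the same integral over `(-1/3, ∞)` (hence also the same defect over `(-∞, -1/3]`).
-/

set_option autoImplicit false

namespace Crest.Agent.Lib_S0423_CMatch

open MeasureTheory Set Crest.Agent.Lib_S0423_Defs Crest.Agent.Lib_S0423_C1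

/-- One-crossing inequality: if `∫_s f = 0`, `g ≥ 0` on `s`, and `g` is at least as large at
points where `f ≥ 0` as at points where `f < 0`, then `∫_s f * g ≥ 0`. -/
theorem crossing {s : Set ℝ} (hs : MeasurableSet s) {f g : ℝ → ℝ}
    (hf : IntegrableOn f s) (hfg : IntegrableOn (fun x => f x * g x) s)
    (h0 : ∫ x in s, f x = 0) (hg : ∀ x ∈ s, 0 ≤ g x)
    (hcross : ∀ x ∈ s, ∀ y ∈ s, f x < 0 → 0 ≤ f y → g x ≤ g y)
    (hy : ∃ y ∈ s, 0 ≤ f y) :
    0 ≤ ∫ x in s, f x * g x := by
  by_cases hx : ∃ x ∈ s, f x < 0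
  · obtain ⟨x0, hx0s, hx0⟩ := hx
    obtain ⟨y0, hy0s, hy0⟩ := hy
    set A : Set ℝ := g '' {x | x ∈ s ∧ f x < 0} with hA
    have hAne : A.Nonempty := ⟨g x0, x0, ⟨hx0s, hx0⟩, rfl⟩
    have hAbdd : BddAbove A := by
      refine ⟨g y0, ?_⟩
      rintro _ ⟨x, ⟨hxs, hxf⟩, rfl⟩
      exact hcross x hxs y0 hy0s hxf hy0
    set κ : ℝ := sSup A with hκ
    have hpt : ∀ x ∈ s, 0 ≤ f x * g x - κ * f x := by
      intro x hxs
      have e : f x * g x - κ * f x = f x * (g x - κ) := by ring
      rw [e]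
      rcases lt_or_ge (f x) 0 with hneg | hnn
      · have : g x ≤ κ := le_csSup hAbdd ⟨x, ⟨hxs, hneg⟩, rfl⟩
        exact mul_nonneg_of_nonpos_of_nonpos hneg.le (by linarith)
      · have : κ ≤ g x := by
          apply csSup_le hAne
          rintro _ ⟨x', ⟨hx's, hx'f⟩, rfl⟩
          exact hcross x' hx's x hxs hx'f hnn
        exact mul_nonneg hnn (by linarith)
    have hint : IntegrableOn (fun x => f x * g x - κ * f x) s := hfg.sub (hf.const_mul κ)
    have h1 : 0 ≤ ∫ x in s, (f x * g x - κ * f x) := setIntegral_nonneg hs hpt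
    have h2 : ∫ x in s, (f x * g x - κ * f x) = (∫ x in s, f x * g x) - κ * ∫ x in s, f x := by
      rw [integral_sub hfg (hf.const_mul κ), integral_const_mul]
    rw [h2, h0, mul_zero, sub_zero] at h1
    exact h1
  · push Not at hx
    exact setIntegral_nonneg hs (fun x hxs => mul_nonneg (hx x hxs) (hg x hxs))


/-! ### The weight `s ↦ s * exp (-s)` -/

theorem hasDerivAt_mul_exp_neg (x : ℝ) :
    HasDerivAt (fun s : ℝ => s * Real.exp (-s)) ((1 - x) * Real.exp (-x)) x := by
  have h1 : HasDerivAt (fun s : ℝ => Real.exp (-s)) (Real.exp (-x) * (-1)) x :=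
    (hasDerivAt_neg x).exp
  have h2 : HasDerivAt (fun s : ℝ => s * Real.exp (-s))
      (1 * Real.exp (-x) + x * (Real.exp (-x) * (-1))) x := (hasDerivAt_id' x).mul h1
  have e : (1 - x) * Real.exp (-x) = 1 * Real.exp (-x) + x * (Real.exp (-x) * (-1)) := by ring
  rw [e]; exact h2

theorem monotoneOn_mul_exp_neg : MonotoneOn (fun s : ℝ => s * Real.exp (-s)) (Iic 1) := by
  apply monotoneOn_of_deriv_nonneg (convex_Iic 1)
  · exact (continuous_id.mul (Real.continuous_exp.comp continuous_neg)).continuousOn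
  · exact fun x _ => (hasDerivAt_mul_exp_neg x).differentiableAt.differentiableWithinAt
  · intro x hx
    rw [interior_Iic] at hx
    rw [(hasDerivAt_mul_exp_neg x).deriv]
    exact mul_nonneg (by linarith [hx.out]) (Real.exp_pos _).le

theorem antitoneOn_mul_exp_neg : AntitoneOn (fun s : ℝ => s * Real.exp (-s)) (Ici 1) := by
  apply antitoneOn_of_deriv_nonpos (convex_Ici 1)
  · exact (continuous_id.mul (Real.continuous_exp.comp continuous_neg)).continuousOn
  · exact fun x _ => (hasDerivAt_mul_exp_neg x).differentiableAt.differentiableWithinAt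
  · intro x hx
    rw [interior_Ici] at hx
    rw [(hasDerivAt_mul_exp_neg x).deriv]
    exact mul_nonpos_of_nonpos_of_nonneg (by linarith [hx.out]) (Real.exp_pos _).le

/-- The weight extended by zero to the left of `0`. -/
noncomputable def wt (s : ℝ) : ℝ := max 0 (s * Real.exp (-s))

theorem wt_nonneg (s : ℝ) : 0 ≤ wt s := le_max_left _ _

theorem wt_of_nonneg {s : ℝ} (hs : 0 ≤ s) : wt s = s * Real.exp (-s) :=
  max_eq_right (mul_nonneg hs (Real.exp_pos _).le)

theorem wt_of_nonpos {s : ℝ} (hs : s ≤ 0) : wt s = 0 :=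
  max_eq_left (mul_nonpos_of_nonpos_of_nonneg hs (Real.exp_pos _).le)

theorem wt_le_one (s : ℝ) : wt s ≤ 1 := by
  apply max_le zero_le_one
  rcases le_or_gt s 0 with h | h
  · exact le_trans (mul_nonpos_of_nonpos_of_nonneg h (Real.exp_pos _).le) zero_le_one
  · have h1 : s + 1 ≤ Real.exp s := Real.add_one_le_exp s
    rw [Real.exp_neg, ← div_eq_mul_inv, div_le_one (Real.exp_pos s)]
    linarith

theorem continuous_wt : Continuous wt :=
  continuous_const.max (continuous_id.mul (Real.continuous_exp.comp continuous_neg))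

theorem wt_monotoneOn : MonotoneOn wt (Iic 1) := by
  intro x hx y hy hxy
  exact max_le_max le_rfl (monotoneOn_mul_exp_neg hx hy hxy)

theorem wt_antitoneOn : AntitoneOn wt (Ici 1) := by
  intro x hx y hy hxy
  exact max_le_max le_rfl (antitoneOn_mul_exp_neg hx hy hxy)


theorem integrableOn_mul_exp_neg : IntegrableOn (fun s : ℝ => s * Real.exp (-s)) (Ioi 0) := by
  have h := Real.GammaIntegral_convergent (s := 2) (by norm_num)
  refine h.congr_fun (fun x hx => ?_) measurableSet_Ioi
  have : (2 : ℝ) - 1 = 1 := by norm_num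
  simp only [this, Real.rpow_one]
  ring

theorem wt_eq_indicator : wt = (Ioi (0 : ℝ)).indicator (fun s : ℝ => s * Real.exp (-s)) := by
  funext s
  by_cases hs : 0 < s
  · rw [indicator_of_mem (mem_Ioi.2 hs), wt_of_nonneg hs.le]
  · rw [indicator_of_notMem (by simpa using hs), wt_of_nonpos (not_lt.1 hs)]

theorem integrable_wt : Integrable wt := by
  rw [wt_eq_indicator, integrable_indicator_iff measurableSet_Ioi]
  exact integrableOn_mul_exp_neg

/-- The weight in the `w`-variable (`s = w + 4/3`). -/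
noncomputable def gw (w : ℝ) : ℝ := wt (w + 4 / 3)

theorem gw_nonneg (w : ℝ) : 0 ≤ gw w := wt_nonneg _

theorem integrable_gw : Integrable gw := integrable_wt.comp_add_right (4 / 3)

theorem Phi_eq_integral (R : ℝ → ℝ) : Phi R = ∫ w, R w * gw w := by
  unfold Phi
  rw [← integral_sub_right_eq_self (fun w => R w * gw w) (4 / 3),
    ← integral_indicator measurableSet_Ioi]
  congr 1
  funext s
  by_cases hs : 0 < s
  · rw [indicator_of_mem (mem_Ioi.2 hs)]
    simp only [gw, sub_add_cancel, wt_of_nonneg hs.le]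
  · rw [indicator_of_notMem (by simpa using hs)]
    simp only [gw, sub_add_cancel, wt_of_nonpos (not_lt.1 hs), mul_zero]

theorem integrable_mul_gw {h : ℝ → ℝ} (hm : Measurable h) (hb : ∀ w, |h w| ≤ 1) :
    Integrable (fun w => h w * gw w) :=
  integrable_gw.bdd_mul (c := 1) hm.aestronglyMeasurable
    (Filter.Eventually.of_forall (fun w => by simpa [Real.norm_eq_abs] using hb w))

/-- Survival function of `m + b * X`: equal to `1` for `w ≤ m` and to `exp (-(w - m) / b)` after. -/
noncomputable def expSurv (m b w : ℝ) : ℝ := min 1 (Real.exp (-(w - m) / b))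

/-- Bridge to the comparator `Rh` of `Lib_S0423_C1`. -/
theorem expSurv_eq_Rh {p : ℝ} (hp : 0 < p) : expSurv (-p) p = Rh (-(1 / (1 / p))) (1 / p) := by
  funext w
  rw [one_div_one_div]
  unfold expSurv Rh
  rcases le_total w (-p) with hw | hw
  · have h1 : max (w - -p) 0 = 0 := max_eq_right (by linarith)
    have h2 : 1 ≤ Real.exp (-(w - -p) / p) := by
      rw [Real.one_le_exp_iff]
      exact div_nonneg (by linarith) hp.le
    rw [h1, min_eq_left h2]
    simp
  · have h1 : max (w - -p) 0 = w - -p := max_eq_left (by linarith)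
    have h2 : Real.exp (-(w - -p) / p) ≤ 1 := by
      rw [Real.exp_le_one_iff]
      exact div_nonpos_of_nonpos_of_nonneg (by linarith) hp.le
    rw [h1, min_eq_right h2]
    congr 1
    field_simp

theorem expSurv_mean0 {p : ℝ} (hp : 0 < p) :
    IntegrableOn (expSurv (-p) p) (Ioi 0) ∧ IntegrableOn (fun w => 1 - expSurv (-p) p w) (Iic 0) ∧
      (∫ w in Ioi (0 : ℝ), expSurv (-p) p w) - ∫ w in Iic (0 : ℝ), (1 - expSurv (-p) p w) = 0 := by
  have hβ : 0 < 1 / p := by positivity
  have hm : -(1 / (1 / p)) ≤ 0 := by rw [one_div_one_div]; linarith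
  have h := Rh_mean hβ hm
  rw [← expSurv_eq_Rh hp] at h
  obtain ⟨h1, h2, h3⟩ := h
  refine ⟨h1, h2, ?_⟩
  rw [h3, one_div_one_div]
  ring

theorem Phi_expSurv_centered {p : ℝ} (hp : 0 < p) :
    4 / 9 * Real.exp (-(1 / 3)) ≤ Phi (expSurv (-p) p) := by
  have hβ : 0 < 1 / p := by positivity
  have h := Phi_Rh_centered hβ
  rwa [← expSurv_eq_Rh hp] at h

theorem expSurv_mem (m b w : ℝ) : 0 ≤ expSurv m b w ∧ expSurv m b w ≤ 1 := by
  unfold expSurv
  exact ⟨le_min zero_le_one (Real.exp_pos _).le, min_le_left _ _⟩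

theorem expSurv_cont (m b : ℝ) : Continuous (expSurv m b) := by
  unfold expSurv
  exact continuous_const.min (Real.continuous_exp.comp (by fun_prop))


/-- A function negative on a set of infinite (hence positive) measure has a non-zero integral
there; stated as a contradiction with a vanishing integral. -/
theorem not_integral_zero_of_neg {s : Set ℝ} (hs : MeasurableSet s) (hpos : 0 < volume s)
    {f : ℝ → ℝ} (hf : IntegrableOn f s) (hneg : ∀ x ∈ s, f x < 0) :
    ∫ x in s, f x ≠ 0 := by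
  have h1 : 0 ≤ᵐ[volume.restrict s] (fun x => -f x) :=
    ae_restrict_of_forall_mem hs (fun x hx => (neg_pos.2 (hneg x hx)).le)
  have h2 := (setIntegral_pos_iff_support_of_nonneg_ae h1 hf.neg).2 (by
    have hsub : s ⊆ Function.support (fun x => -f x) ∩ s := by
      intro x hx
      exact ⟨by simpa [Function.mem_support] using (hneg x hx).ne, hx⟩
    exact lt_of_lt_of_le hpos (measure_mono hsub))
  rw [integral_neg] at h2
  intro h
  rw [h] at h2
  simp at h2

theorem Phi_ge_of_match (R : ℝ → ℝ) (hc : Continuous R) (h01 : ∀ w, 0 < R w ∧ R w < 1)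
    (hconv : ConvexOn ℝ univ (fun w => -Real.log (R w))) (p : ℝ) (hp : 0 < p)
    (hI1 : IntegrableOn (fun w => R w - expSurv (-p) p w) (Ioi (-(1 / 3))))
    (hI2 : IntegrableOn (fun w => R w - expSurv (-p) p w) (Iic (-(1 / 3))))
    (h1 : ∫ w in Ioi (-(1 / 3) : ℝ), (R w - expSurv (-p) p w) = 0)
    (h2 : ∫ w in Iic (-(1 / 3) : ℝ), (R w - expSurv (-p) p w) = 0) :
    Phi (expSurv (-p) p) ≤ Phi R := by
  set D : ℝ → ℝ := fun w => R w - expSurv (-p) p w with hD
  set ψ : ℝ → ℝ := fun w => Real.log (R w) + (w + p) / p with hψ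
  -- concavity of ψ
  have hψc : ConcaveOn ℝ univ ψ := by
    have hlog : ConcaveOn ℝ univ (fun w => Real.log (R w)) := by
      have := hconv.neg
      have e : (-fun w => -Real.log (R w)) = fun w => Real.log (R w) := by
        funext w; simp
      rwa [e] at this
    have haff : ConcaveOn ℝ univ (fun w : ℝ => (w + p) / p) := by
      refine ⟨convex_univ, fun x _ y _ a b _ _ hab => le_of_eq ?_⟩
      simp only [smul_eq_mul]
      have hb : b = 1 - a := by linarith
      subst hb
      field_simp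
      ring
    exact hlog.add haff
  -- the sign of D is the sign of ψ
  have hsign : ∀ w, 0 ≤ D w ↔ 0 ≤ ψ w := by
    intro w
    have hR := h01 w
    simp only [hD, hψ, expSurv]
    have e : -(w - -p) / p = -((w + p) / p) := by ring
    rcases lt_or_ge w (-p) with hw | hw
    · have hq : (w + p) / p < 0 := div_neg_of_neg_of_pos (by linarith) hp
      have hexp : 1 ≤ Real.exp (-(w - -p) / p) := by
        rw [Real.one_le_exp_iff, e]; linarith
      rw [min_eq_left hexp]
      have hlog : Real.log (R w) < 0 := Real.log_neg hR.1 hR.2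
      constructor
      · intro h; linarith
      · intro h; linarith
    · have hq : 0 ≤ (w + p) / p := div_nonneg (by linarith) hp.le
      have hexp : Real.exp (-(w - -p) / p) ≤ 1 := by
        rw [Real.exp_le_one_iff, e]; linarith
      rw [min_eq_right hexp, sub_nonneg, ← Real.le_log_iff_exp_le hR.1, e]
      constructor <;> intro h <;> linarith
  have hneg_iff : ∀ w, D w < 0 ↔ ψ w < 0 := fun w => by
    rw [← not_le, ← not_le, hsign w]
  -- K = {ψ ≥ 0} is order-connected
  have hK : ∀ x y z, x ≤ y → y ≤ z → 0 ≤ ψ x → 0 ≤ ψ z → 0 ≤ ψ y := by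
    intro x y z hxy hyz hx hz
    have hconvK : Convex ℝ {x | x ∈ (univ : Set ℝ) ∧ 0 ≤ ψ x} := hψc.convex_ge 0
    have hoc := hconvK.ordConnected
    exact (hoc.out (⟨mem_univ x, hx⟩) (⟨mem_univ z, hz⟩) ⟨hxy, hyz⟩).2
  -- D is bounded and measurable
  have hDmeas : Measurable D := (hc.sub (expSurv_cont _ _)).measurable
  have hDbdd : ∀ w, |D w| ≤ 1 := by
    intro w
    have hR := h01 w
    have hE := expSurv_mem (-p) p w
    rw [abs_le]
    constructor <;> simp only [hD] <;> linarith
  have hDg : Integrable (fun w => D w * gw w) := integrable_mul_gw hDmeas hDbdd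
  -- the mode lies in K
  have hm0 : 0 ≤ ψ (-(1 / 3)) := by
    by_contra hm
    by_cases hr : ∃ y, -(1 / 3) < y ∧ 0 ≤ ψ y
    · obtain ⟨y, hy, hψy⟩ := hr
      refine not_integral_zero_of_neg measurableSet_Iic (by simp) hI2 ?_ h2
      intro x hx
      rw [hneg_iff]
      by_contra hx'
      exact hm (hK x _ y hx hy.le (not_lt.1 hx') hψy)
    · push Not at hr
      refine not_integral_zero_of_neg measurableSet_Ioi (by simp) hI1 ?_ h1
      intro x hx
      rw [hneg_iff]
      exact hr x hx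
  have hD0 : 0 ≤ D (-(1 / 3)) := (hsign _).2 hm0
  -- right side
  have hright : 0 ≤ ∫ w in Ici (-(1 / 3) : ℝ), D w * gw w := by
    refine crossing measurableSet_Ici ((integrableOn_Ici_iff_integrableOn_Ioi (by simp)).2 hI1)
      hDg.integrableOn ?_ (fun x _ => gw_nonneg x) ?_ ⟨-(1 / 3), self_mem_Ici, hD0⟩
    · rw [integral_Ici_eq_integral_Ioi]; exact h1
    · intro x hx y hy hfx hfy
      have hyx : y ≤ x := by
        by_contra hxy
        have : 0 ≤ ψ x := hK _ x y hx (not_le.1 hxy).le hm0 ((hsign y).1 hfy)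
        exact absurd ((hneg_iff x).1 hfx) (not_lt.2 this)
      have hx1 : (1 : ℝ) ≤ x + 4 / 3 := by have := mem_Ici.1 hx; linarith
      have hy1 : (1 : ℝ) ≤ y + 4 / 3 := by have := mem_Ici.1 hy; linarith
      exact wt_antitoneOn (mem_Ici.2 hy1) (mem_Ici.2 hx1) (by linarith)
  -- left side
  have hleft : 0 ≤ ∫ w in Iic (-(1 / 3) : ℝ), D w * gw w := by
    refine crossing measurableSet_Iic hI2 hDg.integrableOn h2 (fun x _ => gw_nonneg x) ?_
      ⟨-(1 / 3), self_mem_Iic, hD0⟩
    intro x hx y hy hfx hfy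
    have hxy : x ≤ y := by
      by_contra hyx
      have : 0 ≤ ψ x := hK y x _ (not_le.1 hyx).le hx ((hsign y).1 hfy) hm0
      exact absurd ((hneg_iff x).1 hfx) (not_lt.2 this)
    have hx1 : x + 4 / 3 ≤ (1 : ℝ) := by have := mem_Iic.1 hx; linarith
    have hy1 : y + 4 / 3 ≤ (1 : ℝ) := by have := mem_Iic.1 hy; linarith
    exact wt_monotoneOn (mem_Iic.2 hx1) (mem_Iic.2 hy1) (by linarith)
  -- assemble
  have htot : 0 ≤ ∫ w, D w * gw w := by
    rw [← intervalIntegral.integral_Iic_add_Ioi hDg.integrableOn hDg.integrableOn (b := -(1 / 3)),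
      ← integral_Ici_eq_integral_Ioi]
    exact add_nonneg hleft hright
  have hRg : Integrable (fun w => R w * gw w) :=
    integrable_mul_gw hc.measurable (fun w => by
      have := h01 w; rw [abs_le]; constructor <;> linarith)
  have hEg : Integrable (fun w => expSurv (-p) p w * gw w) :=
    integrable_mul_gw (expSurv_cont _ _).measurable (fun w => by
      have := expSurv_mem (-p) p w; rw [abs_le]; constructor <;> linarith)
  have hsplit : ∫ w, D w * gw w = (∫ w, R w * gw w) - ∫ w, expSurv (-p) p w * gw w := by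
    rw [← integral_sub hRg hEg]
    congr 1
    funext w
    simp only [hD]
    ring
  rw [Phi_eq_integral, Phi_eq_integral]
  linarith


/-! ### Choosing the comparison parameter -/

/-- Moving the cut point from `0` to `m ≤ 0` in the "mean" of a survival function. -/
theorem shift_mean (f : ℝ → ℝ) (hc : Continuous f) (hi1 : IntegrableOn f (Ioi 0))
    (hi2 : IntegrableOn (fun w => 1 - f w) (Iic 0)) (m : ℝ) (hm : m ≤ 0) :
    IntegrableOn f (Ioi m) ∧ IntegrableOn (fun w => 1 - f w) (Iic m) ∧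
    (∫ w in Ioi m, f w) - (∫ w in Iic m, (1 - f w))
      = (∫ w in Ioi (0 : ℝ), f w) - (∫ w in Iic (0 : ℝ), (1 - f w)) - m := by
  have hI1 : IntegrableOn f (Ioi m) := by
    have : Ioi m = Ioc m 0 ∪ Ioi 0 := (Ioc_union_Ioi_eq_Ioi hm).symm
    rw [this]
    exact (hc.integrableOn_Ioc).union hi1
  have hI2 : IntegrableOn (fun w => 1 - f w) (Iic m) := hi2.mono_set (Iic_subset_Iic.2 hm)
  refine ⟨hI1, hI2, ?_⟩
  have e1 : (∫ x in m..0, f x) + ∫ x in Ioi (0 : ℝ), f x = ∫ x in Ioi m, f x :=
    intervalIntegral.integral_interval_add_Ioi hI1 hi1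
  have e2 : (∫ x in Iic (0 : ℝ), (1 - f x)) - ∫ x in Iic m, (1 - f x)
      = ∫ x in m..0, (1 - f x) :=
    intervalIntegral.integral_Iic_sub_Iic hI2 hi2
  have e3 : ∫ x in m..0, (1 - f x) = (0 - m) - ∫ x in m..0, f x := by
    rw [intervalIntegral.integral_sub (by simp) (hc.intervalIntegrable _ _)]
    simp
  linarith

theorem integral_expSurv_Ioi {p : ℝ} (hp : 1 / 3 ≤ p) :
    ∫ w in Ioi (-(1 / 3) : ℝ), expSurv (-p) p w = p * Real.exp (1 / (3 * p) - 1) := by
  have hp0 : 0 < p := by linarith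
  have h1 : ∀ w ∈ Ioi (-(1 / 3) : ℝ),
      expSurv (-p) p w = Real.exp (-1) * Real.exp ((-1 / p) * w) := by
    intro w hw
    have hw' : -(1 / 3) < w := hw
    unfold expSurv
    have e : -(w - -p) / p = -1 + (-1 / p) * w := by field_simp; ring
    rw [min_eq_right, e, Real.exp_add]
    rw [Real.exp_le_one_iff]
    apply div_nonpos_of_nonpos_of_nonneg _ hp0.le
    linarith
  have hneg : -1 / p < 0 := div_neg_of_neg_of_pos (by norm_num) hp0
  rw [setIntegral_congr_fun measurableSet_Ioi h1, integral_const_mul,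
    integral_exp_mul_Ioi hneg]
  have e2 : (-1 / p) * (-(1 / 3)) = 1 / (3 * p) := by field_simp
  rw [e2, sub_eq_add_neg, Real.exp_add]
  field_simp

theorem exists_match (R : ℝ → ℝ) (hc : Continuous R) (h01 : ∀ w, 0 < R w ∧ R w < 1)
    (hi1 : IntegrableOn R (Ioi 0)) (hi2 : IntegrableOn (fun w => 1 - R w) (Iic 0))
    (hmean : ∫ w in Ioi (0 : ℝ), R w = ∫ w in Iic (0 : ℝ), (1 - R w)) :
    ∃ p : ℝ, 1 / 3 ≤ p ∧
      IntegrableOn (fun w => R w - expSurv (-p) p w) (Ioi (-(1 / 3))) ∧
      IntegrableOn (fun w => R w - expSurv (-p) p w) (Iic (-(1 / 3))) ∧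
      ∫ w in Ioi (-(1 / 3) : ℝ), (R w - expSurv (-p) p w) = 0 ∧
      ∫ w in Iic (-(1 / 3) : ℝ), (R w - expSurv (-p) p w) = 0 := by
  obtain ⟨hRI1, hRI2, hRm⟩ := shift_mean R hc hi1 hi2 (-(1 / 3)) (by norm_num)
  set A := ∫ w in Ioi (-(1 / 3) : ℝ), R w with hA
  set B := ∫ w in Iic (-(1 / 3) : ℝ), (1 - R w) with hB
  have hB0 : 0 ≤ B :=
    setIntegral_nonneg measurableSet_Iic (fun w _ => by have := h01 w; linarith)
  have hAB : A = B + 1 / 3 := by rw [hmean] at hRm; linarith
  have hA0 : 0 ≤ A := by linarith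
  -- intermediate value theorem
  set φ : ℝ → ℝ := fun p => p * Real.exp (1 / (3 * p) - 1) with hφ
  set P : ℝ := A * Real.exp 1 + 1 / 3 with hP
  have hP3 : 1 / 3 ≤ P := by
    have : 0 ≤ A * Real.exp 1 := mul_nonneg hA0 (Real.exp_pos _).le
    linarith
  have hcont : ContinuousOn φ (Icc (1 / 3) P) := by
    intro x hx
    have hx0 : (3 * x) ≠ 0 := by have := hx.1; positivity
    apply ContinuousAt.continuousWithinAt
    have h3 : ContinuousAt (fun p : ℝ => 1 / (3 * p) - 1) x :=
      ((continuousAt_const).div (continuousAt_const.mul continuousAt_id) hx0).sub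
        continuousAt_const
    exact continuousAt_id.mul (Real.continuous_exp.continuousAt.comp h3)
  have hφ1 : φ (1 / 3) = 1 / 3 := by
    simp only [hφ]
    norm_num
  have hφP : A ≤ φ P := by
    have hP0 : 0 < P := by linarith
    have h1 : Real.exp (-1) ≤ Real.exp (1 / (3 * P) - 1) := by
      apply Real.exp_le_exp.2
      have : 0 ≤ 1 / (3 * P) := by positivity
      linarith
    have h2 : A ≤ P * Real.exp (-1) := by
      have he : Real.exp 1 * Real.exp (-1) = 1 := by rw [← Real.exp_add]; simp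
      have : P * Real.exp (-1) = A + 1 / 3 * Real.exp (-1) := by
        rw [hP, add_mul, mul_assoc, he, mul_one]
      have h3 : 0 ≤ 1 / 3 * Real.exp (-1) := by positivity
      linarith
    calc A ≤ P * Real.exp (-1) := h2
      _ ≤ P * Real.exp (1 / (3 * P) - 1) := mul_le_mul_of_nonneg_left h1 hP0.le
  obtain ⟨p, hpI, hpA⟩ := intermediate_value_Icc hP3 hcont ⟨by rw [hφ1]; linarith, hφP⟩
  have hp3 : 1 / 3 ≤ p := hpI.1
  have hp0 : 0 < p := by linarith
  obtain ⟨hEi1, hEi2, hEm⟩ := expSurv_mean0 hp0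
  obtain ⟨hEI1, hEI2, hEm'⟩ :=
    shift_mean (expSurv (-p) p) (expSurv_cont _ _) hEi1 hEi2 (-(1 / 3)) (by norm_num)
  have hEA : ∫ w in Ioi (-(1 / 3) : ℝ), expSurv (-p) p w = A := by
    rw [integral_expSurv_Ioi hp3]; exact hpA
  have hEB : ∫ w in Iic (-(1 / 3) : ℝ), (1 - expSurv (-p) p w) = B := by
    rw [hEm, hEA] at hEm'
    linarith
  have hI2 : IntegrableOn (fun w => R w - expSurv (-p) p w) (Iic (-(1 / 3))) := by
    have := hEI2.sub hRI2
    refine this.congr_fun (fun w _ => ?_) measurableSet_Iic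
    simp only [Pi.sub_apply]
    ring
  refine ⟨p, hp3, hRI1.sub hEI1, hI2, ?_, ?_⟩
  · rw [integral_sub hRI1 hEI1, hEA]
    exact sub_self A
  · have e : ∫ w in Iic (-(1 / 3) : ℝ), (R w - expSurv (-p) p w)
        = ∫ w in Iic (-(1 / 3) : ℝ), ((1 - expSurv (-p) p w) - (1 - R w)) := by
      congr 1
      funext w
      ring
    rw [e, integral_sub hEI2 hRI2, hEB]
    exact sub_self B

/-- Part [C] (statement verbatim from the plan). -/
theorem Phi_ge (R : ℝ → ℝ) (hc : Continuous R) (h01 : ∀ w, 0 < R w ∧ R w < 1) (hanti : Antitone R)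
    (hconv : ConvexOn ℝ univ (fun w => -Real.log (R w)))
    (hi1 : IntegrableOn R (Ioi 0)) (hi2 : IntegrableOn (fun w => 1 - R w) (Iic 0))
    (hmean : ∫ w in Ioi (0 : ℝ), R w = ∫ w in Iic (0 : ℝ), (1 - R w)) :
    4 / 9 * Real.exp (-(1 / 3)) ≤ Phi R := by
  obtain ⟨p, hp3, hI1, hI2, h1, h2⟩ := exists_match R hc h01 hi1 hi2 hmean
  have hp0 : 0 < p := by linarith
  exact le_trans (Phi_expSurv_centered hp0) (Phi_ge_of_match R hc h01 hconv p hp0 hI1 hI2 h1 h2)

end Crest.Agent.Lib_S0423_CMatch
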