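import Mathlib

/-!
Integrals over the positive orthant of `Fin n → ℝ`, rewritten as integrals against the product of
the restricted Lebesgue measures on the positive half-line, with the splitting off of one
coordinate (Fubini).
-/

open MeasureTheory Set

namespace Crest.Agent.Lib_helper24_Orthant

/-- Lebesgue measure restricted to the positive half-line. -/
noncomputable abbrev halfLine : Measure ℝ := volume.restrict (Set.Ioi (0:ℝ))

/-- The product of `n` copies of `halfLine`. -/
noncomputable abbrev orthantMeasure (n : ℕ) : Measure (Fin n → ℝ) :=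
  Measure.pi (fun _ : Fin n => halfLine)

lemma setIntegral_orthant_eq (n : ℕ) (F : (Fin n → ℝ) → ℝ) :
    ∫ x in Set.pi Set.univ (fun _ : Fin n => Set.Ioi (0 : ℝ)), F x
      = ∫ x, F x ∂(orthantMeasure n) := by
  rw [volume_pi, Measure.restrict_pi_pi]

lemma integrable_pi_succ_iff (n : ℕ) (F : (Fin (n+1) → ℝ) → ℝ) :
    Integrable F (orthantMeasure (n+1)) ↔
    Integrable (fun p : ℝ × (Fin n → ℝ) => F (Fin.cons p.1 p.2))
      (halfLine.prod (orthantMeasure n)) := by
  have mp := (measurePreserving_piFinSuccAbove (fun _ : Fin (n+1) => halfLine) 0).symm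
  rw [← mp.integrable_comp_emb (MeasurableEquiv.measurableEmbedding _)]
  have : (F ∘ ⇑(MeasurableEquiv.piFinSuccAbove (fun _ => ℝ) 0).symm)
      = (fun p : ℝ × (Fin n → ℝ) => F (Fin.cons p.1 p.2)) := by
    funext p
    simp only [Function.comp, MeasurableEquiv.piFinSuccAbove_symm_apply, Fin.insertNthEquiv,
      Equiv.coe_fn_mk, Fin.insertNth_zero, cast_eq]
  rw [this]

lemma integral_pi_succ_prod (n : ℕ) (F : (Fin (n+1) → ℝ) → ℝ) :
    ∫ x, F x ∂(orthantMeasure (n+1))
      = ∫ p : ℝ × (Fin n → ℝ), F (Fin.cons p.1 p.2) ∂(halfLine.prod (orthantMeasure n)) := by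
  have mp := (measurePreserving_piFinSuccAbove (fun _ : Fin (n+1) => halfLine) 0).symm
  rw [← mp.integral_comp']
  simp only [MeasurableEquiv.piFinSuccAbove_symm_apply, Fin.insertNthEquiv, Equiv.coe_fn_mk,
      Fin.insertNth_zero, cast_eq]

/-- Fubini: first coordinate outside. -/
lemma integral_pi_succ (n : ℕ) (F : (Fin (n+1) → ℝ) → ℝ)
    (hF : Integrable F (orthantMeasure (n+1))) :
    ∫ x, F x ∂(orthantMeasure (n+1))
      = ∫ x₀, ∫ y, F (Fin.cons x₀ y) ∂(orthantMeasure n) ∂halfLine := by
  rw [integral_pi_succ_prod, integral_prod _ ((integrable_pi_succ_iff n F).mp hF)]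

/-- Fubini: first coordinate inside. -/
lemma integral_pi_succ' (n : ℕ) (F : (Fin (n+1) → ℝ) → ℝ)
    (hF : Integrable F (orthantMeasure (n+1))) :
    ∫ x, F x ∂(orthantMeasure (n+1))
      = ∫ y, ∫ x₀, F (Fin.cons x₀ y) ∂halfLine ∂(orthantMeasure n) := by
  rw [integral_pi_succ_prod, integral_prod_symm _ ((integrable_pi_succ_iff n F).mp hF)]

lemma integrable_inner_of_integrable (n : ℕ) (F : (Fin (n+1) → ℝ) → ℝ)
    (hF : Integrable F (orthantMeasure (n+1))) :
    Integrable (fun y => ∫ x₀, F (Fin.cons x₀ y) ∂halfLine) (orthantMeasure n) :=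
  ((integrable_pi_succ_iff n F).mp hF).integral_prod_right

lemma integrable_outer_of_integrable (n : ℕ) (F : (Fin (n+1) → ℝ) → ℝ)
    (hF : Integrable F (orthantMeasure (n+1))) :
    Integrable (fun x₀ => ∫ y, F (Fin.cons x₀ y) ∂(orthantMeasure n)) halfLine :=
  ((integrable_pi_succ_iff n F).mp hF).integral_prod_left

/-- The exponential weight is integrable on the orthant. -/
lemma integrable_exp_neg_sum (n : ℕ) :
    Integrable (fun x : Fin n → ℝ => Real.exp (-∑ i, x i)) (orthantMeasure n) := by
  have h : (fun x : Fin n → ℝ => Real.exp (-∑ i, x i)) = fun x => ∏ i, Real.exp (-(x i)) := by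
    funext x
    rw [← Real.exp_sum, Finset.sum_neg_distrib]
  rw [h]
  exact Integrable.fintype_prod (fun _ => integrableOn_exp_neg_Ioi 0)

/-- A measurable function bounded by a constant times the exponential weight is integrable. -/
lemma integrable_of_bound (n : ℕ) (F : (Fin n → ℝ) → ℝ) (C : ℝ)
    (hm : AEStronglyMeasurable F (orthantMeasure n))
    (hb : ∀ x, |F x| ≤ C * Real.exp (-∑ i, x i)) :
    Integrable F (orthantMeasure n) := by
  refine Integrable.mono' ((integrable_exp_neg_sum n).const_mul C) hm ?_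
  exact Filter.Eventually.of_forall (fun x => by simpa [Real.norm_eq_abs] using hb x)

end Crest.Agent.Lib_helper24_Orthant
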