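import Mathlib
import Crest.Prelude.Def_TruncExpWeight
import Crest.Agent.Lib_helper24_Orthant
open MeasureTheory Set Filter Topology

namespace Crest.Agent.Lib_helper24_S0423L
open Crest.AlgGeometry

lemma tew_nonneg (u : ℝ) : 0 ≤ truncExpWeight u := by
  unfold truncExpWeight
  split_ifs with h
  · norm_num
  · have h' : 0 < u := not_le.mp h
    positivity

lemma tew_le_one (u : ℝ) : truncExpWeight u ≤ 1 := by
  unfold truncExpWeight
  split_ifs with h
  · exact le_refl _
  · have h1 : 1 + u ≤ Real.exp u := by linarith [Real.add_one_le_exp u]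
    have h2 : Real.exp (-u) = (Real.exp u)⁻¹ := Real.exp_neg u
    rw [h2]
    have hpos : 0 < Real.exp u := Real.exp_pos u
    calc (1 + u) * (Real.exp u)⁻¹ ≤ Real.exp u * (Real.exp u)⁻¹ := by
          apply mul_le_mul_of_nonneg_right h1 (inv_nonneg.mpr hpos.le)
      _ = 1 := mul_inv_cancel₀ hpos.ne'

lemma tew_continuous : Continuous truncExpWeight := by
  unfold truncExpWeight
  apply Continuous.if_le (by fun_prop) (by fun_prop) continuous_id continuous_const
  intro x hx
  simp at hx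
  subst hx
  simp

lemma tendsto_affine_mul_exp (A B C : ℝ) :
    Tendsto (fun x : ℝ => (A + B * x) * Real.exp (-C - 3 * x)) atTop (𝓝 0) := by
  have h2 : Tendsto (fun x : ℝ => (|A| + |B|) * Real.exp (-C) * Real.exp (-(2 * x))) atTop (𝓝 0) := by
    have : Tendsto (fun x : ℝ => Real.exp (-(2 * x))) atTop (𝓝 0) := by
      apply Real.tendsto_exp_atBot.comp
      apply tendsto_neg_atTop_atBot.comp
      exact tendsto_id.const_mul_atTop (by norm_num : (0:ℝ) < 2)
    simpa using this.const_mul ((|A| + |B|) * Real.exp (-C))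
  refine squeeze_zero_norm' ?_ h2
  filter_upwards [eventually_ge_atTop (0:ℝ)] with x hx
  rw [Real.norm_eq_abs, abs_mul, abs_of_pos (Real.exp_pos _)]
  have h1 : |A + B * x| ≤ (|A| + |B|) * Real.exp x := by
    have hx1 : 1 + x ≤ Real.exp x := by linarith [Real.add_one_le_exp x]
    calc |A + B * x| ≤ |A| + |B * x| := abs_add_le _ _
      _ = |A| + |B| * x := by rw [abs_mul, abs_of_nonneg hx]
      _ ≤ (|A| + |B|) * (1 + x) := by nlinarith [abs_nonneg A, abs_nonneg B]
      _ ≤ (|A| + |B|) * Real.exp x := by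
          apply mul_le_mul_of_nonneg_left hx1; positivity
  calc |A + B * x| * Real.exp (-C - 3 * x)
      ≤ ((|A| + |B|) * Real.exp x) * Real.exp (-C - 3 * x) :=
        mul_le_mul_of_nonneg_right h1 (Real.exp_pos _).le
    _ = (|A| + |B|) * Real.exp (-C) * Real.exp (-(2 * x)) := by
        have e2 : Real.exp x * Real.exp (-C - 3 * x) = Real.exp (-C) * Real.exp (-(2 * x)) := by
          rw [← Real.exp_add, ← Real.exp_add]; congr 1; ring
        calc ((|A| + |B|) * Real.exp x) * Real.exp (-C - 3 * x)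
            = (|A| + |B|) * (Real.exp x * Real.exp (-C - 3 * x)) := by ring
          _ = _ := by rw [e2]; ring

/-- the integrand of the inner one-dimensional integral -/
noncomputable def innerF (t x : ℝ) : ℝ := truncExpWeight (t + 2 * x) * Real.exp (-x)

lemma innerF_continuous (t : ℝ) : Continuous (innerF t) := by
  unfold innerF
  exact (tew_continuous.comp (by fun_prop)).mul (by fun_prop)

lemma innerF_integrableOn (t a : ℝ) : IntegrableOn (innerF t) (Ioi a) := by
  refine Integrable.mono' (integrableOn_exp_neg_Ioi a) (innerF_continuous t).aestronglyMeasurable ?_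
  refine Filter.Eventually.of_forall (fun x => ?_)
  unfold innerF
  rw [Real.norm_eq_abs, abs_of_nonneg (mul_nonneg (tew_nonneg _) (Real.exp_pos _).le)]
  calc truncExpWeight (t + 2 * x) * Real.exp (-x) ≤ 1 * Real.exp (-x) :=
        mul_le_mul_of_nonneg_right (tew_le_one _) (Real.exp_pos _).le
    _ = Real.exp (-x) := one_mul _

/-- tail integral where the argument of the weight is positive -/
lemma innerF_tail (t x₁ : ℝ) (h : 0 ≤ t + 2 * x₁) :
    ∫ x in Ioi x₁, innerF t x = (5 / 9 + (t + 2 * x₁) / 3) * Real.exp (-t - 3 * x₁) := by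
  have hcongr : ∫ x in Ioi x₁, innerF t x
      = ∫ x in Ioi x₁, (1 + (t + 2 * x)) * Real.exp (-t - 3 * x) := by
    apply setIntegral_congr_fun measurableSet_Ioi
    intro x hx
    have hx' : x₁ < x := hx
    have hpos : ¬ (t + 2 * x ≤ 0) := by
      push Not
      linarith
    simp only [innerF, truncExpWeight, if_neg hpos]
    rw [mul_assoc, ← Real.exp_add]
    congr 2
    ring
  rw [hcongr]
  have key := integral_Ioi_of_hasDerivAt_of_nonneg' (a := x₁) (l := 0)
    (g := fun x => -((5 / 9 + (t + 2 * x) / 3) * Real.exp (-t - 3 * x)))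
    (g' := fun x => (1 + (t + 2 * x)) * Real.exp (-t - 3 * x)) ?_ ?_ ?_
  · rw [key]; ring
  · intro x _
    have h1 : HasDerivAt (fun x : ℝ => 5 / 9 + (t + 2 * x) / 3) (2 / 3) x := by
      have := ((hasDerivAt_id x).const_mul (2:ℝ)).const_add t |>.div_const 3 |>.const_add (5/9)
      simpa using this
    have h2 : HasDerivAt (fun x : ℝ => Real.exp (-t - 3 * x)) (Real.exp (-t - 3 * x) * (-3)) x := by
      have h3 : HasDerivAt (fun x : ℝ => -t - 3 * x) (-3) x := by
        have := ((hasDerivAt_id x).const_mul (3:ℝ)).const_sub (-t)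
        simpa using this
      exact h3.exp
    have := (h1.mul h2).neg
    exact this.congr_deriv (by ring)
  · intro x hx
    have hx' : x₁ < x := hx
    have : 0 ≤ 1 + (t + 2 * x) := by linarith
    positivity
  · -- limit at infinity
    have h1 := tendsto_affine_mul_exp (5 / 9 + t / 3) (2 / 3) t
    have h2 : (fun x : ℝ => -((5 / 9 + (t + 2 * x) / 3) * Real.exp (-t - 3 * x)))
        = fun x : ℝ => -((5 / 9 + t / 3 + 2 / 3 * x) * Real.exp (-t - 3 * x)) := by
      funext x; ring_nf
    rw [h2]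
    simpa using h1.neg

lemma integral_exp_neg_interval (a b : ℝ) :
    ∫ x in a..b, Real.exp (-x) = Real.exp (-a) - Real.exp (-b) := by
  have h : ∀ x ∈ Set.uIcc a b, HasDerivAt (fun x : ℝ => -Real.exp (-x)) (Real.exp (-x)) x := by
    intro x _
    have h0 := ((hasDerivAt_id x).neg.exp).neg
    exact h0.congr_deriv (by simp)
  rw [intervalIntegral.integral_eq_sub_of_hasDerivAt h]
  · ring
  · exact (by fun_prop : Continuous fun x : ℝ => Real.exp (-x)).intervalIntegrable _ _

/-- the key pointwise lower bound for the inner integral -/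
lemma inner_bound (t : ℝ) :
    1 - 4 / 9 * Real.exp (t / 2) ≤ ∫ x in Ioi (0:ℝ), innerF t x := by
  rcases le_or_gt 0 t with ht | ht
  · -- t ≥ 0
    have e1 : ∫ x in Ioi (0:ℝ), innerF t x = (5 / 9 + t / 3) * Real.exp (-t) := by
      have := innerF_tail t 0 (by simpa using ht)
      simpa using this
    have e2 : ∫ x in Ioi (t / 2), innerF 0 x = (5 / 9 + t / 3) * Real.exp (-(3 * t / 2)) := by
      have := innerF_tail 0 (t / 2) (by linarith)
      rw [this]
      congr 1
      · ring
      · congr 1; ring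
    have e3 : ∫ x in Ioi (0:ℝ), innerF 0 x = 5 / 9 := by
      have := innerF_tail 0 0 (by norm_num)
      simpa using this
    have e4 := intervalIntegral.integral_interval_add_Ioi (a := 0) (b := t / 2)
      (innerF_integrableOn 0 0) (innerF_integrableOn 0 (t / 2))
    have e5 : ∫ x in (0:ℝ)..(t / 2), innerF 0 x ≤ ∫ x in (0:ℝ)..(t / 2), Real.exp (-x) := by
      apply intervalIntegral.integral_mono_on (by linarith)
      · exact (innerF_continuous 0).intervalIntegrable _ _
      · exact (by fun_prop : Continuous fun x : ℝ => Real.exp (-x)).intervalIntegrable _ _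
      · intro x _
        unfold innerF
        calc truncExpWeight (0 + 2 * x) * Real.exp (-x) ≤ 1 * Real.exp (-x) :=
              mul_le_mul_of_nonneg_right (tew_le_one _) (Real.exp_pos _).le
          _ = Real.exp (-x) := one_mul _
    rw [integral_exp_neg_interval] at e5
    have e6 : (5 / 9 + t / 3) * Real.exp (-t)
        = Real.exp (t / 2) * ((5 / 9 + t / 3) * Real.exp (-(3 * t / 2))) := by
      have : Real.exp (-t) = Real.exp (t / 2) * Real.exp (-(3 * t / 2)) := by
        rw [← Real.exp_add]; congr 1; ring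
      rw [this]; ring
    rw [e1, e6, ← e2]
    have e7 : ∫ x in Ioi (t / 2), innerF 0 x = 5 / 9 - ∫ x in (0:ℝ)..(t / 2), innerF 0 x := by
      linarith
    rw [e7]
    have hpos : 0 < Real.exp (t / 2) := Real.exp_pos _
    have e8 : Real.exp (t / 2) * Real.exp (-(t / 2)) = 1 := by
      rw [← Real.exp_add]; simp
    have : Real.exp (t / 2) * (5 / 9 - (Real.exp (-0) - Real.exp (-(t / 2))))
        ≤ Real.exp (t / 2) * (5 / 9 - ∫ x in (0:ℝ)..(t / 2), innerF 0 x) := by
      apply mul_le_mul_of_nonneg_left _ hpos.le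
      linarith
    have e9 : Real.exp (t / 2) * (5 / 9 - (Real.exp (-0) - Real.exp (-(t / 2))))
        = 1 - 4 / 9 * Real.exp (t / 2) := by
      simp only [neg_zero, Real.exp_zero]
      linear_combination e8
    linarith
  · -- t < 0
    have e1 := intervalIntegral.integral_interval_add_Ioi (a := 0) (b := -t / 2)
      (innerF_integrableOn t 0) (innerF_integrableOn t (-t / 2))
    have e2 : ∫ x in Ioi (-t / 2), innerF t x = 5 / 9 * Real.exp (t / 2) := by
      have := innerF_tail t (-t / 2) (by linarith)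
      rw [this]
      congr 1
      · ring
      · congr 1; ring
    have e3 : ∫ x in (0:ℝ)..(-t / 2), innerF t x = ∫ x in (0:ℝ)..(-t / 2), Real.exp (-x) := by
      apply intervalIntegral.integral_congr
      intro x hx
      rw [Set.uIcc_of_le (by linarith)] at hx
      have : t + 2 * x ≤ 0 := by linarith [hx.2]
      simp [innerF, truncExpWeight, this]
    rw [integral_exp_neg_interval] at e3
    have e4 : Real.exp (-(-t / 2)) = Real.exp (t / 2) := by congr 1; ring
    rw [← e1, e2, e3, e4]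
    simp only [neg_zero, Real.exp_zero]
    linarith

open Crest.Agent.Lib_helper24_Orthant

/-- coefficient vector `(2, -2/n, …, -2/n)` -/
noncomputable def coeffs (n : ℕ) : Fin (n+1) → ℝ := Fin.cons 2 (fun _ => -2 / (n:ℝ))

lemma coeffs_sum (n : ℕ) (hn : 0 < n) : ∑ i, coeffs n i = 0 := by
  have hn' : (n:ℝ) ≠ 0 := by exact_mod_cast hn.ne'
  simp only [coeffs, Fin.sum_univ_succ, Fin.cons_zero, Fin.cons_succ, Finset.sum_const,
    Finset.card_univ, Fintype.card_fin, nsmul_eq_mul]
  field_simp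
  ring

/-- the full integrand -/
noncomputable def bigF (n : ℕ) (x : Fin (n+1) → ℝ) : ℝ :=
  truncExpWeight (4 / 3 + ∑ i, coeffs n i * x i) * Real.exp (-∑ i, x i)

lemma bigF_continuous (n : ℕ) : Continuous (bigF n) := by
  unfold bigF
  exact (tew_continuous.comp (by fun_prop)).mul (by fun_prop)

lemma bigF_integrable (n : ℕ) : Integrable (bigF n) (orthantMeasure (n+1)) := by
  refine integrable_of_bound (n+1) (bigF n) 1 (bigF_continuous n).aestronglyMeasurable ?_
  intro x
  unfold bigF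
  rw [abs_of_nonneg (mul_nonneg (tew_nonneg _) (Real.exp_pos _).le)]
  exact mul_le_mul_of_nonneg_right (tew_le_one _) (Real.exp_pos _).le

lemma bigF_cons (n : ℕ) (x₀ : ℝ) (y : Fin n → ℝ) :
    bigF n (Fin.cons x₀ y)
      = innerF (4 / 3 + ∑ j, (-2 / (n:ℝ)) * y j) x₀ * Real.exp (-∑ j, y j) := by
  unfold bigF innerF coeffs
  simp only [Fin.sum_univ_succ, Fin.cons_zero, Fin.cons_succ]
  rw [mul_assoc, ← Real.exp_add]
  congr 2
  · ring
  · ring

/-- the lower bound function on the `n` small coordinates -/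
noncomputable def lowF (n : ℕ) (y : Fin n → ℝ) : ℝ :=
  (∏ j, Real.exp (-(y j))) - 4 / 9 * Real.exp (2 / 3) * ∏ j, Real.exp (-(1 + 1 / (n:ℝ)) * y j)

lemma lowF_integrable (n : ℕ) : Integrable (lowF n) (orthantMeasure n) := by
  have h : -(1 + 1 / (n:ℝ)) < 0 := by
    have : (0:ℝ) ≤ 1 / (n:ℝ) := by positivity
    linarith
  unfold lowF
  refine Integrable.sub ?_ (Integrable.const_mul ?_ _)
  · exact Integrable.fintype_prod (f := fun _ x => Real.exp (-x)) (μ := fun _ : Fin n => halfLine)
      (fun _ => integrableOn_exp_neg_Ioi 0)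
  · exact Integrable.fintype_prod (f := fun _ x => Real.exp (-(1 + 1 / (n:ℝ)) * x))
      (μ := fun _ : Fin n => halfLine) (fun _ => integrableOn_exp_mul_Ioi h 0)

lemma lowF_integral (n : ℕ) :
    ∫ y, lowF n y ∂(orthantMeasure n) = 1 - 4 / 9 * Real.exp (2 / 3) * ((1 + 1 / (n:ℝ))⁻¹) ^ n := by
  have h : -(1 + 1 / (n:ℝ)) < 0 := by
    have : (0:ℝ) ≤ 1 / (n:ℝ) := by positivity
    linarith
  have i1 : Integrable (fun y : Fin n → ℝ => ∏ j, Real.exp (-(y j))) (orthantMeasure n) :=
    Integrable.fintype_prod (f := fun _ x => Real.exp (-x)) (μ := fun _ : Fin n => halfLine)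
      (fun _ => integrableOn_exp_neg_Ioi 0)
  have i2 : Integrable (fun y : Fin n → ℝ => ∏ j, Real.exp (-(1 + 1 / (n:ℝ)) * y j))
      (orthantMeasure n) :=
    Integrable.fintype_prod (f := fun _ x => Real.exp (-(1 + 1 / (n:ℝ)) * x))
      (μ := fun _ : Fin n => halfLine) (fun _ => integrableOn_exp_mul_Ioi h 0)
  unfold lowF
  rw [integral_sub i1 (i2.const_mul _), integral_const_mul]
  have e1 : ∫ y : Fin n → ℝ, ∏ j, Real.exp (-(y j)) ∂(orthantMeasure n) = 1 := by
    rw [integral_fintype_prod_eq_pow (fun x : ℝ => Real.exp (-x))]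
    rw [integral_exp_neg_Ioi 0]
    simp
  have e2 : ∫ y : Fin n → ℝ, ∏ j, Real.exp (-(1 + 1 / (n:ℝ)) * y j) ∂(orthantMeasure n)
      = ((1 + 1 / (n:ℝ))⁻¹) ^ n := by
    rw [integral_fintype_prod_eq_pow (fun x : ℝ => Real.exp (-(1 + 1 / (n:ℝ)) * x))]
    rw [integral_exp_mul_Ioi h 0]
    simp only [mul_zero, Real.exp_zero, Fintype.card_fin]
    congr 1
    rw [neg_div_neg_eq, one_div]
  rw [e1, e2]

lemma lowF_le (n : ℕ) (hn : 0 < n) (y : Fin n → ℝ) :
    lowF n y ≤ ∫ x₀, bigF n (Fin.cons x₀ y) ∂halfLine := by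
  have hn' : (n:ℝ) ≠ 0 := by exact_mod_cast hn.ne'
  simp only [bigF_cons]
  rw [integral_mul_const]
  have hb := inner_bound (4 / 3 + ∑ j, (-2 / (n:ℝ)) * y j)
  have hE : 0 < Real.exp (-∑ j, y j) := Real.exp_pos _
  have h1 : lowF n y
      = (1 - 4 / 9 * Real.exp ((4 / 3 + ∑ j, (-2 / (n:ℝ)) * y j) / 2)) * Real.exp (-∑ j, y j) := by
    unfold lowF
    rw [← Real.exp_sum, ← Real.exp_sum, sub_mul, one_mul, Finset.sum_neg_distrib]
    congr 1
    rw [mul_assoc, mul_assoc, ← Real.exp_add, ← Real.exp_add]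
    congr 2
    rw [← Finset.mul_sum, ← Finset.mul_sum]
    field_simp
    ring
  rw [h1]
  exact mul_le_mul_of_nonneg_right hb hE.le

/-- the integral for the coefficient vector `coeffs n` is at least
`1 - (4/9) e^{2/3} (1 + 1/n)^{-n}` -/
lemma orthant_lower (n : ℕ) (hn : 0 < n) :
    1 - 4 / 9 * Real.exp (2 / 3) * ((1 + 1 / (n:ℝ))⁻¹) ^ n
      ≤ ∫ x in Set.pi Set.univ (fun _ : Fin (n+1) => Set.Ioi (0 : ℝ)),
          truncExpWeight (4 / 3 + ∑ i, coeffs n i * x i) * Real.exp (-∑ i, x i) := by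
  change _ ≤ ∫ x in Set.pi Set.univ (fun _ : Fin (n+1) => Set.Ioi (0 : ℝ)), bigF n x
  rw [setIntegral_orthant_eq (n+1) (bigF n), integral_pi_succ' n _ (bigF_integrable n),
    ← lowF_integral n]
  exact integral_mono (lowF_integrable n)
    (integrable_inner_of_integrable n _ (bigF_integrable n)) (lowF_le n hn)

/-- The approximation half of S0423: the supremum is approached. -/
theorem lower_part (ε : ℝ) (hε : 0 < ε) :
    ∃ (N : ℕ) (a : Fin N → ℝ), 1 ≤ N ∧ ∑ i, a i = 0 ∧
      3 / 4 * Real.exp (4 / 3) - Real.exp 1 / 3 - ε <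
        Real.exp (4 / 3) / (4 / 3) *
          ∫ x in Set.pi Set.univ (fun _ : Fin N => Set.Ioi (0 : ℝ)),
            Crest.AlgGeometry.truncExpWeight (4 / 3 + ∑ i, a i * x i) * Real.exp (-∑ i, x i) := by
  have ht := Real.tendsto_one_add_div_pow_exp 1
  have ht2 : Tendsto (fun n : ℕ => Real.exp 2 * ((1 + 1 / (n:ℝ)) ^ n)⁻¹) atTop
      (𝓝 (Real.exp 2 * (Real.exp 1)⁻¹)) :=
    (ht.inv₀ (Real.exp_pos 1).ne').const_mul _
  have e21 : Real.exp 2 * (Real.exp 1)⁻¹ = Real.exp 1 := by
    rw [← Real.exp_neg, ← Real.exp_add]; norm_num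
  rw [e21] at ht2
  have hev : ∀ᶠ n : ℕ in atTop, Real.exp 2 * ((1 + 1 / (n:ℝ)) ^ n)⁻¹ < Real.exp 1 + 3 * ε :=
    ht2.eventually (gt_mem_nhds (by linarith))
  obtain ⟨n, hn1, hn0⟩ := (hev.and (eventually_gt_atTop 0)).exists
  refine ⟨n + 1, coeffs n, by omega, coeffs_sum n hn0, ?_⟩
  have hI := orthant_lower n hn0
  have hc : 0 < Real.exp (4 / 3) / (4 / 3) := by positivity
  have h1 := mul_le_mul_of_nonneg_left hI hc.le
  have e3 : Real.exp (4 / 3) * Real.exp (2 / 3) = Real.exp 2 := by
    rw [← Real.exp_add]; norm_num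
  have e4 : Real.exp (4 / 3) / (4 / 3) * (1 - 4 / 9 * Real.exp (2 / 3) * ((1 + 1 / (n:ℝ))⁻¹) ^ n)
      = 3 / 4 * Real.exp (4 / 3) - 1 / 3 * (Real.exp 2 * ((1 + 1 / (n:ℝ)) ^ n)⁻¹) := by
    rw [inv_pow, ← e3]; ring
  rw [e4] at h1
  linarith

end Crest.Agent.Lib_helper24_S0423L
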