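import Mathlib
import Crest.Prelude.Def_TruncExpWeight
import Crest.Agent.Lib_S0423_Defs
import Crest.Agent.Lib_helper24_S0423L

/-!
[L] of the S0423 plan: the lower bound (the supremum is approached), via the coefficient
vectors `a = (2, -2/n, …, -2/n)`.  The work is in `Lib_helper24_S0423L`.
-/

set_option autoImplicit false

namespace Crest.Agent.Lib_S0423_L

open MeasureTheory Set Filter Topology Crest.Agent.Lib_S0423_Defs Crest.Agent.Lib_helper24_S0423L

/-- [L]: the lower bound, via `a = (2, -2/n, …, -2/n)`; statement verbatim from the plan. -/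
theorem lower (ε : ℝ) (hε : 0 < ε) :
    ∃ (N : ℕ) (a : Fin N → ℝ), 1 ≤ N ∧ ∑ i, a i = 0 ∧
      1 - 4 / 9 * Real.exp (-(1 / 3)) - ε <
        ∫ x in orth N, Crest.AlgGeometry.truncExpWeight (4 / 3 + ∑ i, a i * x i) *
          Real.exp (-∑ i, x i) := by
  have ht := Real.tendsto_one_add_div_pow_exp 1
  have ht2 : Tendsto (fun n : ℕ => 4 / 9 * Real.exp (2 / 3) * ((1 + 1 / (n:ℝ)) ^ n)⁻¹) atTop
      (𝓝 (4 / 9 * Real.exp (2 / 3) * (Real.exp 1)⁻¹)) :=
    (ht.inv₀ (Real.exp_pos 1).ne').const_mul _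
  have e21 : 4 / 9 * Real.exp (2 / 3) * (Real.exp 1)⁻¹ = 4 / 9 * Real.exp (-(1 / 3)) := by
    rw [mul_assoc, ← Real.exp_neg, ← Real.exp_add]; norm_num
  rw [e21] at ht2
  have hev : ∀ᶠ n : ℕ in atTop,
      4 / 9 * Real.exp (2 / 3) * ((1 + 1 / (n:ℝ)) ^ n)⁻¹ < 4 / 9 * Real.exp (-(1 / 3)) + ε :=
    ht2.eventually (gt_mem_nhds (by linarith))
  obtain ⟨n, hn1, hn0⟩ := (hev.and (eventually_gt_atTop 0)).exists
  refine ⟨n + 1, coeffs n, by omega, coeffs_sum n hn0, ?_⟩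
  have hI := orthant_lower n hn0
  rw [inv_pow] at hI
  unfold orth
  linarith

end Crest.Agent.Lib_S0423_L
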