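import Mathlib
import Crest.Prelude.Def_TruncExpWeight
import Crest.Agent.Lib_S0423_Defs

/-!
PLAN / INTERFACE for S0423 (not imported by the final proof; every statement below is to be
proved, with exactly this statement, in the file named in its comment).
-/

set_option autoImplicit false

namespace Crest.Agent.Lib_S0423_Plan

open MeasureTheory Set Crest.Agent.Lib_S0423_Defs

/-- [A1]  file Lib_S0423_A.lean : layer cake (only `≤` is needed). -/
theorem expect_le {N : ℕ} (a : Fin N → ℝ) :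
    ∫ x in orth N, Crest.AlgGeometry.truncExpWeight (4 / 3 + ∑ i, a i * x i) * Real.exp (-∑ i, x i)
      ≤ 1 - Phi (surv a) := by
  sorry

/-- [A2]  file Lib_S0423_A.lean : mean zero, in survival-function form. -/
theorem surv_mean {N : ℕ} (a : Fin N → ℝ) (ha : ∑ i, a i = 0) :
    IntegrableOn (surv a) (Ioi 0) ∧ IntegrableOn (fun w => 1 - surv a w) (Iic 0) ∧
      ∫ w in Ioi (0 : ℝ), surv a w = ∫ w in Iic (0 : ℝ), (1 - surv a w) := by
  sorry

/-- [A3]  file Lib_S0423_A.lean : integrate out coordinate `j`. -/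
theorem surv_succAbove {N : ℕ} (a : Fin (N + 1) → ℝ) (j : Fin (N + 1)) (w : ℝ) :
    surv a w = ∫ x in Ioi (0 : ℝ), surv (fun i => a (j.succAbove i)) (w - a j * x) * Real.exp (-x) := by
  sorry

/-- [A4]  file Lib_S0423_A.lean : no coordinates. -/
theorem surv_zero (a : Fin 0 → ℝ) (w : ℝ) : surv a w = if w < 0 then 1 else 0 := by
  sorry

/-- [A5]  file Lib_S0423_A.lean : the case `a = 0` (then the integral is `g(4/3) = (7/3) e^{-4/3}`). -/
theorem expect_zero {N : ℕ} :
    ∫ x in orth N, Crest.AlgGeometry.truncExpWeight (4 / 3 + ∑ i, (0 : ℝ) * x i) * Real.exp (-∑ i, x i)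
      = 7 / 3 * Real.exp (-(4 / 3)) := by
  sorry

/-- [B]  file Lib_S0423_B.lean : regularity and log-concavity of the survival function
(uses A3, A4 and 1-D lemmas: PF2-inequality preserved by convolution with an exponential). -/
theorem surv_props {N : ℕ} (a : Fin N → ℝ) (hpos : ∃ i, 0 < a i) (hneg : ∃ i, a i < 0) :
    Continuous (surv a) ∧ (∀ w, 0 < surv a w ∧ surv a w < 1) ∧ Antitone (surv a) ∧
      ConvexOn ℝ univ (fun w => -Real.log (surv a w)) := by
  sorry

/-- [C]  file Lib_S0423_C.lean : the one-dimensional theorem (chord lemma + IVT). -/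
theorem Phi_ge (R : ℝ → ℝ) (hc : Continuous R) (h01 : ∀ w, 0 < R w ∧ R w < 1) (hanti : Antitone R)
    (hconv : ConvexOn ℝ univ (fun w => -Real.log (R w)))
    (hi1 : IntegrableOn R (Ioi 0)) (hi2 : IntegrableOn (fun w => 1 - R w) (Iic 0))
    (hmean : ∫ w in Ioi (0 : ℝ), R w = ∫ w in Iic (0 : ℝ), (1 - R w)) :
    4 / 9 * Real.exp (-(1 / 3)) ≤ Phi R := by
  sorry

/-- [L]  file Lib_S0423_L.lean : the lower bound, via `a = (2, -2/M, …, -2/M)`. -/
theorem lower (ε : ℝ) (hε : 0 < ε) :
    ∃ (N : ℕ) (a : Fin N → ℝ), 1 ≤ N ∧ ∑ i, a i = 0 ∧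
      1 - 4 / 9 * Real.exp (-(1 / 3)) - ε <
        ∫ x in orth N, Crest.AlgGeometry.truncExpWeight (4 / 3 + ∑ i, a i * x i) *
          Real.exp (-∑ i, x i) := by
  sorry

end Crest.Agent.Lib_S0423_Plan
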