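import Crest.Agent.Lib_S0453_VTX_h24

/-!
# S0453 (row 299): additive single-vertex form of the induction step

Board topic `deep`, posts #1208 (helper11, form (P)) and #1244 (helper8, form (A)): if for every
degree vector on `n` vertices there is ONE vertex `v` with

  `Var(E[f | star of v]) ≤ κ_n · (1/|Ω|) ∑_{all switch edges} (Δf)²`      (`AddAt n κ_n`,

the FULL switch energy on the right), then `GapAt m T → GapAt (m+1) (T + κ_{m+1})`, and
`κ_n ≤ 4 n - 2` for all `n ≥ 5` gives `GapAt n (2 n²)` (`2 n² - 2 (n-1)² = 4 n - 2`), hence the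
statement of S0453.  Nothing here proves `AddAt`; this file is glue only.
-/

set_option autoImplicit false

namespace Crest.Agent.S0453ADDh24

open Finset Crest.SwitchChain Crest.Agent.LibS0453 Crest.Agent.S0453VTXh24

/-- additive single-vertex inequality on `n` vertices with constant `κ`: for every degree vector
there is a vertex `v` such that for all `f`
`2|Ω|² Var(E[f | star v]) ≤ κ |Ω| · energy` (all switches). -/
def AddAt (n : ℕ) (κ : ℝ) : Prop :=
  ∀ d : Fin n → ℕ, ∃ v : Fin n, ∀ f : Gr n → ℝ,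
    pairVar (realizations d) f - ((realizations d).card : ℝ) * fibSum v (realizations d) f ≤
      κ * ((realizations d).card : ℝ) * energy (realizations d) f

/-- `VtxAt n κ 0` (only the switches through `v` on the right) implies `AddAt n κ` for `κ ≥ 0`. -/
theorem addAt_of_vtxAt {n : ℕ} {κ : ℝ} (hκ : 0 ≤ κ) (h : VtxAt n κ 0) : AddAt n κ := by
  intro d
  obtain ⟨v, hv⟩ := h d
  refine ⟨v, fun f => ?_⟩
  have h1 := hv f
  have h3 := energyFix_nonneg v (realizations d) f
  have hN : (0 : ℝ) ≤ ((realizations d).card : ℝ) := Nat.cast_nonneg _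
  have h5 : κ * ((realizations d).card : ℝ) *
      (energy (realizations d) f - energyFix v (realizations d) f) ≤
      κ * ((realizations d).card : ℝ) * energy (realizations d) f :=
    mul_le_mul_of_nonneg_left (by linarith) (mul_nonneg hκ hN)
  linarith

/-- the additive single-vertex induction step. -/
theorem gap_succ_of_add (hF : PkgFIB) (m : ℕ) (T κ : ℝ) (hT : 0 ≤ T) (_hκ : 0 ≤ κ)
    (hgap : GapAt m T) (hv : AddAt (m + 1) κ) : GapAt (m + 1) (T + κ) := by
  intro d f
  obtain ⟨v, hv⟩ := hv d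
  have h1 := hv f
  have h2 := hF m T hT hgap d v f
  have h3 := energyFix_nonneg v (realizations d) f
  have h4 := energyFix_le_energy v (realizations d) f
  have hN0 : (0 : ℝ) ≤ ((realizations d).card : ℝ) := Nat.cast_nonneg _
  have e2 : ((realizations d).card : ℝ) * fibSum v (realizations d) f ≤
      ((realizations d).card : ℝ) * (T * energy (realizations d) f) :=
    mul_le_mul_of_nonneg_left (h2.trans (mul_le_mul_of_nonneg_left h4 hT)) hN0
  have e3 : (T + κ) * ((realizations d).card : ℝ) * energy (realizations d) f =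
      ((realizations d).card : ℝ) * (T * energy (realizations d) f) +
        κ * ((realizations d).card : ℝ) * energy (realizations d) f := by ring
  linarith

/-- `AddAt n (κ n)` with `0 ≤ κ n ≤ 4 n - 2` for all `n ≥ 5` (and `BASE`, `FIB`) gives
`GapAt n (2 n²)` for all `n ≥ 4`. -/
theorem gap_of_add (hB : PkgBASE) (hF : PkgFIB) (κ : ℕ → ℝ)
    (hκ : ∀ n : ℕ, 5 ≤ n → 0 ≤ κ n ∧ κ n ≤ 4 * (n : ℝ) - 2)
    (hV : ∀ n : ℕ, 5 ≤ n → AddAt n (κ n)) :
    ∀ n : ℕ, 4 ≤ n → GapAt n (2 * (n : ℝ) ^ 2) := by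
  intro n hn
  induction n, hn using Nat.le_induction with
  | base =>
    exact Crest.Agent.S0453ASMh24.gapAt_mono (by norm_num) hB
  | succ m hm ih =>
    have hm5 : 5 ≤ m + 1 := by omega
    have h := gap_succ_of_add hF m (2 * (m : ℝ) ^ 2) (κ (m + 1)) (by positivity)
      (hκ _ hm5).1 ih (hV (m + 1) hm5)
    refine Crest.Agent.S0453ASMh24.gapAt_mono ?_ h
    have h2 := (hκ (m + 1) hm5).2
    push_cast at h2 ⊢
    nlinarith

/-- the statement of S0453 from the packages and the additive single-vertex inequality. -/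
theorem goal_of_add (hK : PkgKER) (hD : PkgDIR) (hTV : PkgTV) (hB : PkgBASE) (hF : PkgFIB)
    (κ : ℕ → ℝ) (hκ : ∀ n : ℕ, 5 ≤ n → 0 ≤ κ n ∧ κ n ≤ 4 * (n : ℝ) - 2)
    (hV : ∀ n : ℕ, 5 ≤ n → AddAt n (κ n)) : Goal :=
  Crest.Agent.S0453ASMh24.goal_of_gap hK hD hTV fun n hn =>
    ⟨2 * (n : ℝ) ^ 2, le_rfl, gap_of_add hB hF κ hκ hV n hn⟩

end Crest.Agent.S0453ADDh24
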