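import Mathlib
import Crest.Prelude.Def_SwitchChain

/-!
# S0453 (row 299): plan file — definitions and package statements

Lazy switch chain on the realizations `Ω(d)` of a degree vector `d` on `n ≥ 4` labelled vertices:
TV distance `≤ 1/4` within `2 n^8` steps, and Poincaré constant `24 n² C(n,4)`.

Outline (Carlen–Carvalho–Loss type induction on `n`; board topic `deep`, posts #1163–#1175).
* In graph-Laplacian units the Poincaré half says `pairVar ≤ 2 n² · |Ω| · energy`
  (`GapAt n (2 n²)`), where `energy` sums `(f G - f G')²` over ordered switch pairs.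
* A switch changes the star (= set of incident edges) of exactly four vertices; a switch that
  fixes the star of `v` is a switch of the `(n-1)`-vertex system obtained by deleting `v`
  (package `FIB`), so the conditional variances given the star of `v` are controlled by the
  energy of the switches fixing that star.
* The one missing analytic input is `QAt n c` (package `Q`): the sum over `v` of the conditional
  variances given the star of `v` is at least `(n - c)` times the variance (`c = 4` is the sharp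
  conjectured value; any `c_n ≤ 6 - 8/n` is enough).
* `IND` turns `GapAt m T`, `QAt (m+1) c` into `GapAt (m+1) (T (m+1-4)/(m+1-c))`.
* `TV` derives the total-variation half from the Poincaré half (lazy chain, `L²` contraction).

Each package is a `Prop`; owners prove it in their own file `Lib_S0453_<PKG>_h<seat>.lean`.
-/

set_option autoImplicit false

namespace Crest.Agent.LibS0453

open Finset Crest.SwitchChain

/-- graphs on `n` labelled vertices, as edge sets (the Prelude's representation) -/
abbrev Gr (n : ℕ) := Finset (Edge n)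

/-- `E'` is obtained from `E` by one valid switch: for some four-vertex set `S` and two distinct
perfect matchings `F, F'` of `S`, `F ⊆ E`, `F'` is disjoint from `E`, and `E' = E \ F ∪ F'`. -/
def Adj {n : ℕ} (E E' : Gr n) : Prop :=
  ∃ S ∈ (univ : Finset (Fin n)).powersetCard 4, ∃ F ∈ pmSet S, ∃ F' ∈ (pmSet S).erase F,
    F ⊆ E ∧ Disjoint F' E ∧ E' = E \ F ∪ F'

open Classical in
/-- indicator of a switch pair, as a real number -/
noncomputable def sw {n : ℕ} (E E' : Gr n) : ℝ := if Adj E E' then 1 else 0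

/-- the star of `v` in `E`: the edges of `E` containing `v` (it determines the neighbourhood of
`v`, and `deg E v = (star v E).card` by definition). -/
def star {n : ℕ} (v : Fin n) (E : Gr n) : Gr n := E.filter fun e => v ∈ e.1

/-- `∑_{G, G' ∈ Ω} (f G - f G')²`  (`= 2 (|Ω| ∑ f² - (∑ f)²)`). -/
noncomputable def pairVar {n : ℕ} (Ω : Finset (Gr n)) (f : Gr n → ℝ) : ℝ :=
  ∑ G ∈ Ω, ∑ G' ∈ Ω, (f G - f G') ^ 2

/-- switch energy: `∑` over ordered switch pairs in `Ω` of `(f G - f G')²`. -/
noncomputable def energy {n : ℕ} (Ω : Finset (Gr n)) (f : Gr n → ℝ) : ℝ :=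
  ∑ G ∈ Ω, ∑ G' ∈ Ω, sw G G' * (f G - f G') ^ 2

/-- energy of the switches that fix the star of `v`. -/
noncomputable def energyFix {n : ℕ} (v : Fin n) (Ω : Finset (Gr n)) (f : Gr n → ℝ) : ℝ :=
  ∑ G ∈ Ω, ∑ G' ∈ Ω, if star v G = star v G' then sw G G' * (f G - f G') ^ 2 else 0

/-- size of the fibre of `G`: the number of `G'' ∈ Ω` with the same star at `v`. -/
def fibCard {n : ℕ} (Ω : Finset (Gr n)) (v : Fin n) (G : Gr n) : ℕ :=
  (Ω.filter fun G'' => star v G'' = star v G).card

/-- `2 |Ω| · E[Var(f | star of v)]` in pair form: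
`∑_{G, G' ∈ Ω, same star at v} (f G - f G')² / (fibre size of G)`. -/
noncomputable def fibSum {n : ℕ} (v : Fin n) (Ω : Finset (Gr n)) (f : Gr n → ℝ) : ℝ :=
  ∑ G ∈ Ω, ∑ G' ∈ Ω,
    if star v G = star v G' then (f G - f G') ^ 2 / (fibCard Ω v G : ℝ) else 0

/-- Poincaré inequality in Laplacian units on `n` vertices with constant `T` (`T = 1/λ₁`):
for every degree vector, `pairVar ≤ T · |Ω| · energy`. -/
def GapAt (n : ℕ) (T : ℝ) : Prop :=
  ∀ (d : Fin n → ℕ) (f : Gr n → ℝ),
    pairVar (realizations d) f ≤ T * ((realizations d).card : ℝ) * energy (realizations d) f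

/-- the block inequality on `n` vertices with constant `c`:
`(n - c) · Var f ≤ ∑_v E[Var(f | star of v)]`, in unnormalised pair form. -/
def QAt (n : ℕ) (c : ℝ) : Prop :=
  ∀ (d : Fin n → ℕ) (f : Gr n → ℝ),
    ((n : ℝ) - c) * pairVar (realizations d) f ≤
      ((realizations d).card : ℝ) * ∑ v : Fin n, fibSum v (realizations d) f

/-- the Poincaré conjunct of S0453, verbatim. -/
def PoincareAt (n : ℕ) (d : Fin n → ℕ) : Prop :=
  ∀ f : Finset (Crest.SwitchChain.Edge n) → ℝ,
    ((Crest.SwitchChain.realizations d).card : ℝ) *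
          (∑ G ∈ Crest.SwitchChain.realizations d, f G ^ 2) -
        (∑ G ∈ Crest.SwitchChain.realizations d, f G) ^ 2 ≤
      24 * (n : ℝ) ^ 2 * (n.choose 4 : ℝ) * (Crest.SwitchChain.realizations d).card *
        ∑ G ∈ Crest.SwitchChain.realizations d,
          f G * (f G - ∑ G' ∈ Crest.SwitchChain.realizations d,
            Crest.SwitchChain.kernel n G G' * f G')

/-- the total-variation conjunct of S0453, verbatim. -/
def TVAt (n : ℕ) (d : Fin n → ℕ) : Prop :=
  ∃ t : ℕ, t ≤ 2 * n ^ 8 ∧ ∀ G ∈ Crest.SwitchChain.realizations d,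
    Crest.SwitchChain.tvDist (fun G' => (Crest.SwitchChain.kernel n ^ t) G G')
      (Crest.SwitchChain.unifOn (Crest.SwitchChain.realizations d)) ≤ 1 / 4

/-! ## Package statements -/

/-- KER: the kernel in terms of `Adj`.  Needs: a four-set has exactly three perfect matchings
(so each row has `6 C(n,4)` proposals), and a switch pair `E ≠ E'` comes from exactly one
proposal (`F = E \ E'`, `F' = E' \ E`, `S` = the vertices they cover). -/
def PkgKER : Prop :=
  (∀ (n : ℕ), 4 ≤ n → ∀ E E' : Gr n, kernel n E E' = kernel n E' E) ∧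
  (∀ (n : ℕ), 4 ≤ n → ∀ E : Gr n, ∑ E' : Gr n, kernel n E E' = 1) ∧
  (∀ (n : ℕ), 4 ≤ n → ∀ E E' : Gr n, E ≠ E' →
      kernel n E E' = sw E E' / (12 * (n.choose 4 : ℝ))) ∧
  (∀ (n : ℕ) (E : Gr n), 1 / 2 ≤ kernel n E E) ∧
  (∀ (n : ℕ) (E E' : Gr n), Adj E E' → ∀ v : Fin n, deg E' v = deg E v) ∧
  (∀ (n : ℕ) (E E' : Gr n), Adj E E' → Adj E' E) ∧
  (∀ (n : ℕ) (E E' : Gr n), Adj E E' → E ≠ E')

/-- DIR: the Dirichlet form of the kernel on `Ω(d)` is the switch energy over `24 C(n,4)`. -/
def PkgDIR : Prop :=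
  PkgKER → ∀ (n : ℕ), 4 ≤ n → ∀ (d : Fin n → ℕ) (f : Gr n → ℝ),
    ∑ G ∈ realizations d, f G * (f G - ∑ G' ∈ realizations d, kernel n G G' * f G') =
      energy (realizations d) f / (24 * (n.choose 4 : ℝ))

/-- TV: the Poincaré conjunct (for this `n`, `d`) implies the total-variation conjunct.
(Lazy chain: `P` is symmetric and positive semidefinite on `Ω`, so `‖P f‖² ≤ ⟨f, P f⟩ ≤
(1 - γ) ‖f‖²` on mean-zero `f` with `γ = 1/(24 n² C(n,4))`; chi-square bound;
`|Ω| ≤ 2^C(n,2)`; `t = 2 n^8`.) -/
def PkgTV : Prop :=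
  PkgKER → ∀ (n : ℕ), 4 ≤ n → ∀ d : Fin n → ℕ, (realizations d).Nonempty →
    PoincareAt n d → TVAt n d

/-- BASE: on four vertices two distinct realizations of the same degree vector differ by one
switch, so the switch graph is complete and `λ₁ = |Ω| ≥ 2`. -/
def PkgBASE : Prop := GapAt 4 (1 / 2)

/-- CNT: a switch changes the star of (at least) four vertices. -/
def PkgCNT : Prop :=
  ∀ (n : ℕ) (E E' : Gr n), Adj E E' →
    (((univ : Finset (Fin n)).filter fun v => star v E = star v E').card : ℝ) ≤ (n : ℝ) - 4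

/-- FIB: the fibres of `G ↦ star v G` on `Ω(d)` (`d` on `m+1` vertices) are copies of
realization sets on `m` vertices (delete `v`), and switches lift; hence the Poincaré inequality
on `m` vertices bounds the conditional variance given the star of `v` by the energy of the
switches fixing that star. -/
def PkgFIB : Prop :=
  ∀ (m : ℕ) (T : ℝ), 0 ≤ T → GapAt m T →
    ∀ (d : Fin (m + 1) → ℕ) (v : Fin (m + 1)) (f : Gr (m + 1) → ℝ),
      fibSum v (realizations d) f ≤ T * energyFix v (realizations d) f

/-- IND: the induction step. -/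
def PkgIND : Prop :=
  PkgFIB → PkgCNT → ∀ (m : ℕ) (T c : ℝ), 0 ≤ T → c < (m : ℝ) + 1 →
    GapAt m T → QAt (m + 1) c →
      GapAt (m + 1) (T * ((m : ℝ) + 1 - 4) / ((m : ℝ) + 1 - c))

/-- Q: the block inequality with the sharp constant `4` (OPEN — Track A). -/
def PkgQ : Prop := ∀ (n : ℕ), 5 ≤ n → QAt n 4

/-- the statement of S0453 -/
def Goal : Prop :=
  ∀ (n : ℕ) (_hn : 4 ≤ n) (d : Fin n → ℕ) (_hd : (Crest.SwitchChain.realizations d).Nonempty),
    TVAt n d ∧ PoincareAt n d

end Crest.Agent.LibS0453
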