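import Mathlib
import Crest.Agent.Lib_S0453_Plan

/-!
# S0453 (row 299): assembly of the packages of `Lib_S0453_Plan`

`goal_of : PkgKER → PkgDIR → PkgTV → PkgBASE → PkgFIB → PkgCNT → PkgIND → PkgQ → Goal`.
Also `goal_of_gap` (any Poincaré constant `T_n ≤ 2 n²` in Laplacian units suffices) and the
variant `gap_of_Q6` for the weaker block inequality with `c_n = 6 - 8/n`.
-/

set_option autoImplicit false

namespace Crest.Agent.S0453ASMh24

open Finset Crest.SwitchChain Crest.Agent.LibS0453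

lemma sw_nonneg {n : ℕ} (E E' : Gr n) : 0 ≤ sw E E' := by
  unfold sw; split_ifs <;> norm_num

lemma energy_nonneg {n : ℕ} (Ω : Finset (Gr n)) (f : Gr n → ℝ) : 0 ≤ energy Ω f := by
  unfold energy
  exact sum_nonneg fun G _ => sum_nonneg fun G' _ => mul_nonneg (sw_nonneg _ _) (sq_nonneg _)

lemma gapAt_mono {n : ℕ} {T T' : ℝ} (h : T ≤ T') (hg : GapAt n T) : GapAt n T' := by
  intro d f
  refine (hg d f).trans ?_
  have he := energy_nonneg (realizations d) f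
  have hc : (0 : ℝ) ≤ ((realizations d).card : ℝ) := Nat.cast_nonneg _
  exact mul_le_mul_of_nonneg_right (mul_le_mul_of_nonneg_right h hc) he

lemma pairVar_eq {n : ℕ} (Ω : Finset (Gr n)) (f : Gr n → ℝ) :
    pairVar Ω f = 2 * ((Ω.card : ℝ) * ∑ G ∈ Ω, f G ^ 2 - (∑ G ∈ Ω, f G) ^ 2) := by
  unfold pairVar
  have h1 : ∀ G ∈ Ω, ∑ G' ∈ Ω, (f G - f G') ^ 2 =
      (Ω.card : ℝ) * f G ^ 2 - 2 * f G * (∑ G' ∈ Ω, f G') + ∑ G' ∈ Ω, f G' ^ 2 := by
    intro G _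
    have : ∀ G' ∈ Ω, (f G - f G') ^ 2 = f G ^ 2 - 2 * f G * f G' + f G' ^ 2 := by
      intro G' _; ring
    rw [sum_congr rfl this, sum_add_distrib, sum_sub_distrib, sum_const, nsmul_eq_mul,
      ← mul_sum]
  rw [sum_congr rfl h1, sum_add_distrib, sum_sub_distrib, ← mul_sum, sum_const, nsmul_eq_mul]
  have h2 : ∑ G ∈ Ω, 2 * f G * (∑ G' ∈ Ω, f G') = 2 * (∑ G ∈ Ω, f G) ^ 2 := by
    rw [← sum_mul, ← mul_sum]; ring
  rw [h2]; ring

/-- Poincaré conjunct from a Laplacian-unit gap with `T ≤ 2 n²`. -/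
theorem poincare_of_gap (hD : PkgDIR) (hK : PkgKER) (n : ℕ) (hn : 4 ≤ n) (T : ℝ)
    (hT : T ≤ 2 * (n : ℝ) ^ 2) (hG : GapAt n T) (d : Fin n → ℕ) : PoincareAt n d := by
  intro f
  have hdir := hD hK n hn d f
  have hgap := gapAt_mono hT hG d f
  have hpv := pairVar_eq (realizations d) f
  have hC : (0 : ℝ) < (n.choose 4 : ℝ) := by
    exact_mod_cast Nat.choose_pos hn
  rw [hdir]
  have hrhs : 24 * (n : ℝ) ^ 2 * (n.choose 4 : ℝ) * ((realizations d).card : ℝ) *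
      (energy (realizations d) f / (24 * (n.choose 4 : ℝ))) =
      (n : ℝ) ^ 2 * ((realizations d).card : ℝ) * energy (realizations d) f := by
    field_simp
  rw [hrhs]
  rw [hpv] at hgap
  linarith

/-- the statement from a family of gaps `T_n ≤ 2 n²`. -/
theorem goal_of_gap (hK : PkgKER) (hD : PkgDIR) (hTV : PkgTV)
    (hG : ∀ n : ℕ, 4 ≤ n → ∃ T : ℝ, T ≤ 2 * (n : ℝ) ^ 2 ∧ GapAt n T) : Goal := by
  intro n hn d hd
  obtain ⟨T, hT, hg⟩ := hG n hn
  have hP : PoincareAt n d := poincare_of_gap hD hK n hn T hT hg d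
  exact ⟨hTV hK n hn d hd hP, hP⟩

/-- `GapAt n (1/2)` (i.e. `λ₁ ≥ 2`) for all `n ≥ 4` from the sharp block inequality. -/
theorem gap_of_Q4 (hB : PkgBASE) (hF : PkgFIB) (hC : PkgCNT) (hI : PkgIND) (hQ : PkgQ) :
    ∀ n : ℕ, 4 ≤ n → GapAt n (1 / 2) := by
  intro n hn
  induction n, hn using Nat.le_induction with
  | base => exact hB
  | succ m hm ih =>
    have hm' : (4 : ℝ) ≤ (m : ℝ) := by exact_mod_cast hm
    have h := hI hF hC m (1 / 2) 4 (by norm_num) (by linarith) ih (hQ (m + 1) (by omega))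
    have hne : ((m : ℝ) + 1 - 4) ≠ 0 := by
      have : (0 : ℝ) < (m : ℝ) + 1 - 4 := by linarith
      exact ne_of_gt this
    have he : (1 / 2 : ℝ) * ((m : ℝ) + 1 - 4) / ((m : ℝ) + 1 - 4) = 1 / 2 := by
      field_simp
    rw [he] at h
    exact h

/-- the main assembly. -/
theorem goal_of (hK : PkgKER) (hD : PkgDIR) (hTV : PkgTV) (hB : PkgBASE) (hF : PkgFIB)
    (hC : PkgCNT) (hI : PkgIND) (hQ : PkgQ) : Goal := by
  refine goal_of_gap hK hD hTV ?_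
  intro n hn
  refine ⟨1 / 2, ?_, gap_of_Q4 hB hF hC hI hQ n hn⟩
  have : (4 : ℝ) ≤ (n : ℝ) := by exact_mod_cast hn
  nlinarith

/-- variant: block inequality with the weaker constants `c_n = 6 - 8/n` (`n ≥ 5`) gives
`GapAt n (n (n-1) / 24)`, still inside `2 n²`. -/
theorem gap_of_Q6 (hB : PkgBASE) (hF : PkgFIB) (hC : PkgCNT) (hI : PkgIND)
    (hQ : ∀ n : ℕ, 5 ≤ n → QAt n (6 - 8 / (n : ℝ))) :
    ∀ n : ℕ, 4 ≤ n → GapAt n ((n : ℝ) * ((n : ℝ) - 1) / 24) := by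
  intro n hn
  induction n, hn using Nat.le_induction with
  | base =>
    have : ((4 : ℕ) : ℝ) * (((4 : ℕ) : ℝ) - 1) / 24 = 1 / 2 := by norm_num
    rw [this]; exact hB
  | succ m hm ih =>
    have hm' : (4 : ℝ) ≤ (m : ℝ) := by exact_mod_cast hm
    have hq := hQ (m + 1) (by omega)
    have hcast : ((m + 1 : ℕ) : ℝ) = (m : ℝ) + 1 := by push_cast; ring
    rw [hcast] at hq
    have hpos : (0 : ℝ) < (m : ℝ) + 1 := by linarith
    have hc : (6 - 8 / ((m : ℝ) + 1)) < (m : ℝ) + 1 := by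
      have h8 : (0 : ℝ) < 8 / ((m : ℝ) + 1) := by positivity
      have : (6 : ℝ) - 8 / ((m : ℝ) + 1) = (6 * ((m : ℝ) + 1) - 8) / ((m : ℝ) + 1) := by
        field_simp
      rw [this, div_lt_iff₀ hpos]
      nlinarith
    have hT : (0 : ℝ) ≤ (m : ℝ) * ((m : ℝ) - 1) / 24 := by
      apply div_nonneg _ (by norm_num)
      nlinarith
    have h := hI hF hC m ((m : ℝ) * ((m : ℝ) - 1) / 24) (6 - 8 / ((m : ℝ) + 1)) hT hc ih hq
    have he : (m : ℝ) * ((m : ℝ) - 1) / 24 * ((m : ℝ) + 1 - 4) /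
        ((m : ℝ) + 1 - (6 - 8 / ((m : ℝ) + 1))) =
        ((m + 1 : ℕ) : ℝ) * (((m + 1 : ℕ) : ℝ) - 1) / 24 := by
      rw [hcast]
      have h1 : (m : ℝ) - 1 ≠ 0 := by
        have : (0 : ℝ) < (m : ℝ) - 1 := by linarith
        exact ne_of_gt this
      have h3 : (m : ℝ) - 3 ≠ 0 := by
        have : (0 : ℝ) < (m : ℝ) - 3 := by linarith
        exact ne_of_gt this
      have hden : (m : ℝ) + 1 - (6 - 8 / ((m : ℝ) + 1)) =
          ((m : ℝ) - 1) * ((m : ℝ) - 3) / ((m : ℝ) + 1) := by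
        field_simp; ring
      rw [hden]
      field_simp
      ring
    rw [he] at h
    exact h

/-- assembly for the weaker block inequality. -/
theorem goal_of_Q6 (hK : PkgKER) (hD : PkgDIR) (hTV : PkgTV) (hB : PkgBASE) (hF : PkgFIB)
    (hC : PkgCNT) (hI : PkgIND)
    (hQ : ∀ n : ℕ, 5 ≤ n → QAt n (6 - 8 / (n : ℝ))) : Goal := by
  refine goal_of_gap hK hD hTV ?_
  intro n hn
  refine ⟨(n : ℝ) * ((n : ℝ) - 1) / 24, ?_, gap_of_Q6 hB hF hC hI hQ n hn⟩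
  have : (4 : ℝ) ≤ (n : ℝ) := by exact_mod_cast hn
  nlinarith

end Crest.Agent.S0453ASMh24
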