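import Crest.Prelude.Def_SwitchChain
import Crest.Agent.Lib_S0453_Plan

set_option autoImplicit false
open Finset

namespace Crest.Agent.S0453BaseH5
open Crest.SwitchChain

def e01 : Edge 4 := ⟨s(0, 1), by decide⟩
def e02 : Edge 4 := ⟨s(0, 2), by decide⟩
def e03 : Edge 4 := ⟨s(0, 3), by decide⟩
def e12 : Edge 4 := ⟨s(1, 2), by decide⟩
def e13 : Edge 4 := ⟨s(1, 3), by decide⟩
def e23 : Edge 4 := ⟨s(2, 3), by decide⟩

theorem edge_cases (x : Edge 4) :
    x = e01 ∨ x = e02 ∨ x = e03 ∨ x = e12 ∨ x = e13 ∨ x = e23 := by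
  rcases x with ⟨x, hx⟩
  induction x using Sym2.ind with
  | _ a b =>
    fin_cases a <;> fin_cases b <;>
      simp [e01, e02, e03, e12, e13, e23, Subtype.ext_iff] at hx ⊢

theorem univ_edge : (univ : Finset (Edge 4)) = {e01, e02, e03, e12, e13, e23} := by
  ext x
  simp only [mem_univ, mem_insert, mem_singleton, true_iff]
  exact edge_cases x

theorem sum_edge (g : Edge 4 → ℕ) :
    ∑ e, g e = g e01 + (g e02 + (g e03 + (g e12 + (g e13 + g e23)))) := by
  rw [univ_edge]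
  rw [sum_insert, sum_insert, sum_insert, sum_insert, sum_insert, sum_singleton] <;>
    simp [e01, e02, e03, e12, e13, e23, Subtype.ext_iff]

/-- membership bit -/
noncomputable def bit (E : Finset (Edge 4)) (e : Edge 4) : Bool := decide (e ∈ E)

theorem deg_eq_sum (E : Finset (Edge 4)) (v : Fin 4) :
    deg E v = ∑ e : Edge 4, (bit E e).toNat * (if v ∈ e.1 then 1 else 0) := by
  unfold deg
  rw [Finset.card_filter, ← Finset.univ_inter E, ← Finset.sum_ite_mem]
  refine Finset.sum_congr rfl fun e _ => ?_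
  by_cases h : e ∈ E <;> simp [bit, h]

theorem deg0 (E : Finset (Edge 4)) :
    deg E 0 = (bit E e01).toNat + (bit E e02).toNat + (bit E e03).toNat := by
  rw [deg_eq_sum, sum_edge]
  generalize bit E e01 = a01; generalize bit E e02 = a02; generalize bit E e03 = a03
  generalize bit E e12 = a12; generalize bit E e13 = a13; generalize bit E e23 = a23
  simp [e01, e02, e03, e12, e13, e23]
  omega

theorem deg1 (E : Finset (Edge 4)) :
    deg E 1 = (bit E e01).toNat + (bit E e12).toNat + (bit E e13).toNat := by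
  rw [deg_eq_sum, sum_edge]
  generalize bit E e01 = a01; generalize bit E e02 = a02; generalize bit E e03 = a03
  generalize bit E e12 = a12; generalize bit E e13 = a13; generalize bit E e23 = a23
  simp [e01, e02, e03, e12, e13, e23]
  omega

theorem deg2 (E : Finset (Edge 4)) :
    deg E 2 = (bit E e02).toNat + (bit E e12).toNat + (bit E e23).toNat := by
  rw [deg_eq_sum, sum_edge]
  generalize bit E e01 = a01; generalize bit E e02 = a02; generalize bit E e03 = a03
  generalize bit E e12 = a12; generalize bit E e13 = a13; generalize bit E e23 = a23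
  simp [e01, e02, e03, e12, e13, e23]
  omega

theorem deg3 (E : Finset (Edge 4)) :
    deg E 3 = (bit E e03).toNat + (bit E e13).toNat + (bit E e23).toNat := by
  rw [deg_eq_sum, sum_edge]
  generalize bit E e01 = a01; generalize bit E e02 = a02; generalize bit E e03 = a03
  generalize bit E e12 = a12; generalize bit E e13 = a13; generalize bit E e23 = a23
  simp [e01, e02, e03, e12, e13, e23]
  omega

/-- switch pattern on bits: matching `a` present, matching `b` absent, `c` untouched. -/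
def Sw (a1 a2 b1 b2 c1 c2 a1' a2' b1' b2' c1' c2' : Bool) : Prop :=
  a1 = true ∧ a2 = true ∧ b1 = false ∧ b2 = false ∧
    a1' = false ∧ a2' = false ∧ b1' = true ∧ b2' = true ∧ c1' = c1 ∧ c2' = c2

instance (a1 a2 b1 b2 c1 c2 a1' a2' b1' b2' c1' c2' : Bool) :
    Decidable (Sw a1 a2 b1 b2 c1 c2 a1' a2' b1' b2' c1' c2') := by
  unfold Sw; infer_instance

set_option maxRecDepth 100000 in
theorem key_bool : ∀ a01 a23 a02 a13 a03 a12 b01 b23 b02 b13 b03 b12 : Bool,
    a01.toNat + a02.toNat + a03.toNat = b01.toNat + b02.toNat + b03.toNat →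
    a01.toNat + a12.toNat + a13.toNat = b01.toNat + b12.toNat + b13.toNat →
    a02.toNat + a12.toNat + a23.toNat = b02.toNat + b12.toNat + b23.toNat →
    a03.toNat + a13.toNat + a23.toNat = b03.toNat + b13.toNat + b23.toNat →
    ¬ (a01 = b01 ∧ a23 = b23 ∧ a02 = b02 ∧ a13 = b13 ∧ a03 = b03 ∧ a12 = b12) →
    Sw a01 a23 a02 a13 a03 a12 b01 b23 b02 b13 b03 b12 ∨
    Sw a01 a23 a03 a12 a02 a13 b01 b23 b03 b12 b02 b13 ∨
    Sw a02 a13 a01 a23 a03 a12 b02 b13 b01 b23 b03 b12 ∨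
    Sw a02 a13 a03 a12 a01 a23 b02 b13 b03 b12 b01 b23 ∨
    Sw a03 a12 a01 a23 a02 a13 b03 b12 b01 b23 b02 b13 ∨
    Sw a03 a12 a02 a13 a01 a23 b03 b12 b02 b13 b01 b23 := by
  decide


theorem bit_true {E : Finset (Edge 4)} {e : Edge 4} : bit E e = true ↔ e ∈ E := by
  simp [bit]

theorem bit_false {E : Finset (Edge 4)} {e : Edge 4} : bit E e = false ↔ e ∉ E := by
  simp [bit]

theorem bit_eq {E E' : Finset (Edge 4)} {e : Edge 4} : bit E' e = bit E e ↔ (e ∈ E' ↔ e ∈ E) := by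
  simp [bit]

theorem of_sw (E E' : Finset (Edge 4)) (x1 x2 y1 y2 z1 z2 : Edge 4)
    (hcov : ∀ e : Edge 4, e = x1 ∨ e = x2 ∨ e = y1 ∨ e = y2 ∨ e = z1 ∨ e = z2)
    (hd : y1 ≠ x1 ∧ y1 ≠ x2 ∧ y2 ≠ x1 ∧ y2 ≠ x2 ∧ z1 ≠ x1 ∧ z1 ≠ x2 ∧ z1 ≠ y1 ∧ z1 ≠ y2 ∧
      z2 ≠ x1 ∧ z2 ≠ x2 ∧ z2 ≠ y1 ∧ z2 ≠ y2)
    (h : Sw (bit E x1) (bit E x2) (bit E y1) (bit E y2) (bit E z1) (bit E z2)
      (bit E' x1) (bit E' x2) (bit E' y1) (bit E' y2) (bit E' z1) (bit E' z2)) :
    ({x1, x2} : Finset (Edge 4)) ⊆ E ∧ Disjoint ({y1, y2} : Finset (Edge 4)) E ∧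
      E \ {x1, x2} ∪ {y1, y2} = E' := by
  obtain ⟨h1, h2, h3, h4, h5, h6, h7, h8, h9, h10⟩ := h
  rw [bit_true] at h1 h2 h7 h8
  rw [bit_false] at h3 h4 h5 h6
  rw [bit_eq] at h9 h10
  obtain ⟨d1, d2, d3, d4, d5, d6, d7, d8, d9, d10, d11, d12⟩ := hd
  refine ⟨?_, ?_, ?_⟩
  · intro e he
    rcases mem_insert.1 he with rfl | he
    · exact h1
    · rw [mem_singleton.1 he]; exact h2
  · rw [disjoint_left]
    intro e he
    rcases mem_insert.1 he with rfl | he
    · exact h3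
    · rw [mem_singleton.1 he]; exact h4
  · ext e
    simp only [mem_union, mem_sdiff, mem_insert, mem_singleton, not_or]
    rcases hcov e with rfl | rfl | rfl | rfl | rfl | rfl
    · simp [h5, d1.symm, d3.symm]
    · simp [h6, d2.symm, d4.symm]
    · simp [h7]
    · simp [h8]
    · simp [h9, d5, d6, d7, d8]
    · simp [h10, d9, d10, d11, d12]

theorem count_pos_of_switch (E E' F F' : Finset (Edge 4))
    (hF : F ∈ pmSet (univ : Finset (Fin 4))) (hF' : F' ∈ pmSet (univ : Finset (Fin 4)))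
    (hne : F ≠ F') (hsub : F ⊆ E) (hdis : Disjoint F' E) (hres : E \ F ∪ F' = E') :
    1 ≤ proposalCount E E' := by
  unfold proposalCount
  have hS : (univ : Finset (Fin 4)) ∈ (univ : Finset (Fin 4)).powersetCard 4 := by
    rw [mem_powersetCard]; exact ⟨subset_univ _, by simp⟩
  have hF'' : F' ∈ (pmSet (univ : Finset (Fin 4))).erase F := mem_erase.2 ⟨hne.symm, hF'⟩
  have hsr : switchResult E F F' = E' := by
    unfold switchResult; rw [if_pos ⟨hsub, hdis⟩]; exact hres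
  calc 1 = (if switchResult E F F' = E' then 1 else 0) := by rw [if_pos hsr]
    _ ≤ ∑ F' ∈ (pmSet (univ : Finset (Fin 4))).erase F,
          (if switchResult E F F' = E' then 1 else 0) :=
        Finset.single_le_sum (f := fun F' => if switchResult E F F' = E' then 1 else 0)
          (fun _ _ => Nat.zero_le _) hF''
    _ ≤ ∑ F ∈ pmSet (univ : Finset (Fin 4)), ∑ F' ∈ (pmSet (univ : Finset (Fin 4))).erase F,
          (if switchResult E F F' = E' then 1 else 0) :=
        Finset.single_le_sum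
          (f := fun F => ∑ F' ∈ (pmSet (univ : Finset (Fin 4))).erase F,
            (if switchResult E F F' = E' then 1 else 0))
          (fun _ _ => Nat.zero_le _) hF
    _ ≤ _ :=
        Finset.single_le_sum
          (f := fun S => ∑ F ∈ pmSet S, ∑ F' ∈ (pmSet S).erase F,
            (if switchResult E F F' = E' then 1 else 0))
          (fun _ _ => Nat.zero_le _) hS

theorem pm_mem (x y : Edge 4) (hxy : x ≠ y)
    (h : ∀ v : Fin 4, (v ∈ x.1 ∧ v ∉ y.1) ∨ (v ∉ x.1 ∧ v ∈ y.1)) :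
    ({x, y} : Finset (Edge 4)) ∈ pmSet (univ : Finset (Fin 4)) := by
  unfold pmSet
  rw [mem_filter, mem_powersetCard]
  refine ⟨⟨subset_univ _, card_pair hxy⟩, fun _ _ _ _ => mem_univ _, fun v _ => ?_⟩
  rcases h v with ⟨h1, h2⟩ | ⟨h1, h2⟩
  · rw [filter_insert, if_pos h1, filter_singleton, if_neg h2]; simp
  · rw [filter_insert, if_neg h1, filter_singleton, if_pos h2]; simp


theorem pm1 : ({e01, e23} : Finset (Edge 4)) ∈ pmSet (univ : Finset (Fin 4)) :=
  pm_mem e01 e23 (by simp [e01, e23, Subtype.ext_iff])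
    (by intro v; fin_cases v <;> simp [e01, e23])

theorem pm2 : ({e02, e13} : Finset (Edge 4)) ∈ pmSet (univ : Finset (Fin 4)) :=
  pm_mem e02 e13 (by simp [e02, e13, Subtype.ext_iff])
    (by intro v; fin_cases v <;> simp [e02, e13])

theorem pm3 : ({e03, e12} : Finset (Edge 4)) ∈ pmSet (univ : Finset (Fin 4)) :=
  pm_mem e03 e12 (by simp [e03, e12, Subtype.ext_iff])
    (by intro v; fin_cases v <;> simp [e03, e12])

theorem pair_ne (x1 x2 y1 y2 : Edge 4) (h1 : x1 ≠ y1) (h2 : x1 ≠ y2) :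
    ({x1, x2} : Finset (Edge 4)) ≠ {y1, y2} := by
  intro h
  have hm : x1 ∈ ({y1, y2} : Finset (Edge 4)) := h ▸ mem_insert_self x1 {x2}
  rcases mem_insert.1 hm with h' | h'
  · exact h1 h'
  · exact h2 (mem_singleton.1 h')

theorem edge_ne :
    e01 ≠ e02 ∧ e01 ≠ e03 ∧ e01 ≠ e12 ∧ e01 ≠ e13 ∧ e01 ≠ e23 ∧ e02 ≠ e03 ∧ e02 ≠ e12 ∧
    e02 ≠ e13 ∧ e02 ≠ e23 ∧ e03 ≠ e12 ∧ e03 ≠ e13 ∧ e03 ≠ e23 ∧ e12 ≠ e13 ∧ e12 ≠ e23 ∧
    e13 ≠ e23 := by
  simp [e01, e02, e03, e12, e13, e23, Subtype.ext_iff]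

/-- On four vertices, two distinct graphs with the same degrees are one switch apart. -/
theorem base_switch (E E' : Finset (Edge 4)) (hdeg : ∀ v, deg E v = deg E' v) (hne : E ≠ E') :
    ∃ F ∈ pmSet (univ : Finset (Fin 4)), ∃ F' ∈ (pmSet (univ : Finset (Fin 4))).erase F,
      F ⊆ E ∧ Disjoint F' E ∧ E \ F ∪ F' = E' := by
  have h0 := hdeg 0
  have h1 := hdeg 1
  have h2 := hdeg 2
  have h3 := hdeg 3
  rw [deg0, deg0] at h0
  rw [deg1, deg1] at h1
  rw [deg2, deg2] at h2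
  rw [deg3, deg3] at h3
  have hneq : ¬ (bit E e01 = bit E' e01 ∧ bit E e23 = bit E' e23 ∧ bit E e02 = bit E' e02 ∧
      bit E e13 = bit E' e13 ∧ bit E e03 = bit E' e03 ∧ bit E e12 = bit E' e12) := by
    rintro ⟨g1, g2, g3, g4, g5, g6⟩
    apply hne
    ext e
    rcases edge_cases e with rfl | rfl | rfl | rfl | rfl | rfl
    · exact (bit_eq.1 g1.symm).symm
    · exact (bit_eq.1 g3.symm).symm
    · exact (bit_eq.1 g5.symm).symm
    · exact (bit_eq.1 g6.symm).symm
    · exact (bit_eq.1 g4.symm).symm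
    · exact (bit_eq.1 g2.symm).symm
  obtain ⟨n1, n2, n3, n4, n5, n6, n7, n8, n9, n10, n11, n12, n13, n14, n15⟩ := edge_ne
  rcases key_bool _ _ _ _ _ _ _ _ _ _ _ _ h0 h1 h2 h3 hneq with h | h | h | h | h | h
  · obtain ⟨hs, hd, hr⟩ := of_sw E E' e01 e23 e02 e13 e03 e12
      (fun e => by rcases edge_cases e with h | h | h | h | h | h <;> simp [h])
      ⟨n1.symm, n9, n4.symm, n15, n2.symm, n12, n6.symm, n11, n3.symm, n14, n7.symm, n13⟩ h
    exact ⟨_, pm1, _, mem_erase.2 ⟨(pair_ne _ _ _ _ n1 n4).symm, pm2⟩, hs, hd, hr⟩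
  · obtain ⟨hs, hd, hr⟩ := of_sw E E' e01 e23 e03 e12 e02 e13
      (fun e => by rcases edge_cases e with h | h | h | h | h | h <;> simp [h])
      ⟨n2.symm, n12, n3.symm, n14, n1.symm, n9, n6, n7, n4.symm, n15, n11.symm, n13.symm⟩ h
    exact ⟨_, pm1, _, mem_erase.2 ⟨(pair_ne _ _ _ _ n2 n3).symm, pm3⟩, hs, hd, hr⟩
  · obtain ⟨hs, hd, hr⟩ := of_sw E E' e02 e13 e01 e23 e03 e12
      (fun e => by rcases edge_cases e with h | h | h | h | h | h <;> simp [h])
      ⟨n1, n4, n9.symm, n15.symm, n6.symm, n11, n2.symm, n12, n7.symm, n13, n3.symm, n14⟩ h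
    exact ⟨_, pm2, _, mem_erase.2 ⟨(pair_ne _ _ _ _ n1.symm n9).symm, pm1⟩, hs, hd, hr⟩
  · obtain ⟨hs, hd, hr⟩ := of_sw E E' e02 e13 e03 e12 e01 e23
      (fun e => by rcases edge_cases e with h | h | h | h | h | h <;> simp [h])
      ⟨n6.symm, n11, n7.symm, n13, n1, n4, n2, n3, n9.symm, n15.symm, n12.symm, n14.symm⟩ h
    exact ⟨_, pm2, _, mem_erase.2 ⟨(pair_ne _ _ _ _ n6 n7).symm, pm3⟩, hs, hd, hr⟩
  · obtain ⟨hs, hd, hr⟩ := of_sw E E' e03 e12 e01 e23 e02 e13
      (fun e => by rcases edge_cases e with h | h | h | h | h | h <;> simp [h])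
      ⟨n2, n3, n12.symm, n14.symm, n6, n7, n1.symm, n9, n11.symm, n13.symm, n4.symm, n15⟩ h
    exact ⟨_, pm3, _, mem_erase.2 ⟨(pair_ne _ _ _ _ n2.symm n12).symm, pm1⟩, hs, hd, hr⟩
  · obtain ⟨hs, hd, hr⟩ := of_sw E E' e03 e12 e02 e13 e01 e23
      (fun e => by rcases edge_cases e with h | h | h | h | h | h <;> simp [h])
      ⟨n6, n7, n11.symm, n13.symm, n2, n3, n1, n4, n12.symm, n14.symm, n9.symm, n15.symm⟩ h
    exact ⟨_, pm3, _, mem_erase.2 ⟨(pair_ne _ _ _ _ n6.symm n11).symm, pm2⟩, hs, hd, hr⟩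


theorem base_count (E E' : Finset (Edge 4)) (hdeg : ∀ v, deg E v = deg E' v) (hne : E ≠ E') :
    1 ≤ proposalCount E E' := by
  obtain ⟨F, hF, F', hF', hs, hd, hr⟩ := base_switch E E' hdeg hne
  exact count_pos_of_switch E E' F F' hF (mem_of_mem_erase hF') (ne_of_mem_erase hF').symm hs hd hr

/-- `Adj` of the plan file, on four vertices. -/
theorem base_adj (E E' : Finset (Edge 4)) (hdeg : ∀ v, deg E v = deg E' v) (hne : E ≠ E') :
    Crest.Agent.LibS0453.Adj E E' := by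
  obtain ⟨F, hF, F', hF', hs, hd, hr⟩ := base_switch E E' hdeg hne
  refine ⟨univ, ?_, F, hF, F', hF', hs, hd, hr.symm⟩
  rw [mem_powersetCard]; exact ⟨subset_univ _, by simp⟩

/-- The variance identity in unnormalised form, for any finite set. -/
theorem var_identity {α : Type*} (s : Finset α) (f : α → ℝ) :
    (s.card : ℝ) * ∑ x ∈ s, f x ^ 2 - (∑ x ∈ s, f x) ^ 2 =
      (1 / 2) * ∑ x ∈ s, ∑ y ∈ s, (f x - f y) ^ 2 := by
  have h : ∀ x ∈ s, ∑ y ∈ s, (f x - f y) ^ 2 =
      (s.card : ℝ) * f x ^ 2 - 2 * f x * (∑ y ∈ s, f y) + ∑ y ∈ s, f y ^ 2 := by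
    intro x _
    simp only [sub_sq, sum_add_distrib, sum_sub_distrib, sum_const, nsmul_eq_mul, ← mul_sum]
  rw [sum_congr rfl h, sum_add_distrib, sum_sub_distrib, ← mul_sum, sum_const, nsmul_eq_mul]
  have h2 : ∑ x ∈ s, 2 * f x * ∑ y ∈ s, f y = 2 * (∑ x ∈ s, f x) ^ 2 := by
    rw [← sum_mul, ← mul_sum]; ring
  rw [h2]; ring

/-- BASE, strongest form: on four vertices the switch graph on the realizations is complete. -/
theorem base_gap (d : Fin 4 → ℕ) (f : Finset (Edge 4) → ℝ) :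
    ((realizations d).card : ℝ) * ∑ G ∈ realizations d, f G ^ 2 -
        (∑ G ∈ realizations d, f G) ^ 2 ≤
      (1 / 2) * ∑ G ∈ realizations d, ∑ G' ∈ realizations d,
        (proposalCount G G' : ℝ) * (f G - f G') ^ 2 := by
  rw [var_identity]
  apply mul_le_mul_of_nonneg_left _ (by norm_num)
  apply sum_le_sum
  intro G hG
  apply sum_le_sum
  intro G' hG'
  by_cases hne : G = G'
  · subst hne; simp
  · have hG1 : ∀ v, deg G v = d v := by simpa [realizations] using hG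
    have hG2 : ∀ v, deg G' v = d v := by simpa [realizations] using hG'
    have h1 : 1 ≤ proposalCount G G' :=
      base_count G G' (fun v => (hG1 v).trans (hG2 v).symm) hne
    have h1' : (1 : ℝ) ≤ (proposalCount G G' : ℝ) := by exact_mod_cast h1
    nlinarith [sq_nonneg (f G - f G')]

/-- BASE in the `lambda_1 >= 2` normalisation. -/
theorem base_gap_two (d : Fin 4 → ℕ) (f : Finset (Edge 4) → ℝ) :
    ((realizations d).card : ℝ) * ∑ G ∈ realizations d, f G ^ 2 -
        (∑ G ∈ realizations d, f G) ^ 2 ≤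
      ((realizations d).card : ℝ) / 4 * ∑ G ∈ realizations d, ∑ G' ∈ realizations d,
        (proposalCount G G' : ℝ) * (f G - f G') ^ 2 := by
  have hD : (0 : ℝ) ≤ ∑ G ∈ realizations d, ∑ G' ∈ realizations d,
      (proposalCount G G' : ℝ) * (f G - f G') ^ 2 :=
    sum_nonneg fun G _ => sum_nonneg fun G' _ =>
      mul_nonneg (Nat.cast_nonneg _) (sq_nonneg _)
  rcases Nat.lt_or_ge (realizations d).card 2 with hc | hc
  · have hle : (realizations d).card ≤ 1 := by omega
    rw [var_identity]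
    have h0 : ∑ G ∈ realizations d, ∑ G' ∈ realizations d, (f G - f G') ^ 2 = 0 := by
      apply sum_eq_zero; intro G hG
      apply sum_eq_zero; intro G' hG'
      rw [Finset.card_le_one.1 hle G hG G' hG']; simp
    rw [h0]
    have : (0 : ℝ) ≤ ((realizations d).card : ℝ) / 4 := by positivity
    nlinarith [mul_nonneg this hD]
  · have h := base_gap d f
    have hc' : (2 : ℝ) ≤ ((realizations d).card : ℝ) := by exact_mod_cast hc
    nlinarith [mul_nonneg (sub_nonneg.2 hc') hD]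


/-- Package BASE of the plan file: `GapAt 4 (1/2)`. -/
theorem pkg_BASE : Crest.Agent.LibS0453.PkgBASE := by
  intro d f
  unfold Crest.Agent.LibS0453.pairVar Crest.Agent.LibS0453.energy
  have hterm : ∀ G ∈ realizations d, ∀ G' ∈ realizations d,
      (f G - f G') ^ 2 ≤ Crest.Agent.LibS0453.sw G G' * (f G - f G') ^ 2 := by
    intro G hG G' hG'
    by_cases hne : G = G'
    · subst hne; simp
    · have hG1 : ∀ v, deg G v = d v := by simpa [realizations] using hG
      have hG2 : ∀ v, deg G' v = d v := by simpa [realizations] using hG'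
      have hadj : Crest.Agent.LibS0453.Adj G G' :=
        base_adj G G' (fun v => (hG1 v).trans (hG2 v).symm) hne
      have : Crest.Agent.LibS0453.sw G G' = 1 := by
        unfold Crest.Agent.LibS0453.sw; rw [if_pos hadj]
      rw [this, one_mul]
  have hD : (0 : ℝ) ≤ ∑ G ∈ realizations d, ∑ G' ∈ realizations d,
      Crest.Agent.LibS0453.sw G G' * (f G - f G') ^ 2 :=
    sum_nonneg fun G _ => sum_nonneg fun G' _ =>
      mul_nonneg (by unfold Crest.Agent.LibS0453.sw; split_ifs <;> norm_num) (sq_nonneg _)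
  have hle : ∑ G ∈ realizations d, ∑ G' ∈ realizations d, (f G - f G') ^ 2 ≤
      ∑ G ∈ realizations d, ∑ G' ∈ realizations d,
        Crest.Agent.LibS0453.sw G G' * (f G - f G') ^ 2 :=
    sum_le_sum fun G hG => sum_le_sum fun G' hG' => hterm G hG G' hG'
  rcases Nat.lt_or_ge (realizations d).card 2 with hc | hc
  · have hle1 : (realizations d).card ≤ 1 := by omega
    have h0 : ∑ G ∈ realizations d, ∑ G' ∈ realizations d, (f G - f G') ^ 2 = 0 := by
      apply sum_eq_zero; intro G hG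
      apply sum_eq_zero; intro G' hG'
      rw [Finset.card_le_one.1 hle1 G hG G' hG']; simp
    rw [h0]
    have : (0 : ℝ) ≤ 1 / 2 * ((realizations d).card : ℝ) := by positivity
    exact mul_nonneg this hD
  · have hc' : (2 : ℝ) ≤ ((realizations d).card : ℝ) := by exact_mod_cast hc
    nlinarith [mul_nonneg (sub_nonneg.2 hc') hD]

end Crest.Agent.S0453BaseH5
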