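import Crest.Agent.Lib_S0453_Plan

/-!
# S0453 (row 299), package CNT (helper15)

A switch changes the star of each of the four vertices of its four-set, so at most `n - 4`
vertices keep their star.
-/

set_option autoImplicit false

namespace Crest.Agent.S0453CNTh15

open Finset Crest.SwitchChain Crest.Agent.LibS0453

/-- a vertex of the four-set of a switch lies on an edge of the inserted matching, which is in
`E'` and not in `E`; so its star changes. -/
theorem star_ne_of_mem {n : ℕ} {E E' : Gr n} {S : Finset (Fin n)} {F F' : Gr n}
    (hF' : F' ∈ pmSet S) (hdisj : Disjoint F' E) (hE' : E' = E \ F ∪ F') {v : Fin n}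
    (hv : v ∈ S) : star v E ≠ star v E' := by
  intro h
  have h1 := (Finset.mem_filter.mp hF').2.2 v hv
  obtain ⟨e, he⟩ := Finset.card_eq_one.mp h1
  have hemem : e ∈ F'.filter (fun e => v ∈ e.1) := by
    rw [he]; exact Finset.mem_singleton_self e
  obtain ⟨heF', hve⟩ := Finset.mem_filter.mp hemem
  have heE' : e ∈ E' := by
    rw [hE']; exact Finset.mem_union_right _ heF'
  have heE : e ∉ E := fun hh => (Finset.disjoint_left.mp hdisj heF') hh
  have hmem : e ∈ star v E' := Finset.mem_filter.mpr ⟨heE', hve⟩
  rw [← h] at hmem
  exact heE (Finset.mem_filter.mp hmem).1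

theorem pkg_CNT : PkgCNT := by
  intro n E E' hadj
  obtain ⟨S, hS, F, _hF, F', hF', _hFE, hdisj, hE'⟩ := hadj
  have hS4 : S.card = 4 := (Finset.mem_powersetCard.mp hS).2
  have hF'' : F' ∈ pmSet S := Finset.mem_of_mem_erase hF'
  have hdis : Disjoint ((univ : Finset (Fin n)).filter fun v => star v E = star v E') S := by
    rw [Finset.disjoint_left]
    intro v hv hvS
    exact star_ne_of_mem hF'' hdisj hE' hvS (Finset.mem_filter.mp hv).2
  have hcard :
      ((univ : Finset (Fin n)).filter fun v => star v E = star v E').card + S.card ≤ n := by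
    rw [← Finset.card_union_of_disjoint hdis]
    calc (((univ : Finset (Fin n)).filter fun v => star v E = star v E') ∪ S).card
        ≤ (univ : Finset (Fin n)).card := Finset.card_le_card (Finset.subset_univ _)
      _ = n := by simp
  have h2 : (((univ : Finset (Fin n)).filter fun v => star v E = star v E').card : ℝ) + 4
      ≤ (n : ℝ) := by
    rw [hS4] at hcard
    exact_mod_cast hcard
  linarith

end Crest.Agent.S0453CNTh15
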