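import Crest.Prelude.Def_SwitchChain
import Crest.Agent.Lib_S0453_Plan

set_option autoImplicit false
open Finset

namespace Crest.Agent.S0453CNTh5
open Crest.SwitchChain Crest.Agent.LibS0453

/-- A valid switch on the four-set `S` changes the star of every vertex of `S`. -/
theorem star_ne_of_switch {n : ℕ} (E E' : Gr n) (S : Finset (Fin n)) (F F' : Gr n)
    (hF : F ∈ pmSet S) (hsub : F ⊆ E) (hdis : Disjoint F' E) (hE' : E' = E \ F ∪ F')
    (v : Fin n) (hvS : v ∈ S) : star v E ≠ star v E' := by
  intro hv
  have hFpm : ∀ v ∈ S, (F.filter fun e => v ∈ e.1).card = 1 := by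
    unfold pmSet at hF; exact (mem_filter.1 hF).2.2
  have h1 := hFpm v hvS
  have hpos : 0 < (F.filter fun e => v ∈ e.1).card := by rw [h1]; norm_num
  obtain ⟨e, he⟩ := Finset.card_pos.1 hpos
  rw [mem_filter] at he
  have heE : e ∈ E := hsub he.1
  have hstar : e ∈ star v E := by unfold LibS0453.star; exact mem_filter.2 ⟨heE, he.2⟩
  rw [hv] at hstar
  unfold LibS0453.star at hstar
  have heE' : e ∈ E' := (mem_filter.1 hstar).1
  rw [hE', mem_union, mem_sdiff] at heE'
  rcases heE' with ⟨_, h⟩ | h
  · exact h he.1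
  · exact (disjoint_left.1 hdis h) heE

/-- Package CNT of the plan file. -/
theorem pkg_CNT : PkgCNT := by
  intro n E E' hadj
  obtain ⟨S, hS, F, hF, F', _, hsub, hdis, hE'⟩ := hadj
  rw [mem_powersetCard] at hS
  have hsubset : ((univ : Finset (Fin n)).filter fun v => star v E = star v E') ⊆ univ \ S := by
    intro v hv
    rw [mem_filter] at hv
    rw [mem_sdiff]
    exact ⟨mem_univ _, fun hvS => star_ne_of_switch E E' S F F' hF hsub hdis hE' v hvS hv.2⟩
  have hcard := card_le_card hsubset
  rw [card_sdiff_of_subset hS.1, card_univ, Fintype.card_fin, hS.2] at hcard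
  have h4 : 4 ≤ n := by
    have := card_le_card hS.1
    rw [hS.2, card_univ, Fintype.card_fin] at this
    exact this
  have hc : ((((univ : Finset (Fin n)).filter fun v => star v E = star v E').card : ℕ) : ℝ) ≤
      ((n - 4 : ℕ) : ℝ) := by exact_mod_cast hcard
  rw [Nat.cast_sub h4] at hc
  simpa using hc

end Crest.Agent.S0453CNTh5
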