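import Crest.Agent.Lib_S0453_Plan

/-!
# S0453 (row 299), package FIB (helper17)

For a vertex `v` of `Fin (m+1)` and a star value `B` (a set of edges through `v`), the map
`psi v B H := (H.map (liftEdge v)) ∪ B` lifts graphs on `Fin m` (via `v.succAbove`) to graphs on
`Fin (m+1)` whose star at `v` is `B`.  It is injective, maps the realizations of the reduced
degree vector onto the fibre `{G ∈ Ω(d) | star v G = B}`, and sends switch pairs to switch pairs.
Hence the Poincaré inequality on `m` vertices, applied on each fibre, gives `PkgFIB`.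
-/

set_option autoImplicit false

namespace Crest.Agent.S0453FIBh17

open Finset Crest.SwitchChain Crest.Agent.LibS0453

variable {m : ℕ}

/-- the edge embedding induced by `v.succAbove` -/
def liftEdge (v : Fin (m + 1)) : Edge m ↪ Edge (m + 1) where
  toFun e := ⟨Sym2.map v.succAbove e.1, by
    rw [Sym2.isDiag_map Fin.succAbove_right_injective]; exact e.2⟩
  inj' := by
    intro e e' h
    have h1 : Sym2.map v.succAbove e.1 = Sym2.map v.succAbove e'.1 := congrArg Subtype.val h
    exact Subtype.ext (Sym2.map.injective Fin.succAbove_right_injective h1)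

theorem liftEdge_val (v : Fin (m + 1)) (e : Edge m) :
    (liftEdge v e).1 = Sym2.map v.succAbove e.1 := rfl

theorem succAbove_mem_liftEdge (v : Fin (m + 1)) (w : Fin m) (e : Edge m) :
    v.succAbove w ∈ (liftEdge v e).1 ↔ w ∈ e.1 := by
  rw [liftEdge_val, Sym2.mem_map]
  constructor
  · rintro ⟨a, ha, hav⟩
    have : a = w := Fin.succAbove_right_injective hav
    exact this ▸ ha
  · intro h
    exact ⟨w, h, rfl⟩

theorem not_mem_liftEdge (v : Fin (m + 1)) (e : Edge m) : v ∉ (liftEdge v e).1 := by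
  rw [liftEdge_val, Sym2.mem_map]
  rintro ⟨a, _, hav⟩
  exact Fin.succAbove_ne v a hav

theorem mem_liftEdge_iff (v : Fin (m + 1)) (x : Fin (m + 1)) (e : Edge m) :
    x ∈ (liftEdge v e).1 ↔ ∃ w, w ∈ e.1 ∧ v.succAbove w = x := by
  rw [liftEdge_val, Sym2.mem_map]

theorem exists_liftEdge (v : Fin (m + 1)) (e : Edge (m + 1)) (h : v ∉ e.1) :
    ∃ e₀ : Edge m, liftEdge v e₀ = e := by
  obtain ⟨z, hz⟩ := e
  induction z using Sym2.ind with
  | _ a b =>
    have hab : a ≠ b := by
      intro hab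
      exact hz (Sym2.mk_isDiag_iff.mpr hab)
    have hav : a ≠ v := by
      intro hav
      exact h (by simp [hav])
    have hbv : b ≠ v := by
      intro hbv
      exact h (by simp [hbv])
    obtain ⟨a₀, ha₀⟩ := Fin.exists_succAbove_eq hav
    obtain ⟨b₀, hb₀⟩ := Fin.exists_succAbove_eq hbv
    have hab₀ : a₀ ≠ b₀ := by
      intro h0
      apply hab
      rw [← ha₀, ← hb₀, h0]
    refine ⟨⟨s(a₀, b₀), ?_⟩, ?_⟩
    · intro hd
      exact hab₀ (Sym2.mk_isDiag_iff.mp hd)
    · apply Subtype.ext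
      simp [liftEdge, ha₀, hb₀]

/-- the lift of a graph on `Fin m` to a graph on `Fin (m+1)` with prescribed star `B` at `v` -/
def psi (v : Fin (m + 1)) (B : Gr (m + 1)) (H : Gr m) : Gr (m + 1) :=
  H.map (liftEdge v) ∪ B

/-- the part of a graph away from `v`, pulled back to `Fin m` -/
def unlift (v : Fin (m + 1)) (G : Gr (m + 1)) : Gr m :=
  univ.filter fun e : Edge m => liftEdge v e ∈ G

theorem mem_psi (v : Fin (m + 1)) (B : Gr (m + 1)) (H : Gr m) (e : Edge (m + 1)) :
    e ∈ psi v B H ↔ (∃ e₀ ∈ H, liftEdge v e₀ = e) ∨ e ∈ B := by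
  unfold psi
  rw [mem_union, mem_map]

theorem mem_unlift (v : Fin (m + 1)) (G : Gr (m + 1)) (e : Edge m) :
    e ∈ unlift v G ↔ liftEdge v e ∈ G := by
  unfold unlift
  simp

theorem mem_star (v : Fin (m + 1)) (G : Gr (m + 1)) (e : Edge (m + 1)) :
    e ∈ LibS0453.star v G ↔ e ∈ G ∧ v ∈ e.1 := by
  unfold LibS0453.star
  rw [mem_filter]

theorem star_psi (v : Fin (m + 1)) (B : Gr (m + 1)) (hB : ∀ e ∈ B, v ∈ e.1) (H : Gr m) :
    LibS0453.star v (psi v B H) = B := by
  ext e
  rw [mem_star, mem_psi]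
  constructor
  · rintro ⟨h | h, hv⟩
    · obtain ⟨e₀, _, rfl⟩ := h
      exact absurd hv (not_mem_liftEdge v e₀)
    · exact h
  · intro h
    exact ⟨Or.inr h, hB e h⟩

theorem psi_unlift (v : Fin (m + 1)) (G : Gr (m + 1)) :
    psi v (LibS0453.star v G) (unlift v G) = G := by
  ext e
  rw [mem_psi, mem_star]
  constructor
  · rintro (⟨e₀, h0, rfl⟩ | ⟨h, _⟩)
    · exact (mem_unlift v G e₀).mp h0
    · exact h
  · intro h
    by_cases hv : v ∈ e.1
    · exact Or.inr ⟨h, hv⟩
    · obtain ⟨e₀, rfl⟩ := exists_liftEdge v e hv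
      exact Or.inl ⟨e₀, (mem_unlift v G e₀).mpr h, rfl⟩

theorem unlift_psi (v : Fin (m + 1)) (B : Gr (m + 1)) (hB : ∀ e ∈ B, v ∈ e.1) (H : Gr m) :
    unlift v (psi v B H) = H := by
  ext e
  rw [mem_unlift, mem_psi]
  constructor
  · rintro (⟨e₀, h0, h1⟩ | h)
    · have : e₀ = e := (liftEdge v).injective h1
      exact this ▸ h0
    · exact absurd (hB _ h) (not_mem_liftEdge v e)
  · intro h
    exact Or.inl ⟨e, h, rfl⟩

theorem psi_injective (v : Fin (m + 1)) (B : Gr (m + 1)) (hB : ∀ e ∈ B, v ∈ e.1) :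
    Function.Injective (psi v B) := by
  intro H H' h
  have := congrArg (unlift v) h
  rwa [unlift_psi v B hB, unlift_psi v B hB] at this

/-! ### degrees -/

theorem map_filter_succAbove (v : Fin (m + 1)) (H : Gr m) (i : Fin m) :
    (H.map (liftEdge v)).filter (fun e => v.succAbove i ∈ e.1) =
      (H.filter fun e => i ∈ e.1).map (liftEdge v) := by
  ext e
  simp only [mem_filter, mem_map]
  constructor
  · rintro ⟨⟨e₀, h0, rfl⟩, h1⟩
    exact ⟨e₀, ⟨h0, (succAbove_mem_liftEdge v i e₀).mp h1⟩, rfl⟩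
  · rintro ⟨e₀, ⟨h0, h1⟩, rfl⟩
    exact ⟨⟨e₀, h0, rfl⟩, (succAbove_mem_liftEdge v i e₀).mpr h1⟩

theorem deg_psi_succAbove (v : Fin (m + 1)) (B : Gr (m + 1)) (hB : ∀ e ∈ B, v ∈ e.1)
    (H : Gr m) (i : Fin m) :
    deg (psi v B H) (v.succAbove i) =
      deg H i + (B.filter fun e => v.succAbove i ∈ e.1).card := by
  unfold deg psi
  rw [filter_union, card_union_of_disjoint]
  · rw [map_filter_succAbove, card_map]
  · rw [disjoint_left]
    intro e he he'
    rw [mem_filter] at he he'
    obtain ⟨e₀, _, rfl⟩ := mem_map.mp he.1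
    exact not_mem_liftEdge v e₀ (hB _ he'.1)

theorem deg_eq_card_star (v : Fin (m + 1)) (G : Gr (m + 1)) :
    deg G v = (LibS0453.star v G).card := rfl

theorem deg_psi_self (v : Fin (m + 1)) (B : Gr (m + 1)) (hB : ∀ e ∈ B, v ∈ e.1) (H : Gr m) :
    deg (psi v B H) v = B.card := by
  rw [deg_eq_card_star, star_psi v B hB]

theorem mem_realizations {n : ℕ} (d : Fin n → ℕ) (G : Gr n) :
    G ∈ realizations d ↔ ∀ w, deg G w = d w := by
  unfold realizations
  simp

theorem star_mem_self (v : Fin (m + 1)) (G : Gr (m + 1)) :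
    ∀ e ∈ LibS0453.star v G, v ∈ e.1 := fun e he => ((mem_star v G e).mp he).2

/-- the fibre of `star v` through `G₀ ∈ Ω(d)` is the `psi`-image of a realization set on
`Fin m` -/
theorem fibre_eq (d : Fin (m + 1) → ℕ) (v : Fin (m + 1)) (G₀ : Gr (m + 1))
    (hG₀ : G₀ ∈ realizations d) :
    (realizations d).filter (fun G => LibS0453.star v G = LibS0453.star v G₀) =
      (realizations (fun i => deg (unlift v G₀) i)).image (psi v (LibS0453.star v G₀)) := by
  have hB := star_mem_self v G₀
  have hd0 := (mem_realizations d G₀).mp hG₀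
  have key0 : ∀ i, d (v.succAbove i) = deg (unlift v G₀) i +
      ((LibS0453.star v G₀).filter fun e => v.succAbove i ∈ e.1).card := by
    intro i
    rw [← hd0 (v.succAbove i), ← deg_psi_succAbove v _ hB, psi_unlift]
  ext G
  rw [mem_filter, mem_image]
  constructor
  · rintro ⟨hG, hst⟩
    refine ⟨unlift v G, ?_, ?_⟩
    · rw [mem_realizations]
      intro i
      have hdG := (mem_realizations d G).mp hG (v.succAbove i)
      have h1 : deg G (v.succAbove i) = deg (unlift v G) i +
          ((LibS0453.star v G₀).filter fun e => v.succAbove i ∈ e.1).card := by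
        rw [← deg_psi_succAbove v _ hB, ← hst, psi_unlift]
      have h2 := key0 i
      omega
    · rw [← hst, psi_unlift]
  · rintro ⟨H, hH, rfl⟩
    refine ⟨?_, star_psi v _ hB H⟩
    rw [mem_realizations]
    intro w
    rcases Fin.eq_self_or_eq_succAbove v w with rfl | ⟨i, rfl⟩
    · rw [deg_psi_self w _ hB, ← deg_eq_card_star, hd0]
    · rw [deg_psi_succAbove v _ hB, (mem_realizations _ H).mp hH i, ← key0 i]

/-! ### switches lift -/

/-- `v.succAbove` as an embedding -/
def succEmb (v : Fin (m + 1)) : Fin m ↪ Fin (m + 1) :=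
  ⟨v.succAbove, Fin.succAbove_right_injective⟩

theorem succEmb_apply (v : Fin (m + 1)) (i : Fin m) : succEmb v i = v.succAbove i := rfl

theorem pmSet_map (v : Fin (m + 1)) (S : Finset (Fin m)) (F : Gr m) (hF : F ∈ pmSet S) :
    F.map (liftEdge v) ∈ pmSet (S.map (succEmb v)) := by
  unfold pmSet at hF ⊢
  rw [mem_filter, mem_powersetCard] at hF ⊢
  obtain ⟨⟨_, hc⟩, h1, h2⟩ := hF
  refine ⟨⟨subset_univ _, by rw [card_map]; exact hc⟩, ?_, ?_⟩
  · intro e he x hx
    obtain ⟨e₀, h0, rfl⟩ := mem_map.mp he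
    obtain ⟨w, hw, rfl⟩ := (mem_liftEdge_iff v x e₀).mp hx
    exact mem_map.mpr ⟨w, h1 e₀ h0 w hw, rfl⟩
  · intro x hx
    obtain ⟨w, hw, rfl⟩ := mem_map.mp hx
    rw [succEmb_apply, map_filter_succAbove, card_map]
    exact h2 w hw

theorem adj_psi (v : Fin (m + 1)) (B : Gr (m + 1)) (hB : ∀ e ∈ B, v ∈ e.1) (H H' : Gr m)
    (h : Adj H H') : Adj (psi v B H) (psi v B H') := by
  obtain ⟨S, hS, F, hF, F', hF', hsub, hdisj, rfl⟩ := h
  rw [mem_powersetCard] at hS
  rw [mem_erase] at hF'
  refine ⟨S.map (succEmb v), ?_, F.map (liftEdge v), pmSet_map v S F hF,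
    F'.map (liftEdge v), ?_, ?_, ?_, ?_⟩
  · rw [mem_powersetCard]
    exact ⟨subset_univ _, by rw [card_map]; exact hS.2⟩
  · rw [mem_erase]
    refine ⟨?_, pmSet_map v S F' hF'.2⟩
    intro heq
    exact hF'.1 (map_injective (liftEdge v) heq)
  · intro e he
    obtain ⟨e₀, h0, rfl⟩ := mem_map.mp he
    exact (mem_psi v B H _).mpr (Or.inl ⟨e₀, hsub h0, rfl⟩)
  · rw [disjoint_left]
    intro e he he'
    obtain ⟨e₀, h0, rfl⟩ := mem_map.mp he
    rcases (mem_psi v B H _).mp he' with ⟨e₁, h1, h1'⟩ | hb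
    · have : e₁ = e₀ := (liftEdge v).injective h1'
      subst this
      exact (disjoint_left.mp hdisj) h0 h1
    · exact not_mem_liftEdge v e₀ (hB _ hb)
  · ext e
    simp only [mem_psi, mem_union, mem_sdiff, mem_map]
    constructor
    · rintro (⟨e₀, h0 | h0, rfl⟩ | hb)
      · exact Or.inl ⟨Or.inl ⟨e₀, h0.1, rfl⟩, fun ⟨e₁, h1, h1'⟩ =>
          h0.2 ((liftEdge v).injective h1' ▸ h1)⟩
      · exact Or.inr ⟨e₀, h0, rfl⟩
      · exact Or.inl ⟨Or.inr hb, fun ⟨e₁, _, h1'⟩ =>
          not_mem_liftEdge v e₁ (h1' ▸ hB _ hb)⟩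
    · rintro (⟨⟨e₀, h0, rfl⟩ | hb, hn⟩ | ⟨e₀, h0, rfl⟩)
      · exact Or.inl ⟨e₀, Or.inl ⟨h0, fun hF0 => hn ⟨e₀, hF0, rfl⟩⟩, rfl⟩
      · exact Or.inr hb
      · exact Or.inl ⟨e₀, Or.inr h0, rfl⟩

/-! ### the Poincaré inequality on one fibre -/

theorem fibre_gap (T : ℝ) (hT : 0 ≤ T) (hG : GapAt m T) (d : Fin (m + 1) → ℕ)
    (v : Fin (m + 1)) (f : Gr (m + 1) → ℝ) (G₀ : Gr (m + 1)) (hG₀ : G₀ ∈ realizations d) :
    pairVar ((realizations d).filter fun G => LibS0453.star v G = LibS0453.star v G₀) f ≤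
      T * (((realizations d).filter fun G =>
          LibS0453.star v G = LibS0453.star v G₀).card : ℝ) *
        energy ((realizations d).filter fun G => LibS0453.star v G = LibS0453.star v G₀) f := by
  rw [fibre_eq d v G₀ hG₀]
  have hB := star_mem_self v G₀
  have hinj := psi_injective v _ hB
  have h1 : pairVar ((realizations (fun i => deg (unlift v G₀) i)).image
        (psi v (LibS0453.star v G₀))) f =
      pairVar (realizations (fun i => deg (unlift v G₀) i))
        (f ∘ psi v (LibS0453.star v G₀)) := by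
    unfold pairVar
    rw [sum_image (fun x _ y _ h => hinj h)]
    apply sum_congr rfl
    intro H _
    rw [sum_image (fun x _ y _ h => hinj h)]
    rfl
  have h2 : energy (realizations (fun i => deg (unlift v G₀) i))
        (f ∘ psi v (LibS0453.star v G₀)) ≤
      energy ((realizations (fun i => deg (unlift v G₀) i)).image
        (psi v (LibS0453.star v G₀))) f := by
    unfold energy
    rw [sum_image (fun x _ y _ h => hinj h)]
    apply sum_le_sum
    intro H _
    rw [sum_image (fun x _ y _ h => hinj h)]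
    apply sum_le_sum
    intro H' _
    apply mul_le_mul_of_nonneg_right _ (sq_nonneg _)
    unfold sw
    by_cases hadj : Adj H H'
    · rw [if_pos hadj, if_pos (adj_psi v _ hB H H' hadj)]
    · rw [if_neg hadj]
      split_ifs <;> norm_num
  have h3 : (((realizations (fun i => deg (unlift v G₀) i)).image
        (psi v (LibS0453.star v G₀))).card : ℝ) =
      ((realizations (fun i => deg (unlift v G₀) i)).card : ℝ) := by
    rw [card_image_of_injective _ hinj]
  rw [h1, h3]
  calc pairVar (realizations (fun i => deg (unlift v G₀) i))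
          (f ∘ psi v (LibS0453.star v G₀))
        ≤ T * ((realizations (fun i => deg (unlift v G₀) i)).card : ℝ) *
          energy (realizations (fun i => deg (unlift v G₀) i))
            (f ∘ psi v (LibS0453.star v G₀)) := hG _ _
    _ ≤ T * ((realizations (fun i => deg (unlift v G₀) i)).card : ℝ) *
          energy ((realizations (fun i => deg (unlift v G₀) i)).image
            (psi v (LibS0453.star v G₀))) f := by
        apply mul_le_mul_of_nonneg_left h2
        positivity

/-! ### assembling the fibres -/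

theorem fibSum_eq {n : ℕ} (v : Fin n) (Ω : Finset (Gr n)) (f : Gr n → ℝ) :
    fibSum v Ω f = ∑ B ∈ Ω.image (LibS0453.star v),
      pairVar (Ω.filter fun G => LibS0453.star v G = B) f /
        ((Ω.filter fun G => LibS0453.star v G = B).card : ℝ) := by
  unfold fibSum
  have hmaps : ∀ G ∈ Ω, LibS0453.star v G ∈ Ω.image (LibS0453.star v) :=
    fun G hG => mem_image_of_mem _ hG
  refine (sum_fiberwise_of_maps_to hmaps _).symm.trans ?_
  apply sum_congr rfl
  intro B _
  unfold pairVar
  rw [sum_div]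
  apply sum_congr rfl
  intro G hGm
  rw [mem_filter] at hGm
  rw [sum_div, sum_filter]
  apply sum_congr rfl
  intro G' _
  have hc : fibCard Ω v G = (Ω.filter fun G => LibS0453.star v G = B).card := by
    unfold fibCard
    rw [hGm.2]
  rw [hc, hGm.2]
  by_cases h : LibS0453.star v G' = B
  · rw [if_pos h, if_pos h.symm]
  · rw [if_neg h, if_neg (fun h' => h h'.symm)]

theorem energyFix_eq {n : ℕ} (v : Fin n) (Ω : Finset (Gr n)) (f : Gr n → ℝ) :
    energyFix v Ω f = ∑ B ∈ Ω.image (LibS0453.star v),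
      energy (Ω.filter fun G => LibS0453.star v G = B) f := by
  unfold energyFix
  have hmaps : ∀ G ∈ Ω, LibS0453.star v G ∈ Ω.image (LibS0453.star v) :=
    fun G hG => mem_image_of_mem _ hG
  refine (sum_fiberwise_of_maps_to hmaps _).symm.trans ?_
  apply sum_congr rfl
  intro B _
  unfold energy
  apply sum_congr rfl
  intro G hGm
  rw [mem_filter] at hGm
  rw [sum_filter]
  apply sum_congr rfl
  intro G' _
  rw [hGm.2]
  by_cases h : LibS0453.star v G' = B
  · rw [if_pos h, if_pos h.symm]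
  · rw [if_neg h, if_neg (fun h' => h h'.symm)]

/-- package FIB of the S0453 plan -/
theorem pkg_FIB : PkgFIB := by
  intro m T hT hG d v f
  rw [fibSum_eq, energyFix_eq, mul_sum]
  apply sum_le_sum
  intro B hBm
  obtain ⟨G₀, hG₀, rfl⟩ := mem_image.mp hBm
  have key := fibre_gap T hT hG d v f G₀ hG₀
  have hpos : (0 : ℝ) < (((realizations d).filter fun G =>
      LibS0453.star v G = LibS0453.star v G₀).card : ℝ) := by
    have hmem : G₀ ∈ (realizations d).filter fun G =>
        LibS0453.star v G = LibS0453.star v G₀ := mem_filter.mpr ⟨hG₀, rfl⟩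
    exact_mod_cast card_pos.mpr ⟨G₀, hmem⟩
  rw [div_le_iff₀ hpos]
  linarith

end Crest.Agent.S0453FIBh17
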