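import Mathlib
import Crest.Prelude.Def_SwitchChain
import Crest.Agent.Lib_S0453_Plan

/-!
Kernel facts for the lazy switch chain (row 299, statement S0453), seat helper6.
Everything is stated in the vocabulary of `Crest/Prelude/Def_SwitchChain.lean`; the last
section proves the plan package `PkgKER` of `Lib_S0453_Plan.lean`.
-/

set_option autoImplicit false
open Finset

namespace Crest.Agent.S0453KERh6

open Crest.SwitchChain

variable {n : ℕ}

/-! ### switchResult: reversal -/

theorem switchResult_of_cond {E F F' : Finset (Edge n)} (h : F ⊆ E ∧ Disjoint F' E) :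
    switchResult E F F' = E \ F ∪ F' := by
  unfold switchResult; rw [if_pos h]

theorem switchResult_of_not_cond {E F F' : Finset (Edge n)} (h : ¬ (F ⊆ E ∧ Disjoint F' E)) :
    switchResult E F F' = E := by
  unfold switchResult; rw [if_neg h]

/-- If a proposal moves `E` to a different graph `E'`, the proposal was valid. -/
theorem cond_of_switchResult_ne {E E' F F' : Finset (Edge n)}
    (h : switchResult E F F' = E') (hne : E ≠ E') :
    (F ⊆ E ∧ Disjoint F' E) ∧ E' = E \ F ∪ F' := by
  by_cases hc : F ⊆ E ∧ Disjoint F' E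
  · refine ⟨hc, ?_⟩
    rw [switchResult_of_cond hc] at h; exact h.symm
  · rw [switchResult_of_not_cond hc] at h; exact absurd h hne

/-- Reversal of a valid proposal. -/
theorem switchResult_reverse {E E' F F' : Finset (Edge n)}
    (h : switchResult E F F' = E') (hne : E ≠ E') :
    switchResult E' F' F = E := by
  obtain ⟨⟨hFE, hF'E⟩, rfl⟩ := cond_of_switchResult_ne h hne
  have hFF' : Disjoint F F' := Finset.disjoint_of_subset_left hFE hF'E.symm
  have h1 : F' ⊆ E \ F ∪ F' := Finset.subset_union_right
  have h2 : Disjoint F (E \ F ∪ F') := by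
    rw [Finset.disjoint_union_right]
    exact ⟨Finset.disjoint_sdiff, hFF'⟩
  rw [switchResult_of_cond ⟨h1, h2⟩]
  ext e
  simp only [Finset.mem_union, Finset.mem_sdiff]
  constructor
  · rintro (⟨(⟨he, -⟩ | he), hn⟩ | he)
    · exact he
    · exact absurd he hn
    · exact hFE he
  · intro he
    by_cases heF : e ∈ F
    · exact Or.inr heF
    · refine Or.inl ⟨Or.inl ⟨he, heF⟩, ?_⟩
      intro heF'
      exact (Finset.disjoint_left.mp hF'E heF') he

theorem switchResult_eq_iff_reverse {E E' F F' : Finset (Edge n)} (hne : E ≠ E') :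
    switchResult E F F' = E' ↔ switchResult E' F' F = E :=
  ⟨fun h => switchResult_reverse h hne, fun h => switchResult_reverse h (Ne.symm hne)⟩

/-! ### proposalCount is symmetric -/

theorem sum_erase_comm {α : Type*} [DecidableEq α] (P : Finset α) (g : α → α → ℕ) :
    ∑ F ∈ P, ∑ F' ∈ P.erase F, g F F' = ∑ F ∈ P, ∑ F' ∈ P.erase F, g F' F := by
  rw [Finset.sum_comm']
  intro x y
  simp only [Finset.mem_erase]
  constructor
  · rintro ⟨hx, hne, hy⟩; exact ⟨⟨fun h => hne h.symm, hx⟩, hy⟩
  · rintro ⟨⟨hne, hx⟩, hy⟩; exact ⟨hx, fun h => hne h.symm, hy⟩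

theorem proposalCount_symm (E E' : Finset (Edge n)) :
    proposalCount E E' = proposalCount E' E := by
  by_cases hne : E = E'
  · subst hne; rfl
  unfold proposalCount
  refine Finset.sum_congr rfl fun S _ => ?_
  rw [sum_erase_comm (pmSet S) (fun F F' => if switchResult E' F F' = E then 1 else 0)]
  refine Finset.sum_congr rfl fun F _ => Finset.sum_congr rfl fun F' _ => ?_
  simp only [switchResult_eq_iff_reverse hne]

/-! ### perfect matchings on a vertex set -/

theorem mem_pmSet {S : Finset (Fin n)} {F : Finset (Edge n)} :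
    F ∈ pmSet S ↔ F.card = 2 ∧ (∀ e ∈ F, ∀ v : Fin n, v ∈ e.1 → v ∈ S) ∧
      ∀ v ∈ S, (F.filter fun e => v ∈ e.1).card = 1 := by
  unfold pmSet
  simp [Finset.mem_powersetCard]

/-- A perfect matching on `S` covers every vertex of `S` once and no other vertex. -/
theorem pm_filter_card {S : Finset (Fin n)} {F : Finset (Edge n)} (hF : F ∈ pmSet S) (v : Fin n) :
    (F.filter fun e => v ∈ e.1).card = if v ∈ S then 1 else 0 := by
  obtain ⟨-, h2, h3⟩ := mem_pmSet.mp hF
  by_cases hv : v ∈ S
  · rw [if_pos hv]; exact h3 v hv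
  · rw [if_neg hv, Finset.card_eq_zero, Finset.filter_eq_empty_iff]
    intro e he hve
    exact hv (h2 e he v hve)

/-- A valid switch keeps every degree. -/
theorem deg_switch {S : Finset (Fin n)} {E F F' : Finset (Edge n)}
    (hF : F ∈ pmSet S) (hF' : F' ∈ pmSet S) (hFE : F ⊆ E) (hF'E : Disjoint F' E) (v : Fin n) :
    deg (E \ F ∪ F') v = deg E v := by
  unfold deg
  have hE : E = E \ F ∪ F := (Finset.sdiff_union_of_subset hFE).symm
  have e1 : ((E \ F ∪ F').filter fun e => v ∈ e.1).card =
      ((E \ F).filter fun e => v ∈ e.1).card + (F'.filter fun e => v ∈ e.1).card := by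
    rw [Finset.filter_union]
    apply Finset.card_union_of_disjoint
    apply Finset.disjoint_filter_filter
    exact Finset.disjoint_of_subset_left Finset.sdiff_subset hF'E.symm
  have e2 : (E.filter fun e => v ∈ e.1).card =
      ((E \ F).filter fun e => v ∈ e.1).card + (F.filter fun e => v ∈ e.1).card := by
    conv_lhs => rw [hE]
    rw [Finset.filter_union]
    apply Finset.card_union_of_disjoint
    apply Finset.disjoint_filter_filter
    exact Finset.sdiff_disjoint
  rw [e1, e2, pm_filter_card hF v, pm_filter_card hF' v]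

theorem deg_switchResult {S : Finset (Fin n)} {E F F' : Finset (Edge n)}
    (hF : F ∈ pmSet S) (hF' : F' ∈ pmSet S) (v : Fin n) :
    deg (switchResult E F F') v = deg E v := by
  by_cases hc : F ⊆ E ∧ Disjoint F' E
  · rw [switchResult_of_cond hc]; exact deg_switch hF hF' hc.1 hc.2 v
  · rw [switchResult_of_not_cond hc]

theorem mem_realizations {d : Fin n → ℕ} {E : Finset (Edge n)} :
    E ∈ realizations d ↔ ∀ v, deg E v = d v := by
  unfold realizations; simp

theorem switchResult_mem_realizations {d : Fin n → ℕ} {S : Finset (Fin n)}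
    {E F F' : Finset (Edge n)} (hE : E ∈ realizations d)
    (hF : F ∈ pmSet S) (hF' : F' ∈ pmSet S) :
    switchResult E F F' ∈ realizations d := by
  rw [mem_realizations] at hE ⊢
  intro v
  rw [deg_switchResult hF hF' v]; exact hE v

/-- From a realization the chain never proposes a non-realization. -/
theorem proposalCount_eq_zero_of_not_mem {d : Fin n → ℕ} {E E' : Finset (Edge n)}
    (hE : E ∈ realizations d) (hE' : E' ∉ realizations d) : proposalCount E E' = 0 := by
  unfold proposalCount
  refine Finset.sum_eq_zero fun S _ => Finset.sum_eq_zero fun F hF =>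
    Finset.sum_eq_zero fun F' hF' => ?_
  rw [if_neg]
  intro h
  exact hE' (h ▸ switchResult_mem_realizations hE hF (Finset.mem_of_mem_erase hF'))

/-! ### the three perfect matchings of a four-element set -/

/-- The edge `{x, y}` for `x ≠ y`. -/
def mkE (x y : Fin n) (h : x ≠ y) : Edge n := ⟨s(x, y), by simpa [Sym2.mk_isDiag_iff] using h⟩

@[simp] theorem mkE_val (x y : Fin n) (h : x ≠ y) : (mkE x y h).1 = s(x, y) := rfl

theorem pm_exists {a b c d : Fin n} (hab : a ≠ b) (hac : a ≠ c) (had : a ≠ d)
    (hbc : b ≠ c) (hbd : b ≠ d) (hcd : c ≠ d) {S : Finset (Fin n)} (hS : S = {a, b, c, d}) :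
    ({mkE a b hab, mkE c d hcd} : Finset (Edge n)) ∈ pmSet S := by
  have hne : mkE a b hab ≠ mkE c d hcd := by
    intro h
    have h' := congrArg Subtype.val h
    simp only [mkE_val, Sym2.eq_iff] at h'
    rcases h' with ⟨h1, -⟩ | ⟨h1, -⟩
    · exact hac h1
    · exact had h1
  rw [mem_pmSet]
  refine ⟨Finset.card_pair hne, ?_, ?_⟩
  · intro e he v hv
    rw [Finset.mem_insert, Finset.mem_singleton] at he
    subst hS
    rcases he with rfl | rfl
    · simp only [mkE_val, Sym2.mem_iff] at hv
      rcases hv with rfl | rfl <;> simp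
    · simp only [mkE_val, Sym2.mem_iff] at hv
      rcases hv with rfl | rfl <;> simp
  · intro v hv
    subst hS
    simp only [Finset.mem_insert, Finset.mem_singleton] at hv
    rcases hv with rfl | rfl | rfl | rfl
    · have : (({mkE v b hab, mkE c d hcd} : Finset (Edge n)).filter fun e => v ∈ e.1) =
          {mkE v b hab} := by
        ext e
        simp only [Finset.mem_filter, Finset.mem_insert, Finset.mem_singleton]
        constructor
        · rintro ⟨rfl | rfl, h⟩
          · rfl
          · simp only [mkE_val, Sym2.mem_iff] at h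
            rcases h with h | h
            · exact absurd h hac
            · exact absurd h had
        · rintro rfl; exact ⟨Or.inl rfl, by simp⟩
      rw [this, Finset.card_singleton]
    · have : (({mkE a v hab, mkE c d hcd} : Finset (Edge n)).filter fun e => v ∈ e.1) =
          {mkE a v hab} := by
        ext e
        simp only [Finset.mem_filter, Finset.mem_insert, Finset.mem_singleton]
        constructor
        · rintro ⟨rfl | rfl, h⟩
          · rfl
          · simp only [mkE_val, Sym2.mem_iff] at h
            rcases h with h | h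
            · exact absurd h hbc
            · exact absurd h hbd
        · rintro rfl; exact ⟨Or.inl rfl, by simp⟩
      rw [this, Finset.card_singleton]
    · have : (({mkE a b hab, mkE v d hcd} : Finset (Edge n)).filter fun e => v ∈ e.1) =
          {mkE v d hcd} := by
        ext e
        simp only [Finset.mem_filter, Finset.mem_insert, Finset.mem_singleton]
        constructor
        · rintro ⟨rfl | rfl, h⟩
          · simp only [mkE_val, Sym2.mem_iff] at h
            rcases h with h | h
            · exact absurd h.symm hac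
            · exact absurd h.symm hbc
          · rfl
        · rintro rfl; exact ⟨Or.inr rfl, by simp⟩
      rw [this, Finset.card_singleton]
    · have : (({mkE a b hab, mkE c v hcd} : Finset (Edge n)).filter fun e => v ∈ e.1) =
          {mkE c v hcd} := by
        ext e
        simp only [Finset.mem_filter, Finset.mem_insert, Finset.mem_singleton]
        constructor
        · rintro ⟨rfl | rfl, h⟩
          · simp only [mkE_val, Sym2.mem_iff] at h
            rcases h with h | h
            · exact absurd h.symm had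
            · exact absurd h.symm hbd
          · rfl
        · rintro rfl; exact ⟨Or.inr rfl, by simp⟩
      rw [this, Finset.card_singleton]

theorem pm_unique {a b c d : Fin n} (hab : a ≠ b) (hac : a ≠ c) (had : a ≠ d)
    (hbc : b ≠ c) (hbd : b ≠ d) (hcd : c ≠ d) {S : Finset (Fin n)} (hS : S = {a, b, c, d})
    {F : Finset (Edge n)} (hF : F ∈ pmSet S) {e : Edge n} (he : e ∈ F) (hev : e.1 = s(a, b)) :
    F = {mkE a b hab, mkE c d hcd} := by
  obtain ⟨h1, h2, h3⟩ := mem_pmSet.mp hF
  have hcS : c ∈ S := by subst hS; simp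
  have haS : a ∈ S := by subst hS; simp
  have hbS : b ∈ S := by subst hS; simp
  obtain ⟨f, hf⟩ := Finset.card_eq_one.mp (h3 c hcS)
  have hfmem : f ∈ F.filter fun e => c ∈ e.1 := by rw [hf]; exact Finset.mem_singleton_self f
  obtain ⟨hfF, hcf⟩ := Finset.mem_filter.mp hfmem
  obtain ⟨y, hy⟩ := Sym2.mem_iff_exists.mp hcf
  have hyf : y ∈ f.1 := by rw [hy]; simp
  have hyS : y ∈ S := h2 f hfF y hyf
  have hyc : y ≠ c := by
    intro h
    apply f.2
    rw [hy, h]; simp
  have hef : e ≠ f := by
    intro h
    rw [← h, hev, Sym2.mem_iff] at hcf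
    rcases hcf with h | h
    · exact hac h.symm
    · exact hbc h.symm
  -- uniqueness of the edge at a vertex
  have huniq : ∀ v ∈ S, v ∈ e.1 → v ∈ f.1 → False := by
    intro v hv hve hvf
    obtain ⟨g, hg⟩ := Finset.card_eq_one.mp (h3 v hv)
    have he' : e ∈ F.filter fun e => v ∈ e.1 := Finset.mem_filter.mpr ⟨he, hve⟩
    have hf' : f ∈ F.filter fun e => v ∈ e.1 := Finset.mem_filter.mpr ⟨hfF, hvf⟩
    rw [hg, Finset.mem_singleton] at he' hf'
    exact hef (he'.trans hf'.symm)
  have hya : y ≠ a := by
    intro h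
    exact huniq a haS (by rw [hev]; simp) (by rw [← h]; exact hyf)
  have hyb : y ≠ b := by
    intro h
    exact huniq b hbS (by rw [hev]; simp) (by rw [← h]; exact hyf)
  have hyd : y = d := by
    subst hS
    simp only [Finset.mem_insert, Finset.mem_singleton] at hyS
    rcases hyS with h | h | h | h
    · exact absurd h hya
    · exact absurd h hyb
    · exact absurd h hyc
    · exact h
  subst hyd
  have he_eq : e = mkE a b hab := Subtype.ext hev
  have hf_eq : f = mkE c y hcd := Subtype.ext hy
  have hsub : ({e, f} : Finset (Edge n)) ⊆ F := by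
    intro x hx
    rw [Finset.mem_insert, Finset.mem_singleton] at hx
    rcases hx with rfl | rfl
    · exact he
    · exact hfF
  have hcard : F.card ≤ ({e, f} : Finset (Edge n)).card := by
    rw [Finset.card_pair hef, h1]
  have := Finset.eq_of_subset_of_card_le hsub hcard
  rw [← this, he_eq, hf_eq]

theorem mkE_eq_iff {x y z w : Fin n} (h : x ≠ y) (h' : z ≠ w) :
    mkE x y h = mkE z w h' ↔ x = z ∧ y = w ∨ x = w ∧ y = z := by
  rw [← Sym2.eq_iff]
  constructor
  · intro e; exact congrArg Subtype.val e
  · intro e; exact Subtype.ext e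

/-- A four-element vertex set carries exactly three perfect matchings. -/
theorem card_pmSet {S : Finset (Fin n)} (hS : S.card = 4) : (pmSet S).card = 3 := by
  obtain ⟨a, t, hat, rfl, ht⟩ := Finset.card_eq_succ.mp hS
  obtain ⟨b, c, d, hbc, hbd, hcd, rfl⟩ := Finset.card_eq_three.mp ht
  simp only [Finset.mem_insert, Finset.mem_singleton, not_or] at hat
  obtain ⟨hab, hac, had⟩ := hat
  have hS2 : (insert a {b, c, d} : Finset (Fin n)) = {a, c, b, d} := by
    ext x; simp only [Finset.mem_insert, Finset.mem_singleton]; tauto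
  have hS3 : (insert a {b, c, d} : Finset (Fin n)) = {a, d, b, c} := by
    ext x; simp only [Finset.mem_insert, Finset.mem_singleton]; tauto
  have key : pmSet (insert a {b, c, d}) =
      {({mkE a b hab, mkE c d hcd} : Finset (Edge n)), {mkE a c hac, mkE b d hbd},
        {mkE a d had, mkE b c hbc}} := by
    ext F
    simp only [Finset.mem_insert, Finset.mem_singleton]
    constructor
    · intro hF
      obtain ⟨h1, h2, h3⟩ := mem_pmSet.mp hF
      obtain ⟨e, he⟩ := Finset.card_eq_one.mp (h3 a (by simp))
      have hemem : e ∈ F.filter fun e => a ∈ e.1 := by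
        rw [he]; exact Finset.mem_singleton_self e
      obtain ⟨heF, hae⟩ := Finset.mem_filter.mp hemem
      obtain ⟨x, hx⟩ := Sym2.mem_iff_exists.mp hae
      have hxe : x ∈ e.1 := by rw [hx]; simp
      have hxS := h2 e heF x hxe
      have hxa : x ≠ a := by
        intro h; apply e.2; rw [hx, h]; simp
      simp only [Finset.mem_insert, Finset.mem_singleton] at hxS
      rcases hxS with h | rfl | rfl | rfl
      · exact absurd h hxa
      · exact Or.inl (pm_unique hab hac had hbc hbd hcd rfl hF heF hx)
      · exact Or.inr (Or.inl (pm_unique hac hab had hbc.symm hcd hbd hS2 hF heF hx))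
      · exact Or.inr (Or.inr (pm_unique had hab hac hbd.symm hcd.symm hbc hS3 hF heF hx))
    · rintro (rfl | rfl | rfl)
      · exact pm_exists hab hac had hbc hbd hcd rfl
      · exact pm_exists hac hab had hbc.symm hcd hbd hS2
      · exact pm_exists had hab hac hbd.symm hcd.symm hbc hS3
  rw [key]
  have h12 : ({mkE a b hab, mkE c d hcd} : Finset (Edge n)) ≠ {mkE a c hac, mkE b d hbd} := by
    intro h
    have hm : mkE a b hab ∈ ({mkE a c hac, mkE b d hbd} : Finset (Edge n)) := by
      rw [← h]; exact Finset.mem_insert_self _ _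
    rw [Finset.mem_insert, Finset.mem_singleton, mkE_eq_iff, mkE_eq_iff] at hm
    rcases hm with (⟨-, h⟩ | ⟨h, -⟩) | (⟨h, -⟩ | ⟨h, -⟩)
    · exact hbc h
    · exact hac h
    · exact hab h
    · exact had h
  have h13 : ({mkE a b hab, mkE c d hcd} : Finset (Edge n)) ≠ {mkE a d had, mkE b c hbc} := by
    intro h
    have hm : mkE a b hab ∈ ({mkE a d had, mkE b c hbc} : Finset (Edge n)) := by
      rw [← h]; exact Finset.mem_insert_self _ _
    rw [Finset.mem_insert, Finset.mem_singleton, mkE_eq_iff, mkE_eq_iff] at hm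
    rcases hm with (⟨-, h⟩ | ⟨h, -⟩) | (⟨h, -⟩ | ⟨h, -⟩)
    · exact hbd h
    · exact had h
    · exact hab h
    · exact hac h
  have h23 : ({mkE a c hac, mkE b d hbd} : Finset (Edge n)) ≠ {mkE a d had, mkE b c hbc} := by
    intro h
    have hm : mkE a c hac ∈ ({mkE a d had, mkE b c hbc} : Finset (Edge n)) := by
      rw [← h]; exact Finset.mem_insert_self _ _
    rw [Finset.mem_insert, Finset.mem_singleton, mkE_eq_iff, mkE_eq_iff] at hm
    rcases hm with (⟨-, h⟩ | ⟨h, -⟩) | (⟨h, -⟩ | ⟨h, -⟩)
    · exact hcd h
    · exact had h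
    · exact hab h
    · exact hac h
  exact Finset.card_eq_three.mpr ⟨_, _, _, h12, h13, h23, rfl⟩

/-! ### row sums -/

/-- Every graph has exactly `6 * (n choose 4)` proposals. -/
theorem proposalCount_row_sum (E : Finset (Edge n)) :
    ∑ E' : Finset (Edge n), proposalCount E E' = 6 * n.choose 4 := by
  unfold proposalCount
  rw [Finset.sum_comm]
  have key : ∀ S ∈ (univ : Finset (Fin n)).powersetCard 4,
      ∑ E' : Finset (Edge n), ∑ F ∈ pmSet S, ∑ F' ∈ (pmSet S).erase F,
        (if switchResult E F F' = E' then 1 else 0) = 6 := by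
    intro S hS
    have hc : (pmSet S).card = 3 := card_pmSet (Finset.mem_powersetCard.mp hS).2
    rw [Finset.sum_comm]
    calc ∑ F ∈ pmSet S, ∑ E' : Finset (Edge n), ∑ F' ∈ (pmSet S).erase F,
          (if switchResult E F F' = E' then 1 else 0)
        = ∑ F ∈ pmSet S, ∑ F' ∈ (pmSet S).erase F, 1 := by
          refine Finset.sum_congr rfl fun F _ => ?_
          rw [Finset.sum_comm]
          refine Finset.sum_congr rfl fun F' _ => ?_
          rw [Finset.sum_ite_eq]; simp
      _ = ∑ F ∈ pmSet S, 2 := by
          refine Finset.sum_congr rfl fun F hF => ?_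
          rw [Finset.sum_const, Finset.card_erase_of_mem hF, hc]; rfl
      _ = 6 := by rw [Finset.sum_const, hc]; rfl
  rw [Finset.sum_congr rfl key, Finset.sum_const, Finset.card_powersetCard, Finset.card_univ,
    Fintype.card_fin, smul_eq_mul, mul_comm]

/-! ### the kernel -/

theorem kernel_apply (E E' : Finset (Edge n)) :
    kernel n E E' = (if E = E' then 1 / 2 else 0) +
      (proposalCount E E' : ℝ) / (12 * (n.choose 4 : ℝ)) := rfl

theorem kernel_symm (E E' : Finset (Edge n)) : kernel n E E' = kernel n E' E := by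
  rw [kernel_apply, kernel_apply, proposalCount_symm E E']
  by_cases h : E = E'
  · subst h; rfl
  · rw [if_neg h, if_neg (Ne.symm h)]

theorem kernel_nonneg (E E' : Finset (Edge n)) : 0 ≤ kernel n E E' := by
  rw [kernel_apply]
  have h1 : (0 : ℝ) ≤ (if E = E' then (1 : ℝ) / 2 else 0) := by
    split_ifs <;> norm_num
  have h2 : (0 : ℝ) ≤ (proposalCount E E' : ℝ) / (12 * (n.choose 4 : ℝ)) := by positivity
  linarith

theorem kernel_diag_ge (E : Finset (Edge n)) : 1 / 2 ≤ kernel n E E := by
  rw [kernel_apply, if_pos rfl]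
  have h2 : (0 : ℝ) ≤ (proposalCount E E : ℝ) / (12 * (n.choose 4 : ℝ)) := by positivity
  linarith

/-- The kernel is stochastic (for `4 ≤ n`). -/
theorem kernel_row_sum (hn : 4 ≤ n) (E : Finset (Edge n)) :
    ∑ E' : Finset (Edge n), kernel n E E' = 1 := by
  have hpos : (0 : ℝ) < (n.choose 4 : ℝ) := by exact_mod_cast Nat.choose_pos hn
  simp only [kernel_apply]
  rw [Finset.sum_add_distrib, Finset.sum_ite_eq, if_pos (Finset.mem_univ _), ← Finset.sum_div,
    ← Nat.cast_sum, proposalCount_row_sum]
  push_cast
  field_simp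
  ring

theorem kernel_eq_zero_of_not_mem {d : Fin n → ℕ} {E E' : Finset (Edge n)}
    (hE : E ∈ realizations d) (hE' : E' ∉ realizations d) : kernel n E E' = 0 := by
  have hne : E ≠ E' := fun h => hE' (h ▸ hE)
  rw [kernel_apply, if_neg hne, proposalCount_eq_zero_of_not_mem hE hE']
  simp

theorem kernel_eq_zero_of_not_mem' {d : Fin n → ℕ} {E E' : Finset (Edge n)}
    (hE : E ∉ realizations d) (hE' : E' ∈ realizations d) : kernel n E E' = 0 := by
  rw [kernel_symm]; exact kernel_eq_zero_of_not_mem hE' hE

/-- On the realizations of `d` the kernel is stochastic. -/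
theorem kernel_row_sum_realizations (hn : 4 ≤ n) {d : Fin n → ℕ} {E : Finset (Edge n)}
    (hE : E ∈ realizations d) : ∑ E' ∈ realizations d, kernel n E E' = 1 := by
  rw [← kernel_row_sum hn E]
  exact Finset.sum_subset (Finset.subset_univ _)
    (fun E' _ hE' => kernel_eq_zero_of_not_mem hE hE')

theorem kernel_off_diag {E E' : Finset (Edge n)} (h : E ≠ E') :
    kernel n E E' = (proposalCount E E' : ℝ) / (12 * (n.choose 4 : ℝ)) := by
  rw [kernel_apply, if_neg h, zero_add]

/-! ### a proposal between two distinct graphs is unique -/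

/-- The vertices covered by an edge set. -/
def verts (F : Finset (Edge n)) : Finset (Fin n) := univ.filter fun v => ∃ e ∈ F, v ∈ e.1

theorem pm_verts {S : Finset (Fin n)} {F : Finset (Edge n)} (hF : F ∈ pmSet S) : S = verts F := by
  obtain ⟨-, h2, h3⟩ := mem_pmSet.mp hF
  ext v
  simp only [verts, Finset.mem_filter, Finset.mem_univ, true_and]
  constructor
  · intro hv
    obtain ⟨e, he⟩ := Finset.card_eq_one.mp (h3 v hv)
    have hm : e ∈ F.filter fun e => v ∈ e.1 := by rw [he]; exact Finset.mem_singleton_self e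
    exact ⟨e, (Finset.mem_filter.mp hm).1, (Finset.mem_filter.mp hm).2⟩
  · rintro ⟨e, he, hve⟩; exact h2 e he v hve

/-- A valid proposal from `E` to `E' ≠ E` is determined by the two graphs. -/
theorem valid_determines {E E' F F' : Finset (Edge n)}
    (h : switchResult E F F' = E') (hne : E ≠ E') : F = E \ E' ∧ F' = E' \ E := by
  obtain ⟨⟨hFE, hF'E⟩, rfl⟩ := cond_of_switchResult_ne h hne
  constructor
  · ext e
    rw [Finset.mem_sdiff, Finset.mem_union]
    constructor
    · intro he
      refine ⟨hFE he, ?_⟩
      rintro (h | h)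
      · exact (Finset.mem_sdiff.mp h).2 he
      · exact Finset.disjoint_left.mp hF'E h (hFE he)
    · rintro ⟨heE, hn⟩
      by_contra heF
      exact hn (Or.inl (Finset.mem_sdiff.mpr ⟨heE, heF⟩))
  · ext e
    rw [Finset.mem_sdiff, Finset.mem_union]
    constructor
    · intro he
      exact ⟨Or.inr he, fun h => Finset.disjoint_left.mp hF'E he h⟩
    · rintro ⟨h | h, hn⟩
      · exact absurd (Finset.mem_sdiff.mp h).1 hn
      · exact h

theorem proposalCount_le_one {E E' : Finset (Edge n)} (hne : E ≠ E') :
    proposalCount E E' ≤ 1 := by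
  unfold proposalCount
  have step1 : ∀ S : Finset (Fin n), ∀ F ∈ pmSet S,
      ∑ F' ∈ (pmSet S).erase F, (if switchResult E F F' = E' then 1 else 0) ≤
        (if F = E \ E' then 1 else 0) := by
    intro S F _
    calc ∑ F' ∈ (pmSet S).erase F, (if switchResult E F F' = E' then 1 else 0)
        ≤ ∑ F' ∈ (pmSet S).erase F,
            (if F = E \ E' then (if F' = E' \ E then 1 else 0) else 0) := by
          refine Finset.sum_le_sum fun F' _ => ?_
          by_cases h : switchResult E F F' = E'
          · obtain ⟨h1, h2⟩ := valid_determines h hne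
            rw [if_pos h, if_pos h1, if_pos h2]
          · rw [if_neg h]; exact Nat.zero_le _
      _ ≤ (if F = E \ E' then 1 else 0) := by
          by_cases h1 : F = E \ E'
          · simp only [if_pos h1]
            rw [Finset.sum_ite_eq']
            split_ifs <;> simp
          · simp [if_neg h1]
  have step2 : ∀ S : Finset (Fin n),
      ∑ F ∈ pmSet S, ∑ F' ∈ (pmSet S).erase F, (if switchResult E F F' = E' then 1 else 0) ≤
        (if S = verts (E \ E') then 1 else 0) := by
    intro S
    calc ∑ F ∈ pmSet S, ∑ F' ∈ (pmSet S).erase F, (if switchResult E F F' = E' then 1 else 0)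
        ≤ ∑ F ∈ pmSet S, (if F = E \ E' then 1 else 0) := Finset.sum_le_sum (step1 S)
      _ = if E \ E' ∈ pmSet S then 1 else 0 := by rw [Finset.sum_ite_eq']
      _ ≤ (if S = verts (E \ E') then 1 else 0) := by
          by_cases h : E \ E' ∈ pmSet S
          · rw [if_pos h, if_pos (pm_verts h)]
          · rw [if_neg h]; exact Nat.zero_le _
  calc ∑ S ∈ (univ : Finset (Fin n)).powersetCard 4, ∑ F ∈ pmSet S, ∑ F' ∈ (pmSet S).erase F,
        (if switchResult E F F' = E' then 1 else 0)
      ≤ ∑ S ∈ (univ : Finset (Fin n)).powersetCard 4, (if S = verts (E \ E') then 1 else 0) :=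
        Finset.sum_le_sum (fun S _ => step2 S)
    _ = if verts (E \ E') ∈ (univ : Finset (Fin n)).powersetCard 4 then 1 else 0 := by
        rw [Finset.sum_ite_eq']
    _ ≤ 1 := by split_ifs <;> simp

/-- `E'` arises from `E` by one valid switch. -/
def IsSwitch (E E' : Finset (Edge n)) : Prop :=
  ∃ S ∈ (univ : Finset (Fin n)).powersetCard 4, ∃ F ∈ pmSet S, ∃ F' ∈ pmSet S,
    F ≠ F' ∧ F ⊆ E ∧ Disjoint F' E ∧ E' = E \ F ∪ F'

theorem proposalCount_pos_iff {E E' : Finset (Edge n)} (hne : E ≠ E') :
    0 < proposalCount E E' ↔ IsSwitch E E' := by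
  constructor
  · intro hpos
    by_contra hno
    have h0 : proposalCount E E' = 0 := by
      unfold proposalCount
      refine Finset.sum_eq_zero fun S hS => Finset.sum_eq_zero fun F hF =>
        Finset.sum_eq_zero fun F' hF' => ?_
      rw [if_neg]
      intro h
      obtain ⟨⟨h1, h2⟩, h3⟩ := cond_of_switchResult_ne h hne
      exact hno ⟨S, hS, F, hF, F', Finset.mem_of_mem_erase hF',
        (Finset.ne_of_mem_erase hF').symm, h1, h2, h3⟩
    omega
  · rintro ⟨S, hS, F, hF, F', hF', hFF', h1, h2, h3⟩
    have hterm : switchResult E F F' = E' := by rw [switchResult_of_cond ⟨h1, h2⟩, h3]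
    have hF'e : F' ∈ (pmSet S).erase F := Finset.mem_erase.mpr ⟨fun h => hFF' h.symm, hF'⟩
    unfold proposalCount
    calc 0 < (if switchResult E F F' = E' then 1 else 0) := by
          rw [if_pos hterm]; exact Nat.one_pos
      _ ≤ ∑ F' ∈ (pmSet S).erase F, (if switchResult E F F' = E' then 1 else 0) :=
          Finset.single_le_sum (f := fun F' => if switchResult E F F' = E' then 1 else 0)
            (fun _ _ => Nat.zero_le _) hF'e
      _ ≤ ∑ F ∈ pmSet S, ∑ F' ∈ (pmSet S).erase F,
            (if switchResult E F F' = E' then 1 else 0) :=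
          Finset.single_le_sum
            (f := fun F => ∑ F' ∈ (pmSet S).erase F, if switchResult E F F' = E' then 1 else 0)
            (fun _ _ => Nat.zero_le _) hF
      _ ≤ _ :=
          Finset.single_le_sum
            (f := fun S => ∑ F ∈ pmSet S, ∑ F' ∈ (pmSet S).erase F,
              if switchResult E F F' = E' then 1 else 0)
            (fun _ _ => Nat.zero_le _) hS

theorem proposalCount_eq_one_iff {E E' : Finset (Edge n)} (hne : E ≠ E') :
    proposalCount E E' = 1 ↔ IsSwitch E E' := by
  rw [← proposalCount_pos_iff hne]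
  have := proposalCount_le_one hne
  omega

theorem proposalCount_eq_zero_iff {E E' : Finset (Edge n)} (hne : E ≠ E') :
    proposalCount E E' = 0 ↔ ¬ IsSwitch E E' := by
  rw [← proposalCount_pos_iff hne]
  omega

theorem isSwitch_symm {E E' : Finset (Edge n)} (hne : E ≠ E') (h : IsSwitch E E') :
    IsSwitch E' E := by
  rw [← proposalCount_pos_iff (Ne.symm hne), ← proposalCount_symm]
  exact (proposalCount_pos_iff hne).mpr h

theorem isSwitch_mem_realizations {d : Fin n → ℕ} {E E' : Finset (Edge n)}
    (hE : E ∈ realizations d) (h : IsSwitch E E') : E' ∈ realizations d := by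
  obtain ⟨S, -, F, hF, F', hF', -, h1, h2, rfl⟩ := h
  rw [mem_realizations] at hE ⊢
  intro v
  rw [deg_switch hF hF' h1 h2 v]; exact hE v

/-! ### the Dirichlet form -/

/-- The Dirichlet form of the statement as a sum of squared differences. -/
theorem dirichlet_identity (hn : 4 ≤ n) (d : Fin n → ℕ) (f : Finset (Edge n) → ℝ) :
    ∑ G ∈ realizations d, f G * (f G - ∑ G' ∈ realizations d, kernel n G G' * f G') =
      (1 / 2) * ∑ G ∈ realizations d, ∑ G' ∈ realizations d,
        kernel n G G' * (f G - f G') ^ 2 := by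
  have hrow : ∀ G ∈ realizations d, ∑ G' ∈ realizations d, kernel n G G' = 1 :=
    fun G hG => kernel_row_sum_realizations hn hG
  have e1 : ∑ G ∈ realizations d, ∑ G' ∈ realizations d, kernel n G G' * (f G - f G') ^ 2 =
      ∑ G ∈ realizations d, f G ^ 2 + ∑ G ∈ realizations d, f G ^ 2 -
        2 * ∑ G ∈ realizations d, ∑ G' ∈ realizations d, kernel n G G' * (f G * f G') := by
    have h1 : ∀ G ∈ realizations d,
        ∑ G' ∈ realizations d, kernel n G G' * (f G - f G') ^ 2 =
          f G ^ 2 * ∑ G' ∈ realizations d, kernel n G G' +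
            ∑ G' ∈ realizations d, kernel n G G' * f G' ^ 2 -
            2 * ∑ G' ∈ realizations d, kernel n G G' * (f G * f G') := by
      intro G _
      rw [Finset.mul_sum, Finset.mul_sum, ← Finset.sum_add_distrib, ← Finset.sum_sub_distrib]
      refine Finset.sum_congr rfl fun G' _ => ?_
      ring
    rw [Finset.sum_congr rfl h1, Finset.sum_sub_distrib, Finset.sum_add_distrib,
      ← Finset.mul_sum]
    congr 1
    congr 1
    · refine Finset.sum_congr rfl fun G hG => ?_
      rw [hrow G hG, mul_one]
    · rw [Finset.sum_comm]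
      refine Finset.sum_congr rfl fun G' hG' => ?_
      rw [← Finset.sum_mul]
      have h2 : ∑ G ∈ realizations d, kernel n G G' = 1 := by
        rw [← hrow G' hG']; exact Finset.sum_congr rfl fun G _ => kernel_symm G G'
      rw [h2, one_mul]
  have e2 : ∑ G ∈ realizations d, f G * (f G - ∑ G' ∈ realizations d, kernel n G G' * f G') =
      ∑ G ∈ realizations d, f G ^ 2 -
        ∑ G ∈ realizations d, ∑ G' ∈ realizations d, kernel n G G' * (f G * f G') := by
    rw [← Finset.sum_sub_distrib]
    refine Finset.sum_congr rfl fun G _ => ?_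
    rw [mul_sub, Finset.mul_sum]
    congr 1
    · ring
    · refine Finset.sum_congr rfl fun G' _ => ?_
      ring
  rw [e1, e2]; ring

/-- The Dirichlet form of the statement in terms of proposal counts. -/
theorem dirichlet_identity_count (hn : 4 ≤ n) (d : Fin n → ℕ) (f : Finset (Edge n) → ℝ) :
    ∑ G ∈ realizations d, f G * (f G - ∑ G' ∈ realizations d, kernel n G G' * f G') =
      (1 / (24 * (n.choose 4 : ℝ))) * ∑ G ∈ realizations d, ∑ G' ∈ realizations d,
        (proposalCount G G' : ℝ) * (f G - f G') ^ 2 := by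
  have hC : (n.choose 4 : ℝ) ≠ 0 := by
    exact_mod_cast (Nat.choose_pos hn).ne'
  rw [dirichlet_identity hn d f, Finset.mul_sum, Finset.mul_sum]
  refine Finset.sum_congr rfl fun G _ => ?_
  rw [Finset.mul_sum, Finset.mul_sum]
  refine Finset.sum_congr rfl fun G' _ => ?_
  by_cases h : G = G'
  · subst h; simp
  · rw [kernel_off_diag h]; field_simp; ring

/-- The Poincaré conjunct of S0453 (for one `n`, `d`, `f`) is equivalent to the same inequality
for the unnormalised switch energy `∑∑ proposalCount G G' * (f G - f G')²` with constant `n²`. -/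
theorem poincare_iff_count (hn : 4 ≤ n) (d : Fin n → ℕ) (f : Finset (Edge n) → ℝ) :
    (((realizations d).card : ℝ) * (∑ G ∈ realizations d, f G ^ 2) -
        (∑ G ∈ realizations d, f G) ^ 2 ≤
      24 * (n : ℝ) ^ 2 * (n.choose 4 : ℝ) * (realizations d).card *
        ∑ G ∈ realizations d,
          f G * (f G - ∑ G' ∈ realizations d, kernel n G G' * f G')) ↔
    (((realizations d).card : ℝ) * (∑ G ∈ realizations d, f G ^ 2) -
        (∑ G ∈ realizations d, f G) ^ 2 ≤
      (n : ℝ) ^ 2 * (realizations d).card *
        ∑ G ∈ realizations d, ∑ G' ∈ realizations d,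
          (proposalCount G G' : ℝ) * (f G - f G') ^ 2) := by
  have hC : (n.choose 4 : ℝ) ≠ 0 := by
    exact_mod_cast (Nat.choose_pos hn).ne'
  rw [dirichlet_identity_count hn d f]
  have e : 24 * (n : ℝ) ^ 2 * (n.choose 4 : ℝ) * (realizations d).card *
      ((1 / (24 * (n.choose 4 : ℝ))) * ∑ G ∈ realizations d, ∑ G' ∈ realizations d,
        (proposalCount G G' : ℝ) * (f G - f G') ^ 2) =
      (n : ℝ) ^ 2 * (realizations d).card *
        ∑ G ∈ realizations d, ∑ G' ∈ realizations d,
          (proposalCount G G' : ℝ) * (f G - f G') ^ 2 := by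
    field_simp
  rw [e]

/-! ### the plan package `PkgKER` -/

open Crest.Agent.LibS0453 in
theorem adj_iff_isSwitch {E E' : Finset (Edge n)} : Adj E E' ↔ IsSwitch E E' := by
  unfold Adj IsSwitch
  constructor
  · rintro ⟨S, hS, F, hF, F', hF', h1, h2, h3⟩
    exact ⟨S, hS, F, hF, F', Finset.mem_of_mem_erase hF', (Finset.ne_of_mem_erase hF').symm,
      h1, h2, h3⟩
  · rintro ⟨S, hS, F, hF, F', hF', hne, h1, h2, h3⟩
    exact ⟨S, hS, F, hF, F', Finset.mem_erase.mpr ⟨fun h => hne h.symm, hF'⟩, h1, h2, h3⟩

theorem isSwitch_ne {E E' : Finset (Edge n)} (h : IsSwitch E E') : E ≠ E' := by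
  obtain ⟨S, -, F, -, F', hF', -, -, h2, rfl⟩ := h
  have hcard : F'.card = 2 := (mem_pmSet.mp hF').1
  have hne : F'.Nonempty := by
    rw [← Finset.card_pos, hcard]; norm_num
  obtain ⟨e, he⟩ := hne
  intro hEq
  have : e ∈ E := by rw [hEq]; exact Finset.mem_union_right _ he
  exact Finset.disjoint_left.mp h2 he this

open Crest.Agent.LibS0453 in
theorem pkg_KER : PkgKER := by
  refine ⟨?_, ?_, ?_, ?_, ?_, ?_, ?_⟩
  · intro n _ E E'
    exact kernel_symm E E'
  · intro n hn E
    exact kernel_row_sum hn E
  · intro n _ E E' hne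
    rw [kernel_off_diag hne]
    unfold sw
    by_cases h : Adj E E'
    · rw [if_pos h, (proposalCount_eq_one_iff hne).mpr (adj_iff_isSwitch.mp h)]
      norm_num
    · rw [if_neg h,
        (proposalCount_eq_zero_iff hne).mpr (fun h' => h (adj_iff_isSwitch.mpr h'))]
      norm_num
  · intro n E
    exact kernel_diag_ge E
  · intro n E E' h v
    obtain ⟨S, -, F, hF, F', hF', -, h1, h2, rfl⟩ := adj_iff_isSwitch.mp h
    exact deg_switch hF hF' h1 h2 v
  · intro n E E' h
    have h' := adj_iff_isSwitch.mp h
    exact adj_iff_isSwitch.mpr (isSwitch_symm (isSwitch_ne h') h')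
  · intro n E E' h
    exact isSwitch_ne (adj_iff_isSwitch.mp h)

end Crest.Agent.S0453KERh6




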