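import Crest.Agent.Lib_S0453_PlanB_h24
import Crest.Agent.Lib_S0453_FIB_h17
import Crest.Agent.Lib_S0453_KER_h6

/-!
# S0453 (row 299), package CONN (helper17): the switch graph is connected

Any two realizations of a degree vector are joined by a chain of switches (classical).
Induction on the number of vertices.  For `G, G' ∈ Ω(d)` on `Fin (m+1)` and the vertex `v = 0`:
if the stars of `v` agree, both graphs lie in one fibre, which is the `psi`-image of a
realization set on `Fin m` (package `FIB`), and switches lift; otherwise there are `a, b` with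
`va ∈ G \ G'`, `vb ∈ G' \ G`, and a slide `va, bc → vb, ac` in `G` (if `d a ≤ d b`) or the
mirrored slide in `G'` brings the two stars closer.
-/

set_option autoImplicit false

namespace Crest.Agent.S0453CONNh17

open Finset Crest.SwitchChain Crest.Agent.LibS0453 Crest.Agent.S0453PlanBh24
open Crest.Agent.S0453KERh6 (mkE mkE_val pm_exists mkE_eq_iff IsSwitch adj_iff_isSwitch
  isSwitch_symm isSwitch_ne isSwitch_mem_realizations)

variable {n : ℕ}

/-- the vertex transposition `(a b)` acting on edges -/
def swapEdge (a b : Fin n) (e : Edge n) : Edge n :=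
  ⟨Sym2.map (Equiv.swap a b) e.1, by
    rw [Sym2.isDiag_map (Equiv.swap a b).injective]; exact e.2⟩

theorem swapEdge_val (a b : Fin n) (e : Edge n) :
    (swapEdge a b e).1 = Sym2.map (Equiv.swap a b) e.1 := rfl

theorem swapEdge_invol (a b : Fin n) (e : Edge n) : swapEdge a b (swapEdge a b e) = e := by
  apply Subtype.ext
  rw [swapEdge_val, swapEdge_val, Sym2.map_map]
  have : (Equiv.swap a b : Fin n → Fin n) ∘ (Equiv.swap a b) = id := by
    funext x
    simp
  rw [this, Sym2.map_id]
  rfl

theorem mem_swapEdge (a b x : Fin n) (e : Edge n) :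
    x ∈ (swapEdge a b e).1 ↔ Equiv.swap a b x ∈ e.1 := by
  rw [swapEdge_val, Sym2.mem_map]
  constructor
  · rintro ⟨y, hy, rfl⟩
    simpa using hy
  · intro h
    exact ⟨Equiv.swap a b x, h, by simp⟩

/-- counting: if `a ∈ ea ∈ G`, `b ∉ ea`, the swapped edge is absent and `deg a ≤ deg b`, then some
edge at `b` avoiding `a` has its swapped edge absent. -/
theorem exists_slide (G : Gr n) (a b : Fin n) (ea : Edge n) (hea : ea ∈ G)
    (ha : a ∈ ea.1) (hb : b ∉ ea.1) (hsw : swapEdge a b ea ∉ G) (hdeg : deg G a ≤ deg G b) :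
    ∃ e' ∈ G, b ∈ e'.1 ∧ a ∉ e'.1 ∧ swapEdge a b e' ∉ G := by
  by_contra hcon
  have hcon : ∀ e' ∈ G, b ∈ e'.1 → ¬ a ∈ e'.1 → swapEdge a b e' ∈ G := by
    intro e' he' hb' ha'
    by_contra hn
    exact hcon ⟨e', he', hb', ha', hn⟩
  have hdb : deg G b = ((G.filter fun e => b ∈ e.1).filter fun e => a ∈ e.1).card +
      ((G.filter fun e => b ∈ e.1).filter fun e => ¬ a ∈ e.1).card := by
    unfold deg
    exact (card_filter_add_card_filter_not _).symm
  have hda : deg G a = ((G.filter fun e => a ∈ e.1).filter fun e => b ∈ e.1).card +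
      ((G.filter fun e => a ∈ e.1).filter fun e => ¬ b ∈ e.1).card := by
    unfold deg
    exact (card_filter_add_card_filter_not _).symm
  have hZ : ((G.filter fun e => b ∈ e.1).filter fun e => a ∈ e.1) =
      ((G.filter fun e => a ∈ e.1).filter fun e => b ∈ e.1) := by
    ext e
    simp only [mem_filter]
    tauto
  have heaY : ea ∈ (G.filter fun e => a ∈ e.1).filter fun e => ¬ b ∈ e.1 := by
    simp only [mem_filter]
    exact ⟨⟨hea, ha⟩, hb⟩
  have hXY : ((G.filter fun e => b ∈ e.1).filter fun e => ¬ a ∈ e.1).card ≤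
      (((G.filter fun e => a ∈ e.1).filter fun e => ¬ b ∈ e.1).erase ea).card := by
    apply card_le_card_of_injOn (swapEdge a b)
    · intro e he
      have he' : (e ∈ G ∧ b ∈ e.1) ∧ ¬ a ∈ e.1 := by
        have := mem_coe.mp he
        simpa only [mem_filter] using this
      have h1 := hcon e he'.1.1 he'.1.2 he'.2
      have h2 : a ∈ (swapEdge a b e).1 := by
        rw [mem_swapEdge]; simpa using he'.1.2
      have h3 : ¬ b ∈ (swapEdge a b e).1 := by
        rw [mem_swapEdge]; simpa using he'.2
      have h4 : swapEdge a b e ≠ ea := by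
        intro h
        apply hsw
        rw [← h, swapEdge_invol]
        exact he'.1.1
      refine mem_coe.mpr ?_
      simp only [mem_erase, mem_filter]
      exact ⟨h4, ⟨h1, h2⟩, h3⟩
    · intro e _ e' _ h
      have := congrArg (swapEdge a b) h
      rwa [swapEdge_invol, swapEdge_invol] at this
  rw [card_erase_of_mem heaY] at hXY
  have hpos : 0 < ((G.filter fun e => a ∈ e.1).filter fun e => ¬ b ∈ e.1).card :=
    card_pos.mpr ⟨ea, heaY⟩
  rw [hZ] at hdb
  omega

/-! ### one slide -/

theorem mem_star {v : Fin n} {G : Gr n} {e : Edge n} :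
    e ∈ LibS0453.star v G ↔ e ∈ G ∧ v ∈ e.1 := by
  unfold LibS0453.star
  rw [mem_filter]

theorem swapEdge_mkE_left {v a b : Fin n} (hva : v ≠ a) (hvb : v ≠ b) :
    swapEdge a b (mkE v a hva) = mkE v b hvb := by
  apply Subtype.ext
  rw [swapEdge_val, mkE_val, mkE_val, Sym2.map_mk, Equiv.swap_apply_left,
    Equiv.swap_apply_of_ne_of_ne hva hvb]

theorem swapEdge_mkE_right {a b c : Fin n} (hbc : b ≠ c) (hac : a ≠ c) :
    swapEdge a b (mkE b c hbc) = mkE a c hac := by
  apply Subtype.ext
  rw [swapEdge_val, mkE_val, mkE_val, Sym2.map_mk, Equiv.swap_apply_right,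
    Equiv.swap_apply_of_ne_of_ne (Ne.symm hac) (Ne.symm hbc)]

/-- one slide at `v`: if `va ∈ G \ G'`, `vb ∈ G' \ G` and `deg G a ≤ deg G b`, some switch of `G`
brings the star of `v` strictly closer to that of `G'`. -/
theorem slide_one (v a b : Fin n) (hva : v ≠ a) (hvb : v ≠ b) (hab : a ≠ b) (G G' : Gr n)
    (h1 : mkE v a hva ∈ G) (h2 : mkE v b hvb ∉ G) (h3 : mkE v a hva ∉ G')
    (h4 : mkE v b hvb ∈ G') (hdeg : deg G a ≤ deg G b) :
    ∃ G₁ : Gr n, Adj G G₁ ∧
      (LibS0453.star v G₁ \ LibS0453.star v G').card <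
        (LibS0453.star v G \ LibS0453.star v G').card ∧
      (LibS0453.star v G' \ LibS0453.star v G₁).card ≤
        (LibS0453.star v G' \ LibS0453.star v G).card := by
  have hb_not : b ∉ (mkE v a hva).1 := by
    rw [mkE_val, Sym2.mem_iff]
    rintro (h | h)
    · exact hvb h.symm
    · exact hab h.symm
  have ha_mem : a ∈ (mkE v a hva).1 := by
    rw [mkE_val]; exact Sym2.mem_mk_right v a
  have hsw : swapEdge a b (mkE v a hva) ∉ G := by
    rw [swapEdge_mkE_left hva hvb]; exact h2
  obtain ⟨e', he'G, hbe', hae', hsw'⟩ :=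
    exists_slide G a b (mkE v a hva) h1 ha_mem hb_not hsw hdeg
  obtain ⟨c, hc⟩ := Sym2.mem_iff_exists.mp hbe'
  have hbc : b ≠ c := by
    intro h
    apply e'.2
    rw [hc, h]
    exact Sym2.mk_isDiag_iff.mpr rfl
  have hac : a ≠ c := by
    intro h
    apply hae'
    rw [hc, h]
    exact Sym2.mem_mk_right b c
  have he'eq : e' = mkE b c hbc := Subtype.ext hc
  have hvc : v ≠ c := by
    intro h
    apply h2
    have : mkE v b hvb = e' := by
      rw [he'eq]
      apply Subtype.ext
      rw [mkE_val, mkE_val, h]
      exact Sym2.eq_swap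
    rw [this]
    exact he'G
  rw [he'eq] at he'G hsw'
  rw [swapEdge_mkE_right hbc hac] at hsw'
  -- the switch
  have hF : ({mkE v a hva, mkE b c hbc} : Finset (Edge n)) ∈
      pmSet ({v, a, b, c} : Finset (Fin n)) := pm_exists hva hvb hvc hab hac hbc rfl
  have hF' : ({mkE v b hvb, mkE a c hac} : Finset (Edge n)) ∈
      pmSet ({v, a, b, c} : Finset (Fin n)) := by
    apply pm_exists hvb hva hvc (Ne.symm hab) hbc hac
    ext x
    simp only [mem_insert, mem_singleton]
    tauto
  have hcard : ({v, a, b, c} : Finset (Fin n)).card = 4 := by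
    rw [card_insert_of_notMem, card_insert_of_notMem, card_pair hbc]
    · simp only [mem_insert, mem_singleton, not_or]
      exact ⟨hab, hac⟩
    · simp only [mem_insert, mem_singleton, not_or]
      exact ⟨hva, hvb, hvc⟩
  have hneF : ({mkE v a hva, mkE b c hbc} : Finset (Edge n)) ≠
      {mkE v b hvb, mkE a c hac} := by
    intro h
    have hm : mkE v a hva ∈ ({mkE v b hvb, mkE a c hac} : Finset (Edge n)) := by
      rw [← h]; exact mem_insert_self _ _
    rw [mem_insert, mem_singleton, mkE_eq_iff, mkE_eq_iff] at hm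
    rcases hm with (⟨_, h⟩ | ⟨h, _⟩) | (⟨h, _⟩ | ⟨h, _⟩)
    · exact hab h
    · exact hvb h
    · exact hva h
    · exact hvc h
  have hsub : ({mkE v a hva, mkE b c hbc} : Finset (Edge n)) ⊆ G := by
    intro e he
    rw [mem_insert, mem_singleton] at he
    rcases he with rfl | rfl
    · exact h1
    · exact he'G
  have hdisj : Disjoint ({mkE v b hvb, mkE a c hac} : Finset (Edge n)) G := by
    rw [disjoint_left]
    intro e he
    rw [mem_insert, mem_singleton] at he
    rcases he with rfl | rfl
    · exact h2
    · exact hsw'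
  have hv_bc : v ∉ (mkE b c hbc).1 := by
    rw [mkE_val, Sym2.mem_iff]
    rintro (h | h)
    · exact hvb h
    · exact hvc h
  have hv_ac : v ∉ (mkE a c hac).1 := by
    rw [mkE_val, Sym2.mem_iff]
    rintro (h | h)
    · exact hva h
    · exact hvc h
  have hv_va : v ∈ (mkE v a hva).1 := by
    rw [mkE_val]; exact Sym2.mem_mk_left v a
  have hv_vb : v ∈ (mkE v b hvb).1 := by
    rw [mkE_val]; exact Sym2.mem_mk_left v b
  refine ⟨G \ {mkE v a hva, mkE b c hbc} ∪ {mkE v b hvb, mkE a c hac}, ?_, ?_, ?_⟩
  · rw [adj_iff_isSwitch]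
    exact ⟨{v, a, b, c}, mem_powersetCard.mpr ⟨subset_univ _, hcard⟩, _, hF, _, hF', hneF,
      hsub, hdisj, rfl⟩
  · have hmem : mkE v a hva ∈ LibS0453.star v G \ LibS0453.star v G' := by
      rw [mem_sdiff, mem_star, mem_star]
      exact ⟨⟨h1, hv_va⟩, fun h => h3 h.1⟩
    have hss : LibS0453.star v (G \ {mkE v a hva, mkE b c hbc} ∪ {mkE v b hvb, mkE a c hac}) \
        LibS0453.star v G' ⊆ (LibS0453.star v G \ LibS0453.star v G').erase (mkE v a hva) := by
      intro e he
      rw [mem_sdiff, mem_star, mem_star, mem_union, mem_sdiff, mem_insert, mem_singleton,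
        mem_insert, mem_singleton] at he
      obtain ⟨⟨hG1, hve⟩, hnot⟩ := he
      rw [mem_erase, mem_sdiff, mem_star, mem_star]
      rcases hG1 with ⟨heG, hnF⟩ | (rfl | rfl)
      · exact ⟨fun h => hnF (Or.inl h), ⟨heG, hve⟩, hnot⟩
      · exact absurd ⟨h4, hve⟩ hnot
      · exact absurd hve hv_ac
    calc _ ≤ ((LibS0453.star v G \ LibS0453.star v G').erase (mkE v a hva)).card :=
          card_le_card hss
      _ < _ := card_erase_lt_of_mem hmem
  · apply card_le_card
    intro e he
    rw [mem_sdiff, mem_star, mem_star, mem_union, mem_sdiff, mem_insert, mem_singleton,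
      mem_insert, mem_singleton] at he
    obtain ⟨⟨heG', hve⟩, hnot⟩ := he
    rw [mem_sdiff, mem_star, mem_star]
    refine ⟨⟨heG', hve⟩, ?_⟩
    rintro ⟨heG, _⟩
    by_cases hF1 : e = mkE v a hva ∨ e = mkE b c hbc
    · rcases hF1 with rfl | rfl
      · exact h3 heG'
      · exact hv_bc hve
    · exact hnot ⟨Or.inl ⟨heG, hF1⟩, hve⟩

/-! ### connectivity -/

theorem conn_zero : ConnAt 0 := by
  intro d G G' _ _
  have hempty : ∀ e : Edge 0, False := fun e =>
    Sym2.ind (f := fun _ => False) (fun a _ => a.elim0) e.1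
  have : G = G' := by
    ext e
    exact (hempty e).elim
  rw [this]

theorem conn_succ (m : ℕ) (ih : ConnAt m) : ConnAt (m + 1) := by
  intro d
  have key : ∀ k : ℕ, ∀ G G' : Gr (m + 1), G ∈ realizations d → G' ∈ realizations d →
      (LibS0453.star 0 G \ LibS0453.star 0 G').card +
        (LibS0453.star 0 G' \ LibS0453.star 0 G).card = k →
      Relation.ReflTransGen Adj G G' := by
    intro k
    induction k using Nat.strong_induction_on with
    | _ k IH =>
      intro G G' hG hG' hk
      by_cases hst : LibS0453.star 0 G = LibS0453.star 0 G'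
      · -- same star: one fibre, lift the chain from `Fin m`
        have hmem : G' ∈ (realizations d).filter
            (fun G'' => LibS0453.star 0 G'' = LibS0453.star 0 G) :=
          mem_filter.mpr ⟨hG', hst.symm⟩
        rw [S0453FIBh17.fibre_eq d 0 G hG, mem_image] at hmem
        obtain ⟨H', hH', hpsi⟩ := hmem
        have hH : S0453FIBh17.unlift 0 G ∈
            realizations (fun i => deg (S0453FIBh17.unlift 0 G) i) := by
          rw [mem_realizations]
          intro w
          rfl
        have hchain := ih _ _ _ hH hH'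
        have hB := S0453FIBh17.star_mem_self (0 : Fin (m + 1)) G
        have hl : Relation.ReflTransGen Adj
            (S0453FIBh17.psi 0 (LibS0453.star 0 G) (S0453FIBh17.unlift 0 G))
            (S0453FIBh17.psi 0 (LibS0453.star 0 G) H') :=
          Relation.ReflTransGen.lift (S0453FIBh17.psi 0 (LibS0453.star 0 G))
            (fun H₁ H₂ h => S0453FIBh17.adj_psi 0 _ hB H₁ H₂ h) _ _ hchain
        rw [S0453FIBh17.psi_unlift, hpsi] at hl
        exact hl
      · -- different stars: slide
        have hcardG : (LibS0453.star 0 G).card = d 0 := (mem_realizations d G).mp hG 0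
        have hcardG' : (LibS0453.star 0 G').card = d 0 := (mem_realizations d G').mp hG' 0
        have hne1 : (LibS0453.star 0 G \ LibS0453.star 0 G').Nonempty := by
          rw [nonempty_iff_ne_empty]
          intro h
          rw [sdiff_eq_empty_iff_subset] at h
          exact hst (eq_of_subset_of_card_le h (by omega))
        have hne2 : (LibS0453.star 0 G' \ LibS0453.star 0 G).Nonempty := by
          rw [nonempty_iff_ne_empty]
          intro h
          rw [sdiff_eq_empty_iff_subset] at h
          exact hst (eq_of_subset_of_card_le h (by omega)).symm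
        obtain ⟨ea, hea⟩ := hne1
        obtain ⟨eb, heb⟩ := hne2
        rw [mem_sdiff, mem_star, mem_star] at hea heb
        obtain ⟨a, ha⟩ := Sym2.mem_iff_exists.mp hea.1.2
        obtain ⟨b, hb⟩ := Sym2.mem_iff_exists.mp heb.1.2
        have hva : (0 : Fin (m + 1)) ≠ a := by
          intro h
          apply ea.2
          rw [ha, ← h]
          exact Sym2.mk_isDiag_iff.mpr rfl
        have hvb : (0 : Fin (m + 1)) ≠ b := by
          intro h
          apply eb.2
          rw [hb, ← h]
          exact Sym2.mk_isDiag_iff.mpr rfl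
        have hea_eq : ea = mkE 0 a hva := Subtype.ext ha
        have heb_eq : eb = mkE 0 b hvb := Subtype.ext hb
        have h1 : mkE 0 a hva ∈ G := by rw [← hea_eq]; exact hea.1.1
        have h3 : mkE 0 a hva ∉ G' := by
          rw [← hea_eq]; exact fun h => hea.2 ⟨h, hea.1.2⟩
        have h4 : mkE 0 b hvb ∈ G' := by rw [← heb_eq]; exact heb.1.1
        have h2 : mkE 0 b hvb ∉ G := by
          rw [← heb_eq]; exact fun h => heb.2 ⟨h, heb.1.2⟩
        have hab : a ≠ b := by
          intro h
          apply h2
          have : mkE 0 b hvb = mkE 0 a hva := by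
            apply Subtype.ext
            rw [mkE_val, mkE_val, h]
          rw [this]
          exact h1
        have hda : deg G a = d a := (mem_realizations d G).mp hG a
        have hdb : deg G b = d b := (mem_realizations d G).mp hG b
        have hda' : deg G' a = d a := (mem_realizations d G').mp hG' a
        have hdb' : deg G' b = d b := (mem_realizations d G').mp hG' b
        have hK := S0453KERh6.pkg_KER
        rcases le_or_gt (d a) (d b) with hle | hgt
        · obtain ⟨G₁, hadj, hlt, hle'⟩ :=
            slide_one 0 a b hva hvb hab G G' h1 h2 h3 h4 (by rw [hda, hdb]; exact hle)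
          have hG₁ : G₁ ∈ realizations d := adj_mem hK d hadj hG
          exact Relation.ReflTransGen.head hadj (IH _ (by omega) G₁ G' hG₁ hG' rfl)
        · obtain ⟨G₁, hadj, hlt, hle'⟩ :=
            slide_one 0 b a hvb hva (Ne.symm hab) G' G h4 h3 h2 h1
              (by rw [hda', hdb']; omega)
          have hG₁ : G₁ ∈ realizations d := adj_mem hK d hadj hG'
          have hsym : Adj G₁ G' := hK.2.2.2.2.2.1 _ _ _ hadj
          exact Relation.ReflTransGen.tail (IH _ (by omega) G G₁ hG hG₁ rfl) hsym
  intro G G' hG hG'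
  exact key _ G G' hG hG' rfl

/-- package CONN of the direct-lane plan: the switch graph on the realizations of any degree
vector is connected. -/
theorem pkg_CONN : PkgCONN := by
  intro n
  induction n with
  | zero => exact conn_zero
  | succ m ih => exact conn_succ m ih

end Crest.Agent.S0453CONNh17
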