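import Crest.Agent.Lib_S0453_KER_h6

/-!
# S0453 (row 299), package DIR (helper15)

The Dirichlet form of the lazy switch kernel on `Ω(d)` equals the switch energy divided by
`24 · C(n,4)`.  Uses helper6's `dirichlet_identity` (Dirichlet form = half the kernel-weighted
sum of squared differences) and the off-diagonal formula of `PkgKER`.
-/

set_option autoImplicit false

namespace Crest.Agent.S0453DIRh15

open Finset Crest.SwitchChain Crest.Agent.LibS0453

theorem pkg_DIR : PkgDIR := by
  intro hK n hn d f
  obtain ⟨-, -, hoff, -, -, -, -⟩ := hK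
  have hC : (n.choose 4 : ℝ) ≠ 0 := by
    exact_mod_cast (Nat.choose_pos hn).ne'
  rw [Crest.Agent.S0453KERh6.dirichlet_identity hn d f]
  unfold energy
  rw [Finset.mul_sum, Finset.sum_div]
  refine Finset.sum_congr rfl fun G _ => ?_
  rw [Finset.mul_sum, Finset.sum_div]
  refine Finset.sum_congr rfl fun G' _ => ?_
  by_cases h : G = G'
  · subst h; simp
  · rw [hoff n hn G G' h]; field_simp; ring

end Crest.Agent.S0453DIRh15
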