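import Mathlib
import Crest.Agent.Lib_S0453_Plan

/-!
Row 299 (S0453), package FIB, abstract half (seat helper6): grouping the double sums
`fibSum` and `energyFix` of the plan by the fibres of `G ↦ star v G`.
-/

set_option autoImplicit false
open Finset

namespace Crest.Agent.S0453FIBgrph6

open Crest.SwitchChain Crest.Agent.LibS0453

variable {n : ℕ}

/-- the fibre of `G₀`: the members of `Ω` with the same star at `v`. -/
def fib (v : Fin n) (Ω : Finset (Gr n)) (G₀ : Gr n) : Finset (Gr n) :=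
  Ω.filter fun G => star v G = star v G₀

theorem mem_fib {v : Fin n} {Ω : Finset (Gr n)} {G₀ G : Gr n} :
    G ∈ fib v Ω G₀ ↔ G ∈ Ω ∧ star v G = star v G₀ := by
  unfold fib; rw [Finset.mem_filter]

theorem fib_eq {v : Fin n} {Ω : Finset (Gr n)} {G₀ G : Gr n} (h : G ∈ fib v Ω G₀) :
    fib v Ω G = fib v Ω G₀ := by
  have hs := (mem_fib.mp h).2
  unfold fib; rw [hs]

theorem fib_card_pos {v : Fin n} {Ω : Finset (Gr n)} {G : Gr n} (h : G ∈ Ω) :
    0 < ((fib v Ω G).card : ℝ) := by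
  have hm : G ∈ fib v Ω G := mem_fib.mpr ⟨h, rfl⟩
  exact_mod_cast Finset.card_pos.mpr ⟨G, hm⟩

theorem fibCard_eq (v : Fin n) (Ω : Finset (Gr n)) (G : Gr n) :
    fibCard Ω v G = (fib v Ω G).card := rfl

/-- double counting over fibres. -/
theorem avg (v : Fin n) (Ω : Finset (Gr n)) (c : Gr n → ℝ) :
    ∑ G ∈ Ω, c G = ∑ G₀ ∈ Ω, (∑ G ∈ fib v Ω G₀, c G) / ((fib v Ω G₀).card : ℝ) := by
  have h1 : ∀ G₀ ∈ Ω, (∑ G ∈ fib v Ω G₀, c G) / ((fib v Ω G₀).card : ℝ) =
      ∑ G ∈ Ω, if star v G = star v G₀ then c G / ((fib v Ω G₀).card : ℝ) else 0 := by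
    intro G₀ _
    rw [Finset.sum_div]
    unfold fib
    rw [Finset.sum_filter]
  rw [Finset.sum_congr rfl h1, Finset.sum_comm]
  refine Finset.sum_congr rfl fun G hG => ?_
  have h2 : ∀ G₀ ∈ Ω, (if star v G = star v G₀ then c G / ((fib v Ω G₀).card : ℝ) else 0) =
      if star v G₀ = star v G then c G / ((fib v Ω G).card : ℝ) else 0 := by
    intro G₀ hG₀
    by_cases hs : star v G₀ = star v G
    · rw [if_pos hs, if_pos hs.symm, fib_eq (mem_fib.mpr ⟨hG₀, hs⟩)]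
    · rw [if_neg hs, if_neg (fun h => hs h.symm)]
  rw [Finset.sum_congr rfl h2, ← Finset.sum_filter, Finset.sum_const, nsmul_eq_mul]
  have hpos := fib_card_pos (v := v) hG
  change c G = ((fib v Ω G).card : ℝ) * (c G / ((fib v Ω G).card : ℝ))
  field_simp

/-- inner sum of a fibre-restricted double sum. -/
theorem inner_fib (v : Fin n) (Ω : Finset (Gr n)) (G : Gr n) (x : Gr n → ℝ) :
    (∑ G' ∈ Ω, if star v G = star v G' then x G' else 0) = ∑ G' ∈ fib v Ω G, x G' := by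
  unfold fib
  rw [Finset.sum_filter]
  refine Finset.sum_congr rfl fun G' _ => ?_
  by_cases hs : star v G = star v G'
  · rw [if_pos hs, if_pos hs.symm]
  · rw [if_neg hs, if_neg (fun h => hs h.symm)]

theorem pairVar_fib (v : Fin n) (Ω : Finset (Gr n)) (f : Gr n → ℝ) (G₀ : Gr n) :
    pairVar (fib v Ω G₀) f = ∑ G ∈ fib v Ω G₀, ∑ G' ∈ fib v Ω G, (f G - f G') ^ 2 := by
  unfold pairVar
  refine Finset.sum_congr rfl fun G hG => ?_
  rw [fib_eq hG]

theorem energy_fib (v : Fin n) (Ω : Finset (Gr n)) (f : Gr n → ℝ) (G₀ : Gr n) :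
    energy (fib v Ω G₀) f = ∑ G ∈ fib v Ω G₀, ∑ G' ∈ fib v Ω G, sw G G' * (f G - f G') ^ 2 := by
  unfold energy
  refine Finset.sum_congr rfl fun G hG => ?_
  rw [fib_eq hG]

theorem fibSum_eq (v : Fin n) (Ω : Finset (Gr n)) (f : Gr n → ℝ) :
    fibSum v Ω f = ∑ G₀ ∈ Ω, pairVar (fib v Ω G₀) f / ((fib v Ω G₀).card : ℝ) ^ 2 := by
  have h1 : fibSum v Ω f =
      ∑ G ∈ Ω, (∑ G' ∈ fib v Ω G, (f G - f G') ^ 2) / ((fib v Ω G).card : ℝ) := by
    unfold fibSum
    refine Finset.sum_congr rfl fun G _ => ?_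
    rw [inner_fib v Ω G (fun G' => (f G - f G') ^ 2 / (fibCard Ω v G : ℝ)), fibCard_eq,
      Finset.sum_div]
  rw [h1, avg v Ω (fun G => (∑ G' ∈ fib v Ω G, (f G - f G') ^ 2) / ((fib v Ω G).card : ℝ))]
  refine Finset.sum_congr rfl fun G₀ _ => ?_
  rw [pairVar_fib, sq, ← div_div]
  congr 1
  rw [Finset.sum_div]
  refine Finset.sum_congr rfl fun G hG => ?_
  rw [fib_eq hG]

theorem energyFix_eq (v : Fin n) (Ω : Finset (Gr n)) (f : Gr n → ℝ) :
    energyFix v Ω f = ∑ G₀ ∈ Ω, energy (fib v Ω G₀) f / ((fib v Ω G₀).card : ℝ) := by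
  have h1 : energyFix v Ω f = ∑ G ∈ Ω, ∑ G' ∈ fib v Ω G, sw G G' * (f G - f G') ^ 2 := by
    unfold energyFix
    refine Finset.sum_congr rfl fun G _ => ?_
    rw [inner_fib v Ω G (fun G' => sw G G' * (f G - f G') ^ 2)]
  rw [h1, avg v Ω (fun G => ∑ G' ∈ fib v Ω G, sw G G' * (f G - f G') ^ 2)]
  refine Finset.sum_congr rfl fun G₀ _ => ?_
  rw [energy_fib]

/-- FIB, abstract half: a Poincaré inequality with constant `T` on every fibre of
`G ↦ star v G` gives `fibSum ≤ T * energyFix`. -/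
theorem fib_group (v : Fin n) (Ω : Finset (Gr n)) (f : Gr n → ℝ) (T : ℝ)
    (h : ∀ G₀ ∈ Ω, pairVar (Ω.filter fun G => star v G = star v G₀) f ≤
      T * ((Ω.filter fun G => star v G = star v G₀).card : ℝ) *
        energy (Ω.filter fun G => star v G = star v G₀) f) :
    fibSum v Ω f ≤ T * energyFix v Ω f := by
  rw [fibSum_eq, energyFix_eq, Finset.mul_sum]
  refine Finset.sum_le_sum fun G₀ hG₀ => ?_
  have hpos := fib_card_pos (v := v) hG₀
  have h' : pairVar (fib v Ω G₀) f ≤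
      T * ((fib v Ω G₀).card : ℝ) * energy (fib v Ω G₀) f := h G₀ hG₀
  rw [div_le_iff₀ (by positivity)]
  calc pairVar (fib v Ω G₀) f ≤ T * ((fib v Ω G₀).card : ℝ) * energy (fib v Ω G₀) f := h'
    _ = T * (energy (fib v Ω G₀) f / ((fib v Ω G₀).card : ℝ)) * ((fib v Ω G₀).card : ℝ) ^ 2 := by
        field_simp

end Crest.Agent.S0453FIBgrph6
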