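import Mathlib
import Crest.Agent.Lib_S0453_Plan
import Crest.Agent.Lib_S0453_KER_h6
import Crest.Agent.Lib_S0453_FIBgrp_h6

/-!
Row 299 (S0453), package FIB (seat helper6): the fibre of `G ↦ star v G` over a realization set
on `m + 1` vertices is the image of a realization set on `m` vertices under the lift
`H ↦ (H lifted along v.succAbove) ∪ B`, and switches lift.
-/

set_option autoImplicit false
open Finset

namespace Crest.Agent.S0453FIBh6

open Crest.SwitchChain Crest.Agent.LibS0453

variable {m : ℕ}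

/-- lift of an edge along `v.succAbove`. -/
def liftE (v : Fin (m + 1)) : Edge m ↪ Edge (m + 1) where
  toFun e := ⟨e.1.map v.succAbove, by
    rw [Sym2.isDiag_map Fin.succAbove_right_injective]; exact e.2⟩
  inj' := by
    intro e e' h
    have h' := congrArg Subtype.val h
    exact Subtype.ext (Sym2.map.injective Fin.succAbove_right_injective h')

theorem liftE_val (v : Fin (m + 1)) (e : Edge m) : (liftE v e).1 = e.1.map v.succAbove := rfl

theorem not_mem_liftE (v : Fin (m + 1)) (e : Edge m) : v ∉ (liftE v e).1 := by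
  rw [liftE_val, Sym2.mem_map]
  rintro ⟨a, -, ha⟩
  exact Fin.succAbove_ne v a ha

theorem succAbove_mem_liftE (v : Fin (m + 1)) (e : Edge m) (i : Fin m) :
    v.succAbove i ∈ (liftE v e).1 ↔ i ∈ e.1 := by
  rw [liftE_val, Sym2.mem_map]
  constructor
  · rintro ⟨a, ha, h⟩
    rwa [← Fin.succAbove_right_injective h]
  · intro h; exact ⟨i, h, rfl⟩

/-- every edge avoiding `v` is a lift. -/
theorem exists_liftE (v : Fin (m + 1)) (e : Edge (m + 1)) (h : v ∉ e.1) :
    ∃ e₀ : Edge m, liftE v e₀ = e := by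
  rcases e with ⟨z, hz⟩
  induction z using Sym2.ind with
  | _ x y =>
    have hx : x ≠ v := fun hh => h (Sym2.mem_iff.mpr (Or.inl hh.symm))
    have hy : y ≠ v := fun hh => h (Sym2.mem_iff.mpr (Or.inr hh.symm))
    obtain ⟨x', rfl⟩ := Fin.exists_succAbove_eq hx
    obtain ⟨y', rfl⟩ := Fin.exists_succAbove_eq hy
    have hne : ¬ (s(x', y') : Sym2 (Fin m)).IsDiag := by
      rw [Sym2.mk_isDiag_iff]
      intro hh
      apply hz
      rw [Sym2.mk_isDiag_iff, hh]
    exact ⟨⟨s(x', y'), hne⟩, Subtype.ext rfl⟩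

/-- the lift of a graph on `m` vertices, glued to a star `B` at `v`. -/
def psi (v : Fin (m + 1)) (B : Gr (m + 1)) (H : Gr m) : Gr (m + 1) := H.map (liftE v) ∪ B

theorem star_map (v : Fin (m + 1)) (H : Gr m) : star v (H.map (liftE v)) = ∅ := by
  unfold Crest.Agent.LibS0453.star
  rw [Finset.filter_eq_empty_iff]
  intro e he
  obtain ⟨e₀, -, rfl⟩ := Finset.mem_map.mp he
  exact not_mem_liftE v e₀

theorem filter_map_succ (v : Fin (m + 1)) (H : Gr m) (i : Fin m) :
    ((H.map (liftE v)).filter fun e => v.succAbove i ∈ e.1) =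
      (H.filter fun e => i ∈ e.1).map (liftE v) := by
  rw [Finset.filter_map]
  congr 1
  apply Finset.filter_congr
  intro e _
  exact succAbove_mem_liftE v e i

theorem disj_map {v : Fin (m + 1)} {B : Gr (m + 1)} (hB : ∀ e ∈ B, v ∈ e.1) (H : Gr m) :
    Disjoint (H.map (liftE v)) B := by
  rw [Finset.disjoint_left]
  intro e he heB
  obtain ⟨e₀, -, rfl⟩ := Finset.mem_map.mp he
  exact not_mem_liftE v e₀ (hB _ heB)

theorem star_psi {v : Fin (m + 1)} {B : Gr (m + 1)} (hB : ∀ e ∈ B, v ∈ e.1) (H : Gr m) :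
    star v (psi v B H) = B := by
  have h1 := star_map v H
  unfold Crest.Agent.LibS0453.star at h1 ⊢
  unfold psi
  rw [Finset.filter_union, h1, Finset.empty_union]
  exact Finset.filter_true_of_mem hB

theorem deg_psi_succ {v : Fin (m + 1)} {B : Gr (m + 1)} (hB : ∀ e ∈ B, v ∈ e.1) (H : Gr m)
    (i : Fin m) :
    deg (psi v B H) (v.succAbove i) =
      deg H i + (B.filter fun e => v.succAbove i ∈ e.1).card := by
  unfold deg psi
  rw [Finset.filter_union,
    Finset.card_union_of_disjoint (Finset.disjoint_filter_filter (disj_map hB H)),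
    filter_map_succ, Finset.card_map]

theorem deg_psi_self {v : Fin (m + 1)} {B : Gr (m + 1)} (hB : ∀ e ∈ B, v ∈ e.1) (H : Gr m) :
    deg (psi v B H) v = B.card := by
  change (star v (psi v B H)).card = B.card
  rw [star_psi hB]

theorem psi_injective {v : Fin (m + 1)} {B : Gr (m + 1)} (hB : ∀ e ∈ B, v ∈ e.1) :
    Function.Injective (psi v B) := by
  intro H H' h
  have key : ∀ H₁ H₂ : Gr m, psi v B H₁ = psi v B H₂ → H₁.map (liftE v) ⊆ H₂.map (liftE v) := by
    intro H₁ H₂ h12 e he
    have he' : e ∈ psi v B H₂ := by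
      rw [← h12]; exact Finset.mem_union_left _ he
    rcases Finset.mem_union.mp he' with h1 | h1
    · exact h1
    · exact absurd h1 (Finset.disjoint_left.mp (disj_map hB H₁) he)
  exact Finset.map_injective _ (Finset.Subset.antisymm (key H H' h) (key H' H h.symm))

/-- the reduced degree vector on the `m` vertices other than `v`. -/
def redDeg (v : Fin (m + 1)) (d : Fin (m + 1) → ℕ) (B : Gr (m + 1)) : Fin m → ℕ :=
  fun i => d (v.succAbove i) - (B.filter fun e => v.succAbove i ∈ e.1).card

theorem mem_real_psi {v : Fin (m + 1)} {B : Gr (m + 1)} (hB : ∀ e ∈ B, v ∈ e.1)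
    {d : Fin (m + 1) → ℕ} (hBv : B.card = d v)
    (hBle : ∀ i, (B.filter fun e => v.succAbove i ∈ e.1).card ≤ d (v.succAbove i)) (H : Gr m) :
    psi v B H ∈ realizations d ↔ H ∈ realizations (redDeg v d B) := by
  rw [Crest.Agent.S0453KERh6.mem_realizations, Crest.Agent.S0453KERh6.mem_realizations]
  constructor
  · intro h i
    have h1 := h (v.succAbove i)
    rw [deg_psi_succ hB] at h1
    unfold redDeg
    omega
  · intro h w
    by_cases hw : w = v
    · subst hw
      rw [deg_psi_self hB, hBv]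
    · obtain ⟨i, rfl⟩ := Fin.exists_succAbove_eq hw
      rw [deg_psi_succ hB]
      have h1 := h i
      unfold redDeg at h1
      have h2 := hBle i
      omega

theorem psi_surj {v : Fin (m + 1)} {B : Gr (m + 1)} {G : Gr (m + 1)} (hs : star v G = B) :
    ∃ H : Gr m, psi v B H = G := by
  refine ⟨(univ : Finset (Edge m)).filter fun e => liftE v e ∈ G, ?_⟩
  ext e
  unfold psi
  rw [Finset.mem_union, Finset.mem_map]
  constructor
  · rintro (⟨e₀, he₀, rfl⟩ | he)
    · exact (Finset.mem_filter.mp he₀).2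
    · rw [← hs] at he
      exact (Finset.mem_filter.mp he).1
  · intro he
    by_cases hv : v ∈ e.1
    · right
      rw [← hs]
      exact Finset.mem_filter.mpr ⟨he, hv⟩
    · left
      obtain ⟨e₀, rfl⟩ := exists_liftE v e hv
      exact ⟨e₀, Finset.mem_filter.mpr ⟨Finset.mem_univ _, he⟩, rfl⟩

theorem fibre_eq_image {v : Fin (m + 1)} {B : Gr (m + 1)} (hB : ∀ e ∈ B, v ∈ e.1)
    {d : Fin (m + 1) → ℕ} (hBv : B.card = d v)
    (hBle : ∀ i, (B.filter fun e => v.succAbove i ∈ e.1).card ≤ d (v.succAbove i)) :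
    ((realizations d).filter fun G => star v G = B) =
      (realizations (redDeg v d B)).image (psi v B) := by
  ext G
  rw [Finset.mem_filter, Finset.mem_image]
  constructor
  · rintro ⟨hG, hs⟩
    obtain ⟨H, rfl⟩ := psi_surj hs
    exact ⟨H, (mem_real_psi hB hBv hBle H).mp hG, rfl⟩
  · rintro ⟨H, hH, rfl⟩
    exact ⟨(mem_real_psi hB hBv hBle H).mpr hH, star_psi hB H⟩

/-- perfect matchings lift. -/
theorem pm_map (v : Fin (m + 1)) {S : Finset (Fin m)} {F : Gr m} (hF : F ∈ pmSet S) :
    F.map (liftE v) ∈ pmSet (S.map v.succAboveEmb) := by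
  rw [Crest.Agent.S0453KERh6.mem_pmSet] at hF ⊢
  obtain ⟨h1, h2, h3⟩ := hF
  refine ⟨by rw [Finset.card_map]; exact h1, ?_, ?_⟩
  · intro e he w hw
    obtain ⟨e₀, he₀, rfl⟩ := Finset.mem_map.mp he
    rw [liftE_val, Sym2.mem_map] at hw
    obtain ⟨a, ha, rfl⟩ := hw
    exact Finset.mem_map.mpr ⟨a, h2 e₀ he₀ a ha, rfl⟩
  · intro w hw
    obtain ⟨a, ha, rfl⟩ := Finset.mem_map.mp hw
    change ((F.map (liftE v)).filter fun e => v.succAbove a ∈ e.1).card = 1
    rw [filter_map_succ, Finset.card_map]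
    exact h3 a ha

/-- switches lift. -/
theorem adj_psi {v : Fin (m + 1)} {B : Gr (m + 1)} (hB : ∀ e ∈ B, v ∈ e.1) {H H' : Gr m}
    (h : Adj H H') : Adj (psi v B H) (psi v B H') := by
  obtain ⟨S, hS, F, hF, F', hF', h1, h2, rfl⟩ := h
  refine ⟨S.map v.succAboveEmb, ?_, F.map (liftE v), pm_map v hF, F'.map (liftE v), ?_, ?_, ?_, ?_⟩
  · rw [Finset.mem_powersetCard] at hS ⊢
    exact ⟨Finset.subset_univ _, by rw [Finset.card_map]; exact hS.2⟩
  · rw [Finset.mem_erase] at hF' ⊢
    exact ⟨fun hh => hF'.1 (Finset.map_injective _ hh), pm_map v hF'.2⟩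
  · exact (Finset.map_subset_map.mpr h1).trans Finset.subset_union_left
  · unfold psi
    rw [Finset.disjoint_union_right]
    exact ⟨(Finset.disjoint_map _).mpr h2, disj_map hB F'⟩
  · unfold psi
    rw [Finset.map_union, Finset.map_sdiff]
    ext e
    simp only [Finset.mem_union, Finset.mem_sdiff]
    have hBF : e ∈ B → e ∉ F.map (liftE v) :=
      fun he he' => Finset.disjoint_left.mp (disj_map hB F) he' he
    tauto

theorem sw_le_psi {v : Fin (m + 1)} {B : Gr (m + 1)} (hB : ∀ e ∈ B, v ∈ e.1) (H H' : Gr m) :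
    sw H H' ≤ sw (psi v B H) (psi v B H') := by
  unfold sw
  by_cases h : Adj H H'
  · rw [if_pos h, if_pos (adj_psi hB h)]
  · rw [if_neg h]
    split_ifs <;> norm_num

/-- the Poincaré inequality on one fibre. -/
theorem fibre_gap (T : ℝ) (hT : 0 ≤ T) (hgap : GapAt m T) (d : Fin (m + 1) → ℕ)
    (v : Fin (m + 1)) (f : Gr (m + 1) → ℝ) (G₀ : Gr (m + 1)) (hG₀ : G₀ ∈ realizations d) :
    pairVar ((realizations d).filter fun G => star v G = star v G₀) f ≤
      T * (((realizations d).filter fun G => star v G = star v G₀).card : ℝ) *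
        energy ((realizations d).filter fun G => star v G = star v G₀) f := by
  have hB : ∀ e ∈ star v G₀, v ∈ e.1 := fun e he => (Finset.mem_filter.mp he).2
  have hdeg := (Crest.Agent.S0453KERh6.mem_realizations.mp hG₀)
  have hBv : (star v G₀).card = d v := hdeg v
  have hBle : ∀ i, ((star v G₀).filter fun e => v.succAbove i ∈ e.1).card ≤
      d (v.succAbove i) := by
    intro i
    rw [← hdeg (v.succAbove i)]
    unfold deg
    apply Finset.card_le_card
    intro e he
    rw [Finset.mem_filter] at he ⊢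
    exact ⟨(Finset.mem_filter.mp he.1).1, he.2⟩
  have hinj := psi_injective hB
  rw [fibre_eq_image hB hBv hBle]
  have hpv : pairVar ((realizations (redDeg v d (star v G₀))).image (psi v (star v G₀))) f =
      pairVar (realizations (redDeg v d (star v G₀))) (fun H => f (psi v (star v G₀) H)) := by
    unfold pairVar
    rw [Finset.sum_image (fun x _ y _ hxy => hinj hxy)]
    refine Finset.sum_congr rfl fun H _ => ?_
    rw [Finset.sum_image (fun x _ y _ hxy => hinj hxy)]
  have hen : energy (realizations (redDeg v d (star v G₀))) (fun H => f (psi v (star v G₀) H)) ≤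
      energy ((realizations (redDeg v d (star v G₀))).image (psi v (star v G₀))) f := by
    unfold energy
    rw [Finset.sum_image (fun x _ y _ hxy => hinj hxy)]
    refine Finset.sum_le_sum fun H _ => ?_
    rw [Finset.sum_image (fun x _ y _ hxy => hinj hxy)]
    refine Finset.sum_le_sum fun H' _ => ?_
    exact mul_le_mul_of_nonneg_right (sw_le_psi hB H H') (sq_nonneg _)
  rw [hpv, Finset.card_image_of_injective _ hinj]
  refine le_trans (hgap (redDeg v d (star v G₀)) (fun H => f (psi v (star v G₀) H))) ?_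
  exact mul_le_mul_of_nonneg_left hen (mul_nonneg hT (Nat.cast_nonneg _))

theorem pkg_FIB : PkgFIB := by
  intro m T hT hgap d v f
  exact Crest.Agent.S0453FIBgrph6.fib_group v _ f T
    (fun G₀ hG₀ => fibre_gap T hT hgap d v f G₀ hG₀)

end Crest.Agent.S0453FIBh6
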