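import Mathlib
import Crest.Agent.Lib_S0453_Plan

/-!
# S0453 (row 299): package IND — the induction step

`pkg_IND : PkgIND`: from the fibre inequality (`PkgFIB`), the counting fact (`PkgCNT`),
`GapAt m T` and the block inequality `QAt (m+1) c` one gets
`GapAt (m+1) (T (m+1-4)/(m+1-c))`.
-/

set_option autoImplicit false

namespace Crest.Agent.S0453INDh24

open Finset Crest.SwitchChain Crest.Agent.LibS0453

lemma sw_nonneg {n : ℕ} (E E' : Gr n) : 0 ≤ sw E E' := by
  unfold sw; split_ifs <;> norm_num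

lemma sw_eq_zero_of_not {n : ℕ} {E E' : Gr n} (h : ¬ Adj E E') : sw E E' = 0 := by
  unfold sw; rw [if_neg h]

/-- summing the star-fixing energies over all vertices: at most `(n - 4)` times the energy. -/
lemma sum_energyFix_le (hC : PkgCNT) {n : ℕ} (Ω : Finset (Gr n)) (f : Gr n → ℝ) :
    ∑ v : Fin n, energyFix v Ω f ≤ ((n : ℝ) - 4) * energy Ω f := by
  unfold energyFix energy
  rw [sum_comm]
  rw [mul_sum]
  apply sum_le_sum
  intro G _
  rw [sum_comm]
  rw [mul_sum]
  apply sum_le_sum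
  intro G' _
  -- ∑ v, ite (star v G = star v G') a 0 = card * a
  rw [← sum_filter, sum_const, nsmul_eq_mul]
  by_cases hadj : Adj G G'
  · have hcard := hC n G G' hadj
    have hnn : 0 ≤ sw G G' * (f G - f G') ^ 2 := mul_nonneg (sw_nonneg _ _) (sq_nonneg _)
    exact mul_le_mul_of_nonneg_right hcard hnn
  · rw [sw_eq_zero_of_not hadj]; simp

theorem pkg_IND : PkgIND := by
  intro hF hC m T c hT hc hG hQ d f
  have hq := hQ d f
  have hcast : ((m + 1 : ℕ) : ℝ) = (m : ℝ) + 1 := by push_cast; ring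
  rw [hcast] at hq
  set Ω := realizations d with hΩ
  have hN : (0 : ℝ) ≤ (Ω.card : ℝ) := Nat.cast_nonneg _
  -- fibre inequality summed over v
  have h1 : ∑ v : Fin (m + 1), fibSum v Ω f ≤ T * ∑ v : Fin (m + 1), energyFix v Ω f := by
    rw [mul_sum]
    exact sum_le_sum fun v _ => hF m T hT hG d v f
  have h2 : ∑ v : Fin (m + 1), energyFix v Ω f ≤ (((m + 1 : ℕ) : ℝ) - 4) * energy Ω f :=
    sum_energyFix_le hC Ω f
  rw [hcast] at h2
  have h3 : ((m : ℝ) + 1 - c) * pairVar Ω f ≤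
      (Ω.card : ℝ) * (T * (((m : ℝ) + 1 - 4) * energy Ω f)) := by
    refine hq.trans ?_
    apply mul_le_mul_of_nonneg_left _ hN
    exact h1.trans (mul_le_mul_of_nonneg_left h2 hT)
  have hpos : (0 : ℝ) < (m : ℝ) + 1 - c := by linarith
  -- divide
  have h4 : pairVar Ω f ≤
      (Ω.card : ℝ) * (T * (((m : ℝ) + 1 - 4) * energy Ω f)) / ((m : ℝ) + 1 - c) := by
    rw [le_div_iff₀ hpos]
    linarith
  refine h4.trans (le_of_eq ?_)
  field_simp

end Crest.Agent.S0453INDh24
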