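import Crest.Agent.Lib_S0453_ASM_h24

/-!
# S0453 (row 299): plan file for the direct lane `L² ≥ c L` (no induction on `n`)

Board topic `deep`, posts #1205, #1210, #1213, #1215: with `L` the Laplacian of the switch graph
on `Ω(d)` (`(L f)(G) = ∑_{G' ∈ Ω} sw G G' (f G - f G')`, `⟨f, L f⟩ = energy / 2`), the inequality
`‖L f‖² ≥ c ⟨f, L f⟩` for all `f` (`LapSqAt n c`; the conjectured sharp value is `c = 2`) says
that every nonzero eigenvalue of `L` is `≥ c`.  Together with connectivity of the switch graph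
(`ConnAt n`: the classical theorem that any two realizations of a degree vector are joined by
switches) this is `GapAt n (1/c)` (package `SPEC`).

This file only states the packages and proves the glue (`goal_of_B`) and the bridge from
connectivity to "zero energy ⇒ constant" (`const_of_energy_zero`).  `PkgB` is OPEN.
-/

set_option autoImplicit false

namespace Crest.Agent.S0453PlanBh24

open Finset Crest.SwitchChain Crest.Agent.LibS0453

/-- the Laplacian of the switch graph on `Ω`, applied to `f`, at `G`. -/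
noncomputable def lap {n : ℕ} (Ω : Finset (Gr n)) (f : Gr n → ℝ) (G : Gr n) : ℝ :=
  ∑ G' ∈ Ω, sw G G' * (f G - f G')

/-- `‖L f‖² ≥ c ⟨f, L f⟩` on `n` vertices (every degree vector, every `f`); `energy = 2 ⟨f, L f⟩`. -/
def LapSqAt (n : ℕ) (c : ℝ) : Prop :=
  ∀ (d : Fin n → ℕ) (f : Gr n → ℝ),
    c * energy (realizations d) f ≤ 2 * ∑ G ∈ realizations d, lap (realizations d) f G ^ 2

/-- connectivity of the switch graph on `n` vertices. -/
def ConnAt (n : ℕ) : Prop :=
  ∀ (d : Fin n → ℕ) (G G' : Gr n), G ∈ realizations d → G' ∈ realizations d →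
    Relation.ReflTransGen Adj G G'

/-- B: the direct inequality `L² ≥ 2 L` (OPEN — Track A, "sum of the cherries ≥ 0"). -/
def PkgB : Prop := ∀ n : ℕ, 4 ≤ n → LapSqAt n 2

/-- CONN: any two realizations of a degree vector are joined by a chain of switches
(classical; proof by induction on `n`: move the neighbourhood of one vertex `v` of `G` onto that
of `G'` by switches through `v`, then use the fibre lift of package `FIB`). -/
def PkgCONN : Prop := ∀ n : ℕ, ConnAt n

/-- SPEC: a symmetric positive semidefinite `L` with `‖L f‖² ≥ c ⟨f, L f⟩` and kernel = constants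
has `⟨f, L f⟩ ≥ c ‖f - mean‖²`. -/
def PkgSPEC : Prop :=
  PkgKER → ∀ (n : ℕ) (c : ℝ), 0 < c → LapSqAt n c → ConnAt n → GapAt n (1 / c)

lemma mem_realizations {n : ℕ} (d : Fin n → ℕ) (E : Gr n) :
    E ∈ realizations d ↔ ∀ v, deg E v = d v := by
  simp [realizations]

/-- a switch keeps a realization a realization. -/
lemma adj_mem (hK : PkgKER) {n : ℕ} (d : Fin n → ℕ) {E E' : Gr n} (h : Adj E E')
    (hE : E ∈ realizations d) : E' ∈ realizations d := by
  rw [mem_realizations] at hE ⊢
  intro v
  rw [hK.2.2.2.2.1 n E E' h v, hE v]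

/-- bridge: on a connected switch graph a function of zero energy is constant. -/
theorem const_of_energy_zero (hK : PkgKER) {n : ℕ} (hC : ConnAt n) (d : Fin n → ℕ)
    (u : Gr n → ℝ) (h0 : energy (realizations d) u = 0) :
    ∀ G ∈ realizations d, ∀ G' ∈ realizations d, u G = u G' := by
  have hterm : ∀ E ∈ realizations d, ∀ E' ∈ realizations d, sw E E' * (u E - u E') ^ 2 = 0 := by
    intro E hE E' hE'
    unfold energy at h0
    have h1 : ∀ G ∈ realizations d, ∑ G' ∈ realizations d, sw G G' * (u G - u G') ^ 2 = 0 :=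
      (Finset.sum_eq_zero_iff_of_nonneg fun G _ => Finset.sum_nonneg fun G' _ =>
        mul_nonneg (Crest.Agent.S0453ASMh24.sw_nonneg G G') (sq_nonneg _)).1 h0
    exact (Finset.sum_eq_zero_iff_of_nonneg fun G' _ =>
      mul_nonneg (Crest.Agent.S0453ASMh24.sw_nonneg E G') (sq_nonneg _)).1 (h1 E hE) E' hE'
  have hstep : ∀ E E' : Gr n, E ∈ realizations d → Adj E E' → u E = u E' := by
    intro E E' hE hA
    have hE' := adj_mem hK d hA hE
    have h := hterm E hE E' hE'
    have hsw : sw E E' = 1 := by unfold sw; rw [if_pos hA]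
    rw [hsw, one_mul] at h
    have := pow_eq_zero_iff (n := 2) (by norm_num) |>.1 h
    linarith
  intro G hG G' hG'
  have hchain := hC d G G' hG hG'
  have key : ∀ E : Gr n, Relation.ReflTransGen Adj G E → E ∈ realizations d ∧ u G = u E := by
    intro E hE
    induction hE with
    | refl => exact ⟨hG, rfl⟩
    | tail _ hbc ih => exact ⟨adj_mem hK d hbc ih.1, ih.2.trans (hstep _ _ ih.1 hbc)⟩
  exact (key G' hchain).2

/-- the statement of S0453 from the packages of the direct lane. -/
theorem goal_of_B (hK : PkgKER) (hD : PkgDIR) (hTV : PkgTV) (hS : PkgSPEC) (hC : PkgCONN)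
    (hB : PkgB) : Goal :=
  Crest.Agent.S0453ASMh24.goal_of_gap hK hD hTV fun n hn => by
    refine ⟨1 / 2, ?_, hS hK n 2 (by norm_num) (hB n hn) (hC n)⟩
    have h4 : (4 : ℝ) ≤ (n : ℝ) := by exact_mod_cast hn
    nlinarith

/-- variant with any constant `c n ≥ 1 / (2 n²)`. -/
theorem goal_of_B' (hK : PkgKER) (hD : PkgDIR) (hTV : PkgTV) (hS : PkgSPEC) (hC : PkgCONN)
    (c : ℕ → ℝ) (hc : ∀ n : ℕ, 4 ≤ n → 0 < c n ∧ 1 / c n ≤ 2 * (n : ℝ) ^ 2)
    (hB : ∀ n : ℕ, 4 ≤ n → LapSqAt n (c n)) : Goal :=
  Crest.Agent.S0453ASMh24.goal_of_gap hK hD hTV fun n hn =>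
    ⟨1 / c n, (hc n hn).2, hS hK n (c n) (hc n hn).1 (hB n hn) (hC n)⟩

end Crest.Agent.S0453PlanBh24
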