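import Mathlib
import Crest.Agent.Lib_S0453_Plan
import Crest.Agent.Lib_S0453_ASM_h24

/-!
# S0453 (row 299): the ONE-VERTEX route (board topic `deep`, posts #1180, #1197, #1199, #1208)

Alternative to the block inequality `QAt`.  `SecAt n κ` says: for every degree vector on `n`
vertices there is ONE vertex `v` such that the variance of the projection onto the star of `v`
is at most `κ` times the energy of the switches that CHANGE the star of `v`
(in unnormalised pair form: `pairVar - |Ω| · fibSum v ≤ κ · |Ω| · (energy - energyFix v)`).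

* `gapAt_succ_of_sec`: `PkgFIB`, `GapAt m T`, `SecAt (m+1) κ` give `GapAt (m+1) (max T κ)`
  — a MAX, no product over `n` (law of total variance at the single vertex `v`).
* `gap_of_sec`: `PkgBASE`, `PkgFIB` and `SecAt n (2 n²)` for all `n ≥ 5` give
  `GapAt n (2 n²)` for all `n ≥ 4`.
* `goal_of_sec`: with `PkgKER`, `PkgDIR`, `PkgTV` this is the statement of S0453.

`SecAt` is NOT proved here (open, Track A); everything else is.
-/

set_option autoImplicit false

namespace Crest.Agent.S0453SECh28

open Finset Crest.SwitchChain Crest.Agent.LibS0453 Crest.Agent.S0453ASMh24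

/-- the one-vertex projection inequality on `n` vertices with constant `κ`:
for every degree vector there is a vertex `v` with
`2 |Ω|² Var(E[f | star v]) ≤ κ · |Ω| · (energy of the switches changing the star of v)`. -/
def SecAt (n : ℕ) (κ : ℝ) : Prop :=
  ∀ d : Fin n → ℕ, ∃ v : Fin n, ∀ f : Gr n → ℝ,
    pairVar (realizations d) f - ((realizations d).card : ℝ) * fibSum v (realizations d) f ≤
      κ * ((realizations d).card : ℝ) *
        (energy (realizations d) f - energyFix v (realizations d) f)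

lemma energyFix_nonneg {n : ℕ} (v : Fin n) (Ω : Finset (Gr n)) (f : Gr n → ℝ) :
    0 ≤ energyFix v Ω f := by
  unfold energyFix
  refine sum_nonneg fun G _ => sum_nonneg fun G' _ => ?_
  split_ifs
  · exact mul_nonneg (sw_nonneg _ _) (sq_nonneg _)
  · exact le_refl _

lemma energyFix_le_energy {n : ℕ} (v : Fin n) (Ω : Finset (Gr n)) (f : Gr n → ℝ) :
    energyFix v Ω f ≤ energy Ω f := by
  unfold energyFix energy
  refine sum_le_sum fun G _ => sum_le_sum fun G' _ => ?_
  split_ifs
  · exact le_refl _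
  · exact mul_nonneg (sw_nonneg _ _) (sq_nonneg _)

/-- the induction step of the one-vertex route. -/
theorem gapAt_succ_of_sec (hF : PkgFIB) (m : ℕ) (T κ : ℝ) (hT : 0 ≤ T)
    (hG : GapAt m T) (hS : SecAt (m + 1) κ) : GapAt (m + 1) (max T κ) := by
  intro d f
  obtain ⟨v, hv⟩ := hS d
  have h1 := hv f
  have h2 := hF m T hT hG d v f
  set Ω := realizations d with hΩ
  have hN : (0 : ℝ) ≤ (Ω.card : ℝ) := Nat.cast_nonneg _
  have hfix := energyFix_nonneg v Ω f
  have hle := energyFix_le_energy v Ω f
  have hE := energy_nonneg Ω f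
  have hT' : T ≤ max T κ := le_max_left _ _
  have hκ' : κ ≤ max T κ := le_max_right _ _
  -- |Ω| fibSum ≤ |Ω| T energyFix ≤ max * |Ω| * energyFix
  have h3 : (Ω.card : ℝ) * fibSum v Ω f ≤ max T κ * (Ω.card : ℝ) * energyFix v Ω f := by
    have : (Ω.card : ℝ) * fibSum v Ω f ≤ (Ω.card : ℝ) * (T * energyFix v Ω f) :=
      mul_le_mul_of_nonneg_left h2 hN
    have h' : (Ω.card : ℝ) * (T * energyFix v Ω f) ≤
        (Ω.card : ℝ) * (max T κ * energyFix v Ω f) :=
      mul_le_mul_of_nonneg_left (mul_le_mul_of_nonneg_right hT' hfix) hN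
    linarith
  have h4 : κ * (Ω.card : ℝ) * (energy Ω f - energyFix v Ω f) ≤
      max T κ * (Ω.card : ℝ) * (energy Ω f - energyFix v Ω f) := by
    have hd : 0 ≤ energy Ω f - energyFix v Ω f := by linarith
    exact mul_le_mul_of_nonneg_right (mul_le_mul_of_nonneg_right hκ' hN) hd
  have h5 : max T κ * (Ω.card : ℝ) * energyFix v Ω f +
      max T κ * (Ω.card : ℝ) * (energy Ω f - energyFix v Ω f) =
      max T κ * (Ω.card : ℝ) * energy Ω f := by ring
  linarith

/-- `GapAt n (2 n²)` for all `n ≥ 4` from the one-vertex inequality with constant `2 n²`. -/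
theorem gap_of_sec (hB : PkgBASE) (hF : PkgFIB)
    (hS : ∀ n : ℕ, 5 ≤ n → SecAt n (2 * (n : ℝ) ^ 2)) :
    ∀ n : ℕ, 4 ≤ n → GapAt n (2 * (n : ℝ) ^ 2) := by
  intro n hn
  induction n, hn using Nat.le_induction with
  | base =>
    refine gapAt_mono ?_ hB
    norm_num
  | succ m hm ih =>
    have hm' : (4 : ℝ) ≤ (m : ℝ) := by exact_mod_cast hm
    have h := gapAt_succ_of_sec hF m (2 * (m : ℝ) ^ 2) (2 * ((m + 1 : ℕ) : ℝ) ^ 2)
      (by positivity) ih (hS (m + 1) (by omega))
    refine gapAt_mono ?_ h
    refine max_le ?_ (le_refl _)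
    push_cast
    nlinarith

/-- assembly of S0453 along the one-vertex route. -/
theorem goal_of_sec (hK : PkgKER) (hD : PkgDIR) (hTV : PkgTV) (hB : PkgBASE) (hF : PkgFIB)
    (hS : ∀ n : ℕ, 5 ≤ n → SecAt n (2 * (n : ℝ) ^ 2)) : Goal := by
  refine goal_of_gap hK hD hTV ?_
  intro n hn
  exact ⟨2 * (n : ℝ) ^ 2, le_refl _, gap_of_sec hB hF hS n hn⟩

/-- monotonicity of `SecAt` in the constant (so any smaller constant, e.g. `1/2`, serves). -/
theorem secAt_mono {n : ℕ} {κ κ' : ℝ} (h : κ ≤ κ') (hS : SecAt n κ) : SecAt n κ' := by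
  intro d
  obtain ⟨v, hv⟩ := hS d
  refine ⟨v, fun f => (hv f).trans ?_⟩
  have hN : (0 : ℝ) ≤ ((realizations d).card : ℝ) := Nat.cast_nonneg _
  have hd : 0 ≤ energy (realizations d) f - energyFix v (realizations d) f := by
    have := energyFix_le_energy v (realizations d) f
    linarith
  exact mul_le_mul_of_nonneg_right (mul_le_mul_of_nonneg_right h hN) hd

end Crest.Agent.S0453SECh28
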