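import Mathlib
import Crest.Agent.Lib_S0453_PlanB_h24

/-!
Row 299 (S0453), direct lane, package SPEC (seat helper6):
`‖L f‖² ≥ c ⟨f, L f⟩` for all `f` plus connectivity of the switch graph gives the Poincaré
inequality `GapAt n (1 / c)`.  No spectral theorem: with `M_k = ⟨w, L^k w⟩`, Cauchy–Schwarz for
the positive semidefinite form `⟨x, L y⟩` gives `M_2² ≤ M_1 M_3`, hence `M_3 ≥ c M_2`, and every
mean-zero `u` is `L w` because `L + (sum)·1` is injective, hence surjective.
-/

set_option autoImplicit false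
open Finset

namespace Crest.Agent.S0453SPECh6

open Crest.SwitchChain Crest.Agent.LibS0453 Crest.Agent.S0453PlanBh24

variable {n : ℕ}

theorem sw_symm (hK : PkgKER) (G G' : Gr n) : sw G G' = sw G' G := by
  unfold sw
  by_cases h : Adj G G'
  · rw [if_pos h, if_pos (hK.2.2.2.2.2.1 n G G' h)]
  · rw [if_neg h, if_neg (fun h' => h (hK.2.2.2.2.2.1 n G' G h'))]

theorem sw_mul_self (G G' : Gr n) : sw G G' * sw G G' = sw G G' := by
  unfold sw; split_ifs <;> norm_num

/-- the symmetric bilinear form of the Laplacian (twice `⟨g, L f⟩`). -/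
noncomputable def bil (Ω : Finset (Gr n)) (g f : Gr n → ℝ) : ℝ :=
  ∑ G ∈ Ω, ∑ G' ∈ Ω, sw G G' * ((g G - g G') * (f G - f G'))

theorem bil_self (Ω : Finset (Gr n)) (f : Gr n → ℝ) : bil Ω f f = energy Ω f := by
  unfold bil energy
  refine Finset.sum_congr rfl fun G _ => Finset.sum_congr rfl fun G' _ => ?_
  ring

theorem sum_mul_lap (hK : PkgKER) (Ω : Finset (Gr n)) (g f : Gr n → ℝ) :
    ∑ G ∈ Ω, g G * lap Ω f G = (1 / 2) * bil Ω g f := by
  have h1 : ∑ G ∈ Ω, ∑ G' ∈ Ω, sw G G' * (g G' * (f G - f G')) =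
      - ∑ G ∈ Ω, g G * lap Ω f G := by
    rw [Finset.sum_comm, ← Finset.sum_neg_distrib]
    refine Finset.sum_congr rfl fun G _ => ?_
    unfold lap
    rw [Finset.mul_sum, ← Finset.sum_neg_distrib]
    refine Finset.sum_congr rfl fun G' _ => ?_
    rw [sw_symm hK G' G]; ring
  have h2 : bil Ω g f = ∑ G ∈ Ω, g G * lap Ω f G -
      ∑ G ∈ Ω, ∑ G' ∈ Ω, sw G G' * (g G' * (f G - f G')) := by
    unfold bil
    rw [← Finset.sum_sub_distrib]
    refine Finset.sum_congr rfl fun G _ => ?_
    unfold lap
    rw [Finset.mul_sum, ← Finset.sum_sub_distrib]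
    refine Finset.sum_congr rfl fun G' _ => ?_
    ring
  rw [h2, h1]; ring

/-- Cauchy–Schwarz for the form `bil`. -/
theorem bil_cs (Ω : Finset (Gr n)) (g f : Gr n → ℝ) :
    bil Ω g f ^ 2 ≤ bil Ω g g * bil Ω f f := by
  have e : ∀ a b : Gr n → ℝ, bil Ω a b =
      ∑ p ∈ Ω ×ˢ Ω, (sw p.1 p.2 * (a p.1 - a p.2)) * (sw p.1 p.2 * (b p.1 - b p.2)) := by
    intro a b
    unfold bil
    rw [Finset.sum_product]
    refine Finset.sum_congr rfl fun G _ => Finset.sum_congr rfl fun G' _ => ?_
    rw [mul_mul_mul_comm, sw_mul_self]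
  have e2 : ∀ a : Gr n → ℝ, bil Ω a a =
      ∑ p ∈ Ω ×ˢ Ω, (sw p.1 p.2 * (a p.1 - a p.2)) ^ 2 := by
    intro a
    rw [e a a]
    refine Finset.sum_congr rfl fun p _ => ?_
    ring
  rw [e g f, e2 g, e2 f]
  exact Finset.sum_mul_sq_le_sq_mul_sq _ _ _

theorem lap_add (Ω : Finset (Gr n)) (f g : Gr n → ℝ) (G : Gr n) :
    lap Ω (f + g) G = lap Ω f G + lap Ω g G := by
  unfold lap
  rw [← Finset.sum_add_distrib]
  refine Finset.sum_congr rfl fun G' _ => ?_
  simp only [Pi.add_apply]; ring

theorem lap_smul (Ω : Finset (Gr n)) (a : ℝ) (f : Gr n → ℝ) (G : Gr n) :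
    lap Ω (a • f) G = a * lap Ω f G := by
  unfold lap
  rw [Finset.mul_sum]
  refine Finset.sum_congr rfl fun G' _ => ?_
  simp only [Pi.smul_apply, smul_eq_mul]; ring

theorem sum_lap (hK : PkgKER) (Ω : Finset (Gr n)) (f : Gr n → ℝ) :
    ∑ G ∈ Ω, lap Ω f G = 0 := by
  have h := sum_mul_lap hK Ω (fun _ => (1 : ℝ)) f
  simp only [one_mul] at h
  rw [h]
  unfold bil
  simp

/-- the auxiliary operator `w ↦ L w + (∑_Ω w)·1` on `Ω`, identity off `Ω`. -/
noncomputable def Top (Ω : Finset (Gr n)) : (Gr n → ℝ) →ₗ[ℝ] (Gr n → ℝ) where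
  toFun w := fun G => if G ∈ Ω then lap Ω w G + ∑ G' ∈ Ω, w G' else w G
  map_add' w w' := by
    funext G
    simp only [Pi.add_apply]
    by_cases h : G ∈ Ω
    · rw [if_pos h, if_pos h, if_pos h, lap_add, Finset.sum_add_distrib]; ring
    · rw [if_neg h, if_neg h, if_neg h]
  map_smul' a w := by
    funext G
    simp only [Pi.smul_apply, smul_eq_mul, RingHom.id_apply]
    by_cases h : G ∈ Ω
    · rw [if_pos h, if_pos h, lap_smul, ← Finset.mul_sum]; ring
    · rw [if_neg h, if_neg h]

theorem Top_apply (Ω : Finset (Gr n)) (w : Gr n → ℝ) (G : Gr n) :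
    Top Ω w G = if G ∈ Ω then lap Ω w G + ∑ G' ∈ Ω, w G' else w G := rfl

theorem Top_injective (hK : PkgKER) (hC : ConnAt n) (d : Fin n → ℕ) :
    Function.Injective (Top (realizations d)) := by
  rw [← LinearMap.ker_eq_bot, LinearMap.ker_eq_bot']
  intro w hw
  have hG : ∀ G, Top (realizations d) w G = 0 := fun G => by rw [hw]; rfl
  -- off Ω
  have hoff : ∀ G, G ∉ realizations d → w G = 0 := by
    intro G hGn
    have := hG G
    rwa [Top_apply, if_neg hGn] at this
  -- on Ω
  have hon : ∀ G ∈ realizations d,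
      lap (realizations d) w G + ∑ G' ∈ realizations d, w G' = 0 := by
    intro G hGm
    have := hG G
    rwa [Top_apply, if_pos hGm] at this
  have hsum : ∑ G ∈ realizations d,
      w G * (lap (realizations d) w G + ∑ G' ∈ realizations d, w G') = 0 :=
    Finset.sum_eq_zero fun G hGm => by rw [hon G hGm, mul_zero]
  have hexp : ∑ G ∈ realizations d,
      w G * (lap (realizations d) w G + ∑ G' ∈ realizations d, w G') =
      (1 / 2) * energy (realizations d) w + (∑ G ∈ realizations d, w G) ^ 2 := by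
    simp only [mul_add]
    rw [Finset.sum_add_distrib, sum_mul_lap hK, bil_self, ← Finset.sum_mul, sq]
  rw [hexp] at hsum
  have hE := Crest.Agent.S0453ASMh24.energy_nonneg (realizations d) w
  have hs2 := sq_nonneg (∑ G ∈ realizations d, w G)
  have hE0 : energy (realizations d) w = 0 := by linarith
  have hs0 : ∑ G ∈ realizations d, w G = 0 := by
    have : (∑ G ∈ realizations d, w G) ^ 2 = 0 := by linarith
    exact pow_eq_zero_iff (n := 2) (by norm_num) |>.1 this
  have hconst := const_of_energy_zero hK hC d w hE0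
  funext G
  by_cases hGm : G ∈ realizations d
  · have hall : ∑ G' ∈ realizations d, w G' = ((realizations d).card : ℝ) * w G := by
      rw [Finset.sum_congr rfl (fun G' hG' => hconst G' hG' G hGm), Finset.sum_const,
        nsmul_eq_mul]
    rw [hall] at hs0
    have hcard : ((realizations d).card : ℝ) ≠ 0 := by
      exact_mod_cast (Finset.card_pos.mpr ⟨G, hGm⟩).ne'
    simpa [hcard] using hs0
  · simpa using hoff G hGm

/-- every mean-zero function on `Ω` is a Laplacian. -/
theorem exists_lap_eq (hK : PkgKER) (hC : ConnAt n) (d : Fin n → ℕ) (u : Gr n → ℝ)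
    (hu0 : ∑ G ∈ realizations d, u G = 0) (hne : (realizations d).Nonempty) :
    ∃ w : Gr n → ℝ, ∀ G ∈ realizations d, lap (realizations d) w G = u G := by
  have hsurj : Function.Surjective (Top (realizations d)) :=
    LinearMap.injective_iff_surjective.mp (Top_injective hK hC d)
  obtain ⟨w, hw⟩ := hsurj u
  have hon : ∀ G ∈ realizations d,
      lap (realizations d) w G + ∑ G' ∈ realizations d, w G' = u G := by
    intro G hGm
    have := congrFun hw G
    rwa [Top_apply, if_pos hGm] at this
  have hs : ∑ G ∈ realizations d, w G = 0 := by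
    have h1 : ∑ G ∈ realizations d,
        (lap (realizations d) w G + ∑ G' ∈ realizations d, w G') = 0 := by
      rw [Finset.sum_congr rfl hon, hu0]
    rw [Finset.sum_add_distrib, sum_lap hK, zero_add, Finset.sum_const, nsmul_eq_mul] at h1
    have hcard : ((realizations d).card : ℝ) ≠ 0 := by
      exact_mod_cast (Finset.card_pos.mpr hne).ne'
    rcases mul_eq_zero.mp h1 with h | h
    · exact absurd h hcard
    · exact h
  refine ⟨w, fun G hGm => ?_⟩
  have := hon G hGm
  rw [hs, add_zero] at this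
  exact this

/-- the key inequality for mean-zero functions. -/
theorem key (hK : PkgKER) (c : ℝ) (hc : 0 < c) (hL : LapSqAt n c) (hC : ConnAt n)
    (d : Fin n → ℕ) (u : Gr n → ℝ) (hu0 : ∑ G ∈ realizations d, u G = 0)
    (hne : (realizations d).Nonempty) :
    2 * c * ∑ G ∈ realizations d, u G ^ 2 ≤ energy (realizations d) u := by
  obtain ⟨w, hw⟩ := exists_lap_eq hK hC d u hu0 hne
  -- the function `L w`, which agrees with `u` on Ω
  have hen : energy (realizations d) (fun G => lap (realizations d) w G) =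
      energy (realizations d) u := by
    unfold energy
    refine Finset.sum_congr rfl fun G hG => Finset.sum_congr rfl fun G' hG' => ?_
    show sw G G' * (lap (realizations d) w G - lap (realizations d) w G') ^ 2 = _
    rw [hw G hG, hw G' hG']
  have hM2 : ∑ G ∈ realizations d, lap (realizations d) w G ^ 2 =
      ∑ G ∈ realizations d, u G ^ 2 :=
    Finset.sum_congr rfl fun G hG => by rw [hw G hG]
  have h1 := hL d w
  rw [hM2] at h1
  have h2 : ∑ G ∈ realizations d, lap (realizations d) w G * lap (realizations d) w G =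
      (1 / 2) * bil (realizations d) (fun G => lap (realizations d) w G) w :=
    sum_mul_lap hK (realizations d) (fun G => lap (realizations d) w G) w
  have h2' : ∑ G ∈ realizations d, u G ^ 2 =
      (1 / 2) * bil (realizations d) (fun G => lap (realizations d) w G) w := by
    rw [← h2, ← hM2]
    exact Finset.sum_congr rfl fun G _ => by ring
  have h3 := bil_cs (realizations d) (fun G => lap (realizations d) w G) w
  rw [bil_self, bil_self, hen] at h3
  -- abbreviations
  set M2 : ℝ := ∑ G ∈ realizations d, u G ^ 2 with hM2def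
  set Ew : ℝ := energy (realizations d) w with hEw
  set Eu : ℝ := energy (realizations d) u with hEu
  set Bw : ℝ := bil (realizations d) (fun G => lap (realizations d) w G) w with hBw
  have hM2nn : 0 ≤ M2 := Finset.sum_nonneg fun G _ => sq_nonneg _
  have hEwnn : 0 ≤ Ew := Crest.Agent.S0453ASMh24.energy_nonneg _ _
  have hEunn : 0 ≤ Eu := Crest.Agent.S0453ASMh24.energy_nonneg _ _
  -- h1 : c * Ew ≤ 2 * M2 ; h2' : M2 = 1/2 * Bw ; h3 : Bw^2 ≤ Eu * Ew
  have hB : Bw = 2 * M2 := by linarith
  rw [hB] at h3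
  -- 4 M2^2 ≤ Eu * Ew,  c Ew ≤ 2 M2
  rcases eq_or_lt_of_le hM2nn with h0 | hpos
  · rw [← h0]; simpa using hEunn
  · -- Eu * (2 M2) ≥ Eu * c * Ew ≥ c * 4 M2^2
    have h4 : c * (2 * M2) ^ 2 ≤ Eu * (2 * M2) := by
      calc c * (2 * M2) ^ 2 ≤ c * (Eu * Ew) := mul_le_mul_of_nonneg_left h3 hc.le
        _ = Eu * (c * Ew) := by ring
        _ ≤ Eu * (2 * M2) := mul_le_mul_of_nonneg_left h1 hEunn
    have h5 : c * (2 * M2) ≤ Eu := by
      have h2M : 0 < 2 * M2 := by linarith
      have : c * (2 * M2) * (2 * M2) ≤ Eu * (2 * M2) := by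
        calc c * (2 * M2) * (2 * M2) = c * (2 * M2) ^ 2 := by ring
          _ ≤ Eu * (2 * M2) := h4
      exact le_of_mul_le_mul_right this h2M
    linarith

theorem pkg_SPEC : PkgSPEC := by
  intro hK n c hc hL hC d f
  by_cases hne : (realizations d).Nonempty
  swap
  · rw [Finset.not_nonempty_iff_eq_empty] at hne
    rw [hne]
    simp [pairVar, energy]
  have hcard : (0 : ℝ) < ((realizations d).card : ℝ) := by
    exact_mod_cast Finset.card_pos.mpr hne
  set N : ℝ := ((realizations d).card : ℝ) with hN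
  set m : ℝ := (∑ G ∈ realizations d, f G) / N with hm
  have hu0 : ∑ G ∈ realizations d, (f G - m) = 0 := by
    rw [Finset.sum_sub_distrib, Finset.sum_const, nsmul_eq_mul, hm]
    field_simp
    ring
  have hk := key hK c hc hL hC d (fun G => f G - m) hu0 hne
  have hpv : pairVar (realizations d) f = pairVar (realizations d) (fun G => f G - m) := by
    unfold pairVar
    refine Finset.sum_congr rfl fun G _ => Finset.sum_congr rfl fun G' _ => ?_
    ring
  have hen : energy (realizations d) f = energy (realizations d) (fun G => f G - m) := by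
    unfold energy
    refine Finset.sum_congr rfl fun G _ => Finset.sum_congr rfl fun G' _ => ?_
    ring
  rw [hpv, hen, Crest.Agent.S0453ASMh24.pairVar_eq, hu0]
  have hE := Crest.Agent.S0453ASMh24.energy_nonneg (realizations d) (fun G => f G - m)
  -- 2 (N Σu² - 0) ≤ (1/c) N E
  have h1 : 2 * c * ∑ G ∈ realizations d, (f G - m) ^ 2 ≤
      energy (realizations d) (fun G => f G - m) := hk
  have h2 : 2 * ∑ G ∈ realizations d, (f G - m) ^ 2 ≤
      1 / c * energy (realizations d) (fun G => f G - m) := by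
    rw [one_div, ← div_eq_inv_mul, le_div_iff₀ hc]
    linarith
  calc 2 * (N * ∑ G ∈ realizations d, (f G - m) ^ 2 - 0 ^ 2)
      = N * (2 * ∑ G ∈ realizations d, (f G - m) ^ 2) := by ring
    _ ≤ N * (1 / c * energy (realizations d) (fun G => f G - m)) :=
        mul_le_mul_of_nonneg_left h2 hcard.le
    _ = 1 / c * N * energy (realizations d) (fun G => f G - m) := by ring

end Crest.Agent.S0453SPECh6
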