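import Mathlib
import Crest.Prelude.Def_SwitchChain
import Crest.Agent.Lib_S0453_Plan

/-!
Row 299 (S0453), package TV (helper3): the total-variation half of the switch-chain statement
follows from the Poincaré half by the standard L² argument.  Abstract part: a symmetric, lazy,
stochastic kernel on a closed finite set with a Poincaré inequality of constant `C` contracts the
L² distance to uniform by `(1 - 1/C)` per step.
-/

set_option autoImplicit false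
open Finset

namespace Crest.Agent.S0453TVh3

open Crest.SwitchChain

section Abstract

variable {α : Type*}

/-- Weighted Jensen for the square. -/
lemma sq_wsum_le (Ω : Finset α) (q f : α → ℝ) (hq : ∀ c ∈ Ω, 0 ≤ q c)
    (hsum : ∑ c ∈ Ω, q c = 1) :
    (∑ c ∈ Ω, q c * f c) ^ 2 ≤ ∑ c ∈ Ω, q c * f c ^ 2 := by
  have e : ∀ m : ℝ, ∑ c ∈ Ω, q c * (f c - m) ^ 2
      = ∑ c ∈ Ω, q c * f c ^ 2 - 2 * m * ∑ c ∈ Ω, q c * f c + m ^ 2 * ∑ c ∈ Ω, q c := by
    intro m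
    rw [Finset.mul_sum, Finset.mul_sum, ← Finset.sum_sub_distrib, ← Finset.sum_add_distrib]
    apply Finset.sum_congr rfl
    intro c _
    ring
  have h : 0 ≤ ∑ c ∈ Ω, q c * (f c - ∑ c ∈ Ω, q c * f c) ^ 2 :=
    Finset.sum_nonneg (fun c hc => mul_nonneg (hq c hc) (sq_nonneg _))
  rw [e, hsum] at h
  nlinarith

variable [Fintype α] [DecidableEq α]

/-- The restricted operator `A f b = ∑ c ∈ Ω, K b c * f c`. -/
noncomputable def opA (K : Matrix α α ℝ) (Ω : Finset α) (f : α → ℝ) (b : α) : ℝ :=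
  ∑ c ∈ Ω, K b c * f c

omit [DecidableEq α] in
/-- Row sums over `Ω` are `1` on `Ω`. -/
lemma rowΩ (K : Matrix α α ℝ) (Ω : Finset α)
    (hrow : ∀ a ∈ Ω, ∑ b, K a b = 1)
    (hclosed : ∀ a ∈ Ω, ∀ b, b ∉ Ω → K a b = 0) :
    ∀ a ∈ Ω, ∑ b ∈ Ω, K a b = 1 := by
  intro a ha
  rw [← hrow a ha]
  apply Finset.sum_subset (Finset.subset_univ _)
  intro b _ hb
  exact hclosed a ha b hb

omit [Fintype α] in
/-- Laziness: `‖A f‖² ≤ ⟨f, A f⟩` for a symmetric lazy stochastic kernel. -/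
lemma sq_opA_le (K : Matrix α α ℝ) (Ω : Finset α)
    (hsym : ∀ a b, K a b = K b a) (hnn : ∀ a b, 0 ≤ K a b)
    (hrowΩ : ∀ a ∈ Ω, ∑ b ∈ Ω, K a b = 1)
    (hlazy : ∀ a, 1 / 2 ≤ K a a) (f : α → ℝ) :
    ∑ b ∈ Ω, (opA K Ω f b) ^ 2 ≤ ∑ b ∈ Ω, f b * opA K Ω f b := by
  classical
  -- q b c = 2 K b c - δ
  set q : α → α → ℝ := fun b c => 2 * K b c - (if b = c then 1 else 0) with hq
  have hq_nn : ∀ b c, 0 ≤ q b c := by
    intro b c
    simp only [hq]
    by_cases h : b = c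
    · subst h
      simp only [if_true]
      linarith [hlazy b]
    · simp only [h, if_false]
      linarith [hnn b c]
  have hq_sym : ∀ b c, q b c = q c b := by
    intro b c
    simp only [hq]
    rw [hsym b c]
    by_cases h : b = c
    · subst h; rfl
    · have h' : ¬ c = b := fun e => h e.symm
      simp [h, h']
  have hq_row : ∀ b ∈ Ω, ∑ c ∈ Ω, q b c = 1 := by
    intro b hb
    simp only [hq]
    rw [Finset.sum_sub_distrib, ← Finset.mul_sum, hrowΩ b hb, Finset.sum_ite_eq Ω b (fun _ => (1:ℝ))]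
    simp [hb]
    norm_num
  have hB : ∀ b ∈ Ω, ∑ c ∈ Ω, q b c * f c = 2 * opA K Ω f b - f b := by
    intro b hb
    simp only [hq, opA]
    have : ∀ c ∈ Ω, (2 * K b c - (if b = c then (1:ℝ) else 0)) * f c
        = 2 * (K b c * f c) - (if b = c then f c else 0) := by
      intro c _
      by_cases h : b = c
      · simp [h]; ring
      · simp [h]; ring
    rw [Finset.sum_congr rfl this, Finset.sum_sub_distrib, ← Finset.mul_sum,
      Finset.sum_ite_eq Ω b (fun c => f c)]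
    simp [hb]
  have h1 : ∑ b ∈ Ω, (2 * opA K Ω f b - f b) ^ 2 ≤ ∑ b ∈ Ω, ∑ c ∈ Ω, q b c * f c ^ 2 := by
    apply Finset.sum_le_sum
    intro b hb
    rw [← hB b hb]
    exact sq_wsum_le Ω (q b) f (fun c _ => hq_nn b c) (hq_row b hb)
  have h2 : ∑ b ∈ Ω, ∑ c ∈ Ω, q b c * f c ^ 2 = ∑ c ∈ Ω, f c ^ 2 := by
    rw [Finset.sum_comm]
    apply Finset.sum_congr rfl
    intro c hc
    rw [← Finset.sum_mul]
    have : ∑ b ∈ Ω, q b c = 1 := by
      rw [← hq_row c hc]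
      exact Finset.sum_congr rfl (fun b _ => hq_sym b c)
    rw [this, one_mul]
  have h3 : ∑ b ∈ Ω, (2 * opA K Ω f b - f b) ^ 2
      = 4 * ∑ b ∈ Ω, (opA K Ω f b) ^ 2 - 4 * ∑ b ∈ Ω, f b * opA K Ω f b + ∑ b ∈ Ω, f b ^ 2 := by
    rw [Finset.mul_sum, Finset.mul_sum, ← Finset.sum_sub_distrib, ← Finset.sum_add_distrib]
    apply Finset.sum_congr rfl
    intro b _
    ring
  rw [h3, h2] at h1
  linarith

omit [Fintype α] in
/-- One step of L² contraction on mean-zero functions. -/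
lemma contract (K : Matrix α α ℝ) (Ω : Finset α) (hΩ : Ω.Nonempty) (C : ℝ) (hC : 1 ≤ C)
    (hsym : ∀ a b, K a b = K b a) (hnn : ∀ a b, 0 ≤ K a b)
    (hrowΩ : ∀ a ∈ Ω, ∑ b ∈ Ω, K a b = 1)
    (hlazy : ∀ a, 1 / 2 ≤ K a a)
    (hgap : ∀ f : α → ℝ, (Ω.card : ℝ) * (∑ a ∈ Ω, f a ^ 2) - (∑ a ∈ Ω, f a) ^ 2 ≤
      C * Ω.card * ∑ a ∈ Ω, f a * (f a - ∑ b ∈ Ω, K a b * f b))
    (f : α → ℝ) (hf : ∑ a ∈ Ω, f a = 0) :
    ∑ b ∈ Ω, (opA K Ω f b) ^ 2 ≤ (1 - 1 / C) * ∑ b ∈ Ω, f b ^ 2 := by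
  have hN : (0:ℝ) < Ω.card := by exact_mod_cast Finset.card_pos.mpr hΩ
  have hCpos : (0:ℝ) < C := by linarith
  have h1 := sq_opA_le K Ω hsym hnn hrowΩ hlazy f
  have h2 := hgap f
  rw [hf] at h2
  have e : ∑ a ∈ Ω, f a * (f a - ∑ b ∈ Ω, K a b * f b)
      = ∑ a ∈ Ω, f a ^ 2 - ∑ a ∈ Ω, f a * opA K Ω f a := by
    rw [← Finset.sum_sub_distrib]
    apply Finset.sum_congr rfl
    intro a _
    simp only [opA]
    ring
  rw [e] at h2
  set S2 := ∑ a ∈ Ω, f a ^ 2 with hS2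
  set SA := ∑ a ∈ Ω, f a * opA K Ω f a with hSA
  -- N * S2 ≤ C * N * (S2 - SA)
  have h3 : S2 ≤ C * (S2 - SA) := by
    have : (Ω.card : ℝ) * S2 ≤ (Ω.card : ℝ) * (C * (S2 - SA)) := by
      have h2' : (Ω.card : ℝ) * S2 - 0 ^ 2 ≤ C * Ω.card * (S2 - SA) := h2
      nlinarith
    exact le_of_mul_le_mul_left this hN
  have h4 : SA ≤ (1 - 1 / C) * S2 := by
    have : (1 - 1 / C) * S2 = S2 - S2 / C := by ring
    rw [this]
    have h5 : S2 / C ≤ S2 - SA := by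
      rw [div_le_iff₀ hCpos]
      linarith
    linarith
  linarith

/-- The abstract TV bound. -/
theorem tv_abs (K : Matrix α α ℝ) (Ω : Finset α) (hΩ : Ω.Nonempty) (C : ℝ) (hC : 1 ≤ C)
    (hsym : ∀ a b, K a b = K b a) (hnn : ∀ a b, 0 ≤ K a b)
    (hrow : ∀ a ∈ Ω, ∑ b, K a b = 1)
    (hclosed : ∀ a ∈ Ω, ∀ b, b ∉ Ω → K a b = 0)
    (hlazy : ∀ a, 1 / 2 ≤ K a a)
    (hgap : ∀ f : α → ℝ, (Ω.card : ℝ) * (∑ a ∈ Ω, f a ^ 2) - (∑ a ∈ Ω, f a) ^ 2 ≤
      C * Ω.card * ∑ a ∈ Ω, f a * (f a - ∑ b ∈ Ω, K a b * f b))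
    (t : ℕ) (ht : (Ω.card : ℝ) * (1 - 1 / C) ^ t ≤ 1 / 4) :
    ∀ a ∈ Ω, tvDist (fun b => (K ^ t) a b) (unifOn Ω) ≤ 1 / 4 := by
  classical
  intro a ha
  have hN : (0:ℝ) < Ω.card := by exact_mod_cast Finset.card_pos.mpr hΩ
  have hNne : (Ω.card : ℝ) ≠ 0 := ne_of_gt hN
  have hrowΩ := rowΩ K Ω hrow hclosed
  have hr0 : 0 ≤ 1 - 1 / C := by
    have : 1 / C ≤ 1 := by
      rw [div_le_one (by linarith)]
      exact hC
    linarith
  -- support
  have hsupp : ∀ s : ℕ, ∀ b, b ∉ Ω → (K ^ s) a b = 0 := by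
    intro s
    induction s with
    | zero =>
      intro b hb
      rw [pow_zero, Matrix.one_apply]
      have : a ≠ b := fun e => hb (e ▸ ha)
      simp [this]
    | succ s ih =>
      intro b hb
      rw [pow_succ, Matrix.mul_apply]
      apply Finset.sum_eq_zero
      intro c _
      by_cases hc : c ∈ Ω
      · rw [hclosed c hc b hb, mul_zero]
      · rw [ih c hc, zero_mul]
  -- step on Ω
  have hstep : ∀ s : ℕ, ∀ b, (K ^ (s + 1)) a b = opA K Ω (fun c => (K ^ s) a c) b := by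
    intro s b
    rw [pow_succ, Matrix.mul_apply]
    simp only [opA]
    symm
    rw [← Finset.sum_subset (Finset.subset_univ Ω)]
    · apply Finset.sum_congr rfl
      intro c _
      rw [hsym b c]
      ring
    · intro c _ hc
      rw [hsupp s c hc, zero_mul]
  -- mass
  have hmass : ∀ s : ℕ, ∑ b ∈ Ω, (K ^ s) a b = 1 := by
    intro s
    induction s with
    | zero =>
      rw [pow_zero]
      simp only [Matrix.one_apply]
      rw [Finset.sum_ite_eq Ω a (fun _ => (1:ℝ))]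
      simp [ha]
    | succ s ih =>
      have : ∀ b ∈ Ω, (K ^ (s + 1)) a b = ∑ c ∈ Ω, K b c * (K ^ s) a c := by
        intro b _
        rw [hstep s b]
        rfl
      rw [Finset.sum_congr rfl this, Finset.sum_comm]
      have : ∀ c ∈ Ω, ∑ b ∈ Ω, K b c * (K ^ s) a c = (K ^ s) a c := by
        intro c hc
        rw [← Finset.sum_mul]
        have : ∑ b ∈ Ω, K b c = 1 := by
          rw [← hrowΩ c hc]
          exact Finset.sum_congr rfl (fun b _ => hsym b c)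
        rw [this, one_mul]
      rw [Finset.sum_congr rfl this, ih]
  -- centred iterates
  set g : ℕ → α → ℝ := fun s b => (K ^ s) a b - 1 / (Ω.card : ℝ) with hg
  have hgmean : ∀ s, ∑ b ∈ Ω, g s b = 0 := by
    intro s
    simp only [hg]
    rw [Finset.sum_sub_distrib, hmass s, Finset.sum_const, nsmul_eq_mul]
    field_simp
    ring
  have hgstep : ∀ s, ∀ b ∈ Ω, g (s + 1) b = opA K Ω (g s) b := by
    intro s b hb
    simp only [hg]
    rw [hstep s b]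
    simp only [opA]
    have : ∀ c ∈ Ω, K b c * ((K ^ s) a c - 1 / (Ω.card : ℝ))
        = K b c * (K ^ s) a c - K b c * (1 / (Ω.card : ℝ)) := by
      intro c _; ring
    rw [Finset.sum_congr rfl this, Finset.sum_sub_distrib, ← Finset.sum_mul, hrowΩ b hb, one_mul]
  have hE0 : ∑ b ∈ Ω, (g 0 b) ^ 2 ≤ 1 := by
    simp only [hg, pow_zero, Matrix.one_apply]
    have : ∀ b ∈ Ω, ((if a = b then (1:ℝ) else 0) - 1 / (Ω.card : ℝ)) ^ 2
        = (if a = b then (1 - 2 / (Ω.card : ℝ)) else 0) + 1 / (Ω.card : ℝ) ^ 2 := by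
      intro b _
      by_cases h : a = b
      · simp only [h, if_true]
        field_simp
        ring
      · simp only [h, if_false]
        field_simp
        ring
    rw [Finset.sum_congr rfl this, Finset.sum_add_distrib,
      Finset.sum_ite_eq Ω a (fun _ => (1 - 2 / (Ω.card : ℝ))), Finset.sum_const, nsmul_eq_mul]
    simp only [ha, if_true]
    have h1 : (Ω.card : ℝ) * (1 / (Ω.card : ℝ) ^ 2) = 1 / (Ω.card : ℝ) := by
      field_simp
    rw [h1]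
    have h2 : 0 < 1 / (Ω.card : ℝ) := by positivity
    have h3 : 2 / (Ω.card : ℝ) = 2 * (1 / (Ω.card : ℝ)) := by ring
    rw [h3]
    linarith
  have hE : ∀ s, ∑ b ∈ Ω, (g s b) ^ 2 ≤ (1 - 1 / C) ^ s := by
    intro s
    induction s with
    | zero => simpa using hE0
    | succ s ih =>
      have e : ∑ b ∈ Ω, (g (s + 1) b) ^ 2 = ∑ b ∈ Ω, (opA K Ω (g s) b) ^ 2 := by
        apply Finset.sum_congr rfl
        intro b hb
        rw [hgstep s b hb]
      rw [e, pow_succ]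
      have := contract K Ω hΩ C hC hsym hnn hrowΩ hlazy hgap (g s) (hgmean s)
      calc ∑ b ∈ Ω, (opA K Ω (g s) b) ^ 2 ≤ (1 - 1 / C) * ∑ b ∈ Ω, g s b ^ 2 := this
        _ ≤ (1 - 1 / C) * (1 - 1 / C) ^ s := by
          exact mul_le_mul_of_nonneg_left ih hr0
        _ = (1 - 1 / C) ^ s * (1 - 1 / C) := by ring
  -- TV
  have htv : (∑ b, |(K ^ t) a b - unifOn Ω b|) = ∑ b ∈ Ω, |g t b| := by
    symm
    rw [← Finset.sum_subset (Finset.subset_univ Ω)]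
    · apply Finset.sum_congr rfl
      intro b hb
      simp only [hg, unifOn, hb, if_true]
    · intro b _ hb
      simp only [unifOn, hb, if_false]
      rw [hsupp t b hb]
      simp
  have hcs : (∑ b ∈ Ω, |g t b|) ^ 2 ≤ (Ω.card : ℝ) * ∑ b ∈ Ω, |g t b| ^ 2 :=
    sq_sum_le_card_mul_sum_sq
  have habs : ∑ b ∈ Ω, |g t b| ^ 2 = ∑ b ∈ Ω, (g t b) ^ 2 := by
    apply Finset.sum_congr rfl
    intro b _
    exact sq_abs _
  rw [habs] at hcs
  have hle : (∑ b ∈ Ω, |g t b|) ^ 2 ≤ 1 / 4 := by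
    calc (∑ b ∈ Ω, |g t b|) ^ 2 ≤ (Ω.card : ℝ) * ∑ b ∈ Ω, (g t b) ^ 2 := hcs
      _ ≤ (Ω.card : ℝ) * (1 - 1 / C) ^ t := mul_le_mul_of_nonneg_left (hE t) hN.le
      _ ≤ 1 / 4 := ht
  have hnonneg : 0 ≤ ∑ b ∈ Ω, |g t b| := Finset.sum_nonneg (fun b _ => abs_nonneg _)
  have hhalf : ∑ b ∈ Ω, |g t b| ≤ 1 / 2 := by
    nlinarith
  unfold tvDist
  rw [htv]
  linarith

end Abstract

section Numeric

/-- There are at most `2 ^ (n ^ 2)` realizations. -/
lemma card_realizations_le {n : ℕ} (d : Fin n → ℕ) :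
    ((realizations d).card : ℝ) ≤ 2 ^ (n ^ 2) := by
  have h1 : (realizations d).card ≤ Fintype.card (Finset (Edge n)) := Finset.card_le_univ _
  have h2 : Fintype.card (Finset (Edge n)) = 2 ^ Fintype.card (Edge n) := Fintype.card_finset
  have h3 : Fintype.card (Edge n) ≤ Fintype.card (Sym2 (Fin n)) := Fintype.card_subtype_le _
  have h4 : Fintype.card (Sym2 (Fin n)) = (n + 1).choose 2 := by
    rw [Sym2.card, Fintype.card_fin]
  have h5 : (n + 1).choose 2 ≤ n ^ 2 := by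
    rw [Nat.choose_two_right]
    apply Nat.div_le_of_le_mul
    simp only [Nat.add_sub_cancel]
    have : n ≤ n ^ 2 := Nat.le_self_pow (by norm_num) n
    nlinarith
  have h6 : (realizations d).card ≤ 2 ^ (n ^ 2) := by
    calc (realizations d).card ≤ 2 ^ Fintype.card (Edge n) := h2 ▸ h1
      _ ≤ 2 ^ (n ^ 2) := Nat.pow_le_pow_right (by norm_num) (by omega)
  exact_mod_cast h6

/-- The numerical heart: `2 n^8` steps are plenty. -/
lemma numeric (n : ℕ) (hn : 4 ≤ n) :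
    (2:ℝ) ^ (n ^ 2) * (1 - 1 / (24 * (n:ℝ) ^ 2 * (n.choose 4 : ℝ))) ^ (2 * n ^ 8) ≤ 1 / 4 := by
  set C : ℝ := 24 * (n:ℝ) ^ 2 * (n.choose 4 : ℝ) with hCdef
  have hn' : (4:ℝ) ≤ n := by exact_mod_cast hn
  have hch1 : (1:ℝ) ≤ (n.choose 4 : ℝ) := by exact_mod_cast Nat.choose_pos hn
  have hch2 : (n.choose 4 : ℝ) ≤ (n:ℝ) ^ 4 / 24 := by
    have h := Nat.choose_le_pow_div (α := ℝ) 4 n
    have h24 : ((Nat.factorial 4 : ℕ) : ℝ) = 24 := by norm_num [Nat.factorial]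
    rw [h24] at h
    exact h
  have hC1 : 1 ≤ C := by
    have : (16:ℝ) ≤ (n:ℝ) ^ 2 := by nlinarith
    have h2 : (1:ℝ) ≤ 24 * (n:ℝ) ^ 2 := by linarith
    calc (1:ℝ) = 1 * 1 := by ring
      _ ≤ (24 * (n:ℝ) ^ 2) * (n.choose 4 : ℝ) := by
        apply mul_le_mul h2 hch1 (by norm_num) (by linarith)
  have hC6 : C ≤ (n:ℝ) ^ 6 := by
    calc C = 24 * (n:ℝ) ^ 2 * (n.choose 4 : ℝ) := rfl
      _ ≤ 24 * (n:ℝ) ^ 2 * ((n:ℝ) ^ 4 / 24) := by
        apply mul_le_mul_of_nonneg_left hch2 (by positivity)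
      _ = (n:ℝ) ^ 6 := by ring
  have hCpos : 0 < C := by linarith
  have hbase0 : 0 ≤ 1 - 1 / C := by
    have : 1 / C ≤ 1 := by
      rw [div_le_one hCpos]
      exact hC1
    linarith
  have hbase : 1 - 1 / C ≤ Real.exp (-(1 / C)) := Real.one_sub_le_exp_neg _
  have hpow : (1 - 1 / C) ^ (2 * n ^ 8) ≤ Real.exp (-(1 / C)) ^ (2 * n ^ 8) :=
    pow_le_pow_left₀ hbase0 hbase _
  have hexp : Real.exp (-(1 / C)) ^ (2 * n ^ 8)
      = Real.exp (((2 * n ^ 8 : ℕ) : ℝ) * (-(1 / C))) := (Real.exp_nat_mul _ _).symm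
  have hexpo : ((2 * n ^ 8 : ℕ) : ℝ) * (-(1 / C)) ≤ ((n ^ 2 + 2 : ℕ) : ℝ) * (-1) := by
    push_cast
    have h1 : ((n:ℝ) ^ 2 + 2) * C ≤ 2 * (n:ℝ) ^ 8 := by
      have h0 : ((n:ℝ) ^ 2 + 2) * C ≤ ((n:ℝ) ^ 2 + 2) * (n:ℝ) ^ 6 :=
        mul_le_mul_of_nonneg_left hC6 (by positivity)
      have h2 : ((n:ℝ) ^ 2 + 2) * (n:ℝ) ^ 6 ≤ 2 * (n:ℝ) ^ 8 := by
        have h3 : (2:ℝ) ≤ (n:ℝ) ^ 2 := by nlinarith
        have h4 : (0:ℝ) ≤ (n:ℝ) ^ 6 := by positivity
        nlinarith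
      linarith
    have h5 : (n:ℝ) ^ 2 + 2 ≤ 2 * (n:ℝ) ^ 8 / C := by
      rw [le_div_iff₀ hCpos]
      exact h1
    have h6 : 2 * (n:ℝ) ^ 8 * (-(1 / C)) = -(2 * (n:ℝ) ^ 8 / C) := by ring
    rw [h6]
    linarith
  have hexp2 : Real.exp (((2 * n ^ 8 : ℕ) : ℝ) * (-(1 / C)))
      ≤ Real.exp (((n ^ 2 + 2 : ℕ) : ℝ) * (-1)) := Real.exp_le_exp.mpr hexpo
  have hexp3 : Real.exp (((n ^ 2 + 2 : ℕ) : ℝ) * (-1)) = Real.exp (-1) ^ (n ^ 2 + 2) :=
    Real.exp_nat_mul _ _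
  have hexp4 : Real.exp (-1) ≤ 1 / 2 := by
    have h2 : (2:ℝ) ≤ Real.exp 1 := by
      have := Real.add_one_le_exp (1:ℝ)
      linarith
    rw [Real.exp_neg, inv_eq_one_div]
    exact one_div_le_one_div_of_le (by norm_num) h2
  have hexp5 : Real.exp (-1) ^ (n ^ 2 + 2) ≤ (1 / 2 : ℝ) ^ (n ^ 2 + 2) :=
    pow_le_pow_left₀ (Real.exp_pos _).le hexp4 _
  have hfinal : (1 - 1 / C) ^ (2 * n ^ 8) ≤ (1 / 2 : ℝ) ^ (n ^ 2 + 2) := by
    calc (1 - 1 / C) ^ (2 * n ^ 8) ≤ Real.exp (-(1 / C)) ^ (2 * n ^ 8) := hpow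
      _ = Real.exp (((2 * n ^ 8 : ℕ) : ℝ) * (-(1 / C))) := hexp
      _ ≤ Real.exp (((n ^ 2 + 2 : ℕ) : ℝ) * (-1)) := hexp2
      _ = Real.exp (-1) ^ (n ^ 2 + 2) := hexp3
      _ ≤ (1 / 2 : ℝ) ^ (n ^ 2 + 2) := hexp5
  calc (2:ℝ) ^ (n ^ 2) * (1 - 1 / C) ^ (2 * n ^ 8)
      ≤ (2:ℝ) ^ (n ^ 2) * (1 / 2 : ℝ) ^ (n ^ 2 + 2) :=
        mul_le_mul_of_nonneg_left hfinal (by positivity)
    _ = 1 / 4 := by
      rw [pow_add, ← mul_assoc, ← mul_pow]
      norm_num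

end Numeric

section Switch

variable {n : ℕ}

/-- The kernel has nonnegative entries (directly from the definition). -/
lemma kernel_nonneg (E E' : Finset (Edge n)) : 0 ≤ kernel n E E' := by
  unfold kernel
  apply add_nonneg
  · split_ifs <;> norm_num
  · exact div_nonneg (Nat.cast_nonneg _) (by positivity)

/-- The kernel is lazy (directly from the definition). -/
lemma kernel_lazy (E : Finset (Edge n)) : 1 / 2 ≤ kernel n E E := by
  unfold kernel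
  rw [if_pos rfl]
  have : (0:ℝ) ≤ (proposalCount E E : ℝ) / (12 * (n.choose 4 : ℝ)) :=
    div_nonneg (Nat.cast_nonneg _) (by positivity)
  linarith

/-- **Package TV.** Symmetry, stochasticity and closedness of the kernel on the realizations,
together with the Poincaré inequality of the template, give the total-variation conjunct of the
template verbatim. -/
theorem tv_of_gap (n : ℕ) (hn : 4 ≤ n) (d : Fin n → ℕ)
    (hd : (realizations d).Nonempty)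
    (hsym : ∀ E E' : Finset (Edge n), kernel n E E' = kernel n E' E)
    (hrow : ∀ E ∈ realizations d, ∑ E', kernel n E E' = 1)
    (hclosed : ∀ E ∈ realizations d, ∀ E', E' ∉ realizations d → kernel n E E' = 0)
    (hgap : ∀ f : Finset (Edge n) → ℝ,
        ((realizations d).card : ℝ) * (∑ G ∈ realizations d, f G ^ 2) -
            (∑ G ∈ realizations d, f G) ^ 2 ≤
          24 * (n : ℝ) ^ 2 * (n.choose 4 : ℝ) * (realizations d).card *
            ∑ G ∈ realizations d,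
              f G * (f G - ∑ G' ∈ realizations d, kernel n G G' * f G')) :
    ∃ t : ℕ, t ≤ 2 * n ^ 8 ∧ ∀ G ∈ realizations d,
        tvDist (fun G' => (kernel n ^ t) G G') (unifOn (realizations d)) ≤ 1 / 4 := by
  refine ⟨2 * n ^ 8, le_refl _, ?_⟩
  have hn' : (4:ℝ) ≤ n := by exact_mod_cast hn
  have hch1 : (1:ℝ) ≤ (n.choose 4 : ℝ) := by exact_mod_cast Nat.choose_pos hn
  have hC1 : (1:ℝ) ≤ 24 * (n:ℝ) ^ 2 * (n.choose 4 : ℝ) := by
    have : (16:ℝ) ≤ (n:ℝ) ^ 2 := by nlinarith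
    have h2 : (1:ℝ) ≤ 24 * (n:ℝ) ^ 2 := by linarith
    calc (1:ℝ) = 1 * 1 := by ring
      _ ≤ (24 * (n:ℝ) ^ 2) * (n.choose 4 : ℝ) := by
        apply mul_le_mul h2 hch1 (by norm_num) (by linarith)
  have hr0 : 0 ≤ 1 - 1 / (24 * (n:ℝ) ^ 2 * (n.choose 4 : ℝ)) := by
    have : 1 / (24 * (n:ℝ) ^ 2 * (n.choose 4 : ℝ)) ≤ 1 := by
      rw [div_le_one (by linarith)]
      exact hC1
    linarith
  have hnum : ((realizations d).card : ℝ) *
      (1 - 1 / (24 * (n:ℝ) ^ 2 * (n.choose 4 : ℝ))) ^ (2 * n ^ 8) ≤ 1 / 4 := by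
    calc ((realizations d).card : ℝ) * (1 - 1 / (24 * (n:ℝ) ^ 2 * (n.choose 4 : ℝ))) ^ (2 * n ^ 8)
        ≤ (2:ℝ) ^ (n ^ 2) * (1 - 1 / (24 * (n:ℝ) ^ 2 * (n.choose 4 : ℝ))) ^ (2 * n ^ 8) :=
          mul_le_mul_of_nonneg_right (card_realizations_le d) (pow_nonneg hr0 _)
      _ ≤ 1 / 4 := numeric n hn
  exact tv_abs (kernel n) (realizations d) hd (24 * (n:ℝ) ^ 2 * (n.choose 4 : ℝ)) hC1 hsym
    kernel_nonneg hrow hclosed kernel_lazy hgap (2 * n ^ 8) hnum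

end Switch

section Package

/-- **Package TV of the S0453 plan.** -/
theorem pkg_TV : Crest.Agent.LibS0453.PkgTV := by
  intro hker n hn d hd hP
  obtain ⟨hsym, hrow, hoff, _hlazy, hdeg, _hadjsym, _hirr⟩ := hker
  refine tv_of_gap n hn d hd (hsym n hn) (fun E _ => hrow n hn E) ?_ hP
  intro E hE E' hE'
  have hne : E ≠ E' := fun e => hE' (e ▸ hE)
  rw [hoff n hn E E' hne]
  have hnot : ¬ Crest.Agent.LibS0453.Adj E E' := by
    intro hadj
    apply hE'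
    rw [realizations, Finset.mem_filter] at hE ⊢
    refine ⟨Finset.mem_univ _, fun v => ?_⟩
    rw [hdeg n E E' hadj v]
    exact hE.2 v
  simp [Crest.Agent.LibS0453.sw, hnot]

end Package

end Crest.Agent.S0453TVh3
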