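import Crest.Agent.Lib_S0453_ASM_h24

/-!
# S0453 (row 299): single-vertex form of the induction step

Board topic `deep`, posts #1180, #1197, #1199 (helper1, helper14, helper7): instead of the block
inequality `QAt n 4` summed over all vertices, it is enough to have, for every degree vector, ONE
vertex `v` (which may depend on the degree vector) with

  `Var(E[f | star of v]) ≤ κ · (1/|Ω|) ∑_{switch edges changing the star of v} (Δf)²`
  `                       + ε · E[Var(f | star of v)]`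

(`VtxAt n κ ε`, in unnormalised pair form).  By the law of total variance and package `FIB`,
`GapAt m T` and `VtxAt (m+1) κ ε` give `GapAt (m+1) (max ((1+ε) T) κ)` — a maximum, not a
product.  In particular `VtxAt n (2 n²) 0` for all `n ≥ 5` gives `GapAt n (2 n²)` and hence the
statement of S0453 (`goal_of_vtx`).  Nothing here proves `VtxAt`; this file is glue only.
-/

set_option autoImplicit false

namespace Crest.Agent.S0453VTXh24

open Finset Crest.SwitchChain Crest.Agent.LibS0453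

/-- single-vertex block inequality on `n` vertices with constants `κ`, `ε`: for every degree
vector there is a vertex `v` such that for all `f`
`2|Ω|² Var(E[f | star v]) ≤ κ |Ω| · (energy of the switches changing the star of v)
   + ε |Ω| · fibSum v`. -/
def VtxAt (n : ℕ) (κ ε : ℝ) : Prop :=
  ∀ d : Fin n → ℕ, ∃ v : Fin n, ∀ f : Gr n → ℝ,
    pairVar (realizations d) f - ((realizations d).card : ℝ) * fibSum v (realizations d) f ≤
      κ * ((realizations d).card : ℝ) *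
          (energy (realizations d) f - energyFix v (realizations d) f) +
        ε * ((realizations d).card : ℝ) * fibSum v (realizations d) f

lemma energyFix_nonneg {n : ℕ} (v : Fin n) (Ω : Finset (Gr n)) (f : Gr n → ℝ) :
    0 ≤ energyFix v Ω f := by
  unfold energyFix
  refine Finset.sum_nonneg fun G _ => Finset.sum_nonneg fun G' _ => ?_
  split_ifs
  · exact mul_nonneg (Crest.Agent.S0453ASMh24.sw_nonneg G G') (sq_nonneg _)
  · exact le_rfl

lemma energyFix_le_energy {n : ℕ} (v : Fin n) (Ω : Finset (Gr n)) (f : Gr n → ℝ) :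
    energyFix v Ω f ≤ energy Ω f := by
  unfold energyFix energy
  refine Finset.sum_le_sum fun G _ => Finset.sum_le_sum fun G' _ => ?_
  split_ifs
  · exact le_rfl
  · exact mul_nonneg (Crest.Agent.S0453ASMh24.sw_nonneg G G') (sq_nonneg _)

/-- the single-vertex induction step: a maximum of the two constants. -/
theorem gap_succ_of_vtx (hF : PkgFIB) (m : ℕ) (T κ ε : ℝ) (hT : 0 ≤ T) (hε : 0 ≤ ε)
    (hgap : GapAt m T) (hv : VtxAt (m + 1) κ ε) :
    GapAt (m + 1) (max ((1 + ε) * T) κ) := by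
  intro d f
  obtain ⟨v, hv⟩ := hv d
  have h1 := hv f
  have h2 := hF m T hT hgap d v f
  have h3 := energyFix_nonneg v (realizations d) f
  have h4 := energyFix_le_energy v (realizations d) f
  set Ω := realizations d with hΩ
  set N : ℝ := (Ω.card : ℝ) with hN
  have hN0 : 0 ≤ N := Nat.cast_nonneg _
  set M : ℝ := max ((1 + ε) * T) κ with hM
  have hM1 : (1 + ε) * T ≤ M := le_max_left _ _
  have hM2 : κ ≤ M := le_max_right _ _
  set A := fibSum v Ω f with hA
  set EF := energyFix v Ω f with hEF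
  set E := energy Ω f with hE
  -- pairVar ≤ (1+ε) N A + κ N (E - EF)
  have e1 : pairVar Ω f ≤ (1 + ε) * (N * A) + κ * (N * (E - EF)) := by linarith
  have e2 : N * A ≤ N * (T * EF) := mul_le_mul_of_nonneg_left h2 hN0
  have e3 : (1 + ε) * (N * A) ≤ (1 + ε) * (N * (T * EF)) :=
    mul_le_mul_of_nonneg_left e2 (by linarith)
  have e4 : (1 + ε) * (N * (T * EF)) ≤ M * (N * EF) := by
    have : (1 + ε) * T * (N * EF) ≤ M * (N * EF) :=
      mul_le_mul_of_nonneg_right hM1 (mul_nonneg hN0 h3)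
    linarith [this]
  have e5 : κ * (N * (E - EF)) ≤ M * (N * (E - EF)) :=
    mul_le_mul_of_nonneg_right hM2 (mul_nonneg hN0 (by linarith))
  have e6 : M * (N * EF) + M * (N * (E - EF)) = M * N * E := by ring
  linarith

/-- `VtxAt n (2 n²) 0` for all `n ≥ 5` (and the packages `BASE`, `FIB`) give `GapAt n (2 n²)`
for all `n ≥ 4`. -/
theorem gap_of_vtx (hB : PkgBASE) (hF : PkgFIB)
    (hV : ∀ n : ℕ, 5 ≤ n → VtxAt n (2 * (n : ℝ) ^ 2) 0) :
    ∀ n : ℕ, 4 ≤ n → GapAt n (2 * (n : ℝ) ^ 2) := by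
  intro n hn
  induction n, hn using Nat.le_induction with
  | base =>
    exact Crest.Agent.S0453ASMh24.gapAt_mono (by norm_num) hB
  | succ m hm ih =>
    have h := gap_succ_of_vtx hF m (2 * (m : ℝ) ^ 2) (2 * ((m + 1 : ℕ) : ℝ) ^ 2) 0
      (by positivity) le_rfl ih (hV (m + 1) (by omega))
    refine Crest.Agent.S0453ASMh24.gapAt_mono ?_ h
    have hm0 : (0 : ℝ) ≤ (m : ℝ) := Nat.cast_nonneg _
    push_cast
    refine max_le ?_ le_rfl
    nlinarith

/-- variant with a within-fibre term: `VtxAt n κ ε` with `κ ≤ 2 n²` and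
`(1 + ε) · 2 (n-1)² ≤ 2 n²` for all `n ≥ 5` is enough. -/
theorem gap_of_vtx' (hB : PkgBASE) (hF : PkgFIB) (κ ε : ℕ → ℝ)
    (hε : ∀ n : ℕ, 5 ≤ n → 0 ≤ ε n)
    (hκ : ∀ n : ℕ, 5 ≤ n → κ n ≤ 2 * (n : ℝ) ^ 2)
    (hεb : ∀ n : ℕ, 5 ≤ n → (1 + ε n) * (2 * ((n : ℝ) - 1) ^ 2) ≤ 2 * (n : ℝ) ^ 2)
    (hV : ∀ n : ℕ, 5 ≤ n → VtxAt n (κ n) (ε n)) :
    ∀ n : ℕ, 4 ≤ n → GapAt n (2 * (n : ℝ) ^ 2) := by
  intro n hn
  induction n, hn using Nat.le_induction with
  | base =>
    exact Crest.Agent.S0453ASMh24.gapAt_mono (by norm_num) hB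
  | succ m hm ih =>
    have hm5 : 5 ≤ m + 1 := by omega
    have h := gap_succ_of_vtx hF m (2 * (m : ℝ) ^ 2) (κ (m + 1)) (ε (m + 1))
      (by positivity) (hε _ hm5) ih (hV (m + 1) hm5)
    refine Crest.Agent.S0453ASMh24.gapAt_mono ?_ h
    have h1 := hεb (m + 1) hm5
    have h2 := hκ (m + 1) hm5
    push_cast at h1 h2 ⊢
    refine max_le ?_ h2
    have : ((m : ℝ) + 1 - 1) = (m : ℝ) := by ring
    rw [this] at h1
    exact h1

/-- the statement of S0453 from the packages and the single-vertex inequality. -/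
theorem goal_of_vtx (hK : PkgKER) (hD : PkgDIR) (hTV : PkgTV) (hB : PkgBASE) (hF : PkgFIB)
    (hV : ∀ n : ℕ, 5 ≤ n → VtxAt n (2 * (n : ℝ) ^ 2) 0) : Goal :=
  Crest.Agent.S0453ASMh24.goal_of_gap hK hD hTV fun n hn =>
    ⟨2 * (n : ℝ) ^ 2, le_rfl, gap_of_vtx hB hF hV n hn⟩

/-- same with a within-fibre term. -/
theorem goal_of_vtx' (hK : PkgKER) (hD : PkgDIR) (hTV : PkgTV) (hB : PkgBASE) (hF : PkgFIB)
    (κ ε : ℕ → ℝ) (hε : ∀ n : ℕ, 5 ≤ n → 0 ≤ ε n)
    (hκ : ∀ n : ℕ, 5 ≤ n → κ n ≤ 2 * (n : ℝ) ^ 2)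
    (hεb : ∀ n : ℕ, 5 ≤ n → (1 + ε n) * (2 * ((n : ℝ) - 1) ^ 2) ≤ 2 * (n : ℝ) ^ 2)
    (hV : ∀ n : ℕ, 5 ≤ n → VtxAt n (κ n) (ε n)) : Goal :=
  Crest.Agent.S0453ASMh24.goal_of_gap hK hD hTV fun n hn =>
    ⟨2 * (n : ℝ) ^ 2, le_rfl, gap_of_vtx' hB hF κ ε hε hκ hεb hV n hn⟩

end Crest.Agent.S0453VTXh24
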