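import Mathlib

set_option autoImplicit false
open MeasureTheory
open scoped ENNReal

namespace Crest.Agent.Lib_helper18_Area

abbrev E3 := EuclideanSpace ℝ (Fin 3)
abbrev E2 := EuclideanSpace ℝ (Fin 2)

section General

variable {V : Type*} [NormedAddCommGroup V] [InnerProductSpace ℝ V]

/-- Gram determinant of two vectors. -/
noncomputable def gram2 (a b : V) : ℝ := ‖a‖ ^ 2 * ‖b‖ ^ 2 - (inner ℝ a b) ^ 2

lemma gram2_nonneg (a b : V) : 0 ≤ gram2 a b := by
  unfold gram2
  have h := abs_real_inner_le_norm a b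
  have h2 : (inner ℝ a b) ^ 2 ≤ (‖a‖ * ‖b‖) ^ 2 := by
    rw [← sq_abs (inner ℝ a b)]
    exact pow_le_pow_left₀ (abs_nonneg _) h 2
  nlinarith

lemma gram2_zero_right (a : V) : gram2 a 0 = 0 := by simp [gram2]

lemma gram2_comm (a b : V) : gram2 a b = gram2 b a := by
  unfold gram2; rw [real_inner_comm]; ring

/-- The linear map `E2 → V` sending the standard basis to `a, b`. -/
noncomputable def lin2 (a b : V) : E2 →ₗ[ℝ] V :=
  (EuclideanSpace.proj (0 : Fin 2) : E2 →L[ℝ] ℝ).toLinearMap.smulRight a +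
    (EuclideanSpace.proj (1 : Fin 2) : E2 →L[ℝ] ℝ).toLinearMap.smulRight b

lemma lin2_apply (a b : V) (x : E2) : lin2 a b x = x 0 • a + x 1 • b := by
  simp [lin2]

lemma normDet_lin2 (a b : V) : (lin2 a b).normDet = Real.sqrt (gram2 a b) := by
  have h := LinearMap.normDet_sq_eq_det_gram (lin2 a b) (EuclideanSpace.basisFun (Fin 2) ℝ)
  have h0 : lin2 a b (EuclideanSpace.basisFun (Fin 2) ℝ 0) = a := by
    simp [lin2_apply]
  have h1 : lin2 a b (EuclideanSpace.basisFun (Fin 2) ℝ 1) = b := by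
    simp [lin2_apply]
  rw [Matrix.det_fin_two] at h
  simp only [Matrix.gram_apply, h0, h1] at h
  have h' : (lin2 a b).normDet ^ 2 = gram2 a b := by
    unfold gram2
    have e1 : inner ℝ a a = ‖a‖ ^ 2 := real_inner_self_eq_norm_sq a
    have e2 : inner ℝ b b = ‖b‖ ^ 2 := real_inner_self_eq_norm_sq b
    have e3 : inner ℝ b a = inner ℝ a b := real_inner_comm _ _
    simp only [RCLike.ofReal_real_eq_id, id_eq] at h
    rw [h, e1, e2, e3]; ring
  rw [← h', Real.sqrt_sq (LinearMap.normDet_nonneg _)]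

end General

section Measure

variable {V : Type*} [NormedAddCommGroup V] [InnerProductSpace ℝ V] [MeasurableSpace V] [BorelSpace V]

/-- The (closed) parallelogram `c + [0,1] a + [0,1] b`. -/
def para (c a b : V) : Set V :=
  {x | ∃ s ∈ Set.Icc (0 : ℝ) 1, ∃ t ∈ Set.Icc (0 : ℝ) 1, x = c + s • a + t • b}

lemma para_eq_image (c a b : V) :
    para c a b = (fun x => c + x) '' (lin2 a b '' parallelepiped (EuclideanSpace.basisFun (Fin 2) ℝ)) := by
  ext x
  simp only [para, Set.mem_setOf_eq, Set.mem_image, parallelepiped, Set.mem_Icc, Fin.sum_univ_two]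
  constructor
  · rintro ⟨s, hs, t, ht, rfl⟩
    refine ⟨s • a + t • b, ⟨s • EuclideanSpace.basisFun (Fin 2) ℝ 0 + t • EuclideanSpace.basisFun (Fin 2) ℝ 1,
      ⟨![s, t], ⟨?_, ?_⟩, by simp⟩, ?_⟩, by abel⟩
    · intro i; fin_cases i <;> simp [hs.1, ht.1]
    · intro i; fin_cases i <;> simp [hs.2, ht.2]
    · simp [lin2_apply]
  · rintro ⟨y, ⟨z, ⟨t, ⟨h0, h1⟩, rfl⟩, rfl⟩, rfl⟩
    refine ⟨t 0, ⟨h0 0, h1 0⟩, t 1, ⟨h0 1, h1 1⟩, ?_⟩
    simp [lin2_apply, add_assoc]

theorem area_para (c a b : V) : μHE[2] (para c a b) = ENNReal.ofReal (Real.sqrt (gram2 a b)) := by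
  rw [para_eq_image, (isometry_add_left c).euclideanHausdorffMeasure_image]
  have h := LinearMap.euclideanHausdorffMeasure_image_eq_normDet_mul_volume (lin2 a b)
    (parallelepiped (EuclideanSpace.basisFun (Fin 2) ℝ))
  rw [finrank_euclideanSpace_fin, OrthonormalBasis.volume_parallelepiped, mul_one, normDet_lin2] at h
  exact h

end Measure

section Triangle

variable {V : Type*} [NormedAddCommGroup V] [InnerProductSpace ℝ V]

/-- Parametric description of a closed triangle. -/
def triP (p a b : V) : Set V :=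
  {x | ∃ s t : ℝ, 0 ≤ s ∧ 0 ≤ t ∧ s + t ≤ 1 ∧ x = p + s • a + t • b}

lemma convex_triP (p a b : V) : Convex ℝ (triP p a b) := by
  rintro x ⟨s₁, t₁, hs₁, ht₁, hst₁, rfl⟩ y ⟨s₂, t₂, hs₂, ht₂, hst₂, rfl⟩ α β hα hβ hαβ
  refine ⟨α * s₁ + β * s₂, α * t₁ + β * t₂, by positivity, by positivity, ?_, ?_⟩
  · calc α * s₁ + β * s₂ + (α * t₁ + β * t₂) = α * (s₁ + t₁) + β * (s₂ + t₂) := by ring
      _ ≤ α * 1 + β * 1 := by gcongr
      _ = 1 := by linarith
  · have : β = 1 - α := by linarith
    subst this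
    simp only [smul_add, smul_smul, add_smul, sub_smul, one_smul]
    abel

lemma convexHull_three (p q r : V) : convexHull ℝ {p, q, r} = triP p (q - p) (r - p) := by
  apply Set.Subset.antisymm
  · apply convexHull_min _ (convex_triP _ _ _)
    intro x hx
    simp only [Set.mem_insert_iff, Set.mem_singleton_iff] at hx
    rcases hx with rfl | rfl | rfl
    · exact ⟨0, 0, le_refl _, le_refl _, by norm_num, by simp⟩
    · exact ⟨1, 0, by norm_num, le_refl _, by norm_num, by simp⟩
    · exact ⟨0, 1, le_refl _, by norm_num, by norm_num, by simp⟩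
  · rintro x ⟨s, t, hs, ht, hst, rfl⟩
    have hC := convex_convexHull ℝ ({p, q, r} : Set V)
    have hp : p ∈ convexHull ℝ ({p, q, r} : Set V) := subset_convexHull ℝ _ (by simp)
    have hq : q ∈ convexHull ℝ ({p, q, r} : Set V) := subset_convexHull ℝ _ (by simp)
    have hr : r ∈ convexHull ℝ ({p, q, r} : Set V) := subset_convexHull ℝ _ (by simp)
    have := hC.sum_mem (t := Finset.univ) (w := ![1 - s - t, s, t]) (z := ![p, q, r])
      (by intro i _; fin_cases i <;> simp <;> linarith)
      (by simp [Fin.sum_univ_three]; ring)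
      (by intro i _; fin_cases i <;> simp [hp, hq, hr])
    simp only [Fin.sum_univ_three, Matrix.cons_val_zero, Matrix.cons_val_one, Matrix.cons_val_two,
      Matrix.head_cons, Matrix.tail_cons] at this
    convert this using 1
    simp only [smul_sub, sub_smul, one_smul]
    abel

end Triangle

section TriArea

variable {V : Type*} [NormedAddCommGroup V] [InnerProductSpace ℝ V]

lemma triP_subset_para (p a b : V) : triP p a b ⊆ para p a b := by
  rintro x ⟨s, t, hs, ht, hst, rfl⟩
  exact ⟨s, ⟨hs, by linarith⟩, t, ⟨ht, by linarith⟩, rfl⟩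

lemma para_subset_union (p a b : V) :
    para p a b ⊆ triP p a b ∪ (fun x => (p + a + b + p) - x) '' triP p a b := by
  rintro x ⟨s, hs, t, ht, rfl⟩
  by_cases h : s + t ≤ 1
  · left; exact ⟨s, t, hs.1, ht.1, h, rfl⟩
  · right
    refine ⟨p + (1 - s) • a + (1 - t) • b,
      ⟨1 - s, 1 - t, by linarith [hs.2], by linarith [ht.2], by linarith, rfl⟩, ?_⟩
    simp only [sub_smul, one_smul]; abel

lemma refl_subset_para (p a b : V) :
    (fun x => (p + a + b + p) - x) '' triP p a b ⊆ para p a b := by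
  rintro _ ⟨_, ⟨s, t, hs, ht, hst, rfl⟩, rfl⟩
  refine ⟨1 - s, ⟨by linarith, by linarith⟩, 1 - t, ⟨by linarith, by linarith⟩, ?_⟩
  simp only [sub_smul, one_smul]; abel

lemma eq_zero_of_gram2_pos {a b : V} (h : 0 < gram2 a b) {α β : ℝ} (h0 : α • a + β • b = 0) :
    α = 0 ∧ β = 0 := by
  have ha : inner ℝ (α • a + β • b) a = 0 := by rw [h0]; simp
  have hb : inner ℝ (α • a + β • b) b = 0 := by rw [h0]; simp
  rw [inner_add_left, inner_smul_left, inner_smul_left] at ha hb
  simp only [conj_trivial] at ha hb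
  rw [real_inner_self_eq_norm_sq] at ha hb
  rw [real_inner_comm a b] at ha
  unfold gram2 at h
  have h1 : α * (‖a‖ ^ 2 * ‖b‖ ^ 2 - inner ℝ a b ^ 2) = 0 := by
    linear_combination ‖b‖ ^ 2 * ha - inner ℝ a b * hb
  have h2 : β * (‖a‖ ^ 2 * ‖b‖ ^ 2 - inner ℝ a b ^ 2) = 0 := by
    linear_combination ‖a‖ ^ 2 * hb - inner ℝ a b * ha
  exact ⟨by rcases mul_eq_zero.1 h1 with h | h <;> [exact h; linarith],
    by rcases mul_eq_zero.1 h2 with h | h <;> [exact h; linarith]⟩

lemma triP_inter_refl_subset (p a b : V) (h : 0 < gram2 a b) :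
    triP p a b ∩ (fun x => (p + a + b + p) - x) '' triP p a b ⊆ para (p + b) (a - b) 0 := by
  rintro x ⟨⟨s, t, hs, ht, hst, rfl⟩, ⟨_, ⟨s', t', hs', ht', hst', rfl⟩, hx⟩⟩
  have h0 : (s + s' - 1) • a + (t + t' - 1) • b = 0 := by
    have : p + s • a + t • b - (p + a + b + p - (p + s' • a + t' • b)) = 0 := by
      rw [← hx]; simp
    rw [← this]
    simp only [sub_smul, add_smul, one_smul]; abel
  obtain ⟨h1, h2⟩ := eq_zero_of_gram2_pos h h0
  have hst1 : t = 1 - s := by linarith
  subst hst1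
  refine ⟨s, ⟨hs, by linarith⟩, 0, ⟨le_refl _, by norm_num⟩, ?_⟩
  simp only [sub_smul, one_smul, smul_sub, smul_zero, add_zero]; abel

variable [MeasurableSpace V] [BorelSpace V]

lemma measurableSet_triP (p a b : V) : MeasurableSet (triP p a b) := by
  have h : triP p a b = convexHull ℝ {p, p + a, p + b} := by
    rw [convexHull_three]; simp
  rw [h]
  exact (Set.Finite.isCompact_convexHull (𝕜 := ℝ) (Set.toFinite _)).isClosed.measurableSet

theorem area_triP (p a b : V) :
    μHE[2] (triP p a b) = ENNReal.ofReal (Real.sqrt (gram2 a b) / 2) := by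
  set T := triP p a b with hT
  set T' := (fun x => (p + a + b + p) - x) '' triP p a b with hT'
  have hiso : Isometry (fun x : V => (p + a + b + p) - x) := (IsometryEquiv.subLeft _).isometry
  have hT'm : μHE[2] T' = μHE[2] T := hiso.euclideanHausdorffMeasure_image _
  have hpara := area_para p a b
  rcases (gram2_nonneg a b).eq_or_lt with h0 | hpos
  · have : μHE[2] T ≤ 0 := by
      calc μHE[2] T ≤ μHE[2] (para p a b) := measure_mono (triP_subset_para p a b)
        _ = 0 := by rw [hpara, ← h0]; simp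
    rw [le_antisymm this zero_le, ← h0]; simp
  · have hinter : μHE[2] (T ∩ T') = 0 := by
      apply le_antisymm _ zero_le
      calc μHE[2] (T ∩ T') ≤ μHE[2] (para (p + b) (a - b) 0) :=
            measure_mono (triP_inter_refl_subset p a b hpos)
        _ = 0 := by rw [area_para, gram2_zero_right]; simp
    have hunion : μHE[2] (T ∪ T') = μHE[2] (para p a b) := by
      apply le_antisymm
      · exact measure_mono (Set.union_subset (triP_subset_para p a b) (refl_subset_para p a b))
      · exact measure_mono (para_subset_union p a b)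
    have hsum := measure_union_add_inter (μ := (μHE[2] : Measure V)) T' (measurableSet_triP p a b)
    rw [Set.union_comm, Set.inter_comm] at hsum
    rw [hunion, hinter, hT'm, add_zero, hpara] at hsum
    have h2 : (2 : ℝ≥0∞) * μHE[2] T = 2 * ENNReal.ofReal (Real.sqrt (gram2 a b) / 2) := by
      rw [two_mul, ← hsum, two_mul, ← ENNReal.ofReal_add (by positivity) (by positivity)]
      congr 1; ring
    exact (ENNReal.mul_right_inj (by norm_num) (by norm_num)).1 h2

theorem area_tri (p q r : V) :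
    μHE[2] (convexHull ℝ {p, q, r}) = ENNReal.ofReal (Real.sqrt (gram2 (q - p) (r - p)) / 2) := by
  rw [convexHull_three, area_triP]

end TriArea

section Shapes

variable {V : Type*} [NormedAddCommGroup V] [InnerProductSpace ℝ V] [MeasurableSpace V] [BorelSpace V]

/-- Parallelogram area, stated with the set literally as in the row 211 statements. -/
theorem area_parallelogram (c a b : V) :
    μHE[2] {x : V | ∃ s ∈ Set.Icc (0 : ℝ) 1, ∃ t ∈ Set.Icc (0 : ℝ) 1, x = c + s • a + t • b} =
      ENNReal.ofReal (Real.sqrt (‖a‖ ^ 2 * ‖b‖ ^ 2 - inner ℝ a b ^ 2)) :=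
  area_para c a b

/-- Triangle area, fully unfolded shape. -/
theorem area_triangle (p q r : V) :
    μHE[2] (convexHull ℝ {p, q, r}) =
      ENNReal.ofReal (Real.sqrt (‖q - p‖ ^ 2 * ‖r - p‖ ^ 2 - inner ℝ (q - p) (r - p) ^ 2) / 2) :=
  area_tri p q r

theorem area_triangle_lt_top (p q r : V) : μHE[2] (convexHull ℝ {p, q, r}) < ⊤ := by
  rw [area_tri]; exact ENNReal.ofReal_lt_top

theorem area_triangle_toReal (p q r : V) :
    (μHE[2] (convexHull ℝ {p, q, r})).toReal = Real.sqrt (gram2 (q - p) (r - p)) / 2 := by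
  rw [area_tri, ENNReal.toReal_ofReal (by positivity)]

theorem area_para_toReal (c a b : V) :
    (μHE[2] (para c a b)).toReal = Real.sqrt (gram2 a b) := by
  rw [area_para, ENNReal.toReal_ofReal (Real.sqrt_nonneg _)]

end Shapes

end Crest.Agent.Lib_helper18_Area
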