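import Mathlib
import Crest.Agent.Lib_helper18_Area

set_option autoImplicit false
open MeasureTheory
open scoped ENNReal

/-!
Reduction of the three-dimensional cylinder cover of the ruled set (statement S0329) to the planar
square-tile cover (statement S0326) and the parallelogram area formula.
-/

namespace Crest.Agent.Lib_helper10_Ruled

abbrev E2 := EuclideanSpace ℝ (Fin 2)
abbrev E3 := EuclideanSpace ℝ (Fin 3)

theorem inner3 (x y : E3) : inner ℝ x y = x 0 * y 0 + x 1 * y 1 + x 2 * y 2 := by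
  simp [PiLp.inner_apply, Fin.sum_univ_three]
  ring

theorem inner2 (x y : E2) : inner ℝ x y = x 0 * y 0 + x 1 * y 1 := by
  simp [PiLp.inner_apply, Fin.sum_univ_two]
  ring

theorem normsq2 (x : E2) : ‖x‖ ^ 2 = x 0 ^ 2 + x 1 ^ 2 := by
  rw [EuclideanSpace.real_norm_sq_eq, Fin.sum_univ_two]

theorem normsq3 (x : E3) : ‖x‖ ^ 2 = x 0 ^ 2 + x 1 ^ 2 + x 2 ^ 2 := by
  rw [EuclideanSpace.real_norm_sq_eq, Fin.sum_univ_three]

theorem ext3 (x y : E3) (h0 : x 0 = y 0) (h1 : x 1 = y 1) (h2 : x 2 = y 2) : x = y := by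
  ext i
  fin_cases i <;> simp [h0, h1, h2]

/-- The squared length `1 + g₀² + h² g₁²` of the ruling direction. -/
noncomputable def NN (h : ℝ) (g : E2) : ℝ := 1 + (g 0) ^ 2 + h ^ 2 * (g 1) ^ 2

theorem NN_pos (h : ℝ) (g : E2) : 0 < NN h g := by
  unfold NN; positivity

/-- The ruling direction `(1, g₀, h g₁)`. -/
noncomputable def dvec (h : ℝ) (g : E2) : E3 := !₂[1, g 0, h * g 1]

theorem norm_dvec (h : ℝ) (g : E2) : ‖dvec h g‖ = Real.sqrt (NN h g) := by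
  rw [← Real.sqrt_sq (norm_nonneg (dvec h g)), normsq3]
  congr 1
  simp [dvec, NN]
  ring

/-- The unit ruling direction. -/
noncomputable def uvec (h : ℝ) (g : E2) : E3 := (Real.sqrt (NN h g))⁻¹ • dvec h g

theorem sqrtNN_pos (h : ℝ) (g : E2) : 0 < Real.sqrt (NN h g) := Real.sqrt_pos.mpr (NN_pos h g)

theorem norm_uvec (h : ℝ) (g : E2) : ‖uvec h g‖ = 1 := by
  rw [uvec, norm_smul, norm_dvec, norm_inv, Real.norm_of_nonneg (Real.sqrt_nonneg _)]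
  exact inv_mul_cancel₀ (sqrtNN_pos h g).ne'

theorem inner_uvec (h : ℝ) (g : E2) (z : E3) :
    inner ℝ z (uvec h g) = (Real.sqrt (NN h g))⁻¹ * inner ℝ z (dvec h g) := by
  rw [uvec, inner_smul_right]

theorem inner_uvec_eq_zero_iff (h : ℝ) (g : E2) (z : E3) :
    inner ℝ z (uvec h g) = 0 ↔ z 0 + z 1 * g 0 + z 2 * (h * g 1) = 0 := by
  rw [inner_uvec, mul_eq_zero, inner3]
  have := (sqrtNN_pos h g).ne'
  simp [dvec, this]

/-- `pp h g t = ⟪(0, t₀, h t₁), (1, g₀, h g₁)⟫`. -/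
noncomputable def pp (h : ℝ) (g t : E2) : ℝ := t 0 * g 0 + h ^ 2 * t 1 * g 1

/-- The orthogonal projection of `(0, t₀, h t₁)` onto the plane orthogonal to `(1, g₀, h g₁)`. -/
noncomputable def FF (h : ℝ) (g t : E2) : E3 :=
  !₂[-pp h g t / NN h g, t 0 - pp h g t * g 0 / NN h g,
    h * t 1 - pp h g t * (h * g 1) / NN h g]

theorem inner_FF_uvec (h : ℝ) (g t : E2) : inner ℝ (FF h g t) (uvec h g) = 0 := by
  rw [inner_uvec_eq_zero_iff]
  have hN := (NN_pos h g).ne'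
  simp only [FF, PiLp.toLp_apply, Matrix.cons_val_zero, Matrix.cons_val_one, Matrix.cons_val]
  field_simp
  unfold NN pp
  ring

theorem FF_lin (h : ℝ) (g c a b : E2) (x y : ℝ) :
    FF h g (c + x • a + y • b) = FF h g c + x • FF h g a + y • FF h g b := by
  have hN := (NN_pos h g).ne'
  apply ext3 <;> simp [FF, pp] <;> field_simp <;> ring

/-- The ruled point is the projected point plus a multiple of the unit direction. -/
theorem cover_eq (h : ℝ) (g t : E2) (x : ℝ) :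
    (!₂[x, (t + x • g) 0, h * (t + x • g) 1] : E3) =
      FF h g t + (Real.sqrt (NN h g) * (x + pp h g t / NN h g)) • uvec h g := by
  have hN := (NN_pos h g).ne'
  have hs := (sqrtNN_pos h g).ne'
  have hu : (Real.sqrt (NN h g) * (x + pp h g t / NN h g)) • uvec h g =
      (x + pp h g t / NN h g) • dvec h g := by
    rw [uvec, smul_smul, mul_right_comm, mul_inv_cancel₀ hs, one_mul]
  rw [hu]
  apply ext3 <;> simp [FF, dvec] <;> field_simp <;> ring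

/-- Coordinate of a point of `ℝ³` along `a`, after removing the ruling direction and `c`. -/
noncomputable def fx (h : ℝ) (c a g : E2) (z : E3) : ℝ :=
  ((z 1 - z 0 * g 0 - c 0) * a 0 + (z 2 / h - z 0 * g 1 - c 1) * a 1) / (a 0 ^ 2 + a 1 ^ 2)

theorem continuous_fx (h : ℝ) (c a g : E2) : Continuous (fx h c a g) := by
  unfold fx
  fun_prop

theorem fx_FF (h : ℝ) (hh : h ≠ 0) (c a b g : E2) (ha : a 0 ^ 2 + a 1 ^ 2 ≠ 0)
    (hab : a 0 * b 0 + a 1 * b 1 = 0) (s t : ℝ) :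
    fx h c a g (FF h g (c + s • a + t • b)) = s := by
  have hN := (NN_pos h g).ne'
  have e1 : (FF h g (c + s • a + t • b)) 1 - (FF h g (c + s • a + t • b)) 0 * g 0 - c 0 =
      s * a 0 + t * b 0 := by
    simp [FF]; field_simp; ring
  have e2 : (FF h g (c + s • a + t • b)) 2 / h - (FF h g (c + s • a + t • b)) 0 * g 1 - c 1 =
      s * a 1 + t * b 1 := by
    simp [FF]; field_simp; ring
  unfold fx
  rw [e1, e2, div_eq_iff ha]
  linear_combination t * hab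

theorem perp_cases_real (a0 a1 b0 b1 : ℝ) (hr : 0 < a0 ^ 2 + a1 ^ 2)
    (h1 : b0 ^ 2 + b1 ^ 2 = a0 ^ 2 + a1 ^ 2) (h2 : a0 * b0 + a1 * b1 = 0) :
    (b0 = -a1 ∧ b1 = a0) ∨ (b0 = a1 ∧ b1 = -a0) := by
  have h3 : (a0 * b1 - a1 * b0) ^ 2 = (a0 ^ 2 + a1 ^ 2) ^ 2 := by
    linear_combination (a0 ^ 2 + a1 ^ 2) * h1 - (a0 * b0 + a1 * b1) * h2
  rcases sq_eq_sq_iff_eq_or_eq_neg.mp h3 with h4 | h4
  · left
    constructor
    · have : (a0 ^ 2 + a1 ^ 2) * (b0 + a1) = 0 := by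
        linear_combination a0 * h2 - a1 * h4
      rcases mul_eq_zero.mp this with h5 | h5
      · exact absurd h5 hr.ne'
      · linarith
    · have : (a0 ^ 2 + a1 ^ 2) * (b1 - a0) = 0 := by
        linear_combination a1 * h2 + a0 * h4
      rcases mul_eq_zero.mp this with h5 | h5
      · exact absurd h5 hr.ne'
      · linarith
  · right
    constructor
    · have : (a0 ^ 2 + a1 ^ 2) * (b0 - a1) = 0 := by
        linear_combination a0 * h2 - a1 * h4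
      rcases mul_eq_zero.mp this with h5 | h5
      · exact absurd h5 hr.ne'
      · linarith
    · have : (a0 ^ 2 + a1 ^ 2) * (b1 + a0) = 0 := by
        linear_combination a1 * h2 + a0 * h4
      rcases mul_eq_zero.mp this with h5 | h5
      · exact absurd h5 hr.ne'
      · linarith

/-- Decomposition of a planar vector along an orthogonal frame of equal lengths. -/
theorem decomp2 (a0 a1 b0 b1 w0 w1 : ℝ) (hr : 0 < a0 ^ 2 + a1 ^ 2)
    (h1 : b0 ^ 2 + b1 ^ 2 = a0 ^ 2 + a1 ^ 2) (h2 : a0 * b0 + a1 * b1 = 0) :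
    (w0 * a0 + w1 * a1) / (a0 ^ 2 + a1 ^ 2) * a0 + (w0 * b0 + w1 * b1) / (b0 ^ 2 + b1 ^ 2) * b0
        = w0 ∧
      (w0 * a0 + w1 * a1) / (a0 ^ 2 + a1 ^ 2) * a1 + (w0 * b0 + w1 * b1) / (b0 ^ 2 + b1 ^ 2) * b1
        = w1 := by
  have hr' := hr.ne'
  rw [h1]
  rcases perp_cases_real a0 a1 b0 b1 hr h1 h2 with ⟨rfl, rfl⟩ | ⟨rfl, rfl⟩
  · constructor <;> field_simp <;> ring
  · constructor <;> field_simp <;> ring

/-- A point of the plane orthogonal to the ruling direction is the projection of the planar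
point with coordinates `fx … a`, `fx … b` with respect to the orthogonal frame `a, b` at `c`. -/
theorem decomp (h : ℝ) (hh : h ≠ 0) (c a b g : E2) (ha : a ≠ 0) (hn : ‖b‖ = ‖a‖)
    (hab : inner ℝ a b = 0) (z : E3) (hz : inner ℝ z (uvec h g) = 0) :
    z = FF h g (c + fx h c a g z • a + fx h c b g z • b) := by
  have hN := (NN_pos h g).ne'
  have hr : 0 < a 0 ^ 2 + a 1 ^ 2 := by
    rw [← normsq2]; exact pow_pos (norm_pos_iff.mpr ha) 2
  have h1 : b 0 ^ 2 + b 1 ^ 2 = a 0 ^ 2 + a 1 ^ 2 := by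
    rw [← normsq2, ← normsq2, hn]
  have h2 : a 0 * b 0 + a 1 * b 1 = 0 := by rw [← inner2]; exact hab
  rw [inner_uvec_eq_zero_iff] at hz
  obtain ⟨d0, d1⟩ := decomp2 (a 0) (a 1) (b 0) (b 1) (z 1 - z 0 * g 0 - c 0)
    (z 2 / h - z 0 * g 1 - c 1) hr h1 h2
  have ht0 : (c + fx h c a g z • a + fx h c b g z • b) 0 = z 1 - z 0 * g 0 := by
    simp only [fx, PiLp.add_apply, PiLp.smul_apply, smul_eq_mul]
    linear_combination d0
  have ht1 : (c + fx h c a g z • a + fx h c b g z • b) 1 = z 2 / h - z 0 * g 1 := by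
    simp only [fx, PiLp.add_apply, PiLp.smul_apply, smul_eq_mul]
    linear_combination d1
  have hp : pp h g (c + fx h c a g z • a + fx h c b g z • b) = -z 0 * NN h g := by
    unfold pp NN
    rw [ht0, ht1]
    field_simp
    linear_combination hz
  apply ext3
  · simp only [FF, hp, PiLp.toLp_apply, Matrix.cons_val_zero]
    field_simp
  · simp only [FF, hp, ht0, PiLp.toLp_apply, Matrix.cons_val_one, Matrix.cons_val_zero]
    field_simp
    ring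
  · simp only [FF, hp, ht1, PiLp.toLp_apply, Matrix.cons_val]
    field_simp
    ring


theorem inner_FF (h : ℝ) (g a b : E2) :
    inner ℝ (FF h g a) (FF h g b) =
      a 0 * b 0 + h ^ 2 * (a 1 * b 1) - pp h g a * pp h g b / NN h g := by
  have hN := (NN_pos h g).ne'
  rw [inner3]
  simp only [FF, PiLp.toLp_apply, Matrix.cons_val_zero, Matrix.cons_val_one, Matrix.cons_val]
  field_simp
  unfold NN pp
  ring

theorem normsq_FF (h : ℝ) (g a : E2) :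
    ‖FF h g a‖ ^ 2 = a 0 * a 0 + h ^ 2 * (a 1 * a 1) - pp h g a * pp h g a / NN h g := by
  rw [← real_inner_self_eq_norm_sq, inner_FF]

/-- The Gram determinant of the projected frame. -/
theorem gram_FF (h : ℝ) (g a b : E2) :
    ‖FF h g a‖ ^ 2 * ‖FF h g b‖ ^ 2 - inner ℝ (FF h g a) (FF h g b) ^ 2 =
      h ^ 2 * (a 0 * b 1 - a 1 * b 0) ^ 2 / NN h g := by
  have hN := (NN_pos h g).ne'
  rw [normsq_FF, normsq_FF, inner_FF]
  field_simp
  unfold NN pp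
  ring

theorem gram_FF' (h : ℝ) (hh : 0 < h) (g a b : E2) (hn : ‖b‖ = ‖a‖) (hab : inner ℝ a b = 0) :
    Real.sqrt (‖FF h g a‖ ^ 2 * ‖FF h g b‖ ^ 2 - inner ℝ (FF h g a) (FF h g b) ^ 2) =
      h * (‖a‖ ^ 2 / Real.sqrt (NN h g)) := by
  have h1 : b 0 ^ 2 + b 1 ^ 2 = a 0 ^ 2 + a 1 ^ 2 := by
    rw [← normsq2, ← normsq2, hn]
  have h2 : a 0 * b 0 + a 1 * b 1 = 0 := by rw [← inner2]; exact hab
  have h3 : (a 0 * b 1 - a 1 * b 0) ^ 2 = (a 0 ^ 2 + a 1 ^ 2) ^ 2 := by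
    linear_combination (a 0 ^ 2 + a 1 ^ 2) * h1 - (a 0 * b 0 + a 1 * b 1) * h2
  have hs := sqrtNN_pos h g
  rw [gram_FF, h3, ← normsq2]
  have : h ^ 2 * (‖a‖ ^ 2) ^ 2 / NN h g = (h * (‖a‖ ^ 2 / Real.sqrt (NN h g))) ^ 2 := by
    rw [mul_pow, div_pow, Real.sq_sqrt (NN_pos h g).le]
    ring
  rw [this, Real.sqrt_sq]
  positivity


/-- The area bound for parallelograms in `ℝ³` (supplied by the planar-area library). -/
def AreaHyp : Prop :=
  ∀ (c a b : E3),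
    μHE[2] {x : E3 | ∃ s ∈ Set.Icc (0 : ℝ) 1, ∃ t ∈ Set.Icc (0 : ℝ) 1, x = c + s • a + t • b} ≤
      ENNReal.ofReal (Real.sqrt (‖a‖ ^ 2 * ‖b‖ ^ 2 - inner ℝ a b ^ 2))

/-- The open cylinder over the enlarged square. -/
def Oset (h θ : ℝ) (c a b g : E2) : Set E3 :=
  {z | fx h c a g z ∈ Set.Ioo (-θ) (1 + θ) ∧ fx h c b g z ∈ Set.Ioo (-θ) (1 + θ)}

theorem isOpen_Oset (h θ : ℝ) (c a b g : E2) : IsOpen (Oset h θ c a b g) := by
  have : Oset h θ c a b g =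
      fx h c a g ⁻¹' Set.Ioo (-θ) (1 + θ) ∩ fx h c b g ⁻¹' Set.Ioo (-θ) (1 + θ) := rfl
  rw [this]
  exact (isOpen_Ioo.preimage (continuous_fx h c a g)).inter
    (isOpen_Ioo.preimage (continuous_fx h c b g))

/-- The base of the cylinder: the slice of the open cylinder by the plane orthogonal to the
ruling direction. -/
def Bset (h θ : ℝ) (c a b g : E2) : Set E3 :=
  Oset h θ c a b g ∩ {x | inner ℝ x (uvec h g) = 0}

/-- A closed parallelogram containing the base. -/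
def Pset (h θ : ℝ) (c a b g : E2) : Set E3 :=
  {x : E3 | ∃ s ∈ Set.Icc (0 : ℝ) 1, ∃ t ∈ Set.Icc (0 : ℝ) 1,
    x = (FF h g c - θ • FF h g a - θ • FF h g b) + s • ((1 + 2 * θ) • FF h g a) +
      t • ((1 + 2 * θ) • FF h g b)}

theorem Bset_subset_Pset (h θ : ℝ) (hh : h ≠ 0) (hθ : 0 < θ) (c a b g : E2) (ha : a ≠ 0)
    (hn : ‖b‖ = ‖a‖) (hab : inner ℝ a b = 0) :
    Bset h θ c a b g ⊆ Pset h θ c a b g := by
  rintro z ⟨⟨⟨hx1, hx2⟩, ⟨hy1, hy2⟩⟩, hz⟩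
  have hz' := decomp h hh c a b g ha hn hab z hz
  rw [FF_lin] at hz'
  have hθ' : 0 < 1 + 2 * θ := by linarith
  refine ⟨(fx h c a g z + θ) / (1 + 2 * θ), ⟨div_nonneg (by linarith) hθ'.le, ?_⟩,
    (fx h c b g z + θ) / (1 + 2 * θ), ⟨div_nonneg (by linarith) hθ'.le, ?_⟩, ?_⟩
  · rw [div_le_one hθ']; linarith
  · rw [div_le_one hθ']; linarith
  · rw [smul_smul, smul_smul, div_mul_cancel₀ _ hθ'.ne', div_mul_cancel₀ _ hθ'.ne']
    conv_lhs => rw [hz']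
    module

theorem isBounded_Pset (h θ : ℝ) (c a b g : E2) : Bornology.IsBounded (Pset h θ c a b g) := by
  rw [isBounded_iff_forall_norm_le]
  refine ⟨‖FF h g c - θ • FF h g a - θ • FF h g b‖ + ‖(1 + 2 * θ) • FF h g a‖ +
    ‖(1 + 2 * θ) • FF h g b‖, ?_⟩
  rintro x ⟨s, ⟨hs0, hs1⟩, t, ⟨ht0, ht1⟩, rfl⟩
  refine (norm_add_le _ _).trans (add_le_add ((norm_add_le _ _).trans (add_le_add le_rfl ?_)) ?_)
  · rw [norm_smul, Real.norm_of_nonneg hs0]
    exact mul_le_of_le_one_left (norm_nonneg _) hs1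
  · rw [norm_smul, Real.norm_of_nonneg ht0]
    exact mul_le_of_le_one_left (norm_nonneg _) ht1

theorem area_Bset (harea : AreaHyp) (h θ : ℝ) (hh : 0 < h) (hθ : 0 < θ) (c a b g : E2)
    (ha : a ≠ 0) (hn : ‖b‖ = ‖a‖) (hab : inner ℝ a b = 0) :
    (μHE[2] (Bset h θ c a b g)).toReal ≤
      (1 + 2 * θ) ^ 2 * (h * (‖a‖ ^ 2 / Real.sqrt (NN h g))) := by
  have hs := sqrtNN_pos h g
  have hθ' : 0 < 1 + 2 * θ := by linarith
  apply ENNReal.toReal_le_of_le_ofReal (by positivity)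
  refine (measure_mono (Bset_subset_Pset h θ hh.ne' hθ c a b g ha hn hab)).trans
    ((harea _ _ _).trans (le_of_eq ?_))
  congr 1
  have e : ‖(1 + 2 * θ) • FF h g a‖ ^ 2 * ‖(1 + 2 * θ) • FF h g b‖ ^ 2 -
      inner ℝ ((1 + 2 * θ) • FF h g a) ((1 + 2 * θ) • FF h g b) ^ 2 =
      ((1 + 2 * θ) ^ 2) ^ 2 *
        (‖FF h g a‖ ^ 2 * ‖FF h g b‖ ^ 2 - inner ℝ (FF h g a) (FF h g b) ^ 2) := by
    rw [norm_smul, norm_smul, inner_smul_left, inner_smul_right, Real.norm_of_nonneg hθ'.le]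
    simp only [RCLike.conj_to_real]
    ring
  rw [e, Real.sqrt_mul (sq_nonneg _), Real.sqrt_sq (sq_nonneg _), gram_FF' h hh g a b hn hab]

theorem cover_Bset (h θ : ℝ) (hh : 0 < h) (hθ : 0 < θ) (c a b g : E2) (ha : a ≠ 0)
    (hn : ‖b‖ = ‖a‖) (hab : inner ℝ a b = 0) (s s' x : ℝ) (hs : s ∈ Set.Icc (0 : ℝ) 1)
    (hs' : s' ∈ Set.Icc (0 : ℝ) 1) :
    ∃ y ∈ Bset h θ c a b g, ∃ τ : ℝ,
      (!₂[x, (c + s • a + s' • b + x • g) 0, h * (c + s • a + s' • b + x • g) 1] : E3) =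
        y + τ • uvec h g := by
  have hr : a 0 ^ 2 + a 1 ^ 2 ≠ 0 := by
    rw [← normsq2]; exact (pow_pos (norm_pos_iff.mpr ha) 2).ne'
  have h1 : b 0 ^ 2 + b 1 ^ 2 = a 0 ^ 2 + a 1 ^ 2 := by
    rw [← normsq2, ← normsq2, hn]
  have h2 : a 0 * b 0 + a 1 * b 1 = 0 := by rw [← inner2]; exact hab
  refine ⟨FF h g (c + s • a + s' • b), ⟨⟨?_, ?_⟩, inner_FF_uvec h g _⟩, _, cover_eq h g _ x⟩
  · rw [fx_FF h hh.ne' c a b g hr h2 s s']
    exact ⟨by linarith [hs.1], by linarith [hs.2]⟩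
  · rw [add_right_comm c (s • a) (s' • b),
      fx_FF h hh.ne' c b a g (h1 ▸ hr) (by linear_combination h2) s' s]
    exact ⟨by linarith [hs'.1], by linarith [hs'.2]⟩


/-- The statement of the planar covering result (S0326) used as input. -/
def PlanarCover : Prop :=
  ∀ (D : Set (EuclideanSpace ℝ (Fin 2))) (_hD : IsCompact D)
    (V : EuclideanSpace ℝ (Fin 2) → EuclideanSpace ℝ (Fin 2)) (U : Set (EuclideanSpace ℝ (Fin 2)))
    (_hU : IsOpen U) (_hDU : D ⊆ U) (_hV : ContDiffOn ℝ 1 V U) (L h : ℝ) (_hL : 0 < L) (_hh : 0 < h)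
    (_htr : ∀ p ∈ D, LinearMap.trace ℝ _ (fderiv ℝ V p).toLinearMap = 0)
    (_hdet : ∀ p ∈ D, -(L ^ 2)⁻¹ < LinearMap.det (fderiv ℝ V p).toLinearMap ∧
      LinearMap.det (fderiv ℝ V p).toLinearMap ≤ 0)
    (ε : ℝ) (_hε : 0 < ε),
    ∃ (k : ℕ) (c a b g : Fin k → EuclideanSpace ℝ (Fin 2)),
      (∀ i, a i ≠ 0 ∧ ‖b i‖ = ‖a i‖ ∧ inner ℝ (a i) (b i) = 0) ∧
      {z : ℝ × EuclideanSpace ℝ (Fin 2) | ∃ p ∈ D, abs z.1 ≤ L ∧ z.2 = p + z.1 • V p} ⊆
        ⋃ i, {z : ℝ × EuclideanSpace ℝ (Fin 2) | ∃ x ∈ Set.Icc (0 : ℝ) 1, ∃ y ∈ Set.Icc (0 : ℝ) 1,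
          z.2 = c i + x • a i + y • b i + z.1 • g i} ∧
      ∑ i, ‖a i‖ ^ 2 / Real.sqrt (1 + (g i 0) ^ 2 + h ^ 2 * (g i 1) ^ 2) ≤
        (∫ p in D, 1 / Real.sqrt (1 + (V p 0) ^ 2 + h ^ 2 * (V p 1) ^ 2)) + ε

theorem of_parts (harea : AreaHyp) (H326 : PlanarCover)
    (h M : ℝ) (hh : 0 < h) (hM : 0 < M) (D : Set (EuclideanSpace ℝ (Fin 2))) (hD : IsCompact D)
    (V : EuclideanSpace ℝ (Fin 2) → EuclideanSpace ℝ (Fin 2)) (U : Set (EuclideanSpace ℝ (Fin 2)))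
    (hU : IsOpen U) (hDU : D ⊆ U) (hV : ContDiffOn ℝ 1 V U)
    (htr : ∀ p ∈ D, LinearMap.trace ℝ _ (fderiv ℝ V p).toLinearMap = 0)
    (hdet : ∀ p ∈ D, -(M ^ 2)⁻¹ < LinearMap.det (fderiv ℝ V p).toLinearMap ∧
      LinearMap.det (fderiv ℝ V p).toLinearMap < 0)
    (ε : ℝ) (hε : 0 < ε) :
    ∃ (k : ℕ) (u : Fin k → EuclideanSpace ℝ (Fin 3)) (B : Fin k → Set (EuclideanSpace ℝ (Fin 3))),
      (∀ i, ‖u i‖ = 1) ∧
      (∀ i, Bornology.IsBounded (B i) ∧ ∃ O : Set (EuclideanSpace ℝ (Fin 3)), IsOpen O ∧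
        B i = O ∩ {x | inner ℝ x (u i) = 0}) ∧
      {z : EuclideanSpace ℝ (Fin 3) | ∃ p ∈ D, ∃ x : ℝ, abs x ≤ M ∧
          z = !₂[x, p 0 + x * V p 0, h * (p 1 + x * V p 1)]} ⊆
        ⋃ i, {z : EuclideanSpace ℝ (Fin 3) | ∃ y ∈ B i, ∃ τ : ℝ, z = y + τ • u i} ∧
      ∑ i, (μHE[2] (B i)).toReal ≤
        h * (∫ p in D, 1 / Real.sqrt (1 + (V p 0) ^ 2 + h ^ 2 * (V p 1) ^ 2)) + ε := by
  set I := ∫ p in D, 1 / Real.sqrt (1 + (V p 0) ^ 2 + h ^ 2 * (V p 1) ^ 2) with hI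
  have hI0 : 0 ≤ I := integral_nonneg (fun p => by positivity)
  set K := h * (I + 1) with hK
  have hKpos : 0 < K := by positivity
  set θ := min 1 (ε / (16 * K)) with hθdef
  have hθ : 0 < θ := lt_min one_pos (by positivity)
  have hθ1 : θ ≤ 1 := min_le_left _ _
  have hθ2 : θ ≤ ε / (16 * K) := min_le_right _ _
  set κ := (1 + 2 * θ) ^ 2 with hκ
  have hκpos : 0 < κ := by positivity
  have hκ2 : (κ - 1) * (h * I) ≤ ε / 2 := by
    have e1 : κ - 1 ≤ 8 * θ := by rw [hκ]; nlinarith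
    have e0 : 0 ≤ κ - 1 := by rw [hκ]; nlinarith
    have e2 : θ * K ≤ ε / 16 := by
      have := mul_le_mul_of_nonneg_right hθ2 hKpos.le
      have e3 : ε / (16 * K) * K = ε / 16 := by field_simp
      rwa [e3] at this
    have e4 : h * I ≤ K := by rw [hK]; nlinarith
    calc (κ - 1) * (h * I) ≤ (κ - 1) * K := mul_le_mul_of_nonneg_left e4 e0
      _ ≤ 8 * θ * K := mul_le_mul_of_nonneg_right e1 hKpos.le
      _ ≤ ε / 2 := by linarith
  set ε' := ε / (2 * κ * h) with hε'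
  have hε'pos : 0 < ε' := by positivity
  obtain ⟨k, c, a, b, g, hab, hcov, hsum⟩ := H326 D hD V U hU hDU hV M h hM hh htr
    (fun p hp => ⟨(hdet p hp).1, (hdet p hp).2.le⟩) ε' hε'pos
  refine ⟨k, fun i => uvec h (g i), fun i => Bset h θ (c i) (a i) (b i) (g i),
    fun i => norm_uvec _ _, fun i => ⟨?_, ?_⟩, ?_, ?_⟩
  · exact (isBounded_Pset h θ (c i) (a i) (b i) (g i)).subset
      (Bset_subset_Pset h θ hh.ne' hθ (c i) (a i) (b i) (g i) (hab i).1 (hab i).2.1 (hab i).2.2)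
  · exact ⟨Oset h θ (c i) (a i) (b i) (g i), isOpen_Oset _ _ _ _ _ _, rfl⟩
  · rintro z ⟨p, hp, x, hx, rfl⟩
    have hmem : ((x, p + x • V p) : ℝ × EuclideanSpace ℝ (Fin 2)) ∈
        {z : ℝ × EuclideanSpace ℝ (Fin 2) | ∃ p ∈ D, abs z.1 ≤ M ∧ z.2 = p + z.1 • V p} :=
      ⟨p, hp, hx, rfl⟩
    obtain ⟨i, s, hs, s', hs', hz⟩ := Set.mem_iUnion.mp (hcov hmem)
    simp only at hz
    refine Set.mem_iUnion.mpr ⟨i, ?_⟩
    have e : (!₂[x, p 0 + x * V p 0, h * (p 1 + x * V p 1)] : EuclideanSpace ℝ (Fin 3)) =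
        !₂[x, (c i + s • a i + s' • b i + x • g i) 0,
          h * (c i + s • a i + s' • b i + x • g i) 1] := by
      rw [← hz]
      simp
    rw [e]
    exact cover_Bset h θ hh hθ (c i) (a i) (b i) (g i) (hab i).1 (hab i).2.1 (hab i).2.2 s s' x
      hs hs'
  · have hle : ∀ i ∈ Finset.univ, (μHE[2] (Bset h θ (c i) (a i) (b i) (g i))).toReal ≤
        κ * (h * (‖a i‖ ^ 2 / Real.sqrt (1 + (g i 0) ^ 2 + h ^ 2 * (g i 1) ^ 2))) := fun i _ =>
      area_Bset harea h θ hh hθ (c i) (a i) (b i) (g i) (hab i).1 (hab i).2.1 (hab i).2.2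
    refine (Finset.sum_le_sum hle).trans ?_
    rw [← Finset.mul_sum, ← Finset.mul_sum]
    have e5 : κ * (h * (I + ε')) = h * I + (κ - 1) * (h * I) + ε / 2 := by
      rw [hε']
      field_simp
      ring
    calc κ * (h * ∑ i, ‖a i‖ ^ 2 / Real.sqrt (1 + (g i 0) ^ 2 + h ^ 2 * (g i 1) ^ 2))
        ≤ κ * (h * (I + ε')) :=
          mul_le_mul_of_nonneg_left (mul_le_mul_of_nonneg_left hsum hh.le) hκpos.le
      _ = h * I + (κ - 1) * (h * I) + ε / 2 := e5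
      _ ≤ h * I + ε := by linarith


theorem areaHyp : AreaHyp := fun c a b =>
  (Crest.Agent.Lib_helper18_Area.area_parallelogram c a b).le

/-- The three-dimensional cover, assuming only the planar cover statement. -/
theorem of_planarCover (H326 : PlanarCover)
    (h M : ℝ) (hh : 0 < h) (hM : 0 < M) (D : Set (EuclideanSpace ℝ (Fin 2))) (hD : IsCompact D)
    (V : EuclideanSpace ℝ (Fin 2) → EuclideanSpace ℝ (Fin 2)) (U : Set (EuclideanSpace ℝ (Fin 2)))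
    (hU : IsOpen U) (hDU : D ⊆ U) (hV : ContDiffOn ℝ 1 V U)
    (htr : ∀ p ∈ D, LinearMap.trace ℝ _ (fderiv ℝ V p).toLinearMap = 0)
    (hdet : ∀ p ∈ D, -(M ^ 2)⁻¹ < LinearMap.det (fderiv ℝ V p).toLinearMap ∧
      LinearMap.det (fderiv ℝ V p).toLinearMap < 0)
    (ε : ℝ) (hε : 0 < ε) :
    ∃ (k : ℕ) (u : Fin k → EuclideanSpace ℝ (Fin 3)) (B : Fin k → Set (EuclideanSpace ℝ (Fin 3))),
      (∀ i, ‖u i‖ = 1) ∧
      (∀ i, Bornology.IsBounded (B i) ∧ ∃ O : Set (EuclideanSpace ℝ (Fin 3)), IsOpen O ∧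
        B i = O ∩ {x | inner ℝ x (u i) = 0}) ∧
      {z : EuclideanSpace ℝ (Fin 3) | ∃ p ∈ D, ∃ x : ℝ, abs x ≤ M ∧
          z = !₂[x, p 0 + x * V p 0, h * (p 1 + x * V p 1)]} ⊆
        ⋃ i, {z : EuclideanSpace ℝ (Fin 3) | ∃ y ∈ B i, ∃ τ : ℝ, z = y + τ • u i} ∧
      ∑ i, (μHE[2] (B i)).toReal ≤
        h * (∫ p in D, 1 / Real.sqrt (1 + (V p 0) ^ 2 + h ^ 2 * (V p 1) ^ 2)) + ε :=
  of_parts areaHyp H326 h M hh hM D hD V U hU hDU hV htr hdet ε hε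

end Crest.Agent.Lib_helper10_Ruled
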