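import Mathlib

set_option autoImplicit false
open MeasureTheory
open scoped ENNReal

/-!
Uniform analytic constants for the planar square-tile covering statement S0326: bounds for the
derivative and the determinant on the compact set, a uniform first order Taylor estimate and
uniform continuity of the field near the compact set.
-/

namespace Crest.Agent.Lib_helper10_Unif

abbrev E2 := EuclideanSpace ℝ (Fin 2)

/-- Uniform bound for the derivative on `D`. -/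
theorem exists_fderiv_bound (D U : Set E2) (hD : IsCompact D) (hU : IsOpen U) (hDU : D ⊆ U)
    (V : E2 → E2) (hV : ContDiffOn ℝ 1 V U) :
    ∃ C₁ : ℝ, 0 ≤ C₁ ∧ ∀ p ∈ D, ‖fderiv ℝ V p‖ ≤ C₁ := by
  have hcont : ContinuousOn (fderiv ℝ V) U := hV.continuousOn_fderiv_of_isOpen hU le_rfl
  have hc : ContinuousOn (fun p => ‖fderiv ℝ V p‖) D := (hcont.mono hDU).norm
  obtain ⟨C, hC⟩ := (hD.image_of_continuousOn hc).bddAbove
  exact ⟨max C 0, le_max_right _ _, fun p hp =>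
    (hC (Set.mem_image_of_mem _ hp)).trans (le_max_left _ _)⟩

/-- Uniform positive lower bound for `1 + L² det DV` on `D`. -/
theorem exists_det_bound (D U : Set E2) (hD : IsCompact D) (hU : IsOpen U) (hDU : D ⊆ U)
    (V : E2 → E2) (hV : ContDiffOn ℝ 1 V U) (L : ℝ) (hL : 0 < L)
    (hdet : ∀ p ∈ D, -(L ^ 2)⁻¹ < LinearMap.det (fderiv ℝ V p).toLinearMap) :
    ∃ κ : ℝ, 0 < κ ∧ κ ≤ 1 ∧ ∀ p ∈ D, κ ≤ 1 + L ^ 2 * LinearMap.det (fderiv ℝ V p).toLinearMap := by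
  have hcont : ContinuousOn (fderiv ℝ V) U := hV.continuousOn_fderiv_of_isOpen hU le_rfl
  have hc2 : ContinuousOn (fun p => 1 + L ^ 2 * LinearMap.det (fderiv ℝ V p).toLinearMap) D := by
    have h3 : ContinuousOn (fun p => (fderiv ℝ V p).det) D :=
      ContinuousLinearMap.continuous_det.comp_continuousOn (hcont.mono hDU)
    exact continuousOn_const.add (continuousOn_const.mul h3)
  rcases D.eq_empty_or_nonempty with rfl | hne
  · exact ⟨1, one_pos, le_rfl, fun p hp => absurd hp (Set.notMem_empty p)⟩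
  · obtain ⟨p₁, hp₁, hmin⟩ := hD.exists_isMinOn hne hc2
    have hpos : 0 < 1 + L ^ 2 * LinearMap.det (fderiv ℝ V p₁).toLinearMap := by
      have := hdet p₁ hp₁
      have hL2 : 0 < L ^ 2 := by positivity
      have e : L ^ 2 * (-(L ^ 2)⁻¹) = -1 := by field_simp
      nlinarith [mul_lt_mul_of_pos_left this hL2]
    refine ⟨min 1 (1 + L ^ 2 * LinearMap.det (fderiv ℝ V p₁).toLinearMap), lt_min one_pos hpos,
      min_le_left _ _, fun p hp => (min_le_right _ _).trans (hmin hp)⟩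

/-- Uniform first order Taylor estimate near a compact subset of the open set where `V` is `C¹`
(two-point version: both points near the base point, which lies in `D`). -/
theorem uniform_taylor (D U : Set E2) (hD : IsCompact D) (hU : IsOpen U) (hDU : D ⊆ U)
    (V : E2 → E2) (hV : ContDiffOn ℝ 1 V U) (ε₁ : ℝ) (hε₁ : 0 < ε₁) :
    ∃ δ₁ > 0, ∀ x ∈ D, ∀ ℓ p : E2, ‖ℓ - x‖ ≤ δ₁ → ‖p - x‖ ≤ δ₁ →
      ‖V p - V ℓ - fderiv ℝ V x (p - ℓ)‖ ≤ ε₁ * ‖p - ℓ‖ := by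
  obtain ⟨ρ₀, hρ₀, hρU⟩ := hD.exists_cthickening_subset_open hU hDU
  have hK : IsCompact (Metric.cthickening ρ₀ D) := hD.cthickening
  have hcont : ContinuousOn (fderiv ℝ V) U := hV.continuousOn_fderiv_of_isOpen hU le_rfl
  have huc : UniformContinuousOn (fderiv ℝ V) (Metric.cthickening ρ₀ D) :=
    hK.uniformContinuousOn_of_continuous (hcont.mono hρU)
  rw [Metric.uniformContinuousOn_iff_le] at huc
  obtain ⟨η₁, hη₁, huc⟩ := huc ε₁ hε₁
  refine ⟨min ρ₀ η₁, lt_min hρ₀ hη₁, fun x hx ℓ p hℓ hp => ?_⟩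
  have hsub : Metric.closedBall x (min ρ₀ η₁) ⊆ Metric.cthickening ρ₀ D := by
    intro y hy
    apply Metric.mem_cthickening_of_dist_le y x ρ₀ D hx
    exact (Metric.mem_closedBall.mp hy).trans (min_le_left _ _)
  have hxm : x ∈ Metric.closedBall x (min ρ₀ η₁) :=
    Metric.mem_closedBall_self (lt_min hρ₀ hη₁).le
  have hdiff : ∀ y ∈ Metric.closedBall x (min ρ₀ η₁), DifferentiableAt ℝ V y := fun y hy =>
    (hV.differentiableOn one_ne_zero).differentiableAt (hU.mem_nhds (hρU (hsub hy)))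
  have hbound : ∀ y ∈ Metric.closedBall x (min ρ₀ η₁), ‖fderiv ℝ V y - fderiv ℝ V x‖ ≤ ε₁ := by
    intro y hy
    rw [← dist_eq_norm]
    apply huc y (hsub hy) x (hsub hxm)
    exact (Metric.mem_closedBall.mp hy).trans (min_le_right _ _)
  exact (convex_closedBall x (min ρ₀ η₁)).norm_image_sub_le_of_norm_fderiv_le' hdiff hbound
    (by rw [Metric.mem_closedBall, dist_eq_norm]; exact hℓ)
    (by rw [Metric.mem_closedBall, dist_eq_norm]; exact hp)

/-- Uniform continuity of `V` near the compact set. -/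
theorem uniform_cont (D U : Set E2) (hD : IsCompact D) (hU : IsOpen U) (hDU : D ⊆ U)
    (V : E2 → E2) (hV : ContDiffOn ℝ 1 V U) (ε₂ : ℝ) (hε₂ : 0 < ε₂) :
    ∃ δ₂ > 0, ∀ z ∈ D, ∀ ℓ : E2, ‖ℓ - z‖ ≤ δ₂ → ‖V ℓ - V z‖ ≤ ε₂ := by
  obtain ⟨ρ₀, hρ₀, hρU⟩ := hD.exists_cthickening_subset_open hU hDU
  have hK : IsCompact (Metric.cthickening ρ₀ D) := hD.cthickening
  have huc : UniformContinuousOn V (Metric.cthickening ρ₀ D) :=
    hK.uniformContinuousOn_of_continuous (hV.continuousOn.mono hρU)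
  rw [Metric.uniformContinuousOn_iff_le] at huc
  obtain ⟨η₁, hη₁, huc⟩ := huc ε₂ hε₂
  refine ⟨min ρ₀ η₁, lt_min hρ₀ hη₁, fun z hz ℓ hℓ => ?_⟩
  rw [← dist_eq_norm]
  apply huc ℓ _ z (Metric.self_subset_cthickening D hz)
  · rw [dist_eq_norm]; exact hℓ.trans (min_le_right _ _)
  · apply Metric.mem_cthickening_of_dist_le ℓ z ρ₀ D hz
    rw [dist_eq_norm]; exact hℓ.trans (min_le_left _ _)

/-- The uniform analytic constants used by the square-tile covering argument. -/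
theorem uniform_estimates (D : Set E2) (hD : IsCompact D) (hne : D.Nonempty) (V : E2 → E2)
    (U : Set E2) (hU : IsOpen U) (hDU : D ⊆ U) (hV : ContDiffOn ℝ 1 V U) (L : ℝ) (hL : 0 < L)
    (hdet : ∀ p ∈ D, -(L ^ 2)⁻¹ < LinearMap.det (fderiv ℝ V p).toLinearMap) :
    ∃ M θ : ℝ, 0 ≤ M ∧ 0 < θ ∧ (∀ p ∈ D, ‖fderiv ℝ V p‖ ≤ M) ∧
      (∀ p ∈ D, θ ≤ 1 + L ^ 2 * LinearMap.det (fderiv ℝ V p).toLinearMap) ∧
      (∀ ε₁ > 0, ∃ δ₁ > 0, ∀ x ∈ D, ∀ ℓ p : E2, ‖ℓ - x‖ ≤ δ₁ → ‖p - x‖ ≤ δ₁ →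
        ‖V p - V ℓ - fderiv ℝ V x (p - ℓ)‖ ≤ ε₁ * ‖p - ℓ‖) ∧
      (∀ ε₂ > 0, ∃ δ₂ > 0, ∀ z ∈ D, ∀ ℓ : E2, ‖ℓ - z‖ ≤ δ₂ → ‖V ℓ - V z‖ ≤ ε₂) := by
  obtain ⟨M, hM0, hM⟩ := exists_fderiv_bound D U hD hU hDU V hV
  obtain ⟨θ, hθ0, _, hθ⟩ := exists_det_bound D U hD hU hDU V hV L hL hdet
  exact ⟨M, θ, hM0, hθ0, hM, hθ, fun ε₁ hε₁ => uniform_taylor D U hD hU hDU V hV ε₁ hε₁,
    fun ε₂ hε₂ => uniform_cont D U hD hU hDU V hV ε₂ hε₂⟩

end Crest.Agent.Lib_helper10_Unif
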