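import Mathlib
import Crest.Prelude.Def_AsymptoticConvexity
import Crest.Prelude.Def_DaugavetL1
import Crest.Prelude.Def_TreeProducts

/-!
Measure-theoretic lemmas on path products of independent multipliers (row 125, statement S0169).
-/

set_option autoImplicit false
set_option linter.unusedSectionVars false

open MeasureTheory ProbabilityTheory
open Crest Crest.AnalysisR Crest.AnalysisR.TreeProduct

namespace Crest.Agent.Lib_helper13_TreeProd

variable {Ω : Type} [MeasurableSpace Ω]

/-- The nonempty suffixes of a list, as a finset. -/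
def sfx : List ℕ → Finset (List ℕ)
  | [] => ∅
  | a :: v => insert (a :: v) (sfx v)

lemma length_le_of_mem_sfx {u v : List ℕ} (h : u ∈ sfx v) : u.length ≤ v.length := by
  induction v with
  | nil => simp [sfx] at h
  | cons a v ih =>
    simp only [sfx, Finset.mem_insert] at h
    rcases h with h | h
    · simp [h]
    · have := ih h
      simp only [List.length_cons]
      omega

lemma cons_notMem_sfx (a : ℕ) (v : List ℕ) : (a :: v) ∉ sfx v := by
  intro h
  have := length_le_of_mem_sfx h
  simp at this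

omit [MeasurableSpace Ω] in
lemma pathProduct_eq_prod (W : List ℕ → Ω → ℝ) (v : List ℕ) :
    pathProduct W v = fun ω => ∏ u ∈ sfx v, W u ω := by
  induction v with
  | nil => funext ω; simp [pathProduct, sfx]
  | cons a v ih =>
    funext ω
    simp only [pathProduct, sfx]
    rw [Finset.prod_insert (cons_notMem_sfx a v), ih, mul_comm]

lemma measurable_pathProduct {W : List ℕ → Ω → ℝ} (hm : ∀ v, Measurable (W v)) (v : List ℕ) :
    Measurable (pathProduct W v) := by
  rw [pathProduct_eq_prod]
  exact Finset.measurable_prod _ (fun u _ => hm u)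

lemma indep_path {μ : Measure Ω} {W : List ℕ → Ω → ℝ} (hm : ∀ v, Measurable (W v))
    (hind : iIndepFun W μ) (v : List ℕ) (T : Finset (List ℕ)) (hT : Disjoint (sfx v) T) :
    IndepFun (pathProduct W v) (fun ω (i : T) => W i ω) μ := by
  have h := iIndepFun.indepFun_finset (sfx v) T hT hind hm
  have hφ : Measurable (fun x : (sfx v) → ℝ => ∏ i, x i) :=
    Finset.measurable_prod _ (fun i _ => measurable_pi_apply i)
  have h2 := h.comp hφ measurable_id
  have e : pathProduct W v = (fun x : (sfx v) → ℝ => ∏ i, x i) ∘ (fun ω (i : sfx v) => W i ω) := by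
    rw [pathProduct_eq_prod]
    funext ω
    simp only [Function.comp_apply]
    exact (Finset.prod_coe_sort (sfx v) (fun u => W u ω)).symm
  rw [e]
  exact h2

/-- The path product is independent of any measurable function of the variables at a finite set
of vertices off the root path. -/
lemma indep_path_comp {μ : Measure Ω} {W : List ℕ → Ω → ℝ} (hm : ∀ v, Measurable (W v))
    (hind : iIndepFun W μ) (v : List ℕ) (T : Finset (List ℕ)) (hT : Disjoint (sfx v) T)
    (ψ : (T → ℝ) → ℝ) (hψ : Measurable ψ) :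
    IndepFun (pathProduct W v) (fun ω => ψ (fun i : T => W i ω)) μ := by
  have h := (indep_path hm hind v T hT).comp measurable_id hψ
  exact h

lemma indep_path_child {μ : Measure Ω} {W : List ℕ → Ω → ℝ} (hm : ∀ v, Measurable (W v))
    (hind : iIndepFun W μ) (v : List ℕ) (a : ℕ) :
    IndepFun (pathProduct W v) (W (a :: v)) μ := by
  have hT : Disjoint (sfx v) {a :: v} := by
    rw [Finset.disjoint_singleton_right]
    exact cons_notMem_sfx a v
  have h := indep_path_comp hm hind v {a :: v} hT
    (fun x => x ⟨a :: v, Finset.mem_singleton_self _⟩) (measurable_pi_apply _)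
  exact h


/-! ### Moments of the law `ν` -/

section law

variable {ν : Measure ℝ} [IsProbabilityMeasure ν]

omit [IsProbabilityMeasure ν] in
lemma integrable_id_of_mean (hmean : ∫ x, x ∂ν = 1) : Integrable (fun x : ℝ => x) ν :=
  integrable_of_integral_eq_one hmean

lemma ae_pos_of_pos (hpos : ν (Set.Ioi 0) = 1) : ∀ᵐ x ∂ν, 0 < x := by
  have h : ν (Set.Ioi 0)ᶜ = 0 := by
    rw [prob_compl_eq_zero_iff measurableSet_Ioi]
    exact hpos
  rw [ae_iff]
  convert h using 2
  ext x
  simp

lemma integral_abs_eq_one (hpos : ν (Set.Ioi 0) = 1) (hmean : ∫ x, x ∂ν = 1) :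
    ∫ x, |x| ∂ν = 1 := by
  rw [← hmean]
  apply integral_congr_ae
  filter_upwards [ae_pos_of_pos hpos] with x hx
  exact abs_of_pos hx

lemma integrable_abs_sub_one (hmean : ∫ x, x ∂ν = 1) : Integrable (fun x : ℝ => |x - 1|) ν :=
  ((integrable_id_of_mean hmean).sub (integrable_const 1)).abs

/-- The mean absolute deviation from `1` is positive when the law is not a point mass. -/
lemma kappa_pos (hnc : ∀ c : ℝ, ν ≠ Measure.dirac c) (hmean : ∫ x, x ∂ν = 1) :
    0 < ∫ x, |x - 1| ∂ν := by
  have hnn : 0 ≤ ∫ x, |x - 1| ∂ν := integral_nonneg (fun x => abs_nonneg _)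
  rcases hnn.lt_or_eq with h | h
  · exact h
  · exfalso
    have h0 : (fun x : ℝ => |x - 1|) =ᵐ[ν] 0 :=
      (integral_eq_zero_iff_of_nonneg (fun x => abs_nonneg _) (integrable_abs_sub_one hmean)).1 h.symm
    have h1 : ∀ᵐ x ∂ν, x = 1 := by
      filter_upwards [h0] with x hx
      have : |x - 1| = 0 := hx
      linarith [abs_eq_zero.1 this]
    apply hnc 1
    have hmeas : ν {x | x ≠ 1} = 0 := by
      rw [ae_iff] at h1
      exact h1
    ext s hs
    by_cases h1s : (1 : ℝ) ∈ s
    · rw [Measure.dirac_apply_of_mem h1s]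
      have : ν sᶜ = 0 := by
        apply measure_mono_null _ hmeas
        intro x hx
        simp only [Set.mem_compl_iff] at hx
        show x ≠ 1
        intro hx1
        exact hx (hx1 ▸ h1s)
      rw [prob_compl_eq_zero_iff hs] at this
      exact this
    · rw [Measure.dirac_apply' _ hs]
      simp only [Set.indicator_of_notMem h1s]
      apply measure_mono_null _ hmeas
      intro x hx
      show x ≠ 1
      intro hx1
      exact h1s (hx1 ▸ hx)

omit [IsProbabilityMeasure ν] in
lemma memLp_two_id (hm2 : Integrable (fun x : ℝ => x ^ 2) ν) : MemLp (fun x : ℝ => x) 2 ν := by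
  exact (memLp_two_iff_integrable_sq (μ := ν) (f := fun x : ℝ => x)
    measurable_id.aestronglyMeasurable).2 hm2

end law


/-! ### Transfer to the realization -/

section real

variable {ν : Measure ℝ} [IsProbabilityMeasure ν] {μ : Measure Ω} [IsProbabilityMeasure μ]
  {W : List ℕ → Ω → ℝ}

lemma integral_comp_W (hW : IsRealization ν μ W) {v : List ℕ} (hv : v ≠ []) (f : ℝ → ℝ)
    (hf : Measurable f) : ∫ ω, f (W v ω) ∂μ = ∫ x, f x ∂ν := by
  rw [← hW.2.2 v hv, integral_map (hW.1 v).aemeasurable hf.aestronglyMeasurable]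

lemma integrable_comp_W (hW : IsRealization ν μ W) {v : List ℕ} (hv : v ≠ []) (f : ℝ → ℝ)
    (hf : Measurable f) (hint : Integrable f ν) : Integrable (fun ω => f (W v ω)) μ := by
  rw [← hW.2.2 v hv] at hint
  exact (integrable_map_measure hf.aestronglyMeasurable (hW.1 v).aemeasurable).1 hint

lemma memLp_two_W (hW : IsRealization ν μ W) (hm2 : Integrable (fun x : ℝ => x ^ 2) ν)
    {v : List ℕ} (hv : v ≠ []) : MemLp (W v) 2 μ := by
  have h := memLp_two_id hm2
  rw [← hW.2.2 v hv] at h
  exact (memLp_map_measure_iff measurable_id.aestronglyMeasurable (hW.1 v).aemeasurable).1 h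

lemma integrable_W (hW : IsRealization ν μ W) (hmean : ∫ x, x ∂ν = 1)
    {v : List ℕ} (hv : v ≠ []) : Integrable (W v) μ :=
  integrable_comp_W hW hv (fun x => x) measurable_id (integrable_id_of_mean hmean)

lemma integral_W (hW : IsRealization ν μ W) (hmean : ∫ x, x ∂ν = 1)
    {v : List ℕ} (hv : v ≠ []) : ∫ ω, W v ω ∂μ = 1 := by
  rw [integral_comp_W hW hv (fun x => x) measurable_id, hmean]

lemma integral_abs_W (hW : IsRealization ν μ W) (hpos : ν (Set.Ioi 0) = 1)
    (hmean : ∫ x, x ∂ν = 1) {v : List ℕ} (hv : v ≠ []) : ∫ ω, |W v ω| ∂μ = 1 := by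
  rw [integral_comp_W hW hv (fun x => |x|) measurable_id.abs, integral_abs_eq_one hpos hmean]

/-- Product rule for absolute first moments of independent variables. -/
lemma integral_abs_mul_of_indep {X Y : Ω → ℝ} (hXY : IndepFun X Y μ) (hX : Measurable X)
    (hY : Measurable Y) :
    ∫ ω, |X ω * Y ω| ∂μ = (∫ ω, |X ω| ∂μ) * ∫ ω, |Y ω| ∂μ := by
  have h := hXY.comp (φ := fun x : ℝ => |x|) (ψ := fun x : ℝ => |x|) measurable_id.abs
    measurable_id.abs
  have h2 := h.integral_mul_eq_mul_integral (hX.abs.aestronglyMeasurable)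
    (hY.abs.aestronglyMeasurable)
  simp only [Function.comp_def, Pi.mul_apply] at h2
  rw [← h2]
  congr 1
  funext ω
  exact abs_mul _ _

/-- Every path product is integrable with absolute first moment one. -/
lemma pathProduct_l1 (hW : IsRealization ν μ W) (hpos : ν (Set.Ioi 0) = 1)
    (hmean : ∫ x, x ∂ν = 1) (v : List ℕ) :
    Integrable (pathProduct W v) μ ∧ ∫ ω, |pathProduct W v ω| ∂μ = 1 := by
  induction v with
  | nil =>
    refine ⟨?_, ?_⟩
    · exact integrable_const (1 : ℝ)
    · simp [pathProduct]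
  | cons a v ih =>
    have hind := indep_path_child hW.1 hW.2.1 v a
    have hWint : Integrable (W (a :: v)) μ := integrable_W hW hmean (by simp)
    refine ⟨?_, ?_⟩
    · exact hind.integrable_mul ih.1 hWint
    · have e : (fun ω => |pathProduct W (a :: v) ω|)
          = fun ω => |pathProduct W v ω * W (a :: v) ω| := rfl
      rw [e, integral_abs_mul_of_indep hind (measurable_pathProduct hW.1 v) (hW.1 _), ih.2,
        integral_abs_W hW hpos hmean (by simp), mul_one]

lemma integrable_pathProduct (hW : IsRealization ν μ W) (hpos : ν (Set.Ioi 0) = 1)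
    (hmean : ∫ x, x ∂ν = 1) (v : List ℕ) : Integrable (pathProduct W v) μ :=
  (pathProduct_l1 hW hpos hmean v).1

lemma integral_abs_pathProduct (hW : IsRealization ν μ W) (hpos : ν (Set.Ioi 0) = 1)
    (hmean : ∫ x, x ∂ν = 1) (v : List ℕ) : ∫ ω, |pathProduct W v ω| ∂μ = 1 :=
  (pathProduct_l1 hW hpos hmean v).2

/-- The `L¹` distance between a path product and the one at a child is the mean absolute
deviation of the law. -/
lemma integral_abs_child_sub (hW : IsRealization ν μ W) (hpos : ν (Set.Ioi 0) = 1)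
    (hmean : ∫ x, x ∂ν = 1) (v : List ℕ) (n : ℕ) :
    ∫ ω, |pathProduct W (n :: v) ω - pathProduct W v ω| ∂μ = ∫ x, |x - 1| ∂ν := by
  have hind := indep_path_child hW.1 hW.2.1 v n
  have hind2 : IndepFun (pathProduct W v) (fun ω => W (n :: v) ω - 1) μ :=
    hind.comp (φ := fun x : ℝ => x) (ψ := fun x : ℝ => x - 1) measurable_id
      (measurable_id.sub_const 1)
  have e : (fun ω => |pathProduct W (n :: v) ω - pathProduct W v ω|)
      = fun ω => |pathProduct W v ω * (W (n :: v) ω - 1)| := by
    funext ω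
    simp only [pathProduct]
    ring_nf
  rw [e, integral_abs_mul_of_indep hind2 (measurable_pathProduct hW.1 v)
    ((hW.1 _).sub_const 1), integral_abs_pathProduct hW hpos hmean v, one_mul]
  exact integral_comp_W hW (by simp) (fun x => |x - 1|) (measurable_id.sub_const 1).abs


/-- Second moment of a linear combination of the centred multipliers at the children. -/
lemma second_moment_children (hW : IsRealization ν μ W) (hmean : ∫ x, x ∂ν = 1)
    (hm2 : Integrable (fun x : ℝ => x ^ 2) ν) (v : List ℕ) (A : Finset ℕ) (c : ℕ → ℝ) :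
    ∫ ω, (∑ n ∈ A, c n * (W (n :: v) ω - 1)) ^ 2 ∂μ
      = (∑ n ∈ A, c n ^ 2) * ∫ x, (x - 1) ^ 2 ∂ν := by
  set X : ℕ → Ω → ℝ := fun n ω => c n * (W (n :: v) ω - 1) with hX
  have hXmeas : ∀ n, Measurable (X n) := fun n => ((hW.1 _).sub_const 1).const_mul (c n)
  have hXmem : ∀ n, MemLp (X n) 2 μ := fun n =>
    ((memLp_two_W hW hm2 (by simp : n :: v ≠ [])).sub (memLp_const 1)).const_mul (c n)
  have hXint0 : ∀ n, ∫ ω, X n ω ∂μ = 0 := by
    intro n
    simp only [hX]
    rw [integral_const_mul, integral_sub (integrable_W hW hmean (by simp)) (integrable_const 1),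
      integral_W hW hmean (by simp)]
    simp
  have hpair : Set.Pairwise (A : Set ℕ) fun i j => IndepFun (X i) (X j) μ := by
    intro i _ j _ hij
    have hne : i :: v ≠ j :: v := by
      intro h
      exact hij (List.cons.inj h).1
    exact (hW.2.1.indepFun hne).comp (φ := fun x : ℝ => c i * (x - 1))
      (ψ := fun x : ℝ => c j * (x - 1)) ((measurable_id.sub_const 1).const_mul _)
      ((measurable_id.sub_const 1).const_mul _)
  have hvar := IndepFun.variance_sum (s := A) (fun i _ => hXmem i) hpair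
  have hfun : (∑ i ∈ A, X i) = fun ω => ∑ i ∈ A, X i ω := by
    funext ω
    simp
  rw [hfun] at hvar
  have hsum0 : ∫ ω, (∑ i ∈ A, X i ω) ∂μ = 0 := by
    rw [integral_finsetSum A (fun i _ => (hXmem i).integrable (by norm_num))]
    exact Finset.sum_eq_zero (fun i _ => hXint0 i)
  have h1 : Var[fun ω => ∑ i ∈ A, X i ω; μ] = ∫ ω, (∑ i ∈ A, X i ω) ^ 2 ∂μ :=
    variance_of_integral_eq_zero (Finset.measurable_sum _ (fun i _ => hXmeas i)).aemeasurable hsum0
  have h2 : ∀ i, Var[X i; μ] = c i ^ 2 * ∫ x, (x - 1) ^ 2 ∂ν := by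
    intro i
    rw [variance_of_integral_eq_zero (hXmeas i).aemeasurable (hXint0 i)]
    simp only [hX, mul_pow]
    rw [integral_const_mul]
    congr 1
    exact integral_comp_W hW (by simp) (fun x => (x - 1) ^ 2) ((measurable_id.sub_const 1).pow_const 2)
  rw [h1] at hvar
  rw [hvar, Finset.sum_mul]
  exact Finset.sum_congr rfl (fun i _ => h2 i)

/-- The upper `ℓ²` estimate for the increments towards the children of a vertex. -/
lemma l1_children_bound (hW : IsRealization ν μ W) (hpos : ν (Set.Ioi 0) = 1)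
    (hmean : ∫ x, x ∂ν = 1) (hm2 : Integrable (fun x : ℝ => x ^ 2) ν) (v : List ℕ)
    (A : Finset ℕ) (c : ℕ → ℝ) :
    ∫ ω, |∑ n ∈ A, c n * (pathProduct W (n :: v) ω - pathProduct W v ω)| ∂μ
      ≤ Real.sqrt (∫ x, (x - 1) ^ 2 ∂ν) * Real.sqrt (∑ n ∈ A, c n ^ 2) := by
  set Z : Ω → ℝ := fun ω => ∑ n ∈ A, c n * (W (n :: v) ω - 1) with hZ
  have hZmeas : Measurable Z :=
    Finset.measurable_sum _ (fun n _ => ((hW.1 _).sub_const 1).const_mul (c n))
  have hZ2 : MemLp Z 2 μ :=
    memLp_finsetSum A (fun n _ =>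
      ((memLp_two_W hW hm2 (by simp : n :: v ≠ [])).sub (memLp_const 1)).const_mul (c n))
  have e : (fun ω => |∑ n ∈ A, c n * (pathProduct W (n :: v) ω - pathProduct W v ω)|)
      = fun ω => |pathProduct W v ω * Z ω| := by
    funext ω
    congr 1
    simp only [hZ, pathProduct, Finset.mul_sum]
    refine Finset.sum_congr rfl (fun n _ => ?_)
    ring
  have hindep : IndepFun (pathProduct W v) Z μ := by
    classical
    set T : Finset (List ℕ) := A.image (fun n => n :: v) with hTdef
    have hT : Disjoint (sfx v) T := by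
      rw [Finset.disjoint_left]
      intro u hu huT
      rw [hTdef, Finset.mem_image] at huT
      obtain ⟨n, -, rfl⟩ := huT
      exact cons_notMem_sfx n v hu
    have hψ : Measurable (fun x : T → ℝ => ∑ i : T, c (i.1.headI) * (x i - 1)) :=
      Finset.measurable_sum _ (fun i _ => ((measurable_pi_apply i).sub_const 1).const_mul _)
    have h := indep_path_comp hW.1 hW.2.1 v T hT _ hψ
    have e2 : (fun ω => ∑ i : T, c (i.1.headI) * (W i ω - 1)) = Z := by
      funext ω
      rw [Finset.sum_coe_sort T (fun u => c u.headI * (W u ω - 1)), hTdef,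
        Finset.sum_image (fun a _ b _ h => (List.cons.inj h).1)]
      rfl
    rw [e2] at h
    exact h
  rw [e, integral_abs_mul_of_indep hindep (measurable_pathProduct hW.1 v) hZmeas,
    integral_abs_pathProduct hW hpos hmean v, one_mul]
  have habs : MemLp (fun ω => |Z ω|) 2 μ := hZ2.norm
  have hv := variance_nonneg (fun ω => |Z ω|) μ
  rw [variance_eq_sub habs] at hv
  have hsq : ∫ ω, ((fun ω => |Z ω|) ^ 2) ω ∂μ = ∫ ω, Z ω ^ 2 ∂μ := by
    congr 1
    funext ω
    simp [sq_abs]
  rw [hsq, second_moment_children hW hmean hm2 v A c] at hv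
  have hle : (∫ ω, |Z ω| ∂μ) ^ 2 ≤ (∑ n ∈ A, c n ^ 2) * ∫ x, (x - 1) ^ 2 ∂ν := by linarith
  have hnn : 0 ≤ ∫ ω, |Z ω| ∂μ := integral_nonneg (fun ω => abs_nonneg _)
  calc ∫ ω, |Z ω| ∂μ = Real.sqrt ((∫ ω, |Z ω| ∂μ) ^ 2) := (Real.sqrt_sq hnn).symm
    _ ≤ Real.sqrt ((∑ n ∈ A, c n ^ 2) * ∫ x, (x - 1) ^ 2 ∂ν) := Real.sqrt_le_sqrt hle
    _ = Real.sqrt (∫ x, (x - 1) ^ 2 ∂ν) * Real.sqrt (∑ n ∈ A, c n ^ 2) := by
        rw [mul_comm, Real.sqrt_mul (integral_nonneg (fun x => sq_nonneg _))]


/-! ### The classes of the path products in `L¹` -/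

/-- The `L¹` class of a path product. -/
noncomputable def classOf (hint : ∀ v, Integrable (pathProduct W v) μ) (v : List ℕ) :
    Lp ℝ 1 μ :=
  (memLp_one_iff_integrable.2 (hint v)).toLp (pathProduct W v)

lemma classOf_ae (hint : ∀ v, Integrable (pathProduct W v) μ) (v : List ℕ) :
    (classOf hint v : Ω → ℝ) =ᵐ[μ] pathProduct W v :=
  MemLp.coeFn_toLp _

lemma classOf_mem (hint : ∀ v, Integrable (pathProduct W v) μ) (v : List ℕ) :
    classOf hint v ∈ productSpan μ W :=
  Submodule.le_topologicalClosure _ (Submodule.subset_span ⟨v, classOf_ae hint v⟩)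

lemma norm_classOf (hW : IsRealization ν μ W) (hpos : ν (Set.Ioi 0) = 1)
    (hmean : ∫ x, x ∂ν = 1) (hint : ∀ v, Integrable (pathProduct W v) μ) (v : List ℕ) :
    ‖classOf hint v‖ = 1 := by
  rw [L1.norm_eq_integral_norm, ← integral_abs_pathProduct hW hpos hmean v]
  apply integral_congr_ae
  filter_upwards [classOf_ae hint v] with ω h
  rw [h, Real.norm_eq_abs]

lemma norm_classOf_child_sub (hW : IsRealization ν μ W) (hpos : ν (Set.Ioi 0) = 1)
    (hmean : ∫ x, x ∂ν = 1) (hint : ∀ v, Integrable (pathProduct W v) μ) (v : List ℕ) (n : ℕ) :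
    ‖classOf hint (n :: v) - classOf hint v‖ = ∫ x, |x - 1| ∂ν := by
  rw [L1.norm_eq_integral_norm, ← integral_abs_child_sub hW hpos hmean v n]
  apply integral_congr_ae
  filter_upwards [classOf_ae hint v, classOf_ae hint (n :: v),
    Lp.coeFn_sub (classOf hint (n :: v)) (classOf hint v)] with ω h1 h2 h3
  rw [h3, Pi.sub_apply, h1, h2, Real.norm_eq_abs]

lemma norm_classOf_children_le (hW : IsRealization ν μ W) (hpos : ν (Set.Ioi 0) = 1)
    (hmean : ∫ x, x ∂ν = 1) (hm2 : Integrable (fun x : ℝ => x ^ 2) ν)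
    (hint : ∀ v, Integrable (pathProduct W v) μ) (v : List ℕ) (A : Finset ℕ) (c : ℕ → ℝ) :
    ‖∑ n ∈ A, c n • (classOf hint (n :: v) - classOf hint v)‖
      ≤ Real.sqrt (∫ x, (x - 1) ^ 2 ∂ν) * Real.sqrt (∑ n ∈ A, c n ^ 2) := by
  rw [L1.norm_eq_integral_norm]
  refine le_of_eq_of_le ?_ (l1_children_bound hW hpos hmean hm2 v A c)
  apply integral_congr_ae
  have h1 := Lp.coeFn_fun_finsetSum A (fun n => c n • (classOf hint (n :: v) - classOf hint v))
  have h2 : ∀ᵐ ω ∂μ, ∀ n ∈ A, (c n • (classOf hint (n :: v) - classOf hint v) : Lp ℝ 1 μ) ω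
      = c n * (pathProduct W (n :: v) ω - pathProduct W v ω) := by
    rw [Filter.eventually_all_finset]
    intro n _
    filter_upwards [Lp.coeFn_smul (c n) (classOf hint (n :: v) - classOf hint v),
      Lp.coeFn_sub (classOf hint (n :: v)) (classOf hint v), classOf_ae hint v,
      classOf_ae hint (n :: v)] with ω e1 e2 e3 e4
    rw [e1, Pi.smul_apply, e2, Pi.sub_apply, e3, e4, smul_eq_mul]
  filter_upwards [h1, h2] with ω e1 e2
  rw [e1, Real.norm_eq_abs]
  congr 1
  exact Finset.sum_congr rfl (fun n hn => e2 n hn)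

end real

end Crest.Agent.Lib_helper13_TreeProd
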