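import Mathlib

/-!
Helper lemmas for S0328 (radial sweep covered by thin triangular cylinders).
Pure Euclidean algebra in `EuclideanSpace ℝ (Fin 3)`, convex hull of three points,
partitions and Riemann sums.
-/

set_option autoImplicit false
open MeasureTheory
open scoped ENNReal

namespace Crest.Agent.Lib_helper17_Sweep

/-- Euclidean three-space. -/
abbrev E3 := EuclideanSpace ℝ (Fin 3)

/-! ### Coordinates -/

lemma inner_coord (x y : E3) : inner ℝ x y = x 0 * y 0 + x 1 * y 1 + x 2 * y 2 := by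
  simp [EuclideanSpace.inner_eq_star_dotProduct, dotProduct, Fin.sum_univ_three]
  ring

lemma normsq_coord (x : E3) : ‖x‖ ^ 2 = x 0 ^ 2 + x 1 ^ 2 + x 2 ^ 2 := by
  rw [← real_inner_self_eq_norm_sq, inner_coord]; ring

/-- Three vectors orthogonal to a unit vector have vanishing Gram determinant. -/
lemma gram3_eq_zero (e u v w : E3) (he : ‖e‖ = 1) (hu : inner ℝ u e = 0)
    (hv : inner ℝ v e = 0) (hw : inner ℝ w e = 0) :
    ‖u‖ ^ 2 * ‖v‖ ^ 2 * ‖w‖ ^ 2 + 2 * inner ℝ u v * inner ℝ v w * inner ℝ u w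
      - ‖u‖ ^ 2 * inner ℝ v w ^ 2 - ‖v‖ ^ 2 * inner ℝ u w ^ 2 - ‖w‖ ^ 2 * inner ℝ u v ^ 2 = 0 := by
  have he' : ‖e‖ ^ 2 = 1 := by rw [he]; norm_num
  rw [normsq_coord] at he'
  rw [inner_coord] at hu hv hw
  simp only [normsq_coord, inner_coord]
  linear_combination
    (u 0 * (v 1 * w 2 - v 2 * w 1) - u 1 * (v 0 * w 2 - v 2 * w 0) + u 2 * (v 0 * w 1 - v 1 * w 0)) *
      ((e 0 * (v 1 * w 2 - v 2 * w 1) - e 1 * (v 0 * w 2 - v 2 * w 0) + e 2 * (v 0 * w 1 - v 1 * w 0)) * hu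
        + (u 0 * (e 1 * w 2 - e 2 * w 1) - u 1 * (e 0 * w 2 - e 2 * w 0) + u 2 * (e 0 * w 1 - e 1 * w 0)) * hv
        + (u 0 * (v 1 * e 2 - v 2 * e 1) - u 1 * (v 0 * e 2 - v 2 * e 0) + u 2 * (v 0 * e 1 - v 1 * e 0)) * hw)
    - (u 0 * (v 1 * w 2 - v 2 * w 1) - u 1 * (v 0 * w 2 - v 2 * w 0) + u 2 * (v 0 * w 1 - v 1 * w 0)) ^ 2 * he'

/-! ### Projection along `d` -/

/-- The orthogonal projection onto `d^⊥`, written exactly as in the statement. -/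
noncomputable def projL (d : E3) : E3 →ₗ[ℝ] E3 where
  toFun y := y - (inner ℝ y d / ‖d‖ ^ 2) • d
  map_add' x y := by
    simp only [inner_add_left, add_div, add_smul]; abel
  map_smul' c x := by
    simp only [inner_smul_left, RingHom.id_apply, smul_sub, mul_div_assoc, mul_smul]
    simp

lemma projL_apply (d y : E3) : projL d y = y - (inner ℝ y d / ‖d‖ ^ 2) • d := rfl

lemma projL_fun (d : E3) : (fun y : E3 => y - (inner ℝ y d / ‖d‖ ^ 2) • d) = ⇑(projL d) := rfl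

lemma inner_projL_self (d y : E3) (hd : ‖d‖ ^ 2 ≠ 0) : inner ℝ (projL d y) d = 0 := by
  rw [projL_apply, inner_sub_left, inner_smul_left, real_inner_self_eq_norm_sq]
  simp only [conj_trivial]
  rw [div_mul_cancel₀ _ hd, sub_self]

lemma projL_self (d : E3) (hd : ‖d‖ ^ 2 ≠ 0) : projL d d = 0 := by
  rw [projL_apply, real_inner_self_eq_norm_sq, div_self hd, one_smul, sub_self]

lemma inner_projL_projL (d x y : E3) (hd : ‖d‖ ^ 2 ≠ 0) :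
    inner ℝ (projL d x) (projL d y) = inner ℝ x y - inner ℝ x d * inner ℝ y d / ‖d‖ ^ 2 := by
  simp only [projL_apply, inner_sub_left, inner_sub_right, inner_smul_left, inner_smul_right,
    real_inner_self_eq_norm_sq, conj_trivial]
  rw [real_inner_comm y d]
  have hd' : ‖d‖ ≠ 0 := fun h => hd (by rw [h]; norm_num)
  field_simp
  ring

/-- Gram determinant of two vectors. -/
noncomputable def gram2 (u v : E3) : ℝ := ‖u‖ ^ 2 * ‖v‖ ^ 2 - inner ℝ u v ^ 2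

lemma gram2_nonneg (u v : E3) : 0 ≤ gram2 u v := by
  unfold gram2
  have h := real_inner_mul_inner_self_le u v
  rw [real_inner_self_eq_norm_sq, real_inner_self_eq_norm_sq] at h
  nlinarith [h]

/-- Projecting along `d = e + w₀` two vectors of `e^⊥` divides the Gram determinant
by `1 + ‖w₀‖²`. -/
lemma gram2_projL (e u v w₀ : E3) (he : ‖e‖ = 1) (hu : inner ℝ u e = 0)
    (hv : inner ℝ v e = 0) (hw : inner ℝ w₀ e = 0) :
    gram2 (projL (e + w₀) u) (projL (e + w₀) v) = gram2 u v / (1 + ‖w₀‖ ^ 2) := by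
  have hd : ‖e + w₀‖ ^ 2 = 1 + ‖w₀‖ ^ 2 := by
    rw [norm_add_sq_real, he, real_inner_comm, hw]; ring
  have hd0 : ‖e + w₀‖ ^ 2 ≠ 0 := by rw [hd]; positivity
  have hD : (1 + ‖w₀‖ ^ 2) ≠ 0 := by positivity
  have hud : inner ℝ u (e + w₀) = inner ℝ u w₀ := by rw [inner_add_right, hu, zero_add]
  have hvd : inner ℝ v (e + w₀) = inner ℝ v w₀ := by rw [inner_add_right, hv, zero_add]
  have hG := gram3_eq_zero e u v w₀ he hu hv hw
  unfold gram2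
  rw [← real_inner_self_eq_norm_sq, ← real_inner_self_eq_norm_sq (projL (e + w₀) v),
    inner_projL_projL _ _ _ hd0, inner_projL_projL _ _ _ hd0, inner_projL_projL _ _ _ hd0,
    hud, hvd, hd, real_inner_self_eq_norm_sq, real_inner_self_eq_norm_sq]
  field_simp
  linear_combination (1 + ‖w₀‖ ^ 2) * hG

lemma gram2_fan (a b : E3) (m₁ m₂ s₁ s₂ : ℝ) :
    gram2 (m₁ • (a + s₁ • b)) (m₂ • (a + s₂ • b)) = (m₁ * m₂ * (s₂ - s₁)) ^ 2 * gram2 a b := by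
  unfold gram2
  simp only [normsq_coord, inner_coord, PiLp.smul_apply, PiLp.add_apply, smul_eq_mul]
  ring

lemma gram2_pos_of_linearIndependent (a b : E3) (hab : LinearIndependent ℝ ![a, b]) :
    0 < gram2 a b := by
  rw [LinearIndependent.pair_iff] at hab
  by_contra hneg
  have h0 : gram2 a b = 0 := le_antisymm (not_lt.mp hneg) (gram2_nonneg a b)
  unfold gram2 at h0
  have hz : ‖(‖b‖ ^ 2) • a - (inner ℝ a b) • b‖ ^ 2 = 0 := by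
    rw [norm_sub_sq_real, norm_smul, norm_smul, inner_smul_left, inner_smul_right]
    simp only [conj_trivial, Real.norm_eq_abs, mul_pow, sq_abs]
    have : ‖b‖ ^ 2 * (‖a‖ ^ 2 * ‖b‖ ^ 2 - inner ℝ a b ^ 2) = 0 := by rw [h0, mul_zero]
    linear_combination this
  have hz' : (‖b‖ ^ 2) • a + (-(inner ℝ a b)) • b = 0 := by
    have := norm_eq_zero.mp (pow_eq_zero_iff (two_ne_zero) |>.mp hz)
    rw [neg_smul, ← sub_eq_add_neg]; exact this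
  have h1 := (hab _ _ hz').1
  have hb0 : b = 0 := by
    have : ‖b‖ = 0 := by exact pow_eq_zero_iff (two_ne_zero) |>.mp h1
    exact norm_eq_zero.mp this
  have := hab 0 1 (by rw [hb0]; simp)
  exact one_ne_zero this.2


/-! ### Convex hull of a thin fan triangle -/

lemma fan_mem_hull (X a b : E3) (m s₁ s₂ k σ : ℝ) (hm : 0 < m) (hk : 0 ≤ k) (hkm : k ≤ m)
    (hs : s₁ < s₂) (hσ₁ : s₁ ≤ σ) (hσ₂ : σ ≤ s₂) :
    X + k • (a + σ • b) ∈
      convexHull ℝ ({X, X + m • (a + s₁ • b), X + m • (a + s₂ • b)} : Set E3) := by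
  obtain ⟨μ, hμ0, hμ1, rfl⟩ : ∃ μ : ℝ, 0 ≤ μ ∧ μ ≤ 1 ∧ k = μ * m :=
    ⟨k / m, div_nonneg hk hm.le, (div_le_one hm).mpr hkm, by field_simp⟩
  obtain ⟨ν, hν0, hν1, rfl⟩ : ∃ ν : ℝ, 0 ≤ ν ∧ ν ≤ 1 ∧ σ = (1 - ν) * s₁ + ν * s₂ := by
    have hpos : 0 < s₂ - s₁ := sub_pos.mpr hs
    refine ⟨(σ - s₁) / (s₂ - s₁), div_nonneg (by linarith) hpos.le,
      (div_le_one hpos).mpr (by linarith), ?_⟩
    field_simp
    ring
  have hX : X ∈ convexHull ℝ ({X, X + m • (a + s₁ • b), X + m • (a + s₂ • b)} : Set E3) :=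
    subset_convexHull ℝ _ (Set.mem_insert _ _)
  have hY : X + m • (a + s₁ • b) ∈
      convexHull ℝ ({X, X + m • (a + s₁ • b), X + m • (a + s₂ • b)} : Set E3) :=
    subset_convexHull ℝ _ (Set.mem_insert_of_mem _ (Set.mem_insert _ _))
  have hZ : X + m • (a + s₂ • b) ∈
      convexHull ℝ ({X, X + m • (a + s₁ • b), X + m • (a + s₂ • b)} : Set E3) :=
    subset_convexHull ℝ _ (Set.mem_insert_of_mem _ (Set.mem_insert_of_mem _ rfl))
  have hYZ := convex_convexHull ℝ _ hY hZ (sub_nonneg.mpr hν1) hν0 (by ring)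
  have h := convex_convexHull ℝ _ hX hYZ (sub_nonneg.mpr hμ1) hμ0 (by ring)
  convert h using 1
  module

lemma hull_subset_fan (X a b : E3) (m s₁ s₂ : ℝ) (hs : s₁ ≤ s₂) (x : E3)
    (hx : x ∈ convexHull ℝ ({X, X + m • (a + s₁ • b), X + m • (a + s₂ • b)} : Set E3)) :
    ∃ μ : ℝ, 0 ≤ μ ∧ μ ≤ 1 ∧ ∃ σ : ℝ, s₁ ≤ σ ∧ σ ≤ s₂ ∧ x = X + (μ * m) • (a + σ • b) := by
  rw [← convexJoin_singleton_segment, mem_convexJoin] at hx
  obtain ⟨x', hx', y, hy, hxy⟩ := hx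
  rw [Set.mem_singleton_iff] at hx'
  subst hx'
  obtain ⟨a₂, b₂, ha₂, hb₂, hab₂, rfl⟩ := hy
  obtain ⟨a₁, b₁, ha₁, hb₁, hab₁, rfl⟩ := hxy
  have e₁ : a₁ = 1 - b₁ := by linarith
  have e₂ : a₂ = 1 - b₂ := by linarith
  subst e₁ e₂
  refine ⟨b₁, hb₁, by linarith, (1 - b₂) * s₁ + b₂ * s₂, ?_, ?_, ?_⟩
  · nlinarith
  · nlinarith
  · module

/-- Positive Gram determinant of the edge vectors gives affine independence. -/
lemma affineIndependent_of_gram2_pos (p q r : E3) (h : 0 < gram2 (q - p) (r - p)) :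
    AffineIndependent ℝ ![p, q, r] := by
  rw [affineIndependent_iff_not_collinear_set]
  intro hcol
  rw [collinear_iff_of_mem (p₀ := p) (by simp)] at hcol
  obtain ⟨v, hv⟩ := hcol
  obtain ⟨r₁, hr₁⟩ := hv q (by simp)
  obtain ⟨r₂, hr₂⟩ := hv r (by simp)
  have e₁ : q - p = r₁ • v := by rw [hr₁]; simp
  have e₂ : r - p = r₂ • v := by rw [hr₂]; simp
  rw [e₁, e₂] at h
  unfold gram2 at h
  rw [norm_smul, norm_smul, inner_smul_left, inner_smul_right, real_inner_self_eq_norm_sq] at h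
  simp only [conj_trivial, Real.norm_eq_abs, mul_pow, sq_abs] at h
  nlinarith


/-! ### Partitions and Riemann sums -/

lemma exists_piece : ∀ (N : ℕ) (t : Fin (N + 1) → ℝ) (τ : ℝ), 0 < N → t 0 ≤ τ →
    τ ≤ t (Fin.last N) → ∃ i : Fin N, t i.castSucc ≤ τ ∧ τ ≤ t i.succ := by
  intro N
  induction N with
  | zero => intro t τ h; exact absurd h (lt_irrefl 0)
  | succ n ih =>
    intro t τ _ h0 h1
    by_cases hτ : τ ≤ t (Fin.last n).castSucc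
    · rcases Nat.eq_zero_or_pos n with hn | hn
      · subst hn
        exact ⟨0, h0, h1⟩
      · obtain ⟨i, hi1, hi2⟩ := ih (fun j => t j.castSucc) τ hn h0 hτ
        exact ⟨i.castSucc, hi1, by rw [Fin.succ_castSucc]; exact hi2⟩
    · exact ⟨Fin.last n, (not_le.mp hτ).le, by rw [Fin.succ_last]; exact h1⟩

lemma sum_diff : ∀ (N : ℕ) (t : Fin (N + 1) → ℝ),
    ∑ i : Fin N, (t i.succ - t i.castSucc) = t (Fin.last N) - t 0 := by
  intro N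
  induction N with
  | zero => intro t; simp
  | succ n ih =>
    intro t
    rw [Fin.sum_univ_castSucc]
    have h := ih (fun j => t j.castSucc)
    simp only [Fin.succ_castSucc] at h ⊢
    rw [h, Fin.succ_last]
    simp only [Fin.castSucc_zero]
    ring

lemma sum_integral_pieces : ∀ (N : ℕ) (t : Fin (N + 1) → ℝ) (f : ℝ → ℝ),
    (∀ i : Fin N, IntervalIntegrable f volume (t i.castSucc) (t i.succ)) →
    IntervalIntegrable f volume (t 0) (t (Fin.last N)) ∧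
    ∑ i : Fin N, ∫ x in (t i.castSucc)..(t i.succ), f x = ∫ x in (t 0)..(t (Fin.last N)), f x := by
  intro N
  induction N with
  | zero => intro t f _; simp
  | succ n ih =>
    intro t f hint
    have h := ih (fun j => t j.castSucc) f (fun i => by
      have := hint i.castSucc
      rw [Fin.succ_castSucc] at this
      exact this)
    have hl := hint (Fin.last n)
    rw [Fin.succ_last] at hl
    simp only [Fin.castSucc_zero] at h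
    refine ⟨h.1.trans hl, ?_⟩
    rw [Fin.sum_univ_castSucc]
    simp only [Fin.succ_castSucc]
    rw [h.2, Fin.succ_last]
    exact intervalIntegral.integral_add_adjacent_intervals h.1 hl

lemma riemann_sum_le (N : ℕ) (t : Fin (N + 1) → ℝ) (c : Fin N → ℝ) (f : ℝ → ℝ) (ε : ℝ)
    (hmono : ∀ i : Fin N, t i.castSucc ≤ t i.succ)
    (hint : ∀ i : Fin N, IntervalIntegrable f volume (t i.castSucc) (t i.succ))
    (hclose : ∀ i : Fin N, ∀ x ∈ Set.Icc (t i.castSucc) (t i.succ), |f x - f (c i)| ≤ ε) :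
    |∑ i : Fin N, f (c i) * (t i.succ - t i.castSucc) - ∫ x in (t 0)..(t (Fin.last N)), f x|
      ≤ ε * (t (Fin.last N) - t 0) := by
  rw [← (sum_integral_pieces N t f hint).2, ← Finset.sum_sub_distrib, ← sum_diff, Finset.mul_sum]
  refine (Finset.abs_sum_le_sum_abs _ _).trans (Finset.sum_le_sum fun i _ => ?_)
  have h1 : f (c i) * (t i.succ - t i.castSucc) - ∫ x in (t i.castSucc)..(t i.succ), f x
      = ∫ x in (t i.castSucc)..(t i.succ), (f (c i) - f x) := by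
    rw [intervalIntegral.integral_sub intervalIntegrable_const (hint i),
      intervalIntegral.integral_const, smul_eq_mul, mul_comm]
  rw [h1]
  have h2 := intervalIntegral.norm_integral_le_of_norm_le_const
    (a := t i.castSucc) (b := t i.succ) (C := ε) (f := fun x => f (c i) - f x) (fun x hx => by
      rw [Set.uIoc_of_le (hmono i)] at hx
      rw [Real.norm_eq_abs, abs_sub_comm]
      exact hclose i x ⟨hx.1.le, hx.2⟩)
  rw [Real.norm_eq_abs, abs_of_nonneg (sub_nonneg.mpr (hmono i))] at h2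
  exact h2

/-! ### The velocity decomposition -/

lemma w_decomp (a b : E3) (α β : ℝ) (w : ℝ → E3) (lam : ℝ → ℝ)
    (hlam : ContinuousOn lam (Set.Icc α β))
    (hw' : ∀ t ∈ Set.Icc α β, HasDerivWithinAt w (lam t • (a + t • b)) (Set.Icc α β) t)
    (Λ : ℝ) (hΛ : ∀ t ∈ Set.Icc α β, |lam t| ≤ Λ)
    (t₁ t₂ : ℝ) (ht₁ : α ≤ t₁) (ht₂ : t₂ ≤ β) (c τ : ℝ) (hc : c ∈ Set.Icc t₁ t₂)
    (hτ : τ ∈ Set.Icc t₁ t₂) :
    ∃ I0 I1 : ℝ, w τ = w c + I0 • a + I1 • b ∧ |I0| ≤ Λ * (t₂ - t₁) ∧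
      |I1 - τ * I0| ≤ Λ * (t₂ - t₁) ^ 2 := by
  have hcI : c ∈ Set.Icc α β := ⟨ht₁.trans hc.1, hc.2.trans ht₂⟩
  have hτI : τ ∈ Set.Icc α β := ⟨ht₁.trans hτ.1, hτ.2.trans ht₂⟩
  have hsub : Set.uIcc c τ ⊆ Set.Icc α β := Set.uIcc_subset_Icc hcI hτI
  have hsub' : Set.uIcc c τ ⊆ Set.Icc t₁ t₂ := Set.uIcc_subset_Icc hc hτ
  have hΛ0 : 0 ≤ Λ := (abs_nonneg _).trans (hΛ c hcI)
  have hlamc : ContinuousOn lam (Set.uIcc c τ) := hlam.mono hsub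
  have h1 : IntervalIntegrable lam volume c τ := hlamc.intervalIntegrable
  have h2 : IntervalIntegrable (fun σ => lam σ * σ) volume c τ :=
    (hlamc.mul continuousOn_id).intervalIntegrable
  have h1a : IntervalIntegrable (fun σ => lam σ • a) volume c τ :=
    (hlamc.smul continuousOn_const).intervalIntegrable
  have h2b : IntervalIntegrable (fun σ => (lam σ * σ) • b) volume c τ :=
    ((hlamc.mul continuousOn_id).smul continuousOn_const).intervalIntegrable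
  have hcont : ContinuousOn w (Set.Icc α β) := fun t ht => (hw' t ht).continuousWithinAt
  have hfun : (fun σ => lam σ • (a + σ • b)) = fun σ => lam σ • a + (lam σ * σ) • b := by
    funext σ; rw [smul_add, smul_smul]
  have hint : IntervalIntegrable (fun σ => lam σ • (a + σ • b)) volume c τ := by
    rw [hfun]; exact h1a.add h2b
  have hftc : ∫ σ in c..τ, lam σ • (a + σ • b) = w τ - w c := by
    refine intervalIntegral.integral_eq_sub_of_hasDeriv_right (hcont.mono hsub) (fun x hx => ?_) hint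
    have hx' : x ∈ Set.uIcc c τ := ⟨hx.1.le, hx.2.le⟩
    have hxI := hsub hx'
    have hxβ : x < β := lt_of_lt_of_le hx.2 (max_le hcI.2 hτI.2)
    exact (hw' x hxI).mono_of_mem_nhdsWithin (Icc_mem_nhdsGT_of_mem ⟨hxI.1, hxβ⟩)
  have hsplit : ∫ σ in c..τ, lam σ • (a + σ • b)
      = (∫ σ in c..τ, lam σ) • a + (∫ σ in c..τ, lam σ * σ) • b := by
    rw [hfun, intervalIntegral.integral_add h1a h2b,
      intervalIntegral.integral_smul_const, intervalIntegral.integral_smul_const]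
  have hdist : |τ - c| ≤ t₂ - t₁ := by
    rw [abs_le]; constructor <;> linarith [hc.1, hc.2, hτ.1, hτ.2]
  have hΔ : 0 ≤ t₂ - t₁ := by linarith [hc.1, hc.2]
  refine ⟨∫ σ in c..τ, lam σ, ∫ σ in c..τ, lam σ * σ, ?_, ?_, ?_⟩
  · rw [add_assoc, ← hsplit, hftc]; abel
  · have h := intervalIntegral.norm_integral_le_of_norm_le_const (a := c) (b := τ) (C := Λ)
      (f := lam) (fun x hx => by
        rw [Real.norm_eq_abs]
        exact hΛ x (hsub (Set.uIoc_subset_uIcc hx)))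
    rw [Real.norm_eq_abs] at h
    exact h.trans (mul_le_mul_of_nonneg_left hdist hΛ0)
  · have h3 : (∫ σ in c..τ, lam σ * σ) - τ * ∫ σ in c..τ, lam σ
        = ∫ σ in c..τ, lam σ * (σ - τ) := by
      rw [← intervalIntegral.integral_const_mul, ← intervalIntegral.integral_sub h2 (h1.const_mul τ)]
      congr 1; funext σ; ring
    rw [h3]
    have h := intervalIntegral.norm_integral_le_of_norm_le_const (a := c) (b := τ)
      (C := Λ * (t₂ - t₁)) (f := fun σ => lam σ * (σ - τ)) (fun x hx => by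
        have hx' := Set.uIoc_subset_uIcc hx
        have hxt := hsub' hx'
        rw [Real.norm_eq_abs, abs_mul]
        refine mul_le_mul (hΛ x (hsub hx')) ?_ (abs_nonneg _) hΛ0
        rw [abs_le]; constructor <;> linarith [hxt.1, hxt.2, hτ.1, hτ.2])
    rw [Real.norm_eq_abs] at h
    calc |∫ σ in c..τ, lam σ * (σ - τ)| ≤ Λ * (t₂ - t₁) * |τ - c| := h
      _ ≤ Λ * (t₂ - t₁) * (t₂ - t₁) := mul_le_mul_of_nonneg_left hdist (mul_nonneg hΛ0 hΔ)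
      _ = Λ * (t₂ - t₁) ^ 2 := by ring

/-! ### One piece of the sweep lies over a thin flat triangle -/

lemma piece_core (ρ τ s I0 I1 c t₁ t₂ ξ θ M L Λ δ Rτ : ℝ)
    (hρ0 : 0 ≤ ρ) (hρ : ρ ≤ Rτ) (hs : |s| ≤ L)
    (hI0 : |I0| ≤ Λ * (t₂ - t₁)) (hI1 : |I1 - τ * I0| ≤ Λ * (t₂ - t₁) ^ 2)
    (hτ₁ : t₁ ≤ τ) (hτ₂ : τ ≤ t₂) (hc₁ : t₁ ≤ c) (hc₂ : c ≤ t₂)
    (hΔ : t₁ < t₂) (hδ : t₂ - t₁ ≤ δ) (hθ : 0 < θ) (hξ : L * Λ * δ * (θ + 2) ≤ ξ * θ)
    (hM : Rτ + L * Λ * δ + ξ ≤ M) (hL : 0 < L) (hΛ : 0 < Λ) :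
    ∃ k σ : ℝ, 0 < k ∧ k ≤ M ∧ t₁ - θ * (t₂ - t₁) ≤ σ ∧ σ ≤ t₂ + θ * (t₂ - t₁) ∧
      k = ρ + s * I0 + ξ ∧ k * σ = ρ * τ + s * I1 + ξ * c := by
  have hΔpos : 0 < t₂ - t₁ := sub_pos.mpr hΔ
  have hLΛ : 0 < L * Λ := mul_pos hL hΛ
  have hδpos : 0 < δ := lt_of_lt_of_le hΔpos hδ
  have hsI0 : |s * I0| ≤ L * (Λ * (t₂ - t₁)) := by
    rw [abs_mul]; exact mul_le_mul hs hI0 (abs_nonneg _) hL.le
  have hsI1 : |s * (I1 - τ * I0)| ≤ L * (Λ * (t₂ - t₁) ^ 2) := by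
    rw [abs_mul]; exact mul_le_mul hs hI1 (abs_nonneg _) hL.le
  obtain ⟨hA1, hA2⟩ := abs_le.mp hsI0
  obtain ⟨hB1, hB2⟩ := abs_le.mp hsI1
  have hLΛΔ : L * Λ * (t₂ - t₁) ≤ L * Λ * δ := mul_le_mul_of_nonneg_left hδ hLΛ.le
  have hLΛΔ0 : 0 ≤ L * Λ * (t₂ - t₁) := mul_nonneg hLΛ.le hΔpos.le
  have hkey : 2 * (L * Λ * δ) ≤ (ξ - L * Λ * (t₂ - t₁)) * θ := by
    have := mul_le_mul_of_nonneg_right hLΛΔ hθ.le
    nlinarith
  have hξpos : 0 < ξ - L * Λ * (t₂ - t₁) := by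
    by_contra hneg
    have h1 : (ξ - L * Λ * (t₂ - t₁)) * θ ≤ 0 :=
      mul_nonpos_of_nonpos_of_nonneg (not_lt.mp hneg) hθ.le
    have h2 : 0 < 2 * (L * Λ * δ) := by positivity
    linarith
  have hklo : ξ - L * Λ * (t₂ - t₁) ≤ ρ + s * I0 + ξ := by linarith
  have hkpos : 0 < ρ + s * I0 + ξ := lt_of_lt_of_le hξpos hklo
  have hξ0 : 0 ≤ ξ := by linarith
  -- the main product estimates
  have e3 : 2 * (L * Λ * (t₂ - t₁)) * (t₂ - t₁) ≤ (ρ + s * I0 + ξ) * θ * (t₂ - t₁) := by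
    have h1 : (ξ - L * Λ * (t₂ - t₁)) * θ ≤ (ρ + s * I0 + ξ) * θ :=
      mul_le_mul_of_nonneg_right hklo hθ.le
    have h2 : 2 * (L * Λ * (t₂ - t₁)) ≤ (ρ + s * I0 + ξ) * θ := by linarith
    exact mul_le_mul_of_nonneg_right h2 hΔpos.le
  refine ⟨ρ + s * I0 + ξ, (ρ * τ + s * I1 + ξ * c) / (ρ + s * I0 + ξ), hkpos, by linarith, ?_, ?_,
    rfl, by field_simp⟩
  · rw [le_div_iff₀ hkpos]
    have e1 : -(L * Λ * (t₂ - t₁)) * (t₂ - t₁) ≤ (ρ + s * I0) * (τ - t₁) := by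
      have h1 : 0 ≤ (ρ + s * I0 + L * Λ * (t₂ - t₁)) * (τ - t₁) :=
        mul_nonneg (by linarith) (by linarith)
      have h2 : 0 ≤ (L * Λ * (t₂ - t₁)) * (t₂ - τ) := mul_nonneg hLΛΔ0 (by linarith)
      nlinarith
    have e2 : 0 ≤ ξ * (c - t₁) := mul_nonneg hξ0 (by linarith)
    have key : ρ * τ + s * I1 + ξ * c - (t₁ - θ * (t₂ - t₁)) * (ρ + s * I0 + ξ)
        = (ρ + s * I0) * (τ - t₁) + ξ * (c - t₁) + (ρ + s * I0 + ξ) * θ * (t₂ - t₁)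
          + s * (I1 - τ * I0) := by ring
    have key2 : L * (Λ * (t₂ - t₁) ^ 2) = (L * Λ * (t₂ - t₁)) * (t₂ - t₁) := by ring
    linarith
  · rw [div_le_iff₀ hkpos]
    have e1 : -(L * Λ * (t₂ - t₁)) * (t₂ - t₁) ≤ (ρ + s * I0) * (t₂ - τ) := by
      have h1 : 0 ≤ (ρ + s * I0 + L * Λ * (t₂ - t₁)) * (t₂ - τ) :=
        mul_nonneg (by linarith) (by linarith)
      have h2 : 0 ≤ (L * Λ * (t₂ - t₁)) * (τ - t₁) := mul_nonneg hLΛΔ0 (by linarith)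
      nlinarith
    have e2 : 0 ≤ ξ * (t₂ - c) := mul_nonneg hξ0 (by linarith)
    have key : (t₂ + θ * (t₂ - t₁)) * (ρ + s * I0 + ξ) - (ρ * τ + s * I1 + ξ * c)
        = (ρ + s * I0) * (t₂ - τ) + ξ * (t₂ - c) + (ρ + s * I0 + ξ) * θ * (t₂ - t₁)
          - s * (I1 - τ * I0) := by ring
    have key2 : L * (Λ * (t₂ - t₁) ^ 2) = (L * Λ * (t₂ - t₁)) * (t₂ - t₁) := by ring
    linarith

lemma piece_flat (e a b p₀ : E3) (α β : ℝ) (w : ℝ → E3) (lam : ℝ → ℝ)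
    (hlam : ContinuousOn lam (Set.Icc α β))
    (hw' : ∀ t ∈ Set.Icc α β, HasDerivWithinAt w (lam t • (a + t • b)) (Set.Icc α β) t)
    (Λ : ℝ) (hΛ0 : 0 < Λ) (hΛ : ∀ t ∈ Set.Icc α β, |lam t| ≤ Λ)
    (L : ℝ) (hL : 0 < L) (R : ℝ → ℝ)
    (t₁ t₂ : ℝ) (ht₁ : α ≤ t₁) (ht₂ : t₂ ≤ β) (hΔ : t₁ < t₂) (c : ℝ) (hc : c ∈ Set.Icc t₁ t₂)
    (δ θ ξ M : ℝ) (hδ : t₂ - t₁ ≤ δ) (hθ : 0 < θ) (hξ : L * Λ * δ * (θ + 2) ≤ ξ * θ)
    (hM : ∀ τ ∈ Set.Icc t₁ t₂, R τ + L * Λ * δ + ξ ≤ M)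
    (τ : ℝ) (hτ : τ ∈ Set.Icc t₁ t₂) (ρ : ℝ) (hρ : ρ ∈ Set.Icc 0 (R τ)) (s : ℝ) (hs : |s| ≤ L) :
    ∃ k σ : ℝ, 0 < k ∧ k ≤ M ∧ t₁ - θ * (t₂ - t₁) ≤ σ ∧ σ ≤ t₂ + θ * (t₂ - t₁) ∧
      p₀ + ρ • (a + τ • b) + s • (e + w τ)
        = (p₀ - ξ • (a + c • b)) + k • (a + σ • b) + s • (e + w c) := by
  obtain ⟨I0, I1, hwτ, hI0, hI1⟩ := w_decomp a b α β w lam hlam hw' Λ hΛ t₁ t₂ ht₁ ht₂ c τ hc hτ
  obtain ⟨k, σ, hk0, hkM, hσ1, hσ2, hk, hkσ⟩ := piece_core ρ τ s I0 I1 c t₁ t₂ ξ θ M L Λ δ (R τ)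
    hρ.1 hρ.2 hs hI0 hI1 hτ.1 hτ.2 hc.1 hc.2 hΔ hδ hθ hξ (hM τ hτ) hL hΛ0
  refine ⟨k, σ, hk0, hkM, hσ1, hσ2, ?_⟩
  rw [hwτ]
  have e1 : k • (a + σ • b) = k • a + (k * σ) • b := by rw [smul_add, smul_smul]
  rw [e1, hkσ, hk]
  module

/-! ### Area of the projected thin triangle -/

lemma area_proj_fan
    (hTri : ∀ p q r : E3, μHE[2] (convexHull ℝ ({p, q, r} : Set E3)) =
      ENNReal.ofReal (Real.sqrt (‖q - p‖ ^ 2 * ‖r - p‖ ^ 2 - inner ℝ (q - p) (r - p) ^ 2) / 2))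
    (e a b w₀ X : E3) (he : ‖e‖ = 1) (ha : inner ℝ a e = 0) (hb : inner ℝ b e = 0)
    (hw₀ : inner ℝ w₀ e = 0) (m s₁ s₂ : ℝ) (hs : s₁ ≤ s₂) :
    μHE[2] (convexHull ℝ ({projL (e + w₀) X, projL (e + w₀) (X + m • (a + s₁ • b)),
        projL (e + w₀) (X + m • (a + s₂ • b))} : Set E3)) =
      ENNReal.ofReal (Real.sqrt (gram2 a b) * (m ^ 2 * (s₂ - s₁)) / (2 * Real.sqrt (1 + ‖w₀‖ ^ 2))) := by
  rw [hTri]
  congr 1
  have hu : ∀ s : ℝ, inner ℝ (m • (a + s • b)) e = 0 := by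
    intro s
    rw [inner_smul_left, inner_add_left, inner_smul_left, ha, hb]; simp
  have e1 : ∀ u : E3, projL (e + w₀) (X + u) - projL (e + w₀) X = projL (e + w₀) u := by
    intro u; rw [map_add]; abel
  rw [e1, e1]
  have hg : ‖projL (e + w₀) (m • (a + s₁ • b))‖ ^ 2 * ‖projL (e + w₀) (m • (a + s₂ • b))‖ ^ 2 -
      inner ℝ (projL (e + w₀) (m • (a + s₁ • b))) (projL (e + w₀) (m • (a + s₂ • b))) ^ 2
      = (m * m * (s₂ - s₁)) ^ 2 * (gram2 a b / (1 + ‖w₀‖ ^ 2)) := by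
    have := gram2_projL e (m • (a + s₁ • b)) (m • (a + s₂ • b)) w₀ he (hu s₁) (hu s₂) hw₀
    unfold gram2 at this
    rw [this]
    have h2 := gram2_fan a b m m s₁ s₂
    unfold gram2 at h2
    rw [h2]
    unfold gram2
    ring
  rw [hg, Real.sqrt_mul (sq_nonneg _), Real.sqrt_sq (mul_nonneg (mul_self_nonneg m) (sub_nonneg.mpr hs)),
    Real.sqrt_div (gram2_nonneg a b)]
  ring


/-! ### One piece: the covering triangle and the two area bounds -/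

lemma piece_main
    (hTri : ∀ p q r : E3, μHE[2] (convexHull ℝ ({p, q, r} : Set E3)) =
      ENNReal.ofReal (Real.sqrt (‖q - p‖ ^ 2 * ‖r - p‖ ^ 2 - inner ℝ (q - p) (r - p) ^ 2) / 2))
    (e a b p₀ : E3) (he : ‖e‖ = 1) (ha : inner ℝ a e = 0) (hb : inner ℝ b e = 0)
    (hG : 0 < gram2 a b) (L : ℝ) (hL : 0 < L) (α β : ℝ)
    (R : ℝ → ℝ) (hR0 : ∀ t ∈ Set.Icc α β, 0 ≤ R t)
    (w : ℝ → E3) (hw : ∀ t ∈ Set.Icc α β, inner ℝ (w t) e = 0)
    (lam : ℝ → ℝ) (hlam : ContinuousOn lam (Set.Icc α β))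
    (hw' : ∀ t ∈ Set.Icc α β, HasDerivWithinAt w (lam t • (a + t • b)) (Set.Icc α β) t)
    (Λ : ℝ) (hΛ0 : 0 < Λ) (hΛ : ∀ t ∈ Set.Icc α β, |lam t| ≤ Λ)
    (ε δ ξ : ℝ) (hε : 0 < ε) (hξ : L * Λ * δ * (ε + 2) ≤ ξ * ε) (hξε : ξ ≤ ε)
    (hLΛδ : L * Λ * δ ≤ ε)
    (hRuc : ∀ x ∈ Set.Icc α β, ∀ y ∈ Set.Icc α β, |x - y| ≤ δ → |R x - R y| ≤ ε)
    (t₁ t₂ c : ℝ) (ht₁ : α ≤ t₁) (ht₂ : t₂ ≤ β) (hΔ : t₁ < t₂) (hδ : t₂ - t₁ ≤ δ)
    (hc : t₁ ≤ c ∧ c ≤ t₂) :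
    ∃ p q r : E3,
      (inner ℝ p (e + w c) = 0 ∧ inner ℝ q (e + w c) = 0 ∧ inner ℝ r (e + w c) = 0) ∧
      AffineIndependent ℝ ![p, q, r] ∧
      (∀ τ ∈ Set.Icc t₁ t₂, ∀ ρ ∈ Set.Icc 0 (R τ), ∀ s : ℝ, |s| ≤ L →
        ∃ y ∈ convexHull ℝ ({p, q, r} : Set E3), ∃ σ : ℝ,
          p₀ + ρ • (a + τ • b) + s • (e + w τ) = y + σ • (e + w c)) ∧
      (μHE[2] (convexHull ℝ ({p, q, r} : Set E3))).toReal =
        Real.sqrt (gram2 a b) * ((R c + 3 * ε) ^ 2 * ((1 + 2 * ε) * (t₂ - t₁))) /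
          (2 * Real.sqrt (1 + ‖w c‖ ^ 2)) ∧
      (μHE[2] ((fun y => y - (inner ℝ y (e + w c) / ‖e + w c‖ ^ 2) • (e + w c)) ''
          {x : E3 | ∃ τ ∈ Set.Icc t₁ t₂, ∃ ρ ∈ Set.Icc 0 (R τ), ∃ s : ℝ, |s| ≤ L ∧
            x = p₀ + ρ • (a + τ • b) + s • (e + w τ)})).toReal ≤
        Real.sqrt (gram2 a b) * ((R c + 3 * ε) ^ 2 * ((1 + 2 * ε) * (t₂ - t₁))) /
          (2 * Real.sqrt (1 + ‖w c‖ ^ 2)) ∧
      Real.sqrt (gram2 a b) * ((max (R c - ε) 0) ^ 2 * (t₂ - t₁)) /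
          (2 * Real.sqrt (1 + ‖w c‖ ^ 2)) ≤
        (μHE[2] ((fun y => y - (inner ℝ y (e + w c) / ‖e + w c‖ ^ 2) • (e + w c)) ''
          {x : E3 | ∃ τ ∈ Set.Icc t₁ t₂, ∃ ρ ∈ Set.Icc 0 (R τ), ∃ s : ℝ, |s| ≤ L ∧
            x = p₀ + ρ • (a + τ • b) + s • (e + w τ)})).toReal := by
  have hcI : c ∈ Set.Icc α β := ⟨ht₁.trans hc.1, hc.2.trans ht₂⟩
  have hwc := hw c hcI
  have hdn : ‖e + w c‖ ^ 2 = 1 + ‖w c‖ ^ 2 := by
    rw [norm_add_sq_real, he, real_inner_comm, hwc]; ring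
  have hd0 : ‖e + w c‖ ^ 2 ≠ 0 := by rw [hdn]; positivity
  have hΔpos : 0 < t₂ - t₁ := sub_pos.mpr hΔ
  have hM0 : 0 < R c + 3 * ε := by have := hR0 c hcI; linarith
  have hs12 : t₁ - ε * (t₂ - t₁) < t₂ + ε * (t₂ - t₁) := by
    have : 0 < ε * (t₂ - t₁) := mul_pos hε hΔpos
    linarith
  have hs21 : (t₂ + ε * (t₂ - t₁)) - (t₁ - ε * (t₂ - t₁)) = (1 + 2 * ε) * (t₂ - t₁) := by ring
  have hIcc : ∀ τ ∈ Set.Icc t₁ t₂, τ ∈ Set.Icc α β := fun τ hτ => ⟨ht₁.trans hτ.1, hτ.2.trans ht₂⟩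
  have hRclose : ∀ τ ∈ Set.Icc t₁ t₂, |R τ - R c| ≤ ε := by
    intro τ hτ
    refine hRuc τ (hIcc τ hτ) c hcI ?_
    rw [abs_le]; constructor <;> linarith [hτ.1, hτ.2, hc.1, hc.2]
  have hMb : ∀ τ ∈ Set.Icc t₁ t₂, R τ + L * Λ * δ + ξ ≤ R c + 3 * ε := by
    intro τ hτ
    have := (abs_le.mp (hRclose τ hτ)).2
    linarith
  -- the flat triangle
  have hflat : ∀ τ ∈ Set.Icc t₁ t₂, ∀ ρ ∈ Set.Icc 0 (R τ), ∀ s : ℝ, |s| ≤ L →
      ∃ F ∈ convexHull ℝ ({p₀ - ξ • (a + c • b),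
          (p₀ - ξ • (a + c • b)) + (R c + 3 * ε) • (a + (t₁ - ε * (t₂ - t₁)) • b),
          (p₀ - ξ • (a + c • b)) + (R c + 3 * ε) • (a + (t₂ + ε * (t₂ - t₁)) • b)} : Set E3),
        p₀ + ρ • (a + τ • b) + s • (e + w τ) = F + s • (e + w c) := by
    intro τ hτ ρ hρ s hs
    obtain ⟨k, σ, hk0, hkM, hσ1, hσ2, hx⟩ := piece_flat e a b p₀ α β w lam hlam hw' Λ hΛ0 hΛ L hL R
      t₁ t₂ ht₁ ht₂ hΔ c hc δ ε ξ (R c + 3 * ε) hδ hε hξ hMb τ hτ ρ hρ s hs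
    exact ⟨(p₀ - ξ • (a + c • b)) + k • (a + σ • b),
      fan_mem_hull _ a b _ _ _ k σ hM0 hk0.le hkM hs12 hσ1 hσ2, hx⟩
  have himg : ∀ X Y Z : E3, projL (e + w c) '' convexHull ℝ ({X, Y, Z} : Set E3)
      = convexHull ℝ ({projL (e + w c) X, projL (e + w c) Y, projL (e + w c) Z} : Set E3) := by
    intro X Y Z
    rw [LinearMap.image_convexHull, Set.image_insert_eq, Set.image_pair]
  have hfun : (fun y : E3 => y - (inner ℝ y (e + w c) / ‖e + w c‖ ^ 2) • (e + w c))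
      = ⇑(projL (e + w c)) := rfl
  rw [hfun]
  have harea := area_proj_fan hTri e a b (w c) (p₀ - ξ • (a + c • b)) he ha hb hwc (R c + 3 * ε)
    (t₁ - ε * (t₂ - t₁)) (t₂ + ε * (t₂ - t₁)) hs12.le
  rw [hs21] at harea
  have hnn : 0 ≤ Real.sqrt (gram2 a b) * ((R c + 3 * ε) ^ 2 * ((1 + 2 * ε) * (t₂ - t₁))) /
      (2 * Real.sqrt (1 + ‖w c‖ ^ 2)) := by positivity
  -- the projected piece lies in the projected triangle
  have hsub : projL (e + w c) '' {x : E3 | ∃ τ ∈ Set.Icc t₁ t₂, ∃ ρ ∈ Set.Icc 0 (R τ), ∃ s : ℝ,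
      |s| ≤ L ∧ x = p₀ + ρ • (a + τ • b) + s • (e + w τ)} ⊆
      convexHull ℝ ({projL (e + w c) (p₀ - ξ • (a + c • b)),
        projL (e + w c) ((p₀ - ξ • (a + c • b)) + (R c + 3 * ε) • (a + (t₁ - ε * (t₂ - t₁)) • b)),
        projL (e + w c) ((p₀ - ξ • (a + c • b)) + (R c + 3 * ε) • (a + (t₂ + ε * (t₂ - t₁)) • b))}
          : Set E3) := by
    rintro _ ⟨x, ⟨τ, hτ, ρ, hρ, s, hs, rfl⟩, rfl⟩
    obtain ⟨F, hF, hx⟩ := hflat τ hτ ρ hρ s hs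
    have e2 : projL (e + w c) (F + s • (e + w c)) = projL (e + w c) F := by
      rw [map_add, map_smul, projL_self _ hd0, smul_zero, add_zero]
    rw [hx, e2, ← himg]
    exact Set.mem_image_of_mem _ hF
  have hle := measure_mono (μ := (μHE[2] : Measure E3)) hsub
  rw [harea] at hle
  have hfin : μHE[2] (projL (e + w c) '' {x : E3 | ∃ τ ∈ Set.Icc t₁ t₂, ∃ ρ ∈ Set.Icc 0 (R τ),
      ∃ s : ℝ, |s| ≤ L ∧ x = p₀ + ρ • (a + τ • b) + s • (e + w τ)}) ≠ ⊤ :=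
    ne_top_of_le_ne_top ENNReal.ofReal_ne_top hle
  refine ⟨projL (e + w c) (p₀ - ξ • (a + c • b)),
    projL (e + w c) ((p₀ - ξ • (a + c • b)) + (R c + 3 * ε) • (a + (t₁ - ε * (t₂ - t₁)) • b)),
    projL (e + w c) ((p₀ - ξ • (a + c • b)) + (R c + 3 * ε) • (a + (t₂ + ε * (t₂ - t₁)) • b)),
    ⟨inner_projL_self _ _ hd0, inner_projL_self _ _ hd0, inner_projL_self _ _ hd0⟩, ?_, ?_, ?_, ?_, ?_⟩
  · -- affine independence
    apply affineIndependent_of_gram2_pos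
    have hu : ∀ s : ℝ, inner ℝ ((R c + 3 * ε) • (a + s • b)) e = 0 := by
      intro s
      rw [inner_smul_left, inner_add_left, inner_smul_left, ha, hb]; simp
    have e1 : ∀ u : E3, projL (e + w c) ((p₀ - ξ • (a + c • b)) + u)
        - projL (e + w c) (p₀ - ξ • (a + c • b)) = projL (e + w c) u := by
      intro u; rw [map_add]; abel
    rw [e1, e1, gram2_projL e _ _ (w c) he (hu _) (hu _) hwc, gram2_fan, hs21]
    have h3 : 0 < (1 + 2 * ε) * (t₂ - t₁) := by positivity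
    positivity
  · -- covering
    intro τ hτ ρ hρ s hs
    obtain ⟨F, hF, hx⟩ := hflat τ hτ ρ hρ s hs
    refine ⟨projL (e + w c) F, ?_, inner ℝ F (e + w c) / ‖e + w c‖ ^ 2 + s, ?_⟩
    · rw [← himg]; exact Set.mem_image_of_mem _ hF
    · rw [hx, projL_apply]; module
  · -- area of the triangle
    rw [harea, ENNReal.toReal_ofReal hnn]
  · -- upper bound
    exact (ENNReal.toReal_mono ENNReal.ofReal_ne_top hle).trans_eq (ENNReal.toReal_ofReal hnn)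
  · -- lower bound
    have hm0 : 0 ≤ max (R c - ε) 0 := le_max_right _ _
    have hmR : ∀ σ ∈ Set.Icc t₁ t₂, max (R c - ε) 0 ≤ R σ := by
      intro σ hσ
      refine max_le ?_ (hR0 σ (hIcc σ hσ))
      have := (abs_le.mp (hRclose σ hσ)).1
      linarith
    have harea2 := area_proj_fan hTri e a b (w c) p₀ he ha hb hwc (max (R c - ε) 0) t₁ t₂ hΔ.le
    have hsub2 : convexHull ℝ ({projL (e + w c) p₀,
        projL (e + w c) (p₀ + (max (R c - ε) 0) • (a + t₁ • b)),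
        projL (e + w c) (p₀ + (max (R c - ε) 0) • (a + t₂ • b))} : Set E3) ⊆
        projL (e + w c) '' {x : E3 | ∃ τ ∈ Set.Icc t₁ t₂, ∃ ρ ∈ Set.Icc 0 (R τ), ∃ s : ℝ,
          |s| ≤ L ∧ x = p₀ + ρ • (a + τ • b) + s • (e + w τ)} := by
      rw [← himg]
      apply Set.image_mono
      intro x hx
      obtain ⟨μ, hμ0, hμ1, σ, hσ1, hσ2, rfl⟩ := hull_subset_fan p₀ a b _ t₁ t₂ hΔ.le x hx
      refine ⟨σ, ⟨hσ1, hσ2⟩, μ * max (R c - ε) 0, ⟨mul_nonneg hμ0 hm0, ?_⟩, 0, ?_, ?_⟩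
      · calc μ * max (R c - ε) 0 ≤ 1 * max (R c - ε) 0 := mul_le_mul_of_nonneg_right hμ1 hm0
          _ = max (R c - ε) 0 := one_mul _
          _ ≤ R σ := hmR σ ⟨hσ1, hσ2⟩
      · rw [abs_zero]; exact hL.le
      · rw [zero_smul, add_zero]
    have hle2 := measure_mono (μ := (μHE[2] : Measure E3)) hsub2
    rw [harea2] at hle2
    exact (ENNReal.ofReal_le_iff_le_toReal hfin).mp hle2


/-! ### Numerical comparison with the Riemann sum -/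

lemma upper_num (r ε Rmax D Δ : ℝ) (hr0 : 0 ≤ r) (hr : r ≤ Rmax) (hε0 : 0 < ε) (hε1 : ε ≤ 1)
    (hD : 1 ≤ D) (hΔ : 0 ≤ Δ) :
    (r + 3 * ε) ^ 2 * ((1 + 2 * ε) * Δ) / (2 * D)
      ≤ (r ^ 2 / (2 * D) + ε * ((Rmax + 3) ^ 2 + 3 * Rmax + 5)) * Δ := by
  have hD0 : 0 < D := lt_of_lt_of_le one_pos hD
  have h1 : (r + 3 * ε) ^ 2 * (1 + 2 * ε) ≤ r ^ 2 + 2 * ε * ((Rmax + 3) ^ 2 + 3 * Rmax + 5) := by
    have h2 : (r + 3 * ε) ^ 2 ≤ (Rmax + 3) ^ 2 := by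
      apply pow_le_pow_left₀ (by positivity); linarith
    have h3 : ε * r ≤ ε * Rmax := mul_le_mul_of_nonneg_left hr hε0.le
    have h4 : ε * ε ≤ ε * 1 := mul_le_mul_of_nonneg_left hε1 hε0.le
    have h5 : ε * (r + 3 * ε) ^ 2 ≤ ε * (Rmax + 3) ^ 2 := mul_le_mul_of_nonneg_left h2 hε0.le
    nlinarith
  have hK : 0 ≤ ε * ((Rmax + 3) ^ 2 + 3 * Rmax + 5) := by
    have : 0 ≤ Rmax := hr0.trans hr
    positivity
  calc (r + 3 * ε) ^ 2 * ((1 + 2 * ε) * Δ) / (2 * D)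
      = ((r + 3 * ε) ^ 2 * (1 + 2 * ε)) * (Δ / (2 * D)) := by ring
    _ ≤ (r ^ 2 + 2 * ε * ((Rmax + 3) ^ 2 + 3 * Rmax + 5)) * (Δ / (2 * D)) :=
        mul_le_mul_of_nonneg_right h1 (by positivity)
    _ = (r ^ 2 / (2 * D) + ε * ((Rmax + 3) ^ 2 + 3 * Rmax + 5) / D) * Δ := by
        field_simp
    _ ≤ (r ^ 2 / (2 * D) + ε * ((Rmax + 3) ^ 2 + 3 * Rmax + 5)) * Δ := by
        apply mul_le_mul_of_nonneg_right _ hΔ
        have := div_le_self hK hD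
        linarith

lemma lower_num (r ε Rmax D Δ : ℝ) (hr0 : 0 ≤ r) (hr : r ≤ Rmax) (hε0 : 0 < ε)
    (hD : 1 ≤ D) (hΔ : 0 ≤ Δ) :
    (r ^ 2 / (2 * D) - ε * ((Rmax + 3) ^ 2 + 3 * Rmax + 5)) * Δ
      ≤ (max (r - ε) 0) ^ 2 * Δ / (2 * D) := by
  have hD0 : 0 < D := lt_of_lt_of_le one_pos hD
  have hRmax : 0 ≤ Rmax := hr0.trans hr
  have h1 : r ^ 2 - 2 * ε * ((Rmax + 3) ^ 2 + 3 * Rmax + 5) ≤ (max (r - ε) 0) ^ 2 := by
    have h3 : ε * r ≤ ε * Rmax := mul_le_mul_of_nonneg_left hr hε0.le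
    have h4 : r ^ 2 - 2 * ε * r ≤ (max (r - ε) 0) ^ 2 := by
      rcases le_total ε r with h | h
      · rw [max_eq_left (by linarith)]; nlinarith
      · rw [max_eq_right (by linarith)]; nlinarith
    nlinarith
  have hK : 0 ≤ ε * ((Rmax + 3) ^ 2 + 3 * Rmax + 5) := by positivity
  calc (r ^ 2 / (2 * D) - ε * ((Rmax + 3) ^ 2 + 3 * Rmax + 5)) * Δ
      ≤ (r ^ 2 / (2 * D) - ε * ((Rmax + 3) ^ 2 + 3 * Rmax + 5) / D) * Δ := by
        apply mul_le_mul_of_nonneg_right _ hΔ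
        have := div_le_self hK hD
        linarith
    _ = (r ^ 2 - 2 * ε * ((Rmax + 3) ^ 2 + 3 * Rmax + 5)) * (Δ / (2 * D)) := by
        field_simp
    _ ≤ (max (r - ε) 0) ^ 2 * (Δ / (2 * D)) := mul_le_mul_of_nonneg_right h1 (by positivity)
    _ = (max (r - ε) 0) ^ 2 * Δ / (2 * D) := by ring


end Crest.Agent.Lib_helper17_Sweep
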