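import Crest.Agent.Lib_helper17_Sweep

/-!
Main assembly for S0328, relative to the triangle area formula `hTri`.
-/

set_option autoImplicit false
open MeasureTheory
open scoped ENNReal

namespace Crest.Agent.Lib_helper17_SweepMain

open Crest.Agent.Lib_helper17_Sweep

theorem sweep_main
    (hTri : ∀ p q r : E3, μHE[2] (convexHull ℝ ({p, q, r} : Set E3)) =
      ENNReal.ofReal (Real.sqrt (‖q - p‖ ^ 2 * ‖r - p‖ ^ 2 - inner ℝ (q - p) (r - p) ^ 2) / 2))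
    (e a b p₀ : EuclideanSpace ℝ (Fin 3)) (he : ‖e‖ = 1)
    (ha : inner ℝ a e = 0) (hb : inner ℝ b e = 0) (hp₀ : inner ℝ p₀ e = 0)
    (hab : LinearIndependent ℝ ![a, b]) (L : ℝ) (hL : 0 < L) (α β : ℝ) (hαβ : α < β)
    (R : ℝ → ℝ) (hR : ContinuousOn R (Set.Icc α β)) (hR0 : ∀ t ∈ Set.Icc α β, 0 ≤ R t)
    (w : ℝ → EuclideanSpace ℝ (Fin 3)) (hw : ∀ t ∈ Set.Icc α β, inner ℝ (w t) e = 0)
    (lam : ℝ → ℝ) (hlam : ContinuousOn lam (Set.Icc α β))
    (hw' : ∀ t ∈ Set.Icc α β, HasDerivWithinAt w (lam t • (a + t • b)) (Set.Icc α β) t)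
    (η : ℝ) (hη : 0 < η) :
    ∃ δ : ℝ, 0 < δ ∧ ∀ (N : ℕ) (t : Fin (N + 1) → ℝ) (c : Fin N → ℝ),
      StrictMono t → t 0 = α → t (Fin.last N) = β →
      (∀ i : Fin N, t i.succ - t i.castSucc ≤ δ) →
      (∀ i : Fin N, t i.castSucc ≤ c i ∧ c i ≤ t i.succ) →
      (∃ (p q r : Fin N → EuclideanSpace ℝ (Fin 3)),
        (∀ i, inner ℝ (p i) (e + w (c i)) = 0 ∧ inner ℝ (q i) (e + w (c i)) = 0 ∧
          inner ℝ (r i) (e + w (c i)) = 0) ∧
        (∀ i, AffineIndependent ℝ ![p i, q i, r i]) ∧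
        {x : EuclideanSpace ℝ (Fin 3) | ∃ τ ∈ Set.Icc α β, ∃ ρ ∈ Set.Icc 0 (R τ), ∃ s : ℝ, abs s ≤ L ∧
            x = p₀ + ρ • (a + τ • b) + s • (e + w τ)} ⊆
          ⋃ i, {x : EuclideanSpace ℝ (Fin 3) | ∃ y ∈ convexHull ℝ {p i, q i, r i}, ∃ σ : ℝ,
            x = y + σ • (e + w (c i))} ∧
        abs ((∑ i, (μHE[2] (convexHull ℝ ({p i, q i, r i} : Set (EuclideanSpace ℝ (Fin 3))))).toReal) -
            Real.sqrt (‖a‖ ^ 2 * ‖b‖ ^ 2 - inner ℝ a b ^ 2) *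
              ∫ τ in α..β, R τ ^ 2 / (2 * Real.sqrt (1 + ‖w τ‖ ^ 2))) ≤ η) ∧
      abs ((∑ i : Fin N, (μHE[2] ((fun y => y - (inner ℝ y (e + w (c i)) / ‖e + w (c i)‖ ^ 2) • (e + w (c i))) ''
            {x : EuclideanSpace ℝ (Fin 3) | ∃ τ ∈ Set.Icc (t i.castSucc) (t i.succ), ∃ ρ ∈ Set.Icc 0 (R τ),
              ∃ s : ℝ, abs s ≤ L ∧ x = p₀ + ρ • (a + τ • b) + s • (e + w τ)})).toReal) -
          Real.sqrt (‖a‖ ^ 2 * ‖b‖ ^ 2 - inner ℝ a b ^ 2) *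
            ∫ τ in α..β, R τ ^ 2 / (2 * Real.sqrt (1 + ‖w τ‖ ^ 2))) ≤ η := by
  have hκdef : Real.sqrt (‖a‖ ^ 2 * ‖b‖ ^ 2 - inner ℝ a b ^ 2) = Real.sqrt (gram2 a b) := rfl
  simp only [hκdef]
  have hG : 0 < gram2 a b := gram2_pos_of_linearIndependent a b hab
  have hκ0 : 0 < Real.sqrt (gram2 a b) := Real.sqrt_pos.mpr hG
  obtain ⟨Λ, hΛ0, hΛ⟩ : ∃ Λ : ℝ, 0 < Λ ∧ ∀ t ∈ Set.Icc α β, |lam t| ≤ Λ := by
    obtain ⟨C, hC⟩ := isCompact_Icc.exists_bound_of_continuousOn hlam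
    exact ⟨max C 1, by positivity, fun t ht => (hC t ht).trans (le_max_left _ _)⟩
  obtain ⟨Rmax, hRmax0, hRmax⟩ : ∃ Rmax : ℝ, 0 ≤ Rmax ∧ ∀ t ∈ Set.Icc α β, R t ≤ Rmax := by
    obtain ⟨C, hC⟩ := isCompact_Icc.exists_bound_of_continuousOn hR
    exact ⟨max C 0, le_max_right _ _,
      fun t ht => ((le_abs_self _).trans (hC t ht)).trans (le_max_left _ _)⟩
  have hwcont : ContinuousOn w (Set.Icc α β) := fun t ht => (hw' t ht).continuousWithinAt
  have hfcont : ContinuousOn (fun τ => R τ ^ 2 / (2 * Real.sqrt (1 + ‖w τ‖ ^ 2))) (Set.Icc α β) := by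
    refine ContinuousOn.div (hR.pow 2) (continuousOn_const.mul
      (Real.continuous_sqrt.comp_continuousOn (continuousOn_const.add (hwcont.norm.pow 2)))) ?_
    intro x _
    positivity
  obtain ⟨f, hf⟩ : ∃ f : ℝ → ℝ, f = fun τ => R τ ^ 2 / (2 * Real.sqrt (1 + ‖w τ‖ ^ 2)) := ⟨_, rfl⟩
  rw [← hf] at hfcont ⊢
  have hβα : 0 < β - α := sub_pos.mpr hαβ
  obtain ⟨K₂, hK₂⟩ : ∃ K₂ : ℝ, K₂ = (Rmax + 3) ^ 2 + 3 * Rmax + 5 := ⟨_, rfl⟩
  have hK₂0 : 0 < K₂ := by rw [hK₂]; positivity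
  obtain ⟨ε, hε⟩ : ∃ ε : ℝ, ε = min 1 (η / (Real.sqrt (gram2 a b) * (β - α) * (K₂ + 1))) := ⟨_, rfl⟩
  have hε0 : 0 < ε := by rw [hε]; exact lt_min one_pos (by positivity)
  have hε1 : ε ≤ 1 := by rw [hε]; exact min_le_left _ _
  have hεη : Real.sqrt (gram2 a b) * (β - α) * (K₂ + 1) * ε ≤ η := by
    have h1 : ε ≤ η / (Real.sqrt (gram2 a b) * (β - α) * (K₂ + 1)) := by
      rw [hε]; exact min_le_right _ _
    rw [le_div_iff₀ (by positivity)] at h1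
    linarith
  obtain ⟨δ₁, hδ₁, hRuc⟩ := Metric.uniformContinuousOn_iff_le.mp
    (isCompact_Icc.uniformContinuousOn_of_continuous hR) ε hε0
  obtain ⟨δ₂, hδ₂, hfuc⟩ := Metric.uniformContinuousOn_iff_le.mp
    (isCompact_Icc.uniformContinuousOn_of_continuous hfcont) ε hε0
  obtain ⟨δ₃, hδ₃⟩ : ∃ δ₃ : ℝ, δ₃ = ε * ε / (L * Λ * (ε + 2)) := ⟨_, rfl⟩
  have hδ₃0 : 0 < δ₃ := by rw [hδ₃]; positivity
  obtain ⟨δ, hδ⟩ : ∃ δ : ℝ, δ = min δ₁ (min δ₂ δ₃) := ⟨_, rfl⟩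
  have hδ0 : 0 < δ := by rw [hδ]; exact lt_min hδ₁ (lt_min hδ₂ hδ₃0)
  have hδδ₁ : δ ≤ δ₁ := by rw [hδ]; exact min_le_left _ _
  have hδδ₂ : δ ≤ δ₂ := by rw [hδ]; exact (min_le_right _ _).trans (min_le_left _ _)
  have hδδ₃ : δ ≤ δ₃ := by rw [hδ]; exact (min_le_right _ _).trans (min_le_right _ _)
  obtain ⟨ξ, hξdef⟩ : ∃ ξ : ℝ, ξ = L * Λ * δ * (ε + 2) / ε := ⟨_, rfl⟩
  have hξeq : ξ * ε = L * Λ * δ * (ε + 2) := by rw [hξdef, div_mul_cancel₀ _ hε0.ne']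
  have hLΛ : 0 < L * Λ := mul_pos hL hΛ0
  have hξε : ξ ≤ ε := by
    rw [hξdef, div_le_iff₀ hε0]
    calc L * Λ * δ * (ε + 2) ≤ L * Λ * δ₃ * (ε + 2) := by gcongr
      _ = ε * ε := by rw [hδ₃]; field_simp
  have hLΛδ : L * Λ * δ ≤ ε := by
    have h1 : L * Λ * δ * ε ≤ L * Λ * δ * (ε + 2) :=
      mul_le_mul_of_nonneg_left (by linarith) (by positivity)
    have h2 : L * Λ * δ * ε ≤ ε * ε := by
      calc L * Λ * δ * ε ≤ L * Λ * δ * (ε + 2) := h1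
        _ = ξ * ε := hξeq.symm
        _ ≤ ε * ε := mul_le_mul_of_nonneg_right hξε hε0.le
    exact le_of_mul_le_mul_right h2 hε0
  have hRuc' : ∀ x ∈ Set.Icc α β, ∀ y ∈ Set.Icc α β, |x - y| ≤ δ → |R x - R y| ≤ ε := by
    intro x hx y hy hxy
    have := hRuc x hx y hy (by rw [Real.dist_eq]; exact hxy.trans hδδ₁)
    rwa [Real.dist_eq] at this
  refine ⟨δ, hδ0, ?_⟩
  intro N t c hmono h0 hlast hstep hc
  have hN : 0 < N := by
    rcases Nat.eq_zero_or_pos N with h | h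
    · subst h
      exfalso
      have h1 : t 0 = t (Fin.last 0) := rfl
      linarith
    · exact h
  have hlt : ∀ i : Fin N, t i.castSucc < t i.succ := fun i => hmono (Fin.castSucc_lt_succ)
  have hαt : ∀ i : Fin N, α ≤ t i.castSucc := fun i => by
    rw [← h0]; exact hmono.monotone (Fin.zero_le _)
  have htβ : ∀ i : Fin N, t i.succ ≤ β := fun i => by
    rw [← hlast]; exact hmono.monotone (Fin.le_last _)
  have hcI : ∀ i : Fin N, c i ∈ Set.Icc α β := fun i =>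
    ⟨(hαt i).trans (hc i).1, (hc i).2.trans (htβ i)⟩
  have hpiece := fun i : Fin N => piece_main hTri e a b p₀ he ha hb hG L hL α β R hR0 w hw lam hlam hw'
    Λ hΛ0 hΛ ε δ ξ hε0 hξeq.symm.le hξε hLΛδ hRuc' (t i.castSucc) (t i.succ) (c i) (hαt i) (htβ i)
    (hlt i) (hstep i) (hc i)
  choose p q r hperp haff hcov harea hup hlo using hpiece
  -- Riemann sum facts
  have hD1 : ∀ i : Fin N, 1 ≤ Real.sqrt (1 + ‖w (c i)‖ ^ 2) := fun i => by
    rw [Real.one_le_sqrt]; nlinarith [sq_nonneg ‖w (c i)‖]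
  have hfc : ∀ i : Fin N, f (c i) = R (c i) ^ 2 / (2 * Real.sqrt (1 + ‖w (c i)‖ ^ 2)) := fun i => by
    rw [hf]
  have hRS : |∑ i : Fin N, f (c i) * (t i.succ - t i.castSucc) - ∫ x in α..β, f x| ≤ ε * (β - α) := by
    have h := riemann_sum_le N t c f ε (fun i => (hlt i).le)
      (fun i => (hfcont.mono (Set.uIcc_subset_Icc ⟨hαt i, (hlt i).le.trans (htβ i)⟩
        ⟨(hαt i).trans (hlt i).le, htβ i⟩)).intervalIntegrable)
      (fun i x hx => by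
        have hxI : x ∈ Set.Icc α β := ⟨(hαt i).trans hx.1, hx.2.trans (htβ i)⟩
        have := hfuc x hxI (c i) (hcI i) (by
          rw [Real.dist_eq]
          refine le_trans ?_ ((hstep i).trans hδδ₂)
          rw [abs_le]; constructor <;> linarith [hx.1, hx.2, (hc i).1, (hc i).2])
        rwa [Real.dist_eq] at this)
    rwa [h0, hlast] at h
  have hsumΔ : ∑ i : Fin N, (t i.succ - t i.castSucc) = β - α := by
    rw [sum_diff, h0, hlast]
  -- any family squeezed between the lower and upper piece areas has the right sum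
  have hsqueeze : ∀ X : Fin N → ℝ,
      (∀ i, X i ≤ Real.sqrt (gram2 a b) * ((R (c i) + 3 * ε) ^ 2 * ((1 + 2 * ε) * (t i.succ - t i.castSucc))) /
          (2 * Real.sqrt (1 + ‖w (c i)‖ ^ 2))) →
      (∀ i, Real.sqrt (gram2 a b) * ((max (R (c i) - ε) 0) ^ 2 * (t i.succ - t i.castSucc)) /
          (2 * Real.sqrt (1 + ‖w (c i)‖ ^ 2)) ≤ X i) →
      |∑ i, X i - Real.sqrt (gram2 a b) * ∫ x in α..β, f x| ≤ η := by
    intro X hX1 hX2
    have hU : ∀ i, X i ≤ Real.sqrt (gram2 a b) * ((f (c i) + ε * K₂) * (t i.succ - t i.castSucc)) := by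
      intro i
      refine (hX1 i).trans ?_
      have h := upper_num (R (c i)) ε Rmax (Real.sqrt (1 + ‖w (c i)‖ ^ 2)) (t i.succ - t i.castSucc)
        (hR0 _ (hcI i)) (hRmax _ (hcI i)) hε0 hε1 (hD1 i) (sub_nonneg.mpr (hlt i).le)
      rw [hfc i, hK₂, mul_div_assoc]
      exact mul_le_mul_of_nonneg_left h hκ0.le
    have hLo : ∀ i, Real.sqrt (gram2 a b) * ((f (c i) - ε * K₂) * (t i.succ - t i.castSucc)) ≤ X i := by
      intro i
      refine le_trans ?_ (hX2 i)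
      have h := lower_num (R (c i)) ε Rmax (Real.sqrt (1 + ‖w (c i)‖ ^ 2)) (t i.succ - t i.castSucc)
        (hR0 _ (hcI i)) (hRmax _ (hcI i)) hε0 (hD1 i) (sub_nonneg.mpr (hlt i).le)
      rw [hfc i, hK₂, mul_div_assoc]
      exact mul_le_mul_of_nonneg_left h hκ0.le
    have hsU : ∑ i, X i ≤ Real.sqrt (gram2 a b) *
        (∑ i : Fin N, f (c i) * (t i.succ - t i.castSucc) + ε * K₂ * (β - α)) := by
      calc ∑ i, X i ≤ ∑ i : Fin N, Real.sqrt (gram2 a b) * ((f (c i) + ε * K₂) * (t i.succ - t i.castSucc)) :=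
            Finset.sum_le_sum fun i _ => hU i
        _ = Real.sqrt (gram2 a b) *
            (∑ i : Fin N, f (c i) * (t i.succ - t i.castSucc) + ε * K₂ * (β - α)) := by
            rw [← hsumΔ, Finset.mul_sum, ← Finset.sum_add_distrib, Finset.mul_sum]
            refine Finset.sum_congr rfl fun i _ => by ring
    have hsL : Real.sqrt (gram2 a b) *
        (∑ i : Fin N, f (c i) * (t i.succ - t i.castSucc) - ε * K₂ * (β - α)) ≤ ∑ i, X i := by
      calc Real.sqrt (gram2 a b) *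
            (∑ i : Fin N, f (c i) * (t i.succ - t i.castSucc) - ε * K₂ * (β - α))
          = ∑ i : Fin N, Real.sqrt (gram2 a b) * ((f (c i) - ε * K₂) * (t i.succ - t i.castSucc)) := by
            rw [← hsumΔ, Finset.mul_sum, ← Finset.sum_sub_distrib, Finset.mul_sum]
            refine Finset.sum_congr rfl fun i _ => by ring
        _ ≤ ∑ i, X i := Finset.sum_le_sum fun i _ => hLo i
    obtain ⟨hRS1, hRS2⟩ := abs_le.mp hRS
    have e1 : Real.sqrt (gram2 a b) * (∑ i : Fin N, f (c i) * (t i.succ - t i.castSucc) + ε * K₂ * (β - α))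
        ≤ Real.sqrt (gram2 a b) * ((∫ x in α..β, f x) + ε * (β - α) + ε * K₂ * (β - α)) :=
      mul_le_mul_of_nonneg_left (by linarith) hκ0.le
    have e2 : Real.sqrt (gram2 a b) * ((∫ x in α..β, f x) - ε * (β - α) - ε * K₂ * (β - α))
        ≤ Real.sqrt (gram2 a b) * (∑ i : Fin N, f (c i) * (t i.succ - t i.castSucc) - ε * K₂ * (β - α)) :=
      mul_le_mul_of_nonneg_left (by linarith) hκ0.le
    have e3 : Real.sqrt (gram2 a b) * ((∫ x in α..β, f x) + ε * (β - α) + ε * K₂ * (β - α))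
        = Real.sqrt (gram2 a b) * (∫ x in α..β, f x)
          + Real.sqrt (gram2 a b) * (β - α) * (K₂ + 1) * ε := by ring
    have e4 : Real.sqrt (gram2 a b) * ((∫ x in α..β, f x) - ε * (β - α) - ε * K₂ * (β - α))
        = Real.sqrt (gram2 a b) * (∫ x in α..β, f x)
          - Real.sqrt (gram2 a b) * (β - α) * (K₂ + 1) * ε := by ring
    rw [abs_le]
    constructor <;> linarith
  refine ⟨⟨p, q, r, hperp, haff, ?_, ?_⟩, ?_⟩
  · rintro x ⟨τ, hτ, ρ, hρ, s, hs, rfl⟩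
    obtain ⟨i, hi1, hi2⟩ := exists_piece N t τ hN (by rw [h0]; exact hτ.1) (by rw [hlast]; exact hτ.2)
    rw [Set.mem_iUnion]
    exact ⟨i, hcov i τ ⟨hi1, hi2⟩ ρ hρ s hs⟩
  · exact hsqueeze _ (fun i => (harea i).le) (fun i => by
      rw [harea i]
      have hmle : max (R (c i) - ε) 0 ≤ R (c i) + 3 * ε :=
        max_le (by linarith) (by have := hR0 _ (hcI i); linarith)
      have hm0 : 0 ≤ max (R (c i) - ε) 0 := le_max_right _ _
      have hΔ0 : 0 ≤ t i.succ - t i.castSucc := sub_nonneg.mpr (hlt i).le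
      have h1 : (max (R (c i) - ε) 0) ^ 2 ≤ (R (c i) + 3 * ε) ^ 2 := pow_le_pow_left₀ hm0 hmle 2
      have h2 : (t i.succ - t i.castSucc) ≤ (1 + 2 * ε) * (t i.succ - t i.castSucc) := by nlinarith
      gcongr)
  · exact hsqueeze _ hup hlo

end Crest.Agent.Lib_helper17_SweepMain
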