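import Mathlib
import Crest.Agent.Lib_helper18_Area

set_option autoImplicit false
open MeasureTheory
open scoped ENNReal

namespace Crest.Agent.Lib_helper18_Core

open Crest.Agent.Lib_helper18_Area

/-! ### Real-variable part of the construction -/

/-- Radius profile of the sweep. -/
noncomputable def Rf (μ t : ℝ) : ℝ := 1 / 2 + μ ^ 2 * (t ^ 2 + t ^ 4) / 4 + μ ^ 4 / 2

/-- Every point of the wedge lies on a tangent half-plane of the cone. -/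
lemma exists_param (s y lam : ℝ) (hy : |y| ≤ lam) :
    ∃ t ρ : ℝ, |t| ≤ 1 ∧ 0 ≤ ρ ∧ lam = ρ + s * t ∧ y = ρ * t + s * (1 + t ^ 2) / 2 := by
  have hlam : 0 ≤ lam := le_trans (abs_nonneg _) hy
  obtain ⟨hy1, hy2⟩ := abs_le.1 hy
  by_cases hs : s = 0
  · subst hs
    rcases hlam.eq_or_lt with h0 | hpos
    · have hy0 : y = 0 := by linarith
      exact ⟨0, 0, by simp, le_refl _, by simp [← h0], by simp [hy0]⟩
    · refine ⟨y / lam, lam, ?_, hlam, by simp, ?_⟩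
      · rw [abs_div, abs_of_pos hpos, div_le_one hpos]; exact hy
      · field_simp
        ring
  · have hsy : s * y ≤ |s| * lam := by
      calc s * y ≤ |s * y| := le_abs_self _
        _ = |s| * |y| := abs_mul _ _
        _ ≤ |s| * lam := mul_le_mul_of_nonneg_left hy (abs_nonneg _)
    have hsy' : -(|s| * lam) ≤ s * y := by
      calc -(|s| * lam) ≤ -(|s| * |y|) := by
            have := mul_le_mul_of_nonneg_left hy (abs_nonneg s); linarith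
        _ = -|s * y| := by rw [abs_mul]
        _ ≤ s * y := neg_abs_le _
    have hss : |s| * |s| = s * s := abs_mul_abs_self s
    have hrad : 0 ≤ lam ^ 2 - 2 * s * y + s ^ 2 := by
      nlinarith [sq_nonneg (lam - |s|)]
    set ρ := Real.sqrt (lam ^ 2 - 2 * s * y + s ^ 2) with hρ
    have hρ0 : 0 ≤ ρ := Real.sqrt_nonneg _
    have hρsq : ρ ^ 2 = lam ^ 2 - 2 * s * y + s ^ 2 := Real.sq_sqrt hrad
    have h_up : ρ ≤ lam + |s| := by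
      rw [hρ]
      apply Real.sqrt_le_iff.2
      refine ⟨by positivity, ?_⟩
      nlinarith
    have h_lo : lam - |s| ≤ ρ := by
      by_cases hneg : lam - |s| ≤ 0
      · linarith
      · rw [not_le] at hneg
        rw [hρ]
        apply Real.le_sqrt_of_sq_le
        nlinarith
    have hspos : 0 < |s| := abs_pos.2 hs
    refine ⟨(lam - ρ) / s, ρ, ?_, hρ0, ?_, ?_⟩
    · rw [abs_div, div_le_one hspos, abs_le]
      constructor <;> linarith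
    · field_simp
      ring
    · field_simp
      nlinarith [hρsq]

lemma star_poly (μ t₁ t₂ : ℝ) (hμ : 0 ≤ μ) (h₁ : |t₁| ≤ 1) (h₂ : |t₂| ≤ 1) :
    1 + (μ * (1 + t₁ ^ 2) / 2) * (μ * (1 + t₂ ^ 2) / 2) ≤
      Rf μ t₁ * (1 + (μ * (1 + t₁ ^ 2) / 2) * (μ * (1 + t₂ ^ 2) / 2)
          + μ * (t₁ * t₂ - (μ * (1 + t₂ ^ 2) / 2) * t₁ ^ 2)) +
      Rf μ t₂ * (1 + (μ * (1 + t₁ ^ 2) / 2) * (μ * (1 + t₂ ^ 2) / 2)
          - μ * (t₁ * t₂ + (μ * (1 + t₁ ^ 2) / 2) * t₂ ^ 2)) := by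
  have ha0 : 0 ≤ t₁ ^ 2 := sq_nonneg _
  have hb0 : 0 ≤ t₂ ^ 2 := sq_nonneg _
  have ha1 : t₁ ^ 2 ≤ 1 := by
    have := abs_le.1 h₁; nlinarith
  have hb1 : t₂ ^ 2 ≤ 1 := by
    have := abs_le.1 h₂; nlinarith
  have key : Rf μ t₁ * (1 + (μ * (1 + t₁ ^ 2) / 2) * (μ * (1 + t₂ ^ 2) / 2)
          + μ * (t₁ * t₂ - (μ * (1 + t₂ ^ 2) / 2) * t₁ ^ 2)) +
      Rf μ t₂ * (1 + (μ * (1 + t₁ ^ 2) / 2) * (μ * (1 + t₂ ^ 2) / 2)
          - μ * (t₁ * t₂ + (μ * (1 + t₁ ^ 2) / 2) * t₂ ^ 2))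
      - (1 + (μ * (1 + t₁ ^ 2) / 2) * (μ * (1 + t₂ ^ 2) / 2)) =
      (μ * (t₁ ^ 2 - t₂ ^ 2) / 2 + μ ^ 2 * (t₁ * t₂) * (1 + t₁ ^ 2 + t₂ ^ 2) / 4) ^ 2
      + μ ^ 4 * (1 + (1 + t₁ ^ 2) * (1 + t₂ ^ 2) * (t₁ ^ 2 + t₂ ^ 2 - t₁ ^ 4 - t₂ ^ 4) / 16
          - (t₁ ^ 2 * t₂ ^ 2) * (1 + t₁ ^ 2 + t₂ ^ 2) ^ 2 / 16)
      + μ ^ 6 * (1 - t₁ ^ 2 * t₂ ^ 2) / 4 := by
    unfold Rf; ring
  have hE : 0 ≤ (1 + t₁ ^ 2) * (1 + t₂ ^ 2) * (t₁ ^ 2 + t₂ ^ 2 - t₁ ^ 4 - t₂ ^ 4) / 16 := by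
    have : 0 ≤ t₁ ^ 2 + t₂ ^ 2 - t₁ ^ 4 - t₂ ^ 4 := by nlinarith
    positivity
  have hS : (t₁ ^ 2 * t₂ ^ 2) * (1 + t₁ ^ 2 + t₂ ^ 2) ^ 2 / 16 ≤ 9 / 16 := by
    have h3 : (1 + t₁ ^ 2 + t₂ ^ 2) ^ 2 ≤ 9 := by nlinarith
    have hab : t₁ ^ 2 * t₂ ^ 2 ≤ 1 := by nlinarith
    have : (t₁ ^ 2 * t₂ ^ 2) * (1 + t₁ ^ 2 + t₂ ^ 2) ^ 2 ≤ 1 * 9 :=
      mul_le_mul hab h3 (sq_nonneg _) (by norm_num)
    linarith
  have h4 : 0 ≤ μ ^ 4 * (1 + (1 + t₁ ^ 2) * (1 + t₂ ^ 2) * (t₁ ^ 2 + t₂ ^ 2 - t₁ ^ 4 - t₂ ^ 4) / 16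
          - (t₁ ^ 2 * t₂ ^ 2) * (1 + t₁ ^ 2 + t₂ ^ 2) ^ 2 / 16) := by
    apply mul_nonneg (by positivity); linarith
  have h6 : 0 ≤ μ ^ 6 * (1 - t₁ ^ 2 * t₂ ^ 2) / 4 := by
    have : 0 ≤ 1 - t₁ ^ 2 * t₂ ^ 2 := by nlinarith
    positivity
  nlinarith [sq_nonneg (μ * (t₁ ^ 2 - t₂ ^ 2) / 2 + μ ^ 2 * (t₁ * t₂) * (1 + t₁ ^ 2 + t₂ ^ 2) / 4)]

lemma star (μ x y lam t₁ ρ₁ t₂ ρ₂ : ℝ) (hμ : 0 < μ) (hμ1 : μ ≤ 1 / 20) (h₁ : |t₁| ≤ 1)
    (h₂ : |t₂| ≤ 1)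
    (e1 : lam = ρ₁ + μ * x * t₁) (e2 : y = ρ₁ * t₁ + μ * x * (1 + t₁ ^ 2) / 2)
    (e3 : 1 - lam = ρ₂ + μ * y * t₂) (e4 : -x = ρ₂ * t₂ + μ * y * (1 + t₂ ^ 2) / 2) :
    ρ₁ ≤ Rf μ t₁ ∨ ρ₂ ≤ Rf μ t₂ := by
  by_contra hcon
  rw [not_or, not_le, not_le] at hcon
  obtain ⟨hc1, hc2⟩ := hcon
  have ha0 : 0 ≤ t₁ ^ 2 := sq_nonneg _
  have hb0 : 0 ≤ t₂ ^ 2 := sq_nonneg _
  have ha1 : t₁ ^ 2 ≤ 1 := by
    have := abs_le.1 h₁; nlinarith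
  have hb1 : t₂ ^ 2 ≤ 1 := by
    have := abs_le.1 h₂; nlinarith
  have hs1 : t₁ * t₂ ≤ 1 := by
    have := abs_le.1 h₁; have := abs_le.1 h₂; nlinarith
  have hs2 : -1 ≤ t₁ * t₂ := by
    have := abs_le.1 h₁; have := abs_le.1 h₂; nlinarith
  have hpoly := star_poly μ t₁ t₂ hμ.le h₁ h₂
  set α₁ := μ * (1 + t₁ ^ 2) / 2 with hα₁
  set α₂ := μ * (1 + t₂ ^ 2) / 2 with hα₂
  have hα₁0 : 0 ≤ α₁ := by rw [hα₁]; positivity
  have hα₂0 : 0 ≤ α₂ := by rw [hα₂]; positivity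
  have hα₁1 : α₁ ≤ μ := by rw [hα₁]; nlinarith
  have hα₂1 : α₂ ≤ μ := by rw [hα₂]; nlinarith
  have hid : ρ₁ * (1 + α₁ * α₂ + μ * (t₁ * t₂ - α₂ * t₁ ^ 2)) +
      ρ₂ * (1 + α₁ * α₂ - μ * (t₁ * t₂ + α₁ * t₂ ^ 2)) = 1 + α₁ * α₂ := by
    rw [hα₁, hα₂]
    linear_combination (-(1 + (μ * (1 + t₁ ^ 2) / 2) * (μ * (1 + t₂ ^ 2) / 2))) * e1
      + (-(1 + (μ * (1 + t₁ ^ 2) / 2) * (μ * (1 + t₂ ^ 2) / 2))) * e3
      + (μ * t₁ * (μ * (1 + t₂ ^ 2) / 2) - μ * t₂) * e2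
      + (μ * t₁ + μ * t₂ * (μ * (1 + t₁ ^ 2) / 2)) * e4
  have hc₁pos : 0 < 1 + α₁ * α₂ + μ * (t₁ * t₂ - α₂ * t₁ ^ 2) := by
    have h1 : 0 ≤ α₁ * α₂ := mul_nonneg hα₁0 hα₂0
    have h2 : α₂ * t₁ ^ 2 ≤ μ * 1 := mul_le_mul hα₂1 ha1 ha0 hμ.le
    nlinarith
  have hc₂pos : 0 < 1 + α₁ * α₂ - μ * (t₁ * t₂ + α₁ * t₂ ^ 2) := by
    have h1 : 0 ≤ α₁ * α₂ := mul_nonneg hα₁0 hα₂0
    have h2 : α₁ * t₂ ^ 2 ≤ μ * 1 := mul_le_mul hα₁1 hb1 hb0 hμ.le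
    nlinarith
  have l1 := mul_lt_mul_of_pos_right hc1 hc₁pos
  have l2 := mul_lt_mul_of_pos_right hc2 hc₂pos
  linarith

/-- midpoints of the `N` equal pieces of `[-1,1]` -/
noncomputable def cmid (N : ℕ) (i : ℕ) : ℝ := -1 + (2 * (i : ℝ) + 1) / N

lemma cmid_abs_le (N : ℕ) (i : ℕ) (hi : i < N) : |cmid N i| ≤ 1 := by
  have hN : (0 : ℝ) < N := by exact_mod_cast (Nat.zero_lt_of_lt hi)
  have hi' : (i : ℝ) + 1 ≤ N := by exact_mod_cast hi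
  have hi0 : (0 : ℝ) ≤ i := Nat.cast_nonneg _
  unfold cmid
  rw [abs_le]
  constructor
  · have : 0 ≤ (2 * (i : ℝ) + 1) / N := by positivity
    linarith
  · have : (2 * (i : ℝ) + 1) / N ≤ 2 := by
      rw [div_le_iff₀ hN]; linarith
    linarith

lemma exists_piece (N : ℕ) (hN : 0 < N) (t : ℝ) (ht : |t| ≤ 1) :
    ∃ i : ℕ, i < N ∧ |t - cmid N i| ≤ 1 / N := by
  obtain ⟨ht1, ht2⟩ := abs_le.1 ht
  have hNpos : (0 : ℝ) < N := by exact_mod_cast hN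
  have hnonneg : 0 ≤ (t + 1) * N / 2 := by
    have : 0 ≤ t + 1 := by linarith
    positivity
  set k := ⌊(t + 1) * N / 2⌋₊ with hk
  have hk1 : (k : ℝ) ≤ (t + 1) * N / 2 := Nat.floor_le hnonneg
  have hk2 : (t + 1) * N / 2 < k + 1 := Nat.lt_floor_add_one _
  by_cases hkN : k < N
  · refine ⟨k, hkN, ?_⟩
    unfold cmid
    rw [abs_le]
    constructor
    · have : (2 * (k : ℝ) + 1) / N - 1 / N ≤ t + 1 := by
        rw [← sub_div, div_le_iff₀ hNpos]; linarith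
      linarith
    · have : t + 1 ≤ (2 * (k : ℝ) + 1) / N + 1 / N := by
        rw [← add_div, le_div_iff₀ hNpos]; linarith
      linarith
  · rw [not_lt] at hkN
    have hkN' : (N : ℝ) ≤ k := by exact_mod_cast hkN
    have ht1' : 1 ≤ t := by
      by_contra hlt
      rw [not_le] at hlt
      have : (t + 1) * N / 2 < N := by nlinarith
      linarith
    have hteq : t = 1 := le_antisymm ht2 ht1'
    refine ⟨N - 1, by omega, ?_⟩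
    unfold cmid
    have hcast : ((N - 1 : ℕ) : ℝ) = (N : ℝ) - 1 := by
      rw [Nat.cast_sub hN]; simp
    rw [hcast, hteq]
    have : (1 : ℝ) - (-1 + (2 * ((N : ℝ) - 1) + 1) / N) = 1 / N := by
      field_simp; ring
    rw [this, abs_of_nonneg (by positivity)]

/-- Position of a point of a plane of the sweep inside the triangle of its piece. -/
lemma weights (μ h c t x ρ : ℝ) (hμ : 0 < μ) (hμ1 : μ ≤ 1 / 20) (hh : 0 < h)
    (hc : |c| ≤ 1) (ht : |t| ≤ 1) (htc : |t - c| ≤ h) (hx : |x| ≤ 1) (hρ0 : 0 ≤ ρ)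
    (hρ : ρ ≤ Rf μ t) :
    ρ + μ * x * (t - c) ≤ Rf μ c + 2 * μ * h ∧
    |ρ * (t - c) + μ * x * (t - c) ^ 2 / 2| ≤ h * (ρ + μ * x * (t - c) + 5 * μ * h / 2) := by
  obtain ⟨hc1, hc2⟩ := abs_le.1 hc
  obtain ⟨ht1, ht2⟩ := abs_le.1 ht
  obtain ⟨hτ1, hτ2⟩ := abs_le.1 htc
  obtain ⟨hx1, hx2⟩ := abs_le.1 hx
  set τ := t - c with hτ
  have hxτ : |x * τ| ≤ h := by
    rw [abs_mul]
    calc |x| * |τ| ≤ 1 * h := mul_le_mul hx htc (abs_nonneg _) (by norm_num)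
      _ = h := one_mul _
  obtain ⟨hxτ1, hxτ2⟩ := abs_le.1 hxτ
  have hτsq : τ ^ 2 ≤ h ^ 2 := by
    have : |τ| ^ 2 ≤ h ^ 2 := pow_le_pow_left₀ (abs_nonneg _) htc 2
    rwa [sq_abs] at this
  have hxτ2' : |x * τ ^ 2| ≤ h ^ 2 := by
    rw [abs_mul, abs_of_nonneg (sq_nonneg τ)]
    calc |x| * τ ^ 2 ≤ 1 * h ^ 2 := mul_le_mul hx hτsq (sq_nonneg _) (by norm_num)
      _ = h ^ 2 := one_mul _
  obtain ⟨hq1, hq2⟩ := abs_le.1 hxτ2'
  constructor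
  · -- Rf t - Rf c ≤ 3 μ² h / 2
    have hR : Rf μ t - Rf μ c = μ ^ 2 * ((t - c) * ((t + c) * (1 + t ^ 2 + c ^ 2))) / 4 := by
      unfold Rf; ring
    have hprod : (t - c) * ((t + c) * (1 + t ^ 2 + c ^ 2)) ≤ h * 6 := by
      have h1 : |(t + c) * (1 + t ^ 2 + c ^ 2)| ≤ 2 * 3 := by
        rw [abs_mul]
        apply mul_le_mul
        · rw [abs_le]; constructor <;> linarith
        · rw [abs_le]; constructor <;> nlinarith
        · exact abs_nonneg _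
        · norm_num
      calc (t - c) * ((t + c) * (1 + t ^ 2 + c ^ 2))
          ≤ |(t - c) * ((t + c) * (1 + t ^ 2 + c ^ 2))| := le_abs_self _
        _ = |t - c| * |(t + c) * (1 + t ^ 2 + c ^ 2)| := abs_mul _ _
        _ ≤ h * (2 * 3) := mul_le_mul htc h1 (abs_nonneg _) hh.le
        _ = h * 6 := by ring
    have hμ2 : μ ^ 2 ≤ μ * (1 / 20) := by nlinarith
    have h3 : μ ^ 2 * ((t - c) * ((t + c) * (1 + t ^ 2 + c ^ 2))) ≤ μ ^ 2 * (h * 6) :=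
      mul_le_mul_of_nonneg_left hprod (sq_nonneg _)
    have h4 : μ * (x * τ) ≤ μ * h := mul_le_mul_of_nonneg_left hxτ2 hμ.le
    have h5 : μ ^ 2 * (h * 6) ≤ μ * (1 / 20) * (h * 6) :=
      mul_le_mul_of_nonneg_right hμ2 (by positivity)
    have h6 : 0 < μ * h := mul_pos hμ hh
    nlinarith
  · rw [abs_le]
    have e1 : 0 ≤ ρ * (h - τ) := mul_nonneg hρ0 (by linarith)
    have e2 : 0 ≤ ρ * (h + τ) := mul_nonneg hρ0 (by linarith)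
    have e3 : μ * (x * τ) ≥ μ * (-h) := mul_le_mul_of_nonneg_left hxτ1 hμ.le
    have e4 : μ * (x * τ ^ 2) ≥ μ * (-h ^ 2) := mul_le_mul_of_nonneg_left hq1 hμ.le
    have e5 : μ * (x * τ ^ 2) ≤ μ * (h ^ 2) := mul_le_mul_of_nonneg_left hq2 hμ.le
    have e6 : 0 < μ * h ^ 2 := by positivity
    constructor
    · nlinarith
    · nlinarith

/-! ### Sums over the midpoints -/

lemma sum_sq_aux (n : ℕ) (M : ℝ) : ∑ i ∈ Finset.range n, ((2 * (i : ℝ) + 1) - M) ^ 2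
    = n * (4 * n ^ 2 - 1) / 3 - 2 * M * n ^ 2 + M ^ 2 * n := by
  induction n with
  | zero => simp
  | succ k ih => rw [Finset.sum_range_succ, ih]; push_cast; ring

lemma sum_four_aux (n : ℕ) (M : ℝ) : ∑ i ∈ Finset.range n, ((2 * (i : ℝ) + 1) - M) ^ 4
    = M ^ 4 * n - 4 * M ^ 3 * n ^ 2 + 2 * M ^ 2 * n * (4 * n ^ 2 - 1)
      - 4 * M * n ^ 2 * (2 * n ^ 2 - 1) + n * (48 * n ^ 4 - 40 * n ^ 2 + 7) / 15 := by
  induction n with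
  | zero => simp
  | succ k ih => rw [Finset.sum_range_succ, ih]; push_cast; ring

lemma cmid_eq (N : ℕ) (hN : 0 < N) (i : ℕ) : cmid N i = ((2 * (i : ℝ) + 1) - N) / N := by
  have hNpos : (0 : ℝ) < N := by exact_mod_cast hN
  unfold cmid; field_simp; ring

lemma sum_cmid_sq (N : ℕ) (hN : 0 < N) :
    ∑ i ∈ Finset.range N, (cmid N i) ^ 2 = (N : ℝ) * (1 - 1 / (N : ℝ) ^ 2) / 3 := by
  have hNpos : (0 : ℝ) < N := by exact_mod_cast hN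
  have h1 : ∀ i ∈ Finset.range N, (cmid N i) ^ 2 = ((2 * (i : ℝ) + 1) - N) ^ 2 / (N : ℝ) ^ 2 := by
    intro i _; rw [cmid_eq N hN, div_pow]
  rw [Finset.sum_congr rfl h1, ← Finset.sum_div, sum_sq_aux]
  field_simp; ring

lemma sum_cmid_four_le (N : ℕ) (hN : 0 < N) :
    ∑ i ∈ Finset.range N, (cmid N i) ^ 4 ≤ (N : ℝ) / 5 := by
  have hNpos : (0 : ℝ) < N := by exact_mod_cast hN
  have hN1 : (1 : ℝ) ≤ N := by exact_mod_cast hN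
  have h1 : ∀ i ∈ Finset.range N, (cmid N i) ^ 4 = ((2 * (i : ℝ) + 1) - N) ^ 4 / (N : ℝ) ^ 4 := by
    intro i _; rw [cmid_eq N hN, div_pow]
  rw [Finset.sum_congr rfl h1, ← Finset.sum_div, sum_four_aux, div_le_iff₀ (by positivity)]
  have h2 : (N : ℝ) ^ 2 ≥ 1 := by nlinarith
  have h3 : (N : ℝ) ^ 3 ≥ 0 := by positivity
  nlinarith [mul_nonneg hNpos.le (mul_nonneg hNpos.le hNpos.le)]

lemma inv_sqrt_le (z : ℝ) (hz0 : 0 ≤ z) (hz1 : z ≤ 1 / 100) :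
    1 / Real.sqrt (1 + z) ≤ 1 - 49 / 100 * z := by
  have hq : 0 < 1 - 49 / 100 * z := by linarith
  have hs : 0 < Real.sqrt (1 + z) := Real.sqrt_pos.2 (by linarith)
  rw [div_le_iff₀ hs]
  have h1 : 1 / (1 - 49 / 100 * z) ≤ Real.sqrt (1 + z) := by
    apply Real.le_sqrt_of_sq_le
    rw [div_pow, one_pow, div_le_iff₀ (by positivity)]
    nlinarith [mul_nonneg hz0 hz0, mul_nonneg (mul_nonneg hz0 hz0) hz0]
  calc (1 : ℝ) = (1 - 49 / 100 * z) * (1 / (1 - 49 / 100 * z)) := by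
        rw [mul_one_div, div_self hq.ne']
    _ ≤ (1 - 49 / 100 * z) * Real.sqrt (1 + z) := mul_le_mul_of_nonneg_left h1 hq.le

lemma cost_pointwise (μ e c : ℝ) (hμ : 0 < μ) (hμ1 : μ ≤ 1 / 20) (he : 0 ≤ e) (hc : |c| ≤ 1) :
    (Rf μ c + e) ^ 2 / Real.sqrt (1 + μ ^ 2 * (1 + 10 * c ^ 2 + c ^ 4) / 4)
      ≤ 1 / 4 + (μ ^ 4 / 2 + e + (μ ^ 2 / 2 + μ ^ 4 / 2 + e) ^ 2) - 49 / 1600 * μ ^ 2
        - 9 / 160 * μ ^ 2 * c ^ 2 + 351 / 1600 * μ ^ 2 * c ^ 4 := by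
  have hc2 : c ^ 2 ≤ 1 := by
    have := abs_le.1 hc; nlinarith
  have hc20 : 0 ≤ c ^ 2 := sq_nonneg _
  have hc4 : c ^ 4 ≤ 1 := by
    have : c ^ 4 = c ^ 2 * c ^ 2 := by ring
    rw [this]; nlinarith
  have hc40 : 0 ≤ c ^ 4 := by positivity
  have hμ2 : μ ^ 2 ≤ 1 / 400 := by nlinarith
  have hμ20 : 0 < μ ^ 2 := by positivity
  set z := μ ^ 2 * (1 + 10 * c ^ 2 + c ^ 4) / 4 with hz
  have hz0 : 0 ≤ z := by rw [hz]; positivity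
  have hz1 : z ≤ 1 / 100 := by
    rw [hz]
    have : μ ^ 2 * (1 + 10 * c ^ 2 + c ^ 4) ≤ 1 / 400 * 12 :=
      mul_le_mul hμ2 (by linarith) (by positivity) (by norm_num)
    linarith
  have hinv := inv_sqrt_le z hz0 hz1
  set m := μ ^ 2 * (c ^ 2 + c ^ 4) / 4 + μ ^ 4 / 2 + e with hm
  have hm0 : 0 ≤ m := by rw [hm]; positivity
  have hmbar : m ≤ μ ^ 2 / 2 + μ ^ 4 / 2 + e := by
    rw [hm]
    have : μ ^ 2 * (c ^ 2 + c ^ 4) ≤ μ ^ 2 * 2 := mul_le_mul_of_nonneg_left (by linarith) hμ20.le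
    linarith
  have hR : Rf μ c + e = 1 / 2 + m := by rw [hm]; unfold Rf; ring
  have hsq : (Rf μ c + e) ^ 2 = 1 / 4 + m + m ^ 2 := by rw [hR]; ring
  have hm2 : m ^ 2 ≤ (μ ^ 2 / 2 + μ ^ 4 / 2 + e) ^ 2 := pow_le_pow_left₀ hm0 hmbar 2
  have hpos : 0 ≤ (Rf μ c + e) ^ 2 := sq_nonneg _
  calc (Rf μ c + e) ^ 2 / Real.sqrt (1 + z)
      = (Rf μ c + e) ^ 2 * (1 / Real.sqrt (1 + z)) := by ring
    _ ≤ (Rf μ c + e) ^ 2 * (1 - 49 / 100 * z) := mul_le_mul_of_nonneg_left hinv hpos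
    _ = (1 / 4 + m + m ^ 2) * (1 - 49 / 100 * z) := by rw [hsq]
    _ ≤ 1 / 4 + m + (μ ^ 2 / 2 + μ ^ 4 / 2 + e) ^ 2 - 49 / 400 * z := by
        have h1 : 0 ≤ (m + m ^ 2) * (49 / 100 * z) := by positivity
        nlinarith
    _ = 1 / 4 + (μ ^ 4 / 2 + e + (μ ^ 2 / 2 + μ ^ 4 / 2 + e) ^ 2) - 49 / 1600 * μ ^ 2
        - 9 / 160 * μ ^ 2 * c ^ 2 + 351 / 1600 * μ ^ 2 * c ^ 4 := by
        rw [hm, hz]; ring

lemma cost_sum (N : ℕ) (hN : 100000 ≤ N) :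
    ∑ i ∈ Finset.range N, (1 / (N : ℝ)) * ((Rf (1 / 20) (cmid N i) + 9 / (40 * (N : ℝ))) ^ 2
        / Real.sqrt (1 + (1 / 20 : ℝ) ^ 2 * (1 + 10 * (cmid N i) ^ 2 + (cmid N i) ^ 4) / 4))
      ≤ 1 / 4 - 1 / 2000000 := by
  have hN0 : 0 < N := by omega
  have hNr : (100000 : ℝ) ≤ N := by exact_mod_cast hN
  have hNpos : (0 : ℝ) < N := by linarith
  set e : ℝ := 9 / (40 * (N : ℝ)) with he
  have he0 : 0 ≤ e := by rw [he]; positivity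
  have he1 : e ≤ 9 / 4000000 := by
    rw [he, div_le_div_iff₀ (by positivity) (by norm_num)]; linarith
  set K : ℝ := 1 / 4 + ((1 / 20 : ℝ) ^ 4 / 2 + e + ((1 / 20 : ℝ) ^ 2 / 2 + (1 / 20 : ℝ) ^ 4 / 2 + e) ^ 2)
    - 49 / 1600 * (1 / 20 : ℝ) ^ 2 with hK
  have hterm : ∀ i ∈ Finset.range N,
      (1 / (N : ℝ)) * ((Rf (1 / 20) (cmid N i) + e) ^ 2
        / Real.sqrt (1 + (1 / 20 : ℝ) ^ 2 * (1 + 10 * (cmid N i) ^ 2 + (cmid N i) ^ 4) / 4))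
      ≤ (1 / (N : ℝ)) * K + (-(9 / 160 * (1 / 20 : ℝ) ^ 2) / N) * (cmid N i) ^ 2
          + (351 / 1600 * (1 / 20 : ℝ) ^ 2 / N) * (cmid N i) ^ 4 := by
    intro i hi
    have h := cost_pointwise (1 / 20) e (cmid N i) (by norm_num) (le_refl _) he0
      (cmid_abs_le N i (Finset.mem_range.1 hi))
    have h' := mul_le_mul_of_nonneg_left h (by positivity : (0 : ℝ) ≤ 1 / (N : ℝ))
    calc _ ≤ _ := h'
      _ = _ := by rw [hK]; ring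
  have hsum := Finset.sum_le_sum hterm
  rw [Finset.sum_add_distrib, Finset.sum_add_distrib, Finset.sum_const, Finset.card_range,
    ← Finset.mul_sum, ← Finset.mul_sum, ← Finset.mul_sum, sum_cmid_sq N hN0, nsmul_eq_mul] at hsum
  have h4 := sum_cmid_four_le N hN0
  have h4' : (351 / 1600 * (1 / 20 : ℝ) ^ 2 / N) * ∑ i ∈ Finset.range N, (cmid N i) ^ 4
      ≤ (351 / 1600 * (1 / 20 : ℝ) ^ 2 / N) * ((N : ℝ) / 5) :=
    mul_le_mul_of_nonneg_left h4 (by positivity)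
  have hNN : (N : ℝ) * (1 / (N : ℝ) * K) = K := by field_simp
  have h2 : (-(9 / 160 * (1 / 20 : ℝ) ^ 2) / N) * ((N : ℝ) * (1 - 1 / (N : ℝ) ^ 2) / 3)
      = -(9 / 160 * (1 / 20 : ℝ) ^ 2) / 3 + (9 / 160 * (1 / 20 : ℝ) ^ 2) / 3 / (N : ℝ) ^ 2 := by
    field_simp; ring
  have h3 : (351 / 1600 * (1 / 20 : ℝ) ^ 2 / N) * ((N : ℝ) / 5) = 351 / 1600 * (1 / 20 : ℝ) ^ 2 / 5 := by
    field_simp
  have hN2 : (9 / 160 * (1 / 20 : ℝ) ^ 2) / 3 / (N : ℝ) ^ 2 ≤ 1 / 10 ^ 10 := by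
    have : (10 : ℝ) ^ 10 ≤ (N : ℝ) ^ 2 := by nlinarith
    rw [div_le_div_iff₀ (by positivity) (by norm_num)]
    nlinarith
  have hmb : (1 / 20 : ℝ) ^ 2 / 2 + (1 / 20 : ℝ) ^ 4 / 2 + e ≤ 1 / 790 := by
    norm_num; linarith
  have hmb0 : 0 ≤ (1 / 20 : ℝ) ^ 2 / 2 + (1 / 20 : ℝ) ^ 4 / 2 + e := by positivity
  have hmb2 : ((1 / 20 : ℝ) ^ 2 / 2 + (1 / 20 : ℝ) ^ 4 / 2 + e) ^ 2 ≤ (1 / 790) ^ 2 :=
    pow_le_pow_left₀ hmb0 hmb 2
  have hKb : K ≤ 1 / 4 + ((1 / 20 : ℝ) ^ 4 / 2 + 9 / 4000000 + (1 / 790) ^ 2)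
      - 49 / 1600 * (1 / 20 : ℝ) ^ 2 := by
    rw [hK]; linarith
  calc _ = _ := by rw [Finset.mul_sum]
    _ ≤ _ := hsum
    _ ≤ K + (-(9 / 160 * (1 / 20 : ℝ) ^ 2) / 3 + 1 / 10 ^ 10) + 351 / 1600 * (1 / 20 : ℝ) ^ 2 / 5 := by
        rw [hNN, h2]; linarith
    _ ≤ 1 / 4 - 1 / 2000000 := by
        norm_num at hKb ⊢; linarith

/-! ### Geometry in `E3` -/

lemma inner3 (v w : E3) : inner ℝ v w = v 0 * w 0 + v 1 * w 1 + v 2 * w 2 := by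
  simp [PiLp.inner_apply, Fin.sum_univ_three]
  ring

lemma norm_sq3 (v : E3) : ‖v‖ ^ 2 = v 0 ^ 2 + v 1 ^ 2 + v 2 ^ 2 := by
  rw [← real_inner_self_eq_norm_sq, inner3]; ring

/-- orthogonal projection onto the plane orthogonal to `d` -/
noncomputable def prj (d v : E3) : E3 := v - (inner ℝ v d / ‖d‖ ^ 2) • d

lemma prj_add (d v w : E3) : prj d (v + w) = prj d v + prj d w := by
  unfold prj
  rw [inner_add_left]
  module

lemma prj_sub (d v w : E3) : prj d (v - w) = prj d v - prj d w := by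
  unfold prj
  rw [inner_sub_left]
  module

lemma prj_smul (d v : E3) (c : ℝ) : prj d (c • v) = c • prj d v := by
  unfold prj
  rw [inner_smul_left]
  simp only [conj_trivial]
  module

lemma prj_self (d : E3) (hd : d ≠ 0) : prj d d = 0 := by
  unfold prj
  have : ‖d‖ ^ 2 ≠ 0 := by positivity
  rw [real_inner_self_eq_norm_sq, div_self this, one_smul, sub_self]

lemma inner_prj (d v : E3) (hd : d ≠ 0) : inner ℝ (prj d v) (‖d‖⁻¹ • d) = 0 := by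
  unfold prj
  have : ‖d‖ ^ 2 ≠ 0 := by positivity
  rw [inner_smul_right, inner_sub_left, inner_smul_left, real_inner_self_eq_norm_sq]
  simp only [conj_trivial]
  field_simp
  ring

lemma norm_unit (d : E3) (hd : d ≠ 0) : ‖(‖d‖⁻¹ • d)‖ = 1 := by
  rw [norm_smul, norm_inv, norm_norm, inv_mul_cancel₀ (norm_ne_zero_iff.2 hd)]

/-- the 3 × 3 determinant with columns `a, b, d` -/
def det3 (a b d : E3) : ℝ :=
  a 0 * (b 1 * d 2 - b 2 * d 1) - a 1 * (b 0 * d 2 - b 2 * d 0) + a 2 * (b 0 * d 1 - b 1 * d 0)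

lemma inner_prj_prj (d a b : E3) (hd : d ≠ 0) :
    inner ℝ (prj d a) (prj d b) = inner ℝ a b - inner ℝ a d * inner ℝ b d / ‖d‖ ^ 2 := by
  unfold prj
  have : ‖d‖ ^ 2 ≠ 0 := by positivity
  simp only [inner_sub_left, inner_sub_right, inner_smul_left, inner_smul_right, conj_trivial,
    real_inner_self_eq_norm_sq]
  rw [real_inner_comm b d]
  field_simp
  ring

lemma gram2_prj (d a b : E3) (hd : d ≠ 0) :
    gram2 (prj d a) (prj d b) = (det3 a b d) ^ 2 / ‖d‖ ^ 2 := by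
  unfold gram2
  rw [← real_inner_self_eq_norm_sq, ← real_inner_self_eq_norm_sq, inner_prj_prj d a a hd,
    inner_prj_prj d b b hd, inner_prj_prj d a b hd]
  have hD : ‖d‖ ^ 2 = d 0 ^ 2 + d 1 ^ 2 + d 2 ^ 2 := norm_sq3 d
  have hD0 : d 0 ^ 2 + d 1 ^ 2 + d 2 ^ 2 ≠ 0 := by rw [← hD]; positivity
  rw [hD]
  simp only [inner3, det3]
  field_simp
  ring

/-- membership in a cylinder from an oblique decomposition -/
lemma mem_cyl (d V0 V1 V2 X : E3) (hd : d ≠ 0) (x g0 g1 g2 : ℝ) (h1 : 0 ≤ g1)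
    (h2 : 0 ≤ g2) (h0 : 0 ≤ g0) (hs : g0 + g1 + g2 = 1)
    (hX : X = x • d + g0 • V0 + g1 • V1 + g2 • V2) :
    ∃ b ∈ convexHull ℝ {prj d V0, prj d V1, prj d V2}, ∃ t : ℝ, X = b + t • (‖d‖⁻¹ • d) := by
  refine ⟨prj d X, ?_, inner ℝ X d / ‖d‖, ?_⟩
  · rw [hX, prj_add, prj_add, prj_add, prj_smul, prj_smul, prj_smul, prj_smul, prj_self d hd,
      smul_zero, zero_add, convexHull_three]
    refine ⟨g1, g2, h1, h2, by linarith, ?_⟩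
    have : g0 = 1 - g1 - g2 := by linarith
    rw [this]; module
  · unfold prj
    have hn : ‖d‖ ≠ 0 := norm_ne_zero_iff.2 hd
    rw [smul_smul]
    have : inner ℝ X d / ‖d‖ * ‖d‖⁻¹ = inner ℝ X d / ‖d‖ ^ 2 := by field_simp
    rw [this]; abel

lemma area_base (d V0 V1 V2 : E3) (hd : d ≠ 0) :
    (μHE[2] (convexHull ℝ {prj d V0, prj d V1, prj d V2})).toReal
      = |det3 (V1 - V0) (V2 - V0) d| / (2 * ‖d‖) := by
  rw [area_triangle_toReal, ← prj_sub, ← prj_sub, gram2_prj d _ _ hd,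
    Real.sqrt_div (sq_nonneg _), Real.sqrt_sq_eq_abs, Real.sqrt_sq (norm_nonneg d), div_div,
    mul_comm]

/-- the standard tetrahedron -/
def K0 : Set E3 :=
  convexHull ℝ {!₂[1, 0, 0], !₂[-1, 0, 0], !₂[0, 1, Real.sqrt 2], !₂[0, -1, Real.sqrt 2]}

lemma K0_box (X : E3) (hX : X ∈ K0) :
    |X 0| ≤ 1 - X 2 / Real.sqrt 2 ∧ |X 1| ≤ X 2 / Real.sqrt 2 := by
  have hs : Real.sqrt 2 ≠ 0 := by positivity
  have hconv : Convex ℝ {Y : E3 | |Y 0| ≤ 1 - Y 2 / Real.sqrt 2 ∧ |Y 1| ≤ Y 2 / Real.sqrt 2} := by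
    intro Y hY Z hZ a b ha hb hab
    obtain ⟨hY1, hY2⟩ := hY
    obtain ⟨hZ1, hZ2⟩ := hZ
    rw [abs_le] at hY1 hY2 hZ1 hZ2
    have e2 : (a • Y + b • Z) 2 / Real.sqrt 2 = a * (Y 2 / Real.sqrt 2) + b * (Z 2 / Real.sqrt 2) := by
      simp; ring
    have e0 : (a • Y + b • Z) 0 = a * Y 0 + b * Z 0 := by simp
    have e1 : (a • Y + b • Z) 1 = a * Y 1 + b * Z 1 := by simp
    refine ⟨?_, ?_⟩
    · rw [abs_le, e2, e0]
      constructor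
      · nlinarith [mul_le_mul_of_nonneg_left hY1.1 ha, mul_le_mul_of_nonneg_left hZ1.1 hb]
      · nlinarith [mul_le_mul_of_nonneg_left hY1.2 ha, mul_le_mul_of_nonneg_left hZ1.2 hb]
    · rw [abs_le, e2, e1]
      constructor
      · nlinarith [mul_le_mul_of_nonneg_left hY2.1 ha, mul_le_mul_of_nonneg_left hZ2.1 hb]
      · nlinarith [mul_le_mul_of_nonneg_left hY2.2 ha, mul_le_mul_of_nonneg_left hZ2.2 hb]
  refine convexHull_min ?_ hconv hX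
  intro Y hY
  simp only [Set.mem_insert_iff, Set.mem_singleton_iff] at hY
  rcases hY with rfl | rfl | rfl | rfl <;> simp [div_self hs]

/-! ### The pieces of the two families -/

/-- half-width level of a piece -/
noncomputable def Ls (μ h c : ℝ) : ℝ := Rf μ c + 2 * μ * h
/-- apex shift of a piece -/
noncomputable def xi (μ h : ℝ) : ℝ := 5 * μ * h / 2
/-- height of the triangle of a piece -/
noncomputable def Wd (μ h c : ℝ) : ℝ := Rf μ c + 9 * μ * h / 2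

lemma Wd_eq (μ h c : ℝ) : Wd μ h c = Ls μ h c + xi μ h := by unfold Wd Ls xi; ring

lemma Rf_pos (μ c : ℝ) : 1 / 2 ≤ Rf μ c := by
  unfold Rf
  have h1 : 0 ≤ μ ^ 2 * (c ^ 2 + c ^ 4) / 4 := by positivity
  have h2 : 0 ≤ μ ^ 4 / 2 := by positivity
  linarith

lemma Wd_pos (μ h c : ℝ) (hμ : 0 < μ) (hh : 0 < h) : 0 < Wd μ h c := by
  unfold Wd
  have := Rf_pos μ c
  have : 0 < 9 * μ * h / 2 := by positivity
  linarith

/-- direction, lower family -/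
noncomputable def dL (μ c : ℝ) : E3 := !₂[1, μ * (1 + c ^ 2) / 2, Real.sqrt 2 * μ * c]
noncomputable def V0L (μ h c : ℝ) : E3 := !₂[0, -(xi μ h * c), -(Real.sqrt 2 * xi μ h)]
noncomputable def V1L (μ h c : ℝ) : E3 :=
  !₂[0, Ls μ h c * c + h * Wd μ h c, Real.sqrt 2 * Ls μ h c]
noncomputable def V2L (μ h c : ℝ) : E3 :=
  !₂[0, Ls μ h c * c - h * Wd μ h c, Real.sqrt 2 * Ls μ h c]

/-- direction, upper family -/
noncomputable def dU (μ c : ℝ) : E3 := !₂[-(μ * (1 + c ^ 2) / 2), 1, -(Real.sqrt 2 * μ * c)]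
noncomputable def V0U (μ h c : ℝ) : E3 :=
  !₂[xi μ h * c, 0, Real.sqrt 2 + Real.sqrt 2 * xi μ h]
noncomputable def V1U (μ h c : ℝ) : E3 :=
  !₂[-(Ls μ h c * c + h * Wd μ h c), 0, Real.sqrt 2 - Real.sqrt 2 * Ls μ h c]
noncomputable def V2U (μ h c : ℝ) : E3 :=
  !₂[-(Ls μ h c * c - h * Wd μ h c), 0, Real.sqrt 2 - Real.sqrt 2 * Ls μ h c]

lemma dL_ne (μ c : ℝ) : dL μ c ≠ 0 := by
  intro h
  have := congrArg (fun v : E3 => v 0) h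
  simp [dL] at this

lemma dU_ne (μ c : ℝ) : dU μ c ≠ 0 := by
  intro h
  have := congrArg (fun v : E3 => v 1) h
  simp [dU] at this

lemma sqrt2_sq : Real.sqrt 2 * Real.sqrt 2 = 2 := Real.mul_self_sqrt (by norm_num)

lemma norm_dL (μ c : ℝ) :
    ‖dL μ c‖ = Real.sqrt (1 + μ ^ 2 * (1 + 10 * c ^ 2 + c ^ 4) / 4) := by
  rw [← Real.sqrt_sq (norm_nonneg _), norm_sq3]
  congr 1
  simp [dL]
  have := sqrt2_sq
  nlinarith [this]

lemma norm_dU (μ c : ℝ) :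
    ‖dU μ c‖ = Real.sqrt (1 + μ ^ 2 * (1 + 10 * c ^ 2 + c ^ 4) / 4) := by
  rw [← Real.sqrt_sq (norm_nonneg _), norm_sq3]
  congr 1
  simp [dU]
  have := sqrt2_sq
  nlinarith [this]

lemma det_L (μ h c : ℝ) :
    det3 (V1L μ h c - V0L μ h c) (V2L μ h c - V0L μ h c) (dL μ c)
      = 2 * Real.sqrt 2 * h * (Wd μ h c) ^ 2 := by
  simp [det3, V0L, V1L, V2L, dL, Wd_eq]
  ring

lemma det_U (μ h c : ℝ) :
    det3 (V1U μ h c - V0U μ h c) (V2U μ h c - V0U μ h c) (dU μ c)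
      = -(2 * Real.sqrt 2 * h * (Wd μ h c) ^ 2) := by
  simp [det3, V0U, V1U, V2U, dU, Wd_eq]
  ring

lemma area_L (μ h c : ℝ) (hh : 0 < h) :
    (μHE[2] (convexHull ℝ {prj (dL μ c) (V0L μ h c), prj (dL μ c) (V1L μ h c),
        prj (dL μ c) (V2L μ h c)})).toReal
      = Real.sqrt 2 * (h * ((Wd μ h c) ^ 2
          / Real.sqrt (1 + μ ^ 2 * (1 + 10 * c ^ 2 + c ^ 4) / 4))) := by
  rw [area_base _ _ _ _ (dL_ne μ c), det_L, norm_dL,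
    abs_of_nonneg (by positivity)]
  ring

lemma area_U (μ h c : ℝ) (hh : 0 < h) :
    (μHE[2] (convexHull ℝ {prj (dU μ c) (V0U μ h c), prj (dU μ c) (V1U μ h c),
        prj (dU μ c) (V2U μ h c)})).toReal
      = Real.sqrt 2 * (h * ((Wd μ h c) ^ 2
          / Real.sqrt (1 + μ ^ 2 * (1 + 10 * c ^ 2 + c ^ 4) / 4))) := by
  rw [area_base _ _ _ _ (dU_ne μ c), det_U, norm_dU, abs_neg,
    abs_of_nonneg (by positivity)]
  ring

/-- a point of a plane of the lower sweep lies in the cylinder of its piece -/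
lemma lower_cover (μ h c : ℝ) (hμ : 0 < μ) (hμ1 : μ ≤ 1 / 20) (hh : 0 < h) (hc : |c| ≤ 1)
    (X : E3) (t ρ : ℝ) (ht : |t| ≤ 1) (htc : |t - c| ≤ h) (hx : |X 0| ≤ 1) (hρ0 : 0 ≤ ρ)
    (hρ : ρ ≤ Rf μ t) (e1 : X 2 / Real.sqrt 2 = ρ + μ * X 0 * t)
    (e2 : X 1 = ρ * t + μ * X 0 * (1 + t ^ 2) / 2) :
    ∃ b ∈ convexHull ℝ {prj (dL μ c) (V0L μ h c), prj (dL μ c) (V1L μ h c),
        prj (dL μ c) (V2L μ h c)}, ∃ s : ℝ, X = b + s • (‖dL μ c‖⁻¹ • dL μ c) := by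
  obtain ⟨w1, w2⟩ := weights μ h c t (X 0) ρ hμ hμ1 hh hc ht htc hx hρ0 hρ
  have hW := Wd_pos μ h c hμ hh
  have hs2 : Real.sqrt 2 ≠ 0 := by positivity
  have hX2 : X 2 = Real.sqrt 2 * (ρ + μ * X 0 * t) := by
    rw [← e1]; field_simp
  obtain ⟨w2a, w2b⟩ := abs_le.1 w2
  have hξ : 5 * μ * h / 2 = xi μ h := rfl
  rw [hξ] at w2a w2b
  have hLs : Rf μ c + 2 * μ * h = Ls μ h c := rfl
  rw [hLs] at w1
  set Λ := ρ + μ * X 0 * (t - c) with hΛ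
  set Z := ρ * (t - c) + μ * X 0 * (t - c) ^ 2 / 2 with hZ
  have hWe := Wd_eq μ h c
  refine mem_cyl (dL μ c) (V0L μ h c) (V1L μ h c) (V2L μ h c) X (dL_ne μ c) (X 0)
    ((Ls μ h c - Λ) / Wd μ h c) ((Λ + xi μ h + Z / h) / (2 * Wd μ h c))
    ((Λ + xi μ h - Z / h) / (2 * Wd μ h c)) ?_ ?_ ?_ ?_ ?_
  · apply div_nonneg _ (by positivity)
    have : -(Λ + xi μ h) ≤ Z / h := by
      rw [le_div_iff₀ hh]; linarith
    linarith
  · apply div_nonneg _ (by positivity)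
    have : Z / h ≤ Λ + xi μ h := by
      rw [div_le_iff₀ hh]; linarith
    linarith
  · apply div_nonneg _ hW.le
    linarith
  · field_simp
    rw [hWe]; ring
  · ext i
    fin_cases i
    · simp [dL, V0L, V1L, V2L]
    · simp [dL, V0L, V1L, V2L]
      rw [e2, hΛ, hZ]
      field_simp
      rw [hWe]
      ring
    · simp [dL, V0L, V1L, V2L]
      rw [hX2, hΛ, hZ]
      field_simp
      rw [hWe]
      ring

/-- a point of a plane of the upper sweep lies in the cylinder of its piece -/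
lemma upper_cover (μ h c : ℝ) (hμ : 0 < μ) (hμ1 : μ ≤ 1 / 20) (hh : 0 < h) (hc : |c| ≤ 1)
    (X : E3) (t ρ : ℝ) (ht : |t| ≤ 1) (htc : |t - c| ≤ h) (hx : |X 1| ≤ 1) (hρ0 : 0 ≤ ρ)
    (hρ : ρ ≤ Rf μ t) (e1 : 1 - X 2 / Real.sqrt 2 = ρ + μ * X 1 * t)
    (e2 : -X 0 = ρ * t + μ * X 1 * (1 + t ^ 2) / 2) :
    ∃ b ∈ convexHull ℝ {prj (dU μ c) (V0U μ h c), prj (dU μ c) (V1U μ h c),
        prj (dU μ c) (V2U μ h c)}, ∃ s : ℝ, X = b + s • (‖dU μ c‖⁻¹ • dU μ c) := by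
  obtain ⟨w1, w2⟩ := weights μ h c t (X 1) ρ hμ hμ1 hh hc ht htc hx hρ0 hρ
  have hW := Wd_pos μ h c hμ hh
  have hs2 : Real.sqrt 2 ≠ 0 := by positivity
  have hX2 : X 2 = Real.sqrt 2 * (1 - (ρ + μ * X 1 * t)) := by
    rw [← e1]; field_simp; ring
  have hX0 : X 0 = -(ρ * t + μ * X 1 * (1 + t ^ 2) / 2) := by
    rw [← e2]; ring
  obtain ⟨w2a, w2b⟩ := abs_le.1 w2
  have hξ : 5 * μ * h / 2 = xi μ h := rfl
  rw [hξ] at w2a w2b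
  have hLs : Rf μ c + 2 * μ * h = Ls μ h c := rfl
  rw [hLs] at w1
  set Λ := ρ + μ * X 1 * (t - c) with hΛ
  set Z := ρ * (t - c) + μ * X 1 * (t - c) ^ 2 / 2 with hZ
  have hWe := Wd_eq μ h c
  refine mem_cyl (dU μ c) (V0U μ h c) (V1U μ h c) (V2U μ h c) X (dU_ne μ c) (X 1)
    ((Ls μ h c - Λ) / Wd μ h c) ((Λ + xi μ h + Z / h) / (2 * Wd μ h c))
    ((Λ + xi μ h - Z / h) / (2 * Wd μ h c)) ?_ ?_ ?_ ?_ ?_
  · apply div_nonneg _ (by positivity)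
    have : -(Λ + xi μ h) ≤ Z / h := by
      rw [le_div_iff₀ hh]; linarith
    linarith
  · apply div_nonneg _ (by positivity)
    have : Z / h ≤ Λ + xi μ h := by
      rw [div_le_iff₀ hh]; linarith
    linarith
  · apply div_nonneg _ hW.le
    linarith
  · field_simp
    rw [hWe]; ring
  · ext i
    fin_cases i
    · simp [dU, V0U, V1U, V2U]
      rw [hX0, hΛ, hZ]
      field_simp
      rw [hWe]
      ring
    · simp [dU, V0U, V1U, V2U]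
    · simp [dU, V0U, V1U, V2U]
      rw [hX2, hΛ, hZ]
      field_simp
      rw [hWe]
      ring

lemma family_sum (N : ℕ) (hN : 100000 ≤ N) :
    ∑ i : Fin N, Real.sqrt 2 * ((1 / (N : ℝ)) * ((Wd (1 / 20) (1 / (N : ℝ)) (cmid N i)) ^ 2
        / Real.sqrt (1 + (1 / 20 : ℝ) ^ 2 * (1 + 10 * (cmid N i) ^ 2 + (cmid N i) ^ 4) / 4)))
      ≤ Real.sqrt 2 * (1 / 4 - 1 / 2000000) := by
  rw [← Finset.mul_sum]
  apply mul_le_mul_of_nonneg_left _ (Real.sqrt_nonneg _)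
  rw [Fin.sum_univ_eq_sum_range (fun i : ℕ => (1 / (N : ℝ)) * ((Wd (1 / 20) (1 / (N : ℝ))
        (cmid N i)) ^ 2
        / Real.sqrt (1 + (1 / 20 : ℝ) ^ 2 * (1 + 10 * (cmid N i) ^ 2 + (cmid N i) ^ 4) / 4))) N]
  have hW : ∀ i : ℕ, Wd (1 / 20) (1 / (N : ℝ)) (cmid N i)
      = Rf (1 / 20) (cmid N i) + 9 / (40 * (N : ℝ)) := by
    intro i; unfold Wd; ring
  simp only [hW]
  exact cost_sum N hN

theorem core_cover_aux (N : ℕ) (hN : 100000 ≤ N) :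
    ∃ (u p q r : Fin (N + N) → E3),
      (∀ i, ‖u i‖ = 1) ∧
      (∀ i, inner ℝ (p i) (u i) = 0 ∧ inner ℝ (q i) (u i) = 0 ∧ inner ℝ (r i) (u i) = 0) ∧
      K0 ⊆ ⋃ i, {x : E3 | ∃ b ∈ convexHull ℝ {p i, q i, r i}, ∃ t : ℝ, x = b + t • u i} ∧
      ∑ i, (μHE[2] (convexHull ℝ ({p i, q i, r i} : Set E3))).toReal
        ≤ Real.sqrt 2 * (1 / 2 - 1 / 1000000) := by
  have hN0 : 0 < N := by omega
  have hNr : (0 : ℝ) < N := by exact_mod_cast hN0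
  have hh : (0 : ℝ) < 1 / (N : ℝ) := by positivity
  have hμ : (0 : ℝ) < 1 / 20 := by norm_num
  refine ⟨Fin.addCases
      (fun i : Fin N => ‖dL (1 / 20) (cmid N i)‖⁻¹ • dL (1 / 20) (cmid N i))
      (fun i : Fin N => ‖dU (1 / 20) (cmid N i)‖⁻¹ • dU (1 / 20) (cmid N i)),
    Fin.addCases
      (fun i : Fin N => prj (dL (1 / 20) (cmid N i)) (V0L (1 / 20) (1 / (N : ℝ)) (cmid N i)))
      (fun i : Fin N => prj (dU (1 / 20) (cmid N i)) (V0U (1 / 20) (1 / (N : ℝ)) (cmid N i))),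
    Fin.addCases
      (fun i : Fin N => prj (dL (1 / 20) (cmid N i)) (V1L (1 / 20) (1 / (N : ℝ)) (cmid N i)))
      (fun i : Fin N => prj (dU (1 / 20) (cmid N i)) (V1U (1 / 20) (1 / (N : ℝ)) (cmid N i))),
    Fin.addCases
      (fun i : Fin N => prj (dL (1 / 20) (cmid N i)) (V2L (1 / 20) (1 / (N : ℝ)) (cmid N i)))
      (fun i : Fin N => prj (dU (1 / 20) (cmid N i)) (V2U (1 / 20) (1 / (N : ℝ)) (cmid N i))),
    ?_, ?_, ?_, ?_⟩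
  · intro i
    refine Fin.addCases (fun j => ?_) (fun j => ?_) i
    · simp only [Fin.addCases_left]; exact norm_unit _ (dL_ne _ _)
    · simp only [Fin.addCases_right]; exact norm_unit _ (dU_ne _ _)
  · intro i
    refine Fin.addCases (fun j => ?_) (fun j => ?_) i
    · simp only [Fin.addCases_left]
      exact ⟨inner_prj _ _ (dL_ne _ _), inner_prj _ _ (dL_ne _ _), inner_prj _ _ (dL_ne _ _)⟩
    · simp only [Fin.addCases_right]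
      exact ⟨inner_prj _ _ (dU_ne _ _), inner_prj _ _ (dU_ne _ _), inner_prj _ _ (dU_ne _ _)⟩
  · intro X hX
    obtain ⟨hb0, hb1⟩ := K0_box X hX
    have hlam0 : 0 ≤ X 2 / Real.sqrt 2 := le_trans (abs_nonneg _) hb1
    have hx : |X 0| ≤ 1 := by linarith
    have hy : |X 1| ≤ 1 := by linarith [abs_nonneg (X 0)]
    obtain ⟨t₁, ρ₁, ht₁, hρ₁, e1, e2⟩ := exists_param (1 / 20 * X 0) (X 1) (X 2 / Real.sqrt 2) hb1
    obtain ⟨t₂, ρ₂, ht₂, hρ₂, e3, e4⟩ :=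
      exists_param (1 / 20 * X 1) (-X 0) (1 - X 2 / Real.sqrt 2) (by rwa [abs_neg])
    rw [Set.mem_iUnion]
    rcases star (1 / 20) (X 0) (X 1) (X 2 / Real.sqrt 2) t₁ ρ₁ t₂ ρ₂ hμ le_rfl ht₁ ht₂
      e1 e2 e3 e4 with hR | hR
    · obtain ⟨i, hi, hti⟩ := exists_piece N hN0 t₁ ht₁
      refine ⟨Fin.castAdd N ⟨i, hi⟩, ?_⟩
      simp only [Set.mem_setOf_eq, Fin.addCases_left]
      exact lower_cover (1 / 20) (1 / (N : ℝ)) (cmid N i) hμ le_rfl hh (cmid_abs_le N i hi) X t₁ ρ₁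
        ht₁ hti hx hρ₁ hR e1 e2
    · obtain ⟨i, hi, hti⟩ := exists_piece N hN0 t₂ ht₂
      refine ⟨Fin.natAdd N ⟨i, hi⟩, ?_⟩
      simp only [Set.mem_setOf_eq, Fin.addCases_right]
      exact upper_cover (1 / 20) (1 / (N : ℝ)) (cmid N i) hμ le_rfl hh (cmid_abs_le N i hi) X t₂ ρ₂
        ht₂ hti hy hρ₂ hR e3 e4
  · rw [Fin.sum_univ_add]
    simp only [Fin.addCases_left, Fin.addCases_right]
    simp only [area_L _ _ _ hh, area_U _ _ _ hh]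
    have hf := family_sum N hN
    calc _ ≤ Real.sqrt 2 * (1 / 4 - 1 / 2000000) + Real.sqrt 2 * (1 / 4 - 1 / 2000000) :=
          add_le_add hf hf
      _ = Real.sqrt 2 * (1 / 2 - 1 / 1000000) := by ring

/-- **The core cover**: the standard tetrahedron is covered by `200000` triangle cylinders whose
bases have total area at most `√2 (1/2 - 10⁻⁶)`. -/
theorem core_cover :
    ∃ (m : ℕ) (u p q r : Fin m → EuclideanSpace ℝ (Fin 3)),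
      (∀ i, ‖u i‖ = 1) ∧
      (∀ i, inner ℝ (p i) (u i) = 0 ∧ inner ℝ (q i) (u i) = 0 ∧ inner ℝ (r i) (u i) = 0) ∧
      convexHull ℝ {!₂[1, 0, 0], !₂[-1, 0, 0], !₂[0, 1, Real.sqrt 2], !₂[0, -1, Real.sqrt 2]} ⊆
        ⋃ i, {x : EuclideanSpace ℝ (Fin 3) |
          ∃ b ∈ convexHull ℝ {p i, q i, r i}, ∃ t : ℝ, x = b + t • u i} ∧
      m + 1 ≤ 16000000 ∧
      ∑ i, (μHE[2] (convexHull ℝ ({p i, q i, r i} : Set (EuclideanSpace ℝ (Fin 3))))).toReal ≤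
        Real.sqrt 2 * (1 / 2 - 1 / 1000000) := by
  obtain ⟨u, p, q, r, h1, h2, h3, h4⟩ := core_cover_aux 100000 le_rfl
  exact ⟨100000 + 100000, u, p, q, r, h1, h2, h3, by norm_num, h4⟩

end Crest.Agent.Lib_helper18_Core
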