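import Mathlib
import Crest.Agent.Lib_helper18_Area

/-!
Minimum projection area of the regular tetrahedron with vertices (±1, 0, 0), (0, ±1, √2)
(component of row 211: S0324, S0325, S0327).
-/

set_option autoImplicit false
open MeasureTheory
open scoped ENNReal

namespace Crest.Agent.Lib_helper19_TetraProj

/-- Euclidean 3-space. -/
abbrev E3 := EuclideanSpace ℝ (Fin 3)

/-- The triangle area formula (from the shared area library). -/
theorem area_triangle (p q r : E3) :
    (μHE[2] : Measure E3) (convexHull ℝ {p, q, r}) =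
      ENNReal.ofReal (Real.sqrt (‖q - p‖ ^ 2 * ‖r - p‖ ^ 2 - inner ℝ (q - p) (r - p) ^ 2) / 2) :=
  Crest.Agent.Lib_helper18_Area.area_triangle p q r

/-- The determinant of three vectors, in coordinates. -/
def det3 (u w v : E3) : ℝ :=
  u 0 * (w 1 * v 2 - w 2 * v 1) - u 1 * (w 0 * v 2 - w 2 * v 0) + u 2 * (w 0 * v 1 - w 1 * v 0)

theorem inner_coord (u w : E3) : inner ℝ u w = u 0 * w 0 + u 1 * w 1 + u 2 * w 2 := by
  simp [EuclideanSpace.inner_eq_star_dotProduct, dotProduct, Fin.sum_univ_three]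
  ring

theorem norm_sq_coord (u : E3) : ‖u‖ ^ 2 = u 0 ^ 2 + u 1 ^ 2 + u 2 ^ 2 := by
  rw [EuclideanSpace.norm_sq_eq]
  simp [Fin.sum_univ_three]

/-- The orthogonal projection along the unit vector `v`, as a linear map. -/
noncomputable def proj (v : E3) : E3 →ₗ[ℝ] E3 where
  toFun y := y - inner ℝ y v • v
  map_add' x y := by
    simp only [inner_add_left, add_smul]
    abel
  map_smul' c x := by
    simp only [inner_smul_left, smul_sub, smul_smul, RingHom.id_apply]
    simp

theorem proj_apply (v y : E3) : proj v y = y - inner ℝ y v • v := rfl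

theorem coe_proj (v : E3) : ⇑(proj v) = fun y => y - inner ℝ y v • v := rfl

theorem proj_coord (v y : E3) (i : Fin 3) :
    proj v y i = y i - (y 0 * v 0 + y 1 * v 1 + y 2 * v 2) * v i := by
  simp [proj_apply, inner_coord]

theorem det3_add_mid (u w w' v : E3) : det3 u (w + w') v = det3 u w v + det3 u w' v := by
  simp [det3]; ring

theorem det3_sub_mid (u w w' v : E3) : det3 u (w - w') v = det3 u w v - det3 u w' v := by
  simp [det3]; ring

theorem det3_smul_mid (u w v : E3) (t : ℝ) : det3 u (t • w) v = t * det3 u w v := by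
  simp [det3]; ring

theorem det3_self (u v : E3) : det3 u u v = 0 := by
  simp [det3]; ring

theorem det3_right_self (u v : E3) : det3 u v v = 0 := by
  simp [det3]; ring

theorem det3_swap (u w v : E3) : det3 u w v = - det3 w u v := by
  simp [det3]; ring

theorem det3_proj_mid (u w v : E3) : det3 u (proj v w) v = det3 u w v := by
  rw [proj_apply, det3_sub_mid, det3_smul_mid, det3_right_self]; ring

/-- Gram determinant of two projected vectors. -/
theorem gram_proj (v : E3) (hv : ‖v‖ = 1) (u w : E3) :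
    ‖proj v u‖ ^ 2 * ‖proj v w‖ ^ 2 - inner ℝ (proj v u) (proj v w) ^ 2 = det3 u w v ^ 2 := by
  have hv' : v 0 ^ 2 + v 1 ^ 2 + v 2 ^ 2 = 1 := by
    rw [← norm_sq_coord, hv]; norm_num
  simp only [norm_sq_coord, inner_coord, proj_coord, det3]
  linear_combination
    (-(((u 0 ^ 2 + u 1 ^ 2 + u 2 ^ 2) * (w 0 ^ 2 + w 1 ^ 2 + w 2 ^ 2)
        - (u 0 * w 0 + u 1 * w 1 + u 2 * w 2) ^ 2)
      - ((u 0 ^ 2 + u 1 ^ 2 + u 2 ^ 2) * (w 0 * v 0 + w 1 * v 1 + w 2 * v 2) ^ 2
        + (w 0 ^ 2 + w 1 ^ 2 + w 2 ^ 2) * (u 0 * v 0 + u 1 * v 1 + u 2 * v 2) ^ 2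
        - 2 * (u 0 * w 0 + u 1 * w 1 + u 2 * w 2) * (u 0 * v 0 + u 1 * v 1 + u 2 * v 2)
          * (w 0 * v 0 + w 1 * v 1 + w 2 * v 2)))) * hv'

/-- Area of a projected triangle. -/
theorem area_proj_triangle (v : E3) (hv : ‖v‖ = 1) (p q r : E3) :
    (μHE[2] : Measure E3) (convexHull ℝ {proj v p, proj v q, proj v r}) =
      ENNReal.ofReal (|det3 (q - p) (r - p) v| / 2) := by
  rw [area_triangle, ← map_sub, ← map_sub, gram_proj v hv, Real.sqrt_sq_eq_abs]

theorem measurableSet_hull3 (x y z : E3) : MeasurableSet (convexHull ℝ ({x, y, z} : Set E3)) :=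
  (Set.Finite.isClosed_convexHull ℝ (Set.toFinite _)).measurableSet

/-- The linear functional `y ↦ det3 u y v`. -/
theorem isLinearMap_det3_mid (u v : E3) : IsLinearMap ℝ (fun y : E3 => det3 u y v) where
  map_add x y := det3_add_mid u x y v
  map_smul t x := by simp [det3_smul_mid]

/-- Two projected triangles `abc`, `acd` on strictly opposite sides of the line `ac` meet in a
null set. -/
theorem null_inter (v : E3) (hv : ‖v‖ = 1) (a b c d : E3)
    (hopp : det3 (c - a) (b - a) v * det3 (c - a) (d - a) v < 0) :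
    (μHE[2] : Measure E3) (convexHull ℝ {proj v a, proj v b, proj v c} ∩
      convexHull ℝ {proj v a, proj v c, proj v d}) = 0 := by
  set φb := det3 (c - a) (b - a) v with hφb
  set φd := det3 (c - a) (d - a) v with hφd
  have hφb0 : φb ≠ 0 := by
    intro h; rw [h] at hopp; simp at hopp
  set ℓ : E3 → ℝ := fun y => det3 (c - a) y v with hℓ
  have hlin : IsLinearMap ℝ ℓ := isLinearMap_det3_mid (c - a) v
  have hℓp : ∀ y, ℓ (proj v y) = det3 (c - a) y v := fun y => det3_proj_mid _ _ _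
  have hℓb : ℓ (proj v b) - ℓ (proj v a) = φb := by
    rw [hℓp, hℓp, hφb, det3_sub_mid]
  have hℓc : ℓ (proj v c) - ℓ (proj v a) = 0 := by
    rw [hℓp, hℓp, ← det3_sub_mid, det3_self]
  have hℓd : ℓ (proj v d) - ℓ (proj v a) = φd := by
    rw [hℓp, hℓp, hφd, det3_sub_mid]
  -- the degenerate triangle has measure zero
  have hzero : (μHE[2] : Measure E3) (convexHull ℝ {proj v a, proj v c, proj v c}) = 0 := by
    rw [area_proj_triangle v hv, det3_self]; simp
  refine measure_mono_null ?_ hzero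
  rintro x ⟨hx1, hx2⟩
  -- half-spaces
  have hlin' : IsLinearMap ℝ (fun y => φb * ℓ y) := by
    constructor
    · intro x y; simp only [hlin.map_add]; ring
    · intro t x; simp only [hlin.map_smul, smul_eq_mul]; ring
  have h1 : convexHull ℝ {proj v a, proj v b, proj v c} ⊆ {y | φb * ℓ (proj v a) ≤ φb * ℓ y} := by
    refine convexHull_min ?_ (convex_halfSpace_ge hlin' _)
    intro y hy
    simp only [Set.mem_insert_iff, Set.mem_singleton_iff] at hy
    simp only [Set.mem_ofPred_eq]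
    rcases hy with rfl | rfl | rfl
    · exact le_rfl
    · have : φb * ℓ (proj v b) - φb * ℓ (proj v a) = φb * φb := by rw [← hℓb]; ring
      nlinarith [mul_self_nonneg φb]
    · have : φb * ℓ (proj v c) - φb * ℓ (proj v a) = 0 := by rw [← mul_sub, hℓc]; ring
      linarith
  have h2 : convexHull ℝ {proj v a, proj v c, proj v d} ⊆ {y | φb * ℓ y ≤ φb * ℓ (proj v a)} := by
    refine convexHull_min ?_ (convex_halfSpace_le hlin' _)
    intro y hy
    simp only [Set.mem_insert_iff, Set.mem_singleton_iff] at hy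
    simp only [Set.mem_ofPred_eq]
    rcases hy with rfl | rfl | rfl
    · exact le_rfl
    · have : φb * ℓ (proj v c) - φb * ℓ (proj v a) = 0 := by rw [← mul_sub, hℓc]; ring
      linarith
    · have : φb * ℓ (proj v d) - φb * ℓ (proj v a) = φb * φd := by rw [← hℓd]; ring
      linarith
  have hx0 : ℓ x = ℓ (proj v a) := by
    have e1 := h1 hx1
    have e2 := h2 hx2
    simp only [Set.mem_ofPred_eq] at e1 e2
    have : φb * ℓ x = φb * ℓ (proj v a) := le_antisymm e2 e1
    exact mul_left_cancel₀ hφb0 this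
  -- now use the explicit description of the triangle
  have hset : ({proj v a, proj v b, proj v c} : Set E3) = insert (proj v b) {proj v a, proj v c} := by
    ext y; simp only [Set.mem_insert_iff, Set.mem_singleton_iff]; tauto
  rw [hset, convexHull_insert (by simp), convexHull_pair, mem_convexJoin] at hx1
  obtain ⟨y0, hy0, y, hy, hxy⟩ := hx1
  rw [Set.mem_singleton_iff] at hy0
  subst hy0
  -- ℓ is constant on the segment [a', c']
  have hseg : ℓ y = ℓ (proj v a) := by
    obtain ⟨s, t, hs, ht, hst, rfl⟩ := hy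
    rw [hlin.map_add, hlin.map_smul, hlin.map_smul, smul_eq_mul, smul_eq_mul]
    have : ℓ (proj v c) = ℓ (proj v a) := by linarith
    rw [this, ← add_mul, hst, one_mul]
  obtain ⟨s, t, hs, ht, hst, rfl⟩ := hxy
  rw [hlin.map_add, hlin.map_smul, hlin.map_smul, smul_eq_mul, smul_eq_mul, hseg] at hx0
  have hs0 : s = 0 := by
    have : s * (ℓ (proj v b) - ℓ (proj v a)) = 0 := by
      have : t = 1 - s := by linarith
      subst this
      linarith
    rw [hℓb] at this
    rcases mul_eq_zero.mp this with h | h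
    · exact h
    · exact absurd h hφb0
  have ht1 : t = 1 := by linarith
  subst hs0; subst ht1
  simp only [zero_smul, one_smul, zero_add]
  have : ({proj v a, proj v c, proj v c} : Set E3) = {proj v a, proj v c} := by
    ext z; simp
  rw [this, convexHull_pair]
  exact hy

/-- The projected hull of four points has area at least half the absolute determinant of its two
"diagonals" `ac`, `bd`. -/
theorem area_quad_ge (v : E3) (hv : ‖v‖ = 1) (a b c d : E3) :
    ENNReal.ofReal (|det3 (c - a) (b - d) v| / 2) ≤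
      (μHE[2] : Measure E3) (convexHull ℝ {proj v a, proj v b, proj v c, proj v d}) := by
  set φb := det3 (c - a) (b - a) v with hφb
  set φd := det3 (c - a) (d - a) v with hφd
  have hsplit : det3 (c - a) (b - d) v = φb - φd := by
    have : b - d = (b - a) - (d - a) := by abel
    rw [this, det3_sub_mid]
  have hT1 : (μHE[2] : Measure E3) (convexHull ℝ {proj v a, proj v b, proj v c}) =
      ENNReal.ofReal (|φb| / 2) := by
    rw [area_proj_triangle v hv, det3_swap, abs_neg]
  have hT2 : (μHE[2] : Measure E3) (convexHull ℝ {proj v a, proj v c, proj v d}) =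
      ENNReal.ofReal (|φd| / 2) := by
    rw [area_proj_triangle v hv]
  have hsub1 : convexHull ℝ {proj v a, proj v b, proj v c} ⊆
      convexHull ℝ {proj v a, proj v b, proj v c, proj v d} :=
    convexHull_mono (by
      intro x hx
      simp only [Set.mem_insert_iff, Set.mem_singleton_iff] at hx ⊢
      tauto)
  have hsub2 : convexHull ℝ {proj v a, proj v c, proj v d} ⊆
      convexHull ℝ {proj v a, proj v b, proj v c, proj v d} :=
    convexHull_mono (by
      intro x hx
      simp only [Set.mem_insert_iff, Set.mem_singleton_iff] at hx ⊢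
      tauto)
  rw [hsplit]
  by_cases hsign : 0 ≤ φb * φd
  · have key : |φb - φd| ≤ |φb| ∨ |φb - φd| ≤ |φd| := by
      rcases le_total 0 φb with hb | hb <;> rcases le_total 0 φd with hd | hd
      · rcases le_total φb φd with h | h
        · right; rw [abs_of_nonpos (by linarith), abs_of_nonneg hd]; linarith
        · left; rw [abs_of_nonneg (by linarith), abs_of_nonneg hb]; linarith
      · have h0 : φb * φd = 0 := le_antisymm (mul_nonpos_of_nonneg_of_nonpos hb hd) hsign
        rcases mul_eq_zero.mp h0 with h | h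
        · right; rw [h]; simp
        · left; rw [h]; simp
      · have h0 : φb * φd = 0 := le_antisymm (mul_nonpos_of_nonpos_of_nonneg hb hd) hsign
        rcases mul_eq_zero.mp h0 with h | h
        · right; rw [h]; simp
        · left; rw [h]; simp
      · rcases le_total φb φd with h | h
        · left; rw [abs_of_nonpos (by linarith), abs_of_nonpos hb]; linarith
        · right; rw [abs_of_nonneg (by linarith), abs_of_nonpos hd]; linarith
    rcases key with h | h
    · calc ENNReal.ofReal (|φb - φd| / 2) ≤ ENNReal.ofReal (|φb| / 2) :=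
            ENNReal.ofReal_le_ofReal (by linarith)
        _ = (μHE[2] : Measure E3) (convexHull ℝ {proj v a, proj v b, proj v c}) := hT1.symm
        _ ≤ _ := measure_mono hsub1
    · calc ENNReal.ofReal (|φb - φd| / 2) ≤ ENNReal.ofReal (|φd| / 2) :=
            ENNReal.ofReal_le_ofReal (by linarith)
        _ = (μHE[2] : Measure E3) (convexHull ℝ {proj v a, proj v c, proj v d}) := hT2.symm
        _ ≤ _ := measure_mono hsub2
  · have hopp : φb * φd < 0 := not_le.mp hsign
    have habs : |φb - φd| = |φb| + |φd| := by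
      rcases lt_or_gt_of_ne (show φb ≠ 0 by intro h; rw [h] at hopp; simp at hopp) with hb | hb
      · have hd : 0 < φd := by nlinarith
        rw [abs_of_neg (by linarith), abs_of_neg hb, abs_of_pos hd]; ring
      · have hd : φd < 0 := by nlinarith
        rw [abs_of_pos (by linarith), abs_of_pos hb, abs_of_neg hd]; ring
    have hnull := null_inter v hv a b c d hopp
    have hunion := measure_union_add_inter (μ := (μHE[2] : Measure E3))
      (convexHull ℝ {proj v a, proj v b, proj v c}) (measurableSet_hull3 (proj v a) (proj v c) (proj v d))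
    rw [hnull, add_zero, hT1, hT2] at hunion
    calc ENNReal.ofReal (|φb - φd| / 2)
        = ENNReal.ofReal (|φb| / 2) + ENNReal.ofReal (|φd| / 2) := by
          rw [habs, add_div, ENNReal.ofReal_add (by positivity) (by positivity)]
      _ = (μHE[2] : Measure E3) (convexHull ℝ {proj v a, proj v b, proj v c} ∪
            convexHull ℝ {proj v a, proj v c, proj v d}) := hunion.symm
      _ ≤ _ := measure_mono (Set.union_subset hsub1 hsub2)

/-- The algebraic heart: the seven lower bounds cannot all be below `√2`. -/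
theorem seven_bounds_contra (x y z s : ℝ) (hs : 0 < s) (hs2 : s ^ 2 = 2)
    (hxyz : x ^ 2 + y ^ 2 + z ^ 2 = 1)
    (b1 : |s * y - z| < s) (b2 : |s * y + z| < s) (b3 : |s * x + z| < s) (b4 : |s * x - z| < s)
    (q1 : 2 * |z| < s) (q2 : |x + y| < 1) (q3 : |x - y| < 1) : False := by
  -- pass to absolute values
  have hX : 0 ≤ |x| := abs_nonneg x
  have hY : 0 ≤ |y| := abs_nonneg y
  have hZ : 0 ≤ |z| := abs_nonneg z
  have e1 : s * |y| + |z| < s := by
    rw [abs_lt] at b1 b2
    rcases abs_cases y with ⟨h, _⟩ | ⟨h, _⟩ <;> rcases abs_cases z with ⟨h', _⟩ | ⟨h', _⟩ <;>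
      rw [h, h'] <;> nlinarith
  have e2 : s * |x| + |z| < s := by
    rw [abs_lt] at b3 b4
    rcases abs_cases x with ⟨h, _⟩ | ⟨h, _⟩ <;> rcases abs_cases z with ⟨h', _⟩ | ⟨h', _⟩ <;>
      rw [h, h'] <;> nlinarith
  have e3 : |x| + |y| < 1 := by
    rw [abs_lt] at q2 q3
    rcases abs_cases x with ⟨h, _⟩ | ⟨h, _⟩ <;> rcases abs_cases y with ⟨h', _⟩ | ⟨h', _⟩ <;>
      rw [h, h'] <;> linarith
  have hsq : |x| ^ 2 + |y| ^ 2 + |z| ^ 2 = 1 := by
    rw [sq_abs, sq_abs, sq_abs]; exact hxyz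
  generalize |x| = X at *
  generalize |y| = Y at *
  generalize |z| = Z at *
  -- Z < s (1 - X), Z < s (1 - Y), Z < s / 2
  have hZ1 : Z < s * (1 - X) := by linarith
  have hZ2 : Z < s * (1 - Y) := by linarith
  have hZ3 : Z < s / 2 := by linarith
  have hX1 : X < 1 := by nlinarith
  have hY1 : Y < 1 := by nlinarith
  have hZZ : Z ^ 2 < 1 / 2 := by nlinarith
  have hZZ4 : ∀ W : ℝ, Z < s * (1 - W) → Z ^ 2 < 2 * (1 - W) ^ 2 := by
    intro W hW
    have h1 : Z ^ 2 < (s * (1 - W)) ^ 2 := pow_lt_pow_left₀ hW hZ (by norm_num)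
    rw [mul_pow, hs2] at h1
    exact h1
  rcases le_total Y X with hYX | hXY
  · -- X is the maximum
    have h12 : X ^ 2 + Y ^ 2 ≤ X := by
      have h1 : Y * Y ≤ X * Y := mul_le_mul_of_nonneg_right hYX hY
      have h2 : X * (X + Y) ≤ X * 1 := mul_le_mul_of_nonneg_left e3.le hX
      nlinarith
    rcases le_total X (1 / 2) with hX2 | hX2
    · linarith
    · have hZ4 := hZZ4 X hZ1
      have h3 : 0 ≤ (1 - X) * (2 * X - 1) := mul_nonneg (by linarith) (by linarith)
      nlinarith
  · have h12 : X ^ 2 + Y ^ 2 ≤ Y := by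
      have h1 : X * X ≤ Y * X := mul_le_mul_of_nonneg_right hXY hX
      have h2 : Y * (X + Y) ≤ Y * 1 := mul_le_mul_of_nonneg_left e3.le hY
      nlinarith
    rcases le_total Y (1 / 2) with hY2 | hY2
    · linarith
    · have hZ4 := hZZ4 Y hZ2
      have h3 : 0 ≤ (1 - Y) * (2 * Y - 1) := mul_nonneg (by linarith) (by linarith)
      nlinarith

/-- The image of the tetrahedron under the projection is the hull of the projected vertices. -/
theorem image_tetra (v : E3) (P1 P2 P3 P4 : E3) :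
    (fun y => y - inner ℝ y v • v) '' convexHull ℝ ({P1, P2, P3, P4} : Set E3) =
      convexHull ℝ {proj v P1, proj v P2, proj v P3, proj v P4} := by
  rw [← coe_proj, LinearMap.image_convexHull]
  simp [Set.image_insert_eq]

/-- A projected face lies in the projected hull. -/
theorem area_face_le (v : E3) (hv : ‖v‖ = 1) (P1 P2 P3 P4 p q r : E3)
    (hp : p = P1 ∨ p = P2 ∨ p = P3 ∨ p = P4) (hq : q = P1 ∨ q = P2 ∨ q = P3 ∨ q = P4)
    (hr : r = P1 ∨ r = P2 ∨ r = P3 ∨ r = P4) :
    ENNReal.ofReal (|det3 (q - p) (r - p) v| / 2) ≤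
      (μHE[2] : Measure E3) (convexHull ℝ {proj v P1, proj v P2, proj v P3, proj v P4}) := by
  rw [← area_proj_triangle v hv]
  apply measure_mono
  apply convexHull_mono
  intro x hx
  simp only [Set.mem_insert_iff, Set.mem_singleton_iff] at hx ⊢
  rcases hx with rfl | rfl | rfl
  · rcases hp with rfl | rfl | rfl | rfl <;> simp
  · rcases hq with rfl | rfl | rfl | rfl <;> simp
  · rcases hr with rfl | rfl | rfl | rfl <;> simp

/-- A projected quadrilateral bound inside the projected hull. -/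
theorem area_pair_le (v : E3) (hv : ‖v‖ = 1) (P1 P2 P3 P4 a b c d : E3)
    (ha : a = P1 ∨ a = P2 ∨ a = P3 ∨ a = P4) (hb : b = P1 ∨ b = P2 ∨ b = P3 ∨ b = P4)
    (hc : c = P1 ∨ c = P2 ∨ c = P3 ∨ c = P4) (hd : d = P1 ∨ d = P2 ∨ d = P3 ∨ d = P4) :
    ENNReal.ofReal (|det3 (c - a) (b - d) v| / 2) ≤
      (μHE[2] : Measure E3) (convexHull ℝ {proj v P1, proj v P2, proj v P3, proj v P4}) := by
  refine (area_quad_ge v hv a b c d).trans ?_
  apply measure_mono
  apply convexHull_mono
  intro x hx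
  simp only [Set.mem_insert_iff, Set.mem_singleton_iff] at hx ⊢
  rcases hx with rfl | rfl | rfl | rfl
  · rcases ha with rfl | rfl | rfl | rfl <;> simp
  · rcases hb with rfl | rfl | rfl | rfl <;> simp
  · rcases hc with rfl | rfl | rfl | rfl <;> simp
  · rcases hd with rfl | rfl | rfl | rfl <;> simp

/-- **Minimum projection area, lower bound.** Every orthogonal projection of the regular
tetrahedron with vertices `(±1, 0, 0)`, `(0, ±1, √2)` has area at least `√2`. -/
theorem proj_area_ge (v : E3) (hv : ‖v‖ = 1) :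
    ENNReal.ofReal (Real.sqrt 2) ≤ (μHE[2] : Measure E3)
      ((fun y => y - inner ℝ y v • v) '' convexHull ℝ
        {!₂[1, 0, 0], !₂[-1, 0, 0], !₂[0, 1, Real.sqrt 2], !₂[0, -1, Real.sqrt 2]}) := by
  rw [image_tetra]
  by_contra hlt
  rw [not_le] at hlt
  have hv' : v 0 ^ 2 + v 1 ^ 2 + v 2 ^ 2 = 1 := by
    rw [← norm_sq_coord, hv]; norm_num
  have hs : 0 < Real.sqrt 2 := Real.sqrt_pos.mpr (by norm_num)
  have hs2 : Real.sqrt 2 ^ 2 = 2 := Real.sq_sqrt (by norm_num)
  have conv : ∀ t : ℝ, ENNReal.ofReal t ≤ (μHE[2] : Measure E3)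
      (convexHull ℝ {proj v !₂[1, 0, 0], proj v !₂[-1, 0, 0], proj v !₂[0, 1, Real.sqrt 2],
        proj v !₂[0, -1, Real.sqrt 2]}) → t < Real.sqrt 2 := by
    intro t ht
    exact (ENNReal.ofReal_lt_ofReal_iff hs).mp (ht.trans_lt hlt)
  -- faces
  have b1 := conv _ (area_face_le v hv !₂[1, 0, 0] !₂[-1, 0, 0] !₂[0, 1, Real.sqrt 2]
    !₂[0, -1, Real.sqrt 2] !₂[1, 0, 0] !₂[-1, 0, 0] !₂[0, 1, Real.sqrt 2] (by simp) (by simp) (by simp))
  have b2 := conv _ (area_face_le v hv !₂[1, 0, 0] !₂[-1, 0, 0] !₂[0, 1, Real.sqrt 2]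
    !₂[0, -1, Real.sqrt 2] !₂[1, 0, 0] !₂[-1, 0, 0] !₂[0, -1, Real.sqrt 2] (by simp) (by simp) (by simp))
  have b3 := conv _ (area_face_le v hv !₂[1, 0, 0] !₂[-1, 0, 0] !₂[0, 1, Real.sqrt 2]
    !₂[0, -1, Real.sqrt 2] !₂[1, 0, 0] !₂[0, 1, Real.sqrt 2] !₂[0, -1, Real.sqrt 2] (by simp) (by simp) (by simp))
  have b4 := conv _ (area_face_le v hv !₂[1, 0, 0] !₂[-1, 0, 0] !₂[0, 1, Real.sqrt 2]
    !₂[0, -1, Real.sqrt 2] !₂[-1, 0, 0] !₂[0, 1, Real.sqrt 2] !₂[0, -1, Real.sqrt 2] (by simp) (by simp) (by simp))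
  -- pairs of opposite edges
  have q1 := conv _ (area_pair_le v hv !₂[1, 0, 0] !₂[-1, 0, 0] !₂[0, 1, Real.sqrt 2]
    !₂[0, -1, Real.sqrt 2] !₂[1, 0, 0] !₂[0, 1, Real.sqrt 2] !₂[-1, 0, 0] !₂[0, -1, Real.sqrt 2]
    (by simp) (by simp) (by simp) (by simp))
  have q2 := conv _ (area_pair_le v hv !₂[1, 0, 0] !₂[-1, 0, 0] !₂[0, 1, Real.sqrt 2]
    !₂[0, -1, Real.sqrt 2] !₂[1, 0, 0] !₂[-1, 0, 0] !₂[0, 1, Real.sqrt 2] !₂[0, -1, Real.sqrt 2]
    (by simp) (by simp) (by simp) (by simp))
  have q3 := conv _ (area_pair_le v hv !₂[1, 0, 0] !₂[-1, 0, 0] !₂[0, 1, Real.sqrt 2]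
    !₂[0, -1, Real.sqrt 2] !₂[1, 0, 0] !₂[-1, 0, 0] !₂[0, -1, Real.sqrt 2] !₂[0, 1, Real.sqrt 2]
    (by simp) (by simp) (by simp) (by simp))
  simp only [det3, PiLp.sub_apply, Matrix.cons_val_zero, Matrix.cons_val_one,
    Matrix.cons_val_two, Matrix.head_cons, Matrix.tail_cons] at b1 b2 b3 b4 q1 q2 q3
  set x := v.ofLp 0 with hx
  set y := v.ofLp 1 with hy
  set z := v.ofLp 2 with hz
  set s := Real.sqrt 2 with hsdef
  have two_abs : ∀ e f : ℝ, e = 2 * f → |e| / 2 = |f| := by
    intro e f h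
    rw [h, abs_mul, abs_two]; ring
  refine seven_bounds_contra x y z s hs hs2 hv' ?_ ?_ ?_ ?_ ?_ ?_ ?_
  · rw [two_abs _ (s * y - z) (by ring)] at b1
    exact b1
  · rw [two_abs _ (s * y + z) (by ring)] at b2
    exact b2
  · rw [two_abs _ (s * x + z) (by ring)] at b3
    exact b3
  · rw [two_abs _ (s * x - z) (by ring)] at b4
    exact b4
  · rw [two_abs _ (-(2 * z)) (by ring), abs_neg, abs_mul, abs_two] at q1
    exact q1
  · rw [two_abs _ (-(s * (x + y))) (by ring), abs_neg, abs_mul, abs_of_pos hs] at q2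
    have : s * |x + y| < s * 1 := by linarith
    exact lt_of_mul_lt_mul_left this hs.le
  · rw [two_abs _ (s * (x - y)) (by ring), abs_mul, abs_of_pos hs] at q3
    have : s * |x - y| < s * 1 := by linarith
    exact lt_of_mul_lt_mul_left this hs.le

/-- **Minimum projection area, the minimum is attained** (direction `e₁`). -/
theorem proj_area_eq :
    (μHE[2] : Measure E3)
      ((fun y => y - inner ℝ y (!₂[1, 0, 0] : E3) • (!₂[1, 0, 0] : E3)) '' convexHull ℝ
        {!₂[1, 0, 0], !₂[-1, 0, 0], !₂[0, 1, Real.sqrt 2], !₂[0, -1, Real.sqrt 2]}) =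
      ENNReal.ofReal (Real.sqrt 2) := by
  have hv : ‖(!₂[1, 0, 0] : E3)‖ = 1 := by
    have h : ‖(!₂[1, 0, 0] : E3)‖ ^ 2 = 1 := by
      rw [norm_sq_coord]; simp
    have h0 : 0 ≤ ‖(!₂[1, 0, 0] : E3)‖ := norm_nonneg _
    nlinarith
  rw [image_tetra]
  have h12 : proj (!₂[1, 0, 0] : E3) !₂[-1, 0, 0] = proj (!₂[1, 0, 0] : E3) !₂[1, 0, 0] := by
    ext i
    fin_cases i <;> simp [proj_coord]
  rw [h12]
  have hset : ({proj (!₂[1, 0, 0] : E3) !₂[1, 0, 0], proj (!₂[1, 0, 0] : E3) !₂[1, 0, 0],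
      proj (!₂[1, 0, 0] : E3) !₂[0, 1, Real.sqrt 2],
      proj (!₂[1, 0, 0] : E3) !₂[0, -1, Real.sqrt 2]} : Set E3) =
      {proj (!₂[1, 0, 0] : E3) !₂[1, 0, 0], proj (!₂[1, 0, 0] : E3) !₂[0, 1, Real.sqrt 2],
      proj (!₂[1, 0, 0] : E3) !₂[0, -1, Real.sqrt 2]} := by
    ext z; simp
  rw [hset, area_proj_triangle _ hv]
  congr 1
  have hs : 0 < Real.sqrt 2 := Real.sqrt_pos.mpr (by norm_num)
  have hd : det3 ((!₂[0, 1, Real.sqrt 2] : E3) - !₂[1, 0, 0])
      ((!₂[0, -1, Real.sqrt 2] : E3) - !₂[1, 0, 0]) (!₂[1, 0, 0] : E3) = 2 * Real.sqrt 2 := by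
    simp [det3]
    ring
  rw [hd, abs_of_pos (by positivity)]
  ring

/-- A bounded subset of a plane through the origin has finite area. -/
theorem area_lt_top_of_bounded_plane (v : E3) (hv : v ≠ 0) (A : Set E3)
    (hA : Bornology.IsBounded A) (hAv : ∀ x ∈ A, inner ℝ x v = 0) :
    (μHE[2] : Measure E3) A < ⊤ := by
  classical
  set S : Submodule ℝ E3 := (ℝ ∙ v)ᗮ with hS
  have hfin : Module.finrank ℝ S = 2 := by
    have : Fact (Module.finrank ℝ E3 = 2 + 1) := ⟨by simp⟩
    exact Submodule.finrank_orthogonal_span_singleton (𝕜 := ℝ) (E := E3) (n := 2) hv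
  have hAS : A = Subtype.val '' ((Subtype.val : S → E3) ⁻¹' A) := by
    ext x
    constructor
    · intro hx
      have hxS : x ∈ S := by
        rw [hS, Submodule.mem_orthogonal_singleton_iff_inner_left]
        exact hAv x hx
      exact ⟨⟨x, hxS⟩, hx, rfl⟩
    · rintro ⟨y, hy, rfl⟩
      exact hy
  have hb : Bornology.IsBounded ((Subtype.val : S → E3) ⁻¹' A) := by
    rw [← Bornology.isBounded_image_subtype_val, ← hAS]
    exact hA
  rw [hAS, isometry_subtype_coe.euclideanHausdorffMeasure_image]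
  have hvol : (μHE[2] : Measure S) = volume := by
    rw [← hfin]; exact InnerProductSpace.euclideanHausdorffMeasure_eq_volume
  rw [hvol]
  exact hb.measure_lt_top

/-- The projection along a unit vector lands in the plane orthogonal to it. -/
theorem inner_proj_self (v : E3) (hv : ‖v‖ = 1) (y : E3) :
    inner ℝ (y - inner ℝ y v • v) v = 0 := by
  rw [inner_sub_left, inner_smul_left, real_inner_self_eq_norm_sq, hv]
  simp

/-- The projection of a bounded set has finite area. -/
theorem proj_image_lt_top (v : E3) (hv : ‖v‖ = 1) (K : Set E3) (hK : Bornology.IsBounded K) :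
    (μHE[2] : Measure E3) ((fun y => y - inner ℝ y v • v) '' K) < ⊤ := by
  have hv0 : v ≠ 0 := by
    intro h; rw [h] at hv; simp at hv
  refine area_lt_top_of_bounded_plane v hv0 _ ?_ ?_
  · obtain ⟨C, hC⟩ := isBounded_iff_forall_norm_le.mp hK
    refine isBounded_iff_forall_norm_le.mpr ⟨2 * C, ?_⟩
    rintro _ ⟨y, hy, rfl⟩
    have h1 : ‖y - inner ℝ y v • v‖ ≤ ‖y‖ + ‖inner ℝ y v • v‖ := norm_sub_le _ _
    have h2 : ‖inner ℝ y v • v‖ ≤ ‖y‖ := by
      rw [norm_smul, hv, mul_one]
      have := abs_real_inner_le_norm y v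
      rw [hv, mul_one] at this
      exact this
    have h3 := hC y hy
    linarith
  · rintro _ ⟨y, _, rfl⟩
    exact inner_proj_self v hv y

/-- The standard regular tetrahedron is bounded. -/
theorem isBounded_tetra (P1 P2 P3 P4 : E3) :
    Bornology.IsBounded (convexHull ℝ ({P1, P2, P3, P4} : Set E3)) :=
  (isBounded_convexHull (s := ({P1, P2, P3, P4} : Set E3))).mpr (Set.toFinite _).isBounded

/-- **Finiteness of the projection area.** -/
theorem proj_area_lt_top (v : E3) (hv : ‖v‖ = 1) :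
    (μHE[2] : Measure E3)
      ((fun y => y - inner ℝ y v • v) '' convexHull ℝ
        {!₂[1, 0, 0], !₂[-1, 0, 0], !₂[0, 1, Real.sqrt 2], !₂[0, -1, Real.sqrt 2]}) < ⊤ :=
  proj_image_lt_top v hv _ (isBounded_tetra _ _ _ _)

/-- **Minimum projection area, real-valued form.** -/
theorem proj_area_toReal_ge (v : E3) (hv : ‖v‖ = 1) :
    Real.sqrt 2 ≤ ((μHE[2] : Measure E3)
      ((fun y => y - inner ℝ y v • v) '' convexHull ℝ
        {!₂[1, 0, 0], !₂[-1, 0, 0], !₂[0, 1, Real.sqrt 2], !₂[0, -1, Real.sqrt 2]})).toReal := by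
  have h := proj_area_ge v hv
  have hfin := proj_area_lt_top v hv
  rw [ENNReal.ofReal_le_iff_le_toReal hfin.ne] at h
  exact h

/-- The raw Hausdorff measure `μH[2]` is a positive constant multiple of `μHE[2]`. -/
theorem exists_hausdorff_factor :
    ∃ k : ℝ, 0 < k ∧ ∀ s : Set E3,
      ((μH[(2 : ℝ)] : Measure E3) s).toReal = k * ((μHE[2] : Measure E3) s).toReal := by
  obtain ⟨c, hc0, hdef⟩ : ∃ c : NNReal, c ≠ 0 ∧ ∀ s : Set E3,
      (μHE[2] : Measure E3) s = c • (μH[(2 : ℝ)] : Measure E3) s := by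
    refine ⟨_, Measure.addHaarScalarFactor_volume_hausdorffMeasure_ne_zero 2, fun s => ?_⟩
    rw [Measure.euclideanHausdorffMeasure_def, Measure.smul_apply]
    norm_num
  have hcpos : 0 < (c : ℝ) := lt_of_le_of_ne c.2 (fun h => hc0 (NNReal.coe_eq_zero.mp h.symm))
  refine ⟨(c : ℝ)⁻¹, inv_pos.mpr hcpos, fun s => ?_⟩
  rw [hdef, ENNReal.smul_def, smul_eq_mul, ENNReal.toReal_mul, ENNReal.coe_toReal]
  field_simp

/-- Margin clause for `μHE[2]`: a total area below `√2 / 2` by `δ` is below half of every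
projection area of the standard tetrahedron by `δ`. -/
theorem he_margin {m : ℕ} (T : Fin m → Set E3) (δ : ℝ)
    (h : ∑ i, ((μHE[2] : Measure E3) (T i)).toReal + δ ≤ Real.sqrt 2 / 2)
    (v : E3) (hv : ‖v‖ = 1) :
    ∑ i, ((μHE[2] : Measure E3) (T i)).toReal + δ ≤
      ((μHE[2] : Measure E3) ((fun y => y - inner ℝ y v • v) '' convexHull ℝ
        {!₂[1, 0, 0], !₂[-1, 0, 0], !₂[0, 1, Real.sqrt 2], !₂[0, -1, Real.sqrt 2]})).toReal / 2 := by
  have := proj_area_toReal_ge v hv
  linarith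

/-- Margin clause for the raw Hausdorff measure `μH[2]`, in the shape of the last clause of
S0324. -/
theorem raw_margin {m : ℕ} (T : Fin m → Set E3) (δ : ℝ) (hδ : 0 < δ)
    (h : ∑ i, ((μHE[2] : Measure E3) (T i)).toReal + δ ≤ Real.sqrt 2 / 2) :
    ∃ δ' : ℝ, 0 < δ' ∧ ∀ v : E3, ‖v‖ = 1 →
      ∑ i, ((μH[(2 : ℝ)] : Measure E3) (T i)).toReal + δ' ≤
        ((μH[(2 : ℝ)] : Measure E3) ((fun y => y - inner ℝ y v • v) '' convexHull ℝ
          {!₂[1, 0, 0], !₂[-1, 0, 0], !₂[0, 1, Real.sqrt 2], !₂[0, -1, Real.sqrt 2]})).toReal / 2 := by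
  obtain ⟨k, hk, hfac⟩ := exists_hausdorff_factor
  refine ⟨k * δ, mul_pos hk hδ, fun v hv => ?_⟩
  have h1 := he_margin T δ h v hv
  simp only [hfac]
  rw [← Finset.mul_sum, ← mul_add, mul_div_assoc]
  exact mul_le_mul_of_nonneg_left h1 hk.le

/-- Ratio clause (generic arithmetic): if `∑ aᵢ + δ ≤ c / 2` and every `Aᵢ ≥ c > 0`, then
`∑ aᵢ / Aᵢ < 1 / 2`. -/
theorem ratio_lt_half {m : ℕ} (a A : Fin m → ℝ) (c δ : ℝ) (hc : 0 < c) (hδ : 0 < δ)
    (ha : ∀ i, 0 ≤ a i) (hA : ∀ i, c ≤ A i) (h : ∑ i, a i + δ ≤ c / 2) :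
    ∑ i, a i / A i < 1 / 2 := by
  have h1 : ∑ i, a i / A i ≤ ∑ i, a i / c :=
    Finset.sum_le_sum (fun i _ => div_le_div_of_nonneg_left (ha i) hc (hA i))
  have h2 : ∑ i, a i / c = (∑ i, a i) / c := by rw [Finset.sum_div]
  have h3 : (∑ i, a i) / c < 1 / 2 := by
    rw [div_lt_iff₀ hc]
    linarith
  linarith

end Crest.Agent.Lib_helper19_TetraProj
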