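import Mathlib
import Crest.Agent.Lib_helper18_Area
import Crest.Agent.Lib_helper19_TetraProj

/-!
Assembly of S0325 (row 211) from a "core cover" of the standard regular tetrahedron:
padding a finite cylinder cover with degenerate cylinders and one cylinder of prescribed
base area, so that the number of cylinders and the total base area take prescribed values.
-/

set_option autoImplicit false
open MeasureTheory
open scoped ENNReal

namespace Crest.Agent.Lib_helper19_S0325Asm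

open Crest.Agent.Lib_helper19_TetraProj

/-- `Good K n S`: `K` is covered by `n` cylinders with unit directions and triangular bases
orthogonal to the directions, of total base area exactly `S`. -/
def Good (K : Set E3) (n : ℕ) (S : ℝ) : Prop :=
  ∃ (u p q r : Fin n → E3),
    (∀ i, ‖u i‖ = 1) ∧
    (∀ i, inner ℝ (p i) (u i) = 0 ∧ inner ℝ (q i) (u i) = 0 ∧ inner ℝ (r i) (u i) = 0) ∧
    K ⊆ ⋃ i, {x : E3 | ∃ b ∈ convexHull ℝ {p i, q i, r i}, ∃ t : ℝ, x = b + t • u i} ∧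
    ∑ i, ((μHE[2] : Measure E3) (convexHull ℝ {p i, q i, r i})).toReal = S

/-- Area of the padding triangle, generic side. -/
theorem area_pad_aux (s : ℝ) (_hs : 0 ≤ s) :
    ((μHE[2] : Measure E3) (convexHull ℝ {(0 : E3),
      (!₂[0, s, 0] : E3), (!₂[0, 0, s] : E3)})).toReal = s ^ 2 / 2 := by
  rw [area_triangle, ENNReal.toReal_ofReal (by positivity)]
  have h1 : ‖(!₂[0, s, 0] : E3) - (0 : E3)‖ ^ 2 = s ^ 2 := by
    rw [sub_zero, norm_sq_coord]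
    simp
  have h2 : ‖(!₂[0, 0, s] : E3) - (0 : E3)‖ ^ 2 = s ^ 2 := by
    rw [sub_zero, norm_sq_coord]
    simp
  have h3 : inner ℝ ((!₂[0, s, 0] : E3) - (0 : E3)) ((!₂[0, 0, s] : E3) - (0 : E3)) = 0 := by
    rw [sub_zero, sub_zero, inner_coord]
    simp
  rw [h1, h2, h3]
  have : s ^ 2 * s ^ 2 - 0 ^ 2 = (s ^ 2) ^ 2 := by ring
  rw [this, Real.sqrt_sq (by positivity)]

/-- Area of the padding triangle. -/
theorem area_pad (D : ℝ) (hD : 0 ≤ D) :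
    ((μHE[2] : Measure E3) (convexHull ℝ {(0 : E3),
      (!₂[0, Real.sqrt (2 * D), 0] : E3), (!₂[0, 0, Real.sqrt (2 * D)] : E3)})).toReal = D := by
  rw [area_pad_aux _ (Real.sqrt_nonneg _), Real.sq_sqrt (by linarith)]
  ring

theorem norm_e1 : ‖(!₂[1, 0, 0] : E3)‖ = 1 := by
  have h : ‖(!₂[1, 0, 0] : E3)‖ ^ 2 = 1 := by
    rw [norm_sq_coord]; simp
  have h0 : 0 ≤ ‖(!₂[1, 0, 0] : E3)‖ := norm_nonneg _
  nlinarith

/-- Append one cylinder of prescribed base area. -/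
theorem Good.append_one {K : Set E3} {n : ℕ} {S : ℝ} (h : Good K n S) (D : ℝ) (hD : 0 ≤ D) :
    Good K (n + 1) (S + D) := by
  obtain ⟨u, p, q, r, hu, hperp, hcov, hsum⟩ := h
  refine ⟨Fin.snoc (α := fun _ => E3) u (!₂[1, 0, 0] : E3),
    Fin.snoc (α := fun _ => E3) p 0,
    Fin.snoc (α := fun _ => E3) q (!₂[0, Real.sqrt (2 * D), 0] : E3),
    Fin.snoc (α := fun _ => E3) r (!₂[0, 0, Real.sqrt (2 * D)] : E3),
    ?_, ?_, ?_, ?_⟩
  · intro i
    refine Fin.lastCases ?_ (fun j => ?_) i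
    · rw [Fin.snoc_last]; exact norm_e1
    · rw [Fin.snoc_castSucc]; exact hu j
  · intro i
    refine Fin.lastCases ?_ (fun j => ?_) i
    · simp only [Fin.snoc_last]
      refine ⟨by simp, ?_, ?_⟩
      · rw [inner_coord]; simp
      · rw [inner_coord]; simp
    · simp only [Fin.snoc_castSucc]; exact hperp j
  · intro x hx
    obtain ⟨i, hi⟩ := Set.mem_iUnion.mp (hcov hx)
    refine Set.mem_iUnion.mpr ⟨i.castSucc, ?_⟩
    simp only [Fin.snoc_castSucc]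
    exact hi
  · rw [Fin.sum_univ_castSucc]
    simp only [Fin.snoc_castSucc, Fin.snoc_last]
    rw [hsum, area_pad D hD]

/-- Append `k` degenerate cylinders. -/
theorem Good.append_many {K : Set E3} {n : ℕ} {S : ℝ} (h : Good K n S) (k : ℕ) :
    Good K (n + k) S := by
  induction k with
  | zero => exact h
  | succ k ih =>
    have := ih.append_one 0 le_rfl
    rw [add_zero] at this
    exact this

/-- Padding: from a cover by `m` cylinders of total area `≤ T`, a cover by exactly `N ≥ m + 1`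
cylinders of total area exactly `T`. -/
theorem Good.pad {K : Set E3} {m : ℕ} {S : ℝ} (h : Good K m S) (N : ℕ) (hN : m + 1 ≤ N)
    (T : ℝ) (hT : S ≤ T) : Good K N T := by
  obtain ⟨k, rfl⟩ := Nat.exists_eq_add_of_le hN
  have h1 := h.append_one (T - S) (by linarith)
  have h2 := h1.append_many k
  have : S + (T - S) = T := by ring
  rw [this] at h2
  exact h2

/-- The statement of S0325 (verbatim). -/
def Stmt : Prop :=
    ((∀ v : EuclideanSpace ℝ (Fin 3), ‖v‖ = 1 →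
        ENNReal.ofReal (Real.sqrt 2) ≤ μHE[2] ((fun y => y - inner ℝ y v • v) '' convexHull ℝ {!₂[1, 0, 0], !₂[-1, 0, 0], !₂[0, 1, Real.sqrt 2], !₂[0, -1, Real.sqrt 2]})) ∧
      ∃ v : EuclideanSpace ℝ (Fin 3), ‖v‖ = 1 ∧
        μHE[2] ((fun y => y - inner ℝ y v • v) '' convexHull ℝ {!₂[1, 0, 0], !₂[-1, 0, 0], !₂[0, 1, Real.sqrt 2], !₂[0, -1, Real.sqrt 2]}) = ENNReal.ofReal (Real.sqrt 2)) ∧
    ∀ ε : ℝ, 0 < ε → ε ≤ 1 / 2000 →
      ∃ (u p q r : Fin (2 * ⌈2 / ε ^ 2⌉₊) → EuclideanSpace ℝ (Fin 3)),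
        (∀ i, ‖u i‖ = 1) ∧
        (∀ i, inner ℝ (p i) (u i) = 0 ∧ inner ℝ (q i) (u i) = 0 ∧ inner ℝ (r i) (u i) = 0) ∧
        convexHull ℝ {!₂[1, 0, 0], !₂[-1, 0, 0], !₂[0, 1, Real.sqrt 2], !₂[0, -1, Real.sqrt 2]} ⊆
          ⋃ i, {x : EuclideanSpace ℝ (Fin 3) | ∃ b ∈ convexHull ℝ {p i, q i, r i}, ∃ t : ℝ, x = b + t • u i} ∧
        abs ((∑ i, (μHE[2] (convexHull ℝ ({p i, q i, r i} : Set (EuclideanSpace ℝ (Fin 3))))).toReal) / Real.sqrt 2 -
            (1 / 2 - 13 / 6000 * ε ^ 2)) ≤ 2 * ε ^ 4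

/-- **S0325 from a core cover**: a cover of the standard tetrahedron by at most `16000000 - 1`
triangle cylinders with total base area at most `√2 (1/2 - g)`, `g ≥ 13 / 24000000000`. -/
theorem s0325_of_core (g : ℝ) (hg : 13 / 24000000000 ≤ g)
    (core : ∃ (m : ℕ) (u p q r : Fin m → EuclideanSpace ℝ (Fin 3)),
      (∀ i, ‖u i‖ = 1) ∧
      (∀ i, inner ℝ (p i) (u i) = 0 ∧ inner ℝ (q i) (u i) = 0 ∧ inner ℝ (r i) (u i) = 0) ∧
      convexHull ℝ {!₂[1, 0, 0], !₂[-1, 0, 0], !₂[0, 1, Real.sqrt 2], !₂[0, -1, Real.sqrt 2]} ⊆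
        ⋃ i, {x : EuclideanSpace ℝ (Fin 3) | ∃ b ∈ convexHull ℝ {p i, q i, r i}, ∃ t : ℝ, x = b + t • u i} ∧
      m + 1 ≤ 16000000 ∧
      ∑ i, (μHE[2] (convexHull ℝ ({p i, q i, r i} : Set (EuclideanSpace ℝ (Fin 3))))).toReal ≤
        Real.sqrt 2 * (1 / 2 - g)) : Stmt := by
  obtain ⟨m, u, p, q, r, hu, hperp, hcov, hm, hsum⟩ := core
  have hs : 0 < Real.sqrt 2 := Real.sqrt_pos.mpr (by norm_num)
  refine ⟨⟨fun v hv => proj_area_ge v hv, !₂[1, 0, 0], ?_, proj_area_eq⟩, ?_⟩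
  · exact norm_e1
  · intro ε hε hε'
    have hgood : Good (convexHull ℝ {!₂[1, 0, 0], !₂[-1, 0, 0], !₂[0, 1, Real.sqrt 2],
        !₂[0, -1, Real.sqrt 2]}) m
        (∑ i, ((μHE[2] : Measure E3) (convexHull ℝ {p i, q i, r i})).toReal) :=
      ⟨u, p, q, r, hu, hperp, hcov, rfl⟩
    have hε2 : ε ^ 2 ≤ 1 / 4000000 := by nlinarith
    have hε2pos : 0 < ε ^ 2 := by positivity
    have hN : m + 1 ≤ 2 * ⌈2 / ε ^ 2⌉₊ := by
      have h1 : (8000000 : ℝ) ≤ 2 / ε ^ 2 := by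
        rw [le_div_iff₀ hε2pos]; nlinarith
      have h2 : (8000000 : ℝ) ≤ (⌈2 / ε ^ 2⌉₊ : ℝ) := h1.trans (Nat.le_ceil _)
      have h3 : 8000000 ≤ ⌈2 / ε ^ 2⌉₊ := by exact_mod_cast h2
      omega
    have hT : ∑ i, ((μHE[2] : Measure E3) (convexHull ℝ {p i, q i, r i})).toReal ≤
        Real.sqrt 2 * (1 / 2 - 13 / 6000 * ε ^ 2) := by
      refine hsum.trans (mul_le_mul_of_nonneg_left ?_ hs.le)
      nlinarith
    obtain ⟨u', p', q', r', hu', hperp', hcov', hsum'⟩ := hgood.pad _ hN _ hT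
    refine ⟨u', p', q', r', hu', hperp', hcov', ?_⟩
    rw [hsum']
    have : Real.sqrt 2 * (1 / 2 - 13 / 6000 * ε ^ 2) / Real.sqrt 2 - (1 / 2 - 13 / 6000 * ε ^ 2) = 0 := by
      field_simp
      ring
    rw [this, abs_zero]
    positivity

/-- **S0324 from a core cover** (same hypothesis shape as `s0325_of_core`, any gain `g > 0`). -/
theorem s0324_of_core (g : ℝ) (hg : 0 < g)
    (core : ∃ (m : ℕ) (u p q r : Fin m → EuclideanSpace ℝ (Fin 3)),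
      (∀ i, ‖u i‖ = 1) ∧
      (∀ i, inner ℝ (p i) (u i) = 0 ∧ inner ℝ (q i) (u i) = 0 ∧ inner ℝ (r i) (u i) = 0) ∧
      convexHull ℝ {!₂[1, 0, 0], !₂[-1, 0, 0], !₂[0, 1, Real.sqrt 2], !₂[0, -1, Real.sqrt 2]} ⊆
        ⋃ i, {x : EuclideanSpace ℝ (Fin 3) | ∃ b ∈ convexHull ℝ {p i, q i, r i}, ∃ t : ℝ, x = b + t • u i} ∧
      m + 1 ≤ 16000000 ∧
      ∑ i, (μHE[2] (convexHull ℝ ({p i, q i, r i} : Set (EuclideanSpace ℝ (Fin 3))))).toReal ≤
        Real.sqrt 2 * (1 / 2 - g)) :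
    ∃ (m : ℕ) (u p q r : Fin m → EuclideanSpace ℝ (Fin 3)),
      (∀ i, ‖u i‖ = 1) ∧
      (∀ i, inner ℝ (p i) (u i) = 0 ∧ inner ℝ (q i) (u i) = 0 ∧ inner ℝ (r i) (u i) = 0) ∧
      convexHull ℝ {!₂[1, 0, 0], !₂[-1, 0, 0], !₂[0, 1, Real.sqrt 2], !₂[0, -1, Real.sqrt 2]} ⊆
        ⋃ i, {x : EuclideanSpace ℝ (Fin 3) | ∃ b ∈ convexHull ℝ {p i, q i, r i}, ∃ t : ℝ, x = b + t • u i} ∧
      ∃ δ : ℝ, 0 < δ ∧ ∀ v : EuclideanSpace ℝ (Fin 3), ‖v‖ = 1 →
        ∑ i, (μH[(2 : ℝ)] (convexHull ℝ {p i, q i, r i})).toReal + δ ≤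
          (μH[(2 : ℝ)] ((fun y => y - inner ℝ y v • v) '' convexHull ℝ {!₂[1, 0, 0], !₂[-1, 0, 0], !₂[0, 1, Real.sqrt 2], !₂[0, -1, Real.sqrt 2]})).toReal / 2 := by
  obtain ⟨m, u, p, q, r, hu, hperp, hcov, -, hsum⟩ := core
  have hs : 0 < Real.sqrt 2 := Real.sqrt_pos.mpr (by norm_num)
  refine ⟨m, u, p, q, r, hu, hperp, hcov, ?_⟩
  refine raw_margin (fun i => convexHull ℝ {p i, q i, r i}) (Real.sqrt 2 * g) (mul_pos hs hg) ?_
  have : Real.sqrt 2 * (1 / 2 - g) + Real.sqrt 2 * g = Real.sqrt 2 / 2 := by ring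
  linarith

end Crest.Agent.Lib_helper19_S0325Asm
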