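import Mathlib
import Crest.Agent.Lib_S0423_Defs
import Crest.Agent.Lib_helper1_FP

/-!
Fallback route for part [C] of S0423 ("exact matching"): a log-concave survival function `R`
with mean zero is compared with the survival function `cmp p` of `p * (X - 1)`, where `p` is
chosen (one use of the intermediate value theorem) so that the integrals of `R` and `cmp p`
agree on both sides of the mode `-1/3` of the weight.  The difference `R - cmp p` then has the
sign pattern `-,+,-` and the weight is unimodal, which gives `Phi (cmp p) ≤ Phi R`.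
-/

set_option autoImplicit false

namespace Crest.Agent.Lib_helper1_CMatch

open MeasureTheory Set Crest.Agent.Lib_S0423_Defs

/-- Comparator: survival function of `p * (X - 1)` (`X` exponential of mean one). -/
noncomputable def cmp (p t : ℝ) : ℝ := Real.exp (-(p⁻¹ * max (t + p) 0))

/-- The weight `(t + 4/3) e^{-(t + 4/3)}`, extended by zero to the left of `-4/3`. -/
noncomputable def om (t : ℝ) : ℝ := max (t + 4 / 3) 0 * Real.exp (-(t + 4 / 3))

/-! ### The weight -/

theorem om_nonneg (t : ℝ) : 0 ≤ om t := mul_nonneg (le_max_right _ _) (Real.exp_pos _).le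

theorem om_of_le {t : ℝ} (h : t ≤ -(4 / 3)) : om t = 0 := by
  unfold om
  rw [max_eq_right (by linarith), zero_mul]

theorem om_of_ge {t : ℝ} (h : -(4 / 3) ≤ t) : om t = (t + 4 / 3) * Real.exp (-(t + 4 / 3)) := by
  unfold om
  rw [max_eq_left (by linarith)]

theorem continuous_om : Continuous om := by
  unfold om
  fun_prop

theorem mul_exp_neg_le (s : ℝ) : s * Real.exp (-s) ≤ Real.exp (-1) := by
  have h := Real.add_one_le_exp (s - 1)
  have h2 : s ≤ Real.exp (s - 1) := by linarith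
  calc s * Real.exp (-s) ≤ Real.exp (s - 1) * Real.exp (-s) :=
        mul_le_mul_of_nonneg_right h2 (Real.exp_pos _).le
    _ = Real.exp (-1) := by rw [← Real.exp_add]; ring_nf

theorem om_le (t : ℝ) : om t ≤ Real.exp (-1) := by
  rcases le_total t (-(4 / 3)) with h | h
  · rw [om_of_le h]; exact (Real.exp_pos _).le
  · rw [om_of_ge h]; exact mul_exp_neg_le _

theorem mul_exp_neg_mono {s s' : ℝ} (h0 : 0 ≤ s) (h : s ≤ s') (h1 : s' ≤ 1) :
    s * Real.exp (-s) ≤ s' * Real.exp (-s') := by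
  have hd : 0 ≤ s' - s := by linarith
  have h2 : 1 - (s' - s) ≤ Real.exp (-(s' - s)) := by
    have := Real.add_one_le_exp (-(s' - s)); linarith
  have hs' : 0 ≤ s' := by linarith
  have h3 : s ≤ s' * Real.exp (-(s' - s)) := by
    have : s' * (1 - (s' - s)) ≤ s' * Real.exp (-(s' - s)) := mul_le_mul_of_nonneg_left h2 hs'
    nlinarith [mul_nonneg hd (sub_nonneg.mpr h1)]
  have h4 : Real.exp (-s') = Real.exp (-(s' - s)) * Real.exp (-s) := by
    rw [← Real.exp_add]; ring_nf
  rw [h4, ← mul_assoc]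
  exact mul_le_mul_of_nonneg_right h3 (Real.exp_pos _).le

theorem mul_exp_neg_anti {s s' : ℝ} (h1 : 1 ≤ s) (h : s ≤ s') :
    s' * Real.exp (-s') ≤ s * Real.exp (-s) := by
  have hd : 0 ≤ s' - s := by linarith
  have h2 : 1 + (s' - s) ≤ Real.exp (s' - s) := by
    have := Real.add_one_le_exp (s' - s); linarith
  have h3 : s' ≤ s * Real.exp (s' - s) := by
    have : s * (1 + (s' - s)) ≤ s * Real.exp (s' - s) :=
      mul_le_mul_of_nonneg_left h2 (by linarith)
    nlinarith [mul_nonneg hd (sub_nonneg.mpr h1)]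
  have h4 : Real.exp (-s) = Real.exp (s' - s) * Real.exp (-s') := by
    rw [← Real.exp_add]; ring_nf
  rw [h4, ← mul_assoc]
  exact mul_le_mul_of_nonneg_right h3 (Real.exp_pos _).le

theorem om_mono {t t' : ℝ} (h : t ≤ t') (h1 : t' ≤ -(1 / 3)) : om t ≤ om t' := by
  rcases le_total t (-(4 / 3)) with ht | ht
  · rw [om_of_le ht]; exact om_nonneg _
  · rw [om_of_ge ht, om_of_ge (ht.trans h)]
    exact mul_exp_neg_mono (by linarith) (by linarith) (by linarith)

theorem om_anti {t t' : ℝ} (h1 : -(1 / 3) ≤ t) (h : t ≤ t') : om t' ≤ om t := by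
  rw [om_of_ge (by linarith), om_of_ge (by linarith)]
  exact mul_exp_neg_anti (by linarith) (by linarith)

theorem integrable_om : Integrable om := by
  have hsup : Function.support om ⊆ Ioi (-(4 / 3) : ℝ) := by
    intro t ht
    by_contra h
    exact ht (om_of_le (not_lt.mp h))
  rw [← integrableOn_iff_integrable_of_support_subset hsup]
  have hg : IntegrableOn
      (fun t : ℝ => (2 * Real.exp (-1) * Real.exp (-(2 / 3))) * Real.exp (-(1 / 2) * t))
      (Ioi (-(4 / 3) : ℝ)) :=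
    (exp_neg_integrableOn_Ioi (-(4 / 3)) (by norm_num : (0 : ℝ) < 1 / 2)).const_mul _
  refine Integrable.mono' hg continuous_om.aestronglyMeasurable ?_
  refine (ae_restrict_iff' measurableSet_Ioi).mpr (Filter.Eventually.of_forall fun t ht => ?_)
  have ht' : -(4 / 3) < t := ht
  rw [Real.norm_eq_abs, abs_of_nonneg (om_nonneg t), om_of_ge ht'.le]
  have hs : 0 < t + 4 / 3 := by linarith
  have h1 := mul_exp_neg_le ((t + 4 / 3) / 2)
  have e1 : Real.exp (-(t + 4 / 3)) =
      Real.exp (-((t + 4 / 3) / 2)) * Real.exp (-((t + 4 / 3) / 2)) := by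
    rw [← Real.exp_add]; ring_nf
  have e2 : Real.exp (-(2 / 3)) * Real.exp (-(1 / 2) * t) = Real.exp (-((t + 4 / 3) / 2)) := by
    rw [← Real.exp_add]; ring_nf
  have hpos : 0 < Real.exp (-((t + 4 / 3) / 2)) := Real.exp_pos _
  rw [e1]
  have : (t + 4 / 3) * (Real.exp (-((t + 4 / 3) / 2)) * Real.exp (-((t + 4 / 3) / 2))) =
      2 * ((t + 4 / 3) / 2 * Real.exp (-((t + 4 / 3) / 2))) * Real.exp (-((t + 4 / 3) / 2)) := by
    ring
  rw [this, mul_assoc (2 * Real.exp (-1)), e2]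
  exact mul_le_mul_of_nonneg_right (by linarith) hpos.le

theorem Phi_eq_integral (f : ℝ → ℝ) : Phi f = ∫ t, f t * om t := by
  have h1 : ∫ t, f t * om t = ∫ t in Ioi (-(4 / 3) : ℝ), f t * om t := by
    symm
    apply setIntegral_eq_integral_of_forall_compl_eq_zero
    intro t ht
    rw [om_of_le (not_lt.mp ht), mul_zero]
  rw [h1, Crest.Agent.Lib_helper1_FP.integral_Ioi_shift]
  unfold Phi
  refine setIntegral_congr_fun measurableSet_Ioi (fun s hs => ?_)
  have hs0 : (0 : ℝ) < s := hs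
  have e : s - 4 / 3 + 4 / 3 = s := by ring
  have e' : s + -(4 / 3) = s - 4 / 3 := by ring
  simp only [om, e']
  rw [e, max_eq_left hs0.le]

/-! ### The comparator -/

theorem cmp_pos (p t : ℝ) : 0 < cmp p t := Real.exp_pos _

theorem cmp_le_one {p : ℝ} (hp : 0 < p) (t : ℝ) : cmp p t ≤ 1 := by
  unfold cmp
  rw [Real.exp_le_one_iff]
  have : 0 ≤ p⁻¹ * max (t + p) 0 := mul_nonneg (inv_pos.mpr hp).le (le_max_right _ _)
  linarith

theorem cmp_of_le {p t : ℝ} (h : t ≤ -p) : cmp p t = 1 := by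
  unfold cmp
  rw [max_eq_right (by linarith), mul_zero, neg_zero, Real.exp_zero]

theorem cmp_of_ge {p t : ℝ} (h : -p ≤ t) : cmp p t = Real.exp (-(p⁻¹ * (t + p))) := by
  unfold cmp
  rw [max_eq_left (by linarith)]

theorem cmp_eq {p t : ℝ} (hp : 0 < p) (h : -p ≤ t) :
    cmp p t = Real.exp (-1) * Real.exp (-p⁻¹ * t) := by
  rw [cmp_of_ge h, ← Real.exp_add]
  congr 1
  have : p⁻¹ * p = 1 := inv_mul_cancel₀ hp.ne'
  linear_combination -this

theorem continuous_cmp (p : ℝ) : Continuous (cmp p) := by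
  unfold cmp
  fun_prop

theorem integral_cmp_Ioi {p m : ℝ} (hp : 0 < p) (hm : -p ≤ m) :
    IntegrableOn (cmp p) (Ioi m) ∧
      ∫ t in Ioi m, cmp p t = p * (Real.exp (-1) * Real.exp (-p⁻¹ * m)) := by
  have hneg : -p⁻¹ < 0 := by have := inv_pos.mpr hp; linarith
  have hcongr : ∀ t ∈ Ioi m, Real.exp (-1) * Real.exp (-p⁻¹ * t) = cmp p t := fun t ht =>
    (cmp_eq hp (hm.trans (le_of_lt ht))).symm
  constructor
  · exact IntegrableOn.congr_fun ((integrableOn_exp_mul_Ioi hneg m).const_mul (Real.exp (-1)))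
      hcongr measurableSet_Ioi
  · rw [← setIntegral_congr_fun measurableSet_Ioi hcongr, integral_const_mul,
      integral_exp_mul_Ioi hneg m]
    field_simp

/-! ### Mean identity at a shifted base point -/

theorem shift_mean {g : ℝ → ℝ} (hg : Continuous g) (a b : ℝ) (hI : IntegrableOn g (Ioi a))
    (hJ : IntegrableOn (fun t => 1 - g t) (Iic a)) :
    IntegrableOn g (Ioi b) ∧ IntegrableOn (fun t => 1 - g t) (Iic b) ∧
      (∫ t in Ioi b, g t) - ∫ t in Iic b, (1 - g t) =
        (∫ t in Ioi a, g t) - (∫ t in Iic a, (1 - g t)) + (a - b) := by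
  have hIb : IntegrableOn g (Ioi b) := by
    refine ((hg.integrableOn_Ioc (a := b) (b := a)).union hI).mono_set ?_
    intro x hx
    rcases le_or_gt x a with h | h
    · exact Or.inl ⟨hx, h⟩
    · exact Or.inr h
  have hg1 : Continuous (fun t => 1 - g t) := continuous_const.sub hg
  have hJb : IntegrableOn (fun t => 1 - g t) (Iic b) := by
    refine (hJ.union (hg1.integrableOn_Ioc (a := a) (b := b))).mono_set ?_
    intro x hx
    rcases le_or_gt x a with h | h
    · exact Or.inl h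
    · exact Or.inr ⟨h, hx⟩
  refine ⟨hIb, hJb, ?_⟩
  have e1 := intervalIntegral.integral_interval_add_Ioi hIb hI
  have e2 := intervalIntegral.integral_Iic_sub_Iic hJb hJ
  have e3 : ∫ t in b..a, (1 - g t) = (a - b) - ∫ t in b..a, g t := by
    rw [intervalIntegral.integral_sub intervalIntegrable_const (hg.intervalIntegrable _ _),
      intervalIntegral.integral_const, smul_eq_mul, mul_one]
  linarith

/-! ### The matching parameter -/

theorem exists_match {A : ℝ} (hA : 1 / 3 ≤ A) :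
    ∃ p : ℝ, 1 / 3 ≤ p ∧ p * (Real.exp (-1) * Real.exp (-p⁻¹ * (-(1 / 3)))) = A := by
  have hP : (1 / 3 : ℝ) ≤ max (1 / 3) (Real.exp 1 * A) := le_max_left _ _
  have hcont : ContinuousOn (fun p : ℝ => p * (Real.exp (-1) * Real.exp (-p⁻¹ * (-(1 / 3)))))
      (Icc (1 / 3) (max (1 / 3) (Real.exp 1 * A))) := by
    refine ContinuousOn.mul continuousOn_id (ContinuousOn.mul continuousOn_const ?_)
    refine Real.continuous_exp.comp_continuousOn (ContinuousOn.mul ?_ continuousOn_const)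
    refine ContinuousOn.neg (ContinuousOn.inv₀ continuousOn_id ?_)
    intro x hx
    exact ne_of_gt (lt_of_lt_of_le (by norm_num) hx.1)
  have h1 : (1 / 3 : ℝ) * (Real.exp (-1) * Real.exp (-(1 / 3 : ℝ)⁻¹ * (-(1 / 3)))) = 1 / 3 := by
    have : -(1 / 3 : ℝ)⁻¹ * (-(1 / 3)) = 1 := by norm_num
    rw [this, ← Real.exp_add]
    norm_num
  have h2 : A ≤ max (1 / 3) (Real.exp 1 * A) *
      (Real.exp (-1) * Real.exp (-(max (1 / 3) (Real.exp 1 * A))⁻¹ * (-(1 / 3)))) := by
    set P : ℝ := max (1 / 3) (Real.exp 1 * A) with hPdef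
    have hPpos : 0 < P := by linarith
    have he : 1 ≤ Real.exp (-P⁻¹ * (-(1 / 3))) := by
      apply Real.one_le_exp
      have := inv_pos.mpr hPpos
      nlinarith
    have hPA : Real.exp 1 * A ≤ P := le_max_right _ _
    have hA' : A ≤ P * Real.exp (-1) := by
      rw [Real.exp_neg, ← div_eq_mul_inv, le_div_iff₀ (Real.exp_pos 1)]
      linarith
    calc A ≤ P * Real.exp (-1) := hA'
      _ = P * (Real.exp (-1) * 1) := by ring
      _ ≤ P * (Real.exp (-1) * Real.exp (-P⁻¹ * (-(1 / 3)))) :=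
        mul_le_mul_of_nonneg_left (mul_le_mul_of_nonneg_left he (Real.exp_pos _).le) hPpos.le
  have hivt := intermediate_value_Icc hP hcont
  obtain ⟨p, hp, hpA⟩ := hivt ⟨by rw [h1]; exact hA, h2⟩
  exact ⟨p, hp.1, hpA⟩

/-! ### Sign structure and levels -/

theorem le_line_of_between {L : ℝ → ℝ} (hL : ConvexOn ℝ univ L) {k p u t v : ℝ}
    (hu : L u ≤ k * (u + p)) (hv : L v ≤ k * (v + p)) (hut : u ≤ t) (htv : t ≤ v) :
    L t ≤ k * (t + p) := by
  rcases eq_or_lt_of_le (hut.trans htv) with huv | huv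
  · have : t = u := le_antisymm (by rw [huv]; exact htv) hut
    rw [this]; exact hu
  · have hvu : 0 < v - u := sub_pos.mpr huv
    have ha : 0 ≤ (v - t) / (v - u) := div_nonneg (by linarith) hvu.le
    have hb : 0 ≤ (t - u) / (v - u) := div_nonneg (by linarith) hvu.le
    have hab : (v - t) / (v - u) + (t - u) / (v - u) = 1 := by field_simp; ring
    have h := hL.2 (mem_univ u) (mem_univ v) ha hb hab
    have e : ((v - t) / (v - u)) • u + ((t - u) / (v - u)) • v = t := by
      simp only [smul_eq_mul]; field_simp; ring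
    rw [e] at h
    simp only [smul_eq_mul] at h
    have h1 := mul_le_mul_of_nonneg_left hu ha
    have h2 := mul_le_mul_of_nonneg_left hv hb
    have e2 : (v - t) / (v - u) * (k * (u + p)) + (t - u) / (v - u) * (k * (v + p)) =
        k * (t + p) := by
      field_simp; ring
    linarith

theorem left_level {I : Set ℝ} {D : ℝ → ℝ} {m0 lb : ℝ} (hI : I.OrdConnected) (hm : m0 ∈ I)
    (hlb : ∀ t ∈ I, lb ≤ t) (hpos : ∀ t ∈ I, 0 ≤ D t) (hneg : ∀ t, t ∉ I → D t ≤ 0)
    {w : ℝ → ℝ} (hw : ∀ t t', t ≤ t' → t' ≤ m0 → w t ≤ w t') :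
    ∃ ℓ, ∀ t, t ≤ m0 → 0 ≤ D t * (w t - ℓ) := by
  have hbdd : BddBelow I := ⟨lb, fun t ht => hlb t ht⟩
  have hne : I.Nonempty := ⟨m0, hm⟩
  have ht1 : sInf I ≤ m0 := csInf_le hbdd hm
  refine ⟨w (sInf I), fun t ht => ?_⟩
  by_cases htI : t ∈ I
  · exact mul_nonneg (hpos t htI) (sub_nonneg.mpr (hw _ _ (csInf_le hbdd htI) ht))
  · have hle : t ≤ sInf I := by
      by_contra hlt
      rw [not_le] at hlt
      obtain ⟨u, huI, hut⟩ := exists_lt_of_csInf_lt hne hlt
      exact htI (hI.out huI hm ⟨hut.le, ht⟩)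
    exact mul_nonneg_of_nonpos_of_nonpos (hneg t htI) (sub_nonpos.mpr (hw _ _ hle ht1))

theorem right_level {I : Set ℝ} {D : ℝ → ℝ} {m0 : ℝ} (hI : I.OrdConnected) (hm : m0 ∈ I)
    (hpos : ∀ t ∈ I, 0 ≤ D t) (hneg : ∀ t, t ∉ I → D t ≤ 0)
    {w : ℝ → ℝ} (hw0 : ∀ t, 0 ≤ w t) (hw : ∀ t t', m0 ≤ t → t ≤ t' → w t' ≤ w t) :
    ∃ ℓ, ∀ t, m0 ≤ t → 0 ≤ D t * (w t - ℓ) := by
  by_cases hbdd : BddAbove I
  · have hne : I.Nonempty := ⟨m0, hm⟩
    have ht2 : m0 ≤ sSup I := le_csSup hbdd hm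
    refine ⟨w (sSup I), fun t ht => ?_⟩
    by_cases htI : t ∈ I
    · exact mul_nonneg (hpos t htI) (sub_nonneg.mpr (hw _ _ ht (le_csSup hbdd htI)))
    · have hle : sSup I ≤ t := by
        by_contra hlt
        rw [not_le] at hlt
        obtain ⟨u, huI, hut⟩ := exists_lt_of_lt_csSup hne hlt
        exact htI (hI.out hm huI ⟨ht, hut.le⟩)
      exact mul_nonneg_of_nonpos_of_nonpos (hneg t htI) (sub_nonpos.mpr (hw _ _ ht2 hle))
  · refine ⟨0, fun t ht => ?_⟩
    have htI : t ∈ I := by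
      rw [not_bddAbove_iff] at hbdd
      obtain ⟨u, huI, hut⟩ := hbdd t
      exact hI.out hm huI ⟨ht, hut.le⟩
    rw [sub_zero]
    exact mul_nonneg (hpos t htI) (hw0 t)

theorem int_mul_nonneg {s : Set ℝ} (hs : MeasurableSet s) {D w : ℝ → ℝ} (hD : IntegrableOn D s)
    (hDw : IntegrableOn (fun t => D t * w t) s) (h0 : ∫ t in s, D t = 0) (ℓ : ℝ)
    (h : ∀ t ∈ s, 0 ≤ D t * (w t - ℓ)) : 0 ≤ ∫ t in s, D t * w t := by
  have h2 : IntegrableOn (fun t => D t * ℓ) s := hD.mul_const ℓ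
  have h3 : ∫ t in s, D t * (w t - ℓ) = (∫ t in s, D t * w t) - ∫ t in s, D t * ℓ := by
    rw [← integral_sub hDw h2]
    refine integral_congr_ae (Filter.Eventually.of_forall fun t => ?_)
    show D t * (w t - ℓ) = D t * w t - D t * ℓ
    ring
  have h4 : ∫ t in s, D t * ℓ = 0 := by rw [integral_mul_const, h0, zero_mul]
  have h5 : 0 ≤ ∫ t in s, D t * (w t - ℓ) := setIntegral_nonneg hs h
  linarith

theorem setIntegral_pos_of_pos {s : Set ℝ} (hs : MeasurableSet s) (hμ : 0 < volume s)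
    {f : ℝ → ℝ} (hf : IntegrableOn f s) (hpos : ∀ x ∈ s, 0 < f x) : 0 < ∫ x in s, f x := by
  rw [setIntegral_pos_iff_support_of_nonneg_ae ?_ hf]
  · have hsub : s ⊆ Function.support f ∩ s := fun x hx => ⟨(hpos x hx).ne', hx⟩
    exact hμ.trans_le (measure_mono hsub)
  · exact (ae_restrict_iff' hs).mpr (Filter.Eventually.of_forall fun x hx => (hpos x hx).le)

/-! ### The comparison theorem -/

/-- Exact matching: some comparator `cmp p`, `p ≥ 1/3`, has `Phi (cmp p) ≤ Phi R`. -/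
theorem exists_cmp_le (R : ℝ → ℝ) (hc : Continuous R) (h01 : ∀ w, 0 < R w ∧ R w < 1)
    (hconv : ConvexOn ℝ univ (fun w => -Real.log (R w)))
    (hi1 : IntegrableOn R (Ioi 0)) (hi2 : IntegrableOn (fun w => 1 - R w) (Iic 0))
    (hmean : ∫ w in Ioi (0 : ℝ), R w = ∫ w in Iic (0 : ℝ), (1 - R w)) :
    ∃ p : ℝ, 1 / 3 ≤ p ∧ Phi (cmp p) ≤ Phi R := by
  -- mean identity for `R` at the mode `-1/3`
  obtain ⟨hRi, hRj, hRid⟩ := shift_mean hc 0 (-(1 / 3)) hi1 hi2
  have hB : 0 ≤ ∫ t in Iic (-(1 / 3) : ℝ), (1 - R t) :=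
    setIntegral_nonneg measurableSet_Iic (fun t _ => by linarith [(h01 t).2])
  have hA3 : 1 / 3 ≤ ∫ t in Ioi (-(1 / 3) : ℝ), R t := by linarith
  obtain ⟨p, hp, hpA⟩ := exists_match hA3
  have hp0 : 0 < p := by linarith
  -- mean identity for the comparator
  obtain ⟨hCi0, hCint0⟩ := integral_cmp_Ioi hp0 (le_refl (-p))
  have hCz : ∀ t ∈ Iic (-p), (1 : ℝ) - cmp p t = 0 := fun t ht => by
    rw [cmp_of_le ht, sub_self]
  have hCj0 : IntegrableOn (fun t => 1 - cmp p t) (Iic (-p)) :=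
    IntegrableOn.congr_fun integrableOn_zero (fun t ht => (hCz t ht).symm) measurableSet_Iic
  have hCint0' : ∫ t in Iic (-p), (1 - cmp p t) = 0 :=
    setIntegral_eq_zero_of_forall_eq_zero hCz
  obtain ⟨hCi, hCj, hCid⟩ := shift_mean (continuous_cmp p) (-p) (-(1 / 3)) hCi0 hCj0
  obtain ⟨-, hCint⟩ := integral_cmp_Ioi hp0 (by linarith : -p ≤ -(1 / 3))
  have hpp : p * (Real.exp (-1) * Real.exp (-p⁻¹ * -p)) = p := by
    have : -p⁻¹ * -p = 1 := by field_simp
    rw [this, ← Real.exp_add]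
    norm_num
  rw [hpp] at hCint0
  -- the difference
  have hDi : IntegrableOn (fun t => R t - cmp p t) (Ioi (-(1 / 3))) := hRi.sub hCi
  have hDj : IntegrableOn (fun t => R t - cmp p t) (Iic (-(1 / 3))) := by
    refine IntegrableOn.congr_fun (hCj.sub hRj) (fun t _ => ?_) measurableSet_Iic
    simp only [Pi.sub_apply]
    ring
  have hD1 : ∫ t in Ioi (-(1 / 3) : ℝ), (R t - cmp p t) = 0 := by
    rw [integral_sub hRi hCi, hCint, hpA, sub_self]
  have hD2 : ∫ t in Iic (-(1 / 3) : ℝ), (R t - cmp p t) = 0 := by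
    have e : ∫ t in Iic (-(1 / 3) : ℝ), (R t - cmp p t) =
        ∫ t in Iic (-(1 / 3) : ℝ), ((1 - cmp p t) - (1 - R t)) := by
      refine integral_congr_ae (Filter.Eventually.of_forall fun t => ?_)
      show R t - cmp p t = (1 - cmp p t) - (1 - R t)
      ring
    rw [e, integral_sub hCj hRj]
    rw [hCint, hpA] at hCid
    linarith
  -- sign structure
  have hIpos : ∀ t, (-p ≤ t ∧ -Real.log (R t) ≤ p⁻¹ * (t + p)) → 0 ≤ R t - cmp p t := by
    intro t ht
    rw [cmp_of_ge ht.1, sub_nonneg, ← Real.exp_log (h01 t).1]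
    apply Real.exp_le_exp.mpr
    linarith [ht.2]
  have hIneg : ∀ t, ¬ (-p ≤ t ∧ -Real.log (R t) ≤ p⁻¹ * (t + p)) → R t - cmp p t < 0 := by
    intro t ht
    by_cases h1 : -p ≤ t
    · have h2 : p⁻¹ * (t + p) < -Real.log (R t) := by
        by_contra h3
        exact ht ⟨h1, not_lt.mp h3⟩
      rw [cmp_of_ge h1, sub_neg]
      calc R t = Real.exp (Real.log (R t)) := (Real.exp_log (h01 t).1).symm
        _ < Real.exp (-(p⁻¹ * (t + p))) := Real.exp_lt_exp.mpr (by linarith)
    · rw [cmp_of_le (le_of_lt (not_le.mp h1))]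
      linarith [(h01 t).2]
  have hIord : ({t | -p ≤ t ∧ -Real.log (R t) ≤ p⁻¹ * (t + p)} : Set ℝ).OrdConnected := by
    refine ⟨fun u hu v hv t ht => ?_⟩
    exact ⟨hu.1.trans ht.1, le_line_of_between hconv hu.2 hv.2 ht.1 ht.2⟩
  have hmI : (-(1 / 3) : ℝ) ∈ ({t | -p ≤ t ∧ -Real.log (R t) ≤ p⁻¹ * (t + p)} : Set ℝ) := by
    by_contra hm
    by_cases hex : ∃ u, (-p ≤ u ∧ -Real.log (R u) ≤ p⁻¹ * (u + p)) ∧ u < -(1 / 3)
    · obtain ⟨u, huI, hu⟩ := hex
      have hall : ∀ t ∈ Ioi (-(1 / 3) : ℝ), 0 < -(R t - cmp p t) := by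
        intro t ht
        have hnot : ¬ (-p ≤ t ∧ -Real.log (R t) ≤ p⁻¹ * (t + p)) := fun htI =>
          hm (hIord.out huI htI ⟨hu.le, le_of_lt ht⟩)
        linarith [hIneg t hnot]
      have hpos := setIntegral_pos_of_pos measurableSet_Ioi (by simp) hDi.neg hall
      have hz : ∫ t in Ioi (-(1 / 3) : ℝ), -(R t - cmp p t) = 0 := by
        rw [integral_neg, hD1, neg_zero]
      have hpos' : 0 < ∫ t in Ioi (-(1 / 3) : ℝ), -(R t - cmp p t) := hpos
      linarith
    · have hall : ∀ t ∈ Iic (-(1 / 3) : ℝ), 0 < -(R t - cmp p t) := by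
        intro t ht
        have hnot : ¬ (-p ≤ t ∧ -Real.log (R t) ≤ p⁻¹ * (t + p)) := by
          intro htI
          rcases eq_or_lt_of_le (show t ≤ -(1 / 3) from ht) with h1 | h1
          · exact hm (h1 ▸ htI)
          · exact hex ⟨t, htI, h1⟩
        linarith [hIneg t hnot]
      have hpos := setIntegral_pos_of_pos measurableSet_Iic (by simp) hDj.neg hall
      have hz : ∫ t in Iic (-(1 / 3) : ℝ), -(R t - cmp p t) = 0 := by
        rw [integral_neg, hD2, neg_zero]
      have hpos' : 0 < ∫ t in Iic (-(1 / 3) : ℝ), -(R t - cmp p t) := hpos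
      linarith
  obtain ⟨ℓ1, hℓ1⟩ := left_level (D := fun t => R t - cmp p t) hIord hmI (fun t ht => ht.1)
    (fun t ht => hIpos t ht) (fun t ht => (hIneg t ht).le) (fun t t' h h' => om_mono h h')
  obtain ⟨ℓ2, hℓ2⟩ := right_level (D := fun t => R t - cmp p t) hIord hmI
    (fun t ht => hIpos t ht) (fun t ht => (hIneg t ht).le) om_nonneg
    (fun t t' h h' => om_anti h h')
  -- integrals against the weight
  have hRom : Integrable (fun t => R t * om t) :=
    integrable_om.bdd_mul (c := 1) hc.aestronglyMeasurable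
      (Filter.Eventually.of_forall fun t => by
        rw [Real.norm_eq_abs, abs_of_pos (h01 t).1]; exact (h01 t).2.le)
  have hCom : Integrable (fun t => cmp p t * om t) :=
    integrable_om.bdd_mul (c := 1) (continuous_cmp p).aestronglyMeasurable
      (Filter.Eventually.of_forall fun t => by
        rw [Real.norm_eq_abs, abs_of_pos (cmp_pos p t)]; exact cmp_le_one hp0 t)
  have hDom : Integrable (fun t => (R t - cmp p t) * om t) := by
    refine (hRom.sub hCom).congr (Filter.Eventually.of_forall fun t => ?_)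
    simp only [Pi.sub_apply]
    ring
  have hsub : Phi R - Phi (cmp p) = ∫ t, (R t - cmp p t) * om t := by
    rw [Phi_eq_integral, Phi_eq_integral, ← integral_sub hRom hCom]
    refine integral_congr_ae (Filter.Eventually.of_forall fun t => ?_)
    show R t * om t - cmp p t * om t = (R t - cmp p t) * om t
    ring
  have hsplit := intervalIntegral.integral_Iic_add_Ioi (b := (-(1 / 3) : ℝ))
    hDom.integrableOn hDom.integrableOn
  have hL : 0 ≤ ∫ t in Iic (-(1 / 3) : ℝ), (R t - cmp p t) * om t :=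
    int_mul_nonneg measurableSet_Iic hDj hDom.integrableOn hD2 ℓ1 (fun t ht => hℓ1 t ht)
  have hR : 0 ≤ ∫ t in Ioi (-(1 / 3) : ℝ), (R t - cmp p t) * om t :=
    int_mul_nonneg measurableSet_Ioi hDi hDom.integrableOn hD1 ℓ2
      (fun t ht => hℓ2 t (le_of_lt ht))
  exact ⟨p, hp, by linarith⟩

/-- Part [C] of the plan, modulo the calculus inequality for the comparators. -/
theorem Phi_ge_of_calc
    (hcalc : ∀ p : ℝ, 1 / 3 ≤ p → 4 / 9 * Real.exp (-(1 / 3)) ≤ Phi (cmp p))
    (R : ℝ → ℝ) (hc : Continuous R) (h01 : ∀ w, 0 < R w ∧ R w < 1) (_hanti : Antitone R)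
    (hconv : ConvexOn ℝ univ (fun w => -Real.log (R w)))
    (hi1 : IntegrableOn R (Ioi 0)) (hi2 : IntegrableOn (fun w => 1 - R w) (Iic 0))
    (hmean : ∫ w in Ioi (0 : ℝ), R w = ∫ w in Iic (0 : ℝ), (1 - R w)) :
    4 / 9 * Real.exp (-(1 / 3)) ≤ Phi R := by
  obtain ⟨p, hp, hle⟩ := exists_cmp_le R hc h01 hconv hi1 hi2 hmean
  exact (hcalc p hp).trans hle

end Crest.Agent.Lib_helper1_CMatch
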