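import Mathlib

set_option autoImplicit false
open MeasureTheory
open scoped ENNReal NNReal

namespace Crest.Agent.Lib_helper21_PlanarArea

/-- The Euclidean plane. -/
abbrev E2 := EuclideanSpace ℝ (Fin 2)
/-- Euclidean 3-space. -/
abbrev E3 := EuclideanSpace ℝ (Fin 3)

/-- 2×2 determinant of two plane vectors. -/
noncomputable def det2 (a b : E2) : ℝ := a 0 * b 1 - a 1 * b 0

/-- The linear map from the plane sending the standard basis to `a`, `b`:
`x ↦ x 0 • a + x 1 • b`. -/
noncomputable def lin2 {F : Type*} [AddCommGroup F] [Module ℝ F] (a b : F) : E2 →ₗ[ℝ] F where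
  toFun x := x 0 • a + x 1 • b
  map_add' x y := by
    simp only [PiLp.add_apply, add_smul]
    abel
  map_smul' c x := by
    simp only [PiLp.smul_apply, smul_eq_mul, mul_smul, smul_add, RingHom.id_apply]

@[simp] lemma lin2_apply {F : Type*} [AddCommGroup F] [Module ℝ F] (a b : F) (x : E2) :
    lin2 a b x = x 0 • a + x 1 • b := rfl

lemma det_lin2 (a b : E2) : LinearMap.det (lin2 a b) = det2 a b := by
  rw [← LinearMap.det_toMatrix (EuclideanSpace.basisFun (Fin 2) ℝ).toBasis, Matrix.det_fin_two]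
  simp [LinearMap.toMatrix_apply, det2]
  ring

/-- Area scaling of planar linear images. -/
lemma volume_image_lin2 (a b : E2) (s : Set E2) :
    volume (lin2 a b '' s) = ENNReal.ofReal |det2 a b| * volume s := by
  rw [MeasureTheory.Measure.addHaar_image_linearMap, det_lin2]

/-- The unit square in the plane. -/
def sq : Set E2 := {x | 0 ≤ x 0 ∧ x 0 ≤ 1 ∧ 0 ≤ x 1 ∧ x 1 ≤ 1}

/-- The standard triangle in the plane. -/
def tri : Set E2 := {x | 0 ≤ x 0 ∧ 0 ≤ x 1 ∧ x 0 + x 1 ≤ 1}

lemma volume_sq : volume sq = 1 := by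
  have h : sq = (MeasurableEquiv.toLp 2 (Fin 2 → ℝ)).symm ⁻¹' (Set.Icc (0 : Fin 2 → ℝ) 1) := by
    ext x
    simp only [sq, Set.mem_ofPred_eq, Set.mem_preimage, Set.mem_Icc, Pi.le_def, Fin.forall_fin_two]
    constructor
    · rintro ⟨h1, h2, h3, h4⟩
      exact ⟨⟨h1, h3⟩, ⟨h2, h4⟩⟩
    · rintro ⟨⟨h1, h3⟩, ⟨h2, h4⟩⟩
      exact ⟨h1, h2, h3, h4⟩
  rw [h, (EuclideanSpace.volume_preserving_symm_measurableEquiv_toLp (Fin 2)).measure_preimage_equiv,
    Real.volume_Icc_pi]
  simp

lemma continuous_coord2 (i : Fin 2) : Continuous (fun x : E2 => x i) := by fun_prop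

lemma isClosed_tri : IsClosed tri := by
  have h : tri = {x : E2 | 0 ≤ x 0} ∩ ({x : E2 | 0 ≤ x 1} ∩ {x : E2 | x 0 + x 1 ≤ 1}) := by
    ext x; simp [tri]
  rw [h]
  exact (isClosed_le continuous_const (continuous_coord2 0)).inter
    ((isClosed_le continuous_const (continuous_coord2 1)).inter
      (isClosed_le ((continuous_coord2 0).add (continuous_coord2 1)) continuous_const))

/-- A line in the plane is Lebesgue-null. -/
lemma volume_line (p d : E2) : volume {x : E2 | ∃ t : ℝ, x = p + t • d} = 0 := by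
  have hsub : {x : E2 | ∃ t : ℝ, x = p + t • d} ⊆ (fun y => p + y) '' (lin2 d 0 '' Set.univ) := by
    rintro x ⟨t, rfl⟩
    refine ⟨t • d, ⟨!₂[t, 0], Set.mem_univ _, ?_⟩, rfl⟩
    simp
  refine measure_mono_null hsub ?_
  rw [Set.image_add_left, measure_preimage_add, volume_image_lin2]
  simp [det2]

/-- The zero set of `y ↦ det2 d (y - p)` is Lebesgue-null when `d ≠ 0`. -/
lemma volume_det2_eq_zero (p d : E2) (hd : d ≠ 0) : volume {x : E2 | det2 d (x - p) = 0} = 0 := by
  refine measure_mono_null ?_ (volume_line p d)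
  intro x hx
  simp only [Set.mem_ofPred_eq, det2, PiLp.sub_apply] at hx
  by_cases h0 : d 0 = 0
  · have h1 : d 1 ≠ 0 := by
      intro h1
      apply hd
      ext i
      fin_cases i <;> simp [h0, h1]
    refine ⟨(x 1 - p 1) / d 1, ?_⟩
    ext i
    fin_cases i
    · simp only [Fin.zero_eta, PiLp.add_apply, PiLp.smul_apply, smul_eq_mul]
      rw [h0] at hx ⊢
      have : x 0 - p 0 = 0 := by
        have := hx
        simp only [zero_mul, zero_sub, neg_eq_zero, mul_eq_zero] at this
        rcases this with h | h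
        · exact absurd h h1
        · exact h
      linarith
    · simp only [Fin.mk_one, PiLp.add_apply, PiLp.smul_apply, smul_eq_mul]
      field_simp
      ring
  · refine ⟨(x 0 - p 0) / d 0, ?_⟩
    ext i
    fin_cases i
    · simp only [Fin.zero_eta, PiLp.add_apply, PiLp.smul_apply, smul_eq_mul]
      field_simp
      ring
    · simp only [Fin.mk_one, PiLp.add_apply, PiLp.smul_apply, smul_eq_mul]
      field_simp
      linarith

lemma volume_tri : volume tri = 1 / 2 := by
  set c : E2 := !₂[1, 1] with hc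
  set tri' : Set E2 := (fun x => c - x) ⁻¹' tri with htri'
  have hvol' : volume tri' = volume tri :=
    (Measure.measurePreserving_sub_left volume c).measure_preimage isClosed_tri.measurableSet.nullMeasurableSet
  have hunion : sq = tri ∪ tri' := by
    ext x
    simp only [sq, tri, htri', hc, Set.mem_ofPred_eq, Set.mem_union, Set.mem_preimage,
      PiLp.sub_apply]
    simp only [Matrix.cons_val_zero, Matrix.cons_val_one]
    constructor
    · rintro ⟨h1, h2, h3, h4⟩
      by_cases h : x 0 + x 1 ≤ 1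
      · exact Or.inl ⟨h1, h3, h⟩
      · exact Or.inr ⟨by linarith, by linarith, by linarith⟩
    · rintro (⟨h1, h2, h3⟩ | ⟨h1, h2, h3⟩)
      · exact ⟨h1, by linarith, h2, by linarith⟩
      · exact ⟨by linarith, by linarith, by linarith, by linarith⟩
  have hinter : volume (tri ∩ tri') = 0 := by
    refine measure_mono_null ?_ (volume_det2_eq_zero (!₂[1, 0]) (!₂[1, -1]) ?_)
    · intro x hx
      simp only [tri, htri', hc, Set.mem_ofPred_eq, Set.mem_inter_iff, Set.mem_preimage,
        PiLp.sub_apply] at hx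
      simp only [Matrix.cons_val_zero, Matrix.cons_val_one] at hx
      obtain ⟨⟨h1, h2, h3⟩, ⟨h4, h5, h6⟩⟩ := hx
      simp only [det2, Set.mem_ofPred_eq, PiLp.sub_apply]
      simp only [Matrix.cons_val_zero, Matrix.cons_val_one]
      linarith
    · intro h
      have := congrArg (fun v : E2 => v 0) h
      simp at this
  have hmeas : MeasurableSet tri' := isClosed_tri.measurableSet.preimage (by fun_prop)
  have h := measure_union_add_inter tri hmeas (μ := volume)
  rw [← hunion, volume_sq, hinter, hvol', add_zero] at h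
  rw [ENNReal.eq_div_iff (by norm_num) (by norm_num)]
  rw [two_mul]
  exact h.symm

lemma convex_tri : Convex ℝ tri := by
  intro x hx y hy a b ha hb hab
  simp only [tri, Set.mem_ofPred_eq, PiLp.add_apply, PiLp.smul_apply, smul_eq_mul] at hx hy ⊢
  obtain ⟨h1, h2, h3⟩ := hx
  obtain ⟨h4, h5, h6⟩ := hy
  refine ⟨by positivity, by positivity, ?_⟩
  nlinarith

section general
variable {F : Type*} [AddCommGroup F] [Module ℝ F]

lemma parallelogram_eq_image (c a b : F) :
    {x : F | ∃ s ∈ Set.Icc (0:ℝ) 1, ∃ t ∈ Set.Icc (0:ℝ) 1, x = c + s • a + t • b} =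
      (fun y => c + y) '' (lin2 a b '' sq) := by
  ext x
  constructor
  · rintro ⟨s, hs, t, ht, rfl⟩
    refine ⟨s • a + t • b, ⟨!₂[s, t], ?_, by simp⟩, (add_assoc _ _ _).symm⟩
    simp only [sq, Set.mem_ofPred_eq]
    exact ⟨hs.1, hs.2, ht.1, ht.2⟩
  · rintro ⟨_, ⟨y, hy, rfl⟩, rfl⟩
    exact ⟨y 0, ⟨hy.1, hy.2.1⟩, y 1, ⟨hy.2.2.1, hy.2.2.2⟩, by simp [add_assoc]⟩

lemma triangle_eq_image (p q r : F) :
    convexHull ℝ {p, q, r} = (fun y => p + y) '' (lin2 (q - p) (r - p) '' tri) := by
  apply Set.Subset.antisymm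
  · apply convexHull_min
    · intro x hx
      simp only [Set.mem_insert_iff, Set.mem_singleton_iff] at hx
      rcases hx with rfl | rfl | rfl
      · exact ⟨0, ⟨0, by simp [tri], by simp⟩, by simp⟩
      · refine ⟨x - p, ⟨!₂[1, 0], by simp [tri], by simp⟩, add_sub_cancel p x⟩
      · refine ⟨x - p, ⟨!₂[0, 1], by simp [tri], by simp⟩, add_sub_cancel p x⟩
    · have h1 : Convex ℝ (lin2 (q - p) (r - p) '' tri) := convex_tri.linear_image _
      have h2 := h1.translate p
      convert h2 using 1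
  · rintro _ ⟨_, ⟨y, hy, rfl⟩, rfl⟩
    obtain ⟨h1, h2, h3⟩ := hy
    have hconv := convex_convexHull ℝ ({p, q, r} : Set F)
    have hp : p ∈ convexHull ℝ ({p, q, r} : Set F) := subset_convexHull ℝ _ (by simp)
    have hq : q ∈ convexHull ℝ ({p, q, r} : Set F) := subset_convexHull ℝ _ (by simp)
    have hr : r ∈ convexHull ℝ ({p, q, r} : Set F) := subset_convexHull ℝ _ (by simp)
    have key := hconv.sum_mem (t := Finset.univ) (w := ![1 - y 0 - y 1, y 0, y 1])
      (z := ![p, q, r]) ?_ ?_ ?_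
    · convert key using 1
      simp only [lin2_apply, Fin.sum_univ_three, Matrix.cons_val_zero, Matrix.cons_val_one,
        Matrix.cons_val_two, Matrix.tail_cons, Matrix.head_cons, sub_smul, smul_sub, one_smul]
      abel
    · intro i _
      fin_cases i
      · simp; linarith
      · simpa using h1
      · simpa using h2
    · simp [Fin.sum_univ_three]
      ring
    · intro i _
      fin_cases i
      · simpa using hp
      · simpa using hq
      · simpa using hr

end general

/-- Gram determinant of two vectors (squared area of the spanned parallelogram). -/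
noncomputable def gram {F : Type*} [NormedAddCommGroup F] [InnerProductSpace ℝ F] (a b : F) : ℝ :=
  ‖a‖ ^ 2 * ‖b‖ ^ 2 - inner ℝ a b ^ 2

lemma gram_nonneg {F : Type*} [NormedAddCommGroup F] [InnerProductSpace ℝ F] (a b : F) :
    0 ≤ gram a b := by
  unfold gram
  have h := abs_real_inner_le_norm a b
  have h2 : inner ℝ a b ^ 2 ≤ (‖a‖ * ‖b‖) ^ 2 := by
    rw [← sq_abs (inner ℝ a b)]
    exact pow_le_pow_left₀ (abs_nonneg _) h 2
  nlinarith

lemma det2_sq (a b : E2) : det2 a b ^ 2 = gram a b := by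
  simp only [gram, det2, EuclideanSpace.real_norm_sq_eq, PiLp.inner_apply, Fin.sum_univ_two]
  simp only [RCLike.inner_apply, conj_trivial]
  ring

lemma abs_det2 (a b : E2) : |det2 a b| = Real.sqrt (gram a b) := by
  rw [← det2_sq, Real.sqrt_sq_eq_abs]

/-- A linear isometry from the plane onto the orthogonal complement of a nonzero vector. -/
lemma exists_planeIso (n : E3) (hn : n ≠ 0) :
    ∃ ι : E2 →ₗᵢ[ℝ] E3, Set.range ι = {x : E3 | inner ℝ x n = 0} := by
  have : Fact (Module.finrank ℝ E3 = 1 + 1 + 1) := ⟨by simp⟩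
  have hfin : Module.finrank ℝ (ℝ ∙ n)ᗮ = 2 := Submodule.finrank_orthogonal_span_singleton hn
  let b : OrthonormalBasis (Fin 2) ℝ (ℝ ∙ n)ᗮ :=
    (stdOrthonormalBasis ℝ (ℝ ∙ n)ᗮ).reindex (finCongr hfin)
  refine ⟨(ℝ ∙ n)ᗮ.subtypeₗᵢ.comp b.repr.symm.toLinearIsometry, ?_⟩
  ext x
  simp only [Set.mem_range, LinearIsometry.coe_comp, Function.comp_apply, Set.mem_ofPred_eq]
  constructor
  · rintro ⟨y, rfl⟩
    exact Submodule.mem_orthogonal_singleton_iff_inner_left.mp (b.repr.symm y).2
  · intro hx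
    refine ⟨b.repr ⟨x, Submodule.mem_orthogonal_singleton_iff_inner_left.mpr hx⟩, ?_⟩
    simp

/-- Any two vectors of 3-space lie in the range of a linear isometry from the plane. -/
lemma exists_planeIso_mem (a b : E3) :
    ∃ ι : E2 →ₗᵢ[ℝ] E3, a ∈ Set.range ι ∧ b ∈ Set.range ι := by
  classical
  obtain ⟨n, hn, han, hbn⟩ : ∃ n : E3, n ≠ 0 ∧ inner ℝ a n = 0 ∧ inner ℝ b n = 0 := by
    set K : Submodule ℝ E3 := Submodule.span ℝ (({a, b} : Finset E3) : Set E3) with hK
    have h1 : Module.finrank ℝ K ≤ 2 :=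
      (finrank_span_finset_le_card ({a, b} : Finset E3)).trans Finset.card_le_two
    have h2 := Submodule.finrank_add_finrank_orthogonal K
    have h3 : Module.finrank ℝ E3 = 3 := by simp
    have h4 : 0 < Module.finrank ℝ Kᗮ := by omega
    obtain ⟨⟨n, hnK⟩, hn⟩ := Module.finrank_pos_iff_exists_ne_zero.mp h4
    refine ⟨n, fun h => hn (Subtype.ext h), ?_, ?_⟩
    · exact (Submodule.mem_orthogonal' K n).mp hnK a (Submodule.subset_span (by simp)) |> fun h => by
        rw [real_inner_comm]; exact h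
    · exact (Submodule.mem_orthogonal' K n).mp hnK b (Submodule.subset_span (by simp)) |> fun h => by
        rw [real_inner_comm]; exact h
  obtain ⟨ι, hι⟩ := exists_planeIso n hn
  exact ⟨ι, by rw [hι]; exact han, by rw [hι]; exact hbn⟩

/-- Linear isometries from the plane carry Lebesgue area to `μHE[2]`. -/
lemma muHE2_image_isometry (ι : E2 →ₗᵢ[ℝ] E3) (s : Set E2) : μHE[2] (ι '' s) = volume s := by
  rw [ι.isometry.euclideanHausdorffMeasure_image,
    EuclideanSpace.euclideanHausdorffMeasure_eq_volume]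

/-- `μHE[2]` is translation invariant (image form). -/
lemma muHE2_image_add_left (c : E3) (s : Set E3) : μHE[2] ((fun y => c + y) '' s) = μHE[2] s :=
  (isometry_add_left c).euclideanHausdorffMeasure_image s

/-- **Area formula**: the `μHE[2]`-area of the image of a planar set under the linear map
`x ↦ x 0 • a + x 1 • b` into 3-space is `√(‖a‖²‖b‖² − ⟪a,b⟫²)` times its Lebesgue area. -/
theorem muHE2_image_lin2 (a b : E3) (s : Set E2) :
    μHE[2] (lin2 a b '' s) = ENNReal.ofReal (Real.sqrt (gram a b)) * volume s := by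
  obtain ⟨ι, ⟨a', rfl⟩, ⟨b', rfl⟩⟩ := exists_planeIso_mem a b
  have h1 : lin2 (ι a') (ι b') '' s = ι '' (lin2 a' b' '' s) := by
    rw [Set.image_image]
    apply Set.image_congr
    intro x _
    simp [map_add, map_smul]
  rw [h1, muHE2_image_isometry, volume_image_lin2, abs_det2]
  simp [gram, ι.norm_map, ι.inner_map_map]

/-- Area of a parallelogram in 3-space. -/
theorem muHE2_parallelogram (c a b : E3) :
    μHE[2] {x : E3 | ∃ s ∈ Set.Icc (0:ℝ) 1, ∃ t ∈ Set.Icc (0:ℝ) 1, x = c + s • a + t • b} =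
      ENNReal.ofReal (Real.sqrt (gram a b)) := by
  rw [parallelogram_eq_image, muHE2_image_add_left, muHE2_image_lin2, volume_sq, mul_one]

/-- Area of a triangle in 3-space. -/
theorem muHE2_triangle (p q r : E3) :
    μHE[2] (convexHull ℝ {p, q, r}) = ENNReal.ofReal (Real.sqrt (gram (q - p) (r - p)) / 2) := by
  rw [triangle_eq_image, muHE2_image_add_left, muHE2_image_lin2, volume_tri,
    ENNReal.ofReal_div_of_pos (by norm_num)]
  simp [div_eq_mul_inv]

/-- Raw 2-dimensional Hausdorff measure is a positive constant multiple of `μHE[2]`. -/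
theorem exists_muH2_eq :
    ∃ k : ℝ, 0 < k ∧ ∀ S : Set E3, (μH[(2:ℝ)] S).toReal = k * (μHE[2] S).toReal := by
  set c := Measure.addHaarScalarFactor (volume : Measure (EuclideanSpace ℝ (Fin 2)))
    μH[((2:ℕ):ℝ)] with hc
  have hc0 : c ≠ 0 := Measure.addHaarScalarFactor_volume_hausdorffMeasure_ne_zero 2
  have hcpos : 0 < (c : ℝ) := by
    have := c.2
    exact lt_of_le_of_ne this (fun h => hc0 (by exact_mod_cast h.symm))
  refine ⟨(c:ℝ)⁻¹, inv_pos.mpr hcpos, fun S => ?_⟩
  rw [Measure.euclideanHausdorffMeasure_def, Measure.smul_apply]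
  rw [ENNReal.smul_def, smul_eq_mul, ENNReal.toReal_mul, ENNReal.coe_toReal, ← hc]
  have h2 : (((2:ℕ):ℝ)) = (2:ℝ) := by norm_num
  rw [h2]
  field_simp

/-- Sets in the range of a linear isometry from the plane: `μHE[2]` is the Lebesgue area of
the preimage. -/
lemma muHE2_eq_volume_preimage (ι : E2 →ₗᵢ[ℝ] E3) {B : Set E3} (hB : B ⊆ Set.range ι) :
    μHE[2] B = volume (ι ⁻¹' B) := by
  rw [← muHE2_image_isometry ι (ι ⁻¹' B), Set.image_preimage_eq_of_subset hB]

/-- Bounded subsets of a plane through the origin have finite area. -/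
lemma muHE2_lt_top_of_isBounded {n : E3} (hn : n ≠ 0) {B : Set E3}
    (hB : Bornology.IsBounded B) (hBn : B ⊆ {x : E3 | inner ℝ x n = 0}) : μHE[2] B < ⊤ := by
  obtain ⟨ι, hι⟩ := exists_planeIso n hn
  rw [muHE2_eq_volume_preimage ι (by rw [hι]; exact hBn)]
  apply Bornology.IsBounded.measure_lt_top
  obtain ⟨R, hR⟩ := hB.subset_closedBall (0 : E3)
  refine (Metric.isBounded_closedBall (x := (0 : E2)) (r := R)).subset ?_
  intro x hx
  have := hR hx
  simpa [ι.norm_map] using this

/-- Triple product `det[a, b, c] = ⟪a × b, c⟫` of three vectors of 3-space. -/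
noncomputable def triple (a b c : E3) : ℝ :=
  a 0 * (b 1 * c 2 - b 2 * c 1) - a 1 * (b 0 * c 2 - b 2 * c 0) + a 2 * (b 0 * c 1 - b 1 * c 0)

lemma norm_sq_E3 (a : E3) : ‖a‖ ^ 2 = a 0 ^ 2 + a 1 ^ 2 + a 2 ^ 2 := by
  rw [EuclideanSpace.real_norm_sq_eq, Fin.sum_univ_three]

lemma inner_E3 (a b : E3) : inner ℝ a b = a 0 * b 0 + a 1 * b 1 + a 2 * b 2 := by
  simp only [PiLp.inner_apply, Fin.sum_univ_three, RCLike.inner_apply, conj_trivial]
  ring

/-- Gram determinant identity in 3-space. -/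
lemma gram3_identity (a b d : E3) :
    ‖a‖ ^ 2 * ‖b‖ ^ 2 * ‖d‖ ^ 2 - ‖a‖ ^ 2 * inner ℝ b d ^ 2 - ‖b‖ ^ 2 * inner ℝ a d ^ 2
      - inner ℝ a b ^ 2 * ‖d‖ ^ 2 + 2 * inner ℝ a b * inner ℝ a d * inner ℝ b d
      = triple a b d ^ 2 := by
  simp only [norm_sq_E3, inner_E3, triple]
  ring

/-- The orthogonal projection along a nonzero vector `d`, as a linear map:
`y ↦ y - (⟪y, d⟫ / ‖d‖²) • d`. -/
noncomputable def projAlong (d : E3) : E3 →ₗ[ℝ] E3 where
  toFun y := y - (inner ℝ y d / ‖d‖ ^ 2) • d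
  map_add' x y := by
    simp only [inner_add_left, add_div, add_smul]
    abel
  map_smul' c x := by
    simp only [inner_smul_left, conj_trivial, RingHom.id_apply, smul_sub, mul_div_assoc, mul_smul]

@[simp] lemma projAlong_apply (d y : E3) :
    projAlong d y = y - (inner ℝ y d / ‖d‖ ^ 2) • d := rfl

/-- The orthogonal projection along a unit vector `v`, as a linear map:
`y ↦ y - ⟪y, v⟫ • v`. -/
noncomputable def projUnit (v : E3) : E3 →ₗ[ℝ] E3 where
  toFun y := y - inner ℝ y v • v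
  map_add' x y := by
    simp only [inner_add_left, add_smul]
    abel
  map_smul' c x := by
    simp only [inner_smul_left, conj_trivial, RingHom.id_apply, smul_sub, mul_smul]

@[simp] lemma projUnit_apply (v y : E3) : projUnit v y = y - inner ℝ y v • v := rfl

lemma projAlong_eq_projUnit (v : E3) (hv : ‖v‖ = 1) : projAlong v = projUnit v := by
  ext y : 1
  simp [hv]

/-- Projections commute with convex hulls. -/
lemma projUnit_image_convexHull (v : E3) (S : Set E3) :
    (fun y => y - inner ℝ y v • v) '' convexHull ℝ S =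
      convexHull ℝ ((fun y => y - inner ℝ y v • v) '' S) :=
  (projUnit v).image_convexHull S

lemma projAlong_image_convexHull (d : E3) (S : Set E3) :
    (fun y => y - (inner ℝ y d / ‖d‖ ^ 2) • d) '' convexHull ℝ S =
      convexHull ℝ ((fun y => y - (inner ℝ y d / ‖d‖ ^ 2) • d) '' S) :=
  (projAlong d).image_convexHull S

lemma inner_projAlong_self (d y : E3) (hd : d ≠ 0) : inner ℝ (projAlong d y) d = 0 := by
  have h : ‖d‖ ^ 2 ≠ 0 := by positivity
  simp only [projAlong_apply, inner_sub_left, inner_smul_left, conj_trivial,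
    real_inner_self_eq_norm_sq]
  field_simp
  ring

lemma inner_projUnit_self (v y : E3) (hv : ‖v‖ = 1) : inner ℝ (projUnit v y) v = 0 := by
  simp [projUnit_apply, inner_sub_left, inner_smul_left, hv]

/-- Gram determinant of two projected vectors. -/
lemma gram_projAlong (a b d : E3) (hd : d ≠ 0) :
    gram (projAlong d a) (projAlong d b) = triple a b d ^ 2 / ‖d‖ ^ 2 := by
  have h : ‖d‖ ^ 2 ≠ 0 := by positivity
  have h1 : ‖projAlong d a‖ ^ 2 = ‖a‖ ^ 2 - inner ℝ a d ^ 2 / ‖d‖ ^ 2 := by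
    rw [← real_inner_self_eq_norm_sq]
    simp only [projAlong_apply, inner_sub_left, inner_sub_right, inner_smul_left, inner_smul_right,
      conj_trivial, real_inner_self_eq_norm_sq, real_inner_comm a d]
    field_simp
    ring
  have h2 : ‖projAlong d b‖ ^ 2 = ‖b‖ ^ 2 - inner ℝ b d ^ 2 / ‖d‖ ^ 2 := by
    rw [← real_inner_self_eq_norm_sq]
    simp only [projAlong_apply, inner_sub_left, inner_sub_right, inner_smul_left, inner_smul_right,
      conj_trivial, real_inner_self_eq_norm_sq, real_inner_comm b d]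
    field_simp
    ring
  have h3 : inner ℝ (projAlong d a) (projAlong d b) =
      inner ℝ a b - inner ℝ a d * inner ℝ b d / ‖d‖ ^ 2 := by
    simp only [projAlong_apply, inner_sub_left, inner_sub_right, inner_smul_left, inner_smul_right,
      conj_trivial, real_inner_self_eq_norm_sq, real_inner_comm b d]
    field_simp
    ring
  rw [gram, h1, h2, h3, ← gram3_identity]
  field_simp
  ring

lemma gram_projUnit (a b v : E3) (hv : ‖v‖ = 1) :
    gram (projUnit v a) (projUnit v b) = triple a b v ^ 2 := by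
  have hv0 : v ≠ 0 := by
    intro h; rw [h] at hv; simp at hv
  rw [← projAlong_eq_projUnit v hv, gram_projAlong a b v hv0, hv]
  simp

/-- Vectors orthogonal to a unit vector `u`: their Gram determinant is the squared triple
product with `u`. -/
lemma gram_eq_triple_sq (a b u : E3) (hu : ‖u‖ = 1) (ha : inner ℝ a u = 0) (hb : inner ℝ b u = 0) :
    gram a b = triple a b u ^ 2 := by
  have := gram_projUnit a b u hu
  simpa [projUnit_apply, ha, hb] using this

/-- Area of the projection of a triangle along a nonzero vector `d`. -/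
theorem muHE2_projAlong_triangle (d p q r : E3) (hd : d ≠ 0) :
    μHE[2] ((fun y => y - (inner ℝ y d / ‖d‖ ^ 2) • d) '' convexHull ℝ {p, q, r}) =
      ENNReal.ofReal (|triple (q - p) (r - p) d| / (2 * ‖d‖)) := by
  have himg : (fun y => y - (inner ℝ y d / ‖d‖ ^ 2) • d) '' {p, q, r} =
      {projAlong d p, projAlong d q, projAlong d r} := by
    simp [Set.image_insert_eq]
  rw [projAlong_image_convexHull, himg, muHE2_triangle, ← map_sub, ← map_sub, gram_projAlong _ _ _ hd,
    Real.sqrt_div (sq_nonneg _), Real.sqrt_sq_eq_abs, Real.sqrt_sq (norm_nonneg _)]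
  congr 1
  rw [div_div, mul_comm]

/-- Area of the projection of a triangle along a unit vector `v`. -/
theorem muHE2_projUnit_triangle (v p q r : E3) (hv : ‖v‖ = 1) :
    μHE[2] ((fun y => y - inner ℝ y v • v) '' convexHull ℝ {p, q, r}) =
      ENNReal.ofReal (|triple (q - p) (r - p) v| / 2) := by
  have himg : (fun y => y - inner ℝ y v • v) '' {p, q, r} =
      {projUnit v p, projUnit v q, projUnit v r} := by
    simp [Set.image_insert_eq]
  rw [projUnit_image_convexHull, himg, muHE2_triangle, ← map_sub, ← map_sub, gram_projUnit _ _ _ hv,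
    Real.sqrt_sq_eq_abs]

/-- Area of a triangle lying in the plane `u^⊥` (`‖u‖ = 1`), as a triple product. -/
theorem muHE2_triangle_of_orth (u p q r : E3) (hu : ‖u‖ = 1)
    (hp : inner ℝ p u = 0) (hq : inner ℝ q u = 0) (hr : inner ℝ r u = 0) :
    μHE[2] (convexHull ℝ {p, q, r}) = ENNReal.ofReal (|triple (q - p) (r - p) u| / 2) := by
  rw [muHE2_triangle, gram_eq_triple_sq _ _ u hu (by rw [inner_sub_left, hq, hp, sub_zero])
    (by rw [inner_sub_left, hr, hp, sub_zero]), Real.sqrt_sq_eq_abs]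

/-- Parallelogram area with the Gram determinant written out. -/
theorem muHE2_parallelogram' (c a b : E3) :
    μHE[2] {x : E3 | ∃ s ∈ Set.Icc (0:ℝ) 1, ∃ t ∈ Set.Icc (0:ℝ) 1, x = c + s • a + t • b} =
      ENNReal.ofReal (Real.sqrt (‖a‖ ^ 2 * ‖b‖ ^ 2 - inner ℝ a b ^ 2)) :=
  muHE2_parallelogram c a b

/-- Triangle area with the Gram determinant written out. -/
theorem muHE2_triangle' (p q r : E3) :
    μHE[2] (convexHull ℝ {p, q, r}) =
      ENNReal.ofReal (Real.sqrt (‖q - p‖ ^ 2 * ‖r - p‖ ^ 2 - inner ℝ (q - p) (r - p) ^ 2) / 2) :=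
  muHE2_triangle p q r

lemma muHE2_triangle_lt_top (p q r : E3) : μHE[2] (convexHull ℝ {p, q, r}) < ⊤ := by
  rw [muHE2_triangle]; exact ENNReal.ofReal_lt_top

lemma muHE2_triangle_toReal (p q r : E3) :
    (μHE[2] (convexHull ℝ {p, q, r})).toReal = Real.sqrt (gram (q - p) (r - p)) / 2 := by
  rw [muHE2_triangle, ENNReal.toReal_ofReal (by positivity)]

lemma muHE2_parallelogram_toReal (c a b : E3) :
    (μHE[2] {x : E3 | ∃ s ∈ Set.Icc (0:ℝ) 1, ∃ t ∈ Set.Icc (0:ℝ) 1,
      x = c + s • a + t • b}).toReal = Real.sqrt (gram a b) := by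
  rw [muHE2_parallelogram, ENNReal.toReal_ofReal (Real.sqrt_nonneg _)]

/-- `μHE[2]` is a positive finite constant multiple of raw `μH[(2:ℝ)]` (measure form). -/
theorem exists_muHE2_eq_smul :
    ∃ k : ℝ≥0, k ≠ 0 ∧ ∀ S : Set E3, μHE[2] S = (k : ℝ≥0∞) * μH[(2:ℝ)] S := by
  refine ⟨Measure.addHaarScalarFactor (volume : Measure (EuclideanSpace ℝ (Fin 2)))
    μH[((2:ℕ):ℝ)], Measure.addHaarScalarFactor_volume_hausdorffMeasure_ne_zero 2, fun S => ?_⟩
  rw [Measure.euclideanHausdorffMeasure_def, Measure.smul_apply, ENNReal.smul_def, smul_eq_mul]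
  have h2 : (μH[((2:ℕ):ℝ)] : Measure E3) = μH[(2:ℝ)] := by
    congr 1
  rw [h2]

/-- The projection of a bounded set along a unit vector has finite area. -/
lemma muHE2_projUnit_image_lt_top (v : E3) (hv : ‖v‖ = 1) {S : Set E3}
    (hS : Bornology.IsBounded S) :
    μHE[2] ((fun y => y - inner ℝ y v • v) '' S) < ⊤ := by
  have hv0 : v ≠ 0 := by
    intro h; rw [h] at hv; simp at hv
  apply muHE2_lt_top_of_isBounded hv0
  · obtain ⟨R, hR⟩ := hS.subset_closedBall (0 : E3)
    refine (Metric.isBounded_closedBall (x := (0 : E3)) (r := R + R)).subset ?_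
    rintro _ ⟨y, hy, rfl⟩
    have hy' : ‖y‖ ≤ R := by simpa using hR hy
    rw [mem_closedBall_zero_iff]
    calc ‖y - inner ℝ y v • v‖ ≤ ‖y‖ + ‖inner ℝ y v • v‖ := norm_sub_le _ _
      _ ≤ R + R := by
        gcongr
        rw [norm_smul, hv, mul_one]
        calc ‖inner ℝ y v‖ ≤ ‖y‖ * ‖v‖ := norm_inner_le_norm y v
          _ ≤ R := by rw [hv, mul_one]; exact hy'
  · rintro _ ⟨y, _, rfl⟩
    exact inner_projUnit_self v y hv

/-- The projection of a bounded set along a nonzero vector has finite area. -/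
lemma muHE2_projAlong_image_lt_top (d : E3) (hd : d ≠ 0) {S : Set E3}
    (hS : Bornology.IsBounded S) :
    μHE[2] ((fun y => y - (inner ℝ y d / ‖d‖ ^ 2) • d) '' S) < ⊤ := by
  have hdpos : 0 < ‖d‖ := norm_pos_iff.mpr hd
  apply muHE2_lt_top_of_isBounded hd
  · obtain ⟨R, hR⟩ := hS.subset_closedBall (0 : E3)
    refine (Metric.isBounded_closedBall (x := (0 : E3)) (r := R + R)).subset ?_
    rintro _ ⟨y, hy, rfl⟩
    have hy' : ‖y‖ ≤ R := by simpa using hR hy
    rw [mem_closedBall_zero_iff]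
    calc ‖y - (inner ℝ y d / ‖d‖ ^ 2) • d‖ ≤ ‖y‖ + ‖(inner ℝ y d / ‖d‖ ^ 2) • d‖ := norm_sub_le _ _
      _ ≤ R + R := by
        gcongr
        rw [norm_smul, norm_div, norm_pow, norm_norm]
        have h1 : ‖inner ℝ y d‖ ≤ ‖y‖ * ‖d‖ := norm_inner_le_norm y d
        calc ‖inner ℝ y d‖ / ‖d‖ ^ 2 * ‖d‖ ≤ ‖y‖ * ‖d‖ / ‖d‖ ^ 2 * ‖d‖ := by gcongr
          _ = ‖y‖ := by field_simp
          _ ≤ R := hy'
  · rintro _ ⟨y, _, rfl⟩
    exact inner_projAlong_self d y hd

/-- **Relatively open enlargement.** Any bounded subset `B₀` of the plane `u^⊥` is contained in a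
bounded relatively open subset `B` of that plane whose area exceeds that of `B₀` by at most `η`. -/
theorem exists_open_base (u : E3) (hu : u ≠ 0) (B₀ : Set E3) (hB₀ : Bornology.IsBounded B₀)
    (hsub : B₀ ⊆ {x : E3 | inner ℝ x u = 0}) (η : ℝ) (hη : 0 < η) :
    ∃ B : Set E3, B₀ ⊆ B ∧ Bornology.IsBounded B ∧
      (∃ O : Set E3, IsOpen O ∧ B = O ∩ {x : E3 | inner ℝ x u = 0}) ∧
      (μHE[2] B).toReal ≤ (μHE[2] B₀).toReal + η := by
  obtain ⟨ι, hι⟩ := exists_planeIso u hu
  have hsub' : B₀ ⊆ Set.range ι := by rw [hι]; exact hsub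
  obtain ⟨R, hR⟩ := hB₀.subset_closedBall (0 : E3)
  have hA₀sub : ι ⁻¹' B₀ ⊆ Metric.closedBall (0 : E2) R := by
    intro x hx
    have := hR hx
    simpa [ι.norm_map] using this
  have hA₀fin : volume (ι ⁻¹' B₀) ≠ ⊤ :=
    ((Metric.isBounded_closedBall (x := (0 : E2)) (r := R)).subset hA₀sub).measure_lt_top.ne
  obtain ⟨U, hUsup, hUopen, hUlt⟩ := Set.exists_isOpen_lt_add (μ := (volume : Measure E2))
    (ι ⁻¹' B₀) hA₀fin (ε := ENNReal.ofReal η) (by simpa using hη)
  set U' : Set E2 := U ∩ Metric.ball (0 : E2) (R + 1) with hU'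
  have hU'open : IsOpen U' := hUopen.inter Metric.isOpen_ball
  have hU'bdd : Bornology.IsBounded U' := Metric.isBounded_ball.subset Set.inter_subset_right
  have hU'sup : ι ⁻¹' B₀ ⊆ U' := fun x hx =>
    ⟨hUsup hx, Metric.closedBall_subset_ball (by linarith) (hA₀sub hx)⟩
  have hU'lt : volume U' < volume (ι ⁻¹' B₀) + ENNReal.ofReal η :=
    lt_of_le_of_lt (measure_mono Set.inter_subset_left) hUlt
  obtain ⟨g, hg⟩ := LinearMap.exists_leftInverse_of_injective ι.toLinearMap
    (LinearMap.ker_eq_bot.mpr ι.injective)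
  have hgι : ∀ y, g (ι y) = y := fun y => by
    have := congrArg (fun f : E2 →ₗ[ℝ] E2 => f y) hg
    simpa using this
  have hgcont : Continuous g := g.continuous_of_finiteDimensional
  refine ⟨ι '' U', ?_, ?_, ⟨g ⁻¹' U', hU'open.preimage hgcont, ?_⟩, ?_⟩
  · intro x hx
    obtain ⟨y, rfl⟩ := hsub' hx
    exact ⟨y, hU'sup hx, rfl⟩
  · exact ι.lipschitz.isBounded_image hU'bdd
  · ext x
    constructor
    · rintro ⟨y, hy, rfl⟩
      refine ⟨?_, ?_⟩
      · simpa [hgι] using hy
      · have : ι y ∈ Set.range ι := ⟨y, rfl⟩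
        rw [hι] at this
        exact this
    · rintro ⟨hx1, hx2⟩
      have : x ∈ Set.range ι := by rw [hι]; exact hx2
      obtain ⟨y, rfl⟩ := this
      refine ⟨y, ?_, rfl⟩
      simpa [hgι] using hx1
  · rw [muHE2_image_isometry, muHE2_eq_volume_preimage ι hsub']
    have h1 : volume U' ≤ volume (ι ⁻¹' B₀) + ENNReal.ofReal η := hU'lt.le
    have h2 := ENNReal.toReal_mono (by simp [hA₀fin]) h1
    rwa [ENNReal.toReal_add hA₀fin ENNReal.ofReal_ne_top, ENNReal.toReal_ofReal hη.le] at h2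

/-- Family version of `exists_open_base`: finitely many bounded planar bases can be enlarged to
bounded relatively open bases with total area increased by at most `η`. -/
theorem exists_open_bases {k : ℕ} (u : Fin k → E3) (hu : ∀ i, u i ≠ 0) (B₀ : Fin k → Set E3)
    (hB₀ : ∀ i, Bornology.IsBounded (B₀ i))
    (hsub : ∀ i, B₀ i ⊆ {x : E3 | inner ℝ x (u i) = 0}) (η : ℝ) (hη : 0 < η) :
    ∃ B : Fin k → Set E3, (∀ i, B₀ i ⊆ B i) ∧
      (∀ i, Bornology.IsBounded (B i) ∧
        ∃ O : Set E3, IsOpen O ∧ B i = O ∩ {x : E3 | inner ℝ x (u i) = 0}) ∧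
      ∑ i, (μHE[2] (B i)).toReal ≤ ∑ i, (μHE[2] (B₀ i)).toReal + η := by
  have hk : (0 : ℝ) < (k : ℝ) + 1 := by positivity
  have h := fun i => exists_open_base (u i) (hu i) (B₀ i) (hB₀ i) (hsub i) (η / (k + 1))
    (div_pos hη hk)
  choose B hB1 hB2 hB3 hB4 using h
  refine ⟨B, hB1, fun i => ⟨hB2 i, hB3 i⟩, ?_⟩
  calc ∑ i, (μHE[2] (B i)).toReal ≤ ∑ i, ((μHE[2] (B₀ i)).toReal + η / (k + 1)) :=
        Finset.sum_le_sum fun i _ => hB4 i
    _ = ∑ i, (μHE[2] (B₀ i)).toReal + k * (η / (k + 1)) := by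
        rw [Finset.sum_add_distrib]
        simp
    _ ≤ ∑ i, (μHE[2] (B₀ i)).toReal + η := by
        have : (k : ℝ) * (η / (k + 1)) ≤ η := by
          rw [mul_div_assoc']
          rw [div_le_iff₀ hk]
          nlinarith
        linarith

/-- Cylinders are monotone in the base. -/
lemma cylinder_mono {B B' : Set E3} (h : B ⊆ B') (u : E3) :
    {x : E3 | ∃ y ∈ B, ∃ τ : ℝ, x = y + τ • u} ⊆ {x : E3 | ∃ y ∈ B', ∃ τ : ℝ, x = y + τ • u} := by
  rintro x ⟨y, hy, τ, rfl⟩
  exact ⟨y, h hy, τ, rfl⟩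

end Crest.Agent.Lib_helper21_PlanarArea
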