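import Mathlib
import Crest.Agent.Lib_helper18_Area
import Crest.Agent.Lib_helper19_TetraProj
import Crest.Agent.Lib_helper3_S0327Defs

/-!
# S0327, the standard half

From a finite cover of a body `K ⊆ ℝ³` by cylinders over triangles whose total base area is,
by a positive margin, below half of every projection area of `K`, we produce

* a cover by cylinders over (thin) parallelograms, and
* a cover by cylinders over bounded relatively open planar sets,

with the margin and ratio clauses of statement S0327 (`Concl K`).  The standard regular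
tetrahedron is then handled from any triangle cover of it of total area `< √2 / 2`
(the minimum projection area `√2` is `Lib_helper19_TetraProj.proj_area_toReal_ge`).
-/

set_option autoImplicit false
open MeasureTheory
open scoped ENNReal

namespace Crest.Agent.Lib_helper29_S0327Std

noncomputable section

abbrev E3 : Type := EuclideanSpace ℝ (Fin 3)

/-- orthogonal projection along a unit vector -/
def prj (v : E3) : E3 → E3 := fun y => y - inner ℝ y v • v

/-- parallelogram -/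
def para (c a b : E3) : Set E3 :=
  {x | ∃ s ∈ Set.Icc (0 : ℝ) 1, ∃ t ∈ Set.Icc (0 : ℝ) 1, x = c + s • a + t • b}

/-- cylinder over a parallelogram -/
def pcyl (c a b u : E3) : Set E3 :=
  {x | ∃ s ∈ Set.Icc (0 : ℝ) 1, ∃ t ∈ Set.Icc (0 : ℝ) 1, ∃ τ : ℝ, x = c + s • a + t • b + τ • u}

/-! ### Measure lemmas -/

lemma planar_bounded_lt_top (v : E3) (hv : v ≠ 0) (B : Set E3) (hB : Bornology.IsBounded B)
    (hsub : B ⊆ {x | inner ℝ x v = 0}) : μHE[2] B < ⊤ := by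
  have : Fact (Module.finrank ℝ E3 = 1 + 1 + 1) := ⟨by simp⟩
  have hfin : Module.finrank ℝ (ℝ ∙ v)ᗮ = 2 := Submodule.finrank_orthogonal_span_singleton hv
  have hBS : B = (Subtype.val : ((ℝ ∙ v)ᗮ : Submodule ℝ E3) → E3) ''
      ((Subtype.val : ((ℝ ∙ v)ᗮ : Submodule ℝ E3) → E3) ⁻¹' B) := by
    ext x
    constructor
    · intro hx
      exact ⟨⟨x, Submodule.mem_orthogonal_singleton_iff_inner_left.2 (hsub hx)⟩, hx, rfl⟩
    · rintro ⟨y, hy, rfl⟩
      exact hy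
  rw [hBS, Isometry.euclideanHausdorffMeasure_image isometry_subtype_coe]
  have hbd : Bornology.IsBounded ((Subtype.val : ((ℝ ∙ v)ᗮ : Submodule ℝ E3) → E3) ⁻¹' B) := by
    rw [← Bornology.isBounded_image_subtype_val]
    exact hB.subset (Set.image_preimage_subset _ _)
  have hvol : (μHE[2] : Measure ((ℝ ∙ v)ᗮ : Submodule ℝ E3)) = volume := by
    rw [← hfin]
    exact InnerProductSpace.euclideanHausdorffMeasure_eq_volume
  rw [hvol]
  exact hbd.measure_lt_top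


/-! ### Area formulas (from the shared area library) -/

theorem tri_area (p q r : E3) : μHE[2] (convexHull ℝ {p, q, r}) =
    ENNReal.ofReal (Real.sqrt (‖q - p‖ ^ 2 * ‖r - p‖ ^ 2 - inner ℝ (q - p) (r - p) ^ 2) / 2) :=
  Crest.Agent.Lib_helper18_Area.area_triangle p q r

theorem para_area (c a b : E3) : μHE[2] (para c a b) =
    ENNReal.ofReal (Real.sqrt (‖a‖ ^ 2 * ‖b‖ ^ 2 - inner ℝ a b ^ 2)) :=
  Crest.Agent.Lib_helper18_Area.area_parallelogram c a b

/-! ### Slicing a triangle into thin parallelograms -/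

lemma mem_convexHull_triple {p q r x : E3} (hx : x ∈ convexHull ℝ {p, q, r}) :
    ∃ s t : ℝ, 0 ≤ s ∧ 0 ≤ t ∧ s + t ≤ 1 ∧ x = p + s • (q - p) + t • (r - p) := by
  rw [convexHull_insert (by simp), convexHull_pair, mem_convexJoin] at hx
  obtain ⟨a, ha, b, hb, hxab⟩ := hx
  rw [Set.mem_singleton_iff] at ha
  subst ha
  obtain ⟨φ1, φ2, hφ1, hφ2, hφ, rfl⟩ := hb
  obtain ⟨θ1, θ2, hθ1, hθ2, hθ, rfl⟩ := hxab
  obtain rfl : θ1 = 1 - θ2 := by linarith
  obtain rfl : φ1 = 1 - φ2 := by linarith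
  refine ⟨θ2 * (1 - φ2), θ2 * φ2, by positivity, by positivity, by nlinarith, ?_⟩
  module

lemma sum_range_cast (n : ℕ) : ∑ j ∈ Finset.range n, (j : ℝ) = n * (n - 1) / 2 := by
  induction n with
  | zero => simp
  | succ k ih => rw [Finset.sum_range_succ, ih]; push_cast; ring

section Slices

variable (p q r : E3) (n : ℕ)

def sc (j : ℕ) : E3 := p + ((j : ℝ) / n) • (r - p)
def sa (j : ℕ) : E3 := (1 - (j : ℝ) / n) • (q - p)
def sb : E3 := (1 / (n : ℝ)) • (r - p)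

lemma tri_subset_slices (hn : 0 < n) :
    convexHull ℝ {p, q, r} ⊆ ⋃ j : Fin n, para (sc p r n j) (sa p q n j) (sb p r n) := by
  intro x hx
  obtain ⟨s, t, hs, ht, hst, rfl⟩ := mem_convexHull_triple hx
  have hn' : (0 : ℝ) < n := by exact_mod_cast hn
  set j : ℕ := min ⌊(n : ℝ) * t⌋₊ (n - 1) with hj
  have hjn : j < n := lt_of_le_of_lt (min_le_right _ _) (by omega)
  have hj1 : (j : ℝ) ≤ n * t := by
    have h1 : (j : ℝ) ≤ (⌊(n : ℝ) * t⌋₊ : ℝ) := by exact_mod_cast min_le_left _ _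
    exact h1.trans (Nat.floor_le (by positivity))
  have hj2 : (n : ℝ) * t ≤ j + 1 := by
    rcases le_total ⌊(n : ℝ) * t⌋₊ (n - 1) with h | h
    · have : j = ⌊(n : ℝ) * t⌋₊ := min_eq_left h
      rw [this]
      exact (Nat.lt_floor_add_one _).le
    · have : j = n - 1 := min_eq_right h
      have h2 : ((n - 1 : ℕ) : ℝ) + 1 = n := by
        have : n - 1 + 1 = n := by omega
        exact_mod_cast this
      rw [this, h2]
      have : t ≤ 1 := by linarith
      nlinarith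
  have hjn' : (j : ℝ) + 1 ≤ n := by exact_mod_cast hjn
  have h1pos : 0 < 1 - (j : ℝ) / n := by
    rw [sub_pos, div_lt_one hn']; linarith
  have hjle : (j : ℝ) / n ≤ t := by
    rw [div_le_iff₀ hn']; linarith
  refine Set.mem_iUnion.2 ⟨⟨j, hjn⟩, s / (1 - (j : ℝ) / n), ⟨by positivity, ?_⟩,
    n * t - j, ⟨by linarith, by linarith⟩, ?_⟩
  · rw [div_le_one h1pos]; linarith
  · simp only [sc, sa, sb]
    have e1 : (s / (1 - (j : ℝ) / n)) • ((1 - (j : ℝ) / n) • (q - p)) = s • (q - p) := by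
      rw [smul_smul, div_mul_cancel₀ _ h1pos.ne']
    have e2 : ((j : ℝ) / n) • (r - p) + (n * t - j) • ((1 / (n : ℝ)) • (r - p)) = t • (r - p) := by
      rw [smul_smul, ← add_smul]
      congr 1
      field_simp
      ring
    rw [e1, ← e2]
    abel

lemma slice_area (j : ℕ) (hj : j < n) :
    (μHE[2] (para (sc p r n j) (sa p q n j) (sb p r n))).toReal =
      (1 - (j : ℝ) / n) * (1 / (n : ℝ)) *
        Real.sqrt (‖q - p‖ ^ 2 * ‖r - p‖ ^ 2 - inner ℝ (q - p) (r - p) ^ 2) := by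
  have hn' : (0 : ℝ) < n := by exact_mod_cast (lt_of_le_of_lt (Nat.zero_le _) hj)
  have hjn' : (j : ℝ) + 1 ≤ n := by exact_mod_cast hj
  have h1pos : 0 < 1 - (j : ℝ) / n := by
    rw [sub_pos, div_lt_one hn']; linarith
  have h2pos : 0 < 1 / (n : ℝ) := by positivity
  rw [para_area, ENNReal.toReal_ofReal (Real.sqrt_nonneg _)]
  have e1 : ‖sa p q n j‖ = (1 - (j : ℝ) / n) * ‖q - p‖ := by
    rw [sa, norm_smul, Real.norm_eq_abs, abs_of_pos h1pos]
  have e2 : ‖sb p r n‖ = (1 / (n : ℝ)) * ‖r - p‖ := by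
    rw [sb, norm_smul, Real.norm_eq_abs, abs_of_pos h2pos]
  have e3 : inner ℝ (sa p q n j) (sb p r n) =
      (1 - (j : ℝ) / n) * (1 / (n : ℝ)) * inner ℝ (q - p) (r - p) := by
    rw [sa, sb, real_inner_smul_left, real_inner_smul_right]; ring
  rw [e1, e2, e3]
  have : ((1 - (j : ℝ) / n) * ‖q - p‖) ^ 2 * ((1 / (n : ℝ)) * ‖r - p‖) ^ 2 -
      ((1 - (j : ℝ) / n) * (1 / (n : ℝ)) * inner ℝ (q - p) (r - p)) ^ 2 =
      ((1 - (j : ℝ) / n) * (1 / (n : ℝ))) ^ 2 *
        (‖q - p‖ ^ 2 * ‖r - p‖ ^ 2 - inner ℝ (q - p) (r - p) ^ 2) := by ring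
  rw [this, Real.sqrt_mul (sq_nonneg _), Real.sqrt_sq (by positivity)]

lemma slices_total (hn : 0 < n) :
    ∑ j : Fin n, (μHE[2] (para (sc p r n j) (sa p q n j) (sb p r n))).toReal =
      (1 + 1 / (n : ℝ)) * (μHE[2] (convexHull ℝ {p, q, r})).toReal := by
  have hn' : (0 : ℝ) < n := by exact_mod_cast hn
  rw [tri_area, ENNReal.toReal_ofReal (by positivity)]
  have h1 : ∀ j : Fin n, (μHE[2] (para (sc p r n j) (sa p q n j) (sb p r n))).toReal =
      (1 - ((j : ℕ) : ℝ) / n) * (1 / (n : ℝ)) *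
        Real.sqrt (‖q - p‖ ^ 2 * ‖r - p‖ ^ 2 - inner ℝ (q - p) (r - p) ^ 2) :=
    fun j => slice_area p q r n j j.2
  rw [Finset.sum_congr rfl fun j _ => h1 j]
  rw [Fin.sum_univ_eq_sum_range (fun j : ℕ => (1 - (j : ℝ) / n) * (1 / (n : ℝ)) *
        Real.sqrt (‖q - p‖ ^ 2 * ‖r - p‖ ^ 2 - inner ℝ (q - p) (r - p) ^ 2)) n]
  rw [← Finset.sum_mul, ← Finset.sum_mul, Finset.sum_sub_distrib, ← Finset.sum_div,
    sum_range_cast]
  simp only [Finset.sum_const, Finset.card_range, nsmul_eq_mul, mul_one]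
  field_simp
  ring

end Slices

/-! ### Covers by cylinders over parallelograms -/

/-- A finite family of cylinders over parallelograms covering `K` with total base area `≤ A`. -/
def ParaCover (K : Set E3) (A : ℝ) : Prop :=
  ∃ (k : ℕ) (u c a b : Fin k → E3),
    (∀ i, ‖u i‖ = 1) ∧
    (∀ i, inner ℝ (c i) (u i) = (0 : ℝ) ∧ inner ℝ (a i) (u i) = (0 : ℝ) ∧
      inner ℝ (b i) (u i) = (0 : ℝ)) ∧
    K ⊆ ⋃ i, pcyl (c i) (a i) (b i) (u i) ∧
    ∑ i, (μHE[2] (para (c i) (a i) (b i))).toReal ≤ A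

lemma ParaCover.of_fintype {K : Set E3} {A : ℝ} {ι : Type} [Fintype ι] (u c a b : ι → E3)
    (hu : ∀ i, ‖u i‖ = 1)
    (hperp : ∀ i, inner ℝ (c i) (u i) = (0 : ℝ) ∧ inner ℝ (a i) (u i) = (0 : ℝ) ∧
      inner ℝ (b i) (u i) = (0 : ℝ))
    (hcov : K ⊆ ⋃ i, pcyl (c i) (a i) (b i) (u i))
    (hA : ∑ i, (μHE[2] (para (c i) (a i) (b i))).toReal ≤ A) : ParaCover K A := by
  let e := (Fintype.equivFin ι).symm
  refine ⟨Fintype.card ι, u ∘ e, c ∘ e, a ∘ e, b ∘ e, fun i => hu _, fun i => hperp _, ?_, ?_⟩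
  · intro x hx
    obtain ⟨i, hi⟩ := Set.mem_iUnion.1 (hcov hx)
    refine Set.mem_iUnion.2 ⟨e.symm i, ?_⟩
    simpa using hi
  · refine le_trans (le_of_eq ?_) hA
    exact e.sum_comp (fun i => (μHE[2] (para (c i) (a i) (b i))).toReal)

lemma paraCover_of_triangles {K : Set E3} {m : ℕ} (u p q r : Fin m → E3) (hu : ∀ i, ‖u i‖ = 1)
    (hperp : ∀ i, inner ℝ (p i) (u i) = (0 : ℝ) ∧ inner ℝ (q i) (u i) = (0 : ℝ) ∧
      inner ℝ (r i) (u i) = (0 : ℝ))
    (hcov : K ⊆ ⋃ i, {x : E3 | ∃ b ∈ convexHull ℝ {p i, q i, r i}, ∃ t : ℝ, x = b + t • u i})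
    (n : ℕ) (hn : 0 < n) :
    ParaCover K ((1 + 1 / (n : ℝ)) * ∑ i, (μHE[2] (convexHull ℝ {p i, q i, r i})).toReal) := by
  refine ParaCover.of_fintype (ι := Fin m × Fin n) (fun ij => u ij.1)
    (fun ij => sc (p ij.1) (r ij.1) n ij.2) (fun ij => sa (p ij.1) (q ij.1) n ij.2)
    (fun ij => sb (p ij.1) (r ij.1) n) (fun ij => hu _) ?_ ?_ ?_
  · rintro ⟨i, j⟩
    obtain ⟨hp, hq, hr⟩ := hperp i
    simp only [sc, sa, sb, inner_add_left, real_inner_smul_left, inner_sub_left, hp, hq, hr]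
    simp
  · intro x hx
    obtain ⟨i, b, hb, t, rfl⟩ := Set.mem_iUnion.1 (hcov hx)
    obtain ⟨j, s, hs, t', ht', rfl⟩ := Set.mem_iUnion.1 (tri_subset_slices (p i) (q i) (r i) n hn hb)
    exact Set.mem_iUnion.2 ⟨(i, j), s, hs, t', ht', t, rfl⟩
  · rw [Fintype.sum_prod_type, Finset.mul_sum]
    exact le_of_eq (Finset.sum_congr rfl fun i _ => slices_total (p i) (q i) (r i) n hn)

/-! ### Relatively open bases -/

lemma para_compact (c a b : E3) : IsCompact (para c a b) := by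
  have h : para c a b = (fun st : ℝ × ℝ => c + st.1 • a + st.2 • b) ''
      (Set.Icc (0 : ℝ) 1 ×ˢ Set.Icc (0 : ℝ) 1) := by
    ext x
    constructor
    · rintro ⟨s, hs, t, ht, rfl⟩
      exact ⟨(s, t), ⟨hs, ht⟩, rfl⟩
    · rintro ⟨⟨s, t⟩, ⟨hs, ht⟩, rfl⟩
      exact ⟨s, hs, t, ht, rfl⟩
  rw [h]
  exact (isCompact_Icc.prod isCompact_Icc).image (by fun_prop)

lemma para_subset_plane {c a b u : E3} (hc : inner ℝ c u = (0 : ℝ)) (ha : inner ℝ a u = (0 : ℝ))
    (hb : inner ℝ b u = (0 : ℝ)) : para c a b ⊆ {x | inner ℝ x u = (0 : ℝ)} := by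
  rintro _ ⟨s, hs, t, ht, rfl⟩
  simp [inner_add_left, real_inner_smul_left, hc, ha, hb]

lemma para_subset_pcyl (c a b u : E3) : para c a b ⊆ pcyl c a b u := by
  rintro _ ⟨s, hs, t, ht, rfl⟩
  exact ⟨s, hs, t, ht, 0, by simp⟩

lemma exists_open_base (u : E3) (hu : ‖u‖ = 1) (P : Set E3) (hPc : IsCompact P)
    (hPu : P ⊆ {x | inner ℝ x u = (0 : ℝ)}) (ε : ℝ) (hε : 0 < ε) :
    ∃ B : Set E3, P ⊆ B ∧ Bornology.IsBounded B ∧
      (∃ O : Set E3, IsOpen O ∧ B = O ∩ {x | inner ℝ x u = (0 : ℝ)}) ∧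
      (μHE[2] B).toReal ≤ (μHE[2] P).toReal + ε := by
  have hu0 : u ≠ 0 := by
    rintro rfl
    simp at hu
  set H : Set E3 := {x | inner ℝ x u = (0 : ℝ)} with hH
  have hHclosed : IsClosed H := isClosed_eq (by fun_prop) continuous_const
  let S : ℕ → Set E3 := fun n => Metric.thickening (1 / ((n : ℝ) + 1)) P ∩ H
  have hSmeas : ∀ n, MeasurableSet (S n) := fun n =>
    Metric.isOpen_thickening.measurableSet.inter hHclosed.measurableSet
  have hSanti : Antitone S := by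
    intro m n hmn
    apply Set.inter_subset_inter_left
    apply Metric.thickening_mono
    apply one_div_le_one_div_of_le (by positivity)
    have : (m : ℝ) ≤ n := by exact_mod_cast hmn
    linarith
  have hSbdd : ∀ n, Bornology.IsBounded (S n) := fun n =>
    (hPc.isBounded.thickening).subset Set.inter_subset_left
  have hSfin : ∀ n, μHE[2] (S n) < ⊤ := fun n =>
    planar_bounded_lt_top u hu0 (S n) (hSbdd n) Set.inter_subset_right
  have hPfin : μHE[2] P < ⊤ := planar_bounded_lt_top u hu0 P hPc.isBounded hPu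
  have hInter : ⋂ n, S n = P := by
    apply Set.Subset.antisymm
    · intro x hx
      rw [Set.mem_iInter] at hx
      have hne : P.Nonempty := by
        by_contra hemp
        rw [Set.not_nonempty_iff_eq_empty] at hemp
        have := (hx 0).1
        simp [hemp] at this
      rw [hPc.isClosed.mem_iff_infDist_zero hne]
      apply le_antisymm _ Metric.infDist_nonneg
      apply le_of_forall_pos_lt_add
      intro δ hδ
      obtain ⟨n, hn⟩ := exists_nat_one_div_lt hδ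
      have := Metric.mem_thickening_iff_infDist_lt hne |>.1 (hx n).1
      linarith
    · intro x hx
      rw [Set.mem_iInter]
      intro n
      exact ⟨Metric.self_subset_thickening (by positivity) P hx, hPu hx⟩
  have htend := tendsto_measure_iInter_atTop (μ := (μHE[2] : Measure E3))
    (fun n => (hSmeas n).nullMeasurableSet) hSanti ⟨0, (hSfin 0).ne⟩
  rw [hInter] at htend
  have hlt : μHE[2] P < μHE[2] P + ENNReal.ofReal ε :=
    ENNReal.lt_add_right hPfin.ne (by simpa using hε)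
  obtain ⟨n, hn⟩ := (htend.eventually_lt_const hlt).exists
  refine ⟨S n, ?_, hSbdd n, ⟨Metric.thickening (1 / ((n : ℝ) + 1)) P, Metric.isOpen_thickening, rfl⟩, ?_⟩
  · intro x hx
    exact ⟨Metric.self_subset_thickening (by positivity) P hx, hPu hx⟩
  · have h1 : (μHE[2] (S n)).toReal ≤ (μHE[2] P + ENNReal.ofReal ε).toReal :=
      ENNReal.toReal_mono (ENNReal.add_ne_top.2 ⟨hPfin.ne, ENNReal.ofReal_ne_top⟩) hn.le
    rwa [ENNReal.toReal_add hPfin.ne ENNReal.ofReal_ne_top, ENNReal.toReal_ofReal hε.le] at h1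

/-- A finite family of cylinders over bounded relatively open planar sets covering `K`, with total
base area `≤ A`. -/
def OpenCover (K : Set E3) (A : ℝ) : Prop :=
  ∃ (k : ℕ) (u : Fin k → E3) (B : Fin k → Set E3),
    (∀ i, ‖u i‖ = 1) ∧
    (∀ i, Bornology.IsBounded (B i) ∧ ∃ O : Set E3, IsOpen O ∧
      B i = O ∩ {x | inner ℝ x (u i) = (0 : ℝ)}) ∧
    K ⊆ ⋃ i, {x : E3 | ∃ y ∈ B i, ∃ τ : ℝ, x = y + τ • u i} ∧
    ∑ i, (μHE[2] (B i)).toReal ≤ A

lemma ParaCover.openCover {K : Set E3} {A : ℝ} (h : ParaCover K A) {ε : ℝ} (hε : 0 < ε) :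
    OpenCover K (A + ε) := by
  obtain ⟨k, u, c, a, b, hu, hperp, hcov, hA⟩ := h
  have hε' : 0 < ε / ((k : ℝ) + 1) := by positivity
  have hex : ∀ i, ∃ B : Set E3, para (c i) (a i) (b i) ⊆ B ∧ Bornology.IsBounded B ∧
      (∃ O : Set E3, IsOpen O ∧ B = O ∩ {x | inner ℝ x (u i) = (0 : ℝ)}) ∧
      (μHE[2] B).toReal ≤ (μHE[2] (para (c i) (a i) (b i))).toReal + ε / ((k : ℝ) + 1) :=
    fun i => exists_open_base (u i) (hu i) _ (para_compact _ _ _)
      (para_subset_plane (hperp i).1 (hperp i).2.1 (hperp i).2.2) _ hε'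
  choose B hB1 hB2 hB3 hB4 using hex
  refine ⟨k, u, B, hu, fun i => ⟨hB2 i, hB3 i⟩, ?_, ?_⟩
  · intro x hx
    obtain ⟨i, s, hs, t, ht, τ, rfl⟩ := Set.mem_iUnion.1 (hcov hx)
    exact Set.mem_iUnion.2 ⟨i, c i + s • a i + t • b i, hB1 i ⟨s, hs, t, ht, rfl⟩, τ, rfl⟩
  · calc ∑ i, (μHE[2] (B i)).toReal
        ≤ ∑ i, ((μHE[2] (para (c i) (a i) (b i))).toReal + ε / ((k : ℝ) + 1)) :=
          Finset.sum_le_sum fun i _ => hB4 i
      _ = ∑ i, (μHE[2] (para (c i) (a i) (b i))).toReal + k * (ε / ((k : ℝ) + 1)) := by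
          rw [Finset.sum_add_distrib]; simp
      _ ≤ A + ε := by
          have : (k : ℝ) * (ε / ((k : ℝ) + 1)) ≤ ε := by
            rw [mul_div_assoc']
            rw [div_le_iff₀ (by positivity)]
            nlinarith
          linarith

/-! ### The conclusion of S0327 from covers -/

open Crest.Agent.Lib_helper3_S0327Defs in
/-- Ratio clause: if `∑ aⱼ + δ ≤ Dᵢ / 2` for every `i`, then `∑ aᵢ / Dᵢ < 1 / 2`. -/
lemma ratio_lt_half {k : ℕ} (a D : Fin k → ℝ) (δ : ℝ) (hδ : 0 < δ) (ha : ∀ i, 0 ≤ a i)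
    (hD : ∀ i, ∑ j, a j + δ ≤ D i / 2) : ∑ i, a i / D i < 1 / 2 := by
  have hS : 0 ≤ ∑ j, a j := Finset.sum_nonneg fun j _ => ha j
  exact Crest.Agent.Lib_helper19_TetraProj.ratio_lt_half a D (2 * (∑ j, a j + δ)) δ
    (by positivity) hδ ha (fun i => by linarith [hD i]) (by linarith)

open Crest.Agent.Lib_helper3_S0327Defs in
/-- From a parallelogram cover with a margin to the conclusion of S0327. -/
theorem concl_of_paraCover {K : Set E3} {A δ : ℝ} (hδ : 0 < δ) (h : ParaCover K A)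
    (hm : ∀ v : E3, ‖v‖ = 1 → A + δ ≤ (μHE[2] (prj v '' K)).toReal / 2) : Concl K := by
  have hδ2 : 0 < δ / 2 := by positivity
  have hO : OpenCover K (A + δ / 2) := h.openCover hδ2
  constructor
  · obtain ⟨k, u, c, a, b, hu, hperp, hcov, hA⟩ := h
    refine ⟨k, u, c, a, b, hu, hperp, hcov, ⟨δ, hδ, fun v hv => ?_⟩, ?_⟩
    · have h1 : A + δ ≤ (μHE[2] ((fun y => y - inner ℝ y v • v) '' K)).toReal / 2 := hm v hv
      have hA' : ∑ i, (μHE[2] {x : E3 | ∃ s ∈ Set.Icc (0 : ℝ) 1, ∃ t ∈ Set.Icc (0 : ℝ) 1,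
          x = c i + s • a i + t • b i}).toReal ≤ A := hA
      linarith
    · refine ratio_lt_half (fun i => (μHE[2] (para (c i) (a i) (b i))).toReal)
        (fun i => (μHE[2] (prj (u i) '' K)).toReal) δ hδ (fun i => ENNReal.toReal_nonneg)
        (fun i => ?_)
      have := hm (u i) (hu i)
      linarith
  · obtain ⟨k, u, B, hu, hB, hcov, hA⟩ := hO
    refine ⟨k, u, B, hu, hB, hcov, ⟨δ / 2, hδ2, fun v hv => ?_⟩, ?_⟩
    · have h1 : A + δ ≤ (μHE[2] ((fun y => y - inner ℝ y v • v) '' K)).toReal / 2 := hm v hv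
      linarith
    · refine ratio_lt_half (fun i => (μHE[2] (B i)).toReal)
        (fun i => (μHE[2] (prj (u i) '' K)).toReal) (δ / 2) hδ2 (fun i => ENNReal.toReal_nonneg)
        (fun i => ?_)
      have := hm (u i) (hu i)
      linarith

open Crest.Agent.Lib_helper3_S0327Defs in
/-- **Generic reduction.** A finite cover of `K` by cylinders over triangles whose total base
area is, by a positive margin, below half of every projection area of `K` yields the conclusion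
of S0327 for `K`. -/
theorem concl_of_triCover {K : Set E3}
    (H : ∃ (m : ℕ) (u p q r : Fin m → E3), (∀ i, ‖u i‖ = 1) ∧
      (∀ i, inner ℝ (p i) (u i) = 0 ∧ inner ℝ (q i) (u i) = 0 ∧ inner ℝ (r i) (u i) = 0) ∧
      K ⊆ ⋃ i, {x : E3 | ∃ b ∈ convexHull ℝ {p i, q i, r i}, ∃ t : ℝ, x = b + t • u i} ∧
      ∃ δ : ℝ, 0 < δ ∧ ∀ v : E3, ‖v‖ = 1 →
        ∑ i, (μHE[2] (convexHull ℝ {p i, q i, r i})).toReal + δ ≤
          (μHE[2] ((fun y => y - inner ℝ y v • v) '' K)).toReal / 2) : Concl K := by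
  obtain ⟨m, u, p, q, r, hu, hperp, hcov, δ, hδ, hmargin⟩ := H
  set S : ℝ := ∑ i, (μHE[2] (convexHull ℝ {p i, q i, r i})).toReal with hS
  have hS0 : 0 ≤ S := Finset.sum_nonneg fun i _ => ENNReal.toReal_nonneg
  -- choose the number of slices
  obtain ⟨n, hn⟩ := exists_nat_gt (2 * S / δ)
  have hn0 : (0 : ℝ) < n := lt_of_le_of_lt (by positivity) hn
  have hnpos : 0 < n := by exact_mod_cast hn0
  have hSn : S / n ≤ δ / 2 := by
    rw [div_le_iff₀ hn0]
    rw [div_lt_iff₀ hδ] at hn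
    linarith
  have hPC : ParaCover K ((1 + 1 / (n : ℝ)) * S) :=
    paraCover_of_triangles u p q r hu hperp hcov n hnpos
  refine concl_of_paraCover (δ := δ / 2) (by positivity) hPC (fun v hv => ?_)
  have h1 := hmargin v hv
  have h2 : (1 + 1 / (n : ℝ)) * S = S + S / n := by ring
  show (1 + 1 / (n : ℝ)) * S + δ / 2 ≤
    (μHE[2] ((fun y => y - inner ℝ y v • v) '' K)).toReal / 2
  rw [h2]
  linarith

open Crest.Agent.Lib_helper3_S0327Defs in
/-- The standard tetrahedron: any triangle cover of total area `< √2 / 2` (by a margin) suffices. -/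
theorem std_result_of_cover
    (H : ∃ (m : ℕ) (u p q r : Fin m → E3), (∀ i, ‖u i‖ = 1) ∧
      (∀ i, inner ℝ (p i) (u i) = 0 ∧ inner ℝ (q i) (u i) = 0 ∧ inner ℝ (r i) (u i) = 0) ∧
      convexHull ℝ {!₂[1, 0, 0], !₂[-1, 0, 0], !₂[0, 1, Real.sqrt 2], !₂[0, -1, Real.sqrt 2]} ⊆
        ⋃ i, {x : E3 | ∃ b ∈ convexHull ℝ {p i, q i, r i}, ∃ t : ℝ, x = b + t • u i} ∧
      ∃ δ : ℝ, 0 < δ ∧
        ∑ i, (μHE[2] (convexHull ℝ {p i, q i, r i})).toReal + δ ≤ Real.sqrt 2 / 2) : Concl K0 := by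
  obtain ⟨m, u, p, q, r, hu, hperp, hcov, δ, hδ, hA⟩ := H
  refine concl_of_triCover ⟨m, u, p, q, r, hu, hperp, hcov, δ, hδ, fun v hv => ?_⟩
  exact Crest.Agent.Lib_helper19_TetraProj.he_margin
    (fun i => convexHull ℝ {p i, q i, r i}) δ hA v hv

open Crest.Agent.Lib_helper3_S0327Defs in
/-- The standard tetrahedron from the `core_cover` interface (total area
`≤ √2 (1/2 - 1/10^6)`). -/
theorem std_result_of_core
    (H : ∃ (m : ℕ) (u p q r : Fin m → EuclideanSpace ℝ (Fin 3)), (∀ i, ‖u i‖ = 1) ∧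
      (∀ i, inner ℝ (p i) (u i) = 0 ∧ inner ℝ (q i) (u i) = 0 ∧ inner ℝ (r i) (u i) = 0) ∧
      convexHull ℝ {!₂[1, 0, 0], !₂[-1, 0, 0], !₂[0, 1, Real.sqrt 2], !₂[0, -1, Real.sqrt 2]} ⊆
        ⋃ i, {x | ∃ b ∈ convexHull ℝ {p i, q i, r i}, ∃ t : ℝ, x = b + t • u i} ∧
      m ≤ 16000000 ∧
      ∑ i, (μHE[2] (convexHull ℝ {p i, q i, r i})).toReal ≤
        Real.sqrt 2 * (1 / 2 - 1 / 1000000)) : Concl K0 := by
  obtain ⟨m, u, p, q, r, hu, hperp, hcov, -, hA⟩ := H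
  refine std_result_of_cover ⟨m, u, p, q, r, hu, hperp, hcov, Real.sqrt 2 / 1000000,
    by positivity, ?_⟩
  linarith

open Crest.Agent.Lib_helper3_S0327Defs in
/-- The standard tetrahedron from the statement of S0324 (which is phrased with the raw
Hausdorff measure `μH[2]`, a positive constant multiple of `μHE[2]`). -/
theorem std_result_of_S0324
    (H : ∃ (m : ℕ) (u p q r : Fin m → EuclideanSpace ℝ (Fin 3)),
      (∀ i, ‖u i‖ = 1) ∧
      (∀ i, inner ℝ (p i) (u i) = 0 ∧ inner ℝ (q i) (u i) = 0 ∧ inner ℝ (r i) (u i) = 0) ∧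
      convexHull ℝ {!₂[1, 0, 0], !₂[-1, 0, 0], !₂[0, 1, Real.sqrt 2], !₂[0, -1, Real.sqrt 2]} ⊆
        ⋃ i, {x : EuclideanSpace ℝ (Fin 3) | ∃ b ∈ convexHull ℝ {p i, q i, r i}, ∃ t : ℝ, x = b + t • u i} ∧
      ∃ δ : ℝ, 0 < δ ∧ ∀ v : EuclideanSpace ℝ (Fin 3), ‖v‖ = 1 →
        ∑ i, (μH[(2 : ℝ)] (convexHull ℝ {p i, q i, r i})).toReal + δ ≤
          (μH[(2 : ℝ)] ((fun y => y - inner ℝ y v • v) '' convexHull ℝ {!₂[1, 0, 0], !₂[-1, 0, 0], !₂[0, 1, Real.sqrt 2], !₂[0, -1, Real.sqrt 2]})).toReal / 2) :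
    Concl K0 := by
  obtain ⟨m, u, p, q, r, hu, hperp, hcov, δ, hδ, hmargin⟩ := H
  obtain ⟨κ, hκ, hfac⟩ := Crest.Agent.Lib_helper19_TetraProj.exists_hausdorff_factor
  refine concl_of_triCover ⟨m, u, p, q, r, hu, hperp, hcov, δ / κ, by positivity, fun v hv => ?_⟩
  have h1 := hmargin v hv
  simp only [hfac] at h1
  rw [← Finset.mul_sum] at h1
  have h2 : κ * (∑ i, (μHE[2] (convexHull ℝ {p i, q i, r i})).toReal + δ / κ) ≤
      κ * ((μHE[2] ((fun y => y - inner ℝ y v • v) '' convexHull ℝ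
        {!₂[1, 0, 0], !₂[-1, 0, 0], !₂[0, 1, Real.sqrt 2], !₂[0, -1, Real.sqrt 2]})).toReal / 2) := by
    rw [mul_add, mul_div_cancel₀ _ hκ.ne']
    linarith
  exact le_of_mul_le_mul_left h2 hκ

end

end Crest.Agent.Lib_helper29_S0327Std
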