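import Mathlib
import Crest.Agent.Lib_helper3_S0327Defs

set_option autoImplicit false
set_option linter.unusedSimpArgs false
set_option linter.unusedVariables false
open MeasureTheory
open scoped ENNReal Pointwise

noncomputable section

namespace Crest.Agent.Lib_helper3_S0327

open Crest.Agent.Lib_helper3_S0327Defs

/-- Euclidean three-space. -/
abbrev E3 := EuclideanSpace ℝ (Fin 3)

/-- The orthogonal projection along a (unit) vector `v`, in the shape used by the statements. -/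
def proj (v : E3) (y : E3) : E3 := y - inner ℝ y v • v

/-- Closed parallelogram `c + [0,1] a + [0,1] b`. -/
def par (c a b : E3) : Set E3 :=
  {x | ∃ s ∈ Set.Icc (0 : ℝ) 1, ∃ t ∈ Set.Icc (0 : ℝ) 1, x = c + s • a + t • b}

/-- Gram determinant of two vectors. -/
def gram (a b : E3) : ℝ := ‖a‖ ^ 2 * ‖b‖ ^ 2 - inner ℝ a b ^ 2

/-- The similarity `x ↦ z + ρ • U x`. -/
def sim (U : E3 ≃ₗᵢ[ℝ] E3) (z : E3) (ρ : ℝ) (x : E3) : E3 := z + ρ • U x

/-! ### Hausdorff measure under similarities -/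

lemma hE_image_sim (U : E3 ≃ₗᵢ[ℝ] E3) (z : E3) {ρ : ℝ} (hρ : 0 < ρ) (s : Set E3) :
    μHE[2] (sim U z ρ '' s) = ENNReal.ofReal (ρ ^ 2) * μHE[2] s := by
  have h1 : sim U z ρ '' s = (fun y => z + y) '' (ρ • (U '' s)) := by
    ext x
    constructor
    · rintro ⟨y, hy, rfl⟩
      exact ⟨ρ • U y, Set.smul_mem_smul_set ⟨y, hy, rfl⟩, rfl⟩
    · rintro ⟨y, hy, rfl⟩
      obtain ⟨y', ⟨y'', hy'', rfl⟩, rfl⟩ := hy
      exact ⟨y'', hy'', rfl⟩
  rw [h1, (isometry_add_left z).euclideanHausdorffMeasure_image,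
    Measure.euclideanHausdorffMeasure_smul₀ 2 hρ.ne', U.isometry.euclideanHausdorffMeasure_image]
  have : (‖ρ‖₊ : ℝ≥0∞) ^ 2 = ENNReal.ofReal (ρ ^ 2) := by
    rw [ENNReal.ofReal_pow hρ.le, ← enorm_eq_nnnorm, Real.enorm_eq_ofReal hρ.le]
  rw [ENNReal.smul_def, smul_eq_mul]
  simp [this]

lemma hE_image_sim_toReal (U : E3 ≃ₗᵢ[ℝ] E3) (z : E3) {ρ : ℝ} (hρ : 0 < ρ) (s : Set E3) :
    (μHE[2] (sim U z ρ '' s)).toReal = ρ ^ 2 * (μHE[2] s).toReal := by
  rw [hE_image_sim U z hρ, ENNReal.toReal_mul, ENNReal.toReal_ofReal (by positivity)]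

/-- `proj` intertwines with similarities. -/
lemma proj_sim (U : E3 ≃ₗᵢ[ℝ] E3) (z : E3) (ρ : ℝ) (v x : E3) :
    proj v (sim U z ρ x) = sim U (proj v z) ρ (proj (U.symm v) x) := by
  have h : inner ℝ x (U.symm v) = inner ℝ (U x) v := by
    rw [← U.inner_map_map x (U.symm v), U.apply_symm_apply]
  simp only [proj, sim, h, inner_add_left, inner_smul_left, map_sub, map_smul, U.apply_symm_apply]
  simp only [RCLike.conj_to_real]
  module

lemma proj_image_sim (U : E3 ≃ₗᵢ[ℝ] E3) (z : E3) (ρ : ℝ) (v : E3) (s : Set E3) :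
    proj v '' (sim U z ρ '' s) = sim U (proj v z) ρ '' (proj (U.symm v) '' s) := by
  rw [Set.image_image, Set.image_image]
  exact Set.image_congr fun x _ => proj_sim U z ρ v x

lemma inner_proj_self {v : E3} (hv : ‖v‖ = 1) (y : E3) : inner ℝ (proj v y) v = 0 := by
  simp [proj, inner_sub_left, inner_smul_left, real_inner_self_eq_norm_sq, hv]

/-- `μHE[2]` versus `μH[2]`: a positive finite constant. -/
lemma exists_hE_eq_const_mul :
    ∃ k : ℝ, 0 < k ∧ ∀ s : Set E3, (μHE[2] s).toReal = k * (μH[(2 : ℝ)] s).toReal := by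
  refine ⟨((Measure.addHaarScalarFactor (volume : Measure (EuclideanSpace ℝ (Fin 2))) μH[(2 : ℕ)] : NNReal) : ℝ), ?_, ?_⟩
  · have := Measure.addHaarScalarFactor_volume_hausdorffMeasure_ne_zero 2
    exact lt_of_le_of_ne (NNReal.coe_nonneg _) (fun h => this (by exact_mod_cast h.symm))
  · intro s
    rw [Measure.euclideanHausdorffMeasure_def, Measure.smul_apply, ENNReal.smul_def, smul_eq_mul,
      ENNReal.toReal_mul]
    simp

/-- The similarity as an affine map. -/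
def simAff (U : E3 ≃ₗᵢ[ℝ] E3) (z : E3) (ρ : ℝ) : E3 →ᵃ[ℝ] E3 :=
  AffineMap.const ℝ E3 z + (ρ • U.toLinearEquiv.toLinearMap).toAffineMap

lemma simAff_coe (U : E3 ≃ₗᵢ[ℝ] E3) (z : E3) (ρ : ℝ) : ⇑(simAff U z ρ) = sim U z ρ := by
  funext x
  simp [simAff, sim]

lemma sim_image_convexHull (U : E3 ≃ₗᵢ[ℝ] E3) (z : E3) (ρ : ℝ) (s : Set E3) :
    sim U z ρ '' convexHull ℝ s = convexHull ℝ (sim U z ρ '' s) := by
  rw [← simAff_coe]
  exact AffineMap.image_convexHull _ _

lemma range_fin4 (w : Fin 4 → E3) : Set.range w = {w 0, w 1, w 2, w 3} := by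
  ext x
  constructor
  · rintro ⟨i, rfl⟩
    fin_cases i <;> simp
  · rintro (rfl | rfl | rfl | rfl) <;> exact ⟨_, rfl⟩

lemma exists_sim_of_regular (w : Fin 4 → E3) (ℓ : ℝ) (hℓ : 0 < ℓ)
    (hw : ∀ i j, i ≠ j → dist (w i) (w j) = ℓ) :
    ∃ (U : E3 ≃ₗᵢ[ℝ] E3) (z : E3), convexHull ℝ (Set.range w) = sim U z (ℓ / 2) '' K0 := by
  -- the six distance equations
  have hd : ∀ i j, i ≠ j → ‖w i‖ ^ 2 - 2 * inner ℝ (w i) (w j) + ‖w j‖ ^ 2 = ℓ ^ 2 := by
    intro i j hij
    rw [← norm_sub_sq_real, ← dist_eq_norm, hw i j hij]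
  have h01 := hd 0 1 (by decide)
  have h02 := hd 0 2 (by decide)
  have h03 := hd 0 3 (by decide)
  have h12 := hd 1 2 (by decide)
  have h13 := hd 1 3 (by decide)
  have h23 := hd 2 3 (by decide)
  have hs2 : Real.sqrt 2 * Real.sqrt 2 = 2 := Real.mul_self_sqrt (by norm_num)
  have hs2pos : 0 < Real.sqrt 2 := Real.sqrt_pos.mpr (by norm_num)
  have hℓ0 : ℓ ≠ 0 := hℓ.ne'
  have hs20 : Real.sqrt 2 ≠ 0 := hs2pos.ne'
  -- the frame vectors
  set A : E3 := w 0 - w 1 with hA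
  set B : E3 := w 2 - w 3 with hB
  set C : E3 := (w 2 + w 3) - (w 0 + w 1) with hC
  have hAA : inner ℝ A A = ℓ ^ 2 := by
    simp only [hA, inner_sub_left, inner_sub_right, real_inner_self_eq_norm_sq,
      real_inner_comm (w 0) (w 1)]
    linarith
  have hBB : inner ℝ B B = ℓ ^ 2 := by
    simp only [hB, inner_sub_left, inner_sub_right, real_inner_self_eq_norm_sq,
      real_inner_comm (w 2) (w 3)]
    linarith
  have hCC : inner ℝ C C = 2 * ℓ ^ 2 := by
    simp only [hC, inner_sub_left, inner_sub_right, inner_add_left, inner_add_right,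
      real_inner_self_eq_norm_sq, real_inner_comm (w 0) (w 1),
      real_inner_comm (w 0) (w 2), real_inner_comm (w 0) (w 3), real_inner_comm (w 1) (w 2),
      real_inner_comm (w 1) (w 3), real_inner_comm (w 2) (w 3)]
    linarith
  have hAB : inner ℝ A B = 0 := by
    simp only [hA, hB, inner_sub_left, inner_sub_right, inner_add_left, inner_add_right,
      real_inner_self_eq_norm_sq, real_inner_comm (w 0) (w 1),
      real_inner_comm (w 0) (w 2), real_inner_comm (w 0) (w 3), real_inner_comm (w 1) (w 2),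
      real_inner_comm (w 1) (w 3), real_inner_comm (w 2) (w 3)]
    linarith
  have hAC : inner ℝ A C = 0 := by
    simp only [hA, hC, inner_sub_left, inner_sub_right, inner_add_left, inner_add_right,
      real_inner_self_eq_norm_sq, real_inner_comm (w 0) (w 1),
      real_inner_comm (w 0) (w 2), real_inner_comm (w 0) (w 3), real_inner_comm (w 1) (w 2),
      real_inner_comm (w 1) (w 3), real_inner_comm (w 2) (w 3)]
    linarith
  have hBC : inner ℝ B C = 0 := by
    simp only [hB, hC, inner_sub_left, inner_sub_right, inner_add_left, inner_add_right,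
      real_inner_self_eq_norm_sq, real_inner_comm (w 0) (w 1),
      real_inner_comm (w 0) (w 2), real_inner_comm (w 0) (w 3), real_inner_comm (w 1) (w 2),
      real_inner_comm (w 1) (w 3), real_inner_comm (w 2) (w 3)]
    linarith
  have hBA : inner ℝ B A = 0 := by rw [real_inner_comm]; exact hAB
  have hCA : inner ℝ C A = 0 := by rw [real_inner_comm]; exact hAC
  have hCB : inner ℝ C B = 0 := by rw [real_inner_comm]; exact hBC
  -- the orthonormal frame
  let f : Fin 3 → E3 := ![(1 / ℓ) • A, (1 / ℓ) • B, (1 / (Real.sqrt 2 * ℓ)) • C]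
  have hf0 : f 0 = (1 / ℓ) • A := rfl
  have hf1 : f 1 = (1 / ℓ) • B := rfl
  have hf2 : f 2 = (1 / (Real.sqrt 2 * ℓ)) • C := rfl
  have hon : Orthonormal ℝ f := by
    rw [orthonormal_iff_ite]
    intro i j
    fin_cases i <;> fin_cases j
    · show inner ℝ (f 0) (f 0) = 1
      rw [hf0, inner_smul_left, inner_smul_right, hAA]
      simp only [RCLike.conj_to_real]
      field_simp
    · show inner ℝ (f 0) (f 1) = 0
      rw [hf0, hf1, inner_smul_left, inner_smul_right, hAB]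
      simp
    · show inner ℝ (f 0) (f 2) = 0
      rw [hf0, hf2, inner_smul_left, inner_smul_right, hAC]
      simp
    · show inner ℝ (f 1) (f 0) = 0
      rw [hf0, hf1, inner_smul_left, inner_smul_right, hBA]
      simp
    · show inner ℝ (f 1) (f 1) = 1
      rw [hf1, inner_smul_left, inner_smul_right, hBB]
      simp only [RCLike.conj_to_real]
      field_simp
    · show inner ℝ (f 1) (f 2) = 0
      rw [hf1, hf2, inner_smul_left, inner_smul_right, hBC]
      simp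
    · show inner ℝ (f 2) (f 0) = 0
      rw [hf0, hf2, inner_smul_left, inner_smul_right, hCA]
      simp
    · show inner ℝ (f 2) (f 1) = 0
      rw [hf1, hf2, inner_smul_left, inner_smul_right, hCB]
      simp
    · show inner ℝ (f 2) (f 2) = 1
      rw [hf2, inner_smul_left, inner_smul_right, hCC]
      simp only [RCLike.conj_to_real]
      field_simp
      nlinarith [hs2]
  -- extend to an orthonormal basis
  have hcard : Module.finrank ℝ E3 = Fintype.card (Fin 3) := by simp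
  obtain ⟨b, hb⟩ := Orthonormal.exists_orthonormalBasis_extension_of_card_eq (𝕜 := ℝ) (E := E3)
    hcard (v := f) (s := Set.univ) (hon.comp _ Subtype.val_injective)
  have hb0 : b 0 = f 0 := hb 0 (Set.mem_univ _)
  have hb1 : b 1 = f 1 := hb 1 (Set.mem_univ _)
  have hb2 : b 2 = f 2 := hb 2 (Set.mem_univ _)
  have hU : ∀ x : E3, b.repr.symm x = x 0 • f 0 + x 1 • f 1 + x 2 • f 2 := by
    intro x
    rw [← b.sum_repr_symm, Fin.sum_univ_three, hb0, hb1, hb2]
  refine ⟨b.repr.symm, (1 / 2 : ℝ) • (w 0 + w 1), ?_⟩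
  rw [K0, sim_image_convexHull, range_fin4]
  congr 1
  simp only [Set.image_insert_eq, Set.image_singleton]
  have e0 : sim b.repr.symm ((1 / 2 : ℝ) • (w 0 + w 1)) (ℓ / 2) !₂[1, 0, 0] = w 0 := by
    rw [sim, hU, hf0, hf1, hf2]
    simp only [hA, hB, hC]
    simp
    match_scalars <;> field_simp <;> ring
  have e1 : sim b.repr.symm ((1 / 2 : ℝ) • (w 0 + w 1)) (ℓ / 2) !₂[-1, 0, 0] = w 1 := by
    rw [sim, hU, hf0, hf1, hf2]
    simp only [hA, hB, hC]
    simp
    match_scalars <;> field_simp <;> ring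
  have e2 : sim b.repr.symm ((1 / 2 : ℝ) • (w 0 + w 1)) (ℓ / 2) !₂[0, 1, Real.sqrt 2] = w 2 := by
    rw [sim, hU, hf0, hf1, hf2]
    simp only [hA, hB, hC]
    simp
    match_scalars <;> field_simp <;> ring
  have e3 : sim b.repr.symm ((1 / 2 : ℝ) • (w 0 + w 1)) (ℓ / 2) !₂[0, -1, Real.sqrt 2] = w 3 := by
    rw [sim, hU, hf0, hf1, hf2]
    simp only [hA, hB, hC]
    simp
    match_scalars <;> field_simp <;> ring
  rw [e0, e1, e2, e3]

/-! ### Transport of the conclusion under a similarity -/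

lemma par_image_sim (U : E3 ≃ₗᵢ[ℝ] E3) (z : E3) (ρ : ℝ) (c a b : E3) :
    par (z + ρ • U c) (ρ • U a) (ρ • U b) = sim U z ρ '' par c a b := by
  ext x
  constructor
  · rintro ⟨s, hs, t, ht, rfl⟩
    refine ⟨c + s • a + t • b, ⟨s, hs, t, ht, rfl⟩, ?_⟩
    simp only [sim, map_add, map_smul]
    module
  · rintro ⟨y, ⟨s, hs, t, ht, rfl⟩, rfl⟩
    refine ⟨s, hs, t, ht, ?_⟩
    simp only [sim, map_add, map_smul]
    module

lemma inner_sim_proj (U : E3 ≃ₗᵢ[ℝ] E3) (z : E3) (ρ : ℝ) {u : E3} (hu : ‖u‖ = 1) (y : E3) :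
    inner ℝ (sim U (proj (U u) z) ρ y) (U u) = ρ * inner ℝ y u := by
  have h1 : ‖U u‖ = 1 := by rw [U.norm_map, hu]
  rw [sim, inner_add_left, inner_proj_self h1, inner_smul_left, U.inner_map_map]
  simp

lemma sim_add_smul (U : E3 ≃ₗᵢ[ℝ] E3) (z : E3) (ρ : ℝ) (u y : E3) (τ : ℝ) :
    sim U z ρ (y + τ • u) = sim U (proj (U u) z) ρ y + (ρ * τ + inner ℝ z (U u)) • U u := by
  simp only [sim, proj, map_add, map_smul]
  module

lemma isBounded_image_sim (U : E3 ≃ₗᵢ[ℝ] E3) (z : E3) (ρ : ℝ) {s : Set E3}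
    (hs : Bornology.IsBounded s) : Bornology.IsBounded (sim U z ρ '' s) := by
  rw [isBounded_iff_forall_norm_le] at hs ⊢
  obtain ⟨C, hC⟩ := hs
  refine ⟨‖z‖ + |ρ| * C, ?_⟩
  rintro x ⟨y, hy, rfl⟩
  calc ‖sim U z ρ y‖ ≤ ‖z‖ + ‖ρ • U y‖ := norm_add_le _ _
    _ = ‖z‖ + |ρ| * ‖y‖ := by rw [norm_smul, U.norm_map, Real.norm_eq_abs]
    _ ≤ ‖z‖ + |ρ| * C := by
      have := hC y hy
      have h2 : 0 ≤ |ρ| := abs_nonneg ρ
      nlinarith

/-- The inverse of a similarity. -/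
def simInv (U : E3 ≃ₗᵢ[ℝ] E3) (z : E3) (ρ : ℝ) (x : E3) : E3 := U.symm (ρ⁻¹ • (x - z))

lemma simInv_sim (U : E3 ≃ₗᵢ[ℝ] E3) (z : E3) {ρ : ℝ} (hρ : ρ ≠ 0) (y : E3) :
    simInv U z ρ (sim U z ρ y) = y := by
  simp [simInv, sim, smul_smul, hρ]

lemma sim_simInv (U : E3 ≃ₗᵢ[ℝ] E3) (z : E3) {ρ : ℝ} (hρ : ρ ≠ 0) (x : E3) :
    sim U z ρ (simInv U z ρ x) = x := by
  simp [simInv, sim, smul_smul, hρ]

lemma continuous_simInv (U : E3 ≃ₗᵢ[ℝ] E3) (z : E3) (ρ : ℝ) : Continuous (simInv U z ρ) := by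
  unfold simInv
  fun_prop

lemma sim_image_eq_preimage (U : E3 ≃ₗᵢ[ℝ] E3) (z : E3) {ρ : ℝ} (hρ : ρ ≠ 0) (s : Set E3) :
    sim U z ρ '' s = simInv U z ρ ⁻¹' s := by
  ext x
  constructor
  · rintro ⟨y, hy, rfl⟩
    simpa [simInv_sim U z hρ] using hy
  · intro hx
    exact ⟨simInv U z ρ x, hx, sim_simInv U z hρ x⟩

lemma isOpen_image_sim (U : E3 ≃ₗᵢ[ℝ] E3) (z : E3) {ρ : ℝ} (hρ : ρ ≠ 0) {s : Set E3}
    (hs : IsOpen s) : IsOpen (sim U z ρ '' s) := by
  rw [sim_image_eq_preimage U z hρ]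
  exact hs.preimage (continuous_simInv U z ρ)

/-- The conclusion of S0327 is invariant under similarities. -/
theorem Concl_sim (U : E3 ≃ₗᵢ[ℝ] E3) (z : E3) {ρ : ℝ} (hρ : 0 < ρ) {K : Set E3}
    (H : Concl K) : Concl (sim U z ρ '' K) := by
  have hρ0 : ρ ≠ 0 := hρ.ne'
  have hρ2 : 0 < ρ ^ 2 := by positivity
  -- projections of the image
  have hproj : ∀ v : E3, (μHE[2] ((fun y => y - inner ℝ y v • v) '' (sim U z ρ '' K))).toReal
      = ρ ^ 2 * (μHE[2] ((fun y => y - inner ℝ y (U.symm v) • U.symm v) '' K)).toReal := by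
    intro v
    have := proj_image_sim U z ρ v K
    show (μHE[2] (proj v '' (sim U z ρ '' K))).toReal = ρ ^ 2 * (μHE[2] (proj (U.symm v) '' K)).toReal
    rw [this, hE_image_sim_toReal U _ hρ]
  obtain ⟨⟨k, u, c, a, b, hu, hperp, hcov, ⟨δ, hδ, hδv⟩, hratio⟩,
    ⟨k', u', B, hu', hB, hcov', ⟨δ', hδ', hδv'⟩, hratio'⟩⟩ := H
  refine ⟨?_, ?_⟩
  · -- parallelogram part
    have hpar : ∀ i, (μHE[2] {x : E3 | ∃ s ∈ Set.Icc (0 : ℝ) 1, ∃ t ∈ Set.Icc (0 : ℝ) 1,
        x = (proj (U (u i)) z + ρ • U (c i)) + s • (ρ • U (a i)) + t • (ρ • U (b i))}).toReal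
        = ρ ^ 2 * (μHE[2] {x : E3 | ∃ s ∈ Set.Icc (0 : ℝ) 1, ∃ t ∈ Set.Icc (0 : ℝ) 1,
        x = c i + s • a i + t • b i}).toReal := by
      intro i
      have := par_image_sim U (proj (U (u i)) z) ρ (c i) (a i) (b i)
      show (μHE[2] (par (proj (U (u i)) z + ρ • U (c i)) (ρ • U (a i)) (ρ • U (b i)))).toReal
        = ρ ^ 2 * (μHE[2] (par (c i) (a i) (b i))).toReal
      rw [this, hE_image_sim_toReal U _ hρ]
    refine ⟨k, fun i => U (u i), fun i => proj (U (u i)) z + ρ • U (c i), fun i => ρ • U (a i),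
      fun i => ρ • U (b i), ?_, ?_, ?_, ?_, ?_⟩
    · intro i
      rw [U.norm_map, hu i]
    · intro i
      have h1 : ‖U (u i)‖ = 1 := by rw [U.norm_map, hu i]
      obtain ⟨hc, ha, hb⟩ := hperp i
      refine ⟨?_, ?_, ?_⟩
      · rw [inner_add_left, inner_proj_self h1, inner_smul_left, U.inner_map_map, hc]
        simp
      · rw [inner_smul_left, U.inner_map_map, ha]
        simp
      · rw [inner_smul_left, U.inner_map_map, hb]
        simp
    · rintro x ⟨y, hy, rfl⟩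
      obtain ⟨i, hi⟩ := Set.mem_iUnion.mp (hcov hy)
      obtain ⟨s, hs, t, ht, τ, rfl⟩ := hi
      refine Set.mem_iUnion.mpr ⟨i, s, hs, t, ht, ρ * τ + inner ℝ z (U (u i)), ?_⟩
      simp only [sim, proj, map_add, map_smul]
      module
    · refine ⟨ρ ^ 2 * δ, by positivity, ?_⟩
      intro v hv
      have hv' : ‖U.symm v‖ = 1 := by rw [U.symm.norm_map, hv]
      have := hδv (U.symm v) hv'
      rw [hproj v]
      simp only [hpar]
      rw [← Finset.mul_sum]
      nlinarith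
    · simp only [hpar, hproj, U.symm_apply_apply]
      have : ∀ i, ρ ^ 2 * (μHE[2] {x : E3 | ∃ s ∈ Set.Icc (0 : ℝ) 1, ∃ t ∈ Set.Icc (0 : ℝ) 1,
          x = c i + s • a i + t • b i}).toReal /
          (ρ ^ 2 * (μHE[2] ((fun y => y - inner ℝ y (u i) • u i) '' K)).toReal)
          = (μHE[2] {x : E3 | ∃ s ∈ Set.Icc (0 : ℝ) 1, ∃ t ∈ Set.Icc (0 : ℝ) 1,
          x = c i + s • a i + t • b i}).toReal /
          (μHE[2] ((fun y => y - inner ℝ y (u i) • u i) '' K)).toReal := by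
        intro i
        exact mul_div_mul_left _ _ hρ2.ne'
      simp only [this]
      exact hratio
  · -- relatively open part
    have hBim : ∀ i, (μHE[2] (sim U (proj (U (u' i)) z) ρ '' B i)).toReal
        = ρ ^ 2 * (μHE[2] (B i)).toReal := fun i => hE_image_sim_toReal U _ hρ _
    refine ⟨k', fun i => U (u' i), fun i => sim U (proj (U (u' i)) z) ρ '' B i, ?_, ?_, ?_, ?_, ?_⟩
    · intro i
      rw [U.norm_map, hu' i]
    · intro i
      obtain ⟨hbd, O, hO, hBO⟩ := hB i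
      refine ⟨isBounded_image_sim U _ ρ hbd, sim U (proj (U (u' i)) z) ρ '' O,
        isOpen_image_sim U _ hρ0 hO, ?_⟩
      ext x
      constructor
      · rintro ⟨y, hy, rfl⟩
        rw [hBO] at hy
        refine ⟨⟨y, hy.1, rfl⟩, ?_⟩
        show inner ℝ (sim U (proj (U (u' i)) z) ρ y) (U (u' i)) = 0
        rw [inner_sim_proj U z ρ (hu' i), show inner ℝ y (u' i) = 0 from hy.2, mul_zero]
      · rintro ⟨⟨y, hy, rfl⟩, hx⟩
        refine ⟨y, ?_, rfl⟩
        rw [hBO]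
        refine ⟨hy, ?_⟩
        have hx' : inner ℝ (sim U (proj (U (u' i)) z) ρ y) (U (u' i)) = 0 := hx
        rw [inner_sim_proj U z ρ (hu' i)] at hx'
        show inner ℝ y (u' i) = 0
        exact (mul_eq_zero.mp hx').resolve_left hρ0
    · rintro x ⟨y, hy, rfl⟩
      obtain ⟨i, hi⟩ := Set.mem_iUnion.mp (hcov' hy)
      obtain ⟨y', hy', τ, rfl⟩ := hi
      refine Set.mem_iUnion.mpr ⟨i, sim U (proj (U (u' i)) z) ρ y', ⟨y', hy', rfl⟩,
        ρ * τ + inner ℝ z (U (u' i)), ?_⟩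
      exact sim_add_smul U z ρ (u' i) y' τ
    · refine ⟨ρ ^ 2 * δ', by positivity, ?_⟩
      intro v hv
      have hv' : ‖U.symm v‖ = 1 := by rw [U.symm.norm_map, hv]
      have := hδv' (U.symm v) hv'
      rw [hproj v]
      simp only [hBim]
      rw [← Finset.mul_sum]
      nlinarith
    · simp only [hBim, hproj, U.symm_apply_apply]
      have : ∀ i, ρ ^ 2 * (μHE[2] (B i)).toReal /
          (ρ ^ 2 * (μHE[2] ((fun y => y - inner ℝ y (u' i) • u' i) '' K)).toReal)
          = (μHE[2] (B i)).toReal /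
          (μHE[2] ((fun y => y - inner ℝ y (u' i) • u' i) '' K)).toReal := by
        intro i
        exact mul_div_mul_left _ _ hρ2.ne'
      simp only [this]
      exact hratio'

/-- **Transfer**: the S0327 conclusion for the standard tetrahedron implies it for every
regular tetrahedron. -/
theorem transfer (H : Concl K0) (w : Fin 4 → EuclideanSpace ℝ (Fin 3)) (ℓ : ℝ) (hℓ : 0 < ℓ)
    (hw : ∀ i j, i ≠ j → dist (w i) (w j) = ℓ) : Concl (convexHull ℝ (Set.range w)) := by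
  obtain ⟨U, z, h⟩ := exists_sim_of_regular w ℓ hℓ hw
  rw [h]
  exact Concl_sim U z (by positivity) H

end Crest.Agent.Lib_helper3_S0327

end
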