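import Mathlib
import Crest.Agent.Lib_helper3_S0327Defs
import Crest.Agent.Lib_helper21_PlanarArea

set_option autoImplicit false
set_option linter.unusedSimpArgs false
set_option linter.unusedVariables false
open MeasureTheory
open scoped ENNReal

noncomputable section

namespace Crest.Agent.Lib_helper3_S0327Tri

open Crest.Agent.Lib_helper3_S0327Defs Crest.Agent.Lib_helper21_PlanarArea

/-- A cover by cylinders over triangles with a positive area margin (the shape of S0324,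
with Lebesgue-normalised areas), for a general body `K`. -/
def TriCover (K : Set E3) : Prop :=
  ∃ (m : ℕ) (u p q r : Fin m → E3),
    (∀ i, ‖u i‖ = 1) ∧
    (∀ i, inner ℝ (p i) (u i) = 0 ∧ inner ℝ (q i) (u i) = 0 ∧ inner ℝ (r i) (u i) = 0) ∧
    K ⊆ ⋃ i, {x : E3 | ∃ b ∈ convexHull ℝ {p i, q i, r i}, ∃ t : ℝ, x = b + t • u i} ∧
    ∃ δ : ℝ, 0 < δ ∧ ∀ v : E3, ‖v‖ = 1 →
      ∑ i, (μHE[2] (convexHull ℝ {p i, q i, r i})).toReal + δ ≤
        (μHE[2] ((fun y => y - inner ℝ y v • v) '' K)).toReal / 2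

/-- The ratio clause follows from the margin clause. -/
lemma ratio_lt_half {ι : Type*} [Fintype ι] (A P : ι → ℝ) (hA : ∀ i, 0 ≤ A i) {δ : ℝ}
    (hδ : 0 < δ) (hP : ∀ i, ∑ j, A j + δ ≤ P i / 2) : ∑ i, A i / P i < 1 / 2 := by
  set S := ∑ j, A j with hS
  have hS0 : 0 ≤ S := Finset.sum_nonneg fun i _ => hA i
  have hle : ∀ i, A i / P i ≤ A i / (2 * (S + δ)) := by
    intro i
    apply div_le_div_of_nonneg_left (hA i) (by positivity) (by linarith [hP i])
  calc ∑ i, A i / P i ≤ ∑ i, A i / (2 * (S + δ)) := Finset.sum_le_sum fun i _ => hle i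
    _ = S / (2 * (S + δ)) := by rw [← Finset.sum_div]
    _ < 1 / 2 := by
      rw [div_lt_div_iff₀ (by positivity) (by norm_num)]
      linarith

lemma tri_subset_plane {u p q r : E3} (hp : inner ℝ p u = 0) (hq : inner ℝ q u = 0)
    (hr : inner ℝ r u = 0) : convexHull ℝ {p, q, r} ⊆ {x : E3 | inner ℝ x u = 0} := by
  apply convexHull_min
  · rintro x (rfl | rfl | rfl)
    · exact hp
    · exact hq
    · exact hr
  · intro x hx y hy a b ha hb hab
    have hx' : inner ℝ x u = 0 := hx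
    have hy' : inner ℝ y u = 0 := hy
    show inner ℝ (a • x + b • y) u = 0
    rw [inner_add_left, inner_smul_left, inner_smul_left, hx', hy']
    simp

lemma isBounded_tri (p q r : E3) : Bornology.IsBounded (convexHull ℝ {p, q, r}) := by
  rw [isBounded_convexHull]
  exact (Set.toFinite _).isBounded

/-- Second conjunct of `Concl` (relatively open bases) from a triangle cover. -/
theorem part2_of_triCover {K : Set E3} (H : TriCover K) :
    ∃ (k : ℕ) (u : Fin k → EuclideanSpace ℝ (Fin 3)) (B : Fin k → Set (EuclideanSpace ℝ (Fin 3))),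
      (∀ i, ‖u i‖ = 1) ∧
      (∀ i, Bornology.IsBounded (B i) ∧ ∃ O : Set (EuclideanSpace ℝ (Fin 3)), IsOpen O ∧
        B i = O ∩ {x | inner ℝ x (u i) = 0}) ∧
      K ⊆
        ⋃ i, {x : EuclideanSpace ℝ (Fin 3) | ∃ y ∈ B i, ∃ τ : ℝ, x = y + τ • u i} ∧
      (∃ δ : ℝ, 0 < δ ∧ ∀ v : EuclideanSpace ℝ (Fin 3), ‖v‖ = 1 →
        (∑ i, (μHE[2] (B i)).toReal) + δ ≤
          (μHE[2] ((fun y => y - inner ℝ y v • v) '' K)).toReal / 2) ∧
      ∑ i, (μHE[2] (B i)).toReal /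
          (μHE[2] ((fun y => y - inner ℝ y (u i) • u i) '' K)).toReal < 1 / 2 := by
  obtain ⟨m, u, p, q, r, hu, hperp, hcov, δ, hδ, hδv⟩ := H
  have hu0 : ∀ i, u i ≠ 0 := by
    intro i h
    have := hu i
    rw [h] at this
    simp at this
  obtain ⟨B, hB1, hB2, hBsum⟩ := exists_open_bases u hu0 (fun i => convexHull ℝ {p i, q i, r i})
    (fun i => isBounded_tri _ _ _)
    (fun i => tri_subset_plane (hperp i).1 (hperp i).2.1 (hperp i).2.2) (δ / 2) (by positivity)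
  have hmargin : ∀ v : E3, ‖v‖ = 1 → (∑ i, (μHE[2] (B i)).toReal) + δ / 2 ≤
      (μHE[2] ((fun y => y - inner ℝ y v • v) '' K)).toReal / 2 := by
    intro v hv
    have := hδv v hv
    linarith
  refine ⟨m, u, B, hu, hB2, ?_, ⟨δ / 2, by positivity, hmargin⟩, ?_⟩
  · intro x hx
    obtain ⟨i, b, hb, t, rfl⟩ := Set.mem_iUnion.mp (hcov hx)
    exact Set.mem_iUnion.mpr ⟨i, b, hB1 i hb, t, rfl⟩
  · exact ratio_lt_half _ _ (fun i => ENNReal.toReal_nonneg) (half_pos hδ)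
      (fun i => hmargin (u i) (hu i))

/-! ### Triangles are covered by thin parallelograms -/

lemma gram_sub_right (a b : E3) : gram a (b - a) = gram a b := by
  unfold gram
  rw [norm_sub_sq_real, inner_sub_right, real_inner_self_eq_norm_sq, real_inner_comm a b]
  ring

lemma gram_smul_smul (α β : ℝ) (a b : E3) : gram (α • a) (β • b) = (α * β) ^ 2 * gram a b := by
  unfold gram
  rw [norm_smul, norm_smul, inner_smul_left, inner_smul_right, Real.norm_eq_abs, Real.norm_eq_abs]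
  simp only [RCLike.conj_to_real]
  have h1 : |α| ^ 2 = α ^ 2 := sq_abs α
  have h2 : |β| ^ 2 = β ^ 2 := sq_abs β
  calc (|α| * ‖a‖) ^ 2 * (|β| * ‖b‖) ^ 2 - (α * (β * inner ℝ a b)) ^ 2
      = |α| ^ 2 * |β| ^ 2 * (‖a‖ ^ 2 * ‖b‖ ^ 2) - α ^ 2 * β ^ 2 * inner ℝ a b ^ 2 := by ring
    _ = (α * β) ^ 2 * (‖a‖ ^ 2 * ‖b‖ ^ 2 - inner ℝ a b ^ 2) := by rw [h1, h2]; ring

lemma sum_range_add_one (n : ℕ) : ∑ j ∈ Finset.range n, ((j : ℝ) + 1) = (n : ℝ) * (n + 1) / 2 := by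
  induction n with
  | zero => simp
  | succ k ih =>
    rw [Finset.sum_range_succ, ih]
    push_cast
    ring

/-- The `j`-th thin parallelogram of the `n`-fold subdivision of the triangle `p q r`. -/
def thinPar (p q r : E3) (n : ℕ) (j : ℕ) : Set E3 :=
  {x : E3 | ∃ s ∈ Set.Icc (0 : ℝ) 1, ∃ t ∈ Set.Icc (0 : ℝ) 1,
    x = (p + ((j : ℝ) / n) • (q - p)) + s • ((1 / (n : ℝ)) • (q - p)) +
      t • ((((j : ℝ) + 1) / n) • (r - q))}

lemma area_thinPar (p q r : E3) {n : ℕ} (hn : 0 < n) (j : ℕ) :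
    (μHE[2] (thinPar p q r n j)).toReal =
      ((j : ℝ) + 1) / (n : ℝ) ^ 2 * (2 * (μHE[2] (convexHull ℝ {p, q, r})).toReal) := by
  have hn' : (0 : ℝ) < n := by exact_mod_cast hn
  unfold thinPar
  rw [muHE2_parallelogram_toReal, muHE2_triangle_toReal, gram_smul_smul]
  have h1 : r - q = (r - p) - (q - p) := by abel
  rw [h1, gram_sub_right, Real.sqrt_mul (sq_nonneg _), Real.sqrt_sq (by positivity)]
  field_simp

lemma sum_area_thinPar (p q r : E3) {n : ℕ} (hn : 0 < n) :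
    ∑ j : Fin n, (μHE[2] (thinPar p q r n j)).toReal =
      (1 + 1 / (n : ℝ)) * (μHE[2] (convexHull ℝ {p, q, r})).toReal := by
  have hn' : (0 : ℝ) < n := by exact_mod_cast hn
  simp only [area_thinPar p q r hn]
  rw [Fin.sum_univ_eq_sum_range (fun j : ℕ => ((j : ℝ) + 1) / (n : ℝ) ^ 2 *
    (2 * (μHE[2] (convexHull ℝ {p, q, r})).toReal)) n, ← Finset.sum_mul, ← Finset.sum_div,
    sum_range_add_one]
  field_simp

lemma tri_subset_iUnion_thinPar (p q r : E3) {n : ℕ} (hn : 0 < n) :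
    convexHull ℝ {p, q, r} ⊆ ⋃ j : Fin n, thinPar p q r n j := by
  have hn' : (0 : ℝ) < n := by exact_mod_cast hn
  intro x hx
  rw [triangle_eq_image] at hx
  obtain ⟨_, ⟨y, hy, rfl⟩, rfl⟩ := hx
  obtain ⟨hs, ht, hst⟩ := hy
  set s := y 0 with hs_def
  set t := y 1 with ht_def
  have hlin : lin2 (q - p) (r - p) y = s • (q - p) + t • (r - p) := by
    simp [lin2, hs_def, ht_def]
  -- choose the strip
  have hex : ∃ j : ℕ, j < n ∧ (j : ℝ) ≤ (s + t) * n ∧ (s + t) * n ≤ (j : ℝ) + 1 := by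
    by_cases h1 : s + t < 1
    · refine ⟨⌊(s + t) * n⌋₊, ?_, ?_, ?_⟩
      · rw [Nat.floor_lt (by positivity)]
        nlinarith
      · exact Nat.floor_le (by positivity)
      · exact (Nat.lt_floor_add_one _).le
    · have h2 : s + t = 1 := le_antisymm hst (not_lt.mp h1)
      refine ⟨n - 1, Nat.sub_lt hn Nat.one_pos, ?_, ?_⟩
      · rw [h2, Nat.cast_sub hn]
        simp
      · rw [h2, Nat.cast_sub hn]
        simp
  obtain ⟨j, hjn, hj1, hj2⟩ := hex
  refine Set.mem_iUnion.mpr ⟨⟨j, hjn⟩, ?_⟩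
  have hj0 : (0 : ℝ) < (j : ℝ) + 1 := by positivity
  refine ⟨(s + t) * n - j, ⟨by linarith, by linarith⟩, t * n / ((j : ℝ) + 1), ⟨by positivity, ?_⟩, ?_⟩
  · rw [div_le_one hj0]
    nlinarith
  · show p + lin2 (q - p) (r - p) y = _
    rw [hlin]
    have e1 : (j : ℝ) / n + ((s + t) * n - j) * (1 / (n : ℝ)) = s + t := by
      field_simp
      ring
    have e2 : t * n / ((j : ℝ) + 1) * (((j : ℝ) + 1) / n) = t := by
      field_simp
    have e3 : (p + ((j : ℝ) / n) • (q - p)) + ((s + t) * n - j) • ((1 / (n : ℝ)) • (q - p)) +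
        (t * n / ((j : ℝ) + 1)) • ((((j : ℝ) + 1) / n) • (r - q))
        = p + ((j : ℝ) / n + ((s + t) * n - j) * (1 / (n : ℝ))) • (q - p) +
          (t * n / ((j : ℝ) + 1) * (((j : ℝ) + 1) / n)) • (r - q) := by
      module
    rw [e3, e1, e2]
    module

/-- First conjunct of `Concl` (parallelogram bases) from a triangle cover. -/
theorem part1_of_triCover {K : Set E3} (H : TriCover K) :
    ∃ (k : ℕ) (u c a b : Fin k → EuclideanSpace ℝ (Fin 3)),
      (∀ i, ‖u i‖ = 1) ∧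
      (∀ i, inner ℝ (c i) (u i) = 0 ∧ inner ℝ (a i) (u i) = 0 ∧ inner ℝ (b i) (u i) = 0) ∧
      K ⊆ ⋃ i, {x : EuclideanSpace ℝ (Fin 3) |
        ∃ s ∈ Set.Icc (0 : ℝ) 1, ∃ t ∈ Set.Icc (0 : ℝ) 1, ∃ τ : ℝ, x = c i + s • a i + t • b i + τ • u i} ∧
      (∃ δ : ℝ, 0 < δ ∧ ∀ v : EuclideanSpace ℝ (Fin 3), ‖v‖ = 1 →
        (∑ i, (μHE[2] {x : EuclideanSpace ℝ (Fin 3) |
            ∃ s ∈ Set.Icc (0 : ℝ) 1, ∃ t ∈ Set.Icc (0 : ℝ) 1, x = c i + s • a i + t • b i}).toReal) + δ ≤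
          (μHE[2] ((fun y => y - inner ℝ y v • v) '' K)).toReal / 2) ∧
      ∑ i, (μHE[2] {x : EuclideanSpace ℝ (Fin 3) |
            ∃ s ∈ Set.Icc (0 : ℝ) 1, ∃ t ∈ Set.Icc (0 : ℝ) 1, x = c i + s • a i + t • b i}).toReal /
          (μHE[2] ((fun y => y - inner ℝ y (u i) • u i) '' K)).toReal < 1 / 2 := by
  obtain ⟨m, u, p, q, r, hu, hperp, hcov, δ, hδ, hδv⟩ := H
  set S : ℝ := ∑ i, (μHE[2] (convexHull ℝ {p i, q i, r i})).toReal with hS
  have hS0 : 0 ≤ S := Finset.sum_nonneg fun i _ => ENNReal.toReal_nonneg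
  -- the number of strips
  set n : ℕ := ⌈2 * S / δ⌉₊ + 1 with hn_def
  have hn : 0 < n := Nat.succ_pos _
  have hn' : (0 : ℝ) < n := by exact_mod_cast hn
  have hSn : S / n ≤ δ / 2 := by
    have h1 : 2 * S / δ ≤ (n : ℝ) := by
      have := Nat.le_ceil (2 * S / δ)
      rw [hn_def]
      push_cast
      linarith
    rw [div_le_iff₀ hn']
    rw [div_le_iff₀ hδ] at h1
    nlinarith
  let e : Fin m × Fin n ≃ Fin (m * n) := finProdFinEquiv
  -- total area of the thin parallelograms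
  have hsum : ∑ idx : Fin (m * n), (μHE[2] (thinPar (p (e.symm idx).1) (q (e.symm idx).1)
      (r (e.symm idx).1) n ((e.symm idx).2 : ℕ))).toReal = (1 + 1 / (n : ℝ)) * S := by
    rw [Equiv.sum_comp e.symm (fun ij : Fin m × Fin n =>
      (μHE[2] (thinPar (p ij.1) (q ij.1) (r ij.1) n (ij.2 : ℕ))).toReal), Fintype.sum_prod_type]
    simp only [sum_area_thinPar _ _ _ hn]
    rw [← Finset.mul_sum]
  have hmargin : ∀ v : E3, ‖v‖ = 1 →
      (∑ idx : Fin (m * n), (μHE[2] (thinPar (p (e.symm idx).1) (q (e.symm idx).1)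
      (r (e.symm idx).1) n ((e.symm idx).2 : ℕ))).toReal) + δ / 2 ≤
      (μHE[2] ((fun y => y - inner ℝ y v • v) '' K)).toReal / 2 := by
    intro v hv
    have h1 := hδv v hv
    rw [hsum]
    have h2 : (1 + 1 / (n : ℝ)) * S = S + S / n := by
      field_simp
    rw [h2]
    linarith
  refine ⟨m * n, fun idx => u (e.symm idx).1,
    fun idx => p (e.symm idx).1 + ((((e.symm idx).2 : ℕ) : ℝ) / n) • (q (e.symm idx).1 - p (e.symm idx).1),
    fun idx => (1 / (n : ℝ)) • (q (e.symm idx).1 - p (e.symm idx).1),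
    fun idx => (((((e.symm idx).2 : ℕ) : ℝ) + 1) / n) • (r (e.symm idx).1 - q (e.symm idx).1),
    fun idx => hu _, ?_, ?_, ⟨δ / 2, by positivity, hmargin⟩, ?_⟩
  · intro idx
    obtain ⟨hp, hq, hr⟩ := hperp (e.symm idx).1
    refine ⟨?_, ?_, ?_⟩
    · simp only [inner_add_left, inner_smul_left, inner_sub_left, hp, hq, hr]
      simp
    · simp only [inner_add_left, inner_smul_left, inner_sub_left, hp, hq, hr]
      simp
    · simp only [inner_add_left, inner_smul_left, inner_sub_left, hp, hq, hr]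
      simp
  · intro x hx
    obtain ⟨i, b, hb, τ, rfl⟩ := Set.mem_iUnion.mp (hcov hx)
    obtain ⟨j, hj⟩ := Set.mem_iUnion.mp (tri_subset_iUnion_thinPar (p i) (q i) (r i) hn hb)
    obtain ⟨s, hs, t, ht, rfl⟩ := hj
    refine Set.mem_iUnion.mpr ⟨e (i, j), s, hs, t, ht, τ, ?_⟩
    simp only [Equiv.symm_apply_apply]
  · exact ratio_lt_half _ _ (fun i => ENNReal.toReal_nonneg) (half_pos hδ)
      (fun idx => hmargin (u (e.symm idx).1) (hu _))

/-- A triangle cover with margin yields the full conclusion of S0327 for the body. -/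
theorem concl_of_triCover {K : Set E3} (H : TriCover K) : Concl K :=
  ⟨part1_of_triCover H, part2_of_triCover H⟩

/-- From the statement of S0324 (raw Hausdorff measure `μH[2]`) to a triangle cover of the
standard tetrahedron with Lebesgue-normalised areas. -/
theorem triCover_K0_of_S0324
    (H : ∃ (m : ℕ) (u p q r : Fin m → EuclideanSpace ℝ (Fin 3)),
      (∀ i, ‖u i‖ = 1) ∧
      (∀ i, inner ℝ (p i) (u i) = 0 ∧ inner ℝ (q i) (u i) = 0 ∧ inner ℝ (r i) (u i) = 0) ∧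
      convexHull ℝ {!₂[1, 0, 0], !₂[-1, 0, 0], !₂[0, 1, Real.sqrt 2], !₂[0, -1, Real.sqrt 2]} ⊆
        ⋃ i, {x : EuclideanSpace ℝ (Fin 3) | ∃ b ∈ convexHull ℝ {p i, q i, r i}, ∃ t : ℝ, x = b + t • u i} ∧
      ∃ δ : ℝ, 0 < δ ∧ ∀ v : EuclideanSpace ℝ (Fin 3), ‖v‖ = 1 →
        ∑ i, (μH[(2 : ℝ)] (convexHull ℝ {p i, q i, r i})).toReal + δ ≤
          (μH[(2 : ℝ)] ((fun y => y - inner ℝ y v • v) '' convexHull ℝ {!₂[1, 0, 0], !₂[-1, 0, 0], !₂[0, 1, Real.sqrt 2], !₂[0, -1, Real.sqrt 2]})).toReal / 2) :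
    TriCover K0 := by
  obtain ⟨k, hk, hkeq⟩ := exists_muH2_eq
  obtain ⟨m, u, p, q, r, hu, hperp, hcov, δ, hδ, hδv⟩ := H
  refine ⟨m, u, p, q, r, hu, hperp, hcov, δ / k, by positivity, fun v hv => ?_⟩
  have h1 := hδv v hv
  simp only [hkeq] at h1
  rw [← Finset.mul_sum] at h1
  have h2 : k * (∑ i, (μHE[2] (convexHull ℝ {p i, q i, r i})).toReal + δ / k) ≤
      k * ((μHE[2] ((fun y => y - inner ℝ y v • v) '' K0)).toReal / 2) := by
    rw [mul_add, mul_div_cancel₀ _ hk.ne']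
    have h3 : k * ((μHE[2] ((fun y => y - inner ℝ y v • v) '' K0)).toReal / 2) =
        k * (μHE[2] ((fun y => y - inner ℝ y v • v) '' convexHull ℝ {!₂[1, 0, 0], !₂[-1, 0, 0],
          !₂[0, 1, Real.sqrt 2], !₂[0, -1, Real.sqrt 2]})).toReal / 2 := by
      rw [mul_div_assoc]
      rfl
    rw [h3]
    exact h1
  exact le_of_mul_le_mul_left h2 hk

/-- The conclusion of S0327 for the standard tetrahedron, from the statement of S0324. -/
theorem std_of_S0324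
    (H : ∃ (m : ℕ) (u p q r : Fin m → EuclideanSpace ℝ (Fin 3)),
      (∀ i, ‖u i‖ = 1) ∧
      (∀ i, inner ℝ (p i) (u i) = 0 ∧ inner ℝ (q i) (u i) = 0 ∧ inner ℝ (r i) (u i) = 0) ∧
      convexHull ℝ {!₂[1, 0, 0], !₂[-1, 0, 0], !₂[0, 1, Real.sqrt 2], !₂[0, -1, Real.sqrt 2]} ⊆
        ⋃ i, {x : EuclideanSpace ℝ (Fin 3) | ∃ b ∈ convexHull ℝ {p i, q i, r i}, ∃ t : ℝ, x = b + t • u i} ∧
      ∃ δ : ℝ, 0 < δ ∧ ∀ v : EuclideanSpace ℝ (Fin 3), ‖v‖ = 1 →
        ∑ i, (μH[(2 : ℝ)] (convexHull ℝ {p i, q i, r i})).toReal + δ ≤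
          (μH[(2 : ℝ)] ((fun y => y - inner ℝ y v • v) '' convexHull ℝ {!₂[1, 0, 0], !₂[-1, 0, 0], !₂[0, 1, Real.sqrt 2], !₂[0, -1, Real.sqrt 2]})).toReal / 2) :
    Concl K0 :=
  concl_of_triCover (triCover_K0_of_S0324 H)

end Crest.Agent.Lib_helper3_S0327Tri

end
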