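import Mathlib

set_option autoImplicit false

namespace Crest.Agent.Lib_helper6_Sq1

/-- Lattice lemma: the lattice generated by `(1, t₂)` and `(t₁, 1)` together with the unit square
covers the plane when `0 ≤ t₁ t₂ < 1`. -/
theorem lattice_cover (x y t₁ t₂ : ℝ) (h0 : 0 ≤ t₁ * t₂) (h1 : t₁ * t₂ < 1) :
    ∃ j k : ℤ, 0 ≤ x - j - t₁ * k ∧ x - j - t₁ * k < 1 ∧ 0 ≤ y - k - t₂ * j ∧ y - k - t₂ * j < 1 := by
  set jf : ℤ → ℤ := fun k => ⌊x - t₁ * k⌋ with hjf
  set F : ℤ → ℝ := fun k => (k : ℝ) + t₂ * (jf k : ℝ) with hF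
  have hpos : 0 < 1 - t₁ * t₂ := by linarith
  -- floor bounds
  have hfl : ∀ k : ℤ, (jf k : ℝ) ≤ x - t₁ * k ∧ x - t₁ * k < jf k + 1 := by
    intro k
    exact ⟨Int.floor_le _, Int.lt_floor_add_one _⟩
  -- increments are at most one
  have hinc : ∀ k : ℤ, F (k + 1) ≤ F k + 1 := by
    intro k
    have key : t₂ * ((jf (k + 1) : ℝ) - (jf k : ℝ)) ≤ 0 := by
      rcases mul_nonneg_iff.mp h0 with ⟨ht1, ht2⟩ | ⟨ht1, ht2⟩
      · have hle : jf (k + 1) ≤ jf k := by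
          apply Int.floor_le_floor
          push_cast
          nlinarith
        have : ((jf (k + 1) : ℝ) - (jf k : ℝ)) ≤ 0 := by
          have : (jf (k + 1) : ℝ) ≤ (jf k : ℝ) := by exact_mod_cast hle
          linarith
        exact mul_nonpos_of_nonneg_of_nonpos ht2 this
      · have hle : jf k ≤ jf (k + 1) := by
          apply Int.floor_le_floor
          push_cast
          nlinarith
        have : 0 ≤ ((jf (k + 1) : ℝ) - (jf k : ℝ)) := by
          have : (jf k : ℝ) ≤ (jf (k + 1) : ℝ) := by exact_mod_cast hle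
          linarith
        exact mul_nonpos_of_nonpos_of_nonneg ht2 this
    simp only [hF]
    push_cast
    nlinarith
  -- two-sided bound on F
  have hFb : ∀ k : ℤ, |F k - ((k : ℝ) * (1 - t₁ * t₂) + t₂ * x)| ≤ |t₂| := by
    intro k
    obtain ⟨h1', h2'⟩ := hfl k
    have e : F k - ((k : ℝ) * (1 - t₁ * t₂) + t₂ * x) = t₂ * ((jf k : ℝ) - (x - t₁ * k)) := by
      simp only [hF]; ring
    rw [e, abs_mul]
    have : |(jf k : ℝ) - (x - t₁ * k)| ≤ 1 := by
      rw [abs_le]; constructor <;> linarith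
    calc |t₂| * |(jf k : ℝ) - (x - t₁ * k)| ≤ |t₂| * 1 := by
          exact mul_le_mul_of_nonneg_left this (abs_nonneg _)
      _ = |t₂| := by ring
  -- the set of k with F k > y - 1 is nonempty and bounded below
  have hne : ∃ k : ℤ, y - 1 < F k := by
    obtain ⟨n, hn⟩ := exists_int_gt ((y - 1 - t₂ * x + |t₂|) / (1 - t₁ * t₂))
    refine ⟨n, ?_⟩
    have h3 := hFb n
    rw [abs_le] at h3
    have : y - 1 - t₂ * x + |t₂| < (n : ℝ) * (1 - t₁ * t₂) := by
      rwa [div_lt_iff₀ hpos] at hn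
    linarith [h3.1]
  have hbdd : ∃ b : ℤ, ∀ k : ℤ, y - 1 < F k → b ≤ k := by
    obtain ⟨n, hn⟩ := exists_int_lt ((y - 1 - t₂ * x - |t₂|) / (1 - t₁ * t₂))
    refine ⟨n, ?_⟩
    intro k hk
    by_contra hlt
    push Not at hlt
    have h3 := hFb k
    rw [abs_le] at h3
    have h4 : (n : ℝ) * (1 - t₁ * t₂) < y - 1 - t₂ * x - |t₂| := by
      rwa [lt_div_iff₀ hpos] at hn
    have h5 : (k : ℝ) ≤ (n : ℝ) := by exact_mod_cast hlt.le
    have h6 : (k : ℝ) * (1 - t₁ * t₂) ≤ (n : ℝ) * (1 - t₁ * t₂) :=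
      mul_le_mul_of_nonneg_right h5 hpos.le
    linarith [h3.2]
  obtain ⟨k₀, hk₀, hmin⟩ := Int.exists_least_of_bdd hbdd hne
  have hprev : F (k₀ - 1) ≤ y - 1 := by
    by_contra hcon
    push Not at hcon
    have := hmin (k₀ - 1) hcon
    omega
  have hle : F k₀ ≤ y := by
    have := hinc (k₀ - 1)
    simp only [sub_add_cancel] at this
    linarith
  obtain ⟨h1', h2'⟩ := hfl k₀
  refine ⟨jf k₀, k₀, by linarith, by linarith, ?_, ?_⟩
  · simp only [hF] at hle; linarith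
  · simp only [hF] at hk₀; linarith


open scoped RealInnerProductSpace

/-- the plane -/
abbrev E2 : Type := EuclideanSpace ℝ (Fin 2)

/-- standard orthonormal basis of the plane -/
noncomputable def sb : OrthonormalBasis (Fin 2) ℝ E2 := EuclideanSpace.basisFun (Fin 2) ℝ

/-- rotated frame, first vector -/
noncomputable def fa (θ : ℝ) : E2 := Real.cos θ • sb 0 + Real.sin θ • sb 1

/-- rotated frame, second vector -/
noncomputable def fb (θ : ℝ) : E2 := (-Real.sin θ) • sb 0 + Real.cos θ • sb 1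

theorem sb_inner (i j : Fin 2) : ⟪sb i, sb j⟫ = if i = j then 1 else 0 :=
  orthonormal_iff_ite.mp sb.orthonormal i j

theorem frame_orthonormal (θ : ℝ) : Orthonormal ℝ ![fa θ, fb θ] := by
  rw [orthonormal_iff_ite]
  have hcs := Real.cos_sq_add_sin_sq θ
  intro i j
  fin_cases i <;> fin_cases j <;>
    simp only [fa, fb, inner_add_left, inner_add_right, inner_smul_left, inner_smul_right, sb_inner,
      Fin.zero_eta, Fin.mk_one, Matrix.cons_val_zero, Matrix.cons_val_one, Matrix.cons_val_fin_one,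
      RCLike.conj_to_real] <;>
    simp <;> nlinarith

theorem exists_frame_basis (θ : ℝ) :
    ∃ ob : OrthonormalBasis (Fin 2) ℝ E2, ob 0 = fa θ ∧ ob 1 = fb θ := by
  have hon := frame_orthonormal θ
  have hsp : ⊤ ≤ Submodule.span ℝ (Set.range ![fa θ, fb θ]) := by
    rw [hon.linearIndependent.span_eq_top_of_card_eq_finrank' (by simp)]
  refine ⟨OrthonormalBasis.mk hon hsp, ?_, ?_⟩ <;> simp

theorem trace_frame (A : E2 →L[ℝ] E2) (htr : LinearMap.trace ℝ E2 A.toLinearMap = 0)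
    (ob : OrthonormalBasis (Fin 2) ℝ E2) :
    ⟪ob 0, A (ob 0)⟫ + ⟪ob 1, A (ob 1)⟫ = 0 := by
  have := LinearMap.trace_eq_sum_inner A.toLinearMap ob
  rw [htr, Fin.sum_univ_two] at this
  simpa using this.symm

/-- A traceless operator on the plane has zero diagonal in a suitable orthonormal frame. -/
theorem exists_frame (A : E2 →L[ℝ] E2) (htr : LinearMap.trace ℝ E2 A.toLinearMap = 0) :
    ∃ ob : OrthonormalBasis (Fin 2) ℝ E2,
      ⟪ob 0, A (ob 0)⟫ = 0 ∧ ⟪ob 1, A (ob 1)⟫ = 0 := by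
  set f : ℝ → ℝ := fun θ => ⟪fa θ, A (fa θ)⟫ with hf
  have hcont : Continuous f := by
    simp only [hf, fa]
    fun_prop
  have h0 : f 0 = ⟪sb 0, A (sb 0)⟫ := by simp [hf, fa]
  have h1 : f (Real.pi / 2) = ⟪sb 1, A (sb 1)⟫ := by simp [hf, fa]
  have hs : f 0 + f (Real.pi / 2) = 0 := by
    rw [h0, h1]; exact trace_frame A htr sb
  have hmem : (0 : ℝ) ∈ Set.uIcc (f 0) (f (Real.pi / 2)) := by
    rw [Set.mem_uIcc]
    rcases le_total (f 0) 0 with h | h
    · left; constructor <;> linarith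
    · right; constructor <;> linarith
  obtain ⟨θ, -, hθ⟩ := intermediate_value_uIcc hcont.continuousOn hmem
  obtain ⟨ob, hob0, hob1⟩ := exists_frame_basis θ
  have hz : ⟪ob 0, A (ob 0)⟫ = 0 := by rw [hob0]; exact hθ
  refine ⟨ob, hz, ?_⟩
  have := trace_frame A htr ob
  linarith

/-- Structure of a traceless operator in a frame with zero diagonal. -/
theorem frame_apply (A : E2 →L[ℝ] E2) (ob : OrthonormalBasis (Fin 2) ℝ E2)
    (h0 : ⟪ob 0, A (ob 0)⟫ = 0) (h1 : ⟪ob 1, A (ob 1)⟫ = 0) :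
    A (ob 0) = ⟪ob 1, A (ob 0)⟫ • ob 1 ∧ A (ob 1) = ⟪ob 0, A (ob 1)⟫ • ob 0 ∧
      LinearMap.det A.toLinearMap = -(⟪ob 0, A (ob 1)⟫ * ⟪ob 1, A (ob 0)⟫) := by
  refine ⟨?_, ?_, ?_⟩
  · have := ob.sum_repr' (A (ob 0))
    rw [Fin.sum_univ_two, h0] at this
    simpa using this.symm
  · have := ob.sum_repr' (A (ob 1))
    rw [Fin.sum_univ_two, h1] at this
    simpa using this.symm
  · rw [← LinearMap.det_toMatrix ob.toBasis A.toLinearMap, Matrix.det_fin_two]
    simp only [LinearMap.toMatrix_apply, OrthonormalBasis.coe_toBasis,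
      OrthonormalBasis.coe_toBasis_repr_apply, OrthonormalBasis.repr_apply_apply,
      ContinuousLinearMap.coe_coe]
    rw [h0, h1]
    ring

/-- expansion of a vector in an orthonormal frame of the plane -/
theorem frame_expand (ob : OrthonormalBasis (Fin 2) ℝ E2) (v : E2) :
    v = ⟪ob 0, v⟫ • ob 0 + ⟪ob 1, v⟫ • ob 1 := by
  have := ob.sum_repr' v
  rw [Fin.sum_univ_two] at this
  exact this.symm

theorem frame_inner (ob : OrthonormalBasis (Fin 2) ℝ E2) (i j : Fin 2) :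
    ⟪ob i, ob j⟫ = if i = j then 1 else 0 :=
  orthonormal_iff_ite.mp ob.orthonormal i j

/-- norm in a frame -/
theorem frame_norm_sq (ob : OrthonormalBasis (Fin 2) ℝ E2) (x y : ℝ) :
    ‖x • ob 0 + y • ob 1‖ ^ 2 = x ^ 2 + y ^ 2 := by
  rw [← real_inner_self_eq_norm_sq]
  simp only [inner_add_left, inner_add_right, inner_smul_left, inner_smul_right, frame_inner,
    RCLike.conj_to_real]
  simp
  ring

/-- the cost weight -/
noncomputable def Jf (h : ℝ) (v : E2) : ℝ := 1 / Real.sqrt (1 + (v 0) ^ 2 + h ^ 2 * (v 1) ^ 2)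

theorem Jf_pos (h : ℝ) (v : E2) : 0 < Jf h v := by
  unfold Jf
  have : 0 < 1 + (v 0) ^ 2 + h ^ 2 * (v 1) ^ 2 := by positivity
  positivity

theorem one_le_sqrt_aux (h : ℝ) (v : E2) :
    1 ≤ Real.sqrt (1 + (v 0) ^ 2 + h ^ 2 * (v 1) ^ 2) := by
  rw [Real.le_sqrt (by norm_num) (by positivity)]
  nlinarith [sq_nonneg (v 0), sq_nonneg (h * v 1)]

theorem Jf_le_one (h : ℝ) (v : E2) : Jf h v ≤ 1 := by
  unfold Jf
  have h1 := one_le_sqrt_aux h v
  rw [div_le_one (by linarith)]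
  exact h1

theorem Jf_lipschitz (h : ℝ) (hh : 0 < h) (u v : E2) :
    |Jf h u - Jf h v| ≤ (1 + h) * ‖u - v‖ := by
  have hNu1 := one_le_sqrt_aux h u
  have hNv1 := one_le_sqrt_aux h v
  unfold Jf
  set Nu := Real.sqrt (1 + (u 0) ^ 2 + h ^ 2 * (u 1) ^ 2) with hNu
  set Nv := Real.sqrt (1 + (v 0) ^ 2 + h ^ 2 * (v 1) ^ 2) with hNv
  have hu_pos : 0 ≤ 1 + (u 0) ^ 2 + h ^ 2 * (u 1) ^ 2 := by positivity
  have hv_pos : 0 ≤ 1 + (v 0) ^ 2 + h ^ 2 * (v 1) ^ 2 := by positivity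
  have hNu2 : Nu ^ 2 = 1 + (u 0) ^ 2 + h ^ 2 * (u 1) ^ 2 := Real.sq_sqrt hu_pos
  have hNv2 : Nv ^ 2 = 1 + (v 0) ^ 2 + h ^ 2 * (v 1) ^ 2 := Real.sq_sqrt hv_pos
  have hu0 : |u 0| ≤ Nu := Real.abs_le_sqrt (by nlinarith [sq_nonneg (h * u 1)])
  have hv0 : |v 0| ≤ Nv := Real.abs_le_sqrt (by nlinarith [sq_nonneg (h * v 1)])
  have hu1 : h * |u 1| ≤ Nu := by
    have : |h * u 1| ≤ Nu := Real.abs_le_sqrt (by nlinarith [sq_nonneg (u 0)])
    rwa [abs_mul, abs_of_pos hh] at this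
  have hv1 : h * |v 1| ≤ Nv := by
    have : |h * v 1| ≤ Nv := Real.abs_le_sqrt (by nlinarith [sq_nonneg (v 0)])
    rwa [abs_mul, abs_of_pos hh] at this
  have hd0 : |u 0 - v 0| ≤ ‖u - v‖ := by
    have := PiLp.norm_apply_le (u - v) 0
    simpa [Real.norm_eq_abs] using this
  have hd1 : |u 1 - v 1| ≤ ‖u - v‖ := by
    have := PiLp.norm_apply_le (u - v) 1
    simpa [Real.norm_eq_abs] using this
  have hsum_pos : 0 < Nu + Nv := by linarith
  have e : (Nu - Nv) * (Nu + Nv)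
      = (u 0 - v 0) * (u 0 + v 0) + h ^ 2 * ((u 1 - v 1) * (u 1 + v 1)) := by
    have : (Nu - Nv) * (Nu + Nv) = Nu ^ 2 - Nv ^ 2 := by ring
    rw [this, hNu2, hNv2]; ring
  have key : |Nu - Nv| ≤ |u 0 - v 0| + h * |u 1 - v 1| := by
    have h1 : |Nu - Nv| * (Nu + Nv) = |(Nu - Nv) * (Nu + Nv)| := by
      rw [abs_mul, abs_of_pos hsum_pos]
    have h2 : |(u 0 - v 0) * (u 0 + v 0) + h ^ 2 * ((u 1 - v 1) * (u 1 + v 1))|
        ≤ |u 0 - v 0| * (Nu + Nv) + h * |u 1 - v 1| * (Nu + Nv) := by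
      have a1 : |(u 0 - v 0) * (u 0 + v 0)| ≤ |u 0 - v 0| * (Nu + Nv) := by
        rw [abs_mul]
        apply mul_le_mul_of_nonneg_left _ (abs_nonneg _)
        calc |u 0 + v 0| ≤ |u 0| + |v 0| := abs_add_le _ _
          _ ≤ Nu + Nv := by linarith
      have a2 : |h ^ 2 * ((u 1 - v 1) * (u 1 + v 1))| ≤ h * |u 1 - v 1| * (Nu + Nv) := by
        rw [abs_mul, abs_mul, abs_of_pos (by positivity : (0:ℝ) < h ^ 2)]
        have : h * |u 1 + v 1| ≤ Nu + Nv := by
          calc h * |u 1 + v 1| ≤ h * (|u 1| + |v 1|) :=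
                mul_le_mul_of_nonneg_left (abs_add_le _ _) hh.le
            _ ≤ Nu + Nv := by linarith
        calc h ^ 2 * (|u 1 - v 1| * |u 1 + v 1|) = (h * |u 1 - v 1|) * (h * |u 1 + v 1|) := by ring
          _ ≤ (h * |u 1 - v 1|) * (Nu + Nv) :=
                mul_le_mul_of_nonneg_left this (by positivity)
      calc _ ≤ |(u 0 - v 0) * (u 0 + v 0)| + |h ^ 2 * ((u 1 - v 1) * (u 1 + v 1))| := abs_add_le _ _
        _ ≤ _ := by linarith
    have h3 : |Nu - Nv| * (Nu + Nv) ≤ (|u 0 - v 0| + h * |u 1 - v 1|) * (Nu + Nv) := by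
      rw [h1, e]; linarith
    exact le_of_mul_le_mul_right h3 hsum_pos
  have hNu_ne : Nu ≠ 0 := by linarith
  have hNv_ne : Nv ≠ 0 := by linarith
  have hfin : |1 / Nu - 1 / Nv| ≤ |Nu - Nv| := by
    rw [div_sub_div _ _ hNu_ne hNv_ne, abs_div]
    have h1 : (1 : ℝ) ≤ |Nu * Nv| := by
      rw [abs_of_pos (by positivity)]; nlinarith
    have h2 : |1 * Nv - Nu * 1| = |Nu - Nv| := by
      rw [← abs_neg]; congr 1; ring
    rw [h2]
    exact div_le_self (abs_nonneg _) h1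
  calc |1 / Nu - 1 / Nv| ≤ |Nu - Nv| := hfin
    _ ≤ |u 0 - v 0| + h * |u 1 - v 1| := key
    _ ≤ ‖u - v‖ + h * ‖u - v‖ := by
        have := mul_le_mul_of_nonneg_left hd1 hh.le
        linarith
    _ = (1 + h) * ‖u - v‖ := by ring

end Crest.Agent.Lib_helper6_Sq1
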