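import Mathlib
import Crest.Agent.Lib_helper6_Sq1

set_option autoImplicit false

namespace Crest.Agent.Lib_helper6_Sq2

open Crest.Agent.Lib_helper6_Sq1
open scoped RealInnerProductSpace

/-- lattice point -/
noncomputable def latPt (p₀ : E2) (σ : ℝ) (ob : OrthonormalBasis (Fin 2) ℝ E2) (j k : ℤ) : E2 :=
  p₀ + σ • ((j : ℝ) • ob 0 + (k : ℝ) • ob 1)

theorem norm_le_of_sq_le {x c : ℝ} (hc : 0 ≤ c) (h : x ^ 2 ≤ c ^ 2) (_hx : 0 ≤ x) : x ≤ c := by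
  nlinarith

/-- bound for the solution of a 2x2 system -/
theorem solve_bound (t₁ t₂ dx dy θ LM C₀ : ℝ) (hθ : 0 < θ) (hden : θ ≤ 1 - t₁ * t₂)
    (habs1 : |t₁| ≤ LM) (hX0 : 0 ≤ dx + t₁ * dy) (hX1 : dx + t₁ * dy < 1)
    (hY0 : 0 ≤ dy + t₂ * dx) (hY1 : dy + t₂ * dx < 1) (hC₀ : (1 + LM) / θ ≤ C₀) :
    |dx| ≤ C₀ := by
  have hLM : 0 ≤ LM := le_trans (abs_nonneg _) habs1
  have e : (1 - t₁ * t₂) * dx = (dx + t₁ * dy) - t₁ * (dy + t₂ * dx) := by ring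
  have hXa : |dx + t₁ * dy| ≤ 1 := by rw [abs_le]; constructor <;> linarith
  have hYa : |dy + t₂ * dx| ≤ 1 := by rw [abs_le]; constructor <;> linarith
  have h1 : |(dx + t₁ * dy) - t₁ * (dy + t₂ * dx)| ≤ 1 + LM := by
    calc |(dx + t₁ * dy) - t₁ * (dy + t₂ * dx)|
        ≤ |dx + t₁ * dy| + |t₁ * (dy + t₂ * dx)| := abs_sub _ _
      _ = |dx + t₁ * dy| + |t₁| * |dy + t₂ * dx| := by rw [abs_mul]
      _ ≤ 1 + LM * 1 := by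
          have := mul_le_mul habs1 hYa (abs_nonneg _) hLM
          linarith
      _ = 1 + LM := by ring
  have hpos : (0 : ℝ) < 1 - t₁ * t₂ := by linarith
  have h2 : θ * |dx| ≤ 1 + LM := by
    calc θ * |dx| ≤ (1 - t₁ * t₂) * |dx| := mul_le_mul_of_nonneg_right hden (abs_nonneg _)
      _ = |(1 - t₁ * t₂) * dx| := by rw [abs_mul, abs_of_pos hpos]
      _ ≤ 1 + LM := by rw [e]; exact h1
  calc |dx| ≤ (1 + LM) / θ := by rw [le_div_iff₀ hθ]; linarith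
    _ ≤ C₀ := hC₀

/-- The vector identity behind the covering step. -/
theorem cover_identity (a b ℓ p Vp Vℓ : E2) (σ dx dy β γ ea eb s ν X Y xx yy : ℝ)
    (hp : p = ℓ + ((σ * dx) • a + (σ * dy) • b))
    (hVp : Vp = Vℓ + ((σ * dy * β) • a + (σ * dx * γ) • b) + (ea • a + eb • b))
    (hX : X = dx + s * β * dy) (hY : Y = dy + s * γ * dx)
    (hxx : xx * (σ + 2 * ν * σ) = σ * X + s * ea + ν * σ)
    (hyy : yy * (σ + 2 * ν * σ) = σ * Y + s * eb + ν * σ) :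
    p + s • Vp = (ℓ - (ν * σ) • (a + b)) + xx • ((σ + 2 * ν * σ) • a)
          + yy • ((σ + 2 * ν * σ) • b) + s • Vℓ := by
  rw [smul_smul, smul_smul, hxx, hyy, hVp, hp, hX, hY]
  module

/-- The core covering step for one piece. -/
theorem piece_cover (V : E2 → E2) (A : E2 →L[ℝ] E2) (ob : OrthonormalBasis (Fin 2) ℝ E2)
    (β γ : ℝ) (hA0 : A (ob 0) = γ • ob 1) (hA1 : A (ob 1) = β • ob 0)
    (L θ M C₀ σ ν : ℝ) (hL : 0 < L) (hθ : 0 < θ) (hσ : 0 < σ) (hν : 0 < ν)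
    (hβγ0 : 0 ≤ β * γ) (hβγ1 : θ ≤ 1 - L ^ 2 * (β * γ)) (hβ : |β| ≤ M) (hγ : |γ| ≤ M)
    (hC₀ : (1 + L * M) / θ ≤ C₀)
    (p₀ p : E2) (s : ℝ) (hs : |s| ≤ L)
    (hE : ∀ j k : ℤ, ‖p - latPt p₀ σ ob j k‖ ≤ 2 * C₀ * σ →
      L * ‖V p - V (latPt p₀ σ ob j k) - A (p - latPt p₀ σ ob j k)‖ ≤ ν * σ) :
    ∃ j k : ℤ, ‖p - latPt p₀ σ ob j k‖ ≤ 2 * C₀ * σ ∧
      ∃ x ∈ Set.Icc (0 : ℝ) 1, ∃ y ∈ Set.Icc (0 : ℝ) 1,
        p + s • V p = (latPt p₀ σ ob j k - (ν * σ) • (ob 0 + ob 1)) + x • ((σ + 2 * ν * σ) • ob 0)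
          + y • ((σ + 2 * ν * σ) • ob 1) + s • V (latPt p₀ σ ob j k) := by
  have hM : 0 ≤ M := le_trans (abs_nonneg _) hβ
  have hC₀pos : 0 < C₀ := lt_of_lt_of_le (by positivity) hC₀
  have hna : ‖ob 0‖ = 1 := ob.orthonormal.1 0
  have hnb : ‖ob 1‖ = 1 := ob.orthonormal.1 1
  obtain ⟨x₀, hx₀⟩ : ∃ x₀ : ℝ, σ * x₀ = ⟪ob 0, p - p₀⟫ := ⟨⟪ob 0, p - p₀⟫ / σ, by field_simp⟩
  obtain ⟨y₀, hy₀⟩ : ∃ y₀ : ℝ, σ * y₀ = ⟪ob 1, p - p₀⟫ := ⟨⟪ob 1, p - p₀⟫ / σ, by field_simp⟩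
  have hs2 : s ^ 2 ≤ L ^ 2 := by
    have := abs_le.mp hs
    nlinarith
  have ht0 : 0 ≤ (s * β) * (s * γ) := by
    have : (s * β) * (s * γ) = s ^ 2 * (β * γ) := by ring
    rw [this]; positivity
  have ht1 : (s * β) * (s * γ) ≤ 1 - θ := by
    have : (s * β) * (s * γ) = s ^ 2 * (β * γ) := by ring
    rw [this]
    have := mul_le_mul_of_nonneg_right hs2 hβγ0
    linarith
  have ht1' : (s * β) * (s * γ) < 1 := by linarith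
  obtain ⟨j, k, hX0, hX1, hY0, hY1⟩ :=
    lattice_cover (x₀ + (s * β) * y₀) (y₀ + (s * γ) * x₀) (s * β) (s * γ) ht0 ht1'
  obtain ⟨dx, hdx⟩ : ∃ dx : ℝ, dx = x₀ - j := ⟨_, rfl⟩
  obtain ⟨dy, hdy⟩ : ∃ dy : ℝ, dy = y₀ - k := ⟨_, rfl⟩
  have hXe : x₀ + (s * β) * y₀ - j - (s * β) * k = dx + (s * β) * dy := by rw [hdx, hdy]; ring
  have hYe : y₀ + (s * γ) * x₀ - k - (s * γ) * j = dy + (s * γ) * dx := by rw [hdx, hdy]; ring
  rw [hXe] at hX0 hX1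
  rw [hYe] at hY0 hY1
  have habs1 : |s * β| ≤ L * M := by
    rw [abs_mul]
    exact mul_le_mul hs hβ (abs_nonneg _) hL.le
  have habs2 : |s * γ| ≤ L * M := by
    rw [abs_mul]
    exact mul_le_mul hs hγ (abs_nonneg _) hL.le
  have hden : θ ≤ 1 - (s * β) * (s * γ) := by linarith
  have hden' : θ ≤ 1 - (s * γ) * (s * β) := by linarith
  have hdxb : |dx| ≤ C₀ := solve_bound (s * β) (s * γ) dx dy θ (L * M) C₀ hθ hden habs1 hX0 hX1 hY0 hY1 hC₀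
  have hdyb : |dy| ≤ C₀ := solve_bound (s * γ) (s * β) dy dx θ (L * M) C₀ hθ hden' habs2 hY0 hY1 hX0 hX1 hC₀
  -- the lattice point
  have hqexp : p - p₀ = (σ * x₀) • ob 0 + (σ * y₀) • ob 1 := by
    rw [hx₀, hy₀]; exact frame_expand ob (p - p₀)
  have hpl : p - latPt p₀ σ ob j k = (σ * dx) • ob 0 + (σ * dy) • ob 1 := by
    have : p - latPt p₀ σ ob j k = (p - p₀) - σ • ((j : ℝ) • ob 0 + (k : ℝ) • ob 1) := by
      unfold latPt; abel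
    rw [this, hqexp, hdx, hdy]
    module
  have hnorm : ‖p - latPt p₀ σ ob j k‖ ≤ 2 * C₀ * σ := by
    apply norm_le_of_sq_le (by positivity) _ (norm_nonneg _)
    rw [hpl, frame_norm_sq]
    have h1 : dx ^ 2 ≤ C₀ ^ 2 := by
      have := abs_le.mp hdxb; nlinarith
    have h2 : dy ^ 2 ≤ C₀ ^ 2 := by
      have := abs_le.mp hdyb; nlinarith
    nlinarith [sq_nonneg σ, sq_nonneg (σ * C₀)]
  refine ⟨j, k, hnorm, ?_⟩
  have hEb := hE j k hnorm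
  obtain ⟨ℓ, hℓ⟩ : ∃ ℓ : E2, ℓ = latPt p₀ σ ob j k := ⟨_, rfl⟩
  rw [← hℓ] at hEb hpl ⊢
  obtain ⟨Ev, hEv⟩ : ∃ Ev : E2, Ev = V p - V ℓ - A (p - ℓ) := ⟨_, rfl⟩
  rw [← hEv] at hEb
  obtain ⟨ea, hea⟩ : ∃ ea : ℝ, ea = ⟪ob 0, Ev⟫ := ⟨_, rfl⟩
  obtain ⟨eb, heb⟩ : ∃ eb : ℝ, eb = ⟪ob 1, Ev⟫ := ⟨_, rfl⟩
  have hEexp : Ev = ea • ob 0 + eb • ob 1 := by rw [hea, heb]; exact frame_expand ob Ev
  have hEn : |s| * ‖Ev‖ ≤ ν * σ := le_trans (mul_le_mul_of_nonneg_right hs (norm_nonneg _)) hEb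
  have hsea : |s * ea| ≤ ν * σ := by
    rw [abs_mul, hea]
    have : |⟪ob 0, Ev⟫| ≤ ‖ob 0‖ * ‖Ev‖ := abs_real_inner_le_norm _ _
    rw [hna, one_mul] at this
    exact le_trans (mul_le_mul_of_nonneg_left this (abs_nonneg _)) hEn
  have hseb : |s * eb| ≤ ν * σ := by
    rw [abs_mul, heb]
    have : |⟪ob 1, Ev⟫| ≤ ‖ob 1‖ * ‖Ev‖ := abs_real_inner_le_norm _ _
    rw [hnb, one_mul] at this
    exact le_trans (mul_le_mul_of_nonneg_left this (abs_nonneg _)) hEn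
  have hApl : A (p - ℓ) = (σ * dy * β) • ob 0 + (σ * dx * γ) • ob 1 := by
    rw [hpl, map_add, map_smul, map_smul, hA0, hA1]
    module
  have hVp : V p = V ℓ + ((σ * dy * β) • ob 0 + (σ * dx * γ) • ob 1) + (ea • ob 0 + eb • ob 1) := by
    rw [← hApl, ← hEexp, hEv]; abel
  have hp : p = ℓ + ((σ * dx) • ob 0 + (σ * dy) • ob 1) := by
    rw [← hpl]; abel
  have hden2 : 0 < σ + 2 * ν * σ := by positivity
  refine ⟨(σ * (dx + s * β * dy) + s * ea + ν * σ) / (σ + 2 * ν * σ), ⟨?_, ?_⟩,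
    (σ * (dy + s * γ * dx) + s * eb + ν * σ) / (σ + 2 * ν * σ), ⟨?_, ?_⟩, ?_⟩
  · apply div_nonneg _ hden2.le
    have := abs_le.mp hsea
    nlinarith [mul_nonneg hσ.le hX0]
  · rw [div_le_one hden2]
    have := abs_le.mp hsea
    nlinarith [mul_lt_mul_of_pos_left hX1 hσ]
  · apply div_nonneg _ hden2.le
    have := abs_le.mp hseb
    nlinarith [mul_nonneg hσ.le hY0]
  · rw [div_le_one hden2]
    have := abs_le.mp hseb
    nlinarith [mul_lt_mul_of_pos_left hY1 hσ]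
  · exact cover_identity (ob 0) (ob 1) ℓ p (V p) (V ℓ) σ dx dy β γ ea eb s ν _ _ _ _ hp hVp rfl rfl
      (div_mul_cancel₀ _ hden2.ne') (div_mul_cancel₀ _ hden2.ne')

end Crest.Agent.Lib_helper6_Sq2
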