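import Mathlib
import Crest.Agent.Lib_helper6_Sq2

set_option autoImplicit false

namespace Crest.Agent.Lib_helper6_Sq3

open Crest.Agent.Lib_helper6_Sq1 Crest.Agent.Lib_helper6_Sq2
open MeasureTheory
open scoped RealInnerProductSpace

/-- the axis-parallel half-open square -/
def box (σ : ℝ) : Set E2 := {w | 0 ≤ w 0 ∧ w 0 < σ ∧ 0 ≤ w 1 ∧ w 1 < σ}

theorem box_eq (σ : ℝ) :
    box σ = (WithLp.ofLp : E2 → Fin 2 → ℝ) ⁻¹' (Set.pi Set.univ fun _ => Set.Ico (0 : ℝ) σ) := by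
  ext w
  simp only [box, Set.mem_ofPred_eq, Set.mem_preimage, Set.mem_pi, Set.mem_univ, Set.mem_Ico,
    forall_true_left, Fin.forall_fin_two]
  tauto

theorem measurableSet_box (σ : ℝ) : MeasurableSet (box σ) := by
  rw [box_eq]
  exact (PiLp.volume_preserving_ofLp (Fin 2)).measurable
    (MeasurableSet.univ_pi fun _ => measurableSet_Ico)

theorem volume_box (σ : ℝ) (hσ : 0 ≤ σ) : volume (box σ) = ENNReal.ofReal (σ ^ 2) := by
  rw [box_eq, (PiLp.volume_preserving_ofLp (Fin 2)).measure_preimage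
    (MeasurableSet.univ_pi fun _ => measurableSet_Ico).nullMeasurableSet, Real.volume_pi_Ico]
  simp only [sub_zero, Finset.prod_const, Finset.card_univ, Fintype.card_fin]
  rw [← ENNReal.ofReal_pow hσ]

/-- rotated half-open lattice cell with corner `ℓ` -/
def cell (ℓ : E2) (σ : ℝ) (ob : OrthonormalBasis (Fin 2) ℝ E2) : Set E2 :=
  {z | 0 ≤ ⟪ob 0, z - ℓ⟫ ∧ ⟪ob 0, z - ℓ⟫ < σ ∧ 0 ≤ ⟪ob 1, z - ℓ⟫ ∧ ⟪ob 1, z - ℓ⟫ < σ}

theorem cell_eq (ℓ : E2) (σ : ℝ) (ob : OrthonormalBasis (Fin 2) ℝ E2) :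
    cell ℓ σ ob = (fun z => ob.repr (z - ℓ)) ⁻¹' box σ := by
  ext z
  simp only [cell, box, Set.mem_ofPred_eq, Set.mem_preimage, OrthonormalBasis.repr_apply_apply]

theorem mp_cell (ℓ : E2) (ob : OrthonormalBasis (Fin 2) ℝ E2) :
    MeasurePreserving (fun z : E2 => ob.repr (z - ℓ)) volume volume :=
  (ob.measurePreserving_repr).comp (measurePreserving_sub_right volume ℓ)

theorem measurableSet_cell (ℓ : E2) (σ : ℝ) (ob : OrthonormalBasis (Fin 2) ℝ E2) :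
    MeasurableSet (cell ℓ σ ob) := by
  rw [cell_eq]
  exact (mp_cell ℓ ob).measurable (measurableSet_box σ)

theorem volume_cell (ℓ : E2) (σ : ℝ) (hσ : 0 ≤ σ) (ob : OrthonormalBasis (Fin 2) ℝ E2) :
    volume (cell ℓ σ ob) = ENNReal.ofReal (σ ^ 2) := by
  rw [cell_eq, (mp_cell ℓ ob).measure_preimage (measurableSet_box σ).nullMeasurableSet,
    volume_box σ hσ]

theorem cell_subset_ball (ℓ : E2) (σ : ℝ) (hσ : 0 < σ) (ob : OrthonormalBasis (Fin 2) ℝ E2)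
    (z : E2) (hz : z ∈ cell ℓ σ ob) : ‖z - ℓ‖ < 2 * σ := by
  obtain ⟨h1, h2, h3, h4⟩ := hz
  have hexp := frame_expand ob (z - ℓ)
  have hsq : ‖z - ℓ‖ ^ 2 = ⟪ob 0, z - ℓ⟫ ^ 2 + ⟪ob 1, z - ℓ⟫ ^ 2 := by
    conv_lhs => rw [hexp]
    exact frame_norm_sq ob _ _
  have hn := norm_nonneg (z - ℓ)
  nlinarith

/-- distinct lattice cells are disjoint -/
theorem cell_disjoint (p₀ : E2) (σ : ℝ) (hσ : 0 < σ) (ob : OrthonormalBasis (Fin 2) ℝ E2)
    (jk jk' : ℤ × ℤ) (hne : jk ≠ jk') :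
    Disjoint (cell (latPt p₀ σ ob jk.1 jk.2) σ ob) (cell (latPt p₀ σ ob jk'.1 jk'.2) σ ob) := by
  rw [Set.disjoint_left]
  intro z hz hz'
  apply hne
  have key : ∀ (j k : ℤ), z ∈ cell (latPt p₀ σ ob j k) σ ob →
      (j = ⌊⟪ob 0, z - p₀⟫ / σ⌋ ∧ k = ⌊⟪ob 1, z - p₀⟫ / σ⌋) := by
    intro j k hzc
    obtain ⟨h1, h2, h3, h4⟩ := hzc
    have e0 : ⟪ob 0, z - latPt p₀ σ ob j k⟫ = ⟪ob 0, z - p₀⟫ - σ * j := by
      have : z - latPt p₀ σ ob j k = (z - p₀) - σ • ((j : ℝ) • ob 0 + (k : ℝ) • ob 1) := by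
        unfold latPt; abel
      rw [this, inner_sub_right, inner_smul_right, inner_add_right, inner_smul_right,
        inner_smul_right, frame_inner, frame_inner]
      simp
    have e1 : ⟪ob 1, z - latPt p₀ σ ob j k⟫ = ⟪ob 1, z - p₀⟫ - σ * k := by
      have : z - latPt p₀ σ ob j k = (z - p₀) - σ • ((j : ℝ) • ob 0 + (k : ℝ) • ob 1) := by
        unfold latPt; abel
      rw [this, inner_sub_right, inner_smul_right, inner_add_right, inner_smul_right,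
        inner_smul_right, frame_inner, frame_inner]
      simp
    rw [e0] at h1 h2
    rw [e1] at h3 h4
    constructor
    · symm
      rw [Int.floor_eq_iff]
      constructor
      · rw [le_div_iff₀ hσ]; linarith
      · rw [div_lt_iff₀ hσ]; linarith
    · symm
      rw [Int.floor_eq_iff]
      constructor
      · rw [le_div_iff₀ hσ]; linarith
      · rw [div_lt_iff₀ hσ]; linarith
  obtain ⟨a1, a2⟩ := key jk.1 jk.2 hz
  obtain ⟨b1, b2⟩ := key jk'.1 jk'.2 hz'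
  exact Prod.ext (a1.trans b1.symm) (a2.trans b2.symm)

end Crest.Agent.Lib_helper6_Sq3
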