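import Mathlib
import Crest.Agent.Lib_helper6_Sq3

set_option autoImplicit false

namespace Crest.Agent.Lib_helper6_Sq4

open Crest.Agent.Lib_helper6_Sq1 Crest.Agent.Lib_helper6_Sq2 Crest.Agent.Lib_helper6_Sq3
open MeasureTheory Filter Topology
open scoped RealInnerProductSpace

/-- thickenings of a bounded set with null boundary excess shrink to the set in measure -/
theorem eventually_thickening_small (P : Set E2) (hPm : MeasurableSet P)
    (hPb : Bornology.IsBounded P) (hcl : volume (closure P \ P) = 0) (ε : ℝ) (hε : 0 < ε) :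
    ∀ᶠ r in 𝓝[>] (0 : ℝ), (volume (Metric.thickening r P \ P)).toReal ≤ ε := by
  have hfinP : volume P ≠ ⊤ := hPb.measure_lt_top.ne
  have hfin : ∃ R > 0, volume (Metric.thickening R P) ≠ ⊤ :=
    ⟨1, one_pos, (hPb.thickening).measure_lt_top.ne⟩
  have hlim := tendsto_measure_thickening (μ := (volume : Measure E2)) hfin
  have hclP : volume (closure P) = volume P := by
    apply le_antisymm
    · calc volume (closure P) ≤ volume (P ∪ (closure P \ P)) := by
            apply measure_mono
            intro z hz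
            by_cases hzP : z ∈ P
            · exact Or.inl hzP
            · exact Or.inr ⟨hz, hzP⟩
        _ ≤ volume P + volume (closure P \ P) := measure_union_le _ _
        _ = volume P := by rw [hcl, add_zero]
    · exact measure_mono subset_closure
  rw [hclP] at hlim
  have hlt : volume P < volume P + ENNReal.ofReal ε :=
    ENNReal.lt_add_right hfinP (by simpa using hε)
  have hev := (tendsto_order.1 hlim).2 _ hlt
  filter_upwards [hev, self_mem_nhdsWithin] with r hr hrpos
  have hsub : P ⊆ Metric.thickening r P := Metric.self_subset_thickening hrpos P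
  rw [measure_sdiff hsub hPm.nullMeasurableSet hfinP]
  have h1 : volume (Metric.thickening r P) - volume P ≤ ENNReal.ofReal ε := by
    rw [tsub_le_iff_left]
    exact hr.le
  calc (volume (Metric.thickening r P) - volume P).toReal ≤ (ENNReal.ofReal ε).toReal :=
        ENNReal.toReal_mono ENNReal.ofReal_ne_top h1
    _ = ε := ENNReal.toReal_ofReal hε.le

/-- cost accounting for one piece -/
theorem piece_cost (φ : E2 → ℝ) (P : Set E2) (hPm : MeasurableSet P) (hφP : IntegrableOn φ P)
    (hφ0 : ∀ z ∈ P, 0 ≤ φ z) (r σ : ℝ) (hr : 0 < r) (hσ : 0 < σ)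
    (ob : OrthonormalBasis (Fin 2) ℝ E2) (p₀ : E2) (S : Finset (ℤ × ℤ)) (w : ℤ × ℤ → ℝ)
    (hw1 : ∀ jk ∈ S, w jk ≤ 1)
    (hwφ : ∀ jk ∈ S, ∀ z ∈ P, z ∈ cell (latPt p₀ σ ob jk.1 jk.2) σ ob → w jk ≤ φ z)
    (hsub : ∀ jk ∈ S, cell (latPt p₀ σ ob jk.1 jk.2) σ ob ⊆ Metric.thickening r P)
    (hfin : volume (Metric.thickening r P) ≠ ⊤) :
    ∑ jk ∈ S, σ ^ 2 * w jk ≤ (∫ z in P, φ z) + (volume (Metric.thickening r P \ P)).toReal := by
  classical
  set T := Metric.thickening r P with hT
  have hTm : MeasurableSet T := Metric.isOpen_thickening.measurableSet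
  have hPT : P ⊆ T := Metric.self_subset_thickening hr P
  set ψ : E2 → ℝ := fun z => if z ∈ P then φ z else 1 with hψ
  have hψP : Set.EqOn ψ φ P := fun z hz => by simp [hψ, hz]
  have hψc : Set.EqOn ψ (fun _ => (1 : ℝ)) (T \ P) := fun z hz => by simp [hψ, hz.2]
  have hψ0 : ∀ z, 0 ≤ ψ z := by
    intro z
    by_cases hz : z ∈ P
    · simp only [hψ, hz, if_true]; exact hφ0 z hz
    · simp [hψ, hz]
  have hfinTP : volume (T \ P) ≠ ⊤ := ne_top_of_le_ne_top hfin (measure_mono Set.sdiff_subset)
  have hint1 : IntegrableOn ψ P := hφP.congr_fun hψP.symm hPm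
  have hint2 : IntegrableOn ψ (T \ P) :=
    (integrableOn_const (C := (1 : ℝ)) hfinTP).congr_fun hψc.symm (hTm.diff hPm)
  have hintT : IntegrableOn ψ T := by
    have : T = P ∪ (T \ P) := by
      rw [Set.union_sdiff_cancel hPT]
    rw [this]
    exact hint1.union hint2
  -- each term
  have hterm : ∀ jk ∈ S, σ ^ 2 * w jk ≤ ∫ z in cell (latPt p₀ σ ob jk.1 jk.2) σ ob, ψ z := by
    intro jk hjk
    set C := cell (latPt p₀ σ ob jk.1 jk.2) σ ob with hC
    have hCm : MeasurableSet C := measurableSet_cell _ _ _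
    have hCv : volume C = ENNReal.ofReal (σ ^ 2) := volume_cell _ _ hσ.le _
    have hCfin : volume C ≠ ⊤ := by rw [hCv]; exact ENNReal.ofReal_ne_top
    have hconst : ∫ _z in C, w jk = σ ^ 2 * w jk := by
      rw [setIntegral_const, smul_eq_mul, Measure.real, hCv, ENNReal.toReal_ofReal (by positivity)]
    rw [← hconst]
    apply setIntegral_mono_on (integrableOn_const hCfin) (hintT.mono_set (hsub jk hjk)) hCm
    intro z hz
    by_cases hzP : z ∈ P
    · simp only [hψ, hzP, if_true]
      exact hwφ jk hjk z hzP hz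
    · simp only [hψ, hzP, if_false]
      exact hw1 jk hjk
  have hdisj : Set.Pairwise (↑S) (Function.onFun Disjoint
      (fun jk : ℤ × ℤ => cell (latPt p₀ σ ob jk.1 jk.2) σ ob)) := by
    intro jk _ jk' _ hne
    exact cell_disjoint p₀ σ hσ ob jk jk' hne
  have hsum : ∑ jk ∈ S, ∫ z in cell (latPt p₀ σ ob jk.1 jk.2) σ ob, ψ z
      = ∫ z in ⋃ jk ∈ S, cell (latPt p₀ σ ob jk.1 jk.2) σ ob, ψ z := by
    rw [integral_biUnion_finset S (fun jk _ => measurableSet_cell _ _ _) hdisj
      (fun jk hjk => hintT.mono_set (hsub jk hjk))]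
  have hUsub : (⋃ jk ∈ S, cell (latPt p₀ σ ob jk.1 jk.2) σ ob) ⊆ T := by
    intro z hz
    simp only [Set.mem_iUnion] at hz
    obtain ⟨jk, hjk, hz⟩ := hz
    exact hsub jk hjk hz
  have hmono : ∫ z in ⋃ jk ∈ S, cell (latPt p₀ σ ob jk.1 jk.2) σ ob, ψ z ≤ ∫ z in T, ψ z :=
    setIntegral_mono_set hintT (Eventually.of_forall hψ0) (LE.le.eventuallyLE hUsub)
  have hsplit : ∫ z in T, ψ z = (∫ z in P, φ z) + (volume (T \ P)).toReal := by
    rw [← integral_inter_add_sdiff hPm hintT, Set.inter_eq_self_of_subset_right hPT,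
      setIntegral_congr_fun hPm hψP, setIntegral_congr_fun (hTm.diff hPm) hψc, setIntegral_const,
      smul_eq_mul, mul_one, Measure.real]
  calc ∑ jk ∈ S, σ ^ 2 * w jk ≤ ∑ jk ∈ S, ∫ z in cell (latPt p₀ σ ob jk.1 jk.2) σ ob, ψ z :=
        Finset.sum_le_sum hterm
    _ = ∫ z in ⋃ jk ∈ S, cell (latPt p₀ σ ob jk.1 jk.2) σ ob, ψ z := hsum
    _ ≤ ∫ z in T, ψ z := hmono
    _ = (∫ z in P, φ z) + (volume (T \ P)).toReal := hsplit


/-- a finite measurable partition of a compact set into small pieces with null boundary excess -/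
theorem exists_partition (D : Set E2) (hD : IsCompact D) (η : ℝ) (hη : 0 < η) :
    ∃ (n : ℕ) (x : Fin n → E2) (P : Fin n → Set E2),
      (∀ i, x i ∈ D) ∧ (∀ i, MeasurableSet (P i)) ∧ (∀ i, P i ⊆ D) ∧
      (∀ i, P i ⊆ Metric.closedBall (x i) η) ∧ (Pairwise (Function.onFun Disjoint P)) ∧
      (D ⊆ ⋃ i, P i) ∧ (∀ i, volume (closure (P i) \ P i) = 0) := by
  classical
  obtain ⟨t, htD, htfin, hcov⟩ := hD.finite_cover_balls hη
  set l := htfin.toFinset.toList with hl
  have hmem : ∀ y, y ∈ l ↔ y ∈ t := by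
    intro y
    rw [hl, Finset.mem_toList, Set.Finite.mem_toFinset]
  set x : Fin l.length → E2 := fun i => l.get i with hx
  set P : Fin l.length → Set E2 := fun i =>
    (D ∩ Metric.closedBall (x i) η) \ ⋃ j ∈ Finset.Iio i, Metric.closedBall (x j) η with hP
  refine ⟨l.length, x, P, ?_, ?_, ?_, ?_, ?_, ?_, ?_⟩
  · intro i
    exact htD ((hmem _).1 (List.get_mem l i))
  · intro i
    exact (hD.isClosed.measurableSet.inter measurableSet_closedBall).diff
      (Finset.measurableSet_biUnion _ (fun j _ => measurableSet_closedBall))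
  · intro i z hz
    exact hz.1.1
  · intro i z hz
    exact hz.1.2
  · intro i j hij
    rw [Function.onFun, Set.disjoint_left]
    intro z hzi hzj
    rcases lt_or_gt_of_ne hij with h | h
    · exact hzj.2 (Set.mem_biUnion (Finset.mem_Iio.mpr h) hzi.1.2)
    · exact hzi.2 (Set.mem_biUnion (Finset.mem_Iio.mpr h) hzj.1.2)
  · intro z hz
    have hz' := hcov hz
    simp only [Set.mem_iUnion] at hz'
    obtain ⟨y, hyt, hzy⟩ := hz'
    obtain ⟨i₁, hi₁⟩ := List.get_of_mem ((hmem y).2 hyt)
    set F := Finset.univ.filter (fun i : Fin l.length => z ∈ Metric.closedBall (x i) η) with hF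
    have hne : F.Nonempty := by
      refine ⟨i₁, ?_⟩
      rw [hF, Finset.mem_filter]
      refine ⟨Finset.mem_univ _, ?_⟩
      simp only [hx, hi₁]
      exact Metric.ball_subset_closedBall hzy
    set i₀ := F.min' hne with hi₀
    have hi₀F : i₀ ∈ F := Finset.min'_mem F hne
    rw [hF, Finset.mem_filter] at hi₀F
    rw [Set.mem_iUnion]
    refine ⟨i₀, ⟨hz, hi₀F.2⟩, ?_⟩
    intro hcon
    simp only [Set.mem_iUnion] at hcon
    obtain ⟨j, hj, hzj⟩ := hcon
    have hjF : j ∈ F := by
      rw [hF, Finset.mem_filter]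
      exact ⟨Finset.mem_univ _, hzj⟩
    have := Finset.min'_le F j hjF
    rw [Finset.mem_Iio] at hj
    exact absurd hj (not_lt.mpr this)
  · intro i
    have hsub : closure (P i) \ P i ⊆ ⋃ j : Fin l.length, Metric.sphere (x j) η := by
      intro z hz
      obtain ⟨hzc, hzP⟩ := hz
      have hPsub : P i ⊆ D ∩ Metric.closedBall (x i) η := fun z hz => hz.1
      have hzD : z ∈ D ∩ Metric.closedBall (x i) η :=
        closure_minimal hPsub (hD.isClosed.inter Metric.isClosed_closedBall) hzc
      have hzU : z ∈ ⋃ j ∈ Finset.Iio i, Metric.closedBall (x j) η := by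
        by_contra hcon
        exact hzP ⟨hzD, hcon⟩
      simp only [Set.mem_iUnion] at hzU
      obtain ⟨j, hj, hzj⟩ := hzU
      rw [Set.mem_iUnion]
      refine ⟨j, ?_⟩
      have hPc : P i ⊆ (Metric.closedBall (x j) η)ᶜ := by
        intro y hy hyb
        exact hy.2 (Set.mem_biUnion hj hyb)
      have hzcl : z ∈ closure ((Metric.closedBall (x j) η)ᶜ) := closure_mono hPc hzc
      rw [closure_compl, interior_closedBall _ hη.ne'] at hzcl
      rw [Metric.mem_sphere]
      have h1 : dist z (x j) ≤ η := Metric.mem_closedBall.mp hzj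
      have h2 : ¬ dist z (x j) < η := fun h => hzcl (Metric.mem_ball.mpr h)
      exact le_antisymm h1 (not_lt.mp h2)
    apply measure_mono_null hsub
    rw [measure_iUnion_null_iff]
    intro j
    exact Measure.addHaar_sphere volume (x j) η

end Crest.Agent.Lib_helper6_Sq4
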