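import Mathlib
import Crest.Agent.Lib_helper6_Sq4

set_option autoImplicit false

namespace Crest.Agent.Lib_helper6_Sq5

open Crest.Agent.Lib_helper6_Sq1 Crest.Agent.Lib_helper6_Sq2 Crest.Agent.Lib_helper6_Sq3
  Crest.Agent.Lib_helper6_Sq4
open MeasureTheory
open scoped RealInnerProductSpace

/-- only finitely many lattice points lie in a ball -/
theorem lattice_finite (p₀ : E2) (σ : ℝ) (hσ : 0 < σ) (ob : OrthonormalBasis (Fin 2) ℝ E2)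
    (R : ℝ) : {jk : ℤ × ℤ | ‖latPt p₀ σ ob jk.1 jk.2 - p₀‖ ≤ R}.Finite := by
  obtain ⟨N, hN⟩ := exists_nat_ge (R / σ)
  apply Set.Finite.subset ((Set.finite_Icc (-(N : ℤ)) N).prod (Set.finite_Icc (-(N : ℤ)) N))
  rintro ⟨j, k⟩ hjk
  simp only [Set.mem_ofPred_eq] at hjk
  have e : latPt p₀ σ ob j k - p₀ = σ • ((j : ℝ) • ob 0 + (k : ℝ) • ob 1) := by
    unfold latPt; abel
  rw [e, norm_smul, Real.norm_of_nonneg hσ.le] at hjk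
  have hsq := frame_norm_sq ob (j : ℝ) (k : ℝ)
  have hn := norm_nonneg ((j : ℝ) • ob 0 + (k : ℝ) • ob 1)
  have hB : ‖(j : ℝ) • ob 0 + (k : ℝ) • ob 1‖ ≤ N := by
    have : ‖(j : ℝ) • ob 0 + (k : ℝ) • ob 1‖ ≤ R / σ := by
      rw [le_div_iff₀ hσ]; linarith
    linarith
  have hN0 : (0 : ℝ) ≤ N := Nat.cast_nonneg N
  have hj2 : (j : ℝ) ^ 2 ≤ (N : ℝ) ^ 2 := by nlinarith [sq_nonneg (k : ℝ)]
  have hk2 : (k : ℝ) ^ 2 ≤ (N : ℝ) ^ 2 := by nlinarith [sq_nonneg (j : ℝ)]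
  have hj := abs_le_of_sq_le_sq' hj2 hN0
  have hk := abs_le_of_sq_le_sq' hk2 hN0
  rw [Set.mem_prod, Set.mem_Icc, Set.mem_Icc]
  refine ⟨⟨?_, ?_⟩, ⟨?_, ?_⟩⟩
  · have := hj.1; exact_mod_cast this
  · have := hj.2; exact_mod_cast this
  · have := hk.1; exact_mod_cast this
  · have := hk.2; exact_mod_cast this

theorem continuous_Jf (h : ℝ) : Continuous (Jf h) := by
  unfold Jf
  apply Continuous.div continuous_const
  · apply Real.continuous_sqrt.comp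
    fun_prop
  · intro v
    have := one_le_sqrt_aux h v
    positivity

/-- everything about one piece: the squares cover the ruled set over the piece, and cost -/
theorem piece_result (V : E2 → E2) (L h : ℝ) (hL : 0 < L)
    (x : E2) (htr : LinearMap.trace ℝ E2 (fderiv ℝ V x).toLinearMap = 0)
    (hdet : LinearMap.det (fderiv ℝ V x).toLinearMap ≤ 0)
    (M θ C₀ : ℝ) (hθ : 0 < θ) (hM : ‖fderiv ℝ V x‖ ≤ M)
    (hθ' : θ ≤ 1 + L ^ 2 * LinearMap.det (fderiv ℝ V x).toLinearMap)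
    (hC₀ : (1 + L * M) / θ ≤ C₀)
    (P : Set E2) (hPm : MeasurableSet P) (η : ℝ) (hPη : P ⊆ Metric.closedBall x η)
    (ν σ r : ℝ) (hν : 0 < ν) (hσ : 0 < σ) (hr : r = (2 * C₀ + 2) * σ)
    (hTaylor : ∀ ℓ p : E2, p ∈ P → ‖p - ℓ‖ ≤ 2 * C₀ * σ →
      L * ‖V p - V ℓ - fderiv ℝ V x (p - ℓ)‖ ≤ ν * σ)
    (φ : E2 → ℝ) (hφP : IntegrableOn φ P) (hφ0 : ∀ z ∈ P, 0 ≤ φ z)
    (hφ : ∀ z ∈ P, ∀ ℓ : E2, ‖z - ℓ‖ < 2 * σ → Jf h (V ℓ) ≤ φ z) :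
    ∃ (S : Finset (ℤ × ℤ)) (ob : OrthonormalBasis (Fin 2) ℝ E2),
      (∀ p ∈ P, ∀ s : ℝ, |s| ≤ L → ∃ jk ∈ S, ∃ x' ∈ Set.Icc (0 : ℝ) 1, ∃ y ∈ Set.Icc (0 : ℝ) 1,
          p + s • V p = (latPt x σ ob jk.1 jk.2 - (ν * σ) • (ob 0 + ob 1))
            + x' • ((σ + 2 * ν * σ) • ob 0) + y • ((σ + 2 * ν * σ) • ob 1)
            + s • V (latPt x σ ob jk.1 jk.2)) ∧
      ∑ jk ∈ S, σ ^ 2 * Jf h (V (latPt x σ ob jk.1 jk.2)) ≤
        (∫ z in P, φ z) + (volume (Metric.thickening r P \ P)).toReal := by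
  classical
  obtain ⟨A, hA⟩ : ∃ A : E2 →L[ℝ] E2, A = fderiv ℝ V x := ⟨_, rfl⟩
  rw [← hA] at htr hdet hM hθ' hTaylor
  obtain ⟨ob, h0, h1⟩ := exists_frame A htr
  obtain ⟨hA0, hA1, hdetA⟩ := frame_apply A ob h0 h1
  obtain ⟨β, hβ⟩ : ∃ β : ℝ, β = ⟪ob 0, A (ob 1)⟫ := ⟨_, rfl⟩
  obtain ⟨γ, hγ⟩ : ∃ γ : ℝ, γ = ⟪ob 1, A (ob 0)⟫ := ⟨_, rfl⟩
  rw [← hβ, ← hγ] at hdetA
  rw [← hγ] at hA0
  rw [← hβ] at hA1
  have hna : ‖ob 0‖ = 1 := ob.orthonormal.1 0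
  have hnb : ‖ob 1‖ = 1 := ob.orthonormal.1 1
  have hM0 : 0 ≤ M := le_trans (norm_nonneg _) hM
  have hC₀pos : 0 < C₀ := lt_of_lt_of_le (by positivity) hC₀
  have hβM : |β| ≤ M := by
    rw [hβ]
    calc |⟪ob 0, A (ob 1)⟫| ≤ ‖ob 0‖ * ‖A (ob 1)‖ := abs_real_inner_le_norm _ _
      _ ≤ 1 * (‖A‖ * ‖ob 1‖) := by
          rw [hna]; exact mul_le_mul_of_nonneg_left (A.le_opNorm _) zero_le_one
      _ ≤ M := by rw [hnb]; linarith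
  have hγM : |γ| ≤ M := by
    rw [hγ]
    calc |⟪ob 1, A (ob 0)⟫| ≤ ‖ob 1‖ * ‖A (ob 0)‖ := abs_real_inner_le_norm _ _
      _ ≤ 1 * (‖A‖ * ‖ob 0‖) := by
          rw [hnb]; exact mul_le_mul_of_nonneg_left (A.le_opNorm _) zero_le_one
      _ ≤ M := by rw [hna]; linarith
  have hβγ0 : 0 ≤ β * γ := by rw [hdetA] at hdet; linarith
  have hβγ1 : θ ≤ 1 - L ^ 2 * (β * γ) := by rw [hdetA] at hθ'; linarith
  -- the index set
  have hSfin : {jk : ℤ × ℤ | ∃ p ∈ P, ‖p - latPt x σ ob jk.1 jk.2‖ ≤ 2 * C₀ * σ}.Finite := by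
    apply (lattice_finite x σ hσ ob (2 * C₀ * σ + η)).subset
    rintro jk ⟨p, hp, hpn⟩
    simp only [Set.mem_ofPred_eq]
    have hpx : ‖p - x‖ ≤ η := by
      have := hPη hp
      rwa [Metric.mem_closedBall, dist_eq_norm] at this
    calc ‖latPt x σ ob jk.1 jk.2 - x‖
        = ‖(p - x) - (p - latPt x σ ob jk.1 jk.2)‖ := by congr 1; abel
      _ ≤ ‖p - x‖ + ‖p - latPt x σ ob jk.1 jk.2‖ := norm_sub_le _ _
      _ ≤ 2 * C₀ * σ + η := by linarith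
  refine ⟨hSfin.toFinset, ob, ?_, ?_⟩
  · intro p hp s hs
    obtain ⟨j, k, hjk, x', hx', y, hy, heq⟩ :=
      piece_cover V A ob β γ hA0 hA1 L θ M C₀ σ ν hL hθ hσ hν hβγ0 hβγ1 hβM hγM hC₀ x p s hs
        (fun j k hjk => hTaylor _ p hp hjk)
    refine ⟨(j, k), ?_, x', hx', y, hy, heq⟩
    rw [Set.Finite.mem_toFinset]
    exact ⟨p, hp, hjk⟩
  · have hPb : Bornology.IsBounded P := Metric.isBounded_closedBall.subset hPη
    have hrpos : 0 < r := by rw [hr]; positivity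
    apply piece_cost φ P hPm hφP hφ0 r σ hrpos hσ ob x hSfin.toFinset
      (fun jk => Jf h (V (latPt x σ ob jk.1 jk.2)))
    · intro jk _
      exact Jf_le_one h _
    · intro jk _ z hz hzc
      exact hφ z hz _ (cell_subset_ball _ σ hσ ob z hzc)
    · intro jk hjk z hzc
      rw [Set.Finite.mem_toFinset] at hjk
      obtain ⟨p, hp, hpn⟩ := hjk
      rw [Metric.mem_thickening_iff]
      refine ⟨p, hp, ?_⟩
      have h2 := cell_subset_ball _ σ hσ ob z hzc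
      rw [dist_eq_norm]
      calc ‖z - p‖ = ‖(z - latPt x σ ob jk.1 jk.2) - (p - latPt x σ ob jk.1 jk.2)‖ := by
            congr 1; abel
        _ ≤ ‖z - latPt x σ ob jk.1 jk.2‖ + ‖p - latPt x σ ob jk.1 jk.2‖ := norm_sub_le _ _
        _ < r := by rw [hr]; linarith
    · exact (hPb.thickening).measure_lt_top.ne

/-- pass from a finite index type to `Fin k` -/
theorem fin_of_fintype {ι : Type} [Fintype ι] (c a b g : ι → E2) (W : Set (ℝ × E2)) (h R : ℝ)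
    (h1 : ∀ i, a i ≠ 0 ∧ ‖b i‖ = ‖a i‖ ∧ inner ℝ (a i) (b i) = 0)
    (h2 : W ⊆ ⋃ i, {z : ℝ × E2 | ∃ x ∈ Set.Icc (0 : ℝ) 1, ∃ y ∈ Set.Icc (0 : ℝ) 1,
          z.2 = c i + x • a i + y • b i + z.1 • g i})
    (h3 : ∑ i, ‖a i‖ ^ 2 / Real.sqrt (1 + (g i 0) ^ 2 + h ^ 2 * (g i 1) ^ 2) ≤ R) :
    ∃ (k : ℕ) (c a b g : Fin k → E2),
      (∀ i, a i ≠ 0 ∧ ‖b i‖ = ‖a i‖ ∧ inner ℝ (a i) (b i) = 0) ∧
      W ⊆ ⋃ i, {z : ℝ × E2 | ∃ x ∈ Set.Icc (0 : ℝ) 1, ∃ y ∈ Set.Icc (0 : ℝ) 1,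
          z.2 = c i + x • a i + y • b i + z.1 • g i} ∧
      ∑ i, ‖a i‖ ^ 2 / Real.sqrt (1 + (g i 0) ^ 2 + h ^ 2 * (g i 1) ^ 2) ≤ R := by
  obtain ⟨e⟩ : Nonempty (Fin (Fintype.card ι) ≃ ι) := ⟨(Fintype.equivFin ι).symm⟩
  refine ⟨Fintype.card ι, fun m => c (e m), fun m => a (e m), fun m => b (e m),
    fun m => g (e m), fun m => h1 (e m), ?_, ?_⟩
  · intro z hz
    obtain ⟨i, hi⟩ := Set.mem_iUnion.1 (h2 hz)
    refine Set.mem_iUnion.2 ⟨e.symm i, ?_⟩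
    simpa using hi
  · have := Equiv.sum_comp e
      (fun i => ‖a i‖ ^ 2 / Real.sqrt (1 + (g i 0) ^ 2 + h ^ 2 * (g i 1) ^ 2))
    rw [this]
    exact h3

end Crest.Agent.Lib_helper6_Sq5
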