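import Mathlib
import Crest.Agent.Lib_helper6_Sq5

set_option autoImplicit false

namespace Crest.Agent.Lib_helper6_Sq6

open Crest.Agent.Lib_helper6_Sq1 Crest.Agent.Lib_helper6_Sq2 Crest.Agent.Lib_helper6_Sq3
  Crest.Agent.Lib_helper6_Sq4 Crest.Agent.Lib_helper6_Sq5
open MeasureTheory
open scoped RealInnerProductSpace Topology

/-- The square-tile cover of a ruled set, from uniform estimates on the velocity field. -/
theorem result_of_unif (D : Set E2) (hD : IsCompact D) (V : E2 → E2) (hVc : ContinuousOn V D)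
    (L h : ℝ) (hL : 0 < L) (hh : 0 < h)
    (htr : ∀ p ∈ D, LinearMap.trace ℝ E2 (fderiv ℝ V p).toLinearMap = 0)
    (hdet : ∀ p ∈ D, LinearMap.det (fderiv ℝ V p).toLinearMap ≤ 0)
    (M θ : ℝ) (hM0 : 0 ≤ M) (hθ : 0 < θ) (hM : ∀ p ∈ D, ‖fderiv ℝ V p‖ ≤ M)
    (hθ' : ∀ p ∈ D, θ ≤ 1 + L ^ 2 * LinearMap.det (fderiv ℝ V p).toLinearMap)
    (hT : ∀ ε₁ > 0, ∃ δ₁ > 0, ∀ x ∈ D, ∀ ℓ p : E2, ‖ℓ - x‖ ≤ δ₁ → ‖p - x‖ ≤ δ₁ →
          ‖V p - V ℓ - fderiv ℝ V x (p - ℓ)‖ ≤ ε₁ * ‖p - ℓ‖)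
    (hUc : ∀ ε₂ > 0, ∃ δ₂ > 0, ∀ z ∈ D, ∀ ℓ : E2, ‖ℓ - z‖ ≤ δ₂ → ‖V ℓ - V z‖ ≤ ε₂)
    (ε : ℝ) (hε : 0 < ε) :
    ∃ (k : ℕ) (c a b g : Fin k → E2),
      (∀ i, a i ≠ 0 ∧ ‖b i‖ = ‖a i‖ ∧ inner ℝ (a i) (b i) = 0) ∧
      {z : ℝ × E2 | ∃ p ∈ D, abs z.1 ≤ L ∧ z.2 = p + z.1 • V p} ⊆
        ⋃ i, {z : ℝ × E2 | ∃ x ∈ Set.Icc (0 : ℝ) 1, ∃ y ∈ Set.Icc (0 : ℝ) 1,
          z.2 = c i + x • a i + y • b i + z.1 • g i} ∧
      ∑ i, ‖a i‖ ^ 2 / Real.sqrt (1 + (g i 0) ^ 2 + h ^ 2 * (g i 1) ^ 2) ≤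
        (∫ p in D, Jf h (V p)) + ε := by
  classical
  -- constants
  obtain ⟨C₀, hC₀⟩ : ∃ C₀ : ℝ, C₀ = (1 + L * M) / θ := ⟨_, rfl⟩
  have hC₀pos : 0 < C₀ := by rw [hC₀]; positivity
  obtain ⟨vD, hvD⟩ : ∃ vD : ℝ, vD = (volume D).toReal := ⟨_, rfl⟩
  have hvD0 : 0 ≤ vD := by rw [hvD]; exact ENNReal.toReal_nonneg
  obtain ⟨I, hI⟩ : ∃ I : ℝ, I = ∫ p in D, Jf h (V p) := ⟨_, rfl⟩
  have hJc : ContinuousOn (fun p => Jf h (V p)) D := (continuous_Jf h).comp_continuousOn hVc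
  have hJint : IntegrableOn (fun p => Jf h (V p)) D := hJc.integrableOn_compact hD
  have hcint : ∀ c : ℝ, IntegrableOn (fun _ : E2 => c) D := fun c =>
    (continuous_const.continuousOn).integrableOn_compact hD
  have hcval : ∀ c : ℝ, ∫ _ in D, c = c * vD := by
    intro c
    rw [setIntegral_const, hvD, smul_eq_mul, mul_comm]
    rfl
  have hI0 : 0 ≤ I := by
    rw [hI]
    exact setIntegral_nonneg hD.measurableSet (fun p _ => (Jf_pos h _).le)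
  have hIv : I ≤ vD := by
    have h1 : ∫ p in D, Jf h (V p) ≤ ∫ _ in D, (1 : ℝ) :=
      setIntegral_mono_on hJint (hcint 1) hD.measurableSet (fun p _ => Jf_le_one h _)
    rw [hcval 1] at h1
    rw [hI]; linarith
  -- ν
  obtain ⟨ν, hν⟩ : ∃ ν : ℝ, ν = min 1 (ε / (16 * (vD + ε))) := ⟨_, rfl⟩
  have hνpos : 0 < ν := by
    rw [hν]; apply lt_min one_pos; positivity
  have hν1 : ν ≤ 1 := by rw [hν]; exact min_le_left _ _
  have hν2 : ν * (16 * (vD + ε)) ≤ ε := by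
    have : ν ≤ ε / (16 * (vD + ε)) := by rw [hν]; exact min_le_right _ _
    rwa [le_div_iff₀ (by positivity)] at this
  -- Taylor
  obtain ⟨δ₁, hδ₁, hT'⟩ := hT (ν / (2 * L * C₀)) (by positivity)
  -- uniform continuity
  obtain ⟨ε₂, hε₂⟩ : ∃ ε₂ : ℝ, ε₂ = ε / (4 * (vD + 1)) := ⟨_, rfl⟩
  have hε₂pos : 0 < ε₂ := by rw [hε₂]; positivity
  have hε₂v : ε₂ * vD ≤ ε / 4 := by
    rw [hε₂, div_mul_eq_mul_div, div_le_iff₀ (by positivity)]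
    nlinarith
  obtain ⟨δ₂, hδ₂, hU'⟩ := hUc (ε₂ / (1 + h)) (by positivity)
  -- partition
  obtain ⟨n, x, P, hxD, hPm, hPD, hPball, hPdisj, hDP, hPcl⟩ :=
    exists_partition D hD (δ₁ / 2) (by positivity)
  obtain ⟨ε₃, hε₃⟩ : ∃ ε₃ : ℝ, ε₃ = ε / (4 * ((n : ℝ) + 1)) := ⟨_, rfl⟩
  have hε₃pos : 0 < ε₃ := by rw [hε₃]; positivity
  have hε₃n : (n : ℝ) * ε₃ ≤ ε / 4 := by
    rw [hε₃, mul_div_assoc', div_le_iff₀ (by positivity)]
    nlinarith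
  -- choose r
  have hev : ∀ᶠ r in 𝓝[>] (0 : ℝ),
      (∀ i, (volume (Metric.thickening r (P i) \ P i)).toReal ≤ ε₃) ∧ r < δ₁ / 2 ∧ r < δ₂ ∧
        0 < r := by
    have h1 : ∀ᶠ r in 𝓝[>] (0 : ℝ),
        ∀ i, (volume (Metric.thickening r (P i) \ P i)).toReal ≤ ε₃ :=
      Filter.eventually_all.2 (fun i => eventually_thickening_small (P i) (hPm i)
        (Metric.isBounded_closedBall.subset (hPball i)) (hPcl i) ε₃ hε₃pos)
    have h2 : ∀ᶠ r in 𝓝[>] (0 : ℝ), r < δ₁ / 2 :=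
      (eventually_lt_nhds (by positivity)).filter_mono nhdsWithin_le_nhds
    have h3 : ∀ᶠ r in 𝓝[>] (0 : ℝ), r < δ₂ :=
      (eventually_lt_nhds hδ₂).filter_mono nhdsWithin_le_nhds
    have h4 : ∀ᶠ r in 𝓝[>] (0 : ℝ), 0 < r := self_mem_nhdsWithin
    filter_upwards [h1, h2, h3, h4] with r a b c d using ⟨a, b, c, d⟩
  obtain ⟨r, hr1, hr2, hr3, hrpos⟩ := hev.exists
  obtain ⟨σ, hσ⟩ : ∃ σ : ℝ, σ = r / (2 * C₀ + 2) := ⟨_, rfl⟩
  have hσpos : 0 < σ := by rw [hσ]; positivity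
  have hrσ : r = (2 * C₀ + 2) * σ := by rw [hσ]; field_simp
  have h2C : 2 * C₀ * σ ≤ r := by rw [hrσ]; nlinarith
  have h2σ : 2 * σ ≤ r := by rw [hrσ]; nlinarith
  -- φ
  obtain ⟨φ, hφ⟩ : ∃ φ : E2 → ℝ, φ = fun z => Jf h (V z) + ε₂ := ⟨_, rfl⟩
  have hφint : IntegrableOn φ D := by
    rw [hφ]; exact hJint.add (hcint ε₂)
  have hφD : ∫ z in D, φ z = I + ε₂ * vD := by
    rw [hφ, hI, ← hcval ε₂]
    exact integral_add hJint (hcint ε₂)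
  -- pieces
  have hpiece : ∀ i : Fin n, ∃ (S : Finset (ℤ × ℤ)) (ob : OrthonormalBasis (Fin 2) ℝ E2),
      (∀ p ∈ P i, ∀ s : ℝ, |s| ≤ L → ∃ jk ∈ S, ∃ x' ∈ Set.Icc (0 : ℝ) 1,
        ∃ y ∈ Set.Icc (0 : ℝ) 1,
          p + s • V p = (latPt (x i) σ ob jk.1 jk.2 - (ν * σ) • (ob 0 + ob 1))
            + x' • ((σ + 2 * ν * σ) • ob 0) + y • ((σ + 2 * ν * σ) • ob 1)
            + s • V (latPt (x i) σ ob jk.1 jk.2)) ∧
      ∑ jk ∈ S, σ ^ 2 * Jf h (V (latPt (x i) σ ob jk.1 jk.2)) ≤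
        (∫ z in P i, φ z) + (volume (Metric.thickening r (P i) \ P i)).toReal := by
    intro i
    refine piece_result V L h hL (x i) (htr _ (hxD i)) (hdet _ (hxD i)) M θ C₀ hθ
      (hM _ (hxD i)) (hθ' _ (hxD i)) hC₀.ge (P i) (hPm i) (δ₁ / 2) (hPball i) ν σ r hνpos
      hσpos hrσ ?_ φ (hφint.mono_set (hPD i)) ?_ ?_
    · intro ℓ p hp hpℓ
      have hpx : ‖p - x i‖ ≤ δ₁ / 2 := by
        have := hPball i hp
        rwa [Metric.mem_closedBall, dist_eq_norm] at this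
      have hℓx : ‖ℓ - x i‖ ≤ δ₁ := by
        calc ‖ℓ - x i‖ = ‖(p - x i) - (p - ℓ)‖ := by congr 1; abel
          _ ≤ ‖p - x i‖ + ‖p - ℓ‖ := norm_sub_le _ _
          _ ≤ δ₁ := by linarith
      have := hT' (x i) (hxD i) ℓ p hℓx (by linarith)
      calc L * ‖V p - V ℓ - fderiv ℝ V (x i) (p - ℓ)‖
          ≤ L * (ν / (2 * L * C₀) * ‖p - ℓ‖) := mul_le_mul_of_nonneg_left this hL.le
        _ ≤ L * (ν / (2 * L * C₀) * (2 * C₀ * σ)) := by gcongr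
        _ = ν * σ := by field_simp
    · intro z _
      rw [hφ]
      have := Jf_pos h (V z)
      show 0 ≤ Jf h (V z) + ε₂
      linarith
    · intro z hz ℓ hzℓ
      rw [hφ]
      have hzD := hPD i hz
      have h1 : ‖V ℓ - V z‖ ≤ ε₂ / (1 + h) :=
        hU' z hzD ℓ (by rw [norm_sub_rev]; linarith)
      have h2 := Jf_lipschitz h hh (V ℓ) (V z)
      have h3 : (1 + h) * ‖V ℓ - V z‖ ≤ ε₂ := by
        calc (1 + h) * ‖V ℓ - V z‖ ≤ (1 + h) * (ε₂ / (1 + h)) := by gcongr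
          _ = ε₂ := by field_simp
      have := (abs_le.1 (h2.trans h3)).2
      show Jf h (V ℓ) ≤ Jf h (V z) + ε₂
      linarith
  choose S ob hcover hcost using hpiece
  have hUnion : ⋃ i, P i = D := Set.Subset.antisymm (Set.iUnion_subset hPD) hDP
  apply fin_of_fintype (ι := Σ i : Fin n, {jk : ℤ × ℤ // jk ∈ S i})
    (fun q => latPt (x q.1) σ (ob q.1) q.2.1.1 q.2.1.2 - (ν * σ) • (ob q.1 0 + ob q.1 1))
    (fun q => (σ + 2 * ν * σ) • ob q.1 0)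
    (fun q => (σ + 2 * ν * σ) • ob q.1 1)
    (fun q => V (latPt (x q.1) σ (ob q.1) q.2.1.1 q.2.1.2))
  · intro q
    have hpos : 0 < σ + 2 * ν * σ := by positivity
    have hna : ‖ob q.1 0‖ = 1 := (ob q.1).orthonormal.1 0
    have hnb : ‖ob q.1 1‖ = 1 := (ob q.1).orthonormal.1 1
    refine ⟨?_, ?_, ?_⟩
    · intro h0
      have : ‖(σ + 2 * ν * σ) • ob q.1 0‖ = 0 := by rw [h0, norm_zero]
      rw [norm_smul, hna, Real.norm_of_nonneg hpos.le] at this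
      linarith
    · rw [norm_smul, norm_smul, hna, hnb]
    · rw [inner_smul_left, inner_smul_right, frame_inner]; simp
  · rintro z ⟨p, hp, hz1, hz2⟩
    obtain ⟨i, hi⟩ := Set.mem_iUnion.1 (hDP hp)
    obtain ⟨jk, hjk, x', hx', y, hy, heq⟩ := hcover i p hi z.1 hz1
    refine Set.mem_iUnion.2 ⟨⟨i, ⟨jk, hjk⟩⟩, x', hx', y, hy, ?_⟩
    rw [hz2]; exact heq
  · have hterm : ∀ q : (Σ i : Fin n, {jk : ℤ × ℤ // jk ∈ S i}),
        ‖(σ + 2 * ν * σ) • ob q.1 0‖ ^ 2 /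
          Real.sqrt (1 + (V (latPt (x q.1) σ (ob q.1) q.2.1.1 q.2.1.2) 0) ^ 2 +
            h ^ 2 * (V (latPt (x q.1) σ (ob q.1) q.2.1.1 q.2.1.2) 1) ^ 2)
        = (1 + 2 * ν) ^ 2 * (σ ^ 2 * Jf h (V (latPt (x q.1) σ (ob q.1) q.2.1.1 q.2.1.2))) := by
      intro q
      have hna : ‖ob q.1 0‖ = 1 := (ob q.1).orthonormal.1 0
      rw [norm_smul, hna, Real.norm_of_nonneg (by positivity)]
      unfold Jf
      ring
    rw [Finset.sum_congr rfl (fun q _ => hterm q), ← Finset.mul_sum, Fintype.sum_sigma]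
    have hinner : ∀ i : Fin n,
        ∑ y : {jk : ℤ × ℤ // jk ∈ S i}, σ ^ 2 * Jf h (V (latPt (x i) σ (ob i) y.1.1 y.1.2)) =
          ∑ jk ∈ S i, σ ^ 2 * Jf h (V (latPt (x i) σ (ob i) jk.1 jk.2)) := fun i =>
      Finset.sum_coe_sort (S i) (fun jk => σ ^ 2 * Jf h (V (latPt (x i) σ (ob i) jk.1 jk.2)))
    rw [Finset.sum_congr rfl (fun i _ => hinner i)]
    have hsum : ∑ i, ∑ jk ∈ S i, σ ^ 2 * Jf h (V (latPt (x i) σ (ob i) jk.1 jk.2)) ≤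
        I + ε₂ * vD + n * ε₃ := by
      calc ∑ i, ∑ jk ∈ S i, σ ^ 2 * Jf h (V (latPt (x i) σ (ob i) jk.1 jk.2))
          ≤ ∑ i : Fin n, ((∫ z in P i, φ z) + ε₃) :=
            Finset.sum_le_sum (fun i _ => (hcost i).trans (by linarith [hr1 i]))
        _ = (∑ i, ∫ z in P i, φ z) + n * ε₃ := by
            rw [Finset.sum_add_distrib]; simp
        _ = (∫ z in ⋃ i, P i, φ z) + n * ε₃ := by
            rw [integral_iUnion_fintype hPm hPdisj (fun i => hφint.mono_set (hPD i))]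
        _ = I + ε₂ * vD + n * ε₃ := by rw [hUnion, hφD]
    have hT0 : 0 ≤ I + ε₂ * vD + n * ε₃ := by positivity
    have hT1 : I + ε₂ * vD + n * ε₃ ≤ I + ε / 2 := by linarith
    have hsq : (1 + 2 * ν) ^ 2 ≤ 1 + 8 * ν := by nlinarith
    rw [← hI]
    calc (1 + 2 * ν) ^ 2 * ∑ i, ∑ jk ∈ S i, σ ^ 2 * Jf h (V (latPt (x i) σ (ob i) jk.1 jk.2))
        ≤ (1 + 2 * ν) ^ 2 * (I + ε₂ * vD + n * ε₃) :=
          mul_le_mul_of_nonneg_left hsum (by positivity)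
      _ ≤ (1 + 8 * ν) * (I + ε₂ * vD + n * ε₃) := mul_le_mul_of_nonneg_right hsq hT0
      _ ≤ (1 + 8 * ν) * (I + ε / 2) := mul_le_mul_of_nonneg_left hT1 (by positivity)
      _ ≤ I + ε := by
          nlinarith [mul_le_mul_of_nonneg_left (show I + ε / 2 ≤ vD + ε by linarith) hνpos.le]

end Crest.Agent.Lib_helper6_Sq6
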