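import Mathlib
import Crest.Prelude.Def_AsymptoticConvexity
import Crest.Prelude.Def_TreePotentials
import Crest.Prelude.Def_DaugavetL1
import Crest.Prelude.Def_Diamond

/-!
Shared definitions for row 125 (S0166, S0167, S0168, S0169).  No proofs of results here.
-/

set_option autoImplicit false

namespace Crest.Agent.Lib_helper9_Defs

open Crest.AnalysisR Crest.AnalysisR.TreePotential

/-- A closed linear subspace of finite codimension, as a set (generic form of `RealBanach.IsCof`). -/
def Cof {X : Type*} [NormedAddCommGroup X] [NormedSpace ℝ X] (F : Set X) : Prop :=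
  ∃ S : Submodule ℝ X, (S : Set X) = F ∧ IsClosed F ∧ FiniteDimensional ℝ (X ⧸ S)

/-- A sequence is weakly null. -/
def WeaklyNull {X : Type*} [NormedAddCommGroup X] [NormedSpace ℝ X] (y : ℕ → X) : Prop :=
  ∀ φ : X →L[ℝ] ℝ, Filter.Tendsto (fun n => φ (y n)) Filter.atTop (nhds 0)

/-- A finite set of tree vertices closed under passing to ancestors (suffixes). -/
def AncClosed (S : Finset (List ℕ)) : Prop := ∀ s ∈ S, ∀ u : List ℕ, u <:+ s → u ∈ S

/-- The ambient sup-norm space of model `m`. -/
abbrev Amb (m : PotentialModel) : Type := lp (fun _ : PotentialTest m => ℝ) ⊤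

/-- The depth-`k` piece of the global model: closed span of the coordinate vectors of the
vertices of depth at most `k`. -/
noncomputable def piece (k : ℕ) : Submodule ℝ (Amb .global) :=
  (Submodule.span ℝ (coordVector .global '' {s : List ℕ | s.length ≤ k})).topologicalClosure

instance (k : ℕ) : CompleteSpace (piece k) :=
  (Submodule.isClosed_topologicalClosure _).completeSpace_coe

/-- The underlying type of the reflexive example: the `ℓ²`-sum of the pieces. -/
abbrev EX : Type := lp (fun k : ℕ => piece k) 2

/-- The reflexive example as a `RealBanach` record. -/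
noncomputable def E : RealBanach := ⟨EX, inferInstance, inferInstance, inferInstance⟩

end Crest.Agent.Lib_helper9_Defs
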