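import Mathlib
import Crest.Agent.Lib_helper9_Defs

/-!
P0 of row 125: abstract Banach-space lemmas.
-/

set_option autoImplicit false

namespace Crest.Agent.Lib_helper9_AUC

open Crest.AnalysisR Crest.Agent.Lib_helper9_Defs Filter Topology

section general

variable {X : Type*} [NormedAddCommGroup X] [NormedSpace ℝ X]

/-- A sequence with an upper `ℓ²` estimate is weakly null. -/
theorem weaklyNull_of_upper_l2 (y : ℕ → X)
    (K : ℝ)
    (h : ∀ (A : Finset ℕ) (c : ℕ → ℝ), ‖∑ n ∈ A, c n • y n‖ ≤ K * Real.sqrt (∑ n ∈ A, c n ^ 2)) :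
    WeaklyNull y := by
  intro φ
  have hb : ∀ A : Finset ℕ, ∑ n ∈ A, (φ (y n)) ^ 2 ≤ (‖φ‖ * K) ^ 2 := by
    intro A
    set s := ∑ n ∈ A, (φ (y n)) ^ 2 with hs
    have hs0 : 0 ≤ s := Finset.sum_nonneg (fun n _ => sq_nonneg _)
    have h1 : s = φ (∑ n ∈ A, (φ (y n)) • y n) := by
      rw [map_sum]
      simp only [hs, map_smul, smul_eq_mul, sq]
    have h2 : s ≤ ‖φ‖ * (K * Real.sqrt s) := by
      calc s = φ (∑ n ∈ A, (φ (y n)) • y n) := h1
        _ ≤ ‖φ (∑ n ∈ A, (φ (y n)) • y n)‖ := Real.le_norm_self _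
        _ ≤ ‖φ‖ * ‖∑ n ∈ A, (φ (y n)) • y n‖ := φ.le_opNorm _
        _ ≤ ‖φ‖ * (K * Real.sqrt s) := by
            gcongr
            exact h A _
    have h3 : Real.sqrt s * Real.sqrt s = s := Real.mul_self_sqrt hs0
    have h4 : 0 ≤ Real.sqrt s := Real.sqrt_nonneg s
    rcases h4.eq_or_lt with h5 | h5
    · have : s = 0 := by rw [← h3, ← h5]; ring
      rw [this]; positivity
    · have h6 : Real.sqrt s ≤ ‖φ‖ * K := by
        have : Real.sqrt s * Real.sqrt s ≤ (‖φ‖ * K) * Real.sqrt s := by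
          rw [h3]; linarith
        exact le_of_mul_le_mul_right this h5
      have h7 : 0 ≤ ‖φ‖ * K := le_trans h4 h6
      calc s = Real.sqrt s * Real.sqrt s := h3.symm
        _ ≤ (‖φ‖ * K) * (‖φ‖ * K) := mul_le_mul h6 h6 h4 h7
        _ = (‖φ‖ * K) ^ 2 := by ring
  have hsum : Summable (fun n => (φ (y n)) ^ 2) :=
    summable_of_sum_le (fun n => sq_nonneg _) hb
  have h0 : Tendsto (fun n => (φ (y n)) ^ 2) atTop (𝓝 0) := hsum.tendsto_atTop_zero
  have h1 : Tendsto (fun n => Real.sqrt ((φ (y n)) ^ 2)) atTop (𝓝 0) := by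
    have := (Real.continuous_sqrt.tendsto 0).comp h0
    simp only [Real.sqrt_zero] at this
    exact this
  have h2 : Tendsto (fun n => |φ (y n)|) atTop (𝓝 0) := by
    refine h1.congr (fun n => ?_)
    exact Real.sqrt_sq_eq_abs _
  exact (tendsto_zero_iff_abs_tendsto_zero _).mpr h2

/-- In finite dimension weakly null sequences are norm null. -/
theorem tendsto_zero_of_weaklyNull [FiniteDimensional ℝ X] (y : ℕ → X) (hy : WeaklyNull y) :
    Tendsto y atTop (𝓝 0) := by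
  classical
  let b := Module.finBasis ℝ X
  have h1 : ∀ n, y n = ∑ i, (b.coord i (y n)) • b i := fun n => by
    simp [Module.Basis.sum_repr]
  have h2 : ∀ i, Tendsto (fun n => b.coord i (y n)) atTop (𝓝 0) := fun i =>
    hy (LinearMap.toContinuousLinearMap (b.coord i))
  have h3 : Tendsto (fun n => ∑ i, (b.coord i (y n)) • b i) atTop (𝓝 (∑ i, (0 : ℝ) • b i)) :=
    tendsto_finsetSum _ (fun i _ => (h2 i).smul_const (b i))
  simp only [zero_smul, Finset.sum_const_zero] at h3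
  exact h3.congr (fun n => (h1 n).symm)

/-- A weakly null sequence bounded away from zero exists only in infinite dimension. -/
theorem not_finiteDimensional_of_weaklyNull
    (y : ℕ → X) (c : ℝ) (hc : 0 < c) (hy : WeaklyNull y) (hlow : ∀ n, c ≤ ‖y n‖) :
    ¬ FiniteDimensional ℝ X := by
  intro hfd
  have h := tendsto_zero_of_weaklyNull y hy
  have h' : Tendsto (fun n => ‖y n‖) atTop (𝓝 0) := tendsto_zero_iff_norm_tendsto_zero.mp h
  obtain ⟨n, hn⟩ := (h'.eventually (gt_mem_nhds hc)).exists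
  exact absurd (hlow n) (not_le.mpr hn)

/-- The kernel of a continuous linear map into a finite-dimensional space is `Cof`. -/
theorem cof_ker
    {G : Type*} [NormedAddCommGroup G] [NormedSpace ℝ G] [FiniteDimensional ℝ G]
    (T : X →L[ℝ] G) :
    IsClosed ((LinearMap.ker T.toLinearMap : Submodule ℝ X) : Set X) ∧
      FiniteDimensional ℝ (X ⧸ (LinearMap.ker T.toLinearMap : Submodule ℝ X)) := by
  refine ⟨T.isClosed_ker, ?_⟩
  exact LinearEquiv.finiteDimensional (T.toLinearMap.quotKerEquivRange).symm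

/-- Weakly null sequences are eventually close to any closed finite-codimensional subspace. -/
theorem exists_mem_near_of_weaklyNull
    (S : Submodule ℝ X) (hS : IsClosed (S : Set X)) (hfin : FiniteDimensional ℝ (X ⧸ S))
    (y : ℕ → X) (hy : WeaklyNull y) (ε : ℝ) (hε : 0 < ε) :
    ∃ n₀ : ℕ, ∀ n, n₀ ≤ n → ∃ z ∈ S, ‖y n - z‖ < ε := by
  have := hS
  have hq : WeaklyNull (fun n => S.mkQL (y n)) := fun ψ => hy (ψ.comp S.mkQL)
  have h := tendsto_zero_of_weaklyNull _ hq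
  have h' : Tendsto (fun n => ‖S.mkQL (y n)‖) atTop (𝓝 0) :=
    tendsto_zero_iff_norm_tendsto_zero.mp h
  have hε2 : (0 : ℝ) < ε / 2 := by linarith
  obtain ⟨n₀, hn₀⟩ := eventually_atTop.mp (h'.eventually (gt_mem_nhds hε2))
  refine ⟨n₀, fun n hn => ?_⟩
  obtain ⟨w, hw, hw'⟩ := Submodule.Quotient.norm_mk_lt (S.mkQL (y n)) hε2
  refine ⟨y n - w, ?_, ?_⟩
  · have : (Submodule.Quotient.mk (y n - w) : X ⧸ S) = 0 := by
      rw [Submodule.Quotient.mk_sub, hw]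
      exact sub_self _
    exact (Submodule.Quotient.mk_eq_zero S).mp this
  · have h1 := hn₀ n hn
    have : y n - (y n - w) = w := by abel
    rw [this]
    linarith

/-- Pulling back a closed finite-codimensional subspace along a continuous linear map. -/
theorem cof_comap {Y : Type*} [NormedAddCommGroup Y] [NormedSpace ℝ Y] (L : Y →L[ℝ] X)
    (S : Submodule ℝ X) (hS : IsClosed (S : Set X)) (hfin : FiniteDimensional ℝ (X ⧸ S)) :
    ∃ S' : Submodule ℝ Y, IsClosed (S' : Set Y) ∧ FiniteDimensional ℝ (Y ⧸ S') ∧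
      ∀ y : Y, y ∈ S' ↔ L y ∈ S := by
  have := hS
  obtain ⟨h1, h2⟩ := cof_ker (S.mkQL.comp L)
  refine ⟨_, h1, h2, fun y => ?_⟩
  rw [LinearMap.mem_ker]
  exact Submodule.Quotient.mk_eq_zero S

/-- The intersection of two closed finite-codimensional subspaces. -/
theorem cof_inf (S T : Submodule ℝ X) (hS : IsClosed (S : Set X))
    (hSfin : FiniteDimensional ℝ (X ⧸ S)) (hT : IsClosed (T : Set X))
    (hTfin : FiniteDimensional ℝ (X ⧸ T)) :
    IsClosed ((S ⊓ T : Submodule ℝ X) : Set X) ∧ FiniteDimensional ℝ (X ⧸ (S ⊓ T)) := by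
  have := hS
  have := hT
  obtain ⟨h1, h2⟩ := cof_ker ((S.mkQL).prod (T.mkQL))
  have e : LinearMap.ker ((S.mkQL).prod (T.mkQL)).toLinearMap = S ⊓ T := by
    ext y
    rw [LinearMap.mem_ker, Submodule.mem_inf]
    change (S.mkQL y, T.mkQL y) = 0 ↔ _
    rw [Prod.mk_eq_zero]
    exact and_congr (Submodule.Quotient.mk_eq_zero S) (Submodule.Quotient.mk_eq_zero T)
  rw [e] at h1 h2
  exact ⟨h1, h2⟩

end general

section auc

variable {X : Type} [i1 : NormedAddCommGroup X] [i2 : NormedSpace ℝ X] [i3 : CompleteSpace X]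

/-- Growth step for an AUC norm. -/
theorem auc_growth (N : X → ℝ) (hN : (RealBanach.mk X i1 i2 i3).IsEquivNorm N)
    (hA : (RealBanach.mk X i1 i2 i3).IsAUC N) (t : ℝ) (ht : 0 < t) :
    ∃ c : ℝ, 0 < c ∧ ∀ x : X, x ≠ 0 → ∃ S : Submodule ℝ X, IsClosed (S : Set X) ∧
      FiniteDimensional ℝ (X ⧸ S) ∧ ∀ z ∈ S, t * N x ≤ N z → (1 + c) * N x ≤ N (x + z) := by
  obtain ⟨hsub, hhom, a, b, ha, hab⟩ := hN
  obtain ⟨c, hc, hF⟩ := hA t ht
  refine ⟨c, hc, fun x hx => ?_⟩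
  have hxn : 0 < ‖x‖ := norm_pos_iff.mpr hx
  have hp : 0 < N x := lt_of_lt_of_le (mul_pos ha hxn) (hab x).1
  set p := N x with hpdef
  have hx'1 : N (p⁻¹ • x) = 1 := by
    rw [hhom, abs_of_pos (inv_pos.mpr hp)]
    exact inv_mul_cancel₀ hp.ne'
  obtain ⟨F, ⟨S, hSF, hcl, hfd⟩, hy⟩ := hF (p⁻¹ • x) hx'1
  refine ⟨S, by rw [hSF]; exact hcl, hfd, fun z hz hzN => ?_⟩
  have hq : 0 < N z := lt_of_lt_of_le (mul_pos ht hp) hzN
  set q := N z with hqdef
  have hz'1 : N (q⁻¹ • z) = 1 := by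
    rw [hhom, abs_of_pos (inv_pos.mpr hq)]
    exact inv_mul_cancel₀ hq.ne'
  have hz'F : q⁻¹ • z ∈ F := by
    rw [← hSF]
    exact S.smul_mem _ hz
  have h1 := hy (q⁻¹ • z) hz'F hz'1
  set τ := t * p / q with hτ
  have hτ0 : 0 < τ := div_pos (mul_pos ht hp) hq
  have hτ1 : τ ≤ 1 := by
    rw [hτ, div_le_one hq]
    exact hzN
  have key : p⁻¹ • x + t • q⁻¹ • z = (1 - τ) • p⁻¹ • x + τ • p⁻¹ • (x + z) := by
    rw [hτ]
    match_scalars <;> field_simp
    ring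
  have h2 : N (p⁻¹ • x + t • q⁻¹ • z) ≤ (1 - τ) + τ * (p⁻¹ * N (x + z)) := by
    rw [key]
    have e1 : N ((1 - τ) • p⁻¹ • x) = 1 - τ := by
      rw [hhom (1 - τ), hx'1, abs_of_nonneg (by linarith : (0 : ℝ) ≤ 1 - τ), mul_one]
    have e2 : N (τ • p⁻¹ • (x + z)) = τ * (p⁻¹ * N (x + z)) := by
      rw [hhom τ, hhom p⁻¹, abs_of_pos hτ0, abs_of_pos (inv_pos.mpr hp)]
    calc N ((1 - τ) • p⁻¹ • x + τ • p⁻¹ • (x + z))
        ≤ N ((1 - τ) • p⁻¹ • x) + N (τ • p⁻¹ • (x + z)) := hsub _ _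
      _ = (1 - τ) + τ * (p⁻¹ * N (x + z)) := by rw [e1, e2]
  have h3 : τ + c ≤ τ * (p⁻¹ * N (x + z)) := by linarith
  have h4 : τ * (1 + c) ≤ τ * (p⁻¹ * N (x + z)) := by nlinarith
  have h5 : 1 + c ≤ p⁻¹ * N (x + z) := le_of_mul_le_mul_left h4 hτ0
  have h6 : p * (1 + c) ≤ p * (p⁻¹ * N (x + z)) := mul_le_mul_of_nonneg_left h5 hp.le
  rw [← mul_assoc, mul_inv_cancel₀ hp.ne', one_mul] at h6
  linarith

/-- Game form: no equivalent AUC norm if player "tree" can always continue with an increment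
bounded below that is arbitrarily close to the cofinite subspace chosen by the opponent. -/
theorem no_AUC_of_game (c C : ℝ) (hc : 0 < c) (T : ℕ → Set X)
    (hne : ∀ j, (T j).Nonempty)
    (hbd : ∀ j, ∀ x ∈ T j, c ≤ ‖x‖ ∧ ‖x‖ ≤ C)
    (hstep : ∀ j, ∀ x ∈ T (j + 1), ∀ S : Submodule ℝ X, IsClosed (S : Set X) →
      FiniteDimensional ℝ (X ⧸ S) → ∀ ε : ℝ, 0 < ε →
        ∃ y : X, x + y ∈ T j ∧ c ≤ ‖y‖ ∧ ∃ z ∈ S, ‖y - z‖ < ε)
    (N : X → ℝ) (hN : (RealBanach.mk X i1 i2 i3).IsEquivNorm N) :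
    ¬ (RealBanach.mk X i1 i2 i3).IsAUC N := by
  intro hA
  have hN' := hN
  obtain ⟨hsub, hhom, a, b, ha, hab⟩ := hN
  obtain ⟨x₀, hx₀⟩ := hne 0
  have hC : 0 < C := lt_of_lt_of_le hc ((hbd 0 x₀ hx₀).1.trans (hbd 0 x₀ hx₀).2)
  have hb : 0 < b := by
    have h1 : 0 < ‖x₀‖ := lt_of_lt_of_le hc (hbd 0 x₀ hx₀).1
    have h2 : 0 < b * ‖x₀‖ :=
      lt_of_lt_of_le (mul_pos ha h1) ((hab x₀).1.trans (hab x₀).2)
    by_contra hb'
    rw [not_lt] at hb'
    nlinarith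
  have ht : 0 < a * c / (2 * b * C) := by positivity
  obtain ⟨c₁, hc₁, hg⟩ := auc_growth N hN' hA _ ht
  -- one step
  have step : ∀ j, ∀ x ∈ T (j + 1), ∃ x' ∈ T j, (1 + c₁ / 2) * N x ≤ N x' := by
    intro j x hx
    have hxc := hbd (j + 1) x hx
    have hx0 : x ≠ 0 := by
      intro h0
      rw [h0, norm_zero] at hxc
      linarith [hxc.1]
    obtain ⟨S, hScl, hSfd, hS⟩ := hg x hx0
    have hε : 0 < min (c / 2) (c₁ * a * c / (2 * b)) := by
      apply lt_min <;> positivity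
    obtain ⟨y, hxy, hyc, z, hz, hyz⟩ := hstep j x hx S hScl hSfd _ hε
    refine ⟨x + y, hxy, ?_⟩
    have hyz1 : ‖y - z‖ < c / 2 := lt_of_lt_of_le hyz (min_le_left _ _)
    have hyz2 : ‖y - z‖ < c₁ * a * c / (2 * b) := lt_of_lt_of_le hyz (min_le_right _ _)
    have hzn : c / 2 ≤ ‖z‖ := by
      have : ‖y‖ ≤ ‖y - z‖ + ‖z‖ := by
        calc ‖y‖ = ‖(y - z) + z‖ := by rw [sub_add_cancel]
          _ ≤ ‖y - z‖ + ‖z‖ := norm_add_le _ _
      linarith
    have hNz : a * c / (2 * b * C) * N x ≤ N z := by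
      have h1 : N x ≤ b * C := (hab x).2.trans (mul_le_mul_of_nonneg_left hxc.2 hb.le)
      have h2 : a * (c / 2) ≤ N z := (mul_le_mul_of_nonneg_left hzn ha.le).trans (hab z).1
      have h3 : a * c / (2 * b * C) * N x ≤ a * c / (2 * b * C) * (b * C) :=
        mul_le_mul_of_nonneg_left h1 ht.le
      have h4 : a * c / (2 * b * C) * (b * C) = a * (c / 2) := by
        field_simp
      linarith
    have hgrow := hS z hz hNz
    have hNx : a * c ≤ N x := (mul_le_mul_of_nonneg_left hxc.1 ha.le).trans (hab x).1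
    have hzy : N (z - y) ≤ c₁ / 2 * N x := by
      have h1 : N (z - y) ≤ b * ‖z - y‖ := (hab _).2
      have h2 : ‖z - y‖ = ‖y - z‖ := norm_sub_rev _ _
      have h3 : b * ‖y - z‖ ≤ b * (c₁ * a * c / (2 * b)) :=
        mul_le_mul_of_nonneg_left hyz2.le hb.le
      have h4 : b * (c₁ * a * c / (2 * b)) = c₁ / 2 * (a * c) := by
        field_simp
      have h5 : c₁ / 2 * (a * c) ≤ c₁ / 2 * N x :=
        mul_le_mul_of_nonneg_left hNx (by positivity)
      rw [h2] at h1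
      linarith
    have hsplit : N (x + z) ≤ N (x + y) + N (z - y) := by
      have : x + z = (x + y) + (z - y) := by abel
      rw [this]
      exact hsub _ _
    linarith
  -- iterate
  have iter : ∀ k j, ∀ x ∈ T (j + k), ∃ x' ∈ T j, (1 + c₁ / 2) ^ k * N x ≤ N x' := by
    intro k
    induction k with
    | zero =>
      intro j x hx
      exact ⟨x, hx, by simp⟩
    | succ k ih =>
      intro j x hx
      obtain ⟨x₁, hx₁, h1⟩ := step (j + k) x (by simpa [add_assoc] using hx)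
      obtain ⟨x', hx', h2⟩ := ih j x₁ hx₁
      refine ⟨x', hx', ?_⟩
      have h3 : (0 : ℝ) ≤ (1 + c₁ / 2) ^ k := by positivity
      calc (1 + c₁ / 2) ^ (k + 1) * N x = (1 + c₁ / 2) ^ k * ((1 + c₁ / 2) * N x) := by ring
        _ ≤ (1 + c₁ / 2) ^ k * N x₁ := mul_le_mul_of_nonneg_left h1 h3
        _ ≤ N x' := h2
  -- contradiction
  obtain ⟨k, hk⟩ := exists_nat_gt (2 * b * C / (a * c * c₁))
  obtain ⟨x, hx⟩ := hne (0 + k)
  obtain ⟨x', hx', h1⟩ := iter k 0 x hx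
  have hNx : a * c ≤ N x := (mul_le_mul_of_nonneg_left (hbd _ x hx).1 ha.le).trans (hab x).1
  have hNx' : N x' ≤ b * C := (hab x').2.trans (mul_le_mul_of_nonneg_left (hbd _ x' hx').2 hb.le)
  have hbern : 1 + (k : ℝ) * (c₁ / 2) ≤ (1 + c₁ / 2) ^ k :=
    one_add_mul_le_pow (by linarith) k
  have h2 : (1 + (k : ℝ) * (c₁ / 2)) * (a * c) ≤ b * C := by
    calc (1 + (k : ℝ) * (c₁ / 2)) * (a * c) ≤ (1 + c₁ / 2) ^ k * (a * c) :=
          mul_le_mul_of_nonneg_right hbern (by positivity)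
      _ ≤ (1 + c₁ / 2) ^ k * N x := mul_le_mul_of_nonneg_left hNx (by positivity)
      _ ≤ N x' := h1
      _ ≤ b * C := hNx'
  have h3 : 2 * b * C / (a * c * c₁) * (a * c * c₁) = 2 * b * C := by
    field_simp
  have h4 : 2 * b * C < (k : ℝ) * (a * c * c₁) := by
    rw [← h3]
    exact mul_lt_mul_of_pos_right hk (by positivity)
  nlinarith [mul_pos ha hc]

/-- No equivalent AUC norm, from uniformly bounded weakly null trees of every finite height.
`T j` = admissible roots of trees of height `j`. -/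
theorem no_AUC_of_trees (c C : ℝ) (hc : 0 < c) (T : ℕ → Set X)
    (hne : ∀ j, (T j).Nonempty)
    (hbd : ∀ j, ∀ x ∈ T j, c ≤ ‖x‖ ∧ ‖x‖ ≤ C)
    (hstep : ∀ j, ∀ x ∈ T (j + 1), ∃ y : ℕ → X,
      (∀ n, x + y n ∈ T j) ∧ (∀ n, c ≤ ‖y n‖) ∧ WeaklyNull y)
    (N : X → ℝ) (hN : (RealBanach.mk X i1 i2 i3).IsEquivNorm N) :
    ¬ (RealBanach.mk X i1 i2 i3).IsAUC N := by
  refine no_AUC_of_game c C hc T hne hbd ?_ N hN
  intro j x hx S hScl hSfd ε hε
  obtain ⟨y, hy1, hy2, hy3⟩ := hstep j x hx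
  obtain ⟨n₀, hn₀⟩ := exists_mem_near_of_weaklyNull S hScl hSfd y hy3 ε hε
  obtain ⟨z, hz, hyz⟩ := hn₀ n₀ le_rfl
  exact ⟨y n₀, hy1 n₀, hy2 n₀, z, hz, hyz⟩

/-- No equivalent AUC norm, if the one-sided modulus of the given norm vanishes at some `t > 0`. -/
theorem no_AUC_of_oneSided [Nontrivial X] (t : ℝ) (ht : 0 < t)
    (h : ∀ x : X, ‖x‖ = 1 → ∀ S : Submodule ℝ X, IsClosed (S : Set X) →
      FiniteDimensional ℝ (X ⧸ S) → ∀ η : ℝ, 0 < η → ∃ y ∈ S, ‖y‖ = 1 ∧ ‖x + t • y‖ ≤ 1 + η)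
    (N : X → ℝ) (hN : (RealBanach.mk X i1 i2 i3).IsEquivNorm N) :
    ¬ (RealBanach.mk X i1 i2 i3).IsAUC N := by
  obtain ⟨u, hu⟩ := exists_ne (0 : X)
  have hun : 0 < ‖u‖ := norm_pos_iff.mpr hu
  refine no_AUC_of_game (min 1 t) 2 (lt_min one_pos ht)
    (fun j => {x : X | 1 ≤ ‖x‖ ∧ ‖x‖ ≤ 1 + 1 / ((j : ℝ) + 1)}) ?_ ?_ ?_ N hN
  · intro j
    refine ⟨‖u‖⁻¹ • u, ?_⟩
    have h1 : ‖‖u‖⁻¹ • u‖ = 1 := by
      rw [norm_smul, norm_inv, norm_norm, inv_mul_cancel₀ hun.ne']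
    have h2 : (0 : ℝ) ≤ 1 / ((j : ℝ) + 1) := by positivity
    show 1 ≤ ‖‖u‖⁻¹ • u‖ ∧ ‖‖u‖⁻¹ • u‖ ≤ 1 + 1 / ((j : ℝ) + 1)
    rw [h1]
    constructor <;> linarith
  · intro j x hx
    have h2 : 1 / ((j : ℝ) + 1) ≤ 1 := by
      rw [div_le_one (by positivity)]
      have : (0 : ℝ) ≤ j := Nat.cast_nonneg j
      linarith
    exact ⟨(min_le_left _ _).trans hx.1, by linarith [hx.2]⟩
  · intro j x hx S hScl hSfd ε hε
    obtain ⟨hx1, hx2⟩ := hx
    have hxn : 0 < ‖x‖ := lt_of_lt_of_le one_pos hx1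
    have hx0 : x ≠ 0 := norm_pos_iff.mp hxn
    obtain ⟨φ, hφ1, hφ2⟩ := exists_dual_vector ℝ x hxn.ne'
    have := hScl
    -- the subspace `S ⊓ ker φ`
    let Tm : X →L[ℝ] (X ⧸ S) × ℝ := (S.mkQL).prod φ
    obtain ⟨hTcl, hTfd⟩ := cof_ker Tm
    have hxu : ‖‖x‖⁻¹ • x‖ = 1 := by
      rw [norm_smul, norm_inv, norm_norm, inv_mul_cancel₀ hxn.ne']
    have hη : (0 : ℝ) < 1 / (((j : ℝ) + 1) * ((j : ℝ) + 3)) := by positivity
    obtain ⟨y, hy, hy1, hy2⟩ := h (‖x‖⁻¹ • x) hxu _ hTcl hTfd _ hη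
    have hyker : S.mkQL y = 0 ∧ φ y = 0 := by
      have : Tm y = 0 := hy
      simpa [Tm, Prod.ext_iff] using this
    have hyS : y ∈ S := (Submodule.Quotient.mk_eq_zero S).mp hyker.1
    refine ⟨(‖x‖ * t) • y, ⟨?_, ?_⟩, ?_, (‖x‖ * t) • y, S.smul_mem _ hyS, by simpa using hε⟩
    · -- lower bound via the norming functional
      have h1 : φ (x + (‖x‖ * t) • y) = ‖x‖ := by
        rw [map_add, map_smul, hyker.2, hφ2]
        simp
      have h2 : φ (x + (‖x‖ * t) • y) ≤ ‖x + (‖x‖ * t) • y‖ := by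
        have := φ.le_opNorm (x + (‖x‖ * t) • y)
        rw [hφ1, one_mul] at this
        exact (Real.le_norm_self _).trans this
      linarith
    · -- upper bound
      have h1 : x + (‖x‖ * t) • y = ‖x‖ • (‖x‖⁻¹ • x + t • y) := by
        rw [smul_add, smul_smul, smul_smul, mul_inv_cancel₀ hxn.ne', one_smul]
      rw [h1, norm_smul, norm_norm]
      have hj : (0 : ℝ) ≤ j := Nat.cast_nonneg j
      have h3 : ‖x‖ * ‖‖x‖⁻¹ • x + t • y‖ ≤
          (1 + 1 / ((j : ℝ) + 1 + 1)) * (1 + 1 / (((j : ℝ) + 1) * ((j : ℝ) + 3))) := by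
        apply mul_le_mul _ hy2 (norm_nonneg _) (by positivity)
        simpa using hx2
      have h4 : (1 + 1 / ((j : ℝ) + 1 + 1)) * (1 + 1 / (((j : ℝ) + 1) * ((j : ℝ) + 3))) =
          1 + 1 / ((j : ℝ) + 1) := by
        field_simp
        ring
      linarith
    · rw [norm_smul, hy1, mul_one, Real.norm_eq_abs, abs_of_pos (mul_pos hxn ht)]
      calc min 1 t ≤ t := min_le_right _ _
        _ = 1 * t := (one_mul t).symm
        _ ≤ ‖x‖ * t := mul_le_mul_of_nonneg_right hx1 ht.le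

end auc

end Crest.Agent.Lib_helper9_AUC
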