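import Mathlib
import Crest.Prelude.Def_DaugavetL1

/-!
Row 125, package P5: the Daugavet property and closed finite-codimensional subspaces.

In a real normed space with the Daugavet property, for every unit vector `x`, every closed
subspace `S` of finite codimension and every `η > 0` there is a unit vector `y ∈ S` with
`‖x + 2 y‖ ≤ 1 + η`.

Proof: a slice lemma from the Daugavet equation, then a Frank–Wolfe averaging argument in a
finite-dimensional Euclidean quotient.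
-/

set_option autoImplicit false

namespace Crest.Agent.Lib_helper9_Daugavet

open Crest.AnalysisR

/-- Slice lemma: for `‖w‖ ≥ 1`, a functional `ψ` and `δ > 0` there is `u` in the unit ball which
almost norms `ψ` and is almost aligned with `w`. -/
theorem slice {V : Type*} [NormedAddCommGroup V] [NormedSpace ℝ V]
    (hD : L1Subspace.HasDaugavetProperty V) (w : V) (hw : 1 ≤ ‖w‖) (ψ : V →L[ℝ] ℝ)
    (δ : ℝ) (hδ : 0 < δ) :
    ∃ u : V, ‖u‖ ≤ 1 ∧ ‖ψ‖ - δ * ‖ψ‖ ≤ ψ u ∧ ‖w‖ + 1 - 2 * δ ≤ ‖w + u‖ := by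
  have hw0 : 0 < ‖w‖ := by linarith
  by_cases hψ : ψ = 0
  · refine ⟨(1 / ‖w‖) • w, ?_, ?_, ?_⟩
    · rw [norm_smul, Real.norm_of_nonneg (by positivity)]
      field_simp
      exact le_refl _
    · subst hψ
      simp
    · have h1 : w + (1 / ‖w‖) • w = (1 + 1 / ‖w‖) • w := by
        rw [add_smul, one_smul]
      rw [h1, norm_smul, Real.norm_of_nonneg (by positivity)]
      have : (1 + 1 / ‖w‖) * ‖w‖ = ‖w‖ + 1 := by field_simp
      rw [this]
      linarith
  · have hψn : 0 < ‖ψ‖ := norm_pos_iff.mpr hψ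
    set φ : V →L[ℝ] ℝ := (1 / ‖ψ‖) • ψ with hφ
    have hφn : ‖φ‖ = 1 := by
      rw [hφ, norm_smul, Real.norm_of_nonneg (by positivity)]
      field_simp
    have hT : ‖φ.smulRight w‖ = ‖w‖ := by
      rw [ContinuousLinearMap.norm_smulRight_apply, hφn, one_mul]
    have hDw := hD φ w
    rw [hT] at hDw
    have hr : 1 + ‖w‖ - δ < ‖ContinuousLinearMap.id ℝ V + φ.smulRight w‖ := by
      rw [hDw]; linarith
    obtain ⟨u1, hu1, hu1'⟩ := ContinuousLinearMap.exists_lt_apply_of_lt_opNorm _ hr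
    have happ : (ContinuousLinearMap.id ℝ V + φ.smulRight w) u1 = u1 + φ u1 • w := by
      simp
    rw [happ] at hu1'
    -- `|φ u1| * ‖w‖ > ‖w‖ - δ`
    have hφu1 : |φ u1| ≤ 1 := by
      have := φ.le_opNorm u1
      rw [hφn, one_mul, Real.norm_eq_abs] at this
      linarith
    have hb1 : ‖u1 + φ u1 • w‖ ≤ ‖u1‖ + |φ u1| * ‖w‖ := by
      refine (norm_add_le _ _).trans ?_
      rw [norm_smul, Real.norm_eq_abs]
    have hkey : ‖w‖ - δ < |φ u1| * ‖w‖ := by linarith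
    -- choose the sign
    obtain ⟨u, hu, hφu, hnu⟩ : ∃ u : V, ‖u‖ < 1 ∧ φ u = |φ u1| ∧
        ‖u + φ u • w‖ = ‖u1 + φ u1 • w‖ := by
      rcases le_total 0 (φ u1) with h | h
      · exact ⟨u1, hu1, by rw [abs_of_nonneg h], rfl⟩
      · refine ⟨-u1, by rwa [norm_neg], by rw [map_neg, abs_of_nonpos h], ?_⟩
        rw [map_neg, neg_smul, ← neg_add, norm_neg]
    set a : ℝ := |φ u1| with ha
    have ha1 : a ≤ 1 := hφu1
    have ha0 : 0 ≤ a := abs_nonneg _
    refine ⟨u, hu.le, ?_, ?_⟩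
    · -- `ψ u = ‖ψ‖ * a`
      have hψu : ψ u = ‖ψ‖ * a := by
        have : φ u = (1 / ‖ψ‖) * ψ u := by
          rw [hφ]; simp
        rw [← hφu, this]
        field_simp
      rw [hψu]
      have : 1 - δ ≤ a := by
        by_contra hcon
        rw [not_le] at hcon
        nlinarith
      nlinarith
    · -- `‖w + u‖ ≥ ‖u + a w‖ - (1 - a) ‖w‖`
      have h2 : u + a • w = (w + u) - (1 - a) • w := by
        rw [sub_smul, one_smul]; abel
      have h3 : ‖u + a • w‖ ≤ ‖w + u‖ + (1 - a) * ‖w‖ := by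
        rw [h2]
        refine (norm_sub_le _ _).trans ?_
        rw [norm_smul, Real.norm_of_nonneg (by linarith)]
      rw [hφu] at hnu
      rw [hnu] at h3
      nlinarith

/-- Frank–Wolfe induction: partial sums `U` of `j` unit-ball vectors which stay far from `n x`
and whose image under `p` tracks `j • p x`. -/
theorem fw {V : Type*} [NormedAddCommGroup V] [NormedSpace ℝ V]
    {H : Type*} [NormedAddCommGroup H] [InnerProductSpace ℝ H]
    (hD : L1Subspace.HasDaugavetProperty V) (p : V →L[ℝ] H) (x : V) (hx : ‖x‖ = 1)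
    (δ : ℝ) (hδ : 0 < δ) (n : ℕ) :
    ∀ j : ℕ, j ≤ n → ∃ U : V, ‖U‖ ≤ j ∧ (n : ℝ) + j - 2 * j * δ ≤ ‖U - (n : ℝ) • x‖ ∧
      ‖p (U - (j : ℝ) • x)‖ ^ 2 ≤ 4 * ‖p‖ ^ 2 * j + 2 * δ * ‖p‖ ^ 2 * (j : ℝ) ^ 2 := by
  intro j
  induction j with
  | zero =>
    intro _
    refine ⟨0, by simp, ?_, by simp⟩
    rw [zero_sub, norm_neg, norm_smul, hx]
    simp
  | succ j ih =>
    intro hj
    obtain ⟨U, hU1, hU2, hU3⟩ := ih (by omega)
    have hjn : (j : ℝ) + 1 ≤ n := by exact_mod_cast hj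
    have hj0 : (0 : ℝ) ≤ j := Nat.cast_nonneg j
    have hP0 : 0 ≤ ‖p‖ := norm_nonneg p
    set w : V := U - (n : ℝ) • x with hw
    have hnx : ‖(n : ℝ) • x‖ = n := by
      rw [norm_smul, hx, mul_one, Real.norm_of_nonneg (Nat.cast_nonneg n)]
    have hw1 : 1 ≤ ‖w‖ := by
      have h1 : ‖(n : ℝ) • x‖ ≤ ‖w‖ + ‖U‖ := by
        have : (n : ℝ) • x = -w + U := by rw [hw]; abel
        rw [this]
        refine (norm_add_le _ _).trans ?_
        rw [norm_neg]
      rw [hnx] at h1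
      linarith
    set G : H := p (U - (j : ℝ) • x) with hG
    set ψ : V →L[ℝ] ℝ := -((innerSL ℝ G).comp p) with hψ
    have hψapp : ∀ v, ψ v = - inner ℝ G (p v) := by
      intro v
      simp [hψ]
    obtain ⟨u, hu1, hu2, hu3⟩ := slice hD w hw1 ψ δ hδ
    have hjx : ‖(j : ℝ) • x‖ = j := by
      rw [norm_smul, hx, mul_one, Real.norm_of_nonneg hj0]
    have hGn : ‖G‖ ≤ ‖p‖ * (2 * j) := by
      refine (p.le_opNorm _).trans ?_
      refine mul_le_mul_of_nonneg_left ?_ hP0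
      refine (norm_sub_le _ _).trans ?_
      rw [hjx]; linarith
    have hψn : ‖ψ‖ ≤ ‖G‖ * ‖p‖ := by
      refine ContinuousLinearMap.opNorm_le_bound _ (by positivity) ?_
      intro v
      rw [hψapp, norm_neg, Real.norm_eq_abs]
      refine (abs_real_inner_le_norm _ _).trans ?_
      rw [mul_assoc]
      exact mul_le_mul_of_nonneg_left (p.le_opNorm v) (norm_nonneg _)
    have hψx : ψ x ≤ ‖ψ‖ := by
      have := ψ.le_opNorm x
      rw [hx, mul_one, Real.norm_eq_abs] at this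
      exact (le_abs_self _).trans this
    set d : H := p (u - x) with hd
    have hdn : ‖d‖ ≤ 2 * ‖p‖ := by
      refine (p.le_opNorm _).trans ?_
      have : ‖u - x‖ ≤ 2 := by
        refine (norm_sub_le _ _).trans ?_
        rw [hx]; linarith
      nlinarith
    have hGd : inner ℝ G d ≤ δ * ‖ψ‖ := by
      have h1 : inner ℝ G d = - ψ u + ψ x := by
        rw [hψapp, hψapp, hd, map_sub, inner_sub_right]
        ring
      rw [h1]
      linarith
    refine ⟨U + u, ?_, ?_, ?_⟩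
    · push_cast
      exact (norm_add_le _ _).trans (by linarith)
    · have : U + u - (n : ℝ) • x = w + u := by rw [hw]; abel
      rw [this]
      push_cast
      linarith
    · have h1 : U + u - ((j + 1 : ℕ) : ℝ) • x = (U - (j : ℝ) • x) + (u - x) := by
        push_cast
        rw [add_smul, one_smul]; abel
      rw [h1, map_add, ← hG, ← hd, norm_add_sq_real]
      have hd2 : ‖d‖ ^ 2 ≤ 4 * ‖p‖ ^ 2 := by
        have h0 : 0 ≤ ‖d‖ := norm_nonneg d
        nlinarith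
      have hψ2 : δ * ‖ψ‖ ≤ δ * (2 * j * ‖p‖ ^ 2) := by
        refine mul_le_mul_of_nonneg_left ?_ hδ.le
        refine hψn.trans ?_
        nlinarith
      push_cast
      nlinarith [mul_nonneg hδ.le (sq_nonneg ‖p‖)]

/-- Bounded lifting through a continuous linear map into a finite-dimensional space. -/
theorem exists_lift_bound {V : Type*} [NormedAddCommGroup V] [NormedSpace ℝ V]
    {H : Type*} [NormedAddCommGroup H] [NormedSpace ℝ H] [FiniteDimensional ℝ H]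
    (p : V →L[ℝ] H) :
    ∃ C : ℝ, 0 ≤ C ∧ ∀ v : V, ∃ v' : V, p v' = p v ∧ ‖v'‖ ≤ C * ‖p v‖ := by
  obtain ⟨g, hg⟩ := LinearMap.exists_rightInverse_of_surjective p.toLinearMap.rangeRestrict
    (LinearMap.range_rangeRestrict _)
  set gC : (LinearMap.range p.toLinearMap) →L[ℝ] V := LinearMap.toContinuousLinearMap g with hgC
  refine ⟨‖gC‖, gC.opNorm_nonneg, ?_⟩
  intro v
  set h : LinearMap.range p.toLinearMap := ⟨p v, LinearMap.mem_range_self _ v⟩ with hh
  refine ⟨g h, ?_, ?_⟩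
  · have h1 := congrArg (fun F => (F h : H)) hg
    simp only [LinearMap.comp_apply, LinearMap.id_apply] at h1
    have h2 : ((p.toLinearMap.rangeRestrict (g h) : LinearMap.range p.toLinearMap) : H)
        = p (g h) := rfl
    rw [h2] at h1
    rw [h1]
  · have h1 := gC.le_opNorm h
    have h2 : gC h = g h := rfl
    have h3 : ‖h‖ = ‖p v‖ := rfl
    rw [h2, h3] at h1
    exact h1

/-- The kernel form of the main lemma. -/
theorem daugavet_ker {V : Type*} [NormedAddCommGroup V] [NormedSpace ℝ V]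
    {H : Type*} [NormedAddCommGroup H] [InnerProductSpace ℝ H] [FiniteDimensional ℝ H]
    (hD : L1Subspace.HasDaugavetProperty V) (p : V →L[ℝ] H) (x : V) (hx : ‖x‖ = 1)
    (η : ℝ) (hη : 0 < η) :
    ∃ y : V, p y = 0 ∧ ‖y‖ = 1 ∧ ‖x + (2 : ℝ) • y‖ ≤ 1 + η := by
  obtain ⟨C, hC0, hC⟩ := exists_lift_bound p
  set η' : ℝ := min η 1 with hη'
  have hη'0 : 0 < η' := lt_min hη one_pos
  have hη'1 : η' ≤ 1 := min_le_right _ _
  have hη'η : η' ≤ η := min_le_left _ _
  set K : ℝ := C ^ 2 * ‖p‖ ^ 2 with hK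
  have hK0 : 0 ≤ K := by positivity
  set δ : ℝ := η' ^ 2 / (64 * K + 8) with hδ
  have hδ0 : 0 < δ := by positivity
  have hδ1 : 8 * δ ≤ η' := by
    rw [hδ, mul_div_assoc', div_le_iff₀ (by positivity)]
    nlinarith
  have hδ2 : 64 * (δ * K) ≤ η' ^ 2 := by
    have : δ * (64 * K + 8) = η' ^ 2 := by
      rw [hδ]; field_simp
    nlinarith
  obtain ⟨n, hn⟩ := exists_nat_ge (128 * K / η' ^ 2 + 1)
  have hn1 : (1 : ℝ) ≤ n := by
    have : 0 ≤ 128 * K / η' ^ 2 := by positivity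
    linarith
  have hn0 : (0 : ℝ) < n := by linarith
  have hnK : 128 * K ≤ n * η' ^ 2 := by
    have h1 : 128 * K / η' ^ 2 ≤ n := by linarith
    rwa [div_le_iff₀ (by positivity)] at h1
  obtain ⟨U, hU1, hU2, hU3⟩ := fw hD p x hx δ hδ0 n n le_rfl
  set f0 : V := (1 / (n : ℝ)) • (U - (n : ℝ) • x) with hf0
  have hnx : ‖(n : ℝ) • x‖ = n := by
    rw [norm_smul, hx, mul_one, Real.norm_of_nonneg hn0.le]
  have hf0n : ‖f0‖ = ‖U - (n : ℝ) • x‖ / n := by
    rw [hf0, norm_smul, Real.norm_of_nonneg (by positivity)]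
    field_simp
  have hf0lo : 2 - 2 * δ ≤ ‖f0‖ := by
    rw [hf0n, le_div_iff₀ hn0]
    nlinarith
  have hf0hi : ‖f0‖ ≤ 2 := by
    rw [hf0n, div_le_iff₀ hn0]
    refine (norm_sub_le _ _).trans ?_
    rw [hnx]; linarith
  have hpf0 : ‖p f0‖ ^ 2 ≤ 4 * ‖p‖ ^ 2 / n + 2 * δ * ‖p‖ ^ 2 := by
    have h1 : ‖p f0‖ = ‖p (U - (n : ℝ) • x)‖ / n := by
      rw [hf0, map_smul, norm_smul, Real.norm_of_nonneg (by positivity)]
      field_simp
    rw [h1, div_pow]
    rw [div_le_iff₀ (by positivity)]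
    have h2 : (4 * ‖p‖ ^ 2 / n + 2 * δ * ‖p‖ ^ 2) * (n : ℝ) ^ 2
        = 4 * ‖p‖ ^ 2 * n + 2 * δ * ‖p‖ ^ 2 * (n : ℝ) ^ 2 := by
      field_simp
    rw [h2]
    exact hU3
  obtain ⟨v', hv'1, hv'2⟩ := hC f0
  have hv'n : ‖v'‖ ≤ η' / 4 := by
    have h0 : 0 ≤ ‖v'‖ := norm_nonneg _
    have h1 : ‖v'‖ ^ 2 ≤ C ^ 2 * ‖p f0‖ ^ 2 := by
      have h2 : 0 ≤ C * ‖p f0‖ := by positivity
      nlinarith
    have h3 : C ^ 2 * ‖p f0‖ ^ 2 ≤ 4 * K / n + 2 * δ * K := by
      have h4 : C ^ 2 * ‖p f0‖ ^ 2 ≤ C ^ 2 * (4 * ‖p‖ ^ 2 / n + 2 * δ * ‖p‖ ^ 2) :=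
        mul_le_mul_of_nonneg_left hpf0 (sq_nonneg C)
      have h5 : C ^ 2 * (4 * ‖p‖ ^ 2 / n + 2 * δ * ‖p‖ ^ 2) = 4 * K / n + 2 * δ * K := by
        rw [hK]; ring
      linarith
    have h6 : 4 * K / n ≤ η' ^ 2 / 32 := by
      rw [div_le_iff₀ hn0]
      nlinarith
    have h7 : ‖v'‖ ^ 2 ≤ (η' / 4) ^ 2 := by nlinarith
    exact abs_le_of_sq_le_sq' h7 (by positivity) |>.2
  set f : V := f0 - v' with hf
  have hpf : p f = 0 := by
    rw [hf, map_sub, hv'1, sub_self]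
  have hflo : 2 - 2 * δ - η' / 4 ≤ ‖f‖ := by
    have h1 : ‖f0‖ ≤ ‖f‖ + ‖v'‖ := by
      have : f0 = f + v' := by rw [hf]; abel
      rw [this]
      exact norm_add_le _ _
    linarith
  have hfhi : ‖f‖ ≤ 2 + η' / 4 := by
    rw [hf]
    exact (norm_sub_le _ _).trans (by linarith)
  have hfpos : 0 < ‖f‖ := by linarith
  refine ⟨(1 / ‖f‖) • f, ?_, ?_, ?_⟩
  · rw [map_smul, hpf, smul_zero]
  · rw [norm_smul, Real.norm_of_nonneg (by positivity)]
    field_simp
  · have h1 : x + (2 : ℝ) • ((1 / ‖f‖) • f) = (x + f) + ((2 / ‖f‖ - 1) • f) := by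
      rw [smul_smul, sub_smul, one_smul]
      have : (2 : ℝ) * (1 / ‖f‖) = 2 / ‖f‖ := by ring
      rw [this]; abel
    have h2 : x + f = (1 / (n : ℝ)) • U - v' := by
      rw [hf, hf0, smul_sub, smul_smul]
      have : (1 / (n : ℝ)) * n = 1 := by field_simp
      rw [this, one_smul]; abel
    have h3 : ‖x + f‖ ≤ 1 + η' / 4 := by
      rw [h2]
      refine (norm_sub_le _ _).trans ?_
      have : ‖(1 / (n : ℝ)) • U‖ ≤ 1 := by
        rw [norm_smul, Real.norm_of_nonneg (by positivity), one_div, inv_mul_le_iff₀ hn0]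
        linarith
      linarith
    have h4 : ‖(2 / ‖f‖ - 1) • f‖ ≤ η' / 2 := by
      rw [norm_smul, Real.norm_eq_abs]
      have h5 : |2 / ‖f‖ - 1| * ‖f‖ = |2 - ‖f‖| := by
        have : 2 / ‖f‖ - 1 = (2 - ‖f‖) / ‖f‖ := by field_simp
        rw [this, abs_div, abs_of_pos hfpos]
        field_simp
      rw [h5, abs_le]
      constructor <;> linarith
    rw [h1]
    refine (norm_add_le _ _).trans ?_
    linarith

/-- **P5**: in a space with the Daugavet property every closed finite-codimensional subspace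
contains, for every unit vector `x` and `η > 0`, a unit vector `y` with `‖x + 2 y‖ ≤ 1 + η`. -/
theorem daugavet_cof {V : Type*} [NormedAddCommGroup V] [NormedSpace ℝ V]
    (hD : L1Subspace.HasDaugavetProperty V) (x : V) (hx : ‖x‖ = 1) (S : Submodule ℝ V)
    (hS : IsClosed (S : Set V)) (hfin : FiniteDimensional ℝ (V ⧸ S)) (η : ℝ) (hη : 0 < η) :
    ∃ y ∈ S, ‖y‖ = 1 ∧ ‖x + (2 : ℝ) • y‖ ≤ 1 + η := by
  have : IsClosed (S : Set V) := hS
  have : FiniteDimensional ℝ (V ⧸ S) := hfin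
  set e : (V ⧸ S) ≃L[ℝ] EuclideanSpace ℝ (Fin (Module.finrank ℝ (V ⧸ S))) := toEuclidean with he
  set p : V →L[ℝ] EuclideanSpace ℝ (Fin (Module.finrank ℝ (V ⧸ S))) :=
    (e : (V ⧸ S) →L[ℝ] EuclideanSpace ℝ (Fin (Module.finrank ℝ (V ⧸ S)))).comp S.mkQL with hp
  obtain ⟨y, hy1, hy2, hy3⟩ := daugavet_ker hD p x hx η hη
  refine ⟨y, ?_, hy2, hy3⟩
  have h1 : e (S.mkQ y) = 0 := by
    have : p y = e (S.mkQL y) := rfl
    rw [← Submodule.mkQL_apply, ← this]
    exact hy1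
  have h2 : S.mkQ y = 0 := by
    simpa using h1
  simpa using h2

end Crest.Agent.Lib_helper9_Daugavet
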