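import Mathlib
import Crest.Agent.Lib_helper9_Defs

/-!
Row 125, package P9: a bi-Lipschitz embedding of the countably branching diamond `D k` into a
space with the (finite-codimensional) "asymptotic midpoint" lower estimate has squared
distortion at least `1 + k / 4`.
-/

set_option autoImplicit false

namespace Crest.Agent.Lib_helper9_Diamond

open Crest.AnalysisR

/-! ### Graph facts -/

theorem src_ne_tgt : ∀ (k : ℕ) (e : DiamondEdge k), diamondSrc k e ≠ diamondTgt k e
  | 0, _ => Bool.false_ne_true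
  | _ + 1, (_, _, false) => Sum.inl_ne_inr
  | _ + 1, (_, _, true) => Sum.inr_ne_inl

theorem adj_edge (k : ℕ) (e : DiamondEdge k) :
    (diamondGraph k).Adj (diamondSrc k e) (diamondTgt k e) := by
  rw [diamondGraph, SimpleGraph.fromRel_adj]
  exact ⟨src_ne_tgt k e, Or.inl ⟨e, rfl, rfl⟩⟩

theorem dist_edge (k : ℕ) (e : DiamondEdge k) :
    diamondDist k (diamondSrc k e) (diamondTgt k e) = 1 :=
  SimpleGraph.dist_eq_one_iff_adj.2 (adj_edge k e)

theorem dist_edge' (k : ℕ) (e : DiamondEdge k) :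
    diamondDist k (diamondTgt k e) (diamondSrc k e) = 1 :=
  SimpleGraph.dist_eq_one_iff_adj.2 (adj_edge k e).symm

theorem connected : ∀ k : ℕ, (diamondGraph k).Connected
  | 0 => by
    have h01 : (diamondGraph 0).Adj (false : Bool) (true : Bool) := adj_edge 0 ()
    have key : ∀ u v : Bool, (diamondGraph 0).Reachable u v := by
      intro u v
      cases u <;> cases v
      · exact SimpleGraph.Reachable.refl _
      · exact h01.reachable
      · exact h01.symm.reachable
      · exact SimpleGraph.Reachable.refl _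
    exact { preconnected := fun u v => key u v, nonempty := ⟨(false : Bool)⟩ }
  | k + 1 => by
    have ih := connected k
    have hinl : ∀ a b : DiamondVertex k,
        (diamondGraph (k + 1)).Reachable (Sum.inl a) (Sum.inl b) := by
      intro a b
      obtain ⟨p⟩ := ih.preconnected a b
      induction p with
      | nil => exact SimpleGraph.Reachable.refl _
      | @cons a b c hab p ih' =>
        refine SimpleGraph.Reachable.trans ?_ ih'
        rw [diamondGraph, SimpleGraph.fromRel_adj] at hab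
        have h2 : ∀ e : DiamondEdge k, (diamondGraph (k + 1)).Reachable
            (Sum.inl (diamondSrc k e)) (Sum.inl (diamondTgt k e)) := fun e =>
          (adj_edge (k + 1) (e, 0, false)).reachable.trans
            (adj_edge (k + 1) (e, 0, true)).reachable
        rcases hab with ⟨_, ⟨e, rfl, rfl⟩ | ⟨e, rfl, rfl⟩⟩
        · exact h2 e
        · exact (h2 e).symm
    have hinr : ∀ (e : DiamondEdge k) (i : ℕ), (diamondGraph (k + 1)).Reachable
        (Sum.inl (diamondSrc k e)) (Sum.inr (e, i)) := fun e i =>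
      (adj_edge (k + 1) (e, i, false)).reachable
    obtain ⟨v0⟩ := ih.nonempty
    have hall : ∀ u : DiamondVertex k ⊕ (DiamondEdge k × ℕ),
        (diamondGraph (k + 1)).Reachable (Sum.inl v0) u := by
      rintro (u | ⟨e, i⟩)
      · exact hinl v0 u
      · exact (hinl v0 _).trans (hinr e i)
    exact { preconnected := fun u v => (hall u).symm.trans (hall v),
            nonempty := ⟨(Sum.inl v0 : DiamondVertex k ⊕ (DiamondEdge k × ℕ))⟩ }

/-- A function which changes by at most one along every edge is `1`-Lipschitz for the graph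
distance. -/
theorem lip_of_edges (k : ℕ) (h : DiamondVertex k → ℝ)
    (hh : ∀ e : DiamondEdge k, |h (diamondSrc k e) - h (diamondTgt k e)| ≤ 1)
    (u v : DiamondVertex k) : |h u - h v| ≤ (diamondDist k u v : ℝ) := by
  have hadj : ∀ a b, (diamondGraph k).Adj a b → |h a - h b| ≤ 1 := by
    intro a b hab
    rw [diamondGraph, SimpleGraph.fromRel_adj] at hab
    rcases hab with ⟨_, ⟨e, rfl, rfl⟩ | ⟨e, rfl, rfl⟩⟩
    · exact hh e
    · rw [abs_sub_comm]; exact hh e
  have hwalk : ∀ (a b : DiamondVertex k) (p : (diamondGraph k).Walk a b),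
      |h a - h b| ≤ (p.length : ℝ) := by
    intro a b p
    induction p with
    | nil => simp
    | @cons a b c hab p ih =>
      have h1 := hadj a b hab
      have h2 : |h a - h c| ≤ |h a - h b| + |h b - h c| := abs_sub_le _ _ _
      rw [SimpleGraph.Walk.length_cons]
      push_cast
      linarith
  obtain ⟨p, hp⟩ := (connected k).exists_walk_length_eq_dist u v
  have := hwalk u v p
  rw [hp] at this
  exact this

/-- Distances between old vertices at least double when passing from `D k` to `D (k+1)`. -/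
theorem two_mul_dist_le (k : ℕ) (u v : DiamondVertex k) :
    2 * (diamondDist k u v : ℝ) ≤ (diamondDist (k + 1) (Sum.inl u) (Sum.inl v) : ℝ) := by
  have hc := connected k
  have key : ∀ e : DiamondEdge k, |(diamondDist k u (diamondSrc k e) : ℝ)
      - (diamondDist k u (diamondTgt k e) : ℝ)| ≤ 1 := by
    intro e
    have t1 : diamondDist k u (diamondTgt k e) ≤ diamondDist k u (diamondSrc k e)
        + diamondDist k (diamondSrc k e) (diamondTgt k e) := hc.dist_triangle
    have t2 : diamondDist k u (diamondSrc k e) ≤ diamondDist k u (diamondTgt k e)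
        + diamondDist k (diamondTgt k e) (diamondSrc k e) := hc.dist_triangle
    rw [dist_edge] at t1
    rw [dist_edge'] at t2
    have t1' : (diamondDist k u (diamondTgt k e) : ℝ) ≤ diamondDist k u (diamondSrc k e) + 1 := by
      exact_mod_cast t1
    have t2' : (diamondDist k u (diamondSrc k e) : ℝ) ≤ diamondDist k u (diamondTgt k e) + 1 := by
      exact_mod_cast t2
    rw [abs_le]
    constructor <;> linarith
  have hlip := lip_of_edges (k + 1)
    (Sum.elim (fun w => 2 * (diamondDist k u w : ℝ))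
      (fun p => (diamondDist k u (diamondSrc k p.1) : ℝ) + (diamondDist k u (diamondTgt k p.1) : ℝ)))
    (by
      rintro ⟨e, i, b⟩
      have := key e
      rw [abs_le] at this ⊢
      cases b
      · show -1 ≤ 2 * (diamondDist k u (diamondSrc k e) : ℝ) - ((diamondDist k u (diamondSrc k e) : ℝ)
            + (diamondDist k u (diamondTgt k e) : ℝ)) ∧
          2 * (diamondDist k u (diamondSrc k e) : ℝ) - ((diamondDist k u (diamondSrc k e) : ℝ)
            + (diamondDist k u (diamondTgt k e) : ℝ)) ≤ 1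
        constructor <;> linarith
      · show -1 ≤ ((diamondDist k u (diamondSrc k e) : ℝ)
            + (diamondDist k u (diamondTgt k e) : ℝ)) - 2 * (diamondDist k u (diamondTgt k e) : ℝ) ∧
          ((diamondDist k u (diamondSrc k e) : ℝ)
            + (diamondDist k u (diamondTgt k e) : ℝ)) - 2 * (diamondDist k u (diamondTgt k e) : ℝ) ≤ 1
        constructor <;> linarith)
    (Sum.inl u) (Sum.inl v)
  have h0 : diamondDist k u u = 0 := SimpleGraph.dist_self
  simp only [Sum.elim_inl, h0, Nat.cast_zero, mul_zero, zero_sub, abs_neg] at hlip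
  have h3 : (0 : ℝ) ≤ 2 * (diamondDist k u v : ℝ) := by positivity
  rwa [abs_of_nonneg h3] at hlip

/-- Two distinct midpoints of the same edge are at distance at least two. -/
theorem two_le_dist_mid (k : ℕ) (e : DiamondEdge k) (i j : ℕ) (hij : i ≠ j) :
    (2 : ℝ) ≤ (diamondDist (k + 1) (Sum.inr (e, i)) (Sum.inr (e, j)) : ℝ) := by
  classical
  have hlip := lip_of_edges (k + 1)
    (Sum.elim (fun _ => (0 : ℝ))
      (fun p => if p = (e, i) then (1 : ℝ) else if p = (e, j) then (-1 : ℝ) else 0))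
    (by
      have hb : ∀ p : DiamondEdge k × ℕ,
          |(if p = (e, i) then (1 : ℝ) else if p = (e, j) then (-1 : ℝ) else 0)| ≤ 1 := by
        intro p
        split_ifs <;> norm_num
      rintro ⟨e', i', b⟩
      cases b
      · show |(0 : ℝ) - (if (e', i') = (e, i) then (1 : ℝ) else
            if (e', i') = (e, j) then (-1 : ℝ) else 0)| ≤ 1
        rw [zero_sub, abs_neg]
        exact hb _
      · show |(if (e', i') = (e, i) then (1 : ℝ) else
            if (e', i') = (e, j) then (-1 : ℝ) else 0) - (0 : ℝ)| ≤ 1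
        rw [sub_zero]
        exact hb _)
    (Sum.inr (e, i)) (Sum.inr (e, j))
  have hne : (e, j) ≠ (e, i) := fun h => hij (Prod.ext_iff.1 h).2.symm
  simp only [Sum.elim_inr, if_true, if_neg hne] at hlip
  norm_num at hlip
  exact_mod_cast hlip

/-! ### Analytic part -/

/-- Pigeonhole: a bounded sequence in a finite-dimensional normed space has two distinct terms
which are close to each other. -/
theorem exists_close_pair {Q : Type*} [NormedAddCommGroup Q] [NormedSpace ℝ Q]
    [FiniteDimensional ℝ Q] (w : ℕ → Q) (R : ℝ) (hw : ∀ i, ‖w i‖ ≤ R) (ε : ℝ) (hε : 0 < ε) :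
    ∃ i j, i ≠ j ∧ ‖w i - w j‖ < ε := by
  have : ProperSpace Q := FiniteDimensional.proper_real Q
  obtain ⟨a, -, φ, hφ, hlim⟩ := (isCompact_closedBall (0 : Q) R).tendsto_subseq (x := w)
    (fun n => by simpa using hw n)
  rw [Metric.tendsto_atTop] at hlim
  obtain ⟨N, hN⟩ := hlim (ε / 2) (by positivity)
  refine ⟨φ N, φ (N + 1), (hφ (Nat.lt_succ_self N)).ne, ?_⟩
  have h1 := hN N le_rfl
  have h2 := hN (N + 1) (Nat.le_succ N)
  simp only [Function.comp] at h1 h2
  rw [← dist_eq_norm]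
  calc dist (w (φ N)) (w (φ (N + 1))) ≤ dist (w (φ N)) a + dist (w (φ (N + 1))) a :=
        dist_triangle_right _ _ _
    _ < ε := by linarith

theorem numeric (a b A s α β : ℝ) (_ha : 0 ≤ a) (_hb : 0 ≤ b) (hA : 0 ≤ A) (hs : 0 ≤ s)
    (hα : 0 ≤ α) (hβ : 0 ≤ β) (h1 : A - α ≤ a) (h2 : s - β ≤ b) :
    Real.sqrt (A ^ 2 + s ^ 2 / 4) ≤ Real.sqrt (a ^ 2 + b ^ 2 / 4) + α + β / 2 := by
  have hr0 : 0 ≤ Real.sqrt (a ^ 2 + b ^ 2 / 4) := Real.sqrt_nonneg _
  have hr2 : Real.sqrt (a ^ 2 + b ^ 2 / 4) ^ 2 = a ^ 2 + b ^ 2 / 4 :=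
    Real.sq_sqrt (by positivity)
  have har : a ≤ Real.sqrt (a ^ 2 + b ^ 2 / 4) :=
    Real.le_sqrt_of_sq_le (by nlinarith [sq_nonneg b])
  have hbr : b / 2 ≤ Real.sqrt (a ^ 2 + b ^ 2 / 4) :=
    Real.le_sqrt_of_sq_le (by nlinarith [sq_nonneg a])
  generalize Real.sqrt (a ^ 2 + b ^ 2 / 4) = r at *
  rw [Real.sqrt_le_iff]
  refine ⟨by positivity, ?_⟩
  have hA2 : A ^ 2 ≤ (a + α) ^ 2 := pow_le_pow_left₀ hA (by linarith) 2
  have hs2 : s ^ 2 ≤ (b + β) ^ 2 := pow_le_pow_left₀ hs (by linarith) 2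
  nlinarith [mul_nonneg (sub_nonneg.2 har) hα, mul_nonneg (sub_nonneg.2 hbr) hβ,
    mul_nonneg hα hβ]

theorem step_core {X : Type} [NormedAddCommGroup X] [NormedSpace ℝ X]
    (hX : ∀ (x : X) (η : ℝ), 0 < η → ∃ S : Submodule ℝ X, IsClosed (S : Set X) ∧
      FiniteDimensional ℝ (X ⧸ S) ∧
      ∀ z ∈ S, Real.sqrt (‖x‖ ^ 2 + ‖z‖ ^ 2 / 4) - η ≤ max ‖x + z‖ ‖x - z‖)
    (x : X) (y : ℕ → X) (s A α ε η : ℝ) (hs : 0 < s) (hA : 0 ≤ A) (hα : 0 ≤ α)
    (hε : 0 < ε) (hη : 0 < η) (hx : A - α ≤ ‖x‖)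
    (hy : ∀ i j, i ≠ j → 2 * s ≤ ‖y i - y j‖) :
    ∃ i, Real.sqrt (A ^ 2 + s ^ 2 / 4) - α - ε - η ≤ max ‖x + y i‖ ‖x - y i‖ := by
  by_cases hA' : ∃ i, ‖x‖ + Real.sqrt (A ^ 2 + s ^ 2 / 4) < ‖y i‖
  · obtain ⟨i, hi⟩ := hA'
    refine ⟨i, le_max_of_le_left ?_⟩
    have h1 : ‖y i‖ ≤ ‖x + y i‖ + ‖x‖ := by
      have := norm_sub_le (x + y i) x
      rwa [add_sub_cancel_left] at this
    linarith
  · push Not at hA'
    obtain ⟨S, hS, hfin, hmid⟩ := hX x η hη
    have := hS
    have := hfin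
    obtain ⟨i, j, hij, hlt⟩ := exists_close_pair
      (fun i => (Submodule.Quotient.mk (y i) : X ⧸ S)) (‖x‖ + Real.sqrt (A ^ 2 + s ^ 2 / 4))
      (fun i => (Submodule.Quotient.norm_mk_le S (y i)).trans (hA' i)) ε hε
    rw [← Submodule.Quotient.mk_sub] at hlt
    obtain ⟨m, hm, hmlt⟩ := Submodule.Quotient.norm_mk_lt
      (Submodule.Quotient.mk (y i - y j) : X ⧸ S) (sub_pos.2 hlt)
    have hmlt' : ‖m‖ < ε := by linarith
    have hmem : y i - y j - m ∈ S := by
      rw [← Submodule.Quotient.mk_eq_zero (p := S), Submodule.Quotient.mk_sub, hm, sub_self]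
    have hzS : (1 / 2 : ℝ) • (y i - y j - m) ∈ S := S.smul_mem _ hmem
    have hzz : ‖(1 / 2 : ℝ) • (y i - y j) - (1 / 2 : ℝ) • (y i - y j - m)‖ < ε / 2 := by
      have : (1 / 2 : ℝ) • (y i - y j) - (1 / 2 : ℝ) • (y i - y j - m) = (1 / 2 : ℝ) • m := by
        module
      rw [this, norm_smul]
      norm_num
      linarith
    have hz'n : s ≤ ‖(1 / 2 : ℝ) • (y i - y j)‖ := by
      rw [norm_smul]
      have := hy i j hij
      norm_num
      linarith
    generalize (1 / 2 : ℝ) • (y i - y j - m) = z at hzS hzz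
    have hmid' := hmid z hzS
    have e3 : ‖x + (1 / 2 : ℝ) • (y i - y j)‖
        ≤ max (max ‖x + y i‖ ‖x - y i‖) (max ‖x + y j‖ ‖x - y j‖) := by
      have : x + (1 / 2 : ℝ) • (y i - y j) = (1 / 2 : ℝ) • ((x + y i) + (x - y j)) := by module
      rw [this, norm_smul, Real.norm_of_nonneg (by norm_num : (0 : ℝ) ≤ 1 / 2)]
      have := norm_add_le (x + y i) (x - y j)
      have h1 : ‖x + y i‖ ≤ max (max ‖x + y i‖ ‖x - y i‖) (max ‖x + y j‖ ‖x - y j‖) :=
        le_max_of_le_left (le_max_left _ _)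
      have h2 : ‖x - y j‖ ≤ max (max ‖x + y i‖ ‖x - y i‖) (max ‖x + y j‖ ‖x - y j‖) :=
        le_max_of_le_right (le_max_right _ _)
      linarith
    have e4 : ‖x - (1 / 2 : ℝ) • (y i - y j)‖
        ≤ max (max ‖x + y i‖ ‖x - y i‖) (max ‖x + y j‖ ‖x - y j‖) := by
      have : x - (1 / 2 : ℝ) • (y i - y j) = (1 / 2 : ℝ) • ((x - y i) + (x + y j)) := by module
      rw [this, norm_smul, Real.norm_of_nonneg (by norm_num : (0 : ℝ) ≤ 1 / 2)]
      have := norm_add_le (x - y i) (x + y j)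
      have h1 : ‖x - y i‖ ≤ max (max ‖x + y i‖ ‖x - y i‖) (max ‖x + y j‖ ‖x - y j‖) :=
        le_max_of_le_left (le_max_right _ _)
      have h2 : ‖x + y j‖ ≤ max (max ‖x + y i‖ ‖x - y i‖) (max ‖x + y j‖ ‖x - y j‖) :=
        le_max_of_le_right (le_max_left _ _)
      linarith
    generalize (1 / 2 : ℝ) • (y i - y j) = z' at hzz hz'n e3 e4
    have hzn : s - ε / 2 ≤ ‖z‖ := by
      have := norm_sub_norm_le z' z
      linarith
    have hnum := numeric ‖x‖ ‖z‖ A s α (ε / 2) (norm_nonneg _) (norm_nonneg _) hA hs.le hα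
      (by positivity) hx hzn
    have e1 : ‖x + z‖ ≤ ‖x + z'‖ + ε / 2 := by
      have : x + z = (x + z') - (z' - z) := by abel
      rw [this]
      have := norm_sub_le (x + z') (z' - z)
      linarith
    have e2 : ‖x - z‖ ≤ ‖x - z'‖ + ε / 2 := by
      have : x - z = (x - z') + (z' - z) := by abel
      rw [this]
      have := norm_add_le (x - z') (z' - z)
      linarith
    have hM : Real.sqrt (A ^ 2 + s ^ 2 / 4) - α - ε - η
        ≤ max (max ‖x + y i‖ ‖x - y i‖) (max ‖x + y j‖ ‖x - y j‖) := by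
      have : max ‖x + z‖ ‖x - z‖
          ≤ max (max ‖x + y i‖ ‖x - y i‖) (max ‖x + y j‖ ‖x - y j‖) + ε / 2 :=
        max_le (by linarith) (by linarith)
      linarith
    rcases le_max_iff.1 hM with h | h
    · exact ⟨i, h⟩
    · exact ⟨j, h⟩

theorem edge_lower {X : Type} [NormedAddCommGroup X] [NormedSpace ℝ X]
    (hX : ∀ (x : X) (η : ℝ), 0 < η → ∃ S : Submodule ℝ X, IsClosed (S : Set X) ∧
      FiniteDimensional ℝ (X ⧸ S) ∧
      ∀ z ∈ S, Real.sqrt (‖x‖ ^ 2 + ‖z‖ ^ 2 / 4) - η ≤ max ‖x + z‖ ‖x - z‖) :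
    ∀ (k : ℕ) (f : DiamondVertex k → X) (s : ℝ), 0 < s →
      (∀ u v : DiamondVertex k, s * (diamondDist k u v : ℝ) ≤ ‖f u - f v‖) →
      ∀ δ : ℝ, 0 < δ → ∃ e : DiamondEdge k,
        s * Real.sqrt (1 + (k : ℝ) / 4) - δ ≤ ‖f (diamondTgt k e) - f (diamondSrc k e)‖
  | 0 => by
    intro f s hs hf δ hδ
    refine ⟨(), ?_⟩
    have h1 := hf (diamondTgt 0 ()) (diamondSrc 0 ())
    have h0 : diamondDist 0 (diamondTgt 0 ()) (diamondSrc 0 ()) = 1 := dist_edge' 0 ()
    rw [h0] at h1
    simp only [Nat.cast_zero, zero_div, add_zero, Real.sqrt_one, mul_one, Nat.cast_one] at h1 ⊢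
    linarith
  | k + 1 => by
    intro f s hs hf δ hδ
    obtain ⟨e, he⟩ := edge_lower hX k (fun w => f (Sum.inl w)) (2 * s) (by positivity) (by
      intro u v
      have h1 := two_mul_dist_le k u v
      have h2 := hf (Sum.inl u) (Sum.inl v)
      nlinarith) (δ / 2) (by positivity)
    have hsq : Real.sqrt ((s * Real.sqrt (1 + (k : ℝ) / 4)) ^ 2 + s ^ 2 / 4)
        = s * Real.sqrt (1 + ((k + 1 : ℕ) : ℝ) / 4) := by
      have h1 : Real.sqrt (1 + (k : ℝ) / 4) ^ 2 = 1 + (k : ℝ) / 4 := Real.sq_sqrt (by positivity)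
      have h2 : Real.sqrt (1 + ((k + 1 : ℕ) : ℝ) / 4) ^ 2 = 1 + ((k + 1 : ℕ) : ℝ) / 4 :=
        Real.sq_sqrt (by positivity)
      have h3 : (s * Real.sqrt (1 + (k : ℝ) / 4)) ^ 2 + s ^ 2 / 4
          = (s * Real.sqrt (1 + ((k + 1 : ℕ) : ℝ) / 4)) ^ 2 := by
        rw [mul_pow, mul_pow, h1, h2]
        push_cast
        ring
      rw [h3, Real.sqrt_sq (by positivity)]
    have hxn : s * Real.sqrt (1 + (k : ℝ) / 4) - δ / 4
        ≤ ‖(1 / 2 : ℝ) • (f (Sum.inl (diamondTgt k e)) - f (Sum.inl (diamondSrc k e)))‖ := by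
      rw [norm_smul]
      norm_num
      linarith
    obtain ⟨i, hi⟩ := step_core hX
      ((1 / 2 : ℝ) • (f (Sum.inl (diamondTgt k e)) - f (Sum.inl (diamondSrc k e))))
      (fun i => f (Sum.inr (e, i))
        - (1 / 2 : ℝ) • (f (Sum.inl (diamondSrc k e)) + f (Sum.inl (diamondTgt k e))))
      s (s * Real.sqrt (1 + (k : ℝ) / 4)) (δ / 4) (δ / 4) (δ / 4) hs (by positivity)
      (by positivity) (by positivity) (by positivity) hxn (by
        intro i j hij
        have h1 := two_le_dist_mid k e i j hij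
        have h2 := hf (Sum.inr (e, i)) (Sum.inr (e, j))
        have h3 : f (Sum.inr (e, i))
            - (1 / 2 : ℝ) • (f (Sum.inl (diamondSrc k e)) + f (Sum.inl (diamondTgt k e)))
            - (f (Sum.inr (e, j))
            - (1 / 2 : ℝ) • (f (Sum.inl (diamondSrc k e)) + f (Sum.inl (diamondTgt k e))))
            = f (Sum.inr (e, i)) - f (Sum.inr (e, j)) := by abel
        show 2 * s ≤ ‖f (Sum.inr (e, i))
            - (1 / 2 : ℝ) • (f (Sum.inl (diamondSrc k e)) + f (Sum.inl (diamondTgt k e)))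
            - (f (Sum.inr (e, j))
            - (1 / 2 : ℝ) • (f (Sum.inl (diamondSrc k e)) + f (Sum.inl (diamondTgt k e))))‖
        rw [h3]
        nlinarith)
    rw [hsq] at hi
    rcases le_max_iff.1 hi with h | h
    · refine ⟨(e, i, false), ?_⟩
      have : f (diamondTgt (k + 1) (e, i, false)) - f (diamondSrc (k + 1) (e, i, false))
          = (1 / 2 : ℝ) • (f (Sum.inl (diamondTgt k e)) - f (Sum.inl (diamondSrc k e)))
            + (f (Sum.inr (e, i))
              - (1 / 2 : ℝ) • (f (Sum.inl (diamondSrc k e)) + f (Sum.inl (diamondTgt k e)))) := by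
        show f (Sum.inr (e, i)) - f (Sum.inl (diamondSrc k e)) = _
        module
      rw [this]
      linarith
    · refine ⟨(e, i, true), ?_⟩
      have : f (diamondTgt (k + 1) (e, i, true)) - f (diamondSrc (k + 1) (e, i, true))
          = (1 / 2 : ℝ) • (f (Sum.inl (diamondTgt k e)) - f (Sum.inl (diamondSrc k e)))
            - (f (Sum.inr (e, i))
              - (1 / 2 : ℝ) • (f (Sum.inl (diamondSrc k e)) + f (Sum.inl (diamondTgt k e)))) := by
        show f (Sum.inl (diamondTgt k e)) - f (Sum.inr (e, i)) = _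
        module
      rw [this]
      linarith

/-- **P9.** Squared distortion of any embedding of `D k` is at least `1 + k / 4`. -/
theorem diamond_bound {X : Type} [NormedAddCommGroup X] [NormedSpace ℝ X]
    (hX : ∀ (x : X) (η : ℝ), 0 < η → ∃ S : Submodule ℝ X, IsClosed (S : Set X) ∧
      FiniteDimensional ℝ (X ⧸ S) ∧
      ∀ z ∈ S, Real.sqrt (‖x‖ ^ 2 + ‖z‖ ^ 2 / 4) - η ≤ max ‖x + z‖ ‖x - z‖)
    (k : ℕ) (f : DiamondVertex k → X) (D s : ℝ) (hs : 0 < s)
    (hf : ∀ u v : DiamondVertex k, s * (diamondDist k u v : ℝ) ≤ ‖f u - f v‖ ∧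
      ‖f u - f v‖ ≤ D * s * (diamondDist k u v : ℝ)) :
    1 + (k : ℝ) / 4 ≤ D ^ 2 := by
  have key : ∀ δ : ℝ, 0 < δ → s * Real.sqrt (1 + (k : ℝ) / 4) ≤ D * s + δ := by
    intro δ hδ
    obtain ⟨e, he⟩ := edge_lower hX k f s hs (fun u v => (hf u v).1) δ hδ
    have h2 := (hf (diamondTgt k e) (diamondSrc k e)).2
    rw [dist_edge'] at h2
    simp only [Nat.cast_one, mul_one] at h2
    linarith
  have h1 : s * Real.sqrt (1 + (k : ℝ) / 4) ≤ D * s := le_of_forall_pos_le_add key
  have h2 : Real.sqrt (1 + (k : ℝ) / 4) ≤ D := by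
    have : Real.sqrt (1 + (k : ℝ) / 4) * s ≤ D * s := by linarith
    exact le_of_mul_le_mul_right this hs
  exact (Real.sqrt_le_iff.1 h2).2

end Crest.Agent.Lib_helper9_Diamond
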