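import Mathlib
import Crest.Agent.Lib_helper9_Defs

/-!
Row 125, package P6a: the example space `EX` (the `ℓ²`-sum of the pieces of the global model)
is separable and not finite-dimensional.
-/

set_option autoImplicit false

namespace Crest.Agent.Lib_helper9_EBasic6a

open Crest.AnalysisR Crest.AnalysisR.TreePotential Crest.Agent.Lib_helper9_Defs
open TopologicalSpace

/-- A coordinate vector of depth at most `k`, as an element of `piece k`. -/
noncomputable def cv (k : ℕ) (s : List ℕ) (hs : s.length ≤ k) : piece k :=
  ⟨coordVector .global s,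
    Submodule.le_topologicalClosure _ (Submodule.subset_span ⟨s, hs, rfl⟩)⟩

/-- The generators of `piece k`. -/
def cvset (k : ℕ) : Set (piece k) :=
  Set.range (fun s : {s : List ℕ // s.length ≤ k} => cv k s.1 s.2)

/-- The countable generating set of `EX`. -/
noncomputable def gens : Set EX :=
  Set.range (fun q : Σ k : ℕ, {s : List ℕ // s.length ≤ k} =>
    (lp.single 2 q.1 (cv q.1 q.2.1 q.2.2) : EX))

lemma gens_countable : gens.Countable := Set.countable_range _

lemma dense_span_cvset (k : ℕ) (v : piece k) :
    v ∈ closure (Submodule.span ℝ (cvset k) : Set (piece k)) := by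
  rw [closure_subtype]
  have h1 : (Subtype.val '' (Submodule.span ℝ (cvset k) : Set (piece k)) : Set (Amb .global)) =
      (Submodule.span ℝ (coordVector .global '' {s : List ℕ | s.length ≤ k}) :
        Set (Amb .global)) := by
    have h2 : (Submodule.span ℝ (cvset k)).map (piece k).subtype =
        Submodule.span ℝ (coordVector .global '' {s : List ℕ | s.length ≤ k}) := by
      rw [Submodule.map_span]
      congr 1
      ext x
      constructor
      · rintro ⟨_, ⟨s, rfl⟩, rfl⟩
        exact ⟨s.1, s.2, rfl⟩
      · rintro ⟨s, hs, rfl⟩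
        exact ⟨cv k s hs, ⟨⟨s, hs⟩, rfl⟩, rfl⟩
    rw [← h2]
    rfl
  rw [h1]
  exact v.2

lemma single_mem (k : ℕ) (v : piece k) :
    (lp.single 2 k v : EX) ∈ (Submodule.span ℝ gens).topologicalClosure := by
  let φ : piece k →L[ℝ] EX := lp.singleContinuousLinearMap ℝ (fun k : ℕ => piece k) 2 k
  have hcl : IsClosed (φ ⁻¹' ((Submodule.span ℝ gens).topologicalClosure : Set EX)) :=
    (Submodule.isClosed_topologicalClosure _).preimage φ.continuous
  have hsub : (Submodule.span ℝ (cvset k) : Set (piece k)) ⊆
      φ ⁻¹' ((Submodule.span ℝ gens).topologicalClosure : Set EX) := by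
    intro y hy
    have h2 : (Submodule.span ℝ (cvset k)).map φ.toLinearMap ≤ Submodule.span ℝ gens := by
      rw [Submodule.map_span]
      apply Submodule.span_mono
      rintro _ ⟨_, ⟨s, rfl⟩, rfl⟩
      exact ⟨⟨k, s⟩, rfl⟩
    have h3 : φ y ∈ Submodule.span ℝ gens := h2 ⟨y, hy, rfl⟩
    exact Submodule.le_topologicalClosure _ h3
  exact (closure_minimal hsub hcl) (dense_span_cvset k v)

theorem E_separable : TopologicalSpace.SeparableSpace EX := by
  rw [← isSeparable_univ_iff]
  have hsep : IsSeparable ((Submodule.span ℝ gens).topologicalClosure : Set EX) := by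
    rw [Submodule.topologicalClosure_coe]
    exact gens_countable.isSeparable.span.closure
  refine hsep.mono ?_
  intro x _
  have hx := lp.hasSum_single (E := fun k : ℕ => piece k) (p := 2) (by norm_num) x
  refine (Submodule.isClosed_topologicalClosure _).mem_of_tendsto hx
    (Filter.Eventually.of_forall fun s => ?_)
  exact Submodule.sum_mem _ (fun i _ => single_mem i (x i))

/-- The indicator of the root is a test of the global model. -/
lemma root_test : IsTest .global (fun u : List ℕ => if u = [] then (1 : ℝ) else 0) := by
  constructor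
  · intro s
    have h : pathPotential (fun u : List ℕ => if u = [] then (1 : ℝ) else 0) s = 1 := by
      induction s with
      | nil => simp [pathPotential]
      | cons a v ih => simp [pathPotential, ih]
    rw [h]
    simp
  · show ∀ A : Finset (List ℕ), ∑ u ∈ A, (if u = [] then (1 : ℝ) else 0) ^ 2 ≤ 1
    intro A
    have h : ∀ u ∈ A, (if u = [] then (1 : ℝ) else 0) ^ 2 = if u = [] then (1 : ℝ) else 0 := by
      intro u _
      split_ifs <;> simp
    rw [Finset.sum_congr rfl h, Finset.sum_ite_eq']
    split_ifs <;> norm_num

lemma cv_root_ne_zero (k : ℕ) : cv k [] (Nat.zero_le k) ≠ 0 := by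
  intro h
  have h1 : (coordVector .global [] : Amb .global) = 0 := congrArg Subtype.val h
  have h2 := congrArg (fun x : Amb .global => (x : PotentialTest .global → ℝ) ⟨_, root_test⟩) h1
  have h3 : ((coordVector .global [] : Amb .global) : PotentialTest .global → ℝ)
      ⟨_, root_test⟩ = 1 := by
    show (if ([] : List ℕ) = [] then (1 : ℝ) else 0) = 1
    simp
  have h4 : ((0 : Amb .global) : PotentialTest .global → ℝ) ⟨_, root_test⟩ = 0 := rfl
  simp only [h3, h4] at h2
  exact one_ne_zero h2

theorem E_not_finiteDimensional : ¬ FiniteDimensional ℝ EX := by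
  intro hfin
  have hli : LinearIndependent ℝ
      (fun k : ℕ => (lp.single 2 k (cv k [] (Nat.zero_le k)) : EX)) := by
    rw [linearIndependent_iff']
    intro s g hg i hi
    have h1 := congrArg (fun x : EX => (x : ∀ k : ℕ, piece k) i) hg
    simp only [lp.coeFn_sum, lp.coeFn_smul, Finset.sum_apply, Pi.smul_apply, lp.single_apply,
      lp.coeFn_zero, Pi.zero_apply] at h1
    rw [Finset.sum_eq_single i] at h1
    · simp only [Pi.single_eq_same] at h1
      rcases smul_eq_zero.mp h1 with h | h
      · exact h
      · exact absurd h (cv_root_ne_zero i)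
    · intro j _ hji
      simp [Pi.single_eq_of_ne (Ne.symm hji)]
    · intro hi'
      exact absurd hi hi'
  exact Module.Finite.not_linearIndependent_of_infinite _ hli

end Crest.Agent.Lib_helper9_EBasic6a
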