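import Mathlib

/-!
Row 125, package P6c: an `ℓ²`-sum of reflexive Banach spaces is reflexive.
-/

set_option autoImplicit false

namespace Crest.Agent.Lib_helper9_ELp2

open Filter Topology

section basics

variable {ι : Type*} {G : ι → Type*} [∀ i, NormedAddCommGroup (G i)] [∀ i, NormedSpace ℝ (G i)]

omit [∀ i, NormedSpace ℝ (G i)] in
/-- Finite partial sums of squares are bounded by the squared norm. -/
theorem sum_sq_le (z : lp G 2) (s : Finset ι) : ∑ i ∈ s, ‖z i‖ ^ 2 ≤ ‖z‖ ^ 2 := by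
  have h := lp.sum_rpow_le_norm_rpow (p := 2) (by simp) z s
  simpa using h

/-- Cauchy–Schwarz-type estimate for a finite sum of coordinate functionals. -/
theorem abs_sum_apply_le (s : Finset ι) (θ : ∀ i, G i →L[ℝ] ℝ) (c : ι → ℝ)
    (hc : ∀ i ∈ s, ‖θ i‖ ≤ c i) (z : lp G 2) :
    |∑ i ∈ s, θ i (z i)| ≤ Real.sqrt (∑ i ∈ s, c i ^ 2) * ‖z‖ := by
  calc |∑ i ∈ s, θ i (z i)| ≤ ∑ i ∈ s, |θ i (z i)| := Finset.abs_sum_le_sum_abs _ _
    _ ≤ ∑ i ∈ s, c i * ‖z i‖ := by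
        apply Finset.sum_le_sum
        intro i hi
        have h1 := (θ i).le_opNorm (z i)
        rw [Real.norm_eq_abs] at h1
        exact h1.trans (mul_le_mul_of_nonneg_right (hc i hi) (norm_nonneg _))
    _ ≤ Real.sqrt (∑ i ∈ s, c i ^ 2) * Real.sqrt (∑ i ∈ s, ‖z i‖ ^ 2) :=
        Real.sum_mul_le_sqrt_mul_sqrt s c (fun i => ‖z i‖)
    _ ≤ Real.sqrt (∑ i ∈ s, c i ^ 2) * ‖z‖ := by
        apply mul_le_mul_of_nonneg_left _ (Real.sqrt_nonneg _)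
        calc Real.sqrt (∑ i ∈ s, ‖z i‖ ^ 2) ≤ Real.sqrt (‖z‖ ^ 2) :=
              Real.sqrt_le_sqrt (sum_sq_le z s)
          _ = ‖z‖ := Real.sqrt_sq (norm_nonneg _)

omit [∀ i, NormedSpace ℝ (G i)] in
theorem norm_sum_single_sq [DecidableEq ι] (f : ∀ i, G i) (s : Finset ι) :
    ‖∑ i ∈ s, lp.single 2 i (f i)‖ ^ 2 = ∑ i ∈ s, ‖f i‖ ^ 2 := by
  have h := lp.norm_sum_single (p := 2) (by simp) f s
  simpa using h

end basics

/-- Almost norming vectors of a functional. -/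
theorem exists_near_norming {F : Type*} [NormedAddCommGroup F] [NormedSpace ℝ F]
    (θ : F →L[ℝ] ℝ) (ρ : ℝ) (_hρ0 : 0 ≤ ρ) (hρ : ρ < 1) :
    ∃ u : F, ‖u‖ ≤ 1 ∧ ρ * ‖θ‖ ≤ θ u := by
  by_cases h0 : ‖θ‖ = 0
  · exact ⟨0, by simp, by simp [h0]⟩
  · have hpos : 0 < ‖θ‖ := lt_of_le_of_ne (norm_nonneg _) (Ne.symm h0)
    have hlt : ρ * ‖θ‖ < ‖θ‖ := by nlinarith
    obtain ⟨u, hu1, hu2⟩ := θ.exists_lt_apply_of_lt_opNorm hlt
    rw [Real.norm_eq_abs] at hu2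
    by_cases hs : 0 ≤ θ u
    · refine ⟨u, hu1.le, ?_⟩
      rw [abs_of_nonneg hs] at hu2
      exact hu2.le
    · refine ⟨-u, by rw [norm_neg]; exact hu1.le, ?_⟩
      rw [map_neg]
      rw [abs_of_neg (not_le.1 hs)] at hu2
      exact hu2.le

theorem sq_le_of_le_mul_sqrt {Q N : ℝ} (hQ : 0 ≤ Q) (hN : 0 ≤ N) (h : Q ≤ N * Real.sqrt Q) :
    Q ≤ N ^ 2 := by
  have h5 : Real.sqrt Q * Real.sqrt Q = Q := Real.mul_self_sqrt hQ
  rcases eq_or_lt_of_le (Real.sqrt_nonneg Q) with h0 | hpos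
  · rw [← h0] at h5
    have : Q = 0 := by linarith
    rw [this]
    positivity
  · have h6 : Real.sqrt Q ≤ N := by
      have : Real.sqrt Q * Real.sqrt Q ≤ N * Real.sqrt Q := by rw [h5]; exact h
      exact le_of_mul_le_mul_right this hpos
    nlinarith

section dualside

variable {ι : Type*} {G : ι → Type*} [∀ i, NormedAddCommGroup (G i)] [∀ i, NormedSpace ℝ (G i)]

/-- Bessel-type inequality for the coordinates of a functional on the `ℓ²`-sum. -/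
theorem sum_norm_sq_comp_single_le [DecidableEq ι] (φ : lp G 2 →L[ℝ] ℝ) (s : Finset ι) :
    ∑ i ∈ s, ‖φ.comp (lp.singleContinuousLinearMap ℝ G 2 i)‖ ^ 2 ≤ ‖φ‖ ^ 2 := by
  set θ : ∀ i, G i →L[ℝ] ℝ := fun i => φ.comp (lp.singleContinuousLinearMap ℝ G 2 i) with hθ
  set Q := ∑ i ∈ s, ‖θ i‖ ^ 2 with hQ
  have hQ0 : 0 ≤ Q := Finset.sum_nonneg (fun i _ => by positivity)
  have key : ∀ ρ : ℝ, 0 ≤ ρ → ρ < 1 → ρ * Q ≤ ‖φ‖ * Real.sqrt Q := by
    intro ρ hρ0 hρ1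
    choose u hu1 hu2 using fun i => exists_near_norming (θ i) ρ hρ0 hρ1
    set z : lp G 2 := ∑ i ∈ s, lp.single 2 i (‖θ i‖ • u i) with hz
    have hφz : φ z = ∑ i ∈ s, ‖θ i‖ * θ i (u i) := by
      rw [hz, map_sum]
      apply Finset.sum_congr rfl
      intro i _
      rw [lp.single_smul, map_smul, smul_eq_mul]
      rfl
    have hzn : ‖z‖ ^ 2 ≤ Q := by
      rw [hz, norm_sum_single_sq]
      apply Finset.sum_le_sum
      intro i _
      rw [norm_smul, norm_norm, mul_pow]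
      have h1 : ‖u i‖ ^ 2 ≤ 1 := by
        have := hu1 i
        have := norm_nonneg (u i)
        nlinarith
      nlinarith [sq_nonneg ‖θ i‖]
    have hzn' : ‖z‖ ≤ Real.sqrt Q := Real.le_sqrt_of_sq_le hzn
    have h1 : ρ * Q ≤ φ z := by
      rw [hφz, hQ, Finset.mul_sum]
      apply Finset.sum_le_sum
      intro i _
      have := hu2 i
      nlinarith [norm_nonneg (θ i)]
    have h2 : φ z ≤ ‖φ‖ * ‖z‖ := (le_abs_self _).trans (φ.le_opNorm z)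
    have h3 : ‖φ‖ * ‖z‖ ≤ ‖φ‖ * Real.sqrt Q := mul_le_mul_of_nonneg_left hzn' (norm_nonneg _)
    linarith
  -- let ρ → 1
  have hQN : Q ≤ ‖φ‖ * Real.sqrt Q := by
    by_contra hcon
    push Not at hcon
    have hQpos : 0 < Q := lt_of_le_of_lt (mul_nonneg (norm_nonneg _) (Real.sqrt_nonneg _)) hcon
    set ρ : ℝ := (‖φ‖ * Real.sqrt Q / Q + 1) / 2 with hρ
    have hr1 : ‖φ‖ * Real.sqrt Q / Q < 1 := by rw [div_lt_one hQpos]; exact hcon
    have hr0 : 0 ≤ ‖φ‖ * Real.sqrt Q / Q :=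
      div_nonneg (mul_nonneg (norm_nonneg _) (Real.sqrt_nonneg _)) hQpos.le
    have hk := key ρ (by rw [hρ]; linarith) (by rw [hρ]; linarith)
    have h4 : ρ * Q = (‖φ‖ * Real.sqrt Q + Q) / 2 := by
      rw [hρ]; field_simp
    rw [h4] at hk
    linarith
  exact sq_le_of_le_mul_sqrt hQ0 (norm_nonneg _) hQN

end dualside

/-- An `ℓ²`-sum of reflexive Banach spaces is reflexive. -/
theorem lp2_reflexive {ι : Type*} (G : ι → Type*) [∀ i, NormedAddCommGroup (G i)]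
    [∀ i, NormedSpace ℝ (G i)] [∀ i, CompleteSpace (G i)]
    (h : ∀ i, Function.Surjective (NormedSpace.inclusionInDoubleDual ℝ (G i))) :
    Function.Surjective (NormedSpace.inclusionInDoubleDual ℝ (lp G 2)) := by
  classical
  intro Ψ
  -- the coordinates of the candidate preimage
  have hx : ∀ i, ∃ xi : G i, ∀ ψ : G i →L[ℝ] ℝ,
      Ψ (ψ.comp (lp.evalCLM ℝ G 2 i)) = ψ xi := by
    intro i
    let Ψi : (G i →L[ℝ] ℝ) →L[ℝ] ℝ :=
      Ψ.comp ((ContinuousLinearMap.compL ℝ (lp G 2) (G i) ℝ).flip (lp.evalCLM ℝ G 2 i))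
    obtain ⟨xi, hxi⟩ := h i Ψi
    refine ⟨xi, fun ψ => ?_⟩
    have h1 : (NormedSpace.inclusionInDoubleDual ℝ (G i) xi) ψ = Ψi ψ := by rw [hxi]
    rw [NormedSpace.dual_def] at h1
    rw [h1]
    rfl
  choose x hx using hx
  -- norming functionals for the coordinates
  choose ψ hψ1 hψ2 using fun i => exists_dual_vector'' ℝ (x i)
  have hbound : ∀ s : Finset ι, ∑ i ∈ s, ‖x i‖ ^ 2 ≤ ‖Ψ‖ ^ 2 := by
    intro s
    set Q := ∑ i ∈ s, ‖x i‖ ^ 2 with hQ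
    have hQ0 : 0 ≤ Q := Finset.sum_nonneg (fun i _ => by positivity)
    set φs : lp G 2 →L[ℝ] ℝ := ∑ i ∈ s, ‖x i‖ • (ψ i).comp (lp.evalCLM ℝ G 2 i) with hφs
    have h1 : Ψ φs = Q := by
      rw [hφs, map_sum]
      apply Finset.sum_congr rfl
      intro i _
      rw [map_smul, hx i (ψ i), hψ2 i, smul_eq_mul]
      simp only [RCLike.ofReal_real_eq_id, id]
      ring
    have h2 : ‖φs‖ ≤ Real.sqrt Q := by
      apply ContinuousLinearMap.opNorm_le_bound _ (Real.sqrt_nonneg _)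
      intro z
      have h3 : φs z = ∑ i ∈ s, (‖x i‖ • ψ i) (z i) := by
        rw [hφs, sum_apply]
        rfl
      rw [h3, Real.norm_eq_abs]
      apply abs_sum_apply_le s (fun i => ‖x i‖ • ψ i) (fun i => ‖x i‖) _ z
      intro i _
      rw [norm_smul, norm_norm]
      have := hψ1 i
      nlinarith [norm_nonneg (x i)]
    have hΨ0 : 0 ≤ ‖Ψ‖ := ContinuousLinearMap.opNorm_nonneg Ψ
    have h4 : Q ≤ ‖Ψ‖ * Real.sqrt Q := by
      calc Q = Ψ φs := h1.symm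
        _ ≤ |Ψ φs| := le_abs_self _
        _ ≤ ‖Ψ‖ * ‖φs‖ := Ψ.le_opNorm φs
        _ ≤ ‖Ψ‖ * Real.sqrt Q := mul_le_mul_of_nonneg_left h2 hΨ0
    exact sq_le_of_le_mul_sqrt hQ0 hΨ0 h4
  have hmem : Memℓp x 2 := memℓp_gen' (C := ‖Ψ‖ ^ 2) (fun s => by simpa using hbound s)
  refine ⟨⟨x, hmem⟩, ?_⟩
  ext φ
  rw [NormedSpace.dual_def]
  -- coordinates of φ
  set θ : ∀ i, G i →L[ℝ] ℝ := fun i => φ.comp (lp.singleContinuousLinearMap ℝ G 2 i) with hθ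
  have hsum : Summable (fun i => ‖θ i‖ ^ 2) :=
    summable_of_sum_le (fun i => by positivity) (sum_norm_sq_comp_single_le φ)
  set T : ℝ := ∑' i, ‖θ i‖ ^ 2 with hT
  have hTsum : Tendsto (fun A : Finset ι => ∑ i ∈ A, ‖θ i‖ ^ 2) atTop (𝓝 T) := hsum.hasSum
  have hle : ∀ A : Finset ι, ∑ i ∈ A, ‖θ i‖ ^ 2 ≤ T := fun A =>
    hsum.sum_le_tsum A (fun i _ => by positivity)
  -- expansion of φ along the coordinates
  have hexp : ∀ z : lp G 2, Tendsto (fun B : Finset ι => ∑ i ∈ B, θ i (z i)) atTop (𝓝 (φ z)) := by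
    intro z
    have h1 : HasSum (fun i => φ (lp.single 2 i (z i))) (φ z) :=
      φ.hasSum (lp.hasSum_single (by simp) z)
    exact h1
  -- the tail estimate
  have htail : ∀ (A : Finset ι) (z : lp G 2),
      |φ z - ∑ i ∈ A, θ i (z i)| ≤ Real.sqrt (T - ∑ i ∈ A, ‖θ i‖ ^ 2) * ‖z‖ := by
    intro A z
    have h1 : Tendsto (fun B : Finset ι => |∑ i ∈ B, θ i (z i) - ∑ i ∈ A, θ i (z i)|) atTop
        (𝓝 |φ z - ∑ i ∈ A, θ i (z i)|) := ((hexp z).sub_const _).abs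
    refine le_of_tendsto h1 ?_
    filter_upwards [eventually_ge_atTop A] with B hAB
    have h2 : ∑ i ∈ B, θ i (z i) - ∑ i ∈ A, θ i (z i) = ∑ i ∈ B \ A, θ i (z i) := by
      rw [Finset.sum_sdiff_eq_sub hAB]
    rw [h2]
    refine (abs_sum_apply_le (B \ A) θ (fun i => ‖θ i‖) (fun i _ => le_rfl) z).trans ?_
    apply mul_le_mul_of_nonneg_right _ (norm_nonneg _)
    apply Real.sqrt_le_sqrt
    have h3 : ∑ i ∈ B \ A, ‖θ i‖ ^ 2 = ∑ i ∈ B, ‖θ i‖ ^ 2 - ∑ i ∈ A, ‖θ i‖ ^ 2 :=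
      Finset.sum_sdiff_eq_sub hAB
    rw [h3]
    linarith [hle B]
  -- approximants of φ in the dual norm
  set φA : Finset ι → (lp G 2 →L[ℝ] ℝ) := fun A =>
    ∑ i ∈ A, (θ i).comp (lp.evalCLM ℝ G 2 i) with hφA
  have hφAz : ∀ (A : Finset ι) (z : lp G 2), φA A z = ∑ i ∈ A, θ i (z i) := by
    intro A z
    rw [hφA]
    simp only [sum_apply]
    rfl
  have hnorm : ∀ A : Finset ι, ‖φ - φA A‖ ≤ Real.sqrt (T - ∑ i ∈ A, ‖θ i‖ ^ 2) := by
    intro A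
    apply ContinuousLinearMap.opNorm_le_bound _ (Real.sqrt_nonneg _)
    intro z
    rw [sub_apply, hφAz, Real.norm_eq_abs]
    exact htail A z
  have hsqrt : Tendsto (fun A : Finset ι => Real.sqrt (T - ∑ i ∈ A, ‖θ i‖ ^ 2)) atTop (𝓝 0) := by
    have h1 : Tendsto (fun A : Finset ι => T - ∑ i ∈ A, ‖θ i‖ ^ 2) atTop (𝓝 (T - T)) :=
      tendsto_const_nhds.sub hTsum
    rw [sub_self] at h1
    have h2 := (Real.continuous_sqrt.tendsto 0).comp h1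
    rw [Real.sqrt_zero] at h2
    exact h2
  -- Ψ (φA A) → Ψ φ
  have hΨ : Tendsto (fun A : Finset ι => Ψ (φA A)) atTop (𝓝 (Ψ φ)) := by
    rw [tendsto_iff_norm_sub_tendsto_zero]
    have hb : ∀ A : Finset ι, ‖Ψ (φA A) - Ψ φ‖ ≤ ‖Ψ‖ * Real.sqrt (T - ∑ i ∈ A, ‖θ i‖ ^ 2) := by
      intro A
      rw [← map_sub, ← norm_neg, ← map_neg, neg_sub]
      exact (Ψ.le_opNorm _).trans
        (mul_le_mul_of_nonneg_left (hnorm A) (ContinuousLinearMap.opNorm_nonneg Ψ))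
    have h0 : Tendsto (fun A : Finset ι => ‖Ψ‖ * Real.sqrt (T - ∑ i ∈ A, ‖θ i‖ ^ 2)) atTop
        (𝓝 0) := by
      have := hsqrt.const_mul ‖Ψ‖
      rwa [mul_zero] at this
    exact squeeze_zero (fun A => norm_nonneg _) hb h0
  -- but Ψ (φA A) = ∑_{i ∈ A} θ i (x i) → φ x
  have hval : ∀ A : Finset ι, Ψ (φA A) = ∑ i ∈ A, θ i (x i) := by
    intro A
    rw [hφA, map_sum]
    apply Finset.sum_congr rfl
    intro i _
    exact hx i (θ i)
  have hΨ' : Tendsto (fun A : Finset ι => Ψ (φA A)) atTop (𝓝 (φ ⟨x, hmem⟩)) := by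
    simp_rw [hval]
    exact hexp ⟨x, hmem⟩
  exact tendsto_nhds_unique hΨ' hΨ

end Crest.Agent.Lib_helper9_ELp2
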