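import Mathlib
import Crest.Agent.Lib_helper9_Defs

/-!
Package P2 of the row 125 plan: combinatorics of tests on the countably branching tree
(`isTest_single`, `isTest_neg`, `isTest_restrict`, `exists_split`).
-/

set_option autoImplicit false

namespace Crest.Agent.Lib_helper9_TreeTests

open Crest.AnalysisR Crest.AnalysisR.TreePotential Crest.Agent.Lib_helper9_Defs

/-- Linearity of the potential (sum form). -/
theorem pot_lin_add (a b : ℝ) (p q : List ℕ → ℝ) (s : List ℕ) :
    pathPotential (fun u => a * p u + b * q u) s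
      = a * pathPotential p s + b * pathPotential q s := by
  induction s with
  | nil => simp [pathPotential]
  | cons x v ih => simp only [pathPotential, ih]; ring

/-- Linearity of the potential (difference form). -/
theorem pot_lin_sub (a b : ℝ) (p q : List ℕ → ℝ) (s : List ℕ) :
    pathPotential (fun u => a * p u - b * q u) s
      = a * pathPotential p s - b * pathPotential q s := by
  induction s with
  | nil => simp [pathPotential]
  | cons x v ih => simp only [pathPotential, ih]; ring

/-- The potential of the negated family. -/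
theorem pot_neg (p : List ℕ → ℝ) (s : List ℕ) :
    pathPotential (fun u => - p u) s = - pathPotential p s := by
  induction s with
  | nil => simp [pathPotential]
  | cons x v ih => simp only [pathPotential, ih]; ring

/-- The coefficient family of a prescribed potential. -/
def coef (H : List ℕ → ℝ) : List ℕ → ℝ
  | [] => H []
  | a :: v => H (a :: v) - H v

theorem pot_coef (H : List ℕ → ℝ) (s : List ℕ) : pathPotential (coef H) s = H s := by
  induction s with
  | nil => simp [pathPotential, coef]
  | cons x v ih => simp only [pathPotential, ih, coef]; ring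

/-- Potential of a family restricted to an ancestor-closed set. -/
theorem pot_restrict (S : Finset (List ℕ)) (hS : AncClosed S) (f : List ℕ → ℝ) (s : List ℕ) :
    (s ∈ S → pathPotential (fun u => if u ∈ S then f u else 0) s = pathPotential f s) ∧
    (pathPotential (fun u => if u ∈ S then f u else 0) s = 0 ∨
      ∃ v, pathPotential (fun u => if u ∈ S then f u else 0) s = pathPotential f v) := by
  induction s with
  | nil =>
    by_cases h : ([] : List ℕ) ∈ S
    · have e : pathPotential (fun u => if u ∈ S then f u else 0) [] = pathPotential f [] := by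
        simp only [pathPotential, if_pos h]
      exact ⟨fun _ => e, Or.inr ⟨_, e⟩⟩
    · have e : pathPotential (fun u => if u ∈ S then f u else 0) [] = 0 := by
        simp only [pathPotential, if_neg h]
      exact ⟨fun h' => absurd h' h, Or.inl e⟩
  | cons x v ih =>
    by_cases h : (x :: v) ∈ S
    · have hv : v ∈ S := hS _ h v (List.suffix_cons x v)
      have e : pathPotential (fun u => if u ∈ S then f u else 0) (x :: v)
          = pathPotential f (x :: v) := by
        simp only [pathPotential, if_pos h, ih.1 hv]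
      exact ⟨fun _ => e, Or.inr ⟨_, e⟩⟩
    · have e : pathPotential (fun u => if u ∈ S then f u else 0) (x :: v)
          = pathPotential (fun u => if u ∈ S then f u else 0) v := by
        simp only [pathPotential, if_neg h, add_zero]
      exact ⟨fun h' => absurd h' h, by rw [e]; exact ih.2⟩

theorem abs_pot_restrict_le (S : Finset (List ℕ)) (hS : AncClosed S) (f : List ℕ → ℝ)
    (hf : ∀ s, |pathPotential f s| ≤ 1) (s : List ℕ) :
    |pathPotential (fun u => if u ∈ S then f u else 0) s| ≤ 1 := by
  rcases (pot_restrict S hS f s).2 with h | ⟨v, h⟩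
  · rw [h]; simp
  · rw [h]; exact hf v

/-- Domination lemma for the square-sum conditions of all four models. -/
theorem extra_dom (m : PotentialModel) (f g h : List ℕ → ℝ) (c d : ℝ) (hc : 0 ≤ c) (hd : 0 ≤ d)
    (hcd : c + d ≤ 1) (hf : ExtraCondition m f) (hg : ExtraCondition m g)
    (hh : ∀ u, h u ^ 2 ≤ c * f u ^ 2 + d * g u ^ 2) : ExtraCondition m h := by
  have key : ∀ {ι : Type} (A : Finset ι) (e : ι → List ℕ), (∑ i ∈ A, f (e i) ^ 2 ≤ 1) →
      (∑ i ∈ A, g (e i) ^ 2 ≤ 1) → ∑ i ∈ A, h (e i) ^ 2 ≤ 1 := by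
    intro ι A e h1 h2
    calc ∑ i ∈ A, h (e i) ^ 2 ≤ ∑ i ∈ A, (c * f (e i) ^ 2 + d * g (e i) ^ 2) :=
          Finset.sum_le_sum (fun i _ => hh _)
      _ = c * ∑ i ∈ A, f (e i) ^ 2 + d * ∑ i ∈ A, g (e i) ^ 2 := by
          rw [Finset.sum_add_distrib, Finset.mul_sum, Finset.mul_sum]
      _ ≤ c * 1 + d * 1 := by gcongr
      _ ≤ 1 := by linarith
  have zero_of : ∀ u, f u = 0 → g u = 0 → h u = 0 := by
    intro u hfu hgu
    have := hh u
    rw [hfu, hgu] at this
    have h2 : h u ^ 2 ≤ 0 := by simpa using this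
    have h3 : h u ^ 2 = 0 := le_antisymm h2 (sq_nonneg _)
    exact pow_eq_zero_iff (two_ne_zero) |>.mp h3
  cases m with
  | rootlessSibling =>
    obtain ⟨hf0, hf⟩ := hf
    obtain ⟨hg0, hg⟩ := hg
    exact ⟨zero_of [] hf0 hg0, fun r A => key A (fun n => n :: r) (hf r A) (hg r A)⟩
  | rootedSibling => exact fun r A => key A (fun n => n :: r) (hf r A) (hg r A)
  | antichain =>
    obtain ⟨hfs, hf⟩ := hf
    obtain ⟨hgs, hg⟩ := hg
    refine ⟨?_, fun A hA => key A id (hf A hA) (hg A hA)⟩
    refine (hfs.union hgs).subset ?_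
    intro u hu
    by_contra hcon
    simp only [Set.mem_union, Function.mem_support, not_or, not_not] at hcon
    exact hu (zero_of u hcon.1 hcon.2)
  | global => exact fun A => key A id (hf A) (hg A)

theorem isTest_single (m : PotentialModel) (s : List ℕ) (hs : s ≠ []) :
    IsTest m (fun u => if u = s then (1 : ℝ) else 0) := by
  classical
  constructor
  · -- potential is 0 or 1
    have key : ∀ t : List ℕ, pathPotential (fun u => if u = s then (1 : ℝ) else 0) t = 0 ∨
        (pathPotential (fun u => if u = s then (1 : ℝ) else 0) t = 1 ∧ s <:+ t) := by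
      intro t
      induction t with
      | nil => left; simp [pathPotential, Ne.symm hs]
      | cons x v ih =>
        by_cases h : x :: v = s
        · right
          refine ⟨?_, h ▸ List.suffix_refl _⟩
          simp only [pathPotential, if_pos h]
          rcases ih with h0 | ⟨_, hsuf⟩
          · rw [h0]; ring
          · exfalso
            have h1 := hsuf.length_le
            rw [← h] at h1
            simp at h1
        · simp only [pathPotential, if_neg h, add_zero]
          rcases ih with h0 | ⟨h1, hsuf⟩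
          · left; exact h0
          · right; exact ⟨h1, hsuf.trans (List.suffix_cons x v)⟩
    intro t
    rcases key t with h | ⟨h, _⟩ <;> rw [h] <;> simp
  · -- square sums: at most one nonzero term
    have key : ∀ {ι : Type} (A : Finset ι) (e : ι → List ℕ), Function.Injective e →
        ∑ i ∈ A, (if e i = s then (1 : ℝ) else 0) ^ 2 ≤ 1 := by
      intro ι A e he
      classical
      have : ∀ i ∈ A, (if e i = s then (1 : ℝ) else 0) ^ 2 = if e i = s then 1 else 0 := by
        intro i _; split_ifs <;> simp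
      rw [Finset.sum_congr rfl this, Finset.sum_ite, Finset.sum_const_zero, add_zero,
        Finset.sum_const, nsmul_eq_mul, mul_one]
      have hcard : (A.filter (fun i => e i = s)).card ≤ 1 := by
        rw [Finset.card_le_one]
        intro a ha b hb
        simp only [Finset.mem_filter] at ha hb
        exact he (ha.2.trans hb.2.symm)
      exact_mod_cast hcard
    cases m with
    | rootlessSibling =>
      refine ⟨by simp [Ne.symm hs], fun r A => key A (fun n => n :: r) ?_⟩
      intro a b hab; simpa using hab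
    | rootedSibling =>
      refine fun r A => key A (fun n => n :: r) ?_
      intro a b hab; simpa using hab
    | antichain =>
      refine ⟨?_, fun A _ => key A id Function.injective_id⟩
      refine (Set.finite_singleton s).subset ?_
      intro u hu
      simp only [Function.mem_support, ne_eq, ite_eq_right_iff, one_ne_zero, imp_false,
        not_not] at hu
      exact hu
    | global => exact fun A => key A id Function.injective_id

theorem isTest_neg (m : PotentialModel) (f : List ℕ → ℝ) (hf : IsTest m f) :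
    IsTest m (fun u => - f u) := by
  constructor
  · intro s
    rw [pot_neg, abs_neg]
    exact hf.1 s
  · refine extra_dom m f f _ 1 0 (by norm_num) (by norm_num) (by norm_num) hf.2 hf.2 ?_
    intro u
    simp

theorem isTest_restrict (m : PotentialModel) (S : Finset (List ℕ)) (hS : AncClosed S)
    (f : List ℕ → ℝ) (hf : IsTest m f) : IsTest m (fun u => if u ∈ S then f u else 0) := by
  constructor
  · exact abs_pot_restrict_le S hS f hf.1
  · refine extra_dom m f f _ 1 0 (by norm_num) (by norm_num) (by norm_num) hf.2 hf.2 ?_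
    intro u
    by_cases h : u ∈ S
    · simp [h]
    · simp only [if_neg h]
      nlinarith [sq_nonneg (f u)]

/-- Lipschitz properties of the two clips and of their complements. -/
theorem clip_lip (x y : ℝ) :
    |min x 0 - min y 0| ≤ |x - y| ∧ |max x 0 - max y 0| ≤ |x - y| ∧
      |(x - min x 0) - (y - min y 0)| ≤ |x - y| ∧ |(x - max x 0) - (y - max y 0)| ≤ |x - y| := by
  have ha := le_abs_self (x - y)
  have hb := neg_abs_le (x - y)
  rcases le_total x 0 with hx | hx <;> rcases le_total y 0 with hy | hy <;>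
    simp only [min_eq_left hx, min_eq_right hx, max_eq_left hx, max_eq_right hx,
      min_eq_left hy, min_eq_right hy, max_eq_left hy, max_eq_right hy] <;>
    refine ⟨?_, ?_, ?_, ?_⟩ <;> rw [abs_le] <;> constructor <;> linarith

/-- The key construction. -/
theorem exists_split (m : PotentialModel) (S : Finset (List ℕ)) (hS : AncClosed S)
    (hroot : [] ∈ S) (f g : List ℕ → ℝ) (hf : IsTest m f) (hg : IsTest m g) (α β : ℝ)
    (hα : 0 ≤ α) (hβ : 0 ≤ β) (hαβ : α ^ 2 + β ^ 2 ≤ 1) (hβ2 : β ≤ 1 / 2) :
    ∃ g1 g2 : List ℕ → ℝ,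
      IsTest m g1 ∧ IsTest m g2 ∧
      IsTest m (fun u => if u ∈ S then 0 else g u / 2) ∧
      (∀ u, g1 u + g2 u = if u ∈ S then 0 else g u / 2) ∧
      (∀ u ∈ S, g1 u = 0) ∧ (∀ u ∈ S, g2 u = 0) ∧
      IsTest m (fun u => α * (if u ∈ S then f u else 0) + 2 * β * g1 u) ∧
      IsTest m (fun u => α * (if u ∈ S then f u else 0) - 2 * β * g2 u) := by
  classical
  -- restricted families and their potentials
  let fS : List ℕ → ℝ := fun u => if u ∈ S then f u else 0
  let gS : List ℕ → ℝ := fun u => if u ∈ S then 0 else g u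
  let Fb : List ℕ → ℝ := pathPotential fS
  let Gb : List ℕ → ℝ := pathPotential gS
  have hα1 : α ≤ 1 := by nlinarith [sq_nonneg β, sq_nonneg (α - 1)]
  have hFb1 : ∀ u, |Fb u| ≤ 1 := abs_pot_restrict_le S hS f hf.1
  have hgS_eq : gS = fun u => 1 * g u - 1 * (if u ∈ S then g u else 0) := by
    funext u
    by_cases h : u ∈ S <;> simp [gS, h]
  have hGb_eq : ∀ u, Gb u = pathPotential g u
      - pathPotential (fun u => if u ∈ S then g u else 0) u := by
    intro u
    show pathPotential gS u = _
    rw [hgS_eq, pot_lin_sub]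
    ring
  have hGb2 : ∀ u, |Gb u| ≤ 2 := by
    intro u
    rw [hGb_eq u]
    have h1 := hg.1 u
    have h2 := abs_pot_restrict_le S hS g hg.1 u
    rw [abs_le] at h1 h2 ⊢
    constructor <;> linarith [h1.1, h1.2, h2.1, h2.2]
  have hGbS : ∀ u ∈ S, Gb u = 0 := by
    intro u hu
    rw [hGb_eq u, (pot_restrict S hS g u).1 hu]
    ring
  have hFstep : ∀ a v, (a :: v) ∉ S → Fb (a :: v) = Fb v := by
    intro a v h
    show pathPotential fS (a :: v) = pathPotential fS v
    simp only [pathPotential, fS, if_neg h, add_zero]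
  have hGstep : ∀ a v, Gb (a :: v) - Gb v = gS (a :: v) := by
    intro a v
    show pathPotential gS (a :: v) - pathPotential gS v = gS (a :: v)
    simp only [pathPotential]
    ring
  -- the sign split
  let G1 : List ℕ → ℝ := fun u => if 0 ≤ Fb u then min (Gb u) 0 else max (Gb u) 0
  let G2 : List ℕ → ℝ := fun u => Gb u - G1 u
  have hG1S : ∀ u ∈ S, G1 u = 0 := by
    intro u hu
    show (if 0 ≤ Fb u then min (Gb u) 0 else max (Gb u) 0) = 0
    rw [hGbS u hu]
    split_ifs <;> simp
  have hG2S : ∀ u ∈ S, G2 u = 0 := by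
    intro u hu
    show Gb u - G1 u = 0
    rw [hGbS u hu, hG1S u hu]
    ring
  -- sign information
  have hG1pos : ∀ u, 0 ≤ Fb u → -2 ≤ G1 u ∧ G1 u ≤ 0 ∧ 0 ≤ G2 u ∧ G2 u ≤ 2 := by
    intro u h
    have h2 := hGb2 u
    rw [abs_le] at h2
    have e1 : G1 u = min (Gb u) 0 := by
      show (if 0 ≤ Fb u then min (Gb u) 0 else max (Gb u) 0) = _
      rw [if_pos h]
    have e2 : G2 u = Gb u - min (Gb u) 0 := by
      show Gb u - G1 u = _
      rw [e1]
    rw [e1, e2]
    rcases le_total (Gb u) 0 with hx | hx
    · rw [min_eq_left hx]; refine ⟨h2.1, hx, by linarith, by linarith⟩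
    · rw [min_eq_right hx]; refine ⟨by norm_num, le_refl _, by linarith, by linarith [h2.2]⟩
  have hG1neg : ∀ u, ¬ 0 ≤ Fb u → 0 ≤ G1 u ∧ G1 u ≤ 2 ∧ -2 ≤ G2 u ∧ G2 u ≤ 0 := by
    intro u h
    have h2 := hGb2 u
    rw [abs_le] at h2
    have e1 : G1 u = max (Gb u) 0 := by
      show (if 0 ≤ Fb u then min (Gb u) 0 else max (Gb u) 0) = _
      rw [if_neg h]
    have e2 : G2 u = Gb u - max (Gb u) 0 := by
      show Gb u - G1 u = _
      rw [e1]
    rw [e1, e2]
    rcases le_total (Gb u) 0 with hx | hx
    · rw [max_eq_right hx]; refine ⟨le_refl _, by norm_num, by linarith [h2.1], by linarith⟩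
    · rw [max_eq_left hx]; refine ⟨hx, h2.2, by linarith, by linarith⟩
  -- the two coefficient families
  let g1 : List ℕ → ℝ := coef (fun u => G1 u / 2)
  let g2 : List ℕ → ℝ := coef (fun u => G2 u / 2)
  have hg1S : ∀ u ∈ S, g1 u = 0 := by
    intro u hu
    cases u with
    | nil => show G1 [] / 2 = 0; rw [hG1S _ hu]; ring
    | cons a v =>
      have hv : v ∈ S := hS _ hu v (List.suffix_cons a v)
      show G1 (a :: v) / 2 - G1 v / 2 = 0
      rw [hG1S _ hu, hG1S _ hv]; ring
  have hg2S : ∀ u ∈ S, g2 u = 0 := by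
    intro u hu
    cases u with
    | nil => show G2 [] / 2 = 0; rw [hG2S _ hu]; ring
    | cons a v =>
      have hv : v ∈ S := hS _ hu v (List.suffix_cons a v)
      show G2 (a :: v) / 2 - G2 v / 2 = 0
      rw [hG2S _ hu, hG2S _ hv]; ring
  -- coefficient bounds off S
  have hg12 : ∀ u, u ∉ S → |g1 u| ≤ |g u| / 2 ∧ |g2 u| ≤ |g u| / 2 := by
    intro u hu
    cases u with
    | nil => exact absurd hroot hu
    | cons a v =>
      have hF := hFstep a v hu
      have hG : Gb (a :: v) - Gb v = g (a :: v) := by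
        rw [hGstep a v]
        show (if (a :: v) ∈ S then 0 else g (a :: v)) = _
        rw [if_neg hu]
      have hl := clip_lip (Gb (a :: v)) (Gb v)
      rw [hG] at hl
      have e1 : g1 (a :: v) = (G1 (a :: v) - G1 v) / 2 := by
        show G1 (a :: v) / 2 - G1 v / 2 = _
        ring
      have e2 : g2 (a :: v) = ((Gb (a :: v) - G1 (a :: v)) - (Gb v - G1 v)) / 2 := by
        show (Gb (a :: v) - G1 (a :: v)) / 2 - (Gb v - G1 v) / 2 = _
        ring
      rw [e1, e2, abs_div, abs_div, abs_two]
      by_cases h : 0 ≤ Fb v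
      · have h' : 0 ≤ Fb (a :: v) := by rw [hF]; exact h
        have a1 : G1 (a :: v) = min (Gb (a :: v)) 0 := by
          show (if 0 ≤ Fb (a :: v) then min (Gb (a :: v)) 0 else max (Gb (a :: v)) 0) = _
          rw [if_pos h']
        have a2 : G1 v = min (Gb v) 0 := by
          show (if 0 ≤ Fb v then min (Gb v) 0 else max (Gb v) 0) = _
          rw [if_pos h]
        rw [a1, a2]
        exact ⟨by linarith [hl.1], by linarith [hl.2.2.1]⟩
      · have h' : ¬ 0 ≤ Fb (a :: v) := by rw [hF]; exact h
        have a1 : G1 (a :: v) = max (Gb (a :: v)) 0 := by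
          show (if 0 ≤ Fb (a :: v) then min (Gb (a :: v)) 0 else max (Gb (a :: v)) 0) = _
          rw [if_neg h']
        have a2 : G1 v = max (Gb v) 0 := by
          show (if 0 ≤ Fb v then min (Gb v) 0 else max (Gb v) 0) = _
          rw [if_neg h]
        rw [a1, a2]
        exact ⟨by linarith [hl.2.1], by linarith [hl.2.2.2]⟩
  have hsq : ∀ u, g1 u ^ 2 ≤ (1 / 4) * g u ^ 2 ∧ g2 u ^ 2 ≤ (1 / 4) * g u ^ 2 := by
    intro u
    by_cases hu : u ∈ S
    · rw [hg1S u hu, hg2S u hu]
      constructor <;> nlinarith [sq_nonneg (g u)]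
    · obtain ⟨h1, h2⟩ := hg12 u hu
      have e : g u ^ 2 = |g u| ^ 2 := (sq_abs _).symm
      constructor
      · rw [← sq_abs (g1 u), e]
        nlinarith [abs_nonneg (g1 u), abs_nonneg (g u)]
      · rw [← sq_abs (g2 u), e]
        nlinarith [abs_nonneg (g2 u), abs_nonneg (g u)]
  -- potentials of g1, g2
  have hp1 : ∀ s, pathPotential g1 s = G1 s / 2 := fun s => pot_coef _ s
  have hp2 : ∀ s, pathPotential g2 s = G2 s / 2 := fun s => pot_coef _ s
  have hG1abs : ∀ s, -2 ≤ G1 s ∧ G1 s ≤ 2 ∧ -2 ≤ G2 s ∧ G2 s ≤ 2 := by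
    intro s
    by_cases h : 0 ≤ Fb s
    · obtain ⟨a, b, c, d⟩ := hG1pos s h
      exact ⟨a, by linarith, by linarith, d⟩
    · obtain ⟨a, b, c, d⟩ := hG1neg s h
      exact ⟨by linarith, b, c, by linarith⟩
  have hα2 : 0 ≤ α ^ 2 := sq_nonneg α
  have hβ2' : 0 ≤ β ^ 2 := sq_nonneg β
  refine ⟨g1, g2, ⟨?_, ?_⟩, ⟨?_, ?_⟩, ⟨?_, ?_⟩, ?_, hg1S, hg2S, ⟨?_, ?_⟩, ⟨?_, ?_⟩⟩
  · -- potential of g1
    intro s
    rw [hp1 s, abs_le]
    obtain ⟨a, b, _, _⟩ := hG1abs s
    constructor <;> linarith
  · exact extra_dom m g g g1 (1 / 4) 0 (by norm_num) (by norm_num) (by norm_num) hg.2 hg.2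
      (fun u => by linarith [(hsq u).1])
  · intro s
    rw [hp2 s, abs_le]
    obtain ⟨_, _, c, d⟩ := hG1abs s
    constructor <;> linarith
  · exact extra_dom m g g g2 (1 / 4) 0 (by norm_num) (by norm_num) (by norm_num) hg.2 hg.2
      (fun u => by linarith [(hsq u).2])
  · -- potential of gS / 2
    intro s
    have e : (fun u => if u ∈ S then (0 : ℝ) else g u / 2)
        = fun u => (1 / 2) * gS u + 0 * gS u := by
      funext u
      by_cases h : u ∈ S <;> simp [gS, h]
      ring
    rw [e, pot_lin_add]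
    have h2 := hGb2 s
    rw [abs_le] at h2 ⊢
    show -1 ≤ 1 / 2 * Gb s + 0 * Gb s ∧ 1 / 2 * Gb s + 0 * Gb s ≤ 1
    constructor <;> linarith [h2.1, h2.2]
  · refine extra_dom m g g _ (1 / 4) 0 (by norm_num) (by norm_num) (by norm_num) hg.2 hg.2 ?_
    intro u
    by_cases h : u ∈ S
    · simp only [if_pos h]
      nlinarith [sq_nonneg (g u)]
    · simp only [if_neg h]
      nlinarith [sq_nonneg (g u)]
  · -- g1 + g2
    intro u
    cases u with
    | nil =>
      show G1 [] / 2 + (Gb [] - G1 []) / 2 = _
      rw [if_pos hroot, hGbS _ hroot]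
      ring
    | cons a v =>
      show (G1 (a :: v) / 2 - G1 v / 2) + ((Gb (a :: v) - G1 (a :: v)) / 2 - (Gb v - G1 v) / 2) = _
      have hG := hGstep a v
      have e : gS (a :: v) = if (a :: v) ∈ S then 0 else g (a :: v) := rfl
      by_cases h : (a :: v) ∈ S
      · rw [if_pos h]
        rw [e, if_pos h] at hG
        linarith
      · rw [if_neg h]
        rw [e, if_neg h] at hG
        linarith
  · -- potential of h+
    intro s
    rw [pot_lin_add, hp1 s]
    show |α * Fb s + 2 * β * (G1 s / 2)| ≤ 1
    have hF := hFb1 s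
    rw [abs_le] at hF ⊢
    by_cases h : 0 ≤ Fb s
    · obtain ⟨a, b, _, _⟩ := hG1pos s h
      have p1 : 0 ≤ α * Fb s := mul_nonneg hα h
      have p2 : α * Fb s ≤ 1 := by nlinarith [hF.2]
      have p3 : β * G1 s ≤ 0 := by nlinarith
      have p4 : -1 ≤ β * G1 s := by nlinarith
      constructor <;> linarith
    · have h' : Fb s ≤ 0 := le_of_not_ge h
      obtain ⟨a, b, _, _⟩ := hG1neg s h
      have p1 : α * Fb s ≤ 0 := by nlinarith
      have p2 : -1 ≤ α * Fb s := by nlinarith [hF.1]
      have p3 : 0 ≤ β * G1 s := mul_nonneg hβ a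
      have p4 : β * G1 s ≤ 1 := by nlinarith
      constructor <;> linarith
  · refine extra_dom m f g _ (α ^ 2) (β ^ 2) hα2 hβ2' hαβ hf.2 hg.2 ?_
    intro u
    by_cases h : u ∈ S
    · simp only [if_pos h]
      rw [hg1S u h]
      nlinarith [sq_nonneg (g u), sq_nonneg (α * f u)]
    · simp only [if_neg h]
      have := (hsq u).1
      nlinarith [sq_nonneg (f u), sq_nonneg (β * g1 u), mul_nonneg hα2 (sq_nonneg (f u)),
        mul_le_mul_of_nonneg_left this hβ2']
  · -- potential of h-
    intro s
    rw [pot_lin_sub, hp2 s]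
    show |α * Fb s - 2 * β * (G2 s / 2)| ≤ 1
    have hF := hFb1 s
    rw [abs_le] at hF ⊢
    by_cases h : 0 ≤ Fb s
    · obtain ⟨_, _, c, d⟩ := hG1pos s h
      have p1 : 0 ≤ α * Fb s := mul_nonneg hα h
      have p2 : α * Fb s ≤ 1 := by nlinarith [hF.2]
      have p3 : 0 ≤ β * G2 s := mul_nonneg hβ c
      have p4 : β * G2 s ≤ 1 := by nlinarith
      constructor <;> linarith
    · have h' : Fb s ≤ 0 := le_of_not_ge h
      obtain ⟨_, _, c, d⟩ := hG1neg s h
      have p1 : α * Fb s ≤ 0 := by nlinarith
      have p2 : -1 ≤ α * Fb s := by nlinarith [hF.1]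
      have p3 : β * G2 s ≤ 0 := by nlinarith
      have p4 : -1 ≤ β * G2 s := by nlinarith
      constructor <;> linarith
  · refine extra_dom m f g _ (α ^ 2) (β ^ 2) hα2 hβ2' hαβ hf.2 hg.2 ?_
    intro u
    by_cases h : u ∈ S
    · simp only [if_pos h]
      rw [hg2S u h]
      nlinarith [sq_nonneg (g u), sq_nonneg (α * f u)]
    · simp only [if_neg h]
      have := (hsq u).2
      nlinarith [sq_nonneg (f u), sq_nonneg (β * g2 u), mul_nonneg hα2 (sq_nonneg (f u)),
        mul_le_mul_of_nonneg_left this hβ2']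

end Crest.Agent.Lib_helper9_TreeTests
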