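import Mathlib
import Crest.Agent.Lib_helper9_Defs
import Crest.Agent.Lib_helper9_TreeTests

/-!
Row 125, package P3: the model spaces (closures of spans of coordinate vectors in the sup-norm
space over the tests of a model).
-/

set_option autoImplicit false

namespace Crest.Agent.Lib_helper9_Model

open Crest.AnalysisR Crest.AnalysisR.TreePotential Crest.Agent.Lib_helper9_Defs
open Crest.Agent.Lib_helper9_TreeTests

/-! ### basic facts on potentials and tests -/

theorem pathPotential_eq_sum (f : List ℕ → ℝ) (s : List ℕ) :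
    pathPotential f s = ∑ u ∈ s.tails.toFinset, f u := by
  induction s with
  | nil => simp [pathPotential]
  | cons a v ih =>
    have hnot : (a :: v) ∉ v.tails.toFinset := by
      rw [List.mem_toFinset, List.mem_tails]
      intro h
      have := h.length_le
      simp at this
    rw [List.tails_cons, List.toFinset_cons, Finset.sum_insert hnot, pathPotential, ih, add_comm]

theorem pathPotential_zero (s : List ℕ) : pathPotential (fun _ => (0 : ℝ)) s = 0 := by
  rw [pathPotential_eq_sum]; simp

theorem isTest_zero (m : PotentialModel) : IsTest m (fun _ => (0 : ℝ)) := by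
  refine ⟨fun s => by rw [pathPotential_zero]; simp, ?_⟩
  cases m with
  | rootlessSibling => exact ⟨rfl, fun r A => by simp⟩
  | rootedSibling => exact fun r A => by simp
  | antichain =>
    refine ⟨?_, fun A _ => by simp⟩
    have : Function.support (fun _ : List ℕ => (0 : ℝ)) = ∅ := by
      ext u; simp
    rw [this]; exact Set.finite_empty
  | global => exact fun A => by simp

instance (m : PotentialModel) : Nonempty (PotentialTest m) := ⟨⟨_, isTest_zero m⟩⟩

theorem pathPotential_single_root (s : List ℕ) :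
    pathPotential (fun u => if u = [] then (1 : ℝ) else 0) s = 1 := by
  induction s with
  | nil => simp [pathPotential]
  | cons a v ih => simp [pathPotential, ih]

/-- the indicator of the root is a test in the three rooted models. -/
theorem isTest_single_root (m : PotentialModel) (hm : m ≠ .rootlessSibling) :
    IsTest m (fun u => if u = [] then (1 : ℝ) else 0) := by
  refine ⟨fun s => by rw [pathPotential_single_root]; simp, ?_⟩
  have hsum : ∀ A : Finset (List ℕ),
      ∑ u ∈ A, (if u = [] then (1 : ℝ) else 0) ^ 2 ≤ 1 := by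
    intro A
    have : ∀ u : List ℕ, (if u = [] then (1 : ℝ) else 0) ^ 2 = if u = [] then 1 else 0 := by
      intro u; split_ifs <;> simp
    simp only [this]
    rw [Finset.sum_ite_eq']
    split_ifs <;> norm_num
  cases m with
  | rootlessSibling => exact absurd rfl hm
  | rootedSibling => exact fun r A => by simp
  | antichain =>
    refine ⟨?_, fun A _ => hsum A⟩
    apply Set.Finite.subset (Set.finite_singleton ([] : List ℕ))
    intro u hu
    simp only [Function.mem_support, ne_eq, ite_eq_right_iff, one_ne_zero, imp_false,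
      not_not] at hu
    exact hu
  | global => exact hsum

/-- for every vertex `u` and every test `h`, either the indicator of `u` is a test, or `h u = 0`
(the latter at the root of the rootless model). -/
theorem isTest_single_or (m : PotentialModel) (u : List ℕ) (h : List ℕ → ℝ) (hh : IsTest m h) :
    IsTest m (fun v => if v = u then (1 : ℝ) else 0) ∨ h u = 0 := by
  by_cases hu : u = []
  · subst hu
    by_cases hm : m = .rootlessSibling
    · subst hm
      exact Or.inr hh.2.1
    · exact Or.inl (isTest_single_root m hm)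
  · exact Or.inl (isTest_single m u hu)

/-- children square sums of a test are at most one in every model. -/
theorem sum_children_sq_le (m : PotentialModel) (f : List ℕ → ℝ) (hf : IsTest m f)
    (r : List ℕ) (A : Finset ℕ) : ∑ n ∈ A, f (n :: r) ^ 2 ≤ 1 := by
  have hinj : Function.Injective (fun n : ℕ => n :: r) := fun a b hab => by
    simpa using hab
  have himg : ∑ u ∈ A.image (fun n : ℕ => n :: r), f u ^ 2 = ∑ n ∈ A, f (n :: r) ^ 2 :=
    Finset.sum_image (fun a _ b _ hab => hinj hab)
  cases m with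
  | rootlessSibling => exact hf.2.2 r A
  | rootedSibling => exact hf.2 r A
  | antichain =>
    rw [← himg]
    apply hf.2.2
    intro u hu v hv huv hsuf
    rw [Finset.mem_image] at hu hv
    obtain ⟨a, -, rfl⟩ := hu
    obtain ⟨b, -, rfl⟩ := hv
    exact huv (hsuf.eq_of_length (by simp))
  | global =>
    rw [← himg]
    exact hf.2 _

/-! ### evaluation functionals -/

/-- evaluation at a test, as a continuous linear functional on the ambient space. -/
noncomputable def ev (m : PotentialModel) (h : PotentialTest m) : Amb m →L[ℝ] ℝ :=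
  LinearMap.mkContinuous
    { toFun := fun y => y h
      map_add' := fun y z => rfl
      map_smul' := fun c y => rfl }
    1 (fun y => by
      rw [one_mul]
      exact lp.norm_apply_le_norm ENNReal.top_ne_zero y h)

theorem ev_apply (m : PotentialModel) (h : PotentialTest m) (y : Amb m) :
    ev m h y = y h := rfl

@[simp] theorem ev_coordVector (m : PotentialModel) (s : List ℕ) (h : PotentialTest m) :
    ev m h (coordVector m s) = h.1 s := rfl

theorem abs_ev_le (m : PotentialModel) (y : Amb m) (h : PotentialTest m) : |ev m h y| ≤ ‖y‖ :=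
  lp.norm_apply_le_norm ENNReal.top_ne_zero y h

theorem ev_le_norm (m : PotentialModel) (y : Amb m) (h : PotentialTest m) : ev m h y ≤ ‖y‖ :=
  le_trans (le_abs_self _) (abs_ev_le m y h)

/-- a continuous functional vanishing on all coordinate vectors vanishes on the model space. -/
theorem modelSpace_rel (m : PotentialModel) (y : Amb m) (hy : y ∈ modelSpace m)
    (φ : Amb m →L[ℝ] ℝ) (hφ : ∀ s, φ (coordVector m s) = 0) : φ y = 0 := by
  have hle : modelSpace m ≤ LinearMap.ker (φ : Amb m →ₗ[ℝ] ℝ) := by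
    apply Submodule.topologicalClosure_minimal
    · rw [Submodule.span_le]
      rintro _ ⟨s, rfl⟩
      exact hφ s
    · exact φ.isClosed_ker
  exact hle hy

/-- linearity in the test, two-term form. -/
theorem rel2 (m : PotentialModel) (y : Amb m) (hy : y ∈ modelSpace m)
    (h h1 h2 : PotentialTest m) (c1 c2 : ℝ)
    (H : ∀ u, h.1 u = c1 * h1.1 u + c2 * h2.1 u) :
    ev m h y = c1 * ev m h1 y + c2 * ev m h2 y := by
  have := modelSpace_rel m y hy (ev m h - c1 • ev m h1 - c2 • ev m h2) (fun s => by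
    simp [H s])
  simp only [sub_apply, smul_apply, smul_eq_mul] at this
  linarith

/-- linearity in the test, one-term form. -/
theorem rel1 (m : PotentialModel) (y : Amb m) (hy : y ∈ modelSpace m)
    (h h1 : PotentialTest m) (c1 : ℝ)
    (H : ∀ u, h.1 u = c1 * h1.1 u) : ev m h y = c1 * ev m h1 y := by
  have := modelSpace_rel m y hy (ev m h - c1 • ev m h1) (fun s => by
    simp [H s])
  simp only [sub_apply, smul_apply, smul_eq_mul] at this
  linarith

/-- linearity in the test, finite-sum form. -/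
theorem relSum (m : PotentialModel) (y : Amb m) (hy : y ∈ modelSpace m)
    (h : PotentialTest m) {ι : Type} (s : Finset ι) (c : ι → ℝ) (k : ι → PotentialTest m)
    (H : ∀ u, h.1 u = ∑ i ∈ s, c i * (k i).1 u) :
    ev m h y = ∑ i ∈ s, c i * ev m (k i) y := by
  have := modelSpace_rel m y hy (ev m h - ∑ i ∈ s, c i • ev m (k i)) (fun u => by
    simp [H u])
  simp only [sub_apply, smul_apply, smul_eq_mul, sum_apply] at this
  linarith

/-- for every `ε > 0` some test nearly norms a given element of the model space. -/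
theorem exists_test_norming (m : PotentialModel) (y : Amb m) (hy : y ∈ modelSpace m) (ε : ℝ)
    (hε : 0 < ε) : ∃ h : PotentialTest m, ‖y‖ - ε ≤ ev m h y := by
  have hlub := lp.isLUB_norm y
  obtain ⟨_, ⟨h, rfl⟩, hlt⟩ := hlub.exists_between (show ‖y‖ - ε < ‖y‖ by linarith)
  have hlt1 : ‖y‖ - ε < |ev m h y| := hlt.1
  by_cases hpos : 0 ≤ ev m h y
  · exact ⟨h, by rw [abs_of_nonneg hpos] at hlt1; exact hlt1.le⟩
  · rw [not_le] at hpos
    refine ⟨⟨fun u => - h.1 u, isTest_neg m h.1 h.2⟩, ?_⟩
    have := rel1 m y hy ⟨fun u => - h.1 u, isTest_neg m h.1 h.2⟩ h (-1) (fun u => by simp)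
    rw [this]
    rw [abs_of_neg hpos] at hlt1
    linarith

/-! ### the norm lemmas -/

/-- Path sums are bounded by one: `∑_{u suffix of s} coordVector u`. -/
theorem norm_pathSum_le (m : PotentialModel) (s : List ℕ) :
    ‖∑ u ∈ s.tails.toFinset, coordVector m u‖ ≤ 1 := by
  apply lp.norm_le_of_forall_le zero_le_one
  intro h
  have hval : ev m h (∑ u ∈ s.tails.toFinset, coordVector m u) = pathPotential h.1 s := by
    rw [map_sum, pathPotential_eq_sum]
    simp
  have := h.2.1 s
  rw [← hval] at this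
  exact this

theorem norm_pathSum_ge (m : PotentialModel) (s : List ℕ) (hs : s ≠ []) :
    1 ≤ ‖∑ u ∈ s.tails.toFinset, coordVector m u‖ := by
  have h := abs_ev_le m (∑ u ∈ s.tails.toFinset, coordVector m u)
    ⟨_, isTest_single m s hs⟩
  have hmem : s ∈ s.tails.toFinset := by
    rw [List.mem_toFinset, List.mem_tails]
  have hval : ev m ⟨_, isTest_single m s hs⟩ (∑ u ∈ s.tails.toFinset, coordVector m u) = 1 := by
    rw [map_sum]
    have hterm : ∀ u ∈ s.tails.toFinset, ev m ⟨_, isTest_single m s hs⟩ (coordVector m u) =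
        if u = s then (1 : ℝ) else 0 := fun u _ => rfl
    rw [Finset.sum_congr rfl hterm, Finset.sum_ite_eq', if_pos hmem]
  rw [hval, abs_one] at h
  exact h

theorem norm_coordVector_ge (m : PotentialModel) (s : List ℕ) (hs : s ≠ []) :
    1 ≤ ‖coordVector m s‖ := by
  have h := abs_ev_le m (coordVector m s) ⟨_, isTest_single m s hs⟩
  have hval : ev m ⟨_, isTest_single m s hs⟩ (coordVector m s) = 1 := by
    show (if s = s then (1 : ℝ) else 0) = 1
    rw [if_pos rfl]
  rw [hval, abs_one] at h
  exact h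

/-- Upper `ℓ²` estimate for the children of a vertex. -/
theorem norm_children_le (m : PotentialModel) (r : List ℕ) (A : Finset ℕ) (c : ℕ → ℝ) :
    ‖∑ n ∈ A, c n • coordVector m (n :: r)‖ ≤ Real.sqrt (∑ n ∈ A, c n ^ 2) := by
  apply lp.norm_le_of_forall_le (Real.sqrt_nonneg _)
  intro h
  have hval : ev m h (∑ n ∈ A, c n • coordVector m (n :: r)) = ∑ n ∈ A, c n * h.1 (n :: r) := by
    rw [map_sum]
    simp
  have hgoal : |ev m h (∑ n ∈ A, c n • coordVector m (n :: r))| ≤
      Real.sqrt (∑ n ∈ A, c n ^ 2) := by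
    rw [hval]
    apply Real.abs_le_sqrt
    have hcs := Finset.sum_mul_sq_le_sq_mul_sq A c (fun n => h.1 (n :: r))
    have h1 := sum_children_sq_le m h.1 h.2 r A
    have h0 : 0 ≤ ∑ n ∈ A, c n ^ 2 := Finset.sum_nonneg (fun n _ => sq_nonneg _)
    calc (∑ n ∈ A, c n * h.1 (n :: r)) ^ 2
        ≤ (∑ n ∈ A, c n ^ 2) * ∑ n ∈ A, h.1 (n :: r) ^ 2 := hcs
      _ ≤ (∑ n ∈ A, c n ^ 2) * 1 := mul_le_mul_of_nonneg_left h1 h0
      _ = ∑ n ∈ A, c n ^ 2 := mul_one _
  exact hgoal

/-! ### the strong midpoint lemma -/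

/-- the kernel of a continuous linear map into a finite-dimensional space is closed of finite
codimension. -/
theorem cof_ker' {X : Type*} [NormedAddCommGroup X] [NormedSpace ℝ X]
    {G : Type*} [NormedAddCommGroup G] [NormedSpace ℝ G] [FiniteDimensional ℝ G]
    (T : X →L[ℝ] G) :
    IsClosed ((LinearMap.ker T.toLinearMap : Submodule ℝ X) : Set X) ∧
      FiniteDimensional ℝ (X ⧸ (LinearMap.ker T.toLinearMap : Submodule ℝ X)) := by
  refine ⟨T.isClosed_ker, ?_⟩
  exact Module.Finite.equiv (T.toLinearMap.quotKerEquivRange).symm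

/-- Strong midpoint lemma, in the ambient sup-norm space. -/
theorem strong_midpoint (m : PotentialModel) (x : Amb m) (hx : x ∈ modelSpace m) (η : ℝ)
    (hη : 0 < η) :
    ∃ S : Submodule ℝ (Amb m), IsClosed (S : Set (Amb m)) ∧ FiniteDimensional ℝ (Amb m ⧸ S) ∧
      ∀ y ∈ modelSpace m, y ∈ S → ∀ α β : ℝ, 0 ≤ α → 0 ≤ β → α ^ 2 + β ^ 2 ≤ 1 → β ≤ 1 / 2 →
        2 * α * ‖x‖ + β * ‖y‖ - η ≤ ‖x + y‖ + ‖x - y‖ := by
  classical
  -- Step 1: approximate `x` by a finite combination of coordinate vectors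
  have hx' : x ∈ closure ((Submodule.span ℝ (Set.range (coordVector m)) :
      Submodule ℝ (Amb m)) : Set (Amb m)) := hx
  obtain ⟨x0, hx0span, hx0dist⟩ := Metric.mem_closure_iff.mp hx' (η / 8) (by positivity)
  obtain ⟨c, hc⟩ := (Finsupp.mem_span_range_iff_exists_finsupp).mp hx0span
  set A := c.support with hA
  set S0 : Finset (List ℕ) := insert [] (A.biUnion fun s => s.tails.toFinset) with hS0
  have hroot : [] ∈ S0 := Finset.mem_insert_self _ _
  have hAS0 : A ⊆ S0 := by
    intro s hs
    apply Finset.mem_insert_of_mem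
    rw [Finset.mem_biUnion]
    exact ⟨s, hs, by rw [List.mem_toFinset, List.mem_tails]⟩
  have hAnc : AncClosed S0 := by
    intro s hs u hu
    rw [hS0, Finset.mem_insert] at hs ⊢
    rcases hs with rfl | hs
    · left; exact List.suffix_nil.mp hu
    · right
      rw [Finset.mem_biUnion] at hs ⊢
      obtain ⟨t, ht, hst⟩ := hs
      rw [List.mem_toFinset, List.mem_tails] at hst
      exact ⟨t, ht, by rw [List.mem_toFinset, List.mem_tails]; exact hu.trans hst⟩
  -- evaluation of `x0`
  have hx0ev : ∀ h : PotentialTest m, ev m h x0 = ∑ s ∈ A, c s * h.1 s := by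
    intro h
    rw [← hc, Finsupp.sum, map_sum]
    apply Finset.sum_congr rfl
    intro s _
    rw [map_smul, ev_coordVector, smul_eq_mul]
  -- Step 2: the subspace
  let k : List ℕ → PotentialTest m := fun s =>
    if hs : IsTest m (fun v => if v = s then (1 : ℝ) else 0) then ⟨_, hs⟩
    else ⟨_, isTest_zero m⟩
  have hk_pos : ∀ s (hs : IsTest m (fun v => if v = s then (1 : ℝ) else 0)) (u : List ℕ),
      (k s).1 u = if u = s then (1 : ℝ) else 0 := by
    intro s hs u
    have hks : k s = ⟨_, hs⟩ := dif_pos hs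
    rw [hks]
  have hk_neg : ∀ s (_ : ¬ IsTest m (fun v => if v = s then (1 : ℝ) else 0)) (u : List ℕ),
      (k s).1 u = 0 := by
    intro s hs u
    have hks : k s = ⟨_, isTest_zero m⟩ := dif_neg hs
    rw [hks]
  let T : Amb m →L[ℝ] (S0 → ℝ) := ContinuousLinearMap.pi (fun s : S0 => ev m (k s.1))
  obtain ⟨hTc, hTf⟩ := cof_ker' T
  refine ⟨LinearMap.ker T.toLinearMap, hTc, hTf, ?_⟩
  intro y hy hyS α β hα hβ hαβ hβ2
  have hyk : ∀ s ∈ S0, ev m (k s) y = 0 := by
    intro s hs
    have h0 : T y = 0 := hyS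
    exact congrFun h0 ⟨s, hs⟩
  -- Step 3: `y` kills tests supported in `S0`
  have hkill : ∀ h : PotentialTest m, (∀ u, u ∉ S0 → h.1 u = 0) → ev m h y = 0 := by
    intro h hsupp
    have hrel : ∀ u, h.1 u = ∑ s ∈ S0, h.1 s * (k s).1 u := by
      intro u
      by_cases hu : u ∈ S0
      · rw [Finset.sum_eq_single u]
        · rcases isTest_single_or m u h.1 h.2 with ht | h0
          · rw [hk_pos u ht u, if_pos rfl, mul_one]
          · rw [h0, zero_mul]
        · intro s _ hsu
          by_cases ht : IsTest m (fun v => if v = s then (1 : ℝ) else 0)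
          · rw [hk_pos s ht u, if_neg (Ne.symm hsu), mul_zero]
          · rw [hk_neg s ht u, mul_zero]
        · intro hu'; exact absurd hu hu'
      · rw [hsupp u hu]
        symm
        apply Finset.sum_eq_zero
        intro s hs
        have hsu : u ≠ s := fun h' => hu (h' ▸ hs)
        by_cases ht : IsTest m (fun v => if v = s then (1 : ℝ) else 0)
        · rw [hk_pos s ht u, if_neg hsu, mul_zero]
        · rw [hk_neg s ht u, mul_zero]
    rw [relSum m y hy h S0 (fun s => h.1 s) k hrel]
    exact Finset.sum_eq_zero (fun s hs => by rw [hyk s hs, mul_zero])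
  -- Step 4: choose tests
  obtain ⟨f, hf⟩ := exists_test_norming m x hx (η / 8) (by positivity)
  obtain ⟨g, hg⟩ := exists_test_norming m y hy (η / 4) (by positivity)
  obtain ⟨g1, g2, hg1, hg2, hg12, hsum, hg1S, hg2S, hplus, hminus⟩ :=
    exists_split m S0 hAnc hroot f.1 g.1 f.2 g.2 α β hα hβ hαβ hβ2
  have hα1 : α ≤ 1 := by nlinarith [sq_nonneg β]
  -- closeness of `x` and `x0`
  have hxx0 : ∀ h : PotentialTest m, |ev m h x - ev m h x0| ≤ η / 8 := by
    intro h
    rw [← map_sub]
    refine le_trans (abs_ev_le m _ h) ?_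
    rw [← dist_eq_norm]
    exact hx0dist.le
  -- values of `x0`
  have hx0P : ev m ⟨_, hplus⟩ x0 = α * ev m f x0 := by
    have e3 : ∑ s ∈ A, c s * (α * (if s ∈ S0 then f.1 s else 0) + 2 * β * g1 s) =
        α * ∑ s ∈ A, c s * f.1 s := by
      rw [Finset.mul_sum]
      apply Finset.sum_congr rfl
      intro s hs
      have hsS : s ∈ S0 := hAS0 hs
      rw [if_pos hsS, hg1S s hsS]; ring
    calc ev m ⟨_, hplus⟩ x0
        = ∑ s ∈ A, c s * (α * (if s ∈ S0 then f.1 s else 0) + 2 * β * g1 s) := hx0ev _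
      _ = α * ∑ s ∈ A, c s * f.1 s := e3
      _ = α * ev m f x0 := congrArg (fun z => α * z) (hx0ev f).symm
  have hx0M : ev m ⟨_, hminus⟩ x0 = α * ev m f x0 := by
    have e3 : ∑ s ∈ A, c s * (α * (if s ∈ S0 then f.1 s else 0) - 2 * β * g2 s) =
        α * ∑ s ∈ A, c s * f.1 s := by
      rw [Finset.mul_sum]
      apply Finset.sum_congr rfl
      intro s hs
      have hsS : s ∈ S0 := hAS0 hs
      rw [if_pos hsS, hg2S s hsS]; ring
    calc ev m ⟨_, hminus⟩ x0
        = ∑ s ∈ A, c s * (α * (if s ∈ S0 then f.1 s else 0) - 2 * β * g2 s) := hx0ev _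
      _ = α * ∑ s ∈ A, c s * f.1 s := e3
      _ = α * ev m f x0 := congrArg (fun z => α * z) (hx0ev f).symm
  -- values of `y`
  have hyfS : ev m ⟨_, isTest_restrict m S0 hAnc f.1 f.2⟩ y = 0 :=
    hkill _ (fun u hu => if_neg hu)
  have hygS : ev m ⟨_, isTest_restrict m S0 hAnc g.1 g.2⟩ y = 0 :=
    hkill _ (fun u hu => if_neg hu)
  have hyP : ev m ⟨_, hplus⟩ y = α * ev m ⟨_, isTest_restrict m S0 hAnc f.1 f.2⟩ y +
      (2 * β) * ev m ⟨g1, hg1⟩ y :=
    rel2 m y hy _ _ _ _ _ (fun u => rfl)
  have hyM : ev m ⟨_, hminus⟩ y = α * ev m ⟨_, isTest_restrict m S0 hAnc f.1 f.2⟩ y +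
      (-(2 * β)) * ev m ⟨g2, hg2⟩ y :=
    rel2 m y hy _ _ _ _ _ (fun u => by
      show α * (if u ∈ S0 then f.1 u else 0) - 2 * β * g2 u =
        α * (if u ∈ S0 then f.1 u else 0) + (-(2 * β)) * g2 u
      ring)
  have hyG12 : ev m ⟨_, hg12⟩ y = 1 * ev m ⟨g1, hg1⟩ y + 1 * ev m ⟨g2, hg2⟩ y :=
    rel2 m y hy _ _ _ _ _ (fun u => by
      show (if u ∈ S0 then 0 else g.1 u / 2) = 1 * g1 u + 1 * g2 u
      rw [← hsum u]; ring)
  have hyg : ev m g y = 1 * ev m ⟨_, isTest_restrict m S0 hAnc g.1 g.2⟩ y +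
      2 * ev m ⟨_, hg12⟩ y :=
    rel2 m y hy _ _ _ _ _ (fun u => by
      show g.1 u = 1 * (if u ∈ S0 then g.1 u else 0) + 2 * (if u ∈ S0 then 0 else g.1 u / 2)
      split_ifs <;> ring)
  -- assemble
  have h1 : ev m ⟨_, hplus⟩ (x + y) ≤ ‖x + y‖ := ev_le_norm m _ _
  have h2 : ev m ⟨_, hminus⟩ (x - y) ≤ ‖x - y‖ := ev_le_norm m _ _
  rw [map_add] at h1
  rw [map_sub] at h2
  have hxP := abs_le.mp (hxx0 ⟨_, hplus⟩)
  have hxM := abs_le.mp (hxx0 ⟨_, hminus⟩)
  have hxf := abs_le.mp (hxx0 f)
  have e1 : α * (‖x‖ - η / 4) ≤ α * ev m f x0 :=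
    mul_le_mul_of_nonneg_left (by linarith [hxf.1, hxf.2]) hα
  have e2 : α * (η / 4) ≤ 1 * (η / 4) := mul_le_mul_of_nonneg_right hα1 (by positivity)
  have e3 : β * (‖y‖ - η / 4) ≤ β * ev m g y := mul_le_mul_of_nonneg_left hg hβ
  have e4 : β * (η / 4) ≤ 1 / 2 * (η / 4) := mul_le_mul_of_nonneg_right hβ2 (by positivity)
  have e5 : ev m ⟨_, hplus⟩ y - ev m ⟨_, hminus⟩ y = β * ev m g y := by
    rw [hyP, hyM, hyg, hyG12, hyfS, hygS]; ring
  nlinarith [hxP.1, hxP.2, hxM.1, hxM.2]

end Crest.Agent.Lib_helper9_Model
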