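import Mathlib
import Crest.Agent.Lib_helper9_Defs
import Crest.Agent.Lib_helper9_Model

/-!
Row 125, package P7: the midpoint inequality in the reflexive example `E`
(the `ℓ²`-sum of the pieces of the global tree-potential model).

`E_midpoint_of` proves the Plan statement `E_midpoint` from the statement of
`strong_midpoint` (package P3) for the global model, taken as a hypothesis;
`E_midpoint` is the Plan statement verbatim.
-/

set_option autoImplicit false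

namespace Crest.Agent.Lib_helper9_EMid

open Crest.AnalysisR Crest.AnalysisR.TreePotential Crest.Agent.Lib_helper9_Defs

/-- The statement of `strong_midpoint` (package P3) for the global model. -/
def StrongMidpoint : Prop :=
  ∀ (x : Amb .global), x ∈ modelSpace .global → ∀ η : ℝ, 0 < η →
    ∃ S : Submodule ℝ (Amb .global), IsClosed (S : Set (Amb .global)) ∧
      FiniteDimensional ℝ (Amb .global ⧸ S) ∧
      ∀ y ∈ modelSpace .global, y ∈ S → ∀ α β : ℝ, 0 ≤ α → 0 ≤ β → α ^ 2 + β ^ 2 ≤ 1 →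
        β ≤ 1 / 2 → 2 * α * ‖x‖ + β * ‖y‖ - η ≤ ‖x + y‖ + ‖x - y‖

theorem piece_le_modelSpace (k : ℕ) : piece k ≤ modelSpace .global := by
  unfold piece modelSpace
  exact Submodule.topologicalClosure_mono (Submodule.span_mono (Set.image_subset_range _ _))

/-- The scalar optimisation behind the midpoint inequality. -/
theorem scalar_midpoint (a b η s : ℝ) (ha : 0 ≤ a) (hb : 0 ≤ b) (hη : 0 ≤ η)
    (h2b : 2 * b ≤ s)
    (h : ∀ α β : ℝ, 0 ≤ α → 0 ≤ β → α ^ 2 + β ^ 2 ≤ 1 → β ≤ 1 / 2 →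
      2 * α * a + β * b - η ≤ s) :
    2 * Real.sqrt (a ^ 2 + b ^ 2 / 4) - η ≤ s := by
  set r := Real.sqrt (a ^ 2 + b ^ 2 / 4) with hr
  have hr0 : 0 ≤ r := Real.sqrt_nonneg _
  have hr2 : r ^ 2 = a ^ 2 + b ^ 2 / 4 := Real.sq_sqrt (by positivity)
  by_cases hbr : b ≤ r
  · rcases hr0.eq_or_lt with h0 | hpos
    · rw [← h0]; linarith
    · have := h (a / r) (b / (2 * r)) (by positivity) (by positivity) ?_ ?_
      · have e : 2 * (a / r) * a + b / (2 * r) * b = 2 * r := by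
          field_simp
          nlinarith
        linarith
      · have : (a / r) ^ 2 + (b / (2 * r)) ^ 2 = 1 := by
          field_simp
          nlinarith
        exact this.le
      · rw [div_le_iff₀ (by positivity)]
        linarith
  · push Not at hbr
    linarith

/-- The midpoint inequality inside one piece. -/
theorem piece_midpoint (hSM : StrongMidpoint) (k : ℕ) (x : piece k) (η : ℝ) (hη : 0 < η) :
    ∃ S : Submodule ℝ (piece k), IsClosed (S : Set (piece k)) ∧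
      FiniteDimensional ℝ (piece k ⧸ S) ∧
      ∀ y ∈ S, 2 * Real.sqrt (‖x‖ ^ 2 + ‖y‖ ^ 2 / 4) - η ≤ ‖x + y‖ + ‖x - y‖ := by
  obtain ⟨S, hScl, hSfin, hS⟩ := hSM (x : Amb .global) (piece_le_modelSpace k x.2) η hη
  let g : piece k →ₗ[ℝ] (Amb .global ⧸ S) := S.mkQ ∘ₗ (piece k).subtype
  have hmem : ∀ y : piece k, y ∈ LinearMap.ker g ↔ (y : Amb .global) ∈ S := by
    intro y
    simp [g, Submodule.Quotient.mk_eq_zero]
  refine ⟨LinearMap.ker g, ?_, ?_, ?_⟩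
  · have : ((LinearMap.ker g : Submodule ℝ (piece k)) : Set (piece k)) =
        (fun y : piece k => (y : Amb .global)) ⁻¹' (S : Set (Amb .global)) := by
      ext y
      exact hmem y
    rw [this]
    exact hScl.preimage continuous_subtype_val
  · have : FiniteDimensional ℝ (Amb .global ⧸ S) := hSfin
    have : FiniteDimensional ℝ (LinearMap.range g) :=
      FiniteDimensional.finiteDimensional_submodule _
    exact LinearEquiv.finiteDimensional g.quotKerEquivRange.symm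
  · intro y hy
    have hyS : (y : Amb .global) ∈ S := (hmem y).1 hy
    have hyM : (y : Amb .global) ∈ modelSpace .global := piece_le_modelSpace k y.2
    have h2 : 2 * ‖y‖ ≤ ‖x + y‖ + ‖x - y‖ := by
      have e : (2 : ℝ) • y = (x + y) - (x - y) := by
        rw [two_smul]; abel
      have : ‖(2 : ℝ) • y‖ ≤ ‖x + y‖ + ‖x - y‖ := by
        rw [e]; exact norm_sub_le _ _
      rwa [norm_smul, Real.norm_ofNat] at this
    exact scalar_midpoint ‖x‖ ‖y‖ η _ (norm_nonneg _) (norm_nonneg _) hη.le h2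
      (fun α β hα hβ hαβ hβ2 => hS (y : Amb .global) hyM hyS α β hα hβ hαβ hβ2)


open scoped ENNReal

/-- `ℓ²`-norm comparison from a pointwise bound by a sum of four nonnegative sequences. -/
theorem l2_four (R A B W1 W2 : lp (fun _ : ℕ => ℝ) 2)
    (h : ∀ k : ℕ, |R k| ≤ A k + B k + W1 k + W2 k) :
    ‖R‖ ≤ ‖A‖ + ‖B‖ + ‖W1‖ + ‖W2‖ := by
  have key : ‖R‖ ≤ ‖A + B + W1 + W2‖ := by
    refine lp.norm_mono (by norm_num) fun k => ?_
    have e : (A + B + W1 + W2 : lp (fun _ : ℕ => ℝ) 2) k = A k + B k + W1 k + W2 k := by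
      simp only [lp.coeFn_add, Pi.add_apply]
    rw [e, Real.norm_eq_abs, Real.norm_eq_abs]
    exact (h k).trans (le_abs_self _)
  refine key.trans ?_
  refine (norm_add_le _ _).trans ?_
  gcongr
  refine (norm_add_le _ _).trans ?_
  gcongr
  exact norm_add_le _ _

/-- The sequence `k ↦ √(‖x k‖² + ‖y k‖²/4)` is in `ℓ²`, with norm `√(‖x‖² + ‖y‖²/4)`. -/
theorem exists_R (x y : EX) :
    ∃ R : lp (fun _ : ℕ => ℝ) 2, (∀ k : ℕ, R k = Real.sqrt (‖x k‖ ^ 2 + ‖y k‖ ^ 2 / 4)) ∧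
      ‖R‖ = Real.sqrt (‖x‖ ^ 2 + ‖y‖ ^ 2 / 4) := by
  have h2 : (0 : ℝ) < (2 : ℝ≥0∞).toReal := by norm_num
  have hx2 : HasSum (fun k => ‖x k‖ ^ 2) (‖x‖ ^ 2) := by
    have := lp.hasSum_norm h2 x
    simpa using this
  have hy2 : HasSum (fun k => ‖y k‖ ^ 2) (‖y‖ ^ 2) := by
    have := lp.hasSum_norm h2 y
    simpa using this
  have hR2 : HasSum (fun k => ‖x k‖ ^ 2 + ‖y k‖ ^ 2 / 4) (‖x‖ ^ 2 + ‖y‖ ^ 2 / 4) :=
    hx2.add (hy2.div_const 4)
  have hRk : ∀ k : ℕ, ‖Real.sqrt (‖x k‖ ^ 2 + ‖y k‖ ^ 2 / 4)‖ ^ (2 : ℝ≥0∞).toReal =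
      ‖x k‖ ^ 2 + ‖y k‖ ^ 2 / 4 := by
    intro k
    rw [Real.norm_eq_abs, abs_of_nonneg (Real.sqrt_nonneg _)]
    simp only [ENNReal.toReal_ofNat, Real.rpow_ofNat]
    exact Real.sq_sqrt (by positivity)
  have hmemR : Memℓp (fun k : ℕ => Real.sqrt (‖x k‖ ^ 2 + ‖y k‖ ^ 2 / 4)) 2 := by
    apply memℓp_gen
    simp only [hRk]
    exact hR2.summable
  refine ⟨⟨fun k => Real.sqrt (‖x k‖ ^ 2 + ‖y k‖ ^ 2 / 4), hmemR⟩, fun k => rfl, ?_⟩
  have h1 : ‖(⟨fun k => Real.sqrt (‖x k‖ ^ 2 + ‖y k‖ ^ 2 / 4), hmemR⟩ :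
      lp (fun _ : ℕ => ℝ) 2)‖ ^ (2 : ℝ≥0∞).toReal = ‖x‖ ^ 2 + ‖y‖ ^ 2 / 4 := by
    rw [lp.norm_rpow_eq_tsum h2]
    have : (fun k : ℕ => ‖((⟨fun k => Real.sqrt (‖x k‖ ^ 2 + ‖y k‖ ^ 2 / 4), hmemR⟩ :
        lp (fun _ : ℕ => ℝ) 2) : ℕ → ℝ) k‖ ^ (2 : ℝ≥0∞).toReal) =
          fun k => ‖x k‖ ^ 2 + ‖y k‖ ^ 2 / 4 := funext hRk
    rw [this]
    exact hR2.tsum_eq
  simp only [ENNReal.toReal_ofNat, Real.rpow_ofNat] at h1
  rw [← h1, Real.sqrt_sq (norm_nonneg _)]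

/-- A constant block: the sequence equal to `e` below `n0` and `0` from `n0` on. -/
theorem exists_W1 (n0 : ℕ) (e : ℝ) (he : 0 ≤ e) :
    ∃ W1 : lp (fun _ : ℕ => ℝ) 2, (∀ k : ℕ, W1 k = if k < n0 then e else 0) ∧
      ‖W1‖ ≤ n0 * e := by
  classical
  refine ⟨∑ i ∈ Finset.range n0, lp.single 2 i e, fun k => ?_, ?_⟩
  · simp only [lp.coeFn_sum, Finset.sum_apply, lp.single_apply]
    rw [Finset.sum_pi_single k (fun _ => e) (Finset.range n0)]
    simp only [Finset.mem_range]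
  · have h1 : ‖∑ i ∈ Finset.range n0, lp.single (E := fun _ : ℕ => ℝ) 2 i e‖ ≤
        ∑ i ∈ Finset.range n0, ‖lp.single (E := fun _ : ℕ => ℝ) 2 i e‖ :=
      norm_sum_le _ _
    have h3 : ∀ i : ℕ, ‖lp.single (E := fun _ : ℕ => ℝ) 2 i e‖ = e := by
      intro i
      rw [lp.norm_single (by norm_num), Real.norm_eq_abs, abs_of_nonneg he]
    simp only [h3, Finset.sum_const, Finset.card_range, nsmul_eq_mul] at h1
    exact h1

/-- Coordinates of the tail `x - ∑_{i<n0} single i (x i)`. -/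
theorem tail_apply (x : EX) (n0 k : ℕ) :
    (x - ∑ i ∈ Finset.range n0, lp.single 2 i (x i) : EX) k = if k < n0 then 0 else x k := by
  classical
  simp only [lp.coeFn_sub, lp.coeFn_sum, Pi.sub_apply, Finset.sum_apply, lp.single_apply]
  rw [Finset.sum_pi_single k (fun i => x i) (Finset.range n0)]
  simp only [Finset.mem_range]
  split_ifs <;> simp

/-- The `ℓ²` summation step. -/
theorem l2_sum_ineq (x y : EX) (n0 : ℕ) (e : ℝ) (he : 0 ≤ e)
    (hpt : ∀ k, k < n0 →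
      2 * Real.sqrt (‖x k‖ ^ 2 + ‖y k‖ ^ 2 / 4) - e ≤ ‖x k + y k‖ + ‖x k - y k‖) :
    2 * Real.sqrt (‖x‖ ^ 2 + ‖y‖ ^ 2 / 4) ≤
      ‖x + y‖ + ‖x - y‖ + n0 * e + 2 * ‖x - ∑ i ∈ Finset.range n0, lp.single 2 i (x i)‖ := by
  obtain ⟨R, hRv, hRn⟩ := exists_R x y
  obtain ⟨W1, hW1v, hW1n⟩ := exists_W1 n0 e he
  have hmain := l2_four ((2 : ℝ) • R) (lp.toNorm (x + y)) (lp.toNorm (x - y)) W1
    ((2 : ℝ) • lp.toNorm (x - ∑ i ∈ Finset.range n0, lp.single 2 i (x i))) ?_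
  · rw [norm_smul, norm_smul, Real.norm_ofNat, hRn, lp.norm_toNorm, lp.norm_toNorm,
      lp.norm_toNorm] at hmain
    linarith
  · intro k
    have e1 : ((2 : ℝ) • R : lp (fun _ : ℕ => ℝ) 2) k =
        2 * Real.sqrt (‖x k‖ ^ 2 + ‖y k‖ ^ 2 / 4) := by
      rw [lp.coeFn_smul, Pi.smul_apply, smul_eq_mul, hRv]
    have e2 : (lp.toNorm (x + y) : ℕ → ℝ) k = ‖x k + y k‖ := rfl
    have e3 : (lp.toNorm (x - y) : ℕ → ℝ) k = ‖x k - y k‖ := rfl
    have e4 : ((2 : ℝ) • lp.toNorm (x - ∑ i ∈ Finset.range n0, lp.single 2 i (x i)) :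
        lp (fun _ : ℕ => ℝ) 2) k = 2 * ‖if k < n0 then (0 : piece k) else x k‖ := by
      rw [lp.coeFn_smul, Pi.smul_apply, smul_eq_mul, ← tail_apply x n0 k]
      rfl
    rw [e1, e2, e3, e4, hW1v k, abs_of_nonneg (by positivity)]
    by_cases hk : k < n0
    · rw [if_pos hk, if_pos hk, norm_zero]
      have := hpt k hk
      linarith
    · rw [if_neg hk, if_neg hk]
      have h2y : 2 * ‖y k‖ ≤ ‖x k + y k‖ + ‖x k - y k‖ := by
        have e : (2 : ℝ) • y k = (x k + y k) - (x k - y k) := by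
          rw [two_smul]; abel
        have : ‖(2 : ℝ) • y k‖ ≤ ‖x k + y k‖ + ‖x k - y k‖ := by
          rw [e]; exact norm_sub_le _ _
        rwa [norm_smul, Real.norm_ofNat] at this
      have hsq : Real.sqrt (‖x k‖ ^ 2 + ‖y k‖ ^ 2 / 4) ≤ ‖x k‖ + ‖y k‖ / 2 := by
        rw [Real.sqrt_le_left (by positivity)]
        nlinarith [norm_nonneg (x k), norm_nonneg (y k)]
      linarith [norm_nonneg (y k)]

/-- The Plan statement `E_midpoint`, from the statement of `strong_midpoint` (global model). -/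
theorem E_midpoint_of (hSM : StrongMidpoint) (x : EX) (η : ℝ) (hη : 0 < η) :
    ∃ S : Submodule ℝ EX, IsClosed (S : Set EX) ∧ FiniteDimensional ℝ (EX ⧸ S) ∧
      ∀ y ∈ S, 2 * Real.sqrt (‖x‖ ^ 2 + ‖y‖ ^ 2 / 4) - η ≤ ‖x + y‖ + ‖x - y‖ := by
  classical
  -- a finite block carrying almost all of `x`
  obtain ⟨n0, hn0⟩ : ∃ n0 : ℕ, ‖x - ∑ i ∈ Finset.range n0, lp.single 2 i (x i)‖ < η / 4 := by
    have hsum := lp.hasSum_single (p := 2) (by norm_num) x
    have htend := hsum.tendsto_sum_nat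
    obtain ⟨N, hN⟩ := (Metric.tendsto_atTop.mp htend) (η / 4) (by positivity)
    refine ⟨N, ?_⟩
    have := hN N le_rfl
    rwa [dist_eq_norm, norm_sub_rev] at this
  obtain ⟨η', hη'pos, hη'n⟩ : ∃ η' : ℝ, 0 < η' ∧ (n0 : ℝ) * η' ≤ η / 2 := by
    refine ⟨η / (2 * (n0 + 1)), by positivity, ?_⟩
    rw [mul_div_assoc', div_le_iff₀ (by positivity)]
    nlinarith
  choose S hScl hSfin hS using fun k : ℕ => piece_midpoint hSM k (x k) η' hη'pos
  let Φ : EX →ₗ[ℝ] (∀ k : Fin n0, piece k ⧸ S k) :=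
    LinearMap.pi fun k => (S k).mkQ ∘ₗ (lp.evalₗ (fun k : ℕ => piece k) 2 k)
  have hmem : ∀ y : EX, y ∈ LinearMap.ker Φ ↔ ∀ k : Fin n0, y k ∈ S k := by
    intro y
    simp [Φ, funext_iff, Submodule.Quotient.mk_eq_zero]
  refine ⟨LinearMap.ker Φ, ?_, ?_, ?_⟩
  · have : ((LinearMap.ker Φ : Submodule ℝ EX) : Set EX) =
        ⋂ k : Fin n0, (fun y : EX => y k) ⁻¹' (S k : Set (piece k)) := by
      ext y
      simp only [SetLike.mem_coe, hmem, Set.mem_iInter, Set.mem_preimage]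
    rw [this]
    exact isClosed_iInter fun k =>
      (hScl k).preimage (lp.lipschitzWith_one_eval 2 (k : ℕ)).continuous
  · have : ∀ k : Fin n0, FiniteDimensional ℝ (piece k ⧸ S k) := fun k => hSfin k
    have : FiniteDimensional ℝ (LinearMap.range Φ) :=
      FiniteDimensional.finiteDimensional_submodule _
    exact Module.Finite.equiv Φ.quotKerEquivRange.symm
  · intro y hy
    have hyS : ∀ k, k < n0 → y k ∈ S k := fun k hk => (hmem y).1 hy ⟨k, hk⟩
    have := l2_sum_ineq x y n0 η' hη'pos.le (fun k hk => hS k (y k) (hyS k hk))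
    linarith

/-- Plan statement P7, verbatim. -/
theorem E_midpoint (x : EX) (η : ℝ) (hη : 0 < η) :
    ∃ S : Submodule ℝ EX, IsClosed (S : Set EX) ∧ FiniteDimensional ℝ (EX ⧸ S) ∧
      ∀ y ∈ S, 2 * Real.sqrt (‖x‖ ^ 2 + ‖y‖ ^ 2 / 4) - η ≤ ‖x + y‖ + ‖x - y‖ :=
  E_midpoint_of
    (fun x hx η hη => Crest.Agent.Lib_helper9_Model.strong_midpoint .global x hx η hη) x η hη

end Crest.Agent.Lib_helper9_EMid
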