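import Mathlib
import Crest.Agent.Lib_helper9_Defs

/-!
Row 125, package P6b: each piece `piece k` (closed span of the coordinate vectors of the vertices
of depth at most `k` in the global model) is reflexive, because it is isomorphic to a Hilbert space.
-/

set_option autoImplicit false

namespace Crest.Agent.Lib_helper9_EPiece

open Crest.AnalysisR Crest.AnalysisR.TreePotential Crest.Agent.Lib_helper9_Defs

/-- Real Hilbert spaces are reflexive. -/
theorem hilbert_reflexive (H : Type*) [NormedAddCommGroup H] [InnerProductSpace ℝ H]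
    [CompleteSpace H] : Function.Surjective (NormedSpace.inclusionInDoubleDual ℝ H) := by
  intro Φ
  let ψl : H →ₗ[ℝ] ℝ :=
    { toFun := fun x => Φ (innerSL ℝ x)
      map_add' := fun x y => by simp [map_add]
      map_smul' := fun c x => by simp }
  let ψ : H →L[ℝ] ℝ := ψl.mkContinuous ‖Φ‖ (fun x => by
    have h1 : ‖Φ (innerSL ℝ x)‖ ≤ ‖Φ‖ * ‖innerSL ℝ x‖ := Φ.le_opNorm _
    simpa [ψl, innerSL_apply_norm] using h1)
  have hψ : ∀ x, ψ x = Φ (innerSL ℝ x) := fun x => rfl
  refine ⟨(InnerProductSpace.toDual ℝ H).symm ψ, ?_⟩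
  ext φ
  rw [NormedSpace.dual_def]
  set x := (InnerProductSpace.toDual ℝ H).symm φ with hx
  have hφ : φ = innerSL ℝ x := by
    ext z
    rw [innerSL_apply_apply, hx, InnerProductSpace.toDual_symm_apply]
  have h2 : inner ℝ ((InnerProductSpace.toDual ℝ H).symm ψ) x = ψ x :=
    InnerProductSpace.toDual_symm_apply
  rw [hφ, innerSL_apply_apply, real_inner_comm, h2, hψ]

/-- Reflexivity transfers along a continuous linear equivalence. -/
theorem reflexive_of_equiv {X Y : Type*} [NormedAddCommGroup X] [NormedSpace ℝ X]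
    [NormedAddCommGroup Y] [NormedSpace ℝ Y] (e : X ≃L[ℝ] Y)
    (hX : Function.Surjective (NormedSpace.inclusionInDoubleDual ℝ X)) :
    Function.Surjective (NormedSpace.inclusionInDoubleDual ℝ Y) := by
  intro Φ
  let Ψ : StrongDual ℝ (StrongDual ℝ X) :=
    Φ.comp ((ContinuousLinearMap.compL ℝ Y X ℝ).flip (e.symm : Y →L[ℝ] X))
  obtain ⟨x, hx⟩ := hX Ψ
  refine ⟨e x, ?_⟩
  ext φ
  rw [NormedSpace.dual_def]
  have h1 : Ψ (φ.comp (e : X →L[ℝ] Y)) = Φ φ := by
    show Φ ((φ.comp (e : X →L[ℝ] Y)).comp (e.symm : Y →L[ℝ] X)) = Φ φ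
    congr 1
    ext y
    simp
  rw [← h1, ← hx, NormedSpace.dual_def]
  rfl

/-! ### The isomorphism of `piece k` with a Hilbert space -/

/-- Vertices of depth at most `k`. -/
abbrev Vk (k : ℕ) : Type := {s : List ℕ // s.length ≤ k}

/-- The Hilbert space `ℓ²` over the vertices of depth at most `k`. -/
abbrev Hk (k : ℕ) : Type := lp (fun _ : Vk k => ℝ) 2

theorem sum_sq_test_le (k : ℕ) (f : PotentialTest .global) (S : Finset (Vk k)) :
    ∑ s ∈ S, (f.1 s.1) ^ 2 ≤ 1 := by
  have h := f.2.2 (S.map ⟨Subtype.val, Subtype.val_injective⟩)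
  rw [Finset.sum_map] at h
  exact h

/-- Restriction of a global test to the vertices of depth at most `k`, as an element of `ℓ²`. -/
noncomputable def rest (k : ℕ) (f : PotentialTest .global) : Hk k :=
  ⟨fun s => f.1 s.1, by
    refine memℓp_gen' (C := 1) (fun S => ?_)
    have h := sum_sq_test_le k f S
    simpa [Real.norm_eq_abs, sq_abs] using h⟩

theorem rest_apply (k : ℕ) (f : PotentialTest .global) (s : Vk k) : rest k f s = f.1 s.1 := rfl

theorem norm_rest_le (k : ℕ) (f : PotentialTest .global) : ‖rest k f‖ ≤ 1 := by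
  refine lp.norm_le_of_forall_sum_le (by norm_num) zero_le_one (fun S => ?_)
  have h := sum_sq_test_le k f S
  simpa [Real.norm_eq_abs, sq_abs, rest_apply] using h

/-- The map `x ↦ (f ↦ ⟪rest f, x⟫)` from `ℓ²` into the ambient sup-norm space. -/
noncomputable def Tlin (k : ℕ) : Hk k →ₗ[ℝ] Amb .global where
  toFun x := ⟨fun f => inner ℝ (rest k f) x, memℓp_infty ⟨‖x‖, by
    rintro _ ⟨f, rfl⟩
    have h1 : ‖inner ℝ (rest k f) x‖ ≤ ‖rest k f‖ * ‖x‖ := norm_inner_le_norm _ _
    have h2 := norm_rest_le k f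
    have h3 : ‖rest k f‖ * ‖x‖ ≤ 1 * ‖x‖ := mul_le_mul_of_nonneg_right h2 (norm_nonneg _)
    simpa using h1.trans h3⟩⟩
  map_add' x y := by
    ext f
    show inner ℝ (rest k f) (x + y) = inner ℝ (rest k f) x + inner ℝ (rest k f) y
    exact inner_add_right _ _ _
  map_smul' c x := by
    ext f
    show inner ℝ (rest k f) (c • x) = c * inner ℝ (rest k f) x
    exact real_inner_smul_right _ _ _

theorem Tlin_apply (k : ℕ) (x : Hk k) (f : PotentialTest .global) :
    (Tlin k x) f = inner ℝ (rest k f) x := rfl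

theorem norm_Tlin_le (k : ℕ) (x : Hk k) : ‖Tlin k x‖ ≤ 1 * ‖x‖ := by
  rw [one_mul]
  refine lp.norm_le_of_forall_le (norm_nonneg _) (fun f => ?_)
  rw [Tlin_apply]
  have h1 : ‖inner ℝ (rest k f) x‖ ≤ ‖rest k f‖ * ‖x‖ := norm_inner_le_norm _ _
  have h2 := norm_rest_le k f
  have h3 : ‖rest k f‖ * ‖x‖ ≤ 1 * ‖x‖ := mul_le_mul_of_nonneg_right h2 (norm_nonneg _)
  simpa using h1.trans h3

/-- The continuous linear map `ℓ² → Amb`. -/
noncomputable def T (k : ℕ) : Hk k →L[ℝ] Amb .global :=
  (Tlin k).mkContinuous 1 (norm_Tlin_le k)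

theorem T_apply (k : ℕ) (x : Hk k) (f : PotentialTest .global) :
    (T k x) f = inner ℝ (rest k f) x := rfl

theorem T_single (k : ℕ) (s : Vk k) :
    T k (lp.single 2 s (1 : ℝ)) = coordVector .global s.1 := by
  classical
  ext f
  rw [T_apply, lp.inner_single_right]
  simp [rest_apply, coordVector]

theorem T_single_smul (k : ℕ) (s : Vk k) (c : ℝ) :
    T k (lp.single 2 s c) = c • coordVector .global s.1 := by
  classical
  have h : lp.single 2 s c = c • lp.single (E := fun _ : Vk k => ℝ) 2 s (1 : ℝ) := by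
    rw [← lp.single_smul]
    simp
  rw [h, map_smul, T_single]

theorem sum_sq_le_norm_sq (k : ℕ) (x : Hk k) (S : Finset (Vk k)) :
    ∑ s ∈ S, (x s) ^ 2 ≤ ‖x‖ ^ 2 := by
  have h := lp.hasSum_inner (𝕜 := ℝ) x x
  have h2 : ∑ s ∈ S, inner ℝ (x s) (x s) ≤ inner ℝ x x :=
    sum_le_hasSum S (fun i _ => real_inner_self_nonneg) h
  rw [real_inner_self_eq_norm_sq] at h2
  refine le_trans (le_of_eq ?_) h2
  refine Finset.sum_congr rfl (fun s _ => ?_)
  simp [sq]

/-- The lower bound: `‖x‖ ≤ (k + 1) ‖T x‖`. -/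
theorem T_lower (k : ℕ) (x : Hk k) : ‖x‖ ≤ ((k : ℝ) + 1) * ‖T k x‖ := by
  by_cases hx0 : x = 0
  · subst hx0
    simp
  have hxpos : 0 < ‖x‖ := norm_pos_iff.mpr hx0
  have hk1 : (0 : ℝ) < (k : ℝ) + 1 := by positivity
  set d : ℝ := 1 / ((k : ℝ) + 1) with hd
  have hdpos : 0 < d := by positivity
  set c : ℝ := d / ‖x‖ with hc
  have hcpos : 0 < c := by positivity
  -- the test
  let g : List ℕ → ℝ := fun u => if h : u.length ≤ k then c * x ⟨u, h⟩ else 0
  have hg_le : ∀ u, |g u| ≤ d := by
    intro u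
    by_cases h : u.length ≤ k
    · simp only [g, dif_pos h]
      have h1 : ‖x ⟨u, h⟩‖ ≤ ‖x‖ := lp.norm_apply_le_norm (by norm_num) x ⟨u, h⟩
      rw [abs_mul, abs_of_pos hcpos]
      rw [Real.norm_eq_abs] at h1
      calc c * |x ⟨u, h⟩| ≤ c * ‖x‖ := mul_le_mul_of_nonneg_left h1 hcpos.le
        _ = d := by rw [hc]; field_simp
    · simp only [g, dif_neg h, abs_zero]
      exact hdpos.le
  have hg_zero : ∀ u : List ℕ, ¬ u.length ≤ k → g u = 0 := by
    intro u h
    simp only [g, dif_neg h]
  have hpot : ∀ s : List ℕ,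
      |pathPotential g s| ≤ min ((s.length : ℝ) + 1) ((k : ℝ) + 1) * d := by
    intro s
    induction s with
    | nil =>
      simp only [pathPotential, List.length_nil, Nat.cast_zero, zero_add]
      have h1 : min (1 : ℝ) ((k : ℝ) + 1) = 1 := min_eq_left (by linarith [Nat.cast_nonneg (α := ℝ) k])
      rw [h1, one_mul]
      exact hg_le []
    | cons a v ih =>
      simp only [pathPotential, List.length_cons, Nat.cast_add, Nat.cast_one]
      by_cases h : (a :: v).length ≤ k
      · have hv : (v.length : ℝ) + 1 ≤ (k : ℝ) := by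
          have : v.length + 1 ≤ k := by simpa using h
          exact_mod_cast this
        have h1 : min ((v.length : ℝ) + 1) ((k : ℝ) + 1) = (v.length : ℝ) + 1 :=
          min_eq_left (by linarith)
        have h2 : min ((v.length : ℝ) + 1 + 1) ((k : ℝ) + 1) = (v.length : ℝ) + 1 + 1 :=
          min_eq_left (by linarith)
        rw [h1] at ih
        rw [h2]
        have h3 := hg_le (a :: v)
        calc |pathPotential g v + g (a :: v)| ≤ |pathPotential g v| + |g (a :: v)| := abs_add_le _ _
          _ ≤ ((v.length : ℝ) + 1) * d + d := add_le_add ih h3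
          _ = ((v.length : ℝ) + 1 + 1) * d := by ring
      · rw [hg_zero _ h, add_zero]
        refine ih.trans ?_
        refine mul_le_mul_of_nonneg_right ?_ hdpos.le
        exact min_le_min (by linarith) le_rfl
  have hgtest : IsTest .global g := by
    refine ⟨fun s => ?_, ?_⟩
    · refine (hpot s).trans ?_
      calc min ((s.length : ℝ) + 1) ((k : ℝ) + 1) * d ≤ ((k : ℝ) + 1) * d :=
            mul_le_mul_of_nonneg_right (min_le_right _ _) hdpos.le
        _ = 1 := by rw [hd]; field_simp
    · intro A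
      classical
      have h1 : ∑ u ∈ A, g u ^ 2 = ∑ u ∈ A.filter (fun u => u.length ≤ k), g u ^ 2 := by
        rw [Finset.sum_filter]
        refine Finset.sum_congr rfl (fun u _ => ?_)
        by_cases h : u.length ≤ k
        · simp [h]
        · simp [h, hg_zero u h]
      have h2 : ∑ u ∈ A.filter (fun u => u.length ≤ k), g u ^ 2
          = ∑ s ∈ A.subtype (fun u => u.length ≤ k), g s.1 ^ 2 :=
        (Finset.sum_subtype_eq_sum_filter (s := A) (fun u => g u ^ 2)).symm
      have h3 : ∑ s ∈ A.subtype (fun u => u.length ≤ k), g s.1 ^ 2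
          = c ^ 2 * ∑ s ∈ A.subtype (fun u => u.length ≤ k), (x s) ^ 2 := by
        rw [Finset.mul_sum]
        refine Finset.sum_congr rfl (fun s _ => ?_)
        have : g s.1 = c * x s := by
          simp only [g, dif_pos s.2]
        rw [this]; ring
      rw [h1, h2, h3]
      have h4 := sum_sq_le_norm_sq k x (A.subtype (fun u => u.length ≤ k))
      calc c ^ 2 * ∑ s ∈ A.subtype (fun u => u.length ≤ k), (x s) ^ 2 ≤ c ^ 2 * ‖x‖ ^ 2 :=
            mul_le_mul_of_nonneg_left h4 (sq_nonneg _)
        _ = d ^ 2 := by rw [hc]; field_simp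
        _ ≤ 1 := by
            have hd1 : d ≤ 1 := by
              rw [hd, div_le_one hk1]
              linarith [Nat.cast_nonneg (α := ℝ) k]
            nlinarith
  let gt : PotentialTest .global := ⟨g, hgtest⟩
  have hrest : rest k gt = c • x := by
    ext s
    show g s.1 = c * x s
    simp only [g, dif_pos s.2]
  have h5 : (T k x) gt = c * ‖x‖ ^ 2 := by
    rw [T_apply, hrest, real_inner_smul_left, real_inner_self_eq_norm_sq]
  have h6 : ‖(T k x) gt‖ ≤ ‖T k x‖ := lp.norm_apply_le_norm (by simp) (T k x) gt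
  rw [h5, Real.norm_eq_abs, abs_of_pos (by positivity)] at h6
  have h7 : c * ‖x‖ ^ 2 = d * ‖x‖ := by rw [hc]; field_simp
  rw [h7] at h6
  have h8 : ((k : ℝ) + 1) * (d * ‖x‖) = ‖x‖ := by rw [hd]; field_simp
  calc ‖x‖ = ((k : ℝ) + 1) * (d * ‖x‖) := h8.symm
    _ ≤ ((k : ℝ) + 1) * ‖T k x‖ := mul_le_mul_of_nonneg_left h6 hk1.le

theorem T_mem_piece (k : ℕ) (x : Hk k) : T k x ∈ piece k := by
  classical
  have hsum : HasSum (fun s : Vk k => lp.single 2 s (x s)) x :=
    lp.hasSum_single (by norm_num) x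
  have hsum2 : HasSum (fun s : Vk k => T k (lp.single 2 s (x s))) (T k x) :=
    hsum.mapL (T k)
  have hcl : IsClosed ((piece k : Submodule ℝ (Amb .global)) : Set (Amb .global)) :=
    Submodule.isClosed_topologicalClosure _
  refine hcl.mem_of_tendsto hsum2 (Filter.Eventually.of_forall (fun S => ?_))
  refine Submodule.sum_mem _ (fun s _ => ?_)
  rw [T_single_smul]
  refine Submodule.smul_mem _ _ ?_
  refine Submodule.le_topologicalClosure _ (Submodule.subset_span ?_)
  exact ⟨s.1, s.2, rfl⟩

theorem piece_le_range (k : ℕ) : piece k ≤ LinearMap.range (T k).toLinearMap := by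
  have hanti : AntilipschitzWith (⟨(k : ℝ) + 1, by positivity⟩ : NNReal) (T k) :=
    ContinuousLinearMap.antilipschitz_of_bound (T k) (fun x => T_lower k x)
  have hclosed : IsClosed (Set.range (T k)) :=
    hanti.isClosed_range (T k).uniformContinuous
  refine Submodule.topologicalClosure_minimal _ ?_ ?_
  · refine Submodule.span_le.mpr ?_
    rintro _ ⟨s, hs, rfl⟩
    exact ⟨lp.single 2 (⟨s, hs⟩ : Vk k) (1 : ℝ), T_single k ⟨s, hs⟩⟩
  · have hrange : ((LinearMap.range (T k).toLinearMap : Submodule ℝ (Amb .global)) :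
        Set (Amb .global)) = Set.range (T k) := by
      ext y
      simp
    rw [hrange]
    exact hclosed

/-- `T` with codomain restricted to `piece k`. -/
noncomputable def Tp (k : ℕ) : Hk k →L[ℝ] piece k :=
  (T k).codRestrict (piece k) (T_mem_piece k)

theorem Tp_coe (k : ℕ) (x : Hk k) : ((Tp k x : piece k) : Amb .global) = T k x := rfl

/-- `piece k` is isomorphic to the Hilbert space `ℓ²` over the vertices of depth at most `k`. -/
noncomputable def pieceEquiv (k : ℕ) : Hk k ≃L[ℝ] piece k :=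
  ContinuousLinearEquiv.ofBijective (Tp k)
    (by
      rw [LinearMap.ker_eq_bot']
      intro x hx
      have h1 : T k x = 0 := by
        have := congrArg (Subtype.val) hx
        simpa [Tp_coe] using this
      have h2 := T_lower k x
      rw [h1, norm_zero, mul_zero] at h2
      exact norm_le_zero_iff.mp h2)
    (by
      rw [LinearMap.range_eq_top]
      intro y
      obtain ⟨x, hx⟩ := piece_le_range k y.2
      exact ⟨x, Subtype.ext hx⟩)

/-- P6b: every piece is reflexive. -/
theorem piece_reflexive (k : ℕ) :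
    Function.Surjective (NormedSpace.inclusionInDoubleDual ℝ (piece k)) :=
  reflexive_of_equiv (pieceEquiv k) (hilbert_reflexive (Hk k))

end Crest.Agent.Lib_helper9_EPiece
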