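import Mathlib
import Crest.Agent.Lib_helper9_Defs
import Crest.Agent.Lib_helper9_TreeTests

/-!
Row 125, part of package P3: the four elementary norm facts about coordinate vectors of the tree
models (path sums have norm one, coordinate vectors of non-root vertices have norm at least one,
upper `ℓ²` estimate for the children of a vertex).
-/

set_option autoImplicit false

namespace Crest.Agent.Lib_helper9_ModelNorms

open Crest.AnalysisR Crest.AnalysisR.TreePotential Crest.Agent.Lib_helper9_Defs
open Crest.Agent.Lib_helper9_TreeTests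

/-- The potential at `s` is the sum of the coefficients over the suffixes of `s`. -/
theorem pathPotential_eq_sum (f : List ℕ → ℝ) (s : List ℕ) :
    pathPotential f s = ∑ u ∈ s.tails.toFinset, f u := by
  induction s with
  | nil => simp [pathPotential]
  | cons a v ih =>
    rw [pathPotential, ih, List.tails_cons, List.toFinset_cons, Finset.sum_insert, add_comm]
    rw [List.mem_toFinset, List.mem_tails]
    intro h
    have h2 := h.length_le
    simp at h2

theorem coordVector_apply (m : PotentialModel) (s : List ℕ) (f : PotentialTest m) :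
    coordVector m s f = f.1 s := rfl

/-- Evaluation of a path sum at a test is the potential of the test. -/
theorem pathSum_apply (m : PotentialModel) (s : List ℕ) (f : PotentialTest m) :
    (∑ u ∈ s.tails.toFinset, coordVector m u) f = pathPotential f.1 s := by
  rw [lp.coeFn_sum, Finset.sum_apply, pathPotential_eq_sum]
  rfl

/-- Path sums are bounded by one. -/
theorem norm_pathSum_le (m : PotentialModel) (s : List ℕ) :
    ‖∑ u ∈ s.tails.toFinset, coordVector m u‖ ≤ 1 := by
  refine lp.norm_le_of_forall_le zero_le_one (fun f => ?_)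
  rw [pathSum_apply, Real.norm_eq_abs]
  exact f.2.1 s

/-- The test `δ_s`. -/
def delta (m : PotentialModel) (s : List ℕ) (hs : s ≠ []) : PotentialTest m :=
  ⟨fun u => if u = s then (1 : ℝ) else 0, isTest_single m s hs⟩

theorem norm_pathSum_ge (m : PotentialModel) (s : List ℕ) (hs : s ≠ []) :
    1 ≤ ‖∑ u ∈ s.tails.toFinset, coordVector m u‖ := by
  have h1 := lp.norm_apply_le_norm (by simp) (∑ u ∈ s.tails.toFinset, coordVector m u)
    (delta m s hs)
  rw [pathSum_apply, pathPotential_eq_sum] at h1
  have h2 : ∑ u ∈ s.tails.toFinset, (delta m s hs).1 u = 1 := by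
    simp [delta]
  rw [h2] at h1
  simpa using h1

theorem norm_coordVector_ge (m : PotentialModel) (s : List ℕ) (hs : s ≠ []) :
    1 ≤ ‖coordVector m s‖ := by
  have h1 := lp.norm_apply_le_norm (by simp) (coordVector m s) (delta m s hs)
  rw [coordVector_apply] at h1
  simpa [delta] using h1

/-- For a test of any model, the squares of the coefficients of the children of a vertex sum to
at most one. -/
theorem children_sq_le (m : PotentialModel) (f : PotentialTest m) (r : List ℕ) (A : Finset ℕ) :
    ∑ n ∈ A, f.1 (n :: r) ^ 2 ≤ 1 := by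
  have hinj : Function.Injective (fun n : ℕ => n :: r) := fun a b hab => by simpa using hab
  have himg : ∑ u ∈ A.image (fun n : ℕ => n :: r), f.1 u ^ 2 = ∑ n ∈ A, f.1 (n :: r) ^ 2 :=
    Finset.sum_image (fun a _ b _ hab => hinj hab)
  obtain ⟨f, hf⟩ := f
  cases m with
  | rootlessSibling => exact hf.2.2 r A
  | rootedSibling => exact hf.2 r A
  | antichain =>
    rw [← himg]
    refine hf.2.2 _ ?_
    intro u hu v hv huv hsuf
    rw [Finset.mem_image] at hu hv
    obtain ⟨a, _, rfl⟩ := hu
    obtain ⟨b, _, rfl⟩ := hv
    exact huv (hsuf.eq_of_length (by simp))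
  | global =>
    rw [← himg]
    exact hf.2 _

/-- Upper `ℓ²` estimate for the children of a vertex. -/
theorem norm_children_le (m : PotentialModel) (r : List ℕ) (A : Finset ℕ) (c : ℕ → ℝ) :
    ‖∑ n ∈ A, c n • coordVector m (n :: r)‖ ≤ Real.sqrt (∑ n ∈ A, c n ^ 2) := by
  refine lp.norm_le_of_forall_le (Real.sqrt_nonneg _) (fun f => ?_)
  have h1 : (∑ n ∈ A, c n • coordVector m (n :: r)) f = ∑ n ∈ A, c n * f.1 (n :: r) := by
    rw [lp.coeFn_sum, Finset.sum_apply]
    rfl
  rw [h1, Real.norm_eq_abs]
  apply Real.abs_le_sqrt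
  have h2 := Finset.sum_mul_sq_le_sq_mul_sq A c (fun n => f.1 (n :: r))
  have h3 := children_sq_le m f r A
  have h4 : 0 ≤ ∑ n ∈ A, c n ^ 2 := Finset.sum_nonneg (fun n _ => sq_nonneg _)
  nlinarith

end Crest.Agent.Lib_helper9_ModelNorms
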