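import Mathlib
import Crest.Agent.Lib_helper9_Defs
import Crest.Agent.Lib_helper9_AUC
import Crest.Agent.Lib_helper9_ModelNorms

/-!
Row 125, package P8: the reflexive example `E` (the `ℓ²`-sum of the depth-`k` pieces of the global
tree model) has no equivalent asymptotically uniformly convex norm.

The proof applies the abstract tree criterion `no_AUC_of_trees` to the sets
`T j = { single k b_s : s ≠ [], length s + j ≤ k }`, where `b_s` is the path sum of the coordinate
vectors along the root path of `s`.
-/

set_option autoImplicit false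

namespace Crest.Agent.Lib_helper9_ETree

open Crest.AnalysisR Crest.AnalysisR.TreePotential Crest.Agent.Lib_helper9_Defs
open Crest.Agent.Lib_helper9_AUC

/-- The path sum `b_s`: sum of the coordinate vectors of `s` and all its ancestors. -/
noncomputable def pathSum (s : List ℕ) : Amb .global :=
  ∑ u ∈ s.tails.toFinset, coordVector .global u

theorem coordVector_mem_piece {k : ℕ} {s : List ℕ} (hs : s.length ≤ k) :
    coordVector .global s ∈ piece k :=
  Submodule.le_topologicalClosure _ (Submodule.subset_span ⟨s, hs, rfl⟩)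

theorem pathSum_mem_piece {k : ℕ} {s : List ℕ} (hs : s.length ≤ k) : pathSum s ∈ piece k := by
  refine Submodule.sum_mem _ (fun u hu => coordVector_mem_piece ?_)
  rw [List.mem_toFinset, List.mem_tails] at hu
  exact le_trans hu.length_le hs

theorem pathSum_cons (n : ℕ) (s : List ℕ) :
    pathSum (n :: s) = pathSum s + coordVector .global (n :: s) := by
  unfold pathSum
  rw [List.tails_cons, List.toFinset_cons, Finset.sum_insert, add_comm]
  rw [List.mem_toFinset, List.mem_tails]
  intro h
  have h2 := h.length_le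
  simp at h2

/-- The vertex `single k b_s` of the tree in `EX`. -/
noncomputable def node (k : ℕ) (s : List ℕ) (hs : s.length ≤ k) : EX :=
  lp.single 2 k ⟨pathSum s, pathSum_mem_piece hs⟩

/-- The increment `single k (coordVector (n :: s))`. -/
noncomputable def incr (k : ℕ) (s : List ℕ) (hs : s.length + 1 ≤ k) (n : ℕ) : EX :=
  lp.single 2 k ⟨coordVector .global (n :: s), coordVector_mem_piece (by simpa using hs)⟩

theorem norm_node (k : ℕ) (s : List ℕ) (hs : s.length ≤ k) : ‖node k s hs‖ = ‖pathSum s‖ := by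
  unfold node
  rw [lp.norm_single (by norm_num)]
  rfl

theorem norm_incr (k : ℕ) (s : List ℕ) (hs : s.length + 1 ≤ k) (n : ℕ) :
    ‖incr k s hs n‖ = ‖coordVector .global (n :: s)‖ := by
  unfold incr
  rw [lp.norm_single (by norm_num)]
  rfl

theorem node_add_incr (k : ℕ) (s : List ℕ) (hs : s.length + 1 ≤ k) (n : ℕ) :
    node k s (by omega) + incr k s hs n = node k (n :: s) (by simpa using hs) := by
  unfold node incr
  rw [← lp.single_add]
  congr 1
  apply Subtype.ext
  simp [pathSum_cons]

theorem norm_sum_incr (k : ℕ) (s : List ℕ) (hs : s.length + 1 ≤ k) (A : Finset ℕ) (c : ℕ → ℝ) :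
    ‖∑ n ∈ A, c n • incr k s hs n‖ = ‖∑ n ∈ A, c n • coordVector .global (n :: s)‖ := by
  have h1 : ∑ n ∈ A, c n • incr k s hs n
      = lp.single 2 k (∑ n ∈ A, c n • (⟨coordVector .global (n :: s),
          coordVector_mem_piece (by simpa using hs)⟩ : piece k)) := by
    have h2 := map_sum (lp.lsingle (𝕜 := ℝ) (E := fun k : ℕ => piece k) 2 k)
      (fun n => c n • (⟨coordVector .global (n :: s),
          coordVector_mem_piece (by simpa using hs)⟩ : piece k)) A
    simp only [lp.lsingle_apply, lp.single_smul] at h2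
    rw [h2]
    rfl
  rw [h1, lp.norm_single (by norm_num), Submodule.coe_norm]
  congr 1
  simp

/-- P8, given the norm facts of the global model (package P3) as hypotheses. -/
theorem E_no_AUC_of
    (hle : ∀ s : List ℕ, ‖pathSum s‖ ≤ 1)
    (hge : ∀ s : List ℕ, s ≠ [] → 1 ≤ ‖pathSum s‖)
    (hcoord : ∀ s : List ℕ, s ≠ [] → 1 ≤ ‖coordVector .global s‖)
    (hchild : ∀ (r : List ℕ) (A : Finset ℕ) (c : ℕ → ℝ),
      ‖∑ n ∈ A, c n • coordVector .global (n :: r)‖ ≤ Real.sqrt (∑ n ∈ A, c n ^ 2))
    (N : EX → ℝ) (hN : E.IsEquivNorm N) : ¬ E.IsAUC N := by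
  let T : ℕ → Set EX := fun j =>
    {x | ∃ (k : ℕ) (s : List ℕ) (hs : s.length + j ≤ k), s ≠ [] ∧ x = node k s (by omega)}
  refine no_AUC_of_trees 1 1 one_pos T ?_ ?_ ?_ N hN
  · intro j
    exact ⟨node (1 + j) [0] (by simp), 1 + j, [0], by simp, by simp, rfl⟩
  · rintro j x ⟨k, s, hs, hne, rfl⟩
    rw [norm_node]
    exact ⟨hge s hne, hle s⟩
  · rintro j x ⟨k, s, hs, hne, rfl⟩
    have hs1 : s.length + 1 ≤ k := by omega
    refine ⟨incr k s hs1, ?_, ?_, ?_⟩
    · intro n
      refine ⟨k, n :: s, by simp; omega, by simp, ?_⟩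
      exact node_add_incr k s hs1 n
    · intro n
      rw [norm_incr]
      exact hcoord _ (by simp)
    · refine weaklyNull_of_upper_l2 _ 1 ?_
      intro A c
      rw [norm_sum_incr, one_mul]
      exact hchild s A c

/-- P8 (Plan statement, verbatim): `E` has no equivalent asymptotically uniformly convex norm. -/
theorem E_no_AUC (N : EX → ℝ) (hN : E.IsEquivNorm N) : ¬ E.IsAUC N :=
  E_no_AUC_of (fun s => Crest.Agent.Lib_helper9_ModelNorms.norm_pathSum_le .global s)
    (fun s hs => Crest.Agent.Lib_helper9_ModelNorms.norm_pathSum_ge .global s hs)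
    (fun s hs => Crest.Agent.Lib_helper9_ModelNorms.norm_coordVector_ge .global s hs)
    (fun r A c => Crest.Agent.Lib_helper9_ModelNorms.norm_children_le .global r A c) N hN

end Crest.Agent.Lib_helper9_ETree
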