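import Mathlib
import Crest.Agent.Lib_helper9_Defs

/-!
Package P4 of row 125: the midpoint lower bound in subspaces of `L¹` whose unit ball is
totally bounded for convergence in measure.
-/

set_option autoImplicit false

namespace Crest.Agent.Lib_helper9_L1

open Crest.AnalysisR Crest.Agent.Lib_helper9_Defs MeasureTheory

section real

variable {Ω : Type} [MeasurableSpace Ω] {P : Measure Ω}

theorem two_abs_left_le (a b : ℝ) : 2 * |a| ≤ |a + b| + |a - b| := by
  have h : |(a + b) + (a - b)| ≤ |a + b| + |a - b| := abs_add_le _ _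
  have h2 : (a + b) + (a - b) = 2 * a := by ring
  rw [h2, abs_mul, abs_two] at h
  exact h

theorem two_abs_right_le (a b : ℝ) : 2 * |b| ≤ |a + b| + |a - b| := by
  have h : |(a + b) - (a - b)| ≤ |a + b| + |a - b| := abs_sub _ _
  have h2 : (a + b) - (a - b) = 2 * b := by ring
  rw [h2, abs_mul, abs_two] at h
  exact h

/-- Splitting the two `L¹` norms over `A` and its complement. -/
theorem integral_abs_add_sub_ge (X Y : Ω → ℝ) (hX : Integrable X P) (hY : Integrable Y P)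
    (A : Set Ω) (hA : MeasurableSet A) (t : ℝ) :
    2 * ∫ z in Aᶜ, |X z| ∂P + 2 * |t| * ∫ z in A, |Y z| ∂P
      ≤ ∫ z, |X z + t * Y z| ∂P + ∫ z, |X z - t * Y z| ∂P := by
  have hI1 : Integrable (fun z => |X z + t * Y z|) P := (hX.add (hY.const_mul t)).abs
  have hI2 : Integrable (fun z => |X z - t * Y z|) P := (hX.sub (hY.const_mul t)).abs
  have hI : Integrable (fun z => |X z + t * Y z| + |X z - t * Y z|) P := hI1.add hI2
  rw [← integral_add hI1 hI2, ← integral_add_compl hA hI]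
  have h1 : 2 * |t| * ∫ z in A, |Y z| ∂P
      ≤ ∫ z in A, (|X z + t * Y z| + |X z - t * Y z|) ∂P := by
    rw [← integral_const_mul]
    refine setIntegral_mono_on (hY.abs.const_mul _).integrableOn hI.integrableOn hA (fun z _ => ?_)
    have := two_abs_right_le (X z) (t * Y z)
    rw [abs_mul] at this
    linarith
  have h2 : 2 * ∫ z in Aᶜ, |X z| ∂P
      ≤ ∫ z in Aᶜ, (|X z + t * Y z| + |X z - t * Y z|) ∂P := by
    rw [← integral_const_mul]
    exact setIntegral_mono_on (hX.abs.const_mul _).integrableOn hI.integrableOn hA.compl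
      (fun z _ => two_abs_left_le (X z) (t * Y z))
  linarith

/-- If `Y` is uniformly close to `G` off `A` and `G` is "normed against `Y`", then at least
half of the mass of `Y` sits on `A`. -/
theorem half_mass_on [IsProbabilityMeasure P] (Y G : Ω → ℝ) (hY : Integrable Y P)
    (hG : Integrable G P) (A : Set Ω) (hA : MeasurableSet A) (a : ℝ) (ha : 0 ≤ a)
    (hclose : ∀ z ∈ Aᶜ, |Y z - G z| ≤ a) (hnorm : ∫ z, |G z| ∂P ≤ ∫ z, |G z - Y z| ∂P) :
    ∫ z, |Y z| ∂P ≤ 2 * ∫ z in A, |Y z| ∂P + 2 * a := by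
  have hGY : Integrable (fun z => |G z - Y z|) P := (hG.sub hY).abs
  have e1 := integral_add_compl hA hGY
  have e2 := integral_add_compl hA hG.abs
  have e3 := integral_add_compl hA hY.abs
  have b1 : ∫ z in A, |G z - Y z| ∂P ≤ ∫ z in A, |G z| ∂P + ∫ z in A, |Y z| ∂P := by
    rw [← integral_add hG.abs.integrableOn hY.abs.integrableOn]
    exact setIntegral_mono_on hGY.integrableOn (hG.abs.add hY.abs).integrableOn hA
      (fun z _ => abs_sub _ _)
  have hconst : ∫ _z in Aᶜ, a ∂P ≤ a := by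
    rw [setIntegral_const, smul_eq_mul]
    have : P.real Aᶜ ≤ 1 := measureReal_le_one
    nlinarith
  have b2 : ∫ z in Aᶜ, |G z - Y z| ∂P ≤ a := by
    refine le_trans (setIntegral_mono_on hGY.integrableOn (integrable_const a).integrableOn
      hA.compl (fun z hz => ?_)) hconst
    rw [abs_sub_comm]; exact hclose z hz
  have b3 : ∫ z in Aᶜ, |Y z| ∂P ≤ ∫ z in Aᶜ, |G z| ∂P + a := by
    have h : ∫ z in Aᶜ, |Y z| ∂P ≤ ∫ z in Aᶜ, (|G z| + |G z - Y z|) ∂P := by
      refine setIntegral_mono_on hY.abs.integrableOn (hG.abs.add hGY).integrableOn hA.compl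
        (fun z _ => ?_)
      have h' : |G z - (G z - Y z)| ≤ |G z| + |G z - Y z| := abs_sub _ _
      have h'' : G z - (G z - Y z) = Y z := by ring
      rw [h''] at h'
      exact h'
    rw [integral_add hG.abs.integrableOn hGY.integrableOn] at h
    linarith
  linarith

/-- Absolute continuity of the integral, in `ε`-`δ` form for Bochner integrals. -/
theorem exists_pos_setIntegral_abs_le (X : Ω → ℝ) (hX : Integrable X P) (η : ℝ) (hη : 0 < η) :
    ∃ δ : ℝ, 0 < δ ∧ ∀ A : Set Ω, P A < ENNReal.ofReal δ → ∫ z in A, |X z| ∂P ≤ η := by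
  have hfin : ∫⁻ z, ENNReal.ofReal |X z| ∂P ≠ ⊤ := (hX.abs.lintegral_lt_top).ne
  obtain ⟨δ, hδ, h⟩ := exists_pos_setLIntegral_lt_of_measure_lt hfin (ε := ENNReal.ofReal η)
    (by simpa using hη)
  obtain ⟨δ', hδ'pos, hδ'⟩ : ∃ δ' : ℝ, 0 < δ' ∧ ENNReal.ofReal δ' ≤ δ := by
    by_cases htop : δ = ⊤
    · exact ⟨1, one_pos, by simp [htop]⟩
    · exact ⟨δ.toReal, ENNReal.toReal_pos hδ.ne' htop, by rw [ENNReal.ofReal_toReal htop]⟩
  refine ⟨δ', hδ'pos, fun A hA => ?_⟩
  have h1 := h A (lt_of_lt_of_le hA hδ')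
  rw [integral_eq_lintegral_of_nonneg_ae (Filter.Eventually.of_forall fun z => abs_nonneg _)
    hX.abs.aestronglyMeasurable.restrict]
  exact ENNReal.toReal_le_of_le_ofReal hη.le h1.le

theorem norm_add_smul_eq (f g : Lp ℝ 1 P) (t : ℝ) :
    ‖f + t • g‖ = ∫ z, |f z + t * g z| ∂P := by
  rw [L1.norm_eq_integral_norm]
  refine integral_congr_ae ?_
  filter_upwards [Lp.coeFn_add f (t • g), Lp.coeFn_smul t g] with z h1 h2
  simp only [Real.norm_eq_abs, h1, Pi.add_apply, h2, Pi.smul_apply, smul_eq_mul]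

theorem norm_sub_smul_eq (f g : Lp ℝ 1 P) (t : ℝ) :
    ‖f - t • g‖ = ∫ z, |f z - t * g z| ∂P := by
  rw [L1.norm_eq_integral_norm]
  refine integral_congr_ae ?_
  filter_upwards [Lp.coeFn_sub f (t • g), Lp.coeFn_smul t g] with z h1 h2
  simp only [Real.norm_eq_abs, h1, Pi.sub_apply, h2, Pi.smul_apply, smul_eq_mul]

theorem norm_sub_eq (f g : Lp ℝ 1 P) :
    ‖f - g‖ = ∫ z, |f z - g z| ∂P := by
  rw [L1.norm_eq_integral_norm]
  refine integral_congr_ae ?_
  filter_upwards [Lp.coeFn_sub f g] with z h1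
  simp only [Real.norm_eq_abs, h1, Pi.sub_apply]

theorem norm_eq (f : Lp ℝ 1 P) : ‖f‖ = ∫ z, |f z| ∂P := by
  rw [L1.norm_eq_integral_norm]
  simp only [Real.norm_eq_abs]

end real

theorem l1_midpoint_lower {Ω : Type} [MeasurableSpace Ω] (P : Measure Ω) [IsProbabilityMeasure P]
    (E : Submodule ℝ (Lp ℝ 1 P)) (htb : L1Subspace.UnitBallTotallyBoundedInMeasure P E)
    (x : E) (hx : ‖x‖ = 1) (η : ℝ) (hη : 0 < η) (t : ℝ) (ht : 0 < t) :
    ∃ S : Submodule ℝ E, IsClosed (S : Set E) ∧ FiniteDimensional ℝ (E ⧸ S) ∧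
      ∀ y ∈ S, ‖y‖ = 1 → 2 + t - η ≤ ‖x + t • y‖ + ‖x - t • y‖ := by
  have hXint : Integrable (fun z => (x : Lp ℝ 1 P) z) P := L1.integrable_coeFn _
  obtain ⟨δ, hδ, hδA⟩ := exists_pos_setIntegral_abs_le (P := P) (fun z => (x : Lp ℝ 1 P) z)
    hXint (η / 4) (by positivity)
  set ε := min δ (η / (4 * t)) with hε_def
  have hε : 0 < ε := lt_min hδ (by positivity)
  obtain ⟨s, hs, hnet⟩ := htb ε hε
  have hφ : ∀ g : s, ∃ φ : E →L[ℝ] ℝ, ‖φ‖ ≤ 1 ∧
      φ ⟨g.1, (hs g.1 g.2).1⟩ = ‖(⟨g.1, (hs g.1 g.2).1⟩ : E)‖ :=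
    fun g => exists_dual_vector'' ℝ _
  choose φ hφ1 hφ2 using hφ
  let T : E →L[ℝ] (s → ℝ) := ContinuousLinearMap.pi φ
  refine ⟨LinearMap.ker T.toLinearMap, T.isClosed_ker, ?_, ?_⟩
  · exact (LinearMap.quotKerEquivRange T.toLinearMap).symm.finiteDimensional
  · intro y hy hy1
    have hTy : ∀ g : s, φ g y = 0 := fun g => by
      have h0 : T y = 0 := hy
      exact congrFun h0 g
    obtain ⟨g, hg, hdist⟩ := hnet (y : Lp ℝ 1 P) y.2 (by rw [← hy1]; rfl)
    have hne : {a : ℝ | 0 < a ∧ P {z | a < abs (((y : Lp ℝ 1 P) : Ω → ℝ) z - (g : Ω → ℝ) z)}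
        < ENNReal.ofReal a}.Nonempty :=
      ⟨2, by norm_num, lt_of_le_of_lt prob_le_one (by simp)⟩
    obtain ⟨a, ⟨ha0, haP⟩, haε⟩ := exists_lt_of_csInf_lt hne hdist
    set A : Set Ω := {z | a < abs (((y : Lp ℝ 1 P) : Ω → ℝ) z - (g : Ω → ℝ) z)} with hA_def
    have hAm : MeasurableSet A :=
      measurableSet_lt measurable_const
        (((Lp.stronglyMeasurable _).measurable.sub (Lp.stronglyMeasurable _).measurable).abs)
    have hYint : Integrable (fun z => (y : Lp ℝ 1 P) z) P := L1.integrable_coeFn _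
    have hGint : Integrable (fun z => g z) P := L1.integrable_coeFn _
    -- mass of x on A is small
    have hxA : ∫ z in A, |(x : Lp ℝ 1 P) z| ∂P ≤ η / 4 := by
      refine hδA A (lt_of_lt_of_le haP (ENNReal.ofReal_le_ofReal ?_))
      exact le_trans haε.le (min_le_left _ _)
    have hxAc : 1 - η / 4 ≤ ∫ z in Aᶜ, |(x : Lp ℝ 1 P) z| ∂P := by
      have e := integral_add_compl hAm hXint.abs
      have hx' : ∫ z, |(x : Lp ℝ 1 P) z| ∂P = 1 := by rw [← norm_eq]; exact hx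
      linarith
    -- the norming functional
    have hnormg : ∫ z, |g z| ∂P ≤ ∫ z, |g z - (y : Lp ℝ 1 P) z| ∂P := by
      rw [← norm_eq, ← norm_sub_eq]
      set g' : E := ⟨g, (hs g hg).1⟩ with hg'
      have h1 : ‖g'‖ = φ ⟨g, hg⟩ (g' - y) := by
        rw [map_sub, hTy, sub_zero]
        exact (hφ2 ⟨g, hg⟩).symm
      have h2 : φ ⟨g, hg⟩ (g' - y) ≤ ‖g' - y‖ := by
        have := (φ ⟨g, hg⟩).le_opNorm (g' - y)
        have h3 : ‖φ ⟨g, hg⟩ (g' - y)‖ ≤ 1 * ‖g' - y‖ :=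
          le_trans this (mul_le_mul_of_nonneg_right (hφ1 _) (norm_nonneg _))
        rw [one_mul] at h3
        exact le_trans (le_abs_self _) h3
      have h4 : ‖g'‖ = ‖g‖ := rfl
      have h5 : ‖g' - y‖ = ‖g - (y : Lp ℝ 1 P)‖ := rfl
      rw [← h4, ← h5, h1]
      exact h2
    have hclose : ∀ z ∈ Aᶜ, |(y : Lp ℝ 1 P) z - g z| ≤ a := by
      intro z hz
      simpa [hA_def] using hz
    have hhalf := half_mass_on (P := P) (fun z => (y : Lp ℝ 1 P) z) (fun z => g z) hYint hGint A hAm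
      a ha0.le hclose hnormg
    have hy' : ∫ z, |(y : Lp ℝ 1 P) z| ∂P = 1 := by rw [← norm_eq]; exact hy1
    have hmain := integral_abs_add_sub_ge (P := P) (fun z => (x : Lp ℝ 1 P) z)
      (fun z => (y : Lp ℝ 1 P) z) hXint hYint A hAm t
    have e1 : ‖x + t • y‖ = ∫ z, |(x : Lp ℝ 1 P) z + t * (y : Lp ℝ 1 P) z| ∂P := by
      rw [← norm_add_smul_eq]; rfl
    have e2 : ‖x - t • y‖ = ∫ z, |(x : Lp ℝ 1 P) z - t * (y : Lp ℝ 1 P) z| ∂P := by
      rw [← norm_sub_smul_eq]; rfl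
    rw [e1, e2]
    rw [abs_of_pos ht] at hmain
    rw [hy'] at hhalf
    have haε' : a ≤ η / (4 * t) := le_trans haε.le (min_le_right _ _)
    have hta : t * a ≤ η / 4 := by
      have := mul_le_mul_of_nonneg_left haε' ht.le
      have h2 : t * (η / (4 * t)) = η / 4 := by field_simp
      linarith
    have hYA : 1 / 2 - a ≤ ∫ z in A, |(y : Lp ℝ 1 P) z| ∂P := by linarith
    have : t * (1 / 2 - a) ≤ t * ∫ z in A, |(y : Lp ℝ 1 P) z| ∂P :=
      mul_le_mul_of_nonneg_left hYA ht.le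
    nlinarith

end Crest.Agent.Lib_helper9_L1
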