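-- Statement S0110 (row 82): sharpness of the exponent 1/3 in the stability of quadratic optimal
-- transport maps, on the cube with three-atom targets (helper16).
-- Construction: nu = image of rho under the Laguerre map with atoms -e0, delta*e1, e0 and middle
-- cell the wedge |x0| <= delta*(1 + x1); mu = its mirror image in the coordinate x1 (atoms
-- -e0, -delta*e1, e0).  The atom-to-atom coupling costs at most 8*delta^3, while any two optimal
-- maps differ by at least 1 on a box of mass delta/16 (optimal maps are a.e. unique by an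
-- elementary duality lemma, `Lib_S0110_h16_Dual`).  Files: Lib_S0110_h16_{Cube,Dual,Atoms,Main}.
import Crest.Statements.S0110
import Crest.Agent.Lib_S0110_h16_Main

set_option autoImplicit false
open MeasureTheory
open scoped ENNReal NNReal
open Crest.AnalysisR.OT
open Crest Crest.AnalysisR Crest.AnalysisR.OT

namespace Crest.Agent.S0110

/-- The exponent one third is optimal, even on the cube with three-atom targets: for d ≥ 2, ρ the uniform probability measure on the cube of points of ℝᵈ with all coordinates in [-1, 1], every α > 1/3 and every C ≥ 0, there are three-atomic probability measures μ, ν on that cube, each admitting a quadratic optimal transport map from ρ, such that for all such optimal maps Tμ, Tν some coupling π of μ, ν has C · (∫ ‖y - z‖² dπ)^α < ∫ ‖Tμ - Tν‖² dρ. Hence ‖Tμ - Tν‖_{L²(ρ)} > √C · W₂(μ, ν)^α. -/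
theorem result
    (d : ℕ) (hd : 2 ≤ d) (α : ℝ) (hα : 1 / 3 < α) (C : ℝ≥0) :
    ∃ μ ν : Measure (EuclideanSpace ℝ (Fin d)),
      IsProbabilityOn {x : EuclideanSpace ℝ (Fin d) | ∀ i, |x i| ≤ 1} μ ∧
      IsProbabilityOn {x : EuclideanSpace ℝ (Fin d) | ∀ i, |x i| ≤ 1} ν ∧
      IsThreeAtomic μ ∧ IsThreeAtomic ν ∧
      (∃ T, IsOptimalMap (uniformProbOn {x : EuclideanSpace ℝ (Fin d) | ∀ i, |x i| ≤ 1}) μ T) ∧
      (∃ T, IsOptimalMap (uniformProbOn {x : EuclideanSpace ℝ (Fin d) | ∀ i, |x i| ≤ 1}) ν T) ∧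
      ∀ Tμ Tν : EuclideanSpace ℝ (Fin d) → EuclideanSpace ℝ (Fin d),
        IsOptimalMap (uniformProbOn {x : EuclideanSpace ℝ (Fin d) | ∀ i, |x i| ≤ 1}) μ Tμ →
        IsOptimalMap (uniformProbOn {x : EuclideanSpace ℝ (Fin d) | ∀ i, |x i| ≤ 1}) ν Tν →
        ∃ π : Measure (EuclideanSpace ℝ (Fin d) × EuclideanSpace ℝ (Fin d)), IsPairCoupling μ ν π ∧
          (C : ℝ≥0∞) * quadCost π ^ α < ∫⁻ x, ‖Tμ x - Tν x‖ₑ ^ 2 ∂(uniformProbOn {x : EuclideanSpace ℝ (Fin d) | ∀ i, |x i| ≤ 1}) := by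
  classical
  obtain ⟨δ, hδ0, hδ1, hδC⟩ :=
    Crest.Agent.LibS0110h16.exists_delta α hα (C : ℝ) C.coe_nonneg
  have hd0 : 0 < d := by omega
  have hd1 : 1 < d := by omega
  set i0 : Fin d := ⟨0, hd0⟩ with hi0
  set i1 : Fin d := ⟨1, hd1⟩ with hi1
  have h01 : i0 ≠ i1 := by
    intro h
    have := congrArg Fin.val h
    simp [hi0, hi1] at this
  have hε1 : |(1 : ℝ)| ≤ 1 := by norm_num
  have hε2 : |(-1 : ℝ)| ≤ 1 := by norm_num
  have hδ1' : δ ≤ 1 := by linarith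
  refine ⟨(Crest.Agent.LibS0110h16.ρQ d).map (Crest.Agent.LibS0110h16.Smap i0 i1 (-1) δ),
    (Crest.Agent.LibS0110h16.ρQ d).map (Crest.Agent.LibS0110h16.Smap i0 i1 1 δ),
    Crest.Agent.LibS0110h16.probOn_map (-1) δ hε2 hδ0.le hδ1',
    Crest.Agent.LibS0110h16.probOn_map 1 δ hε1 hδ0.le hδ1',
    Crest.Agent.LibS0110h16.threeAtomic_map h01 (-1) δ hε2 hδ0 hδ1,
    Crest.Agent.LibS0110h16.threeAtomic_map h01 1 δ hε1 hδ0 hδ1,
    ⟨_, Crest.Agent.LibS0110h16.isOptimal_Smap h01 (-1) δ hε2 hδ0.le hδ1'⟩,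
    ⟨_, Crest.Agent.LibS0110h16.isOptimal_Smap h01 1 δ hε1 hδ0.le hδ1'⟩, ?_⟩
  intro Tμ Tν hTμ hTν
  refine ⟨Crest.Agent.LibS0110h16.coup i0 i1 δ,
    Crest.Agent.LibS0110h16.coup_isCoupling h01 δ, ?_⟩
  have hα0 : 0 ≤ α := by linarith
  have h8 : (0 : ℝ) ≤ 8 * δ ^ 3 := by positivity
  calc (C : ℝ≥0∞) * quadCost (Crest.Agent.LibS0110h16.coup i0 i1 δ) ^ α
      ≤ (C : ℝ≥0∞) * (ENNReal.ofReal (8 * δ ^ 3)) ^ α := by
        gcongr
        exact Crest.Agent.LibS0110h16.quadCost_coup_le h01 δ hδ0.le hδ1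
    _ = ENNReal.ofReal ((C : ℝ) * (8 * δ ^ 3) ^ α) := by
        rw [ENNReal.ofReal_rpow_of_nonneg h8 hα0, ENNReal.ofReal_mul C.coe_nonneg,
          ENNReal.ofReal_coe_nnreal]
    _ < ENNReal.ofReal (δ / 16) :=
        (ENNReal.ofReal_lt_ofReal_iff (by positivity)).mpr hδC
    _ ≤ _ := Crest.Agent.LibS0110h16.lower_bound h01 δ hδ0 hδ1 Tμ Tν
        (Crest.Agent.LibS0110h16.ae_of_isOptimal h01 (-1) δ hε2 hδ0.le hδ1' Tμ hTμ)
        (Crest.Agent.LibS0110h16.ae_of_isOptimal h01 1 δ hε1 hδ0.le hδ1' Tν hTν)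

end Crest.Agent.S0110
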