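-- Statement S0166 (row 125).  Assembly by helper9 from the shared row-125 library.
import Crest.Statements.S0166
import Crest.Agent.Lib_helper9_AUC
import Crest.Agent.Lib_helper9_EBasic6a
import Crest.Agent.Lib_helper9_ETree
import Crest.Agent.Lib_helper9_Diamond
import Crest.Agent.Lib_helper9_Model
import Crest.Agent.Lib_helper9_EMid
import Crest.Agent.Lib_helper9_EPiece
import Crest.Agent.Lib_helper9_ELp2

set_option autoImplicit false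
open Crest Crest.AnalysisR

namespace Crest.Agent.S0166

open Crest.AnalysisR.TreePotential Crest.Agent.Lib_helper9_Defs Crest.Agent.Lib_helper9_AUC
open Crest.Agent.Lib_helper9_EBasic6a (E_separable E_not_finiteDimensional)
open Crest.Agent.Lib_helper9_ETree (E_no_AUC)
open Crest.Agent.Lib_helper9_Diamond (diamond_bound)

/-- `EX` is reflexive: an `ℓ²`-sum of reflexive pieces. -/
theorem E_reflexive : Function.Surjective (NormedSpace.inclusionInDoubleDual ℝ EX) :=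
  Lib_helper9_ELp2.lp2_reflexive (fun k : ℕ => piece k) Lib_helper9_EPiece.piece_reflexive

/-- The midpoint inequality in `EX`. -/
theorem E_midpoint (x : EX) (η : ℝ) (hη : 0 < η) :
    ∃ S : Submodule ℝ EX, IsClosed (S : Set EX) ∧ FiniteDimensional ℝ (EX ⧸ S) ∧
      ∀ y ∈ S, 2 * Real.sqrt (‖x‖ ^ 2 + ‖y‖ ^ 2 / 4) - η ≤ ‖x + y‖ + ‖x - y‖ :=
  Lib_helper9_EMid.E_midpoint_of
    (fun x hx η hη => Lib_helper9_Model.strong_midpoint .global x hx η hη) x η hη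

/-- the averaged midpoint estimate in `EX`, at unit vectors -/
lemma avg_ge (t : ℝ) (ht : 0 < t) (x : EX) (hx : ‖x‖ = 1) (η : ℝ) (hη : 0 < η) :
    ∃ F : Set EX, (∃ S : Submodule ℝ EX, (S : Set EX) = F ∧ IsClosed F ∧
        FiniteDimensional ℝ (EX ⧸ S)) ∧
      ∀ y ∈ F, ‖y‖ = 1 →
        (Real.sqrt (1 + t ^ 2 / 4) - 1) - η ≤ (‖x + t • y‖ + ‖x - t • y‖) / 2 - 1 := by
  obtain ⟨S, hScl, hSfd, hS⟩ := E_midpoint x (2 * η) (by linarith)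
  refine ⟨S, ⟨S, rfl, hScl, hSfd⟩, fun y hy hy1 => ?_⟩
  have key := hS (t • y) (S.smul_mem t hy)
  have n2 : ‖t • y‖ = t := by
    rw [norm_smul, hy1, mul_one, Real.norm_eq_abs, abs_of_pos ht]
  rw [hx, n2] at key
  have e : (1 : ℝ) ^ 2 + t ^ 2 / 4 = 1 + t ^ 2 / 4 := by ring
  rw [e] at key
  linarith

lemma sqrt_ge_one (t : ℝ) : 1 ≤ Real.sqrt (1 + t ^ 2 / 4) := by
  rw [show (1 : ℝ) = Real.sqrt 1 by simp]
  apply Real.sqrt_le_sqrt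
  have : 0 ≤ t ^ 2 / 4 := by positivity
  linarith

lemma sqrt12_le (t : ℝ) : Real.sqrt (1 + t ^ 2 / 12) ≤ Real.sqrt (1 + t ^ 2 / 4) := by
  apply Real.sqrt_le_sqrt
  have : 0 ≤ t ^ 2 := by positivity
  linarith

lemma hX_max (x : EX) (η : ℝ) (hη : 0 < η) :
    ∃ S : Submodule ℝ EX, IsClosed (S : Set EX) ∧ FiniteDimensional ℝ (EX ⧸ S) ∧
      ∀ z ∈ S, Real.sqrt (‖x‖ ^ 2 + ‖z‖ ^ 2 / 4) - η ≤ max ‖x + z‖ ‖x - z‖ := by
  obtain ⟨S, hScl, hSfd, hS⟩ := E_midpoint x (2 * η) (by linarith)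
  refine ⟨S, hScl, hSfd, fun z hz => ?_⟩
  have key := hS z hz
  have h1 := le_max_left ‖x + z‖ ‖x - z‖
  have h2 := le_max_right ‖x + z‖ ‖x - z‖
  linarith

lemma mod1 (t : ℝ) (ht : 0 < t) (x : EX) (hx : ‖x‖ = 1) (η : ℝ) (hη : 0 < η) :
    ∃ F : Set EX, (∃ S : Submodule ℝ EX, (S : Set EX) = F ∧ IsClosed F ∧
        FiniteDimensional ℝ (EX ⧸ S)) ∧
      ∀ y ∈ F, ‖y‖ = 1 →
        (Real.sqrt (1 + t ^ 2 / 12) - 1) - η ≤ (‖x + t • y‖ + ‖x - t • y‖) / 2 - 1 := by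
  obtain ⟨F, hF, h⟩ := avg_ge t ht x hx η hη
  refine ⟨F, hF, fun y hy hy1 => ?_⟩
  have := h y hy hy1
  have h12 := sqrt12_le t
  linarith

lemma mod2 (t : ℝ) (ht : 0 < t) (x : EX) (hx : ‖x‖ = 1) (η : ℝ) (hη : 0 < η) :
    ∃ F : Set EX, (∃ S : Submodule ℝ EX, (S : Set EX) = F ∧ IsClosed F ∧
        FiniteDimensional ℝ (EX ⧸ S)) ∧
      ∀ y ∈ F, ‖y‖ = 1 →
        (Real.sqrt (1 + t ^ 2 / 4) - 1) / 2 - η ≤ (‖x + t • y‖ + ‖x - t • y‖) / 2 - 1 := by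
  obtain ⟨F, hF, h⟩ := avg_ge t ht x hx η hη
  refine ⟨F, hF, fun y hy hy1 => ?_⟩
  have := h y hy hy1
  have h1 := sqrt_ge_one t
  linarith

lemma mod3 (t : ℝ) (ht : 0 < t) (x : EX) (hx : ‖x‖ = 1) (η : ℝ) (hη : 0 < η) :
    ∃ F : Set EX, (∃ S : Submodule ℝ EX, (S : Set EX) = F ∧ IsClosed F ∧
        FiniteDimensional ℝ (EX ⧸ S)) ∧
      ∀ y ∈ F, ‖y‖ = 1 →
        (Real.sqrt (1 + t ^ 2 / 4) - 1) - η ≤ max ‖x + t • y‖ ‖x - t • y‖ - 1 := by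
  obtain ⟨F, hF, h⟩ := avg_ge t ht x hx η hη
  refine ⟨F, hF, fun y hy hy1 => ?_⟩
  have := h y hy hy1
  have h1 := le_max_left ‖x + t • y‖ ‖x - t • y‖
  have h2 := le_max_right ‖x + t • y‖ ‖x - t • y‖
  linarith

lemma diamond (k : ℕ) (f : DiamondVertex k → EX) (D : ℝ)
    (hf : ∃ s : ℝ, 0 < s ∧ ∀ u v : DiamondVertex k,
      s * (diamondDist k u v : ℝ) ≤ ‖f u - f v‖ ∧ ‖f u - f v‖ ≤ D * s * (diamondDist k u v : ℝ)) :
    1 + (k : ℝ) / 4 ≤ D ^ 2 := by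
  obtain ⟨s, hs, hfs⟩ := hf
  exact diamond_bound (X := EX) hX_max k f D s hs hfs

theorem result :
    ∃ E : Crest.AnalysisR.RealBanach, E.IsSeparableInfiniteDim ∧ E.IsReflexive ∧
      (∀ t : ℝ, 0 < t → E.MidpointModulusGE E.norm t (Real.sqrt (1 + t ^ 2 / 12) - 1) ∧
        E.MidpointModulusGE E.norm t ((Real.sqrt (1 + t ^ 2 / 4) - 1) / 2) ∧
        E.MaxMidpointModulusGE E.norm t (Real.sqrt (1 + t ^ 2 / 4) - 1)) ∧
      (∀ N : E.X → ℝ, E.IsEquivNorm N → ¬ E.IsAUC N) ∧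
      ∀ (k : ℕ) (f : Crest.AnalysisR.DiamondVertex k → E.X) (D : ℝ),
        E.HasDistortionLE k f D → 1 + (k : ℝ) / 4 ≤ D ^ 2 := by
  refine ⟨Lib_helper9_Defs.E, ⟨E_separable, E_not_finiteDimensional⟩, E_reflexive, ?_, ?_, ?_⟩
  · intro t ht
    exact ⟨fun x hx η hη => mod1 t ht x hx η hη, fun x hx η hη => mod2 t ht x hx η hη,
      fun x hx η hη => mod3 t ht x hx η hη⟩
  · intro N hN
    exact E_no_AUC N hN
  · intro k f D hf
    exact diamond k f D hf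

end Crest.Agent.S0166
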