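import Crest.Statements.S0167
import Crest.Agent.Lib_helper9_Defs
import Crest.Agent.Lib_helper9_AUC
import Crest.Agent.Lib_helper9_L1
import Crest.Agent.Lib_helper9_Daugavet

set_option autoImplicit false
open Crest Crest.AnalysisR

namespace Crest.Agent.S0167

section generic

variable {V : Type} [NormedAddCommGroup V] [NormedSpace ℝ V]

/-- Closed finite-codimensional subspaces, as sets (the unfolded form of `RealBanach.IsCof`). -/
def CofSet (F : Set V) : Prop :=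
  ∃ S : Submodule ℝ V, (S : Set V) = F ∧ IsClosed F ∧ FiniteDimensional ℝ (V ⧸ S)

theorem two_mul_le_norm_add_sub (x y : V) (hy : ‖y‖ = 1) (t : ℝ) (ht : 0 < t) :
    2 * t ≤ ‖x + t • y‖ + ‖x - t • y‖ := by
  have h : ‖(x + t • y) - (x - t • y)‖ ≤ ‖x + t • y‖ + ‖x - t • y‖ := norm_sub_le _ _
  have e : (x + t • y) - (x - t • y) = (2 * t) • y := by
    rw [mul_smul, two_smul]; abel
  rw [e, norm_smul, hy, mul_one, Real.norm_eq_abs, abs_of_pos (by positivity)] at h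
  exact h

theorem sub_one_le_norm_add (x y : V) (hx : ‖x‖ = 1) (hy : ‖y‖ = 1) (t : ℝ) (ht : 0 < t) :
    t - 1 ≤ ‖x + t • y‖ := by
  have h : ‖t • y‖ - ‖x‖ ≤ ‖x + t • y‖ := by
    have := norm_sub_norm_le (t • y) (-x)
    rw [norm_neg, sub_neg_eq_add, add_comm] at this
    exact this
  rw [norm_smul, hy, mul_one, Real.norm_eq_abs, abs_of_pos ht, hx] at h
  exact h

theorem norm_sub_le_one_add (x y : V) (hx : ‖x‖ = 1) (hy : ‖y‖ = 1) (t : ℝ) (ht : 0 < t) :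
    ‖x - t • y‖ ≤ 1 + t := by
  have h := norm_sub_le x (t • y)
  rw [norm_smul, hy, mul_one, Real.norm_eq_abs, abs_of_pos ht, hx] at h
  exact h

/-- Interpolating/extrapolating from `‖x + 2 y‖ ≤ 1 + η`. -/
theorem norm_add_le_of_two (x y : V) (hx : ‖x‖ = 1) (hy : ‖y‖ = 1) (η : ℝ) (hη : 0 < η)
    (h2 : ‖x + (2 : ℝ) • y‖ ≤ 1 + η) (t : ℝ) (ht : 0 < t) :
    ‖x + t • y‖ ≤ 1 + max 0 (t - 2) + η := by
  rcases le_total t 2 with h | h
  · have e : x + t • y = (1 - t / 2) • x + (t / 2) • (x + (2 : ℝ) • y) := by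
      rw [smul_add, smul_smul, sub_smul, one_smul]
      have : t / 2 * 2 = t := by ring
      rw [this]; abel
    have h1 : ‖(1 - t / 2) • x‖ = 1 - t / 2 := by
      rw [norm_smul, hx, mul_one, Real.norm_eq_abs, abs_of_nonneg (by linarith)]
    have h3 : ‖(t / 2) • (x + (2 : ℝ) • y)‖ ≤ t / 2 * (1 + η) := by
      rw [norm_smul, Real.norm_eq_abs, abs_of_pos (by positivity)]
      exact mul_le_mul_of_nonneg_left h2 (by positivity)
    have h4 := norm_add_le ((1 - t / 2) • x) ((t / 2) • (x + (2 : ℝ) • y))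
    rw [← e] at h4
    have h5 : max 0 (t - 2) = 0 := max_eq_left (by linarith)
    rw [h5]
    nlinarith
  · have e : x + t • y = (x + (2 : ℝ) • y) + (t - 2) • y := by
      rw [sub_smul]; abel
    have h1 : ‖(t - 2) • y‖ = t - 2 := by
      rw [norm_smul, hy, mul_one, Real.norm_eq_abs, abs_of_nonneg (by linarith)]
    have h4 := norm_add_le (x + (2 : ℝ) • y) ((t - 2) • y)
    rw [← e] at h4
    have h5 : max 0 (t - 2) = t - 2 := max_eq_right (by linarith)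
    rw [h5]
    linarith

theorem max_half_eq (t : ℝ) : max 0 (t - 2) + t = 2 * max (t / 2) (t - 1) := by
  rcases le_total t 2 with h | h
  · rw [max_eq_left (by linarith), max_eq_left (by linarith)]; ring
  · rw [max_eq_right (by linarith), max_eq_right (by linarith)]; ring

/-- Lower bound for the midpoint modulus. -/
theorem midGE
    (hmid : ∀ x : V, ‖x‖ = 1 → ∀ η : ℝ, 0 < η → ∀ t : ℝ, 0 < t →
      ∃ S : Submodule ℝ V, IsClosed (S : Set V) ∧ FiniteDimensional ℝ (V ⧸ S) ∧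
        ∀ y ∈ S, ‖y‖ = 1 → 2 + t - η ≤ ‖x + t • y‖ + ‖x - t • y‖)
    (t : ℝ) (ht : 0 < t) (x : V) (hx : ‖x‖ = 1) (η : ℝ) (hη : 0 < η) :
    ∃ F : Set V, CofSet F ∧
      ∀ y ∈ F, ‖y‖ = 1 → max (t / 2) (t - 1) - η ≤ (‖x + t • y‖ + ‖x - t • y‖) / 2 - 1 := by
  obtain ⟨S, hS, hfin, h⟩ := hmid x hx η hη t ht
  refine ⟨S, ⟨S, rfl, hS, hfin⟩, fun y hy hy1 => ?_⟩
  have h1 := h y hy hy1
  have h2 := two_mul_le_norm_add_sub x y hy1 t ht
  rcases max_cases (t / 2) (t - 1) with ⟨h3, _⟩ | ⟨h3, _⟩ <;> rw [h3] <;> linarith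

/-- Upper bound for the midpoint modulus. -/
theorem midLE
    (hdc : ∀ x : V, ‖x‖ = 1 → ∀ S : Submodule ℝ V, IsClosed (S : Set V) →
      FiniteDimensional ℝ (V ⧸ S) → ∀ η : ℝ, 0 < η → ∃ y ∈ S, ‖y‖ = 1 ∧ ‖x + (2 : ℝ) • y‖ ≤ 1 + η)
    (t : ℝ) (ht : 0 < t) (x : V) (hx : ‖x‖ = 1) (F : Set V) (hF : CofSet F) (η : ℝ) (hη : 0 < η) :
    ∃ y ∈ F, ‖y‖ = 1 ∧ (‖x + t • y‖ + ‖x - t • y‖) / 2 - 1 ≤ max (t / 2) (t - 1) + η := by
  obtain ⟨S, rfl, hS, hfin⟩ := hF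
  obtain ⟨y, hy, hy1, h2⟩ := hdc x hx S hS hfin η hη
  refine ⟨y, hy, hy1, ?_⟩
  have h3 := norm_add_le_of_two x y hx hy1 η hη h2 t ht
  have h4 := norm_sub_le_one_add x y hx hy1 t ht
  have h5 := max_half_eq t
  linarith

/-- Lower bound for the one-sided modulus. -/
theorem oneGE (t : ℝ) (ht : 0 < t) (x : V) (hx : ‖x‖ = 1) (η : ℝ) (hη : 0 < η) :
    ∃ F : Set V, CofSet F ∧ ∀ y ∈ F, ‖y‖ = 1 → max 0 (t - 2) - η ≤ ‖x + t • y‖ - 1 := by
  obtain ⟨φ, hφ1, hφ2⟩ := exists_dual_vector'' ℝ x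
  obtain ⟨hcl, hfin⟩ := Crest.Agent.Lib_helper9_AUC.cof_ker φ
  refine ⟨(LinearMap.ker φ.toLinearMap : Submodule ℝ V), ⟨_, rfl, hcl, hfin⟩, fun y hy hy1 => ?_⟩
  have hy0 : φ y = 0 := hy
  have h1 : 1 ≤ ‖x + t • y‖ := by
    have h : φ (x + t • y) = 1 := by
      rw [map_add, map_smul, hy0, smul_zero, add_zero, hφ2, hx]
      norm_num
    have h' := φ.le_opNorm (x + t • y)
    rw [h, norm_one] at h'
    have h'' : ‖φ‖ * ‖x + t • y‖ ≤ 1 * ‖x + t • y‖ :=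
      mul_le_mul_of_nonneg_right hφ1 (norm_nonneg _)
    linarith
  have h2 := sub_one_le_norm_add x y hx hy1 t ht
  rcases max_cases (0 : ℝ) (t - 2) with ⟨h3, _⟩ | ⟨h3, _⟩ <;> rw [h3] <;> linarith

/-- Upper bound for the one-sided modulus. -/
theorem oneLE
    (hdc : ∀ x : V, ‖x‖ = 1 → ∀ S : Submodule ℝ V, IsClosed (S : Set V) →
      FiniteDimensional ℝ (V ⧸ S) → ∀ η : ℝ, 0 < η → ∃ y ∈ S, ‖y‖ = 1 ∧ ‖x + (2 : ℝ) • y‖ ≤ 1 + η)
    (t : ℝ) (ht : 0 < t) (x : V) (hx : ‖x‖ = 1) (F : Set V) (hF : CofSet F) (η : ℝ) (hη : 0 < η) :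
    ∃ y ∈ F, ‖y‖ = 1 ∧ ‖x + t • y‖ - 1 ≤ max 0 (t - 2) + η := by
  obtain ⟨S, rfl, hS, hfin⟩ := hF
  obtain ⟨y, hy, hy1, h2⟩ := hdc x hx S hS hfin η hη
  refine ⟨y, hy, hy1, ?_⟩
  have h3 := norm_add_le_of_two x y hx hy1 η hη h2 t ht
  linarith

end generic

/-- Let E be an infinite-dimensional closed subspace of the real L¹ of a probability space whose closed unit ball is totally bounded for convergence in measure and whose norm has the Daugavet property. Then at every unit x ∈ E and every t > 0 the averaged midpoint quantity sup_F inf_y ((‖x+ty‖+‖x-ty‖)/2 - 1) equals max(t/2, t-1) and the one-sided one sup_F inf_y (‖x+ty‖ - 1) equals max(0, t-2), as matching lower and upper bounds, and E admits no equivalent asymptotically uniformly convex norm. -/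
theorem result (Ω : Type) [MeasurableSpace Ω] (P : MeasureTheory.Measure Ω) [MeasureTheory.IsProbabilityMeasure P]
    (E : Submodule ℝ (MeasureTheory.Lp ℝ 1 P)) (hcl : IsClosed (E : Set (MeasureTheory.Lp ℝ 1 P)))
    (hinf : ¬ FiniteDimensional ℝ E)
    (htb : Crest.AnalysisR.L1Subspace.UnitBallTotallyBoundedInMeasure P E)
    (hD : Crest.AnalysisR.L1Subspace.HasDaugavetProperty E) :
    (∀ t : ℝ, 0 < t →
      (Crest.AnalysisR.L1Subspace.toRealBanach P E hcl).MidpointModulusGE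
          (Crest.AnalysisR.L1Subspace.toRealBanach P E hcl).norm t (max (t / 2) (t - 1)) ∧
        (Crest.AnalysisR.L1Subspace.toRealBanach P E hcl).MidpointModulusLE
          (Crest.AnalysisR.L1Subspace.toRealBanach P E hcl).norm t (max (t / 2) (t - 1)) ∧
        (Crest.AnalysisR.L1Subspace.toRealBanach P E hcl).OneSidedModulusGE
          (Crest.AnalysisR.L1Subspace.toRealBanach P E hcl).norm t (max 0 (t - 2)) ∧
        (Crest.AnalysisR.L1Subspace.toRealBanach P E hcl).OneSidedModulusLE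
          (Crest.AnalysisR.L1Subspace.toRealBanach P E hcl).norm t (max 0 (t - 2))) ∧
      ∀ N : E → ℝ, (Crest.AnalysisR.L1Subspace.toRealBanach P E hcl).IsEquivNorm N →
        ¬ (Crest.AnalysisR.L1Subspace.toRealBanach P E hcl).IsAUC N := by
  have hdc : ∀ x : E, ‖x‖ = 1 → ∀ S : Submodule ℝ E, IsClosed (S : Set E) →
      FiniteDimensional ℝ (E ⧸ S) → ∀ η : ℝ, 0 < η →
        ∃ y ∈ S, ‖y‖ = 1 ∧ ‖x + (2 : ℝ) • y‖ ≤ 1 + η :=
    fun x hx S hS hfin η hη =>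
      Crest.Agent.Lib_helper9_Daugavet.daugavet_cof hD x hx S hS hfin η hη
  have hmid : ∀ x : E, ‖x‖ = 1 → ∀ η : ℝ, 0 < η → ∀ t : ℝ, 0 < t →
      ∃ S : Submodule ℝ E, IsClosed (S : Set E) ∧ FiniteDimensional ℝ (E ⧸ S) ∧
        ∀ y ∈ S, ‖y‖ = 1 → 2 + t - η ≤ ‖x + t • y‖ + ‖x - t • y‖ :=
    fun x hx η hη t ht =>
      Crest.Agent.Lib_helper9_L1.l1_midpoint_lower P E htb x hx η hη t ht
  refine ⟨fun t ht => ⟨?_, ?_, ?_, ?_⟩, ?_⟩
  · show ∀ x : E, ‖x‖ = 1 → ∀ η : ℝ, 0 < η → ∃ F : Set E, CofSet F ∧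
      ∀ y ∈ F, ‖y‖ = 1 → max (t / 2) (t - 1) - η ≤ (‖x + t • y‖ + ‖x - t • y‖) / 2 - 1
    exact fun x hx η hη => midGE hmid t ht x hx η hη
  · show ∀ x : E, ‖x‖ = 1 → ∀ F : Set E, CofSet F → ∀ η : ℝ, 0 < η →
      ∃ y ∈ F, ‖y‖ = 1 ∧ (‖x + t • y‖ + ‖x - t • y‖) / 2 - 1 ≤ max (t / 2) (t - 1) + η
    exact fun x hx F hF η hη => midLE hdc t ht x hx F hF η hη
  · show ∀ x : E, ‖x‖ = 1 → ∀ η : ℝ, 0 < η → ∃ F : Set E, CofSet F ∧
      ∀ y ∈ F, ‖y‖ = 1 → max 0 (t - 2) - η ≤ ‖x + t • y‖ - 1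
    exact fun x hx η hη => oneGE t ht x hx η hη
  · show ∀ x : E, ‖x‖ = 1 → ∀ F : Set E, CofSet F → ∀ η : ℝ, 0 < η →
      ∃ y ∈ F, ‖y‖ = 1 ∧ ‖x + t • y‖ - 1 ≤ max 0 (t - 2) + η
    exact fun x hx F hF η hη => oneLE hdc t ht x hx F hF η hη
  · intro N hN
    have : Nontrivial E := by
      by_contra hnt
      rw [not_nontrivial_iff_subsingleton] at hnt
      exact hinf inferInstance
    exact @Crest.Agent.Lib_helper9_AUC.no_AUC_of_oneSided E _ _ hcl.completeSpace_coe _ 2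
      (by norm_num) hdc N hN

end Crest.Agent.S0167
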