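-- Statement S0168 (row 125).  Assembly by helper9 from the shared row-125 library.
import Crest.Statements.S0168
import Crest.Agent.Lib_helper9_AUC
import Crest.Agent.Lib_helper9_Model

set_option autoImplicit false
open Crest Crest.AnalysisR

namespace Crest.Agent.S0168

open Crest.AnalysisR.TreePotential Crest.Agent.Lib_helper9_Defs Crest.Agent.Lib_helper9_AUC
open Crest.Agent.Lib_helper9_Model (strong_midpoint norm_pathSum_le norm_pathSum_ge
  norm_coordVector_ge norm_children_le)

lemma coord_mem (m : PotentialModel) (s : List ℕ) : coordVector m s ∈ modelSpace m :=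
  Submodule.le_topologicalClosure _ (Submodule.subset_span ⟨s, rfl⟩)

/-- coordinate vectors as elements of the model space -/
noncomputable def cv (m : PotentialModel) (s : List ℕ) : modelSpace m := ⟨coordVector m s, coord_mem m s⟩

lemma weaklyNull_children (m : PotentialModel) (r : List ℕ) :
    WeaklyNull (fun n => cv m (n :: r)) := by
  refine weaklyNull_of_upper_l2 _ 1 (fun A c => ?_)
  rw [one_mul]
  have h : ((∑ n ∈ A, c n • cv m (n :: r) : modelSpace m) : Amb m) =
      ∑ n ∈ A, c n • coordVector m (n :: r) := by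
    simp [cv]
  rw [Submodule.coe_norm, h]
  exact norm_children_le m r A c

lemma norm_cv_ge (m : PotentialModel) (s : List ℕ) (hs : s ≠ []) : 1 ≤ ‖cv m s‖ := by
  rw [Submodule.coe_norm]
  exact norm_coordVector_ge m s hs

lemma separable (m : PotentialModel) : TopologicalSpace.SeparableSpace (modelSpace m) := by
  have h1 : TopologicalSpace.IsSeparable (Set.range (coordVector m)) :=
    (Set.countable_range _).isSeparable
  have h2 : TopologicalSpace.IsSeparable
      ((Submodule.span ℝ (Set.range (coordVector m)) : Submodule ℝ (Amb m)) : Set (Amb m)) :=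
    h1.span
  have h3 : TopologicalSpace.IsSeparable ((modelSpace m : Submodule ℝ (Amb m)) : Set (Amb m)) := by
    have : ((modelSpace m : Submodule ℝ (Amb m)) : Set (Amb m)) =
        closure ((Submodule.span ℝ (Set.range (coordVector m)) : Submodule ℝ (Amb m)) :
          Set (Amb m)) := rfl
    rw [this]
    exact h2.closure
  exact h3.separableSpace

lemma midpoint (m : PotentialModel) (t : ℝ) (ht : 0 < t) (ht1 : t ≤ 1) (x : modelSpace m)
    (hx : ‖x‖ = 1) (η : ℝ) (hη : 0 < η) :
    ∃ F : Set (modelSpace m), (∃ S : Submodule ℝ (modelSpace m), (S : Set (modelSpace m)) = F ∧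
        IsClosed F ∧ FiniteDimensional ℝ (modelSpace m ⧸ S)) ∧
      ∀ y ∈ F, ‖y‖ = 1 →
        (Real.sqrt (1 + t ^ 2 / 4) - 1) - η ≤ (‖x + t • y‖ + ‖x - t • y‖) / 2 - 1 := by
  obtain ⟨Sa, hcl, hfd, hSa⟩ := strong_midpoint m x.1 x.2 η hη
  obtain ⟨S, hScl, hSfd, hS⟩ := cof_comap (modelSpace m).subtypeL Sa hcl hfd
  refine ⟨S, ⟨S, rfl, hScl, hSfd⟩, fun y hy hy1 => ?_⟩
  set r := Real.sqrt (1 + t ^ 2 / 4) with hr
  have hr0 : 0 < r := Real.sqrt_pos.mpr (by positivity)
  have hr2 : r ^ 2 = 1 + t ^ 2 / 4 := Real.sq_sqrt (by positivity)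
  have hty : ((t • y : modelSpace m) : Amb m) ∈ Sa := (hS (t • y)).mp (S.smul_mem t hy)
  have hc1 : (1 / r) ^ 2 + (t / 2 / r) ^ 2 ≤ 1 := by
    have : (1 / r) ^ 2 + (t / 2 / r) ^ 2 = (1 + t ^ 2 / 4) / r ^ 2 := by
      field_simp
      ring
    rw [this, hr2, div_self (by positivity)]
  have hc2 : t / 2 / r ≤ 1 / 2 := by
    rw [div_le_iff₀ hr0]
    have : t ≤ r := by
      apply le_of_sq_le_sq _ hr0.le
      rw [hr2]
      nlinarith
    linarith
  have key := hSa (t • y : modelSpace m).1 (t • y : modelSpace m).2 hty (1 / r) (t / 2 / r)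
    (by positivity) (by positivity) hc1 hc2
  have n1 : ‖(x : Amb m)‖ = 1 := by rw [← Submodule.coe_norm]; exact hx
  have n2 : ‖((t • y : modelSpace m) : Amb m)‖ = t := by
    rw [← Submodule.coe_norm, norm_smul, hy1, mul_one, Real.norm_eq_abs, abs_of_pos ht]
  have n3 : ‖(x : Amb m) + ((t • y : modelSpace m) : Amb m)‖ = ‖x + t • y‖ := by
    rw [Submodule.coe_norm]; rfl
  have n4 : ‖(x : Amb m) - ((t • y : modelSpace m) : Amb m)‖ = ‖x - t • y‖ := by
    rw [Submodule.coe_norm]; rfl
  rw [n1, n2, n3, n4] at key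
  have e : 2 * (1 / r) * 1 + t / 2 / r * t = 2 * r := by
    field_simp
    nlinarith
  linarith

/-- path sums as elements of the model space -/
noncomputable def pathVec (m : PotentialModel) (s : List ℕ) : modelSpace m :=
  ⟨∑ u ∈ s.tails.toFinset, coordVector m u, Submodule.sum_mem _ (fun u _ => coord_mem m u)⟩

lemma pathVec_cons (m : PotentialModel) (n : ℕ) (s : List ℕ) :
    pathVec m s + cv m (n :: s) = pathVec m (n :: s) := by
  apply Subtype.ext
  have h1 : (n :: s).tails.toFinset = insert (n :: s) s.tails.toFinset := by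
    simp [List.tails]
  have h2 : (n :: s) ∉ s.tails.toFinset := by
    intro h
    rw [List.mem_toFinset, List.mem_tails] at h
    have := h.length_le
    simp at this
  change (∑ u ∈ s.tails.toFinset, coordVector m u) + coordVector m (n :: s) =
    ∑ u ∈ (n :: s).tails.toFinset, coordVector m u
  rw [h1, Finset.sum_insert h2, add_comm]

lemma no_auc (m : PotentialModel) (N : modelSpace m → ℝ)
    (hN : (modelBanach m).IsEquivNorm N) : ¬ (modelBanach m).IsAUC N := by
  have : CompleteSpace (modelSpace m) :=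
    (Submodule.isClosed_topologicalClosure _).completeSpace_coe
  refine no_AUC_of_trees (X := modelSpace m) 1 1 one_pos
    (fun _ => {b | ∃ s : List ℕ, s ≠ [] ∧ b = pathVec m s}) ?_ ?_ ?_ N hN
  · intro j
    exact ⟨pathVec m [0], [0], by simp, rfl⟩
  · rintro j x ⟨s, hs, rfl⟩
    constructor
    · rw [Submodule.coe_norm]
      exact norm_pathSum_ge m s hs
    · rw [Submodule.coe_norm]
      exact norm_pathSum_le m s
  · rintro j x ⟨s, hs, rfl⟩
    refine ⟨fun n => cv m (n :: s), fun n => ⟨n :: s, by simp, pathVec_cons m n s⟩,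
      fun n => norm_cv_ge m _ (by simp), weaklyNull_children m s⟩

theorem result
    (m : Crest.AnalysisR.TreePotential.PotentialModel) :
    (Crest.AnalysisR.TreePotential.modelBanach m).IsSeparableInfiniteDim ∧
      (∀ t : ℝ, 0 < t → t < 1 →
        (Crest.AnalysisR.TreePotential.modelBanach m).MidpointModulusGE
          (Crest.AnalysisR.TreePotential.modelBanach m).norm t (Real.sqrt (1 + t ^ 2 / 4) - 1)) ∧
      ∀ N : (Crest.AnalysisR.TreePotential.modelBanach m).X → ℝ,
        (Crest.AnalysisR.TreePotential.modelBanach m).IsEquivNorm N →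
          ¬ (Crest.AnalysisR.TreePotential.modelBanach m).IsAUC N := by
  have hinf : ¬ FiniteDimensional ℝ (modelSpace m) :=
    not_finiteDimensional_of_weaklyNull (fun n => cv m (n :: [])) 1 one_pos
      (weaklyNull_children m []) (fun n => norm_cv_ge m _ (by simp))
  refine ⟨⟨separable m, hinf⟩, ?_, ?_⟩
  · intro t ht ht1 x hx η hη
    exact midpoint m t ht ht1.le x hx η hη
  · intro N hN
    exact no_auc m N hN

end Crest.Agent.S0168
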