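import Crest.Statements.S0169
import Crest.Agent.Lib_helper9_AUC
import Crest.Agent.Lib_helper13_TreeProd

set_option autoImplicit false
open MeasureTheory ProbabilityTheory
open Crest Crest.AnalysisR

namespace Crest.Agent.S0169

open Crest.AnalysisR.TreeProduct Crest.Agent.Lib_helper13_TreeProd Crest.Agent.Lib_helper9_AUC
  Crest.Agent.Lib_helper9_Defs

/-- Let ν be a Borel probability law on ℝ carried by (0,∞), not a point mass, with mean 1 and finite second moment, and W an independent family of real random variables on a probability space indexed by the vertices of the countably branching tree (finite lists of naturals; root [], parent of a :: v is v), each non-root one with law ν. Then the closed linear span in L¹ of the path products ∏_{root ≺ u ≼ v} W_u is infinite-dimensional and has no equivalent asymptotically uniformly convex norm. -/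
theorem result (ν : Measure ℝ) [IsProbabilityMeasure ν] (hpos : ν (Set.Ioi 0) = 1)
    (hnc : ∀ c : ℝ, ν ≠ Measure.dirac c) (hmean : ∫ x, x ∂ν = 1)
    (hm2 : Integrable (fun x : ℝ => x ^ 2) ν)
    (Ω : Type) [MeasurableSpace Ω] (μ : Measure Ω) [IsProbabilityMeasure μ]
    (W : List ℕ → Ω → ℝ) (hW : Crest.AnalysisR.TreeProduct.IsRealization ν μ W) :
    ¬ FiniteDimensional ℝ (Crest.AnalysisR.TreeProduct.productSpan μ W) ∧
      ∀ N : (Crest.AnalysisR.TreeProduct.spanBanach μ W).X → ℝ,
        (Crest.AnalysisR.TreeProduct.spanBanach μ W).IsEquivNorm N →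
          ¬ (Crest.AnalysisR.TreeProduct.spanBanach μ W).IsAUC N := by
  have hint : ∀ v, Integrable (pathProduct W v) μ := integrable_pathProduct hW hpos hmean
  have hκ : 0 < ∫ x, |x - 1| ∂ν := kappa_pos hnc hmean
  set κ : ℝ := ∫ x, |x - 1| ∂ν with hκdef
  set σ : ℝ := Real.sqrt (∫ x, (x - 1) ^ 2 ∂ν) with hσdef
  let m : List ℕ → productSpan μ W := fun v => ⟨classOf hint v, classOf_mem hint v⟩
  have hnorm : ∀ v, ‖m v‖ = 1 := fun v => norm_classOf hW hpos hmean hint v
  have hdiff : ∀ v n, ‖m (n :: v) - m v‖ = κ := fun v n =>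
    norm_classOf_child_sub hW hpos hmean hint v n
  have hl2 : ∀ v (A : Finset ℕ) (c : ℕ → ℝ),
      ‖∑ n ∈ A, c n • (m (n :: v) - m v)‖ ≤ σ * Real.sqrt (∑ n ∈ A, c n ^ 2) := by
    intro v A c
    have h := norm_classOf_children_le hW hpos hmean hm2 hint v A c
    have e : ((∑ n ∈ A, c n • (m (n :: v) - m v) : productSpan μ W) : Lp ℝ 1 μ)
        = ∑ n ∈ A, c n • (classOf hint (n :: v) - classOf hint v) := by
      simp [m]
    rw [Submodule.coe_norm, e]
    exact h
  have hwn : ∀ v, WeaklyNull (fun n => m (n :: v) - m v) := fun v =>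
    weaklyNull_of_upper_l2 _ σ (hl2 v)
  refine ⟨?_, ?_⟩
  · exact not_finiteDimensional_of_weaklyNull (fun n => m [n] - m []) κ hκ (hwn [])
      (fun n => (hdiff [] n).ge)
  · intro N hN
    have : CompleteSpace (productSpan μ W) :=
      (Submodule.isClosed_topologicalClosure _).completeSpace_coe
    refine no_AUC_of_trees (min κ 1) 1 (lt_min hκ one_pos) (fun _ => Set.range m)
      (fun _ => ⟨m [], ⟨[], rfl⟩⟩) ?_ ?_ N hN
    · rintro j x ⟨v, rfl⟩
      rw [hnorm]
      exact ⟨min_le_right _ _, le_rfl⟩
    · rintro j x ⟨v, rfl⟩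
      refine ⟨fun n => m (n :: v) - m v, fun n => ⟨n :: v, (add_sub_cancel (m v) (m (n :: v))).symm⟩, fun n => ?_, hwn v⟩
      rw [hdiff]
      exact min_le_left _ _

end Crest.Agent.S0169
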