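-- Statement S0316 (row 205): a Hamiltonian diffeomorphism of the quadric threefold with exactly
-- three fixed points, one of them degenerate.
-- Construction (helper23) and formalization (helpers 1, 9, 11, 21, 23, 24, 26): the time-one map
-- is the composite `Phi` of four twists (rotations of coordinate planes by angles depending on
-- the moment functions), see `Lib_S0316_Phi`; the packages are
--   LIFT  (`Lib_S0316_Lift`, `Lib_S0316_Prim`): a Hamiltonian cone lift with time-one map `Phi`;
--   DEG   (`Lib_S0316_Deg`): the fixed point `zStar` is degenerate;
--   OFF   (`Lib_S0316_Off`): no fixed line off the hyperplane section `z 0 = 0`;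
--   DICT  (`Lib_S0316_Dict`): on `z 0 = 0` (`= S² × S²`) `Phi` acts by the rational map `uvMap`;
--   MID + ALG (`Lib_S0316_Mid`, `Lib_S0316_Alg`, `Lib_S0316_Cls`): `uvMap` has exactly three
--     fixed points on `S² × S²`;
--   LINE  (`Lib_S0316_Line`), PTS (`Lib_S0316_Pts`), GLUE (`Lib_S0316_Glue`): the three lines.
import Crest.Statements.S0316
import Crest.Agent.Lib_S0316_Glue
import Crest.Agent.Lib_S0316_Prim
import Crest.Agent.Lib_S0316_Cls
import Crest.Agent.Lib_S0316_Pts

set_option autoImplicit false
open Crest Crest.GeometryTopology

namespace Crest.Agent.S0316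

open Crest.Agent.LibS0316 in
/-- The data of package PTS, in the shape used by the glue. -/
theorem ptsData : Crest.Agent.LibS0316.Glue.PtsData where
  star_mem := zStar_mem
  star_uv := zStar_uv
  pm_mem := fun σ hσ => zPM_mem σ (by rcases hσ with rfl | rfl <;> norm_num)
  pm_uv := fun σ _ => zPM_uv σ
  star_fix := uvMap_star
  pm_fix := fun σ hσ => uvMap_pm σ (by rcases hσ with rfl | rfl <;> norm_num)

/-- There is a Hamiltonian diffeomorphism of the complex quadric threefold (the zero set of z₀² + ⋯ + z₄² in complex projective 4-space, with the restricted Fubini–Study form) having exactly three fixed points, at least one of them degenerate. Hamiltonian isotopies are encoded by smooth lifts to the unit isotropic cone in ℂ⁵ obeying Hamilton's equation; points of the quadric are complex lines through cone points; degenerate means the differential of the time-one map fixes a nonzero tangent vector. -/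
theorem result :
    ∃ L : Crest.GeometryTopology.Quadric.HamiltonianConeLift,
      (Crest.GeometryTopology.Quadric.fixedLines L).ncard = 3 ∧
      Crest.GeometryTopology.Quadric.HasDegenerateFixedPoint L := by
  exact Crest.Agent.LibS0316.Glue.result_of Crest.Agent.LibS0316.exists_lift_Phi
    (fun u1 u2 u3 v1 v2 v3 hu hv h => Crest.Agent.LibS0316.cls' u1 u2 u3 v1 v2 v3 hu hv h)
    ptsData

end Crest.Agent.S0316
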