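import Crest.Statements.S0423
import Crest.Agent.Lib_S0423_Defs
import Crest.Agent.Lib_S0423_A1
import Crest.Agent.Lib_S0423_A2
import Crest.Agent.Lib_S0423_A3
import Crest.Agent.Lib_S0423_B
import Crest.Agent.Lib_S0423_C
import Crest.Agent.Lib_S0423_L

set_option autoImplicit false
open Crest Crest.AlgGeometry

namespace Crest.Agent.S0423

open MeasureTheory Set Crest.Agent.Lib_S0423_Defs

/-- constant identity: `e^{4/3}/(4/3) * (1 - (4/9) e^{-1/3}) = (3/4) e^{4/3} - e/3`. -/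
theorem const_eq :
    Real.exp (4 / 3) / (4 / 3) * (1 - 4 / 9 * Real.exp (-(1 / 3))) =
      3 / 4 * Real.exp (4 / 3) - Real.exp 1 / 3 := by
  have h : Real.exp (4 / 3) * Real.exp (-(1 / 3)) = Real.exp 1 := by
    rw [← Real.exp_add]; norm_num
  have : Real.exp (4 / 3) / (4 / 3) * (1 - 4 / 9 * Real.exp (-(1 / 3)))
      = 3 / 4 * Real.exp (4 / 3) - 1 / 3 * (Real.exp (4 / 3) * Real.exp (-(1 / 3))) := by ring
  rw [this, h]; ring

/-- numeric fact for the case `a = 0`: `(7/3) e^{-4/3} ≤ 1 - (4/9) e^{-1/3}`. -/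
theorem zero_case_num : 7 / 3 * Real.exp (-(4 / 3)) ≤ 1 - 4 / 9 * Real.exp (-(1 / 3)) := by
  -- e^{-1/3} ≤ 18/25 and e^{-4/3} = (e^{-2/3})^2 ≤ (9/17)^2
  have h1 : Real.exp (-(1 / 3)) ≤ 18 / 25 := by
    rw [Real.exp_neg, inv_le_comm₀ (Real.exp_pos _) (by norm_num)]
    have := Real.quadratic_le_exp_of_nonneg (show (0:ℝ) ≤ 1 / 3 by norm_num)
    norm_num at this ⊢
    linarith
  have h3 : Real.exp (-(2 / 3)) ≤ 9 / 17 := by
    rw [Real.exp_neg, inv_le_comm₀ (Real.exp_pos _) (by norm_num)]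
    have := Real.quadratic_le_exp_of_nonneg (show (0:ℝ) ≤ 2 / 3 by norm_num)
    norm_num at this ⊢
    linarith
  have h2 : Real.exp (-(4 / 3)) ≤ (9 / 17) ^ 2 := by
    have : Real.exp (-(4 / 3)) = Real.exp (-(2 / 3)) ^ 2 := by
      rw [← Real.exp_nat_mul]; norm_num
    rw [this]
    exact pow_le_pow_left₀ (Real.exp_pos _).le h3 2
  norm_num at h2
  linarith

theorem upper (N : ℕ) (a : Fin N → ℝ) (ha : ∑ i, a i = 0) :
    ∫ x in orth N, truncExpWeight (4 / 3 + ∑ i, a i * x i) * Real.exp (-∑ i, x i)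
      ≤ 1 - 4 / 9 * Real.exp (-(1 / 3)) := by
  by_cases h0 : a = 0
  · subst h0
    have := @Crest.Agent.Lib_S0423_A3.expect_zero N
    simp only [Pi.zero_apply]
    rw [this]
    exact zero_case_num
  · have hne : ∃ i, a i ≠ 0 := by
      by_contra hcon
      push Not at hcon
      exact h0 (funext hcon)
    have hpos : ∃ i, 0 < a i := by
      by_contra hcon
      push Not at hcon
      obtain ⟨i, hi⟩ := hne
      have hlt : ∑ j, a j < ∑ j : Fin N, (0 : ℝ) :=
        Finset.sum_lt_sum (fun j _ => hcon j) ⟨i, Finset.mem_univ i, lt_of_le_of_ne (hcon i) hi⟩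
      simp at hlt
      linarith
    have hneg : ∃ i, a i < 0 := by
      by_contra hcon
      push Not at hcon
      obtain ⟨i, hi⟩ := hne
      have hlt : ∑ j : Fin N, (0 : ℝ) < ∑ j, a j :=
        Finset.sum_lt_sum (fun j _ => hcon j) ⟨i, Finset.mem_univ i, lt_of_le_of_ne (hcon i) (Ne.symm hi)⟩
      simp at hlt
      linarith
    obtain ⟨hc, h01, hanti, hconv⟩ := Crest.Agent.Lib_S0423_B.surv_props a hpos hneg
    obtain ⟨hi1, hi2, hmean⟩ := Crest.Agent.Lib_S0423_A2.surv_mean a ha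
    have hPhi := Crest.Agent.Lib_S0423_C.Phi_ge (surv a) hc h01 hanti hconv hi1 hi2 hmean
    have hle := Crest.Agent.Lib_S0423_A1.expect_le a
    linarith

/-- For independent mean-one exponential random variables `X_1, …, X_N` (written as an integral over the positive orthant against the density `exp (-(x_1 + ⋯ + x_N))`), real coefficients `a_1, …, a_N` summing to zero, and the weight `g = truncExpWeight`, the quantity `(e^{4/3} / (4/3)) · E[g(4/3 + a_1 X_1 + ⋯ + a_N X_N)]` has supremum over all `N ≥ 1` and all such `a` exactly `(3/4) e^{4/3} − e/3`: it never exceeds this value, and comes within any `ε > 0` of it for some `N` and `a`. -/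
theorem result :
    (∀ (N : ℕ) (a : Fin N → ℝ), 1 ≤ N → ∑ i, a i = 0 →
      Real.exp (4 / 3) / (4 / 3) *
          ∫ x in Set.pi Set.univ (fun _ : Fin N => Set.Ioi (0 : ℝ)),
            Crest.AlgGeometry.truncExpWeight (4 / 3 + ∑ i, a i * x i) * Real.exp (-∑ i, x i)
        ≤ 3 / 4 * Real.exp (4 / 3) - Real.exp 1 / 3) ∧
    (∀ ε : ℝ, 0 < ε → ∃ (N : ℕ) (a : Fin N → ℝ), 1 ≤ N ∧ ∑ i, a i = 0 ∧
      3 / 4 * Real.exp (4 / 3) - Real.exp 1 / 3 - ε <
        Real.exp (4 / 3) / (4 / 3) *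
          ∫ x in Set.pi Set.univ (fun _ : Fin N => Set.Ioi (0 : ℝ)),
            Crest.AlgGeometry.truncExpWeight (4 / 3 + ∑ i, a i * x i) * Real.exp (-∑ i, x i)) := by
  have hK : 0 < Real.exp (4 / 3) / (4 / 3) := by positivity
  constructor
  · intro N a _ ha
    have h := upper N a ha
    rw [← const_eq]
    exact mul_le_mul_of_nonneg_left h hK.le
  · intro ε hε
    obtain ⟨N, a, hN, ha, hlt⟩ := Crest.Agent.Lib_S0423_L.lower (ε / (Real.exp (4 / 3) / (4 / 3))) (div_pos hε hK)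
    refine ⟨N, a, hN, ha, ?_⟩
    rw [← const_eq]
    have := mul_lt_mul_of_pos_left hlt hK
    have h2 : Real.exp (4 / 3) / (4 / 3) * (1 - 4 / 9 * Real.exp (-(1 / 3)) - ε / (Real.exp (4 / 3) / (4 / 3)))
        = Real.exp (4 / 3) / (4 / 3) * (1 - 4 / 9 * Real.exp (-(1 / 3))) - ε := by
      field_simp
    rw [h2] at this
    exact this

end Crest.Agent.S0423
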